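import Crest.Agent.R116.Tm3_741
import Crest.Agent.R116.Tq4_126
import Crest.Agent.R116.Pd1_363

/-!
# R116 (K side, ties): the `e`-plane below the record, plug of the plane data (helper741)

* `par_cE`, `ple8`, `ple9` : `PlE k (cE k) ..` for 126's class function
* `t8_of`, `v8_of`, `t9_of`, `v9_of` : record identity and D-max of `Pd8` / `Pd9` at natural vectors
* **`eLow8`**, **`eLow9`** : `Pd8 .. (eD k) (-1)`, `Pd9 .. (eD9 k) (-1)` + facts ⊢ all fields of `T⁻`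
-/

set_option autoImplicit false
set_option linter.unusedVariables false
set_option linter.unusedSectionVars false

open Set Filter Topology

namespace Crest.Agent.R116.Te741

open Crest.Agent.R136
open Crest.Agent.R136.Net191
open Crest.Agent.R116.ChL222
open Crest.Agent.R116.PL504 (eL βL rL)
open Crest.Agent.R116.Sg337 (coneL DL)
open Crest.Agent.R116.RbM219
open Crest.Agent.R116.RbK219 (SOk RS Par dl)
open Crest.Agent.R116.Kz647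
open Crest.Agent.R116.Rcx363
open Crest.Agent.R116.Pd363
open Crest.Agent.R116.Tq741
open Crest.Agent.R116.Tq126
open Crest.Agent.R116.Tp139
open Crest.Agent.R116.Tie460 (Pl EF')
open Crest.Agent.R116.Pu171 (FctP)
open Sl741 (slice xt rs)
open Dg219 (mw)

variable {k θ : ℝ}

theorem par_cE (k : ℝ) (t t' : Fin 9) : cE k t = cE k t' ↔ PE k t t' := by
  unfold PE
  by_cases h1 : k = 1
  · have n1 : ¬ k = 1 / 2 := by rw [h1]; norm_num
    revert t t'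
    refine all9 ?_ ?_ ?_ ?_ ?_ ?_ ?_ ?_ ?_ <;> refine all9 ?_ ?_ ?_ ?_ ?_ ?_ ?_ ?_ ?_ <;>
      simp [cE0, cE1, cE2, cE3, cE4, cE5, cE6, cE7, cE8, h1]
  by_cases h2 : k = 1 / 2
  · revert t t'
    refine all9 ?_ ?_ ?_ ?_ ?_ ?_ ?_ ?_ ?_ <;> refine all9 ?_ ?_ ?_ ?_ ?_ ?_ ?_ ?_ ?_ <;>
      simp [cE0, cE1, cE2, cE3, cE4, cE5, cE6, cE7, cE8, h2]
  · have h2' : ¬ k = 2⁻¹ := by rwa [one_div] at h2
    revert t t'
    refine all9 ?_ ?_ ?_ ?_ ?_ ?_ ?_ ?_ ?_ <;> refine all9 ?_ ?_ ?_ ?_ ?_ ?_ ?_ ?_ ?_ <;>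
      simp [cE0, cE1, cE2, cE3, cE4, cE5, cE6, cE7, cE8, h1, h2, h2']

theorem dl_ne {τ : Type*} {A B : τ → ℝ} {sg : ℝ} {t : τ} (h : B t ≠ 0) : dl A B sg t = sg * B t :=
  if_neg h

theorem ple8 (hθ : 0 < θ) (hk : 0 < k) :
    PlE k (cE k) (sn8 (dl (nat8 1 (-θ) (-(θ - k))) (eD k) (-1)) 1) where
  par := par_cE k
  d6 := by
    show dl _ _ _ 6 = k * dl _ _ _ 0
    rw [dl_ne (by show -2 * k - -k ≠ 0; intro h; linarith), dl_ne (by show (-1:ℝ) ≠ 0; norm_num)]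
    show -1 * (-2 * k - -k) = k * (-1 * (-1))
    ring
  d3 := fun h => by
    show dl _ _ _ 3 = dl _ _ _ 2
    rw [dl_ne (by show (-1:ℝ) + -k ≠ 0; intro h; linarith),
      dl_ne (by show -2 * k ≠ 0; intro h; linarith)]
    show -1 * (-1 + -k) = -1 * (-2 * k)
    rw [h]; ring
  d5 := fun h => by
    show dl _ _ _ 5 = 2 * dl _ _ _ 2
    rw [dl_ne (by show (-1:ℝ) + 2 * -k ≠ 0; intro h; linarith),
      dl_ne (by show -2 * k ≠ 0; intro h; linarith)]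
    show -1 * (-1 + 2 * -k) = 2 * (-1 * (-2 * k))
    rw [h]; ring

theorem ple9 (hθ : 0 < θ) (hk : 1 < k) :
    PlE k (cE k) (dl (nat9 1 (-θ) (-(θ - k))) (eD9 k) (-1)) where
  par := par_cE k
  d6 := by
    rw [dl_ne (by show -(2 * k - 1) - -(k - 1) ≠ 0; intro h; linarith),
      dl_ne (by show (-1:ℝ) ≠ 0; norm_num)]
    show -1 * (-(2 * k - 1) - -(k - 1)) = k * (-1 * (-1))
    ring
  d3 := fun h => absurd h (by linarith)
  d5 := fun h => absurd h (by linarith)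

section eight

variable {R s : ℝ} {a b : Fin 2} {Vis Vis' : Fin 12 → Prop} {θa θb g qa qb w0 sa sb v0 t κ : ℝ}
    {T : Type*} {Bs : T → Fin 8 → ℝ} {sgs : T → ℝ} {f : Fin 2 → (Fin 12 → ℝ) → ℝ}
    {x X : ℕ → Fin 12 → ℝ} {hh h' H : ℕ → ℝ} {lam lam2 : Fin 2 → (Fin 12 → ℝ) → ℝ}
    {B : Fin 8 → ℝ} {sg l α : ℝ} {ρ ρ2 : Fin 8 → ℝ} {x0 : Fin 12 → ℝ}

theorem cast_nat9 (v c p : ℝ) : (fun i : Fin 8 => nat9 v c p i.castSucc) = nat8 v c p := by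
  funext i
  revert i
  refine all8 ?_ ?_ ?_ ?_ ?_ ?_ ?_ ?_ <;> rfl

/-- record identity of the plane data -/
theorem t8_of (P : Pd8 R s a b Vis' θa θb w0 sa sb v0 t κ B sg f lam ρ l α h' X H lam2 ρ2)
    (O : Out8 R s a b Vis θa θb g qa qb t Bs sgs x0 f x hh lam) :
    (fun w : V9 => lam2 0 (xt kp 0 (RL8.vec (fun i : Fin 8 => w i.castSucc))))
      (nat9 1 (-θa) (-θb)) = DL g s qa qb 1 (-θa) (-θb) := by
  show lam2 0 (xt kp 0 (RL8.vec (fun i : Fin 8 => nat9 1 (-θa) (-θb) i.castSucc))) = _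
  rw [cast_nat9]
  have h1 := P.half.rcd 1
  simp only [one_smul] at h1
  rw [h1, xt_zero8, O.zero 0, sub_zero, RL8_nat]
  have h2 := O.rx.rcd 1
  unfold ntD at h2
  rw [mul_one, mul_one] at h2
  exact h2

/-- D-max of the plane data at its offset -/
theorem v8_of {v c p : ℝ}
    (P : Pd8 R s a b Vis' θa θb w0 sa sb v0 t (DL g s qa qb v c p) (nat8 v c p) sg f lam ρ l α h' X
      H lam2 ρ2) :
    (fun w : V9 => lam2 0 (xt kp 0 (RL8.vec (fun i : Fin 8 => w i.castSucc)))) (nat9 v c p) ≤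
      DL g s qa qb v c p := by
  show lam2 0 (xt kp 0 (RL8.vec (fun i : Fin 8 => nat9 v c p i.castSucc))) ≤ _
  rw [cast_nat9]
  exact P.half.row

/-- **`T⁻` of an `e`-plane, `D` frozen** -/
theorem eLow8 (hθ : 0 < θ) (hk : 0 < k) (hs0 : 0 ≤ s) (ht : 0 < t)
    (P : Pd8 R s a b Vis' θ (θ - k) w0 sa sb v0 t (DL g s qa qb (-1) (-k) (-2 * k)) (eD k) (-1) f
      lam ρ l α h' X H lam2 ρ2)
    (O : Out8 R s a b Vis θ (θ - k) g qa qb t Bs sgs x0 f x hh lam)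
    (hVis : ∀ i, Vis' i → i = 0 ∨ i = 1 ∨ i = 2 ∨ i = 7 ∨ i = 8) :
    ∃ φ, Cl9 (cE k) (sn8 (dl (nat8 1 (-θ) (-(θ - k))) (eD k) (-1)) 1) s
        (fun w => lam2 0 (xt kp 0 (RL8.vec (fun i => w i.castSucc)))) φ (sn8 ρ2 0) ∧
      (plE s (cE k) φ (sn8 ρ2 0)).Pos ∧
      (plE s (cE k) φ (sn8 ρ2 0)).Tan g θ (θ - k) qa qb ∧
      0 ≤ (plE s (cE k) φ (sn8 ρ2 0)).Fa qa + (plE s (cE k) φ (sn8 ρ2 0)).Fb qb ∧
      (plE s (cE k) φ (sn8 ρ2 0)).d = 0 ∧ (plE s (cE k) φ (sn8 ρ2 0)).m = ρ2 1 ∧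
      (Fct9 (fun w => w 6 < k * w 0) s
          (fun w => lam2 0 (xt kp 0 (RL8.vec (fun i => w i.castSucc)))) →
        (plE s (cE k) φ (sn8 ρ2 0)).FanA s ∧ (plE s (cE k) φ (sn8 ρ2 0)).FanB s ∧
        (FctE k (fun w => lam2 0 (xt kp 0 (RL8.vec (fun i => w i.castSucc)))) →
          (k = 1 → 0 < sn8 ρ2 0 1 → (∀ y : ℝ, 0 ≤ y →
            (1 - s) * y ≤ φ (cE k 3) 0 - φ (cE k 3) (y • e9 3)) → 1 - s ≤ sn8 ρ2 0 4) →
          EF' s k (plE s (cE k) φ (sn8 ρ2 0)))) ∧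
      (FctP (fun w => w 6 < k * w 0)
          (fun w => lam2 0 (xt kp 0 (RL8.vec (fun i => w i.castSucc)))) →
        (plE s (cE k) φ (sn8 ρ2 0)).m + (plE s (cE k) φ (sn8 ρ2 0)).x ≤ 1 ∧
        (plE s (cE k) φ (sn8 ρ2 0)).r + (plE s (cE k) φ (sn8 ρ2 0)).n ≤ 1) := by
  have hS := sok_eD (θ := θ) (k := k) hθ hk rfl
  obtain ⟨φ, HC⟩ := P.cls ht hS hVis (c := cE k) (hc_eD hθ hk rfl) h8_cE
    (fun i hi => by
      rcases hz_eD hθ hk rfl i hi with h | h | h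
      · exact Or.inl h
      · exact Or.inr (Or.inl h)
      · exact Or.inr (Or.inr h))
  have PP := ple8 hθ hk
  have hT := t8_of P O
  have hV : (fun w : V9 => lam2 0 (xt kp 0 (RL8.vec (fun i : Fin 8 => w i.castSucc))))
      (nat9 (-1) (-k) (-k + k * (-1))) ≤ DL g s qa qb (-1) (-k) (-k + k * (-1)) := by
    have e : -k + k * (-1) = -2 * k := by ring
    rw [e]
    exact v8_of P
  refine ⟨φ, HC, PP.pos HC, PP.tan HC hT, ?_, rfl, rfl, fun F => ⟨PP.fanA HC hk F hs0,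
    PP.fanB HC hk F hs0, fun FE K3 => PP.ef HC hk F hs0 FE K3⟩, fun F => PP.half HC hk F⟩
  have h1 := PP.ver HC hT hV
  have h2 : 0 < -(-k + θ * (-1)) := by linarith
  by_contra hcon
  push Not at hcon
  nlinarith

end eight

section nine

variable {R s : ℝ} {a b : Fin 2} {Vis Vis' : Fin 12 → Prop} {θa θb g qa qb w0 sa sb v0 κ : ℝ}
    {T : Type*} {Bs : T → Fin 9 → ℝ} {sgs : T → ℝ} {f : Fin 2 → (Fin 12 → ℝ) → ℝ}
    {x X : ℕ → Fin 12 → ℝ} {hh h' H : ℕ → ℝ} {lam lam2 : Fin 2 → (Fin 12 → ℝ) → ℝ}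
    {B : Fin 9 → ℝ} {sg l α : ℝ} {ρ ρ2 : Fin 9 → ℝ} {x0 : Fin 12 → ℝ}

/-- record identity of the plane data -/
theorem t9_of (P : Pd9 R s a b Vis' θa θb w0 sa sb v0 κ B sg f lam ρ l α h' X H lam2 ρ2)
    (O : Out9 R s a b Vis θa θb g qa qb Bs sgs x0 f x hh lam) :
    (fun w : V9 => lam2 0 (RL9.vec w)) (nat9 1 (-θa) (-θb)) = DL g s qa qb 1 (-θa) (-θb) := by
  show lam2 0 (RL9.vec (nat9 1 (-θa) (-θb))) = _
  have h1 := P.half.rcd 1
  simp only [one_smul] at h1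
  rw [h1, O.zero 0, sub_zero, RL9_nat]
  have h2 := O.rx.rcd 1
  rw [mul_one, mul_one] at h2
  exact h2

/-- D-max of the plane data at its offset -/
theorem v9_of {v c p : ℝ}
    (P : Pd9 R s a b Vis' θa θb w0 sa sb v0 (DL g s qa qb v c p) (nat9 v c p) sg f lam ρ l α h' X
      H lam2 ρ2) :
    (fun w : V9 => lam2 0 (RL9.vec w)) (nat9 v c p) ≤ DL g s qa qb v c p := P.half.row

/-- **`T⁻` of an `e`-plane, `D` live** -/
theorem eLow9 (hθ : 0 < θ) (hk : 1 < k) (hs0 : 0 ≤ s)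
    (P : Pd9 R s a b Vis' θ (θ - k) w0 sa sb v0
      (DL g s qa qb (-1) (-(k - 1)) (-(2 * k - 1))) (eD9 k) (-1) f
      lam ρ l α h' X H lam2 ρ2)
    (O : Out9 R s a b Vis θ (θ - k) g qa qb Bs sgs x0 f x hh lam)
    (hVis : ∀ i, Vis' i → i = 0 ∨ i = 1 ∨ i = 2 ∨ i = 7 ∨ i = 8) :
    ∃ φ, Cl9 (cE k) (dl (nat9 1 (-θ) (-(θ - k))) (eD9 k) (-1)) s
        (fun w => lam2 0 (RL9.vec w)) φ ρ2 ∧
      (plE s (cE k) φ ρ2).Pos ∧
      (plE s (cE k) φ ρ2).Tan g θ (θ - k) qa qb ∧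
      0 ≤ (plE s (cE k) φ ρ2).Fa qa + (plE s (cE k) φ ρ2).Fb qb ∧
      (plE s (cE k) φ ρ2).m = ρ2 1 ∧
      (Fct9 (fun w => w 6 < k * w 0) s (fun w => lam2 0 (RL9.vec w)) →
        (plE s (cE k) φ ρ2).FanA s ∧ (plE s (cE k) φ ρ2).FanB s ∧
        (FctE k (fun w => lam2 0 (RL9.vec w)) → EF' s k (plE s (cE k) φ ρ2))) ∧
      (FctP (fun w => w 6 < k * w 0) (fun w => lam2 0 (RL9.vec w)) →
        (plE s (cE k) φ ρ2).m + (plE s (cE k) φ ρ2).x ≤ 1 ∧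
        (plE s (cE k) φ ρ2).r + (plE s (cE k) φ ρ2).n ≤ 1) := by
  have hS := sok_eD9 (θ := θ) (k := k) hθ hk rfl
  obtain ⟨φ, HC⟩ := P.cls hS hVis (c := cE k) (hc_eD9 hθ hk rfl) (hz_eD9 hθ hk rfl)
    (hG_eD9 hθ hk rfl)
  have hk0 : 0 < k := by linarith
  have PP := ple9 hθ hk
  have hT := t9_of P O
  have hV : (fun w : V9 => lam2 0 (RL9.vec w))
      (nat9 (-1) (-(k - 1)) (-(k - 1) + k * (-1))) ≤
        DL g s qa qb (-1) (-(k - 1)) (-(k - 1) + k * (-1)) := by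
    have e : -(k - 1) + k * (-1) = -(2 * k - 1) := by ring
    rw [e]
    exact v9_of P
  refine ⟨φ, HC, PP.pos HC, PP.tan HC hT, ?_, rfl, fun F => ⟨PP.fanA HC hk0 F hs0,
    PP.fanB HC hk0 F hs0, fun FE => PP.ef HC hk0 F hs0 FE fun h => absurd h (by linarith)⟩,
    fun F => PP.half HC hk0 F⟩
  have h1 := PP.ver HC hT hV
  have h2 : 0 < -(-(k - 1) + θ * (-1)) := by linarith
  by_contra hcon
  push Not at hcon
  nlinarith

end nine

end Crest.Agent.R116.Te741
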