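import Crest.Agent.R116.Tm2_741
import Crest.Agent.R116.Pu3_171
import Crest.Agent.R116.Tp4_139

/-!
# R116, ties, `1/2 ≤ s`: the half plane above the record, `e`-plane, `D` live (helper171)

Class level, class of `z` = `{0, 6, 7}`, slots `1, 3, 4` alone, every resonance of `C_b`, `H`, `D`.
* `pos_dir`   : a generic position near a slanted path
* `pos_th`    : one position with P1, P2, W3 and the joint increment of `C_b`, `H`, `D`
* `eHalfD`    : the numbers;   **`eUp_false`** : `False` for `1/2 ≤ s`, `θ ≤ (1+k)/2`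
-/

set_option autoImplicit false
set_option linter.unusedSectionVars false
set_option linter.unusedVariables false

open Set Filter Topology Metric MeasureTheory
open scoped NNReal

namespace Crest.Agent.R116.Th171

open Crest.Agent.R136
open Crest.Agent.R138
open Crest.Agent.R116.Tq741
open Crest.Agent.R116.Pu171 (FctP)
open Crest.Agent.R116.Tp139 (TVe)
open Crest.Agent.R116.SgO219 (dir_of_fderiv)
open Crest.Agent.R116.Sg388 (exists_rate_on)

variable {c : Fin 9 → Fin 9} {dl : V9} {s : ℝ} {Λ : V9 → ℝ} {φ : Fin 9 → V9 → ℝ} {ρ : V9}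

theorem lip_sum (H : Cl9 c dl s Λ φ ρ) : ∃ K : ℝ≥0, LipschitzOnWith K Λ {w | LegM 0 w} := by
  obtain ⟨K, hK⟩ := H.lip
  refine ⟨9 * K, LipschitzOnWith.of_dist_le_mul fun w hw w' hw' => ?_⟩
  rw [Real.dist_eq, H.sum w hw, H.sum w' hw', ← Finset.sum_sub_distrib]
  calc |∑ k, (φ k w - φ k w')| ≤ ∑ k, |φ k w - φ k w'| := Finset.abs_sum_le_sum_abs _ _
    _ ≤ ∑ _k : Fin 9, (K : ℝ) * dist w w' := Finset.sum_le_sum fun k _ => by
        have := (hK k).dist_le_mul w hw w' hw'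
        rwa [Real.dist_eq] at this
    _ = ((9 * K : ℝ≥0) : ℝ) * dist w w' := by
        rw [Finset.sum_const, Finset.card_univ, Fintype.card_fin, nsmul_eq_mul]
        push_cast
        ring

theorem leg_ball {m η : ℝ} {w w' : V9} (h : LegM m w) (hw : ‖w' - w‖ ≤ η) :
    LegM (m - 3 * η) w' := by
  have hb : ∀ i, w i - η ≤ w' i ∧ w' i ≤ w i + η := fun i => by
    have h1 := norm_le_pi_norm (w' - w) i
    rw [Real.norm_eq_abs, Pi.sub_apply] at h1
    have h2 := abs_le.1 (h1.trans hw)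
    constructor <;> linarith [h2.1, h2.2]
  obtain ⟨a, b, c, d, e, f, g, i, j, k⟩ := h
  have b0 := hb 0
  have b1 := hb 1
  have b2 := hb 2
  have b3 := hb 3
  have b4 := hb 4
  have b5 := hb 5
  have b6 := hb 6
  have b7 := hb 7
  have b8 := hb 8
  constructor <;> linarith [b0.1, b0.2, b1.1, b1.2, b2.1, b2.2, b3.1, b3.2, b4.1, b4.2, b5.1, b5.2,
    b6.1, b6.2, b7.1, b7.2, b8.1, b8.2]

/-- **a generic position near a slanted path** -/
theorem pos_dir (H : Cl9 c dl s Λ φ ρ) {u w0 : V9} {q η : ℝ} (hη : 0 < η)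
    (h0 : LegM (6 * η) w0) (h1 : LegM (6 * η) (w0 + u)) (hq : q < Λ w0 - Λ (w0 + u)) :
    ∃ x ∈ Ioo (0:ℝ) 1, ∃ w, ‖w - (w0 + x • u)‖ < η ∧ LegM (3 * η) w ∧ ∃ R : V9,
      (∀ k, RtAt (φ k) w (fun t => if c t = k then R t else 0)) ∧ q < ∑ t, R t * u t := by
  obtain ⟨K, hK⟩ := lip_sum H
  have hΦ : LipschitzOnWith K (fun w => -Λ w) {w | LegM 0 w} := by
    intro a ha b hb
    have := hK ha hb
    simpa [edist_neg_neg] using this
  set I : ℝ := Λ w0 - Λ (w0 + u) with hI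
  have h1' : LegM (6 * η) (w0 + (1:ℝ) • u) := by rwa [one_smul]
  obtain ⟨w, hwN, hwD, ⟨x, hx, hwx⟩, hd, hle⟩ := exists_rate_on (μ := volume) hΦ (p := w0)
    (v := u) (y := 1) (a := I) (δ := (I - q) / 2) one_pos hη (fun x hx w hw => by
      have h2 := h0.seg h1' hx.1 hx.2
      rw [Metric.mem_ball, dist_eq_norm] at hw
      exact h2.ball (by linarith) hw.le) (by
      rw [one_smul, mul_one, hI]; linarith) (by linarith) H.nG
  have hL : LegM (3 * η) w := by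
    have h2 := leg_ball (h0.seg h1' hx.1.le hx.2.le) hwx.le
    exact h2.mono (by linarith)
  have hg : Gen φ w := hwN ⟨3 * η, by positivity, hL⟩
  choose Rk hRk using hg
  have hRts := Rts.of H (Zc := fun _ => False) (w := w) (Rk := Rk) fun k _ => hRk k
  set R : V9 := fun t => Rk (c t) t with hR
  have hRt : ∀ k, RtAt (φ k) w (fun t => if c t = k then R t else 0) := fun k => hRts k not_false
  refine ⟨x, hx, w, hwx, hL, R, hRt, ?_⟩
  have hd' : DifferentiableAt ℝ Λ w := by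
    have := hd.neg
    simpa using this
  have l1 := dir_of_fderiv hd' u
  have l2 : Tendsto (fun x : ℝ => (Λ (w + x • u) - Λ w) / x) (𝓝[>] 0)
      (𝓝 (∑ k, -∑ t, (if c t = k then R t else 0) * u t)) := by
    have l3 : Tendsto (fun x : ℝ => ∑ k, (φ k (w + x • u) - φ k w) / x) (𝓝[>] 0)
        (𝓝 (∑ k, -∑ t, (if c t = k then R t else 0) * u t)) :=
      tendsto_finsetSum _ fun k _ => hRt k u
    refine l3.congr' ?_
    have hx0 : ∀ᶠ x : ℝ in 𝓝[>] 0, x * ‖u‖ < η := by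
      have : Tendsto (fun x : ℝ => x * ‖u‖) (𝓝[>] 0) (𝓝 (0 * ‖u‖)) :=
        (tendsto_id.mul_const _).mono_left nhdsWithin_le_nhds
      rw [zero_mul] at this
      exact this.eventually (gt_mem_nhds hη)
    filter_upwards [hx0, self_mem_nhdsWithin] with x hxu hx0
    have hx0' : (0:ℝ) < x := hx0
    have hl : LegM 0 (w + x • u) := hL.ball le_rfl (by
      rw [add_sub_cancel_left, norm_smul, Real.norm_eq_abs, abs_of_pos hx0']
      exact hxu.le)
    rw [H.sum _ hl, H.sum w hwD, ← Finset.sum_sub_distrib, Finset.sum_div]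
  have e1 := tendsto_nhds_unique l1 l2
  have e2 : fderiv ℝ (fun w => -Λ w) w = -fderiv ℝ Λ w := fderiv_neg
  rw [e2] at hle
  simp only [_root_.neg_apply] at hle
  rw [e1] at hle
  have e3 : (∑ k, -∑ t, (if c t = k then R t else 0) * u t) = -∑ t, R t * u t := by
    rw [Finset.sum_neg_distrib, Finset.sum_comm]
    congr 1
    refine Finset.sum_congr rfl fun t _ => ?_
    rw [Finset.sum_eq_single (c t) (fun k _ hk => by rw [if_neg (Ne.symm hk), zero_mul])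
      (fun h => absurd (Finset.mem_univ _) h), if_pos rfl]
  rw [e3] at hle
  linarith

/-- bounds of a rate -/
theorem rt_bd (H : Cl9 c dl s Λ φ ρ) {w R : V9} {m : ℝ} (hm : 0 < m) (hw : LegM m w) {t : Fin 9}
    (hR : RtAt (φ (c t)) w R) : 0 ≤ R t ∧ R t ≤ cst t := by
  have h1 := hR (e9 t)
  have e : ∑ i, R i * e9 t i = R t := by
    rw [Finset.sum_eq_single t (fun i _ hi => by rw [e9_ne hi, mul_zero])
      (fun h => absurd (Finset.mem_univ _) h), e9_same, mul_one]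
  rw [e] at h1
  have ev : ∀ᶠ x : ℝ in 𝓝[>] 0, (φ (c t) (w + x • e9 t) - φ (c t) w) / x ≤ 0 ∧
      -cst t ≤ (φ (c t) (w + x • e9 t) - φ (c t) w) / x := by
    have hx1 : ∀ᶠ x : ℝ in 𝓝[>] 0, x < m / 3 :=
      mem_nhdsWithin_of_mem_nhds (gt_mem_nhds (by positivity))
    filter_upwards [hx1, self_mem_nhdsWithin] with x hx1 hx0
    have hx0' : (0:ℝ) < x := hx0
    have hl : LegM 0 (w + x • e9 t) := hw.ball (η := m / 3) (by linarith) (by
      rw [add_sub_cancel_left]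
      exact (norm_e9_smul t hx0'.le).trans hx1.le)
    have a1 := H.incr_nonneg (hw.mono hm.le) hl (c t)
      (fun i hi => add_e9_ne fun h => hi (by rw [h])) (le_add_e9 hx0'.le)
    have a2 := H.incr_cost (t := t) hx0'.le (hw.mono hm.le) hl
    constructor
    · exact div_nonpos_of_nonpos_of_nonneg (by linarith) hx0'.le
    · rw [le_div_iff₀ hx0']
      linarith
  have b1 := le_of_tendsto h1 (ev.mono fun _ h => h.1)
  have b2 := ge_of_tendsto h1 (ev.mono fun _ h => h.2)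
  constructor <;> linarith

/-- a linear point for a larger set of left-out slots -/
theorem linS_mono {Z Z' : Finset (Fin 9)} (hZ : Z ⊆ Z') {w R : V9} (h : LinS Z Λ w R) :
    LinS Z' Λ w R := by
  obtain ⟨h', Ψ, hp, h0, hΨ, hl⟩ := h
  refine ⟨h', fun d => Ψ d + ∑ t ∈ Z' \ Z, R t * d t, hp, h0, fun d d' hd hL hL' => ?_,
    fun d hd => ?_⟩
  · show Ψ d + ∑ t ∈ Z' \ Z, R t * d t = Ψ d' + ∑ t ∈ Z' \ Z, R t * d' t
    rw [hΨ d d' (fun t ht => hd t (hZ ht)) hL hL',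
      Finset.sum_congr rfl fun t ht => by rw [hd t (Finset.mem_sdiff.1 ht).1]]
  · have e : ∑ t ∈ Zᶜ, R t * d t = ∑ t ∈ Z' \ Z, R t * d t + ∑ t ∈ Z'ᶜ, R t * d t := by
      rw [← Finset.sum_sdiff (Finset.compl_subset_compl.2 hZ)]
      congr 1
      refine Finset.sum_congr ?_ fun _ _ => rfl
      ext t
      simp only [Finset.mem_sdiff, Finset.mem_compl, not_not]
      tauto
    have := hl d hd
    rw [e, ← add_assoc] at this
    exact this

/-- the direction of `C_b`, `H`, `D` -/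
def uD (e : ℝ) : V9 := ![0, 0, 1, 0, 0, 2, 0, 0, e]

theorem sum_uD (e : ℝ) (R : V9) : ∑ t, R t * uD e t = R 2 + 2 * R 5 + e * R 8 := by
  simp only [Fin.sum_univ_succ, Fin.sum_univ_zero]
  show R 0 * 0 + (R 1 * 0 + (R 2 * 1 + (R 3 * 0 + (R 4 * 0 + (R 5 * 2 + (R 6 * 0 + (R 7 * 0 +
    (R 8 * e + 0)))))))) = _
  ring

/-- **one position with P1, P2, W3 and the joint increment** -/
theorem pos_th (H : Cl9 c dl s Λ φ ρ) (al1 : Al c 1) (al3 : Al c 3) (al4 : Al c 4)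
    (hz : ∀ t, c t = c 0 ↔ t = 0 ∨ t = 6 ∨ t = 7) {k k' e J : ℝ} (hk : 0 < k) (hk' : 0 < k')
    (he : 0 < e)
    (hW3 : ∀ w R, One 5 w → w 0 = 0 → w 6 = 0 → w 7 < 0 → LinS {0, 6, 7, 8} Λ w R → R 1 ≤ R 2)
    {Sk : V9 → Prop} (hSk : ∀ w, LegM 0 w → w 6 < k * w 0 → w 7 < k' * w 0 → Sk w)
    (F : FctP Sk Λ)
    (hJ : ∀ v, LegM 0 v → v 2 = 0 → v 5 = 0 → v 8 = 0 → LegM 0 (v + uD e) →
      J ≤ Λ v - Λ (v + uD e)) {δ : ℝ} (hδ : 0 < δ) :
    ∃ R : V9, ρ 1 ≤ ρ 3 ∧ ρ 1 ≤ R 2 ∧ R 2 ≤ ρ 4 ∧ 0 ≤ R 8 ∧ R 8 ≤ 1 ∧ R 5 ≤ 1 ∧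
      J - δ < R 2 + 2 * R 5 + e * R 8 ∧ (Al c 2 → R 2 = ρ 2) ∧ (Al c 8 → R 8 = ρ 8) := by
  obtain ⟨a, ha, ha1, haδ⟩ : ∃ a : ℝ, 0 < a ∧ a ≤ 1 ∧ 4 * a < δ := by
    refine ⟨min (δ / 8) 1, lt_min (by positivity) one_pos, min_le_right _ _, ?_⟩
    have := min_le_left (δ / 8) 1
    linarith
  obtain ⟨η, hη, hη1, hη2, hη3⟩ : ∃ η : ℝ, 0 < η ∧ η ≤ a / 100 ∧ k * η ≤ a / 100 ∧
      k' * η ≤ a / 100 := by
    refine ⟨a / (100 * (1 + k + k')), by positivity, ?_, ?_, ?_⟩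
    · exact div_le_div_of_nonneg_left ha.le (by norm_num) (by nlinarith)
    · rw [mul_div_assoc', div_le_div_iff₀ (by positivity) (by norm_num)]
      nlinarith
    · rw [mul_div_assoc', div_le_div_iff₀ (by positivity) (by norm_num)]
      nlinarith
  set w0 : V9 := ![0, 50, a, 40, -200, 3 / 2 * a, -a / 8, -a / 8, a] with hw0
  set v : V9 := ![0, 50, 0, 40, -200, 0, -a / 8, -a / 8, 0] with hv
  have lv : LegM 0 v := by
    constructor <;> simp only [hv, Matrix.cons_val] <;> linarith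
  have lvu : LegM 0 (v + uD e) := by
    constructor <;> simp only [hv, uD, Pi.add_apply, Matrix.cons_val] <;> linarith
  have l0 : LegM (6 * η) w0 := by
    constructor <;> simp only [hw0, Matrix.cons_val] <;> linarith
  have l1 : LegM (6 * η) (w0 + uD e) := by
    constructor <;> simp only [hw0, uD, Pi.add_apply, Matrix.cons_val] <;> linarith
  have hvw : v ≤ w0 := by
    intro i
    fin_cases i <;> simp only [hw0, hv] <;> simp <;> linarith
  have hvw' : v + uD e ≤ w0 + uD e := fun i => by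
    simp only [Pi.add_apply]
    linarith [hvw i]
  have hI : J - δ < Λ w0 - Λ (w0 + uD e) := by
    have c1 := H.cost v w0 lv (l0.mono (by positivity)) hvw
    have c2 := H.anti _ _ lvu (l1.mono (by positivity)) hvw'
    have c3 := hJ v lv (by simp [hv]) (by simp [hv]) (by simp [hv]) lvu
    have e1 : ∑ t, cst t * (w0 t - v t) = 7 / 2 * a := by
      simp only [Fin.sum_univ_succ, Fin.sum_univ_zero]
      show (1:ℝ) * (0 - 0) + (1 * (50 - 50) + (1 * (a - 0) + (1 * (40 - 40) + (1 * (-200 - -200) +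
        (1 * (3 / 2 * a - 0) + (2 * (-a / 8 - -a / 8) + (1 * (-a / 8 - -a / 8) +
          (1 * (a - 0) + 0)))))))) = _
      ring
    rw [e1] at c1
    linarith
  obtain ⟨x, hx, w, hw, hwL, R, hR, hq⟩ := pos_dir H hη l0 l1 hI
  rw [sum_uD] at hq
  have b0 := nbd hw 0
  have b2 := nbd hw 2
  have b5 := nbd hw 5
  have b6 := nbd hw 6
  have b7 := nbd hw 7
  have b8 := nbd hw 8
  simp only [hw0, uD, Pi.add_apply, Pi.smul_apply, smul_eq_mul, Matrix.cons_val, mul_zero,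
    add_zero, mul_one] at b0 b2 b5 b6 b7 b8
  have xe : 0 < x * e := mul_pos hx.1 he
  have sk6 : w 6 < k * w 0 := by
    have := mul_le_mul_of_nonneg_left b0.1.le hk.le
    nlinarith [b6.2]
  have sk7 : w 7 < k' * w 0 := by
    have := mul_le_mul_of_nonneg_left b0.1.le hk'.le
    nlinarith [b7.2]
  have hA : ∀ t : Fin 9, t = 1 ∨ t = 3 ∨ t = 4 ∨ (t ≠ 1 ∧ t ≠ 3 ∧ t ≠ 4) := by decide
  -- generic points with the same classes
  have gen : ∀ w' : V9, (∀ t, t ≠ 1 → t ≠ 3 → t ≠ 4 → w' t = w t) →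
      GenZ φ (fun _ => False) w' := by
    intro w' h
    refine H.genZ fun t _ => ?_
    rcases hA t with rfl | rfl | rfl | ⟨n1, n3, n4⟩
    · exact Or.inl al1
    · exact Or.inl al3
    · exact Or.inl al4
    · refine Or.inr ⟨w, _, hR (c t), fun t' ht' => h t' ?_ ?_ ?_⟩
      · rintro rfl; exact n1 (al1 t ht'.symm)
      · rintro rfl; exact n3 (al3 t ht'.symm)
      · rintro rfl; exact n4 (al4 t ht'.symm)
  have val : ∀ t : Fin 9, (fun i => if c i = c t then R i else 0) t = R t := fun t => if_pos rfl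
  have same : ∀ w' : V9, (∀ t, t ≠ 1 → t ≠ 3 → t ≠ 4 → w' t = w t) → ∀ t : Fin 9, t ≠ 1 → t ≠ 3 →
      t ≠ 4 → RtAt (φ (c t)) w' (fun i => if c i = c t then R i else 0) := by
    intro w' h t n1 n3 n4
    refine (hR (c t)).loc H fun t' ht' => h t' ?_ ?_ ?_
    · rintro rfl; exact n1 (al1 t ht'.symm)
    · rintro rfl; exact n3 (al3 t ht'.symm)
    · rintro rfl; exact n4 (al4 t ht'.symm)
  have hη0 : 0 < 3 * η := by positivity
  refine ⟨R, ?_, ?_, ?_, (rt_bd H hη0 hwL (hR (c 8))).1.trans_eq (val 8),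
    (val 8).symm.trans_le ((rt_bd H hη0 hwL (hR (c 8))).2.trans_eq rfl),
    (val 5).symm.trans_le ((rt_bd H hη0 hwL (hR (c 5))).2.trans_eq rfl), hq, fun h2 => ?_,
    fun h8 => ?_⟩
  · -- P1
    set w' : V9 := ![w 0, 40 - w 0, w 2, 40, -200, w 5, w 6, w 7, w 8] with hw'
    have hs : ∀ t, t ≠ 1 → t ≠ 3 → t ≠ 4 → w' t = w t := by
      intro t n1 n3 n4
      fin_cases t <;> first | rfl | exact absurd rfl n1 | exact absurd rfl n3 | exact absurd rfl n4
    have hone : One 1 w' := by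
      refine one_of 1 ?_ ?_ ?_ ?_ ?_ ?_ ?_ ?_ ?_ ?_ <;>
        simp only [hw', Matrix.cons_val, Fin.reduceEq, reduceIte] <;>
        linarith [hx.1, hx.2, b0.1, b0.2, b2.1, b2.2, b5.1, b5.2, b6.1, b6.2, b7.1, b7.2, b8.1,
          b8.2]
    obtain ⟨R', hl, hal, hu⟩ := (gen w' hs).lin H hone.leg
    have h3 := F.P1 w' R' hone (hSk w' hone.leg sk6 sk7) hl
    rwa [hal 1 al1, hal 3 al3] at h3
  · -- W3
    set w' : V9 := ![0, w 2, w 2, w 5 / 2, -200, w 5, 0, -a / 8, w 8] with hw'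
    have hone : One 5 w' := by
      refine one_of 5 ?_ ?_ ?_ ?_ ?_ ?_ ?_ ?_ ?_ ?_ <;>
        simp only [hw', Matrix.cons_val, Fin.reduceEq, reduceIte] <;>
        linarith [hx.1, hx.2, b0.1, b0.2, b2.1, b2.2, b5.1, b5.2, b6.1, b6.2, b7.1, b7.2, b8.1,
          b8.2]
    have hB : ∀ t : Fin 9, t = 1 ∨ t = 3 ∨ t = 4 ∨ (t = 0 ∨ t = 6 ∨ t = 7) ∨
        (t = 2 ∨ t = 5 ∨ t = 8) := by decide
    have hs : ∀ t, t = 2 ∨ t = 5 ∨ t = 8 → ∀ t', c t' = c t → w' t' = w t' := by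
      intro t ht t' ht'
      rcases hB t' with rfl | rfl | rfl | h0 | h2
      · have := al1 t ht'.symm
        rcases ht with rfl | rfl | rfl <;> exact absurd this (by decide)
      · have := al3 t ht'.symm
        rcases ht with rfl | rfl | rfl <;> exact absurd this (by decide)
      · have := al4 t ht'.symm
        rcases ht with rfl | rfl | rfl <;> exact absurd this (by decide)
      · have h1 := (hz t).1 (ht'.symm.trans ((hz t').2 h0))
        rcases ht with rfl | rfl | rfl <;> exact absurd h1 (by decide)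
      · rcases h2 with rfl | rfl | rfl <;> rfl
    have hg : GenZ φ (fun k => k = c 0) w' := by
      refine H.genZ fun t h0 => ?_
      rcases hB t with rfl | rfl | rfl | h | h
      · exact Or.inl al1
      · exact Or.inl al3
      · exact Or.inl al4
      · exact absurd ((hz t).2 h) h0
      · exact Or.inr ⟨w, _, hR (c t), hs t h⟩
    obtain ⟨R', hl, hal, hu⟩ := hg.linZ H hone.leg (Z := {0, 6, 7}) (kz := c 0) (fun t => by
      rw [hz t]; simp)
    have h3 := hW3 w' R' hone rfl rfl (by show -a / 8 < 0; linarith) (linS_mono (by decide) hl)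
    rw [hal 1 (by decide) al1, hu 2 _ (by decide) ((hR (c 2)).loc H (hs 2 (Or.inl rfl))),
      if_pos rfl] at h3
    exact h3
  · -- P2
    set w' : V9 := ![w 0, 50, w 2, 40, w 0 + w 2, w 5, w 6, w 7, w 8] with hw'
    have hs : ∀ t, t ≠ 1 → t ≠ 3 → t ≠ 4 → w' t = w t := by
      intro t n1 n3 n4
      fin_cases t <;> first | rfl | exact absurd rfl n1 | exact absurd rfl n3 | exact absurd rfl n4
    have hone : One 7 w' := by
      refine one_of 7 ?_ ?_ ?_ ?_ ?_ ?_ ?_ ?_ ?_ ?_ <;>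
        simp only [hw', Matrix.cons_val, Fin.reduceEq, reduceIte] <;>
        linarith [hx.1, hx.2, b0.1, b0.2, b2.1, b2.2, b5.1, b5.2, b6.1, b6.2, b7.1, b7.2, b8.1,
          b8.2]
    obtain ⟨R', hl, hal, hu⟩ := (gen w' hs).lin H hone.leg
    have h3 := F.P2 w' R' hone (hSk w' hone.leg sk6 sk7) hl
    rw [hu 2 _ (same w' hs 2 (by decide) (by decide) (by decide)), if_pos rfl, hal 4 al4] at h3
    exact h3
  · have := (hR (c 2)).uniq (H.rt_alone h2 w)
    have h5 := congrFun this 2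
    simpa using h5
  · have := (hR (c 8)).uniq (H.rt_alone h8 w)
    have h5 := congrFun this 8
    simpa using h5

/-! ### the numbers -/

/-- the row with a relaxed bound of `ρH` -/
theorem eHalfD {θ θb k s cc qa qb e ρz m r ρX ρN ρH ρD δ : ℝ} (hk : 0 ≤ k) (hk1 : k ≤ 1)
    (hb : θb = θ - k) (hθ : θ ≤ (1 + k) / 2) (hβ : 0 ≤ (2 * θ - θb - 1) * ρD) (he : 0 ≤ e)
    (hTV : TVe θ θb s cc qa qb e ρz m r ρX ρN ρH ρD)
    (hz : 1 - s ≤ ρz) (hD0 : 0 ≤ ρD) (hD1 : ρD ≤ 1) (hH : ρH ≤ 1 + δ)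
    (p1 : m ≤ ρX) (p2 : r ≤ ρN) (mr : m ≤ r) :
    cc + (1 + k) / 2 * qa + (1 - k) / 2 * qb ≤ 1 + ((1 + k) / 2 - θ) * e + k * δ := by
  obtain ⟨hT, hV⟩ := hTV
  subst hb
  have h1 : 0 ≤ ((1 + k) / 2 - θ) * (m + r + ρX + ρN + 2 * ρH + e * ρD - (4 + qa + qb)) :=
    mul_nonneg (by linarith) (by linarith)
  have h2 : 0 ≤ (1 - k) / 2 * (ρX - m) := mul_nonneg (by linarith) (by linarith)
  have h3 : 0 ≤ (1 + k) / 2 * (ρN - r) := mul_nonneg (by linarith) (by linarith)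
  have h4 : 0 ≤ k * (1 + δ - ρH) := mul_nonneg hk (by linarith)
  have h5 : 0 ≤ k * (r - m) := mul_nonneg hk (by linarith)
  have h7 : 0 ≤ ((1 + k) / 2 - θ) * e * (1 - ρD) :=
    mul_nonneg (mul_nonneg (by linarith) he) (by linarith)
  nlinarith

/-- **`1/2 ≤ s` is impossible above the record**, `e`-plane, `D` live -/
theorem eUp_false (H : Cl9 c dl s Λ φ ρ) (al1 : Al c 1) (al3 : Al c 3) (al4 : Al c 4)
    (hz : ∀ t, c t = c 0 ↔ t = 0 ∨ t = 6 ∨ t = 7) {θ θb k k' e J cc qa qb : ℝ} (hk : 0 < k)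
    (hk1 : k ≤ 1) (hk' : 0 < k') (he : 0 < e) (hb : θb = θ - k) (hθ0 : 0 < θ)
    (hθ : θ ≤ (1 + k) / 2) (hs : 1 / 2 ≤ s) (hc : 2 * s + e ≤ cc) (hqa : 0 ≤ qa) (hqb : 0 ≤ qb)
    (hW3 : ∀ w R, One 5 w → w 0 = 0 → w 6 = 0 → w 7 < 0 → LinS {0, 6, 7, 8} Λ w R → R 1 ≤ R 2)
    {Sk : V9 → Prop} (hSk : ∀ w, LegM 0 w → w 6 < k * w 0 → w 7 < k' * w 0 → Sk w)
    (F : FctP Sk Λ)
    (hJ : ∀ v, LegM 0 v → v 2 = 0 → v 5 = 0 → v 8 = 0 → LegM 0 (v + uD e) →
      J ≤ Λ v - Λ (v + uD e))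
    (hTV : ∀ r h d, r + 2 * h + e * d = J → (Al c 2 → r = ρ 2) → (Al c 8 → d = ρ 8) →
      TVe θ θb s cc qa qb e (ρ 0) (ρ 1) r (ρ 3) (ρ 4) h d)
    (hβ : 0 ≤ 2 * θ - θb - 1 ∨ (Al c 8 ∧ ρ 8 = 0)) : False := by
  obtain ⟨δ, hδ, hδ1⟩ : ∃ δ : ℝ, 0 < δ ∧ k * δ < θ * e := by
    refine ⟨θ * e / 2, by positivity, ?_⟩
    have h1 : 0 < θ * e := by positivity
    have h2 : k * (θ * e / 2) ≤ 1 * (θ * e / 2) := mul_le_mul_of_nonneg_right hk1 (by positivity)
    linarith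
  obtain ⟨R, p1, mr, p2, d0, d1, h5, hq, a2, a8⟩ := pos_th H al1 al3 al4 hz hk hk' he hW3 hSk F
    hJ hδ
  have hT := hTV (R 2) ((J - R 2 - e * R 8) / 2) (R 8) (by ring) a2 a8
  have hb8 : 0 ≤ (2 * θ - θb - 1) * R 8 := by
    rcases hβ with h | ⟨h8, h⟩
    · exact mul_nonneg h d0
    · rw [a8 h8, h, mul_zero]
  have h := eHalfD hk.le hk1 hb hθ hb8 he.le hT H.own d0 d1 (δ := δ) (by linarith) p1 p2 mr
  have h1 : 0 ≤ (1 + k) / 2 * qa := mul_nonneg (by linarith) hqa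
  have h2 : 0 ≤ (1 - k) / 2 * qb := mul_nonneg (by linarith) hqb
  have h3 : ((1 + k) / 2 - θ) * e ≤ (1 - θ) * e := mul_le_mul_of_nonneg_right (by linarith) he.le
  linarith

end Crest.Agent.R116.Th171
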