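import Crest.Agent.R116.Tk3_538
import Crest.Agent.R116.KTie_794

/-!
# R116 (K side, ties), `κ`-tie, `T⁺`, `1/2 ≤ s` (helper538)

* **`kappa_up`** : `CtxT`, `E` visible, `D` and `B` invisible, `1/2 < k < 1`, `k = 2 θ - θb`,
  `θ ≤ (1+k)/3`, `1/2 ≤ s` is impossible, from the plug `PlugK` (W3k on the plane `kUe`).
* `fillH2` : the same as a `Fill`.
-/

set_option autoImplicit false
set_option linter.unusedVariables false
set_option linter.unusedSectionVars false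

open Set Filter Topology MeasureTheory

namespace Crest.Agent.R116.Tk538

open Crest.Agent.R136
open Crest.Agent.R138
open Dg262 (X X_cont SupOn)
open Dg219 (Tn lf det2 zz lf_zz Cone Sep gset mem_gset Walls gC nC dhC gC_zero gC_eq nC_zero
  nC_of dirC exists_grpC OutS mw)
open Rc683 (Srf)
open RbK219
open RbM219
open SgO219 (PP)
open Sl741 (slice xt rs)
open Kz647
open Crest.Agent.R116.PL504 (eL)
open Crest.Agent.R116.Sg337 (coneL DL)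
open Crest.Agent.R116.Tq741
open Crest.Agent.R116.Tq126
open Crest.Agent.R138.Ex926 (Base U IsTan)
open Crest.Agent.R136.MkA627 Crest.Agent.R136.TD627 Crest.Agent.R136.Net191
open Crest.Agent.R136.Lq196
open Crest.Agent.R116.ChL222
open Crest.Agent.R116.PL504 (rL βL Shift)
open Crest.Agent.R116.Gd222 (TSet sN)
open Crest.Agent.R116.KI439
open Crest.Agent.R116.KF439 (PL)
open Crest.Agent.R116.CtxB468
open Crest.Agent.R116.Rcx363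
open Crest.Agent.R116.Pd363
open Crest.Agent.R116.Tq794 (E9)
open Crest.Agent.R116.Tp139
open Crest.Agent.R116.Pu171
open Crest.Agent.R116.KTie794 (Fill InvB VisE VisB InvE)
open Crest.Agent.R116.KTop387 (NumL)

section ctx

variable {G : Geo TSet (Fin 2)} {L : ℕ → ℕ → LRay} {r : ℕ → ℝ} {g s : ℝ} {θ q : Fin 2 → ℝ}
    {Rg : ℝ} {B : Base} {I : ℕ → Finset (ℕ × ℝ)} {lev : ℕ → ℚ → ℕ} {A : ℕ → ℝ}
    {f : ℕ → ℚ → ℕ → ℤ → ℕ} {b : ℕ → ℚ → ℕ → TSet} {vm : ℕ → ℚ → ℝ} {w : Fin 2 → ℕ → ℚ → ℝ}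
    {fr : ℕ → ℚ → ℕ × ℝ → LInc} {fl : ℕ → ℕ × ℝ → LInc} {sc : Fin 12 → ℕ → ℝ}
    {w0 sa sb δ R : ℝ} {I0 I' : ℕ → Finset (ℕ × ℝ)} {ν own : (Fin 12 → ℝ) → ℝ} {c₀ : ℝ}

/-- only `z` and `E` are visible -/
def V2 (k : Fin 12) : Prop := k = 0 ∨ k = 2

theorem nat_le_kUe {e : ℝ} (he : 0 < e) : nat9 0 1 2 ≤ kUe e := by
  refine all9 ?_ ?_ ?_ ?_ ?_ ?_ ?_ ?_ ?_
  · change (0:ℝ) ≤ 0; norm_num
  · change (1:ℝ) ≤ 1; norm_num
  · change (2:ℝ) ≤ 2; norm_num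
  · change (0:ℝ) + 1 ≤ 1; norm_num
  · change (0:ℝ) + 2 ≤ 2; norm_num
  · change (0:ℝ) + 2 * 1 ≤ 2; norm_num
  · change (2:ℝ) - 1 ≤ 1; norm_num
  · change (2:ℝ) - 2 * 1 ≤ 0; norm_num
  · change (2:ℝ) - 2 * 1 - 0 ≤ e; linarith

/-- **`κ`-tie, `T⁺`, `1/2 ≤ s`** -/
theorem kappa_up
    (C : CtxT G L r g s θ q Rg B I lev A f b vm w fr fl sc w0 sa sb δ R I0 I' ν own c₀)
    (hR0 : w0 + (θ 1 + sb) < R) (hR1 : w0 + 1 + sb < R) (hRg : θ 0 + |θ 1| < Rg)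
    (hθ : 0 < θ 0) (hs : 1 / 2 ≤ s) (hs1 : s < 1) (hg : 2 * s < g) (hqa : 0 ≤ q 0)
    (hqb : 0 ≤ q 1) (hI1 : InvT PL B I 1 fl (sc 1)) (h7 : InvT PL B I 7 fl (sc 7))
    (h8 : InvT PL B I 8 fl (sc 8)) (k1 : 1 / 2 < 2 * θ 0 - θ 1) (k2 : 2 * θ 0 - θ 1 < 1)
    (hθ' : θ 0 ≤ (1 + (2 * θ 0 - θ 1)) / 3)
    (hW : ∀ (e : ℝ) (a b' : Fin 2) (v0 κ l α : ℝ) (lam lam2 : Fin 2 → (Fin 12 → ℝ) → ℝ)
      (ρ ρ2 : Fin 9 → ℝ) (h' H : ℕ → ℝ) (Xb : ℕ → Fin 12 → ℝ), 0 < e → 0 < v0 → v0 < 1 →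
      Pd9 R s a b' V2 (θ 0) (θ 1) w0 sa sb v0 κ (kUe e) 1 (fo ν own) lam ρ l α h' Xb H lam2 ρ2 →
      FctK (2 * θ 0 - θ 1) (fun w => lam2 0 (RL9.vec w))) : False := by
  have hb2 : θ 1 < 2 * θ 0 := by linarith
  have hβ : 2 * θ 0 - θ 1 - 1 < 0 := by linarith
  obtain ⟨e, he, he0, hd⟩ := exists_DAk (θ 0) (θ 1)
    (e0 := min (g - 2 * s) ((1 - (2 * θ 0 - θ 1)) / θ 0))
    (lt_min (by linarith) (div_pos (by linarith) hθ)) hβ.ne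
  have he1 : e < g - 2 * s := he0.trans_le (min_le_left _ _)
  have he2 : e * θ 0 < -(2 * θ 0 - θ 1 - 1) := by
    have := he0.trans_le (min_le_right _ _)
    rw [lt_div_iff₀ hθ] at this
    linarith
  have hS := sok_kUe (θ := θ 0) (θb := θ 1) he hb2
  obtain ⟨v0, -, hv0, hv1, a, b', x, hh, lam, hX, O⟩ := exists_out9 C hR0 hR1 hθ hRg (T := Unit)
    (Bs := fun _ => kUe e) (sg := fun _ => 1) (fun _ => hS) (fun _ => leg_kUe he) (N := univ)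
    (Eventually.of_forall fun _ => mem_univ _)
  obtain ⟨c0, hc0, hLW, hrec, ρ, hR⟩ := O.surf ()
  obtain ⟨l, α, h', Xb, H, lam2, ρ2, hl, -, -, P⟩ := plane9 O hS (leg_kUe he) hc0 hR
    (v := 0) (c := 1) (p := 2) (Vis' := V2) (nat_le_kUe he) (fun k hk => by
      left
      by_cases h0 : k = 0
      · subst h0
        refine ⟨Or.inl rfl, ?_⟩
        change (0:ℝ) ≤ 0 * _
        rw [zero_mul]
      by_cases h2 : k = 2
      · subst h2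
        refine ⟨Or.inr rfl, ?_⟩
        change (0:ℝ) ≤ 0 * _
        rw [zero_mul]
      exfalso
      apply hk
      by_cases h1 : k = 1
      · subst h1; exact hI1
      by_cases h7' : k = 7
      · subst h7'; exact h7
      by_cases h8' : k = 8
      · subst h8'; exact h8
      refine C.out.inv_ray ?_
      clear hk
      revert h0 h2 h1 h7' h8'
      revert k
      decide) (N := univ) (Eventually.of_forall fun _ => mem_univ _) (y := 1) one_pos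
  obtain ⟨φ, H9⟩ := clsg P hS (fun k hk => by
    rcases hk with rfl | rfl
    · exact Or.inl rfl
    · exact Or.inr (Or.inr (Or.inl rfl))) (hc_kUe he k1 k2 hd) (hz_kUe he k1 k2 hd)
    (hg_kUe he hb2 k2)
  have hκ : DL g s (q 0) (q 1) 0 1 2 = -(5 + q 0 + 2 * q 1) := by
    unfold DL; ring
  have hHf := P.half
  rw [hκ] at hHf
  have hrec' : lam 0 (RL9.vec (nat9 1 (-(θ 0)) (-(θ 1)))) =
      DL g s (q 0) (q 1) 1 (-(θ 0)) (-(θ 1)) := by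
    have h1 := O.rx.rcd 1
    rw [mul_one, mul_one] at h1
    rw [RL9_nat]
    exact h1
  have TV := tvk (c := g) (s := s) hHf (O.zero 0) hrec' he k1 k2 hd
  have hρ8 : ρ 8 = 0 := rD_kUe C hθ hRg hv0 hv1 O hc0 he hb2 hd hβ he2 hR
  have hρ : ρ2 8 = 0 := by
    rw [P.half.eq 8 (by
      change -(θ 1) - 2 * -(θ 0) - 1 ≠ 0
      intro h1; linarith), hρ8]
  have FP : FctP (fun w : V9 => w 7 ≤ (2 * θ 0 - θ 1) * w 0) (fun w => lam2 0 (RL9.vec w)) := by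
    refine ctxP9 C hs1 P ?_ ?_ fun w hw hS' k hk => ?_
    · change (1:ℝ) = 0 + 1; norm_num
    · change (2:ℝ) = 0 + 2; norm_num
    · rcases hk with rfl | rfl
      · change w 0 ≤ w 0 * 1
        rw [mul_one]
      · change w 7 ≤ w 0 * (-(θ 1) - 2 * -(θ 0))
        have h1 : w 7 ≤ (2 * θ 0 - θ 1) * w 0 := hS'
        linarith
  have FK := hW e a b' v0 _ l α lam lam2 ρ ρ2 h' H Xb he hv0 hv1 P
  exact kU_false (θ := θ 0) (θb := θ 1) (k := 2 * θ 0 - θ 1) (κ1 := 1) (κ2 := 2 * θ 0 - θ 1)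
    (κ3 := 1) H9 FP FK (fun w h1 h2 h3 => h2.le) one_pos (by linarith) one_pos k1.le k2.le
    (by ring) hθ hθ' he hs (by linarith) hqa hqb TV hρ

end ctx

/-- a shift with strict inequalities -/
theorem shift_succ {θa θb w0 sa sb δ R : ℝ} (h : Shift θa θb w0 sa sb δ R) :
    Shift θa θb w0 sa sb δ (R + 1) :=
  ⟨h.d0, h.z, h.c0, h.c1, h.D0, h.D1, by linarith [h.R0], by linarith [h.R1]⟩

/-- **W3k on the plane `kUe`** over the context (369's plug, `D` live and raised) -/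
def PlugK (η : ℝ) : Prop :=
  ∀ {G : Geo TSet (Fin 2)} {L : ℕ → ℕ → LRay} {r : ℕ → ℝ} {g s : ℝ} {θ q : Fin 2 → ℝ}
    {Rg : ℝ} {B : Base} {I : ℕ → Finset (ℕ × ℝ)} {lev : ℕ → ℚ → ℕ} {A : ℕ → ℝ}
    {f : ℕ → ℚ → ℕ → ℤ → ℕ} {b : ℕ → ℚ → ℕ → TSet} {vm : ℕ → ℚ → ℝ} {w : Fin 2 → ℕ → ℚ → ℝ}
    {fr : ℕ → ℚ → ℕ × ℝ → LInc} {fl : ℕ → ℕ × ℝ → LInc} {sc : Fin 12 → ℕ → ℝ}
    {w0 sa sb δ R : ℝ} {I0 I' : ℕ → Finset (ℕ × ℝ)} {ν own : (Fin 12 → ℝ) → ℝ} {c₀ : ℝ},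
    CtxT G L r (g + 2 * s) s θ q Rg B I lev A f b vm w fr fl sc w0 sa sb δ R I0 I' ν own c₀ →
    NumL η g s θ q → InvT PL B I 1 fl (sc 1) → InvT PL B I 7 fl (sc 7) →
    InvT PL B I 8 fl (sc 8) → TieT θ B I lev fl sc 2 → 2 * θ 0 - θ 1 < 1 →
    ∀ (e : ℝ) (a b' : Fin 2) (v0 κ l α : ℝ) (lam lam2 : Fin 2 → (Fin 12 → ℝ) → ℝ)
      (ρ ρ2 : Fin 9 → ℝ) (h' H : ℕ → ℝ) (Xb : ℕ → Fin 12 → ℝ), 0 < e → 0 < v0 → v0 < 1 →
      Pd9 R s a b' V2 (θ 0) (θ 1) w0 sa sb v0 κ (kUe e) 1 (fo ν own) lam ρ l α h' Xb H lam2 ρ2 →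
      FctK (2 * θ 0 - θ 1) (fun w => lam2 0 (RL9.vec w))

/-- **`κ`-tie, `T⁺`, `1/2 ≤ s`, as a `Fill`** -/
theorem fillH2_of {η : ℝ} (hW : PlugK η) :
    Fill η (fun θ B I lev fl sc => InvB B I fl sc ∧ VisE θ B I lev fl sc)
      fun g s θ q => 1 / 2 ≤ s → 1 / 2 < 2 * θ 0 - θ 1 → 2 * θ 0 - θ 1 < 1 →
        θ 0 ≤ (1 + (2 * θ 0 - θ 1)) / 3 → False := by
  intro g s θ q hN
  refine ⟨θ 0 + |θ 1| + 1, fun Rg hRg => ?_⟩
  intro G L r B I lev A f b vm w fr fl sc w0 sa sb δ R I0 I' ν own c₀ C hV hs k1 k2 hθ'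
  have hD : InvT PL B I 1 fl (sc 1) := by
    rcases C.out.clsD with h | h
    · exact h
    · exfalso
      have h1 := h.2.1
      change 0 < -(θ 1) - 2 * -(θ 0) - 1 at h1
      linarith
  have hE : TieT θ B I lev fl sc 2 := by
    rcases hV.2 with h | h
    · exact h
    · exact absurd hD h.1
  obtain ⟨I1, I2, ν1, own1, c1, C1⟩ := C.out.ctx C.Rg0 (shift_succ C.sh)
  have hR0 := C.sh.R0
  have hR1 := C.sh.R1
  exact kappa_up C1 (by linarith) (by linarith) (by linarith) hN.θa hs hN.s1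
    (by linarith [hN.gpos]) hN.qa.le hN.qb.le hD hV.1.1 hV.1.2 k1 k2 hθ'
    (hW C1 hN hD hV.1.1 hV.1.2 hE k2)

end Crest.Agent.R116.Tk538
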