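import Crest.Agent.R116.Th1_171
import Crest.Agent.R116.Tk4_538
import Crest.Agent.R116.Sd3_538
import Crest.Agent.R116.Tq4_126

/-!
# R116, ties, `1/2 ≤ s`, `e`-plane above the record (`T⁺`), over `CtxT` (helper899, second of helper171)

* `J_of`   : the joint increment of several classes along their directions
* `eUp_ctx` : `CtxT`, `0 < θ0 - θ1 < 1`, `2 θ0 ≤ 1 + (θ0 - θ1)`, `1/2 ≤ s`, W3 on the plane `oSe` ⊢ `False`
-/

set_option autoImplicit false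
set_option linter.unusedVariables false
set_option linter.unusedSectionVars false

open Set Filter Topology MeasureTheory

namespace Crest.Agent.R116.Th899

open Crest.Agent.R136
open Crest.Agent.R138
open Dg262 (X X_cont SupOn)
open Dg219 (Tn lf det2 zz lf_zz Cone Sep gset mem_gset Walls gC nC dhC gC_zero gC_eq nC_zero
  nC_of dirC exists_grpC OutS mw)
open Rc683 (Srf)
open RbK219
open RbM219
open SgO219 (PP)
open Sl741 (slice xt rs)
open Kz647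
open Crest.Agent.R116.PL504 (eL)
open Crest.Agent.R116.Sg337 (coneL DL)
open Crest.Agent.R116.Tq741
open Crest.Agent.R116.Tq126
open Crest.Agent.R138.Ex926 (Base U IsTan)
open Crest.Agent.R136.MkA627 Crest.Agent.R136.TD627 Crest.Agent.R136.Net191
open Crest.Agent.R136.Lq196
open Crest.Agent.R116.ChL222
open Crest.Agent.R116.PL504 (rL βL Shift)
open Crest.Agent.R116.Gd222 (TSet sN)
open Crest.Agent.R116.KI439
open Crest.Agent.R116.KF439 (PL)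
open Crest.Agent.R116.CtxB468
open Crest.Agent.R116.Rcx363
open Crest.Agent.R116.Pd363
open Crest.Agent.R116.Tq794 (E9)
open Crest.Agent.R116.Pu171
open Crest.Agent.R116.KTie794 (Fill InvB VisE VisB InvE)
open Crest.Agent.R116.KTop387 (NumL)
open Crest.Agent.R116.Tk538 (ctxP9 shift_succ)
open Crest.Agent.R116.Tp139 (oSe sok_oSe leg_oSe exists_DAl DAl tve tve_h tve_d TVe)
open Crest.Agent.R116.Th171 (uD eUp_false)

section cls

variable {c : Fin 9 → Fin 9} {dl : V9} {s : ℝ} {Λ : V9 → ℝ} {φ : Fin 9 → V9 → ℝ} {ρ : V9}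

/-- the joint increment of the classes of `T` along their directions -/
theorem J_of (H : Cl9 c dl s Λ φ ρ) {v v' : V9} (hv : LegM 0 v) (hv' : LegM 0 v')
    (T : Finset (Fin 9)) (hi : ∀ t ∈ T, ∀ t' ∈ T, c t = c t' → t = t')
    (h0 : ∀ t ∈ T, ∀ t', c t' = c t → v t' = 0)
    (h1 : ∀ t ∈ T, ∀ t', c t' = c t → v' t' * dl t = v' t * dl t')
    (h2 : ∀ t', (∀ t ∈ T, c t' ≠ c t) → v' t' = v t') :
    Λ v - Λ v' = ∑ t ∈ T, ρ t * v' t := by
  classical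
  rw [H.sum v hv, H.sum v' hv', ← Finset.sum_sub_distrib]
  have e1 : ∑ t ∈ T, ρ t * v' t = ∑ k ∈ T.image c, (φ k v - φ k v') := by
    rw [Finset.sum_image hi]
    refine Finset.sum_congr rfl fun t ht => ?_
    rw [H.zero_of t (h0 t ht), H.rate t v' (h1 t ht)]
    ring
  rw [e1]
  symm
  refine Finset.sum_subset (Finset.subset_univ _) fun k _ hk => ?_
  rw [H.loc k v v' fun t ht => (h2 t fun t' ht' h => hk ?_).symm, sub_self]
  exact Finset.mem_image.2 ⟨t', ht', h.symm.trans ht⟩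

end cls

/-! ### the tables -/

theorem hz_cS {k : ℝ} (t : Fin 9) : cS k t = cS k 0 ↔ t = 0 ∨ t = 6 ∨ t = 7 := by
  constructor
  · intro h
    exact z_cS t h.symm
  · rintro (rfl | rfl | rfl) <;> rfl

theorem hz_cSd (t : Fin 9) : cSd t = cSd 0 ↔ t = 0 ∨ t = 6 ∨ t = 7 := by
  constructor
  · intro h
    exact z_cSd t h.symm
  · rintro (rfl | rfl | rfl) <;> rfl

theorem al_cS {k : ℝ} (hk : k ≠ 1) (t : Fin 9) (ht : t = 1 ∨ t = 3 ∨ t = 4 ∨ t = 8) :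
    Al (cS k) t := by
  intro t' h
  rcases ht with rfl | rfl | rfl | rfl <;> revert h <;> revert t' <;>
    refine Tp139.all9 ?_ ?_ ?_ ?_ ?_ ?_ ?_ ?_ ?_ <;> evc <;> (try rw [if_neg hk]) <;>
    (try split_ifs) <;> decide

theorem al_cSd (t : Fin 9) (ht : t = 1 ∨ t = 3 ∨ t = 4) : Al cSd t := by
  intro t' h
  rcases ht with rfl | rfl | rfl <;> revert h <;> revert t' <;>
    refine Tp139.all9 ?_ ?_ ?_ ?_ ?_ ?_ ?_ ?_ ?_ <;> evc <;> decide

/-! ### the joint increment of `C_b`, `H`, `D` -/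

section J

variable {dl : V9} {s : ℝ} {Λ : V9 → ℝ} {φ : Fin 9 → V9 → ℝ} {ρ : V9} {e k : ℝ}

theorem uD_val (v : V9) (e : ℝ) : (v + uD e) 0 = v 0 ∧ (v + uD e) 1 = v 1 ∧
    (v + uD e) 2 = v 2 + 1 ∧ (v + uD e) 3 = v 3 ∧ (v + uD e) 4 = v 4 ∧ (v + uD e) 5 = v 5 + 2 ∧
    (v + uD e) 6 = v 6 ∧ (v + uD e) 7 = v 7 ∧ (v + uD e) 8 = v 8 + e := by
  refine ⟨?_, ?_, ?_, ?_, ?_, ?_, ?_, ?_, ?_⟩ <;> simp [uD]

theorem uD_off (v : V9) (e : ℝ) (t : Fin 9) : t ≠ 2 → t ≠ 5 → t ≠ 8 →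
    (v + uD e) t = v t := by
  obtain ⟨a0, a1, a2, a3, a4, a5, a6, a7, a8⟩ := uD_val v e
  revert t
  refine Tp139.all9 ?_ ?_ ?_ ?_ ?_ ?_ ?_ ?_ ?_ <;> intro h2 h5 h8 <;>
    first | assumption | exact absurd rfl h2 | exact absurd rfl h5 | exact absurd rfl h8

theorem cS_8 (t' : Fin 9) : cS k t' = cS k 8 → t' = 8 := by
  revert t'
  refine Tp139.all9 ?_ ?_ ?_ ?_ ?_ ?_ ?_ ?_ ?_ <;> evc <;> (try split_ifs) <;> decide

theorem cS_2 (h1 : k ≠ 1) (h2 : k ≠ 1 / 2) (t' : Fin 9) : cS k t' = cS k 2 → t' = 2 := by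
  revert t'
  refine Tp139.all9 ?_ ?_ ?_ ?_ ?_ ?_ ?_ ?_ ?_ <;> evc <;> (try rw [if_neg h1]) <;>
    (try rw [if_neg h2]) <;> decide

theorem cS_5 (h2 : k ≠ 1 / 2) (t' : Fin 9) : cS k t' = cS k 5 → t' = 5 := by
  revert t'
  refine Tp139.all9 ?_ ?_ ?_ ?_ ?_ ?_ ?_ ?_ ?_ <;> evc <;> (try rw [if_neg h2]) <;>
    (try split_ifs) <;> decide

theorem cS_5h (h2 : k = 1 / 2) (t' : Fin 9) : cS k t' = cS k 5 → t' = 2 ∨ t' = 5 := by
  have h1 : k ≠ 1 := by rw [h2]; norm_num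
  revert t'
  refine Tp139.all9 ?_ ?_ ?_ ?_ ?_ ?_ ?_ ?_ ?_ <;> evc <;> (try rw [if_neg h1]) <;>
    (try rw [if_pos h2]) <;> decide

theorem cS_25 (h2 : k = 1 / 2) : cS k 2 = cS k 5 := by
  evc; rw [if_pos h2]

theorem cSd_5 (t' : Fin 9) : cSd t' = cSd 5 → t' = 2 ∨ t' = 5 ∨ t' = 8 := by
  revert t'
  decide

/-- case `k ≠ 1/2` -/
theorem J_gen (H : Cl9 (cS k) dl s Λ φ ρ) (hk1 : k ≠ 1) (hk : k ≠ 1 / 2) {v : V9}
    (hv : LegM 0 v) (h2 : v 2 = 0) (h5 : v 5 = 0) (h8 : v 8 = 0) (hv' : LegM 0 (v + uD e)) :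
    Λ v - Λ (v + uD e) = ρ 2 + 2 * ρ 5 + e * ρ 8 := by
  obtain ⟨a0, a1, a2, a3, a4, a5, a6, a7, a8⟩ := uD_val v e
  have hc : ∀ t ∈ ({2, 5, 8} : Finset (Fin 9)), ∀ t', cS k t' = cS k t → t' = t := by
    intro t ht t' h
    simp only [Finset.mem_insert, Finset.mem_singleton] at ht
    rcases ht with rfl | rfl | rfl
    · exact cS_2 hk1 hk t' h
    · exact cS_5 hk t' h
    · exact cS_8 t' h
  have hv0 : ∀ t ∈ ({2, 5, 8} : Finset (Fin 9)), v t = 0 := by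
    intro t ht
    simp only [Finset.mem_insert, Finset.mem_singleton] at ht
    rcases ht with rfl | rfl | rfl <;> assumption
  rw [J_of H hv hv' {2, 5, 8} (fun t ht t' ht' h => hc t' ht' t h)
    (fun t ht t' h => by rw [hc t ht t' h]; exact hv0 t ht)
    (fun t ht t' h => by rw [hc t ht t' h])
    (fun t' h => uD_off v e t' (fun h' => h 2 (by decide) (by rw [h']))
      (fun h' => h 5 (by decide) (by rw [h'])) (fun h' => h 8 (by decide) (by rw [h'])))]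
  rw [Finset.sum_insert (by decide), Finset.sum_insert (by decide), Finset.sum_singleton, a2, a5,
    a8, h2, h5, h8]
  ring

/-- case `k = 1/2` -/
theorem J_half (H : Cl9 (cS k) dl s Λ φ ρ) (hk : k = 1 / 2) (hd : dl 5 = 2 * dl 2) {v : V9}
    (hv : LegM 0 v) (h2 : v 2 = 0) (h5 : v 5 = 0) (h8 : v 8 = 0) (hv' : LegM 0 (v + uD e)) :
    Λ v - Λ (v + uD e) = 2 * ρ 5 + e * ρ 8 := by
  obtain ⟨a0, a1, a2, a3, a4, a5, a6, a7, a8⟩ := uD_val v e
  rw [J_of H hv hv' {5, 8} (fun t ht t' ht' h => ?_) (fun t ht t' h => ?_) (fun t ht t' h => ?_)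
    (fun t' h => uD_off v e t' (fun h' => h 5 (by decide) (by rw [h']; exact cS_25 hk))
      (fun h' => h 5 (by decide) (by rw [h'])) (fun h' => h 8 (by decide) (by rw [h'])))]
  · rw [Finset.sum_insert (by decide), Finset.sum_singleton, a5, a8, h5, h8]
    ring
  · simp only [Finset.mem_insert, Finset.mem_singleton] at ht ht'
    rcases ht with rfl | rfl <;> rcases ht' with rfl | rfl
    · rfl
    · exact absurd (cS_8 _ h) (by decide)
    · exact absurd (cS_8 _ h.symm) (by decide)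
    · rfl
  · simp only [Finset.mem_insert, Finset.mem_singleton] at ht
    rcases ht with rfl | rfl
    · rcases cS_5h hk t' h with rfl | rfl <;> assumption
    · rw [cS_8 t' h]; exact h8
  · simp only [Finset.mem_insert, Finset.mem_singleton] at ht
    rcases ht with rfl | rfl
    · rcases cS_5h hk t' h with rfl | rfl
      · rw [a2, a5, h2, h5, hd]; ring
      · rfl
    · rw [cS_8 t' h]

/-- case `θ = 1/2`, `θb = 0` -/
theorem J_d (H : Cl9 cSd dl s Λ φ ρ) (hd : dl 5 = 2 * dl 2) (hd8 : dl 8 = e * dl 2) {v : V9}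
    (hv : LegM 0 v) (h2 : v 2 = 0) (h5 : v 5 = 0) (h8 : v 8 = 0) (hv' : LegM 0 (v + uD e)) :
    Λ v - Λ (v + uD e) = 2 * ρ 5 := by
  obtain ⟨a0, a1, a2, a3, a4, a5, a6, a7, a8⟩ := uD_val v e
  rw [J_of H hv hv' {5} (fun t ht t' ht' h => ?_) (fun t ht t' h => ?_) (fun t ht t' h => ?_)
    (fun t' h => uD_off v e t' (fun h' => h 5 (by decide) (by rw [h']; rfl))
      (fun h' => h 5 (by decide) (by rw [h'])) (fun h' => h 5 (by decide) (by rw [h']; rfl)))]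
  · rw [Finset.sum_singleton, a5, h5]
    ring
  · rw [Finset.mem_singleton] at ht ht'
    rw [ht, ht']
  · rw [Finset.mem_singleton] at ht
    subst ht
    rcases cSd_5 t' h with rfl | rfl | rfl <;> assumption
  · rw [Finset.mem_singleton] at ht
    subst ht
    rcases cSd_5 t' h with rfl | rfl | rfl
    · rw [a2, a5, h2, h5, hd]; ring
    · rfl
    · rw [a8, a5, h8, h5, hd, hd8]; ring

end J

section ctx

variable {G : Geo TSet (Fin 2)} {L : ℕ → ℕ → LRay} {r : ℕ → ℝ} {g s : ℝ} {θ q : Fin 2 → ℝ}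
    {Rg : ℝ} {B : Base} {I : ℕ → Finset (ℕ × ℝ)} {lev : ℕ → ℚ → ℕ} {A : ℕ → ℝ}
    {f : ℕ → ℚ → ℕ → ℤ → ℕ} {b : ℕ → ℚ → ℕ → TSet} {vm : ℕ → ℚ → ℝ} {w : Fin 2 → ℕ → ℚ → ℝ}
    {fr : ℕ → ℚ → ℕ × ℝ → LInc} {fl : ℕ → ℕ × ℝ → LInc} {sc : Fin 12 → ℕ → ℝ}
    {w0 sa sb δ R : ℝ} {I0 I' : ℕ → Finset (ℕ × ℝ)} {ν own : (Fin 12 → ℝ) → ℝ} {c₀ : ℝ}

/-- the visible slots -/
def V278 (k : Fin 12) : Prop := k = 0 ∨ k = 2 ∨ k = 7 ∨ k = 8

theorem nat_le_oSe {e : ℝ} (he : 0 < e) : nat9 0 1 1 ≤ oSe e := by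
  refine Tp139.all9 ?_ ?_ ?_ ?_ ?_ ?_ ?_ ?_ ?_
  · change (0:ℝ) ≤ 0; norm_num
  · change (1:ℝ) ≤ 1; norm_num
  · change (1:ℝ) ≤ 1; norm_num
  · change (0:ℝ) + 1 ≤ 1; norm_num
  · change (0:ℝ) + 1 ≤ 1; norm_num
  · change (0:ℝ) + 2 * 1 ≤ 2; norm_num
  · change (1:ℝ) - 1 ≤ 0; norm_num
  · change (1:ℝ) - 2 * 1 ≤ 0; norm_num
  · change (1:ℝ) - 2 * 1 - 0 ≤ e; linarith

theorem dl_oSe (A : Fin 9 → ℝ) {e : ℝ} (he : 0 < e) :
    dl A (oSe e) 1 5 = 2 * dl A (oSe e) 1 2 ∧ dl A (oSe e) 1 8 = e * dl A (oSe e) 1 2 := by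
  unfold dl
  rw [if_neg (by rw [Tp139.u5]; norm_num), if_neg (by rw [Tp139.u2]; norm_num),
    if_neg (by rw [Tp139.u8]; exact he.ne'), Tp139.u5, Tp139.u2, Tp139.u8]
  constructor <;> ring

/-- **`T⁺` of the `e`-plane over the context, `1/2 ≤ s`**: from W3 on the plane `oSe` -/
theorem eUp_ctx
    (C : CtxT G L r g s θ q Rg B I lev A f b vm w fr fl sc w0 sa sb δ R I0 I' ν own c₀)
    (hR0 : w0 + (θ 1 + sb) < R) (hR1 : w0 + 1 + sb < R) (hRg : θ 0 + |θ 1| < Rg)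
    (hθ : 0 < θ 0) (hs : 1 / 2 ≤ s) (hs1 : s < 1) (hg : 2 * s < g) (hqa : 0 ≤ q 0)
    (hqb : 0 ≤ q 1) (hI1 : InvT PL B I 1 fl (sc 1)) (k0 : 0 < θ 0 - θ 1) (k1 : θ 0 - θ 1 < 1)
    (hθ' : 2 * θ 0 ≤ 1 + (θ 0 - θ 1))
    (hW : ∀ (e : ℝ) (a b' : Fin 2) (v0 κ l α : ℝ) (lam lam2 : Fin 2 → (Fin 12 → ℝ) → ℝ)
      (ρ ρ2 : Fin 9 → ℝ) (h' H : ℕ → ℝ) (Xb : ℕ → Fin 12 → ℝ), 0 < e → 0 < v0 → v0 < 1 →
      Pd9 R s a b' V278 (θ 0) (θ 1) w0 sa sb v0 κ (oSe e) 1 (fo ν own) lam ρ l α h' Xb H lam2 ρ2 →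
      ∀ w Rw : V9, One 5 w → w 0 = 0 → w 6 = 0 → w 7 < 0 →
        LinS {0, 6, 7, 8} (fun w => lam2 0 (RL9.vec w)) w Rw → Rw 1 ≤ Rw 2) : False := by
  have hb2 : θ 1 < 2 * θ 0 := by linarith
  have hb : θ 1 < θ 0 := by linarith
  have hbk : θ 1 = θ 0 - (θ 0 - θ 1) := by ring
  obtain ⟨e, he, he1, he2, hd⟩ : ∃ e : ℝ, 0 < e ∧ e < g - 2 * s ∧
      (2 * θ 0 - θ 1 - 1 < 0 → e * θ 0 < -(2 * θ 0 - θ 1 - 1)) ∧
      (DAl (θ 0) (θ 1) e ∨ (θ 0 = 1 / 2 ∧ θ 1 = 0)) := by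
    by_cases hβ : 2 * θ 0 - θ 1 - 1 < 0
    · obtain ⟨e, he, he0, hd⟩ := exists_DAl (θ 0) (θ 1)
        (e0 := min (g - 2 * s) (-(2 * θ 0 - θ 1 - 1) / θ 0))
        (lt_min (by linarith) (div_pos (by linarith) hθ)) (fun h => absurd h hβ.ne)
      refine ⟨e, he, he0.trans_le (min_le_left _ _), fun _ => ?_, Or.inl hd⟩
      have := he0.trans_le (min_le_right _ _)
      rwa [lt_div_iff₀ hθ] at this
    · by_cases hh : θ 0 = 1 / 2 ∧ θ 1 = 0
      · exact ⟨(g - 2 * s) / 2, by linarith, by linarith, fun h => absurd h hβ, Or.inr hh⟩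
      · obtain ⟨e, he, he0, hd⟩ := exists_DAl (θ 0) (θ 1) (e0 := g - 2 * s) (by linarith)
          (fun h h1 => hh ⟨h1, by linarith⟩)
        exact ⟨e, he, he0, fun h => absurd h hβ, Or.inl hd⟩
  have hS := sok_oSe (θ := θ 0) (θb := θ 1) he hb hb2
  obtain ⟨v0, -, hv0, hv1, a, b', x, hh, lam, hX, O⟩ := exists_out9 C hR0 hR1 hθ hRg (T := Unit)
    (Bs := fun _ => oSe e) (sg := fun _ => 1) (fun _ => hS) (fun _ => leg_oSe he) (N := univ)
    (Eventually.of_forall fun _ => mem_univ _)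
  obtain ⟨c0, hc0, hLW, hrec, ρ, hR⟩ := O.surf ()
  obtain ⟨l, α, h', Xb, H, lam2, ρ2, hl, -, -, P⟩ := plane9 O hS (leg_oSe he) hc0 hR
    (v := 0) (c := 1) (p := 1) (Vis' := V278) (nat_le_oSe he) (fun k hk => by
      left
      by_cases h0 : k = 0
      · subst h0
        refine ⟨Or.inl rfl, ?_⟩
        change (0:ℝ) ≤ 0 * _
        rw [zero_mul]
      by_cases h2 : k = 2
      · subst h2
        refine ⟨Or.inr (Or.inl rfl), ?_⟩
        change (0:ℝ) ≤ 0 * _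
        rw [zero_mul]
      by_cases h7 : k = 7
      · subst h7
        refine ⟨Or.inr (Or.inr (Or.inl rfl)), ?_⟩
        change (0:ℝ) ≤ 0 * _
        rw [zero_mul]
      by_cases h8 : k = 8
      · subst h8
        refine ⟨Or.inr (Or.inr (Or.inr rfl)), ?_⟩
        change (0:ℝ) ≤ 0 * _
        rw [zero_mul]
      exfalso
      apply hk
      by_cases h1 : k = 1
      · subst h1; exact hI1
      refine C.out.inv_ray ?_
      clear hk
      revert h0 h2 h7 h8 h1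
      revert k
      decide) (N := univ) (Eventually.of_forall fun _ => mem_univ _) (y := 1) one_pos
  have hPZ : PZi (L9B (θ 0) (θ 1) (oSe e) 1) s a b' (lam2 0) := PZi.of_prf P.prf fun k hk => hk
  have hκ : DL g s (q 0) (q 1) 0 1 1 = -(4 + q 0 + q 1) := by
    unfold DL; ring
  have hHf := P.half
  rw [hκ] at hHf
  have hrec' : lam 0 (RL9.vec (nat9 1 (-(θ 0)) (-(θ 1)))) =
      DL g s (q 0) (q 1) 1 (-(θ 0)) (-(θ 1)) := by
    have h1 := O.rx.rcd 1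
    rw [mul_one, mul_one] at h1
    rw [RL9_nat]
    exact h1
  have FP : FctP (fun w : V9 => w 6 ≤ (θ 0 - θ 1) * w 0 ∧ w 7 ≤ (2 * θ 0 - θ 1) * w 0)
      (fun w => lam2 0 (RL9.vec w)) := by
    refine ctxP9 C hs1 P ?_ ?_ fun w hw hS' k hk => ?_
    · change (1:ℝ) = 0 + 1; norm_num
    · change (1:ℝ) = 0 + 1; norm_num
    · have h6 : w 6 ≤ (θ 0 - θ 1) * w 0 := hS'.1
      have h7 : w 7 ≤ (2 * θ 0 - θ 1) * w 0 := hS'.2
      rcases hk with rfl | rfl | rfl | rfl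
      · change w 0 ≤ w 0 * 1
        rw [mul_one]
      · change w 7 ≤ w 0 * (-(θ 1) - 2 * -(θ 0))
        linarith
      · change w 6 ≤ w 0 * (-(θ 1) - -(θ 0))
        linarith
      · change w 6 ≤ w 0 * (-(θ 1) - -(θ 0))
        linarith
  have hW3 := hW e a b' v0 _ l α lam lam2 ρ ρ2 h' H Xb he hv0 hv1 P
  obtain ⟨d5, d8⟩ := dl_oSe (nat9 1 (-(θ 0)) (-(θ 1))) he
  rcases hd with hd | ⟨hd1, hd2⟩
  · obtain ⟨φ, H9⟩ := cl9_of9i hS P.half hPZ (hc_oSe he hθ k0 hbk hd) (hz_oSe he hθ k0 hbk hd)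
    have hβ : 0 ≤ 2 * θ 0 - θ 1 - 1 ∨ (Al (cS (θ 0 - θ 1)) 8 ∧ ρ2 8 = 0) := by
      by_cases hβ : 2 * θ 0 - θ 1 - 1 < 0
      · refine Or.inr ⟨al_cS k1.ne 8 (by decide), ?_⟩
        rw [P.half.eq 8 (by
          change -(θ 1) - 2 * -(θ 0) - 1 ≠ 0
          intro h1; linarith)]
        exact Sd538.rD_oSe C hθ hRg hv0 hv1 O hc0 he hb hb2 hd hβ (he2 hβ) hR
      · exact Or.inl (not_lt.1 hβ)
    by_cases hk2 : θ 0 - θ 1 = 1 / 2
    · exact eUp_false H9 (al_cS k1.ne 1 (by decide)) (al_cS k1.ne 3 (by decide))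
        (al_cS k1.ne 4 (by decide)) hz_cS (θ := θ 0) (θb := θ 1) (k := θ 0 - θ 1)
        (k' := 2 * θ 0 - θ 1) (e := e) (J := 2 * ρ2 5 + e * ρ2 8) (cc := g) (qa := q 0)
        (qb := q 1) k0 k1.le (by linarith) he hbk hθ (by linarith) hs (by linarith) hqa hqb hW3
        (fun w h1 h2 h3 => ⟨h2.le, h3.le⟩) FP
        (fun v h1 h2 h5 h8 h3 => (J_half H9 hk2 d5 h1 h2 h5 h8 h3).ge)
        (fun r h d hJ h2 h8 => by
          have e8 := h8 (al_cS k1.ne 8 (by decide))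
          subst e8
          exact tve_h hHf (O.zero 0) hrec' he hθ hb2 hd hk2 (by linarith)) hβ
    · exact eUp_false H9 (al_cS k1.ne 1 (by decide)) (al_cS k1.ne 3 (by decide))
        (al_cS k1.ne 4 (by decide)) hz_cS (θ := θ 0) (θb := θ 1) (k := θ 0 - θ 1)
        (k' := 2 * θ 0 - θ 1) (e := e) (J := ρ2 2 + 2 * ρ2 5 + e * ρ2 8) (cc := g) (qa := q 0)
        (qb := q 1) k0 k1.le (by linarith) he hbk hθ (by linarith) hs (by linarith) hqa hqb hW3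
        (fun w h1 h2 h3 => ⟨h2.le, h3.le⟩) FP
        (fun v h1 h2 h5 h8 h3 => (J_gen H9 k1.ne hk2 h1 h2 h5 h8 h3).ge)
        (fun r h d hJ h2 h8 => by
          have e8 := h8 (al_cS k1.ne 8 (by decide))
          have e2 := h2 (cS_2 k1.ne hk2)
          subst e8
          subst e2
          have e5 : h = ρ2 5 := by linarith
          subst e5
          exact tve hHf (O.zero 0) hrec' he hθ hb hb2 hd k1.ne hk2) hβ
  · obtain ⟨φ, H9⟩ := cl9_of9i hS P.half hPZ (hc_oSd he hd1 hd2) (hz_oSd he hd1 hd2)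
    exact eUp_false H9 (al_cSd 1 (by decide)) (al_cSd 3 (by decide))
      (al_cSd 4 (by decide)) hz_cSd (θ := θ 0) (θb := θ 1) (k := θ 0 - θ 1)
      (k' := 2 * θ 0 - θ 1) (e := e) (J := 2 * ρ2 5) (cc := g) (qa := q 0)
      (qb := q 1) k0 k1.le (by linarith) he hbk hθ (by linarith) hs (by linarith) hqa hqb hW3
      (fun w h1 h2 h3 => ⟨h2.le, h3.le⟩) FP
      (fun v h1 h2 h5 h8 h3 => (J_d H9 d5 d8 h1 h2 h5 h8 h3).ge)
      (fun r h d hJ h2 h8 => tve_d hHf (O.zero 0) hrec' he hd1 hd2 (by linarith))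
      (Or.inl (by rw [hd1, hd2]; norm_num))

end ctx

end Crest.Agent.R116.Th899
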