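import Crest.Agent.R116.Tp2_139
import Crest.Agent.R116.Kz3_647
import Crest.Agent.R116.SgL1_337

/-!
# R116 (K side, ties), tangential identity and direction inequality on the plane `oS` (helper139)

* `rep_oS*` : representatives of the parallel classes of `oS` (`θ - θb = 1` : `C_b ∥ X`,
  `θ - θb = 1/2` : `C_b ∥ H`)
* `cls_T`, `cls_V` : from 647's `Half`: `Σ ρ2 t A t = -(lam (vec A) - lam 0)`, `-κ ≤ Σ ρ2 t B t`
* `kap_oS`, `kap_oS9` : D-max on `oS`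
* `TV` : the two relations; `tv8`, `tv8_1`, `tv8_h`, `tv9`, `tv9_1`, `tv9_h`
* `plS` and the last step: `eUpNZ_of`, `eUp_of`, `s1_of`, `dUpNZ_of`
-/

set_option autoImplicit false
set_option linter.unusedVariables false
set_option linter.unusedSimpArgs false
set_option linter.unusedSectionVars false

open Set Filter Topology

namespace Crest.Agent.R116.Tp139

open Crest.Agent.R136
open Dg219 (Walls mw)
open Sl741 (slice xt rs)
open Dg262 (SupOn)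
open RbK219 RbM219 Kz647
open ChL222 (monL)
open Tie460
open Sg337 (DL)

/-! ### representatives -/

section rep

variable {ι W τ : Type*} [Fintype ι] [DecidableEq ι] [Fintype W] [Fintype τ] [DecidableEq τ]

/-- one slot per parallel class -/
theorem rep_of {A B : τ → ℝ} {sg : ℝ} (h : SOk A B sg) {R0 : Finset τ} (w : τ → τ)
    (h1 : ∀ t, w t ∈ R0) (h2 : ∀ t, Par A B t (w t))
    (h3 : ∀ t ∈ R0, ∀ t' ∈ R0, Par A B t t' → t = t') : ∀ t, ∃! t', t' ∈ R0 ∧ Par A B t t' := by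
  intro t
  refine ⟨w t, ⟨h1 t, h2 t⟩, ?_⟩
  rintro t' ⟨ht', hp⟩
  exact (h3 (w t) (h1 t) t' ht' (Par.trans' h (Par.symm' (h2 t)) hp)).symm

variable {Q : Walls ι W} {R : RS ι τ} {A B : τ → ℝ} {sg : ℝ} {y0 : ι → ℝ} {J : Type*}
  {g : J → (ι → ℝ) → ℝ} {j0 : J} {ρ : τ → ℝ} {κ l α : ℝ} {h : ℕ → ℝ} {lam : J → (ι → ℝ) → ℝ}
  {ρ2 : τ → ℝ}

/-- **tangential identity** -/
theorem cls_T (H : Half Q R A B sg y0 g j0 ρ κ l α h lam ρ2) {R0 : Finset τ}
    (hR : ∀ t, ∃! t', t' ∈ R0 ∧ Par A B t t') :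
    ∑ t ∈ R0, ρ2 t * A t = -(g j0 (R.vec A) - g j0 0) := by
  have h1 := H.rates.nat 1 0 R0 hR
  have h2 := H.rcd 1
  have e1 : R.vec ((0:ℝ) • B + (1:ℝ) • A) = R.vec A := by simp
  have e2 : R.vec ((1:ℝ) • A) = R.vec A := by simp
  rw [e1] at h1
  rw [e2] at h2
  rw [h1] at h2
  rw [← h2, neg_neg]
  exact Finset.sum_congr rfl fun t _ => by ring

/-- **direction inequality** -/
theorem cls_V (H : Half Q R A B sg y0 g j0 ρ κ l α h lam ρ2) {R0 : Finset τ}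
    (hR : ∀ t, ∃! t', t' ∈ R0 ∧ Par A B t t') : -κ ≤ ∑ t ∈ R0, ρ2 t * B t := by
  have h1 := H.rates.nat 0 1 R0 hR
  have h2 := H.row
  have e1 : R.vec ((1:ℝ) • B + (0:ℝ) • A) = R.vec B := by simp
  rw [e1] at h1
  rw [h1] at h2
  have h3 : ∑ t ∈ R0, ρ2 t * B t = ∑ t ∈ R0, ρ2 t * (1 * B t + 0 * A t) :=
    Finset.sum_congr rfl fun t _ => by ring
  rw [h3]; linarith

end rep

variable {θ θb k k' s c qa qb : ℝ}

theorem mem6 {P : Fin 8 → Prop} (h0 : P 0) (h1 : P 1) (h2 : P 2) (h3 : P 3) (h4 : P 4)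
    (h5 : P 5) : ∀ t ∈ ({0, 1, 2, 3, 4, 5} : Finset (Fin 8)), P t := by
  intro t h
  simp only [Finset.mem_insert, Finset.mem_singleton] at h
  rcases h with rfl | rfl | rfl | rfl | rfl | rfl <;> assumption

theorem mem5 {P : Fin 8 → Prop} (h0 : P 0) (h1 : P 1) (h3 : P 3) (h4 : P 4)
    (h5 : P 5) : ∀ t ∈ ({0, 1, 3, 4, 5} : Finset (Fin 8)), P t := by
  intro t h
  simp only [Finset.mem_insert, Finset.mem_singleton] at h
  rcases h with rfl | rfl | rfl | rfl | rfl <;> assumption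

theorem mem6' {P : Fin 9 → Prop} (h0 : P 0) (h1 : P 1) (h2 : P 2) (h3 : P 3) (h4 : P 4)
    (h5 : P 5) : ∀ t ∈ ({0, 1, 2, 3, 4, 5} : Finset (Fin 9)), P t := by
  intro t h
  simp only [Finset.mem_insert, Finset.mem_singleton] at h
  rcases h with rfl | rfl | rfl | rfl | rfl | rfl <;> assumption

theorem mem5' {P : Fin 9 → Prop} (h0 : P 0) (h1 : P 1) (h3 : P 3) (h4 : P 4)
    (h5 : P 5) : ∀ t ∈ ({0, 1, 3, 4, 5} : Finset (Fin 9)), P t := by
  intro t h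
  simp only [Finset.mem_insert, Finset.mem_singleton] at h
  rcases h with rfl | rfl | rfl | rfl | rfl <;> assumption

/-- `oS`, no resonance -/
theorem rep_oS (hb : θb < θ) (hb2 : θb < 2 * θ) (h1 : θ - θb ≠ 1) (h2 : θ - θb ≠ 1 / 2) :
    ∀ t, ∃! t', t' ∈ ({0, 1, 2, 3, 4, 5} : Finset (Fin 8)) ∧
      Par (nat8 1 (-θ) (-θb)) oS t t' := by
  refine rep_of (sok_oS hb hb2) ![0, 1, 2, 3, 4, 5, 0, 0] (by decide) ?_ ?_
  · refine all8 rfl rfl rfl rfl rfl rfl ?_ ?_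
    · change Par _ _ 6 0
      simp only [Par]; ev8; ring
    · change Par _ _ 7 0
      simp only [Par]; ev8; ring
  · refine mem6 ?_ ?_ ?_ ?_ ?_ ?_ <;> refine mem6 ?_ ?_ ?_ ?_ ?_ ?_ <;>
      intro hp <;> first
        | rfl
        | (exfalso; simp only [Par] at hp; ev8; linarith)
        | (exfalso; simp only [Par] at hp; ev8; exact h1 (by linarith))
        | (exfalso; simp only [Par] at hp; ev8; exact h2 (by linarith))

/-- `oS`, `C_b` in the class of `X` -/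
theorem rep_oS1 (hb2 : θb < 2 * θ) (hb : θ - θb = 1) :
    ∀ t, ∃! t', t' ∈ ({0, 1, 3, 4, 5} : Finset (Fin 8)) ∧ Par (nat8 1 (-θ) (-θb)) oS t t' := by
  refine rep_of (sok_oS (by linarith) hb2) ![0, 1, 3, 3, 4, 5, 0, 0] (by decide) ?_ ?_
  · refine all8 rfl rfl ?_ rfl rfl rfl ?_ ?_
    · change Par _ _ 2 3
      simp only [Par]; ev8; linarith
    · change Par _ _ 6 0
      simp only [Par]; ev8; ring
    · change Par _ _ 7 0
      simp only [Par]; ev8; ring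
  · refine mem5 ?_ ?_ ?_ ?_ ?_ <;> refine mem5 ?_ ?_ ?_ ?_ ?_ <;>
      intro hp <;> first
        | rfl
        | (exfalso; simp only [Par] at hp; ev8; linarith)

/-- `oS`, `C_b` in the class of `H` -/
theorem rep_oSh (hb2 : θb < 2 * θ) (hb : θ - θb = 1 / 2) :
    ∀ t, ∃! t', t' ∈ ({0, 1, 3, 4, 5} : Finset (Fin 8)) ∧ Par (nat8 1 (-θ) (-θb)) oS t t' := by
  refine rep_of (sok_oS (by linarith) hb2) ![0, 1, 5, 3, 4, 5, 0, 0] (by decide) ?_ ?_
  · refine all8 rfl rfl ?_ rfl rfl rfl ?_ ?_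
    · change Par _ _ 2 5
      simp only [Par]; ev8; linarith
    · change Par _ _ 6 0
      simp only [Par]; ev8; ring
    · change Par _ _ 7 0
      simp only [Par]; ev8; ring
  · refine mem5 ?_ ?_ ?_ ?_ ?_ <;> refine mem5 ?_ ?_ ?_ ?_ ?_ <;>
      intro hp <;> first
        | rfl
        | (exfalso; simp only [Par] at hp; ev8; linarith)

/-- `oS9`, no resonance -/
theorem rep_oS9 (hθ : 0 < θ) (hb : θb < θ) (hb2 : θb < 2 * θ - 1) (h1 : θ - θb ≠ 1)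
    (h2 : θ - θb ≠ 1 / 2) :
    ∀ t, ∃! t', t' ∈ ({0, 1, 2, 3, 4, 5} : Finset (Fin 9)) ∧
      Par (nat9 1 (-θ) (-θb)) oS9 t t' := by
  refine rep_of (sok_oS9 hb hb2 hθ) ![0, 1, 2, 3, 4, 5, 0, 0, 0] (by decide) ?_ ?_
  · refine all9 rfl rfl rfl rfl rfl rfl ?_ ?_ ?_
    · change Par _ _ 6 0
      simp only [Par]; ev9; ring
    · change Par _ _ 7 0
      simp only [Par]; ev9; ring
    · change Par _ _ 8 0
      simp only [Par]; ev9; ring
  · refine mem6' ?_ ?_ ?_ ?_ ?_ ?_ <;> refine mem6' ?_ ?_ ?_ ?_ ?_ ?_ <;>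
      intro hp <;> first
        | rfl
        | (exfalso; simp only [Par] at hp; ev9; linarith)
        | (exfalso; simp only [Par] at hp; ev9; exact h1 (by linarith))
        | (exfalso; simp only [Par] at hp; ev9; exact h2 (by linarith))

/-- `oS9`, `C_b` in the class of `X` -/
theorem rep_oS91 (hθ : 0 < θ) (hb2 : θb < 2 * θ - 1) (hb : θ - θb = 1) :
    ∀ t, ∃! t', t' ∈ ({0, 1, 3, 4, 5} : Finset (Fin 9)) ∧ Par (nat9 1 (-θ) (-θb)) oS9 t t' := by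
  refine rep_of (sok_oS9 (by linarith) hb2 hθ) ![0, 1, 3, 3, 4, 5, 0, 0, 0] (by decide) ?_ ?_
  · refine all9 rfl rfl ?_ rfl rfl rfl ?_ ?_ ?_
    · change Par _ _ 2 3
      simp only [Par]; ev9; linarith
    · change Par _ _ 6 0
      simp only [Par]; ev9; ring
    · change Par _ _ 7 0
      simp only [Par]; ev9; ring
    · change Par _ _ 8 0
      simp only [Par]; ev9; ring
  · refine mem5' ?_ ?_ ?_ ?_ ?_ <;> refine mem5' ?_ ?_ ?_ ?_ ?_ <;>
      intro hp <;> first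
        | rfl
        | (exfalso; simp only [Par] at hp; ev9; linarith)

/-- `oS9`, `C_b` in the class of `H` -/
theorem rep_oS9h (hθ : 0 < θ) (hb2 : θb < 2 * θ - 1) (hb : θ - θb = 1 / 2) :
    ∀ t, ∃! t', t' ∈ ({0, 1, 3, 4, 5} : Finset (Fin 9)) ∧ Par (nat9 1 (-θ) (-θb)) oS9 t t' := by
  refine rep_of (sok_oS9 (by linarith) hb2 hθ) ![0, 1, 5, 3, 4, 5, 0, 0, 0] (by decide) ?_ ?_
  · refine all9 rfl rfl ?_ rfl rfl rfl ?_ ?_ ?_
    · change Par _ _ 2 5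
      simp only [Par]; ev9; linarith
    · change Par _ _ 6 0
      simp only [Par]; ev9; ring
    · change Par _ _ 7 0
      simp only [Par]; ev9; ring
    · change Par _ _ 8 0
      simp only [Par]; ev9; ring
  · refine mem5' ?_ ?_ ?_ ?_ ?_ <;> refine mem5' ?_ ?_ ?_ ?_ ?_ <;>
      intro hp <;> first
        | rfl
        | (exfalso; simp only [Par] at hp; ev9; linarith)

/-! ### D-max -/

/-- D-max on `oS` -/
theorem kap_oS {lam : (Fin 12 → ℝ) → ℝ}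
    (hanti : ∀ w w' : Fin 8 → ℝ, Leg8 w → Leg8 w' → w ≤ w' →
      lam (xt kp 0 (RL8.vec w')) ≤ lam (xt kp 0 (RL8.vec w)))
    (hD : ∀ v a b : ℝ, lam (xt kp 0 (RL8.vec (nat8 v a b))) ≤ DL c s qa qb v a b) {y : ℝ}
    (hy : 0 ≤ y) : lam (xt kp 0 (RL8.vec (y • oS))) ≤ -(4 + qa + qb) * y := by
  have h1 : Leg8 (y • oS) := by
    constructor <;> simp only [Pi.smul_apply, smul_eq_mul] <;> ev8 <;> nlinarith
  have h2 := hanti (nat8 0 y y) (y • oS) (leg8_nat _ _ _) h1 (by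
    refine all8 ?_ ?_ ?_ ?_ ?_ ?_ ?_ ?_ <;> simp only [Pi.smul_apply, smul_eq_mul] <;> ev8 <;>
      nlinarith)
  refine h2.trans ((hD 0 y y).trans (le_of_eq ?_))
  unfold DL; ring

/-- D-max on `oS9` -/
theorem kap_oS9 {lam : (Fin 12 → ℝ) → ℝ}
    (hanti : ∀ w w' : Fin 9 → ℝ, Leg9 w → Leg9 w' → w ≤ w' →
      lam (RL9.vec w') ≤ lam (RL9.vec w))
    (hD : ∀ v a b : ℝ, lam (RL9.vec (nat9 v a b)) ≤ DL c s qa qb v a b) {y : ℝ}
    (hy : 0 ≤ y) : lam (RL9.vec (y • oS9)) ≤ -(4 + qa + qb) * y := by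
  have h1 : Leg9 (y • oS9) := by
    constructor <;> simp only [Pi.smul_apply, smul_eq_mul] <;> ev9 <;> nlinarith
  have h2 := hanti (nat9 0 y y) (y • oS9) (leg9_nat _ _ _) h1 (by
    refine all9 ?_ ?_ ?_ ?_ ?_ ?_ ?_ ?_ ?_ <;> simp only [Pi.smul_apply, smul_eq_mul] <;> ev9 <;>
      nlinarith)
  refine h2.trans ((hD 0 y y).trans (le_of_eq ?_))
  unfold DL; ring

/-! ### the two relations of the plane `oS` -/

/-- tangential identity and direction inequality of `oS`; `ρz` joint rate of `z` and the flags,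
`r, ρX, ρH` the split of a joint class -/
structure TV (θ θb s c qa qb ρz m r ρX ρN ρH : ℝ) : Prop where
  T : ρz - θ * m - θb * r + (1 - θ) * ρX + (1 - θb) * ρN + (1 - 2 * θ) * ρH =
    (4 - s - c) - θ * (3 + qa) - θb * (1 + qb)
  V : 4 + qa + qb ≤ m + r + ρX + ρN + 2 * ρH

section tv8

variable {t : ℝ} {J : Type*} {lam lam2 : J → (Fin 12 → ℝ) → ℝ} {j0 : J} {ρ ρ2 : Fin 8 → ℝ}
  {l α : ℝ} {h : ℕ → ℝ}

theorem xt_zero8 : xt kp 0 (0 : K8 → ℝ) = 0 := by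
  funext i
  unfold xt
  split_ifs <;> rfl

theorem tv8 (H : Half8 θ θb t oS 1 lam j0 ρ (-(4 + qa + qb)) l α h lam2 ρ2)
    (h0 : lam j0 0 = 0)
    (hrec : lam j0 (xt kp 0 (RL8.vec (nat8 1 (-θ) (-θb)))) = DL c s qa qb 1 (-θ) (-θb))
    (hb : θb < θ) (hb2 : θb < 2 * θ) (h1 : θ - θb ≠ 1) (h2 : θ - θb ≠ 1 / 2) :
    TV θ θb s c qa qb (ρ2 0) (ρ2 1) (ρ2 2) (ρ2 3) (ρ2 4) (ρ2 5) := by
  have a1 := cls_T H (rep_oS hb hb2 h1 h2)
  have a2 := cls_V H (rep_oS hb hb2 h1 h2)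
  simp only [xt_zero8, h0, hrec] at a1
  rw [Finset.sum_insert (by decide), Finset.sum_insert (by decide), Finset.sum_insert (by decide),
    Finset.sum_insert (by decide), Finset.sum_insert (by decide), Finset.sum_singleton] at a1 a2
  unfold DL at a1
  ev8
  exact ⟨by linarith, by linarith⟩

/-- `C_b ∥ X` : any split of the joint rate -/
theorem tv8_1 (H : Half8 θ θb t oS 1 lam j0 ρ (-(4 + qa + qb)) l α h lam2 ρ2)
    (h0 : lam j0 0 = 0)
    (hrec : lam j0 (xt kp 0 (RL8.vec (nat8 1 (-θ) (-θb)))) = DL c s qa qb 1 (-θ) (-θb))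
    (hb2 : θb < 2 * θ) (hb : θ - θb = 1) {r ρX : ℝ} (hr : r + ρX = ρ2 3) :
    TV θ θb s c qa qb (ρ2 0) (ρ2 1) r ρX (ρ2 4) (ρ2 5) := by
  have a1 := cls_T H (rep_oS1 hb2 hb)
  have a2 := cls_V H (rep_oS1 hb2 hb)
  simp only [xt_zero8, h0, hrec] at a1
  rw [Finset.sum_insert (by decide), Finset.sum_insert (by decide), Finset.sum_insert (by decide),
    Finset.sum_insert (by decide), Finset.sum_singleton] at a1 a2
  unfold DL at a1
  have e : θb = θ - 1 := by linarith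
  rw [← hr] at a1 a2
  ev8
  exact ⟨by rw [e] at a1 ⊢; linarith, by linarith⟩

/-- `C_b ∥ H` : any split of the joint rate -/
theorem tv8_h (H : Half8 θ θb t oS 1 lam j0 ρ (-(4 + qa + qb)) l α h lam2 ρ2)
    (h0 : lam j0 0 = 0)
    (hrec : lam j0 (xt kp 0 (RL8.vec (nat8 1 (-θ) (-θb)))) = DL c s qa qb 1 (-θ) (-θb))
    (hb2 : θb < 2 * θ) (hb : θ - θb = 1 / 2) {r ρH : ℝ} (hr : r / 2 + ρH = ρ2 5) :
    TV θ θb s c qa qb (ρ2 0) (ρ2 1) r (ρ2 3) (ρ2 4) ρH := by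
  have a1 := cls_T H (rep_oSh hb2 hb)
  have a2 := cls_V H (rep_oSh hb2 hb)
  simp only [xt_zero8, h0, hrec] at a1
  rw [Finset.sum_insert (by decide), Finset.sum_insert (by decide), Finset.sum_insert (by decide),
    Finset.sum_insert (by decide), Finset.sum_singleton] at a1 a2
  unfold DL at a1
  have e : θb = θ - 1 / 2 := by linarith
  rw [← hr] at a1 a2
  ev8
  exact ⟨by rw [e] at a1 ⊢; linarith, by linarith⟩

end tv8

section tv9

variable {J : Type*} {lam lam2 : J → (Fin 12 → ℝ) → ℝ} {j0 : J} {ρ ρ2 : Fin 9 → ℝ}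
  {l α : ℝ} {h : ℕ → ℝ}

theorem tv9 (H : Half9 θ θb oS9 1 lam j0 ρ (-(4 + qa + qb)) l α h lam2 ρ2)
    (h0 : lam j0 0 = 0)
    (hrec : lam j0 (RL9.vec (nat9 1 (-θ) (-θb))) = DL c s qa qb 1 (-θ) (-θb))
    (hθ : 0 < θ) (hb : θb < θ) (hb2 : θb < 2 * θ - 1) (h1 : θ - θb ≠ 1)
    (h2 : θ - θb ≠ 1 / 2) :
    TV θ θb s c qa qb (ρ2 0) (ρ2 1) (ρ2 2) (ρ2 3) (ρ2 4) (ρ2 5) := by
  have a1 := cls_T H (rep_oS9 hθ hb hb2 h1 h2)
  have a2 := cls_V H (rep_oS9 hθ hb hb2 h1 h2)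
  simp only [h0, hrec] at a1
  rw [Finset.sum_insert (by decide), Finset.sum_insert (by decide), Finset.sum_insert (by decide),
    Finset.sum_insert (by decide), Finset.sum_insert (by decide), Finset.sum_singleton] at a1 a2
  unfold DL at a1
  ev9
  exact ⟨by linarith, by linarith⟩

/-- `C_b ∥ X` : any split of the joint rate -/
theorem tv9_1 (H : Half9 θ θb oS9 1 lam j0 ρ (-(4 + qa + qb)) l α h lam2 ρ2)
    (h0 : lam j0 0 = 0)
    (hrec : lam j0 (RL9.vec (nat9 1 (-θ) (-θb))) = DL c s qa qb 1 (-θ) (-θb))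
    (hθ : 0 < θ) (hb2 : θb < 2 * θ - 1) (hb : θ - θb = 1) {r ρX : ℝ} (hr : r + ρX = ρ2 3) :
    TV θ θb s c qa qb (ρ2 0) (ρ2 1) r ρX (ρ2 4) (ρ2 5) := by
  have a1 := cls_T H (rep_oS91 hθ hb2 hb)
  have a2 := cls_V H (rep_oS91 hθ hb2 hb)
  simp only [h0, hrec] at a1
  rw [Finset.sum_insert (by decide), Finset.sum_insert (by decide), Finset.sum_insert (by decide),
    Finset.sum_insert (by decide), Finset.sum_singleton] at a1 a2
  unfold DL at a1
  have e : θb = θ - 1 := by linarith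
  rw [← hr] at a1 a2
  ev9
  exact ⟨by rw [e] at a1 ⊢; linarith, by linarith⟩

/-- `C_b ∥ H` : any split of the joint rate -/
theorem tv9_h (H : Half9 θ θb oS9 1 lam j0 ρ (-(4 + qa + qb)) l α h lam2 ρ2)
    (h0 : lam j0 0 = 0)
    (hrec : lam j0 (RL9.vec (nat9 1 (-θ) (-θb))) = DL c s qa qb 1 (-θ) (-θb))
    (hθ : 0 < θ) (hb2 : θb < 2 * θ - 1) (hb : θ - θb = 1 / 2) {r ρH : ℝ}
    (hr : r / 2 + ρH = ρ2 5) :
    TV θ θb s c qa qb (ρ2 0) (ρ2 1) r (ρ2 3) (ρ2 4) ρH := by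
  have a1 := cls_T H (rep_oS9h hθ hb2 hb)
  have a2 := cls_V H (rep_oS9h hθ hb2 hb)
  simp only [h0, hrec] at a1
  rw [Finset.sum_insert (by decide), Finset.sum_insert (by decide), Finset.sum_insert (by decide),
    Finset.sum_insert (by decide), Finset.sum_singleton] at a1 a2
  unfold DL at a1
  have e : θb = θ - 1 / 2 := by linarith
  rw [← hr] at a1 a2
  ev9
  exact ⟨by rw [e] at a1 ⊢; linarith, by linarith⟩

end tv9

/-! ### the last step above -/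

/-- rates of a plane on which all flags are in the class of `z` -/
def plS (s ρz m r ρX ρN ρH : ℝ) : Pl where
  x := 1 - ρX
  n := 1 - ρN
  h := 1 - ρH
  m := m
  r := r
  e := ρz - (1 - s)
  w := 0
  u := 0
  d := 0

variable {ρz m r ρX ρN ρH : ℝ} {A : Pl}

theorem TV.tan (H : TV θ θb s c qa qb ρz m r ρX ρN ρH) :
    (plS s ρz m r ρX ρN ρH).Tan c θ θb qa qb := by
  have := H.T
  unfold Pl.Tan Pl.Fa Pl.Fb plS
  simp only
  linarith

theorem TV.ver (H : TV θ θb s c qa qb ρz m r ρX ρN ρH) :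
    (plS s ρz m r ρX ρN ρH).Fa qa + (plS s ρz m r ρX ρN ρH).Fb qb ≤ 0 := by
  have := H.V
  unfold Pl.Fa Pl.Fb plS
  simp only
  linarith

theorem TV.ver1 (H : TV θ θb s c qa qb ρz m r ρX ρN ρH) :
    (plS s ρz m r ρX ρN ρH).x + 2 * (plS s ρz m r ρX ρN ρH).h + (plS s ρz m r ρX ρN ρH).n -
      (plS s ρz m r ρX ρN ρH).m - (plS s ρz m r ρX ρN ρH).r + qa + qb ≤ 0 := by
  have := H.V
  unfold plS
  simp only
  linarith

theorem eUpNZ_of (H : TV θ (θ - k) s c qa qb ρz m r ρX ρN ρH)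
    (F : EF s k (plS s ρz m r ρX ρN ρH)) (ant : m ≤ A.m)
    (nz : ρN = 1 → (1 + k - θ) * A.n ≤ A.e + k * A.w + (k + θ) * A.u) :
    EUpNZ k θ s c qa qb A (plS s ρz m r ρX ρN ρH) where
  F := F
  tan := H.tan
  ver := H.ver
  ant := ant
  nz := fun h => nz (by change 1 - ρN = 0 at h; linarith)

theorem eUp_of (H : TV θ (θ - k) s c qa qb ρz m r ρX ρN ρH)
    (F : EF s k (plS s ρz m r ρX ρN ρH)) (ant : m ≤ A.m) (pos : qa ≤ m) :
    EUp k θ s c qa qb A (plS s ρz m r ρX ρN ρH) where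
  F := F
  tan := H.tan
  ver := H.ver
  ant := ant
  pos := pos

theorem s1_of (H : TV θ (2 * θ - k) s c qa qb ρz m r ρX ρN ρH)
    (P : (plS s ρz m r ρX ρN ρH).Pos) (FB : (plS s ρz m r ρX ρN ρH).FanB s) (ant : m ≤ A.m)
    (nz : ρN = 1 → (1 + k - 2 * θ) * A.n ≤ A.e + (k - θ) * A.w + k * A.u) :
    S1 k θ s c qa qb A (plS s ρz m r ρX ρN ρH) where
  P := P
  FB := FB
  dz := rfl
  tan := H.tan
  ver := H.ver1
  ant := ant
  nz := fun h => nz (by change 1 - ρN = 0 at h; linarith)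

theorem dUpNZ_of (H : TV θ (θ - k) s c qa qb ρz m r ρX ρN ρH)
    (P : (plS s ρz m r ρX ρN ρH).Pos) (FB : (plS s ρz m r ρX ρN ρH).FanB s) (ant : m ≤ A.m)
    (nz : ρN = 1 → (1 + k' - 2 * θ) * A.n ≤ A.e + (k' - θ) * A.w + k' * A.u) :
    DUpNZ k k' θ s c qa qb A (plS s ρz m r ρX ρN ρH) where
  P := P
  FB := FB
  dz := rfl
  tan := H.tan
  ver := H.ver
  ant := ant
  nz := fun h => nz (by change 1 - ρN = 0 at h; linarith)

end Crest.Agent.R116.Tp139
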