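import Crest.Agent.R116.Tk2_538
import Crest.Agent.R116.Tp3_139
import Crest.Agent.R116.Hf1_850
import Crest.Agent.R116.Tq4_126

/-!
# R116 (K side, ties), `1/2 ≤ s`, the `κ`-plane below the record, `1/2 < k < 1` (helper658)

`D` frozen, classes `{z, G}` and single slots.
* `plA s ρ`  : the rates as a `Pl`
* `khalf_A`  : `FctP`, `FctK` ⊢ `KHalf k (plA s ρ)`
* `rep_kD`, `tan_A`, `ver_A` : tangential identity and direction inequality from `Half8`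
* **`kD_false`** : class level
-/

set_option autoImplicit false
set_option linter.unusedVariables false
set_option linter.unusedSimpArgs false

open Set Filter Topology

namespace Crest.Agent.R116.Th658

open Crest.Agent.R136
open Sl741 (slice xt rs)
open RbK219 RbM219 Kz647
open Sg337 (DL)
open Tie460
open Crest.Agent.R116.Tq741 Crest.Agent.R116.Tp139 Crest.Agent.R116.Pu171
open Tk538 (al_cK p1_kU p2_kU mw_kU)

/-- rates of the plane -/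
def plA (s : ℝ) (ρ : V9) : Pl where
  x := 1 - ρ 3
  n := 1 - ρ 4
  h := 1 - ρ 5
  m := ρ 1
  r := ρ 2
  e := ρ 0 - (1 - s)
  w := ρ 6
  u := 0
  d := 0

variable {dl : V9} {s : ℝ} {Λ : V9 → ℝ} {φ : Fin 9 → V9 → ℝ} {ρ : V9} {Sk : V9 → Prop}
  {k κ1 κ2 κ3 θ θb c qa qb : ℝ}

theorem pos_A (H : Cl9 Tk538.cK dl s Λ φ ρ) : (plA s ρ).Pos where
  x0 := sub_nonneg.2 (Cl9.le_cst H (al_cK 3 (by decide) (by decide)))
  n0 := sub_nonneg.2 (Cl9.le_cst H (al_cK 4 (by decide) (by decide)))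
  h0 := sub_nonneg.2 (Cl9.le_cst H (al_cK 5 (by decide) (by decide)))
  m0 := Cl9.nonneg H (al_cK 1 (by decide) (by decide))
  r0 := Cl9.nonneg H (al_cK 2 (by decide) (by decide))
  e0 := sub_nonneg.2 H.own
  w0 := Cl9.nonneg H (al_cK 6 (by decide) (by decide))
  u0 := le_rfl
  d0 := le_rfl

/-- **`KHalf`** -/
theorem khalf_A (H : Cl9 Tk538.cK dl s Λ φ ρ) (FP : FctP Sk Λ) (FK : FctK k Λ)
    (hS : SkU κ1 κ2 κ3 Sk) (h1 : 0 < κ1) (h2 : 0 < κ2) (h3 : 0 < κ3) (hk : k ≤ 2) :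
    KHalf k (plA s ρ) where
  P := pos_A H
  mw := Or.inl (mw_kU H FK)
  nx := fun h => absurd h (not_lt.2 hk)
  p1 := by
    have := p1_kU H FP hS h1 h2 h3
    change ρ 1 + (1 - ρ 3) ≤ 1
    linarith
  p2 := by
    have := p2_kU H FP hS h1 h2 h3
    change ρ 2 + (1 - ρ 4) ≤ 1
    linarith
  p3 := le_rfl

theorem cK_eq (h1 : 1 / 2 < k) (h2 : k < 1) : Tq126.cK k = Tk538.cK := by
  have e2 : k ≠ 2 := by linarith
  have e1 : k ≠ 1 := h2.ne
  have e3 : k ≠ 1 / 2 := h1.ne'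
  unfold Tq126.cK Tk538.cK
  rw [if_neg e2, if_neg e1, if_neg e1, if_neg e1, if_neg e3]

/-- representatives of the parallel classes -/
theorem rep_kD (hθ : 0 < θ) (h1 : 1 / 2 < k) (h2 : k < 1) (hb : θb = 2 * θ - k) :
    ∀ t, ∃! t', t' ∈ ({0, 1, 2, 3, 4, 5, 6} : Finset (Fin 8)) ∧
      Par (nat8 1 (-θ) (-θb)) kD t t' := by
  have hc : ∀ i j : Fin 8, Tk538.cK i.castSucc = Tk538.cK j.castSucc ↔
      Par (nat8 1 (-θ) (-θb)) kD i j := fun i j => by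
    rw [← cK_eq h1 h2]
    exact Tq126.hc_kD hθ (by linarith) hb i j
  refine rep_of (sok_kD hθ (by linarith : 0 < k) hb) ![0, 1, 2, 3, 4, 5, 6, 0] (by decide)
    (fun t => (hc _ _).1 ?_) (fun t ht t' ht' hp => ?_)
  · revert t; decide
  · have key : ∀ t ∈ ({0, 1, 2, 3, 4, 5, 6} : Finset (Fin 8)),
        ∀ t' ∈ ({0, 1, 2, 3, 4, 5, 6} : Finset (Fin 8)),
          Tk538.cK t.castSucc = Tk538.cK t'.castSucc → t = t' := by decide
    exact key t ht t' ht' ((hc _ _).2 hp)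

section half

variable {t : ℝ} {lam lam2 : Fin 2 → (Fin 12 → ℝ) → ℝ} {ρ0 ρ2 : Fin 8 → ℝ} {l α : ℝ} {h : ℕ → ℝ}

/-- **tangential identity and direction inequality** -/
theorem tanver_A (H : Half8 θ θb t kD (-1) lam 0 ρ0 (DL c s qa qb 0 (-1) (-2)) l α h lam2 ρ2)
    (h0 : lam 0 0 = 0)
    (hrec : lam 0 (xt kp 0 (RL8.vec (nat8 1 (-θ) (-θb)))) = DL c s qa qb 1 (-θ) (-θb))
    (hθ : 0 < θ) (h1 : 1 / 2 < k) (h2 : k < 1) (hb : θb = 2 * θ - k) :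
    (plA s (Tq126.sn8 ρ2 0)).Tan c θ (2 * θ - k) qa qb ∧
      0 ≤ (plA s (Tq126.sn8 ρ2 0)).Fa qa + 2 * (plA s (Tq126.sn8 ρ2 0)).Fb qb := by
  have a1 := cls_T H (rep_kD hθ h1 h2 hb)
  have a2 := cls_V H (rep_kD hθ h1 h2 hb)
  simp only [xt_zero8, h0, hrec] at a1
  rw [Finset.sum_insert (by decide), Finset.sum_insert (by decide), Finset.sum_insert (by decide),
    Finset.sum_insert (by decide), Finset.sum_insert (by decide), Finset.sum_insert (by decide),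
    Finset.sum_singleton] at a1 a2
  unfold DL at a1 a2
  ev8
  have g0 : Tq126.sn8 ρ2 0 0 = ρ2 0 := rfl
  have g1 : Tq126.sn8 ρ2 0 1 = ρ2 1 := rfl
  have g2 : Tq126.sn8 ρ2 0 2 = ρ2 2 := rfl
  have g3 : Tq126.sn8 ρ2 0 3 = ρ2 3 := rfl
  have g4 : Tq126.sn8 ρ2 0 4 = ρ2 4 := rfl
  have g5 : Tq126.sn8 ρ2 0 5 = ρ2 5 := rfl
  have g6 : Tq126.sn8 ρ2 0 6 = ρ2 6 := rfl
  subst hb
  constructor
  · unfold Pl.Tan Pl.Fa Pl.Fb plA
    simp only [g0, g1, g2, g3, g4, g5, g6]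
    linarith
  · unfold Pl.Fa Pl.Fb plA
    simp only [g0, g1, g2, g3, g4, g5, g6]
    linarith

end half

/-- **class level: `1/2 ≤ s`, `1/2 < k < 1`, `(1 + k)/3 ≤ θ` is impossible below the record** -/
theorem kD_false (N : Num θ s c qa qb) (hs : 1 / 2 ≤ s) (hk : 1 / 2 < k) (hk1 : k < 1)
    (hθ : (1 + k) / 3 ≤ θ) (H : Cl9 Tk538.cK dl s Λ φ ρ) (FP : FctP Sk Λ) (FK : FctK k Λ)
    (hS : SkU κ1 κ2 κ3 Sk) (h1 : 0 < κ1) (h2 : 0 < κ2) (h3 : 0 < κ3)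
    (tan : (plA s ρ).Tan c θ (2 * θ - k) qa qb)
    (ver : 0 ≤ (plA s ρ).Fa qa + 2 * (plA s ρ).Fb qb) : False :=
  kHalf_false N hs hk.le (khalf_A H FP FK hS h1 h2 h3 (by linarith)) tan
    (mul_nonneg (by linarith) ver)

end Crest.Agent.R116.Th658
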