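import Crest.Agent.R116.Th5a_658
import Crest.Agent.R116.Pe0_794
import Crest.Agent.R116.Pu4_171

/-!
# R116 (K side, ties), the two-height facts at a natural plane over the context (helper658)

* **`pd8_fctP`** : `CtxT` + 363's `Pd8` of a natural offset, `s < 1`, ⊢ 171's `FctP Sk Λ`
-/

set_option autoImplicit false
set_option linter.unusedSectionVars false
set_option linter.unusedVariables false

open Set Filter Topology

namespace Crest.Agent.R116.Th658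

open Crest.Agent.R138
open Crest.Agent.R138.Ex926 (Base U IsTan)
open Crest.Agent.R136
open Crest.Agent.R136.MkA627
open Crest.Agent.R136.TD627
open Crest.Agent.R136.Net191
open Crest.Agent.R136.Lq196
open Crest.Agent.R136.Qg926 Crest.Agent.R136.Gf356 Crest.Agent.R116.EvL504
open Crest.Agent.R116.ChL222
open Crest.Agent.R116.PL504 (nb rL DN eL βL oL Shift eL_wall)
open Crest.Agent.R116.Sg337 (bx9)
open Crest.Agent.R116.Gd222 (TSet sN PDL DT)
open Crest.Agent.R116.KI439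
open Crest.Agent.R116.KF439 (PL)
open Crest.Agent.R116.CtxB468
open Crest.Agent.R116.Rcx363 (fo fo_lip Prf)
open Crest.Agent.R116.RbM219
open Crest.Agent.R116.RbK219 (RS)
open Crest.Agent.R116.Kz647
open Crest.Agent.R116.Pd363
open Crest.Agent.R116.SgF665 (wl wl_add wl_smul LM0 mem_LM0 bx9_mem)
open Crest.Agent.R116.Tq741
open Crest.Agent.R116.Tq794
open Crest.Agent.R116.Pu171
open Sl741 (slice xt rs)

section ctx

variable {G : Geo TSet (Fin 2)} {L : ℕ → ℕ → LRay} {r : ℕ → ℝ} {g s : ℝ} {θ q : Fin 2 → ℝ}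
    {Rg : ℝ} {B : Base} {I : ℕ → Finset (ℕ × ℝ)} {lev : ℕ → ℚ → ℕ} {A : ℕ → ℝ}
    {f : ℕ → ℚ → ℕ → ℤ → ℕ} {b : ℕ → ℚ → ℕ → TSet} {vm : ℕ → ℚ → ℝ} {w : Fin 2 → ℕ → ℚ → ℝ}
    {fr : ℕ → ℚ → ℕ × ℝ → LInc} {fl : ℕ → ℕ × ℝ → LInc} {sc : Fin 12 → ℕ → ℝ}
    {w0 sa sb δ R : ℝ} {I0 I' : ℕ → Finset (ℕ × ℝ)} {ν own : (Fin 12 → ℝ) → ℝ} {c₀ : ℝ}
    {v0 t κ sg l α v c p : ℝ} {a b' : Fin 2} {Vis' : Fin 12 → Prop} {X : ℕ → Fin 12 → ℝ}
    {h' H : ℕ → ℝ} {lam lam2 : Fin 2 → (Fin 12 → ℝ) → ℝ} {Sk : V9 → Prop}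

/-- **the two-height facts of a natural plane, `D` frozen** -/
theorem pd8_fctP {ρ ρ2 : Fin 8 → ℝ}
    (P : Pd8 R s a b' Vis' (θ 0) (θ 1) w0 sa sb v0 t κ (nat8 v c p) sg (fo ν own) lam ρ l α h' X H
      lam2 ρ2)
    (C : CtxT G L r g s θ q Rg B I lev A f b vm w fr fl sc w0 sa sb δ R I0 I' ν own c₀)
    (hs1 : s < 1) (ht : t ≠ 0)
    (hSk : ∀ w, LegM 0 w → Sk w → ∀ k, Vis' k → E8 w k ≤ w 0 * βL (θ 0) (θ 1) k) :
    FctP Sk (fun w => lam2 0 (xt kp 0 (RL8.vec (fun i : Fin 8 => w i.castSucc)))) := by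
  obtain ⟨zz, cc, pp, dd, hXn⟩ := pd8_natural P
  have ht' : ∀ j, IsTan (Leg monL R) LM0 (fo ν own j) X H (lam2 j) := fun j =>
    Rc683.tan_mono (P.tan j) Subset.rfl (LM0_L8B ht)
  have Hp := P.prf.mono (LM0_L8B (θa := θ 0) (θb := θ 1) (B := nat8 v c p) (sg := sg) ht)
  have hlip : ∃ K : ℝ, 0 ≤ K ∧ ∀ j, ∀ p ∈ LM0, ∀ q ∈ LM0,
      |lam2 j p - lam2 j q| ≤ K * ‖p - q‖ := by
    refine ⟨12, by norm_num, fun j p hp' q hq' => ?_⟩
    have := SgO219.tan_lip P.pos (ht' j) (K := 12) (fo_lip C j) p hp' q hq'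
    rwa [dist_eq_norm] at this
  have h1 := fctP8 (j0 := (0 : Fin 2)) (f := fo ν own) (RowU388.nprof_T C)
    (fun n => Sd369.coc_N B lev w w0 sa sb fl n) (fun _ => ((0 : ℕ), (0 : ℝ))) LM0_closed
    (by rw [← E8_zero]; exact E8_mem leg_zero) (fun p hp q hq => LM0_add hp hq)
    (fun t ht p hp => LM0_smul ht hp) Subset.rfl P.pos P.lim ht' rfl hlip
    (Eventually.of_forall fun n => by rw [hXn n]; simp [eL])
    (Eventually.of_forall fun n => by rw [hXn n]; simp [eL])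
    (Eventually.of_forall fun n => by rw [hXn n]; simp [eL]) (Sk := Sk) (σ := 1 - s)
    (by linarith) (fun w R' hw hS hL => own_R (s := s) (M := LM0) (fun d hd => E8_mem hd) E8_add hw
      hL fun t ht' => own_prf Hp (fun d hd => E8_mem hd) E8_add (fun _ => rfl) e9_nonneg8 hw
        (hSk w hw hS) ht')
  simpa only [E8_eq] using h1

end ctx

end Crest.Agent.R116.Th658
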