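import Crest.Agent.R138.Sq_248

/-!
# R116, helper794: several sweeping rewards (878 (4), 295 (3)), over `Sq_248`

* `exists_thr_box`   : `β` upper semicontinuous on the box `[q0,Q]^ι`, `h = β + κ ∑ q`; a point `q`
  of `{θ ≤ h}` with `∑ q` maximal.  Then `β (q+e) ≤ β q - κ ∑ e` for ALL `e ≥ 0` staying in the box.
* `exists_rewards_box` : explicit `κ = b / (2 n (Q - q0))`, `b = β (q0,..,q0) > 0`, `β ≤ 0` on the
  faces `q i = Q`;  `b/2 ≤ β q`.
* `exists_thr2`, `exists_rewards2` : two rewards, curried.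
* `sweep_dir`        : sweep of the maximisers in an arbitrary direction `e ≥ 0`, arbitrary compact
  space of shapes.
* `tied_slope`       : a tied record sweeps with `θ ≥ k + κ`.
-/

set_option autoImplicit false

namespace Crest.Agent.R116.Thr794

open Set Filter Topology

section box

variable {ι : Type*} [Fintype ι]

/-- Choice of several rewards by a threshold. -/
theorem exists_thr_box {β : (ι → ℝ) → ℝ} {q0 Q θ κ : ℝ} (hQ : q0 ≤ Q)
    (husc : UpperSemicontinuousOn β (Icc (fun _ => q0) (fun _ => Q)))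
    (h0 : θ ≤ β (fun _ => q0) + κ * ∑ _i : ι, q0)
    (h2 : ∀ q ∈ Icc (fun _ : ι => q0) (fun _ => Q), (∃ i, q i = Q) → β q + κ * ∑ i, q i < θ) :
    ∃ q : ι → ℝ, (∀ i, q0 ≤ q i ∧ q i < Q) ∧ θ ≤ β q + κ * ∑ i, q i ∧
      ∀ e : ι → ℝ, (∀ i, 0 ≤ e i) → (∀ i, q i + e i ≤ Q) →
        (e ≠ 0 → β (q + e) + κ * ∑ i, (q + e) i < θ) ∧ β (q + e) ≤ β q - κ * ∑ i, e i := by
  classical
  set K : Set (ι → ℝ) := Icc (fun _ => q0) (fun _ => Q) with hK
  have hKc : IsCompact K := isCompact_Icc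
  set g : (ι → ℝ) → ℝ := fun q => β q + κ * ∑ i, q i with hg
  have hgusc : UpperSemicontinuousOn g K := by
    apply husc.add
    have : Continuous (fun q : ι → ℝ => κ * ∑ i, q i) := by fun_prop
    exact this.continuousOn.upperSemicontinuousOn
  set S : Set (ι → ℝ) := {q | q ∈ K ∧ θ ≤ g q} with hS
  have hSc : IsCompact S := by
    have hcl : ∃ v : Set (ι → ℝ), IsClosed v ∧ K ∩ {q | θ ≤ g q} = K ∩ v := by
      have := upperSemicontinuousOn_iff_preimage_Ici.1 hgusc θ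
      obtain ⟨v, hv, he⟩ := this
      exact ⟨v, hv, by simpa [Set.preimage] using he⟩
    obtain ⟨v, hv, he⟩ := hcl
    have : S = K ∩ v := by rw [← he]; rfl
    rw [this]
    exact hKc.inter_right hv
  have hmem0 : (fun _ => q0 : ι → ℝ) ∈ S := ⟨⟨le_refl _, fun _ => hQ⟩, h0⟩
  obtain ⟨q, hqS, hmax⟩ := hSc.exists_isMaxOn ⟨_, hmem0⟩
    (show ContinuousOn (fun q : ι → ℝ => ∑ i, q i) S by fun_prop)
  have hq1 : ∀ i, q0 ≤ q i := fun i => hqS.1.1 i
  have hq2 : ∀ i, q i ≤ Q := fun i => hqS.1.2 i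
  refine ⟨q, fun i => ⟨hq1 i, ?_⟩, hqS.2, ?_⟩
  · rcases (hq2 i).lt_or_eq with h | h
    · exact h
    · exact absurd hqS.2 (not_le.2 (h2 q hqS.1 ⟨i, h⟩))
  · intro e he hle
    have hlt : e ≠ 0 → β (q + e) + κ * ∑ i, (q + e) i < θ := by
      intro hne
      by_contra hge
      push Not at hge
      have hmem : q + e ∈ S := by
        refine ⟨⟨fun i => ?_, fun i => ?_⟩, hge⟩
        · have := he i
          have := hq1 i
          simp only [Pi.add_apply]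
          linarith
        · simp only [Pi.add_apply]
          exact hle i
      have h3 : ∑ i, (q + e) i ≤ ∑ i, q i := hmax hmem
      simp only [Pi.add_apply, Finset.sum_add_distrib] at h3
      have h4 : 0 < ∑ i, e i := by
        obtain ⟨i, hi⟩ := Function.ne_iff.1 hne
        have hi' : 0 < e i := lt_of_le_of_ne (he i) (fun h => hi (by simp [← h]))
        exact Finset.sum_pos' (fun i _ => he i) ⟨i, Finset.mem_univ i, hi'⟩
      linarith
    refine ⟨hlt, ?_⟩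
    by_cases hne : e = 0
    · subst hne
      simp
    · have h5 := hlt hne
      have h6 : θ ≤ β q + κ * ∑ i, q i := hqS.2
      simp only [Pi.add_apply, Finset.sum_add_distrib] at h5
      have h7 : κ * (∑ i, q i + ∑ i, e i) = κ * ∑ i, q i + κ * ∑ i, e i := by ring
      rw [h7] at h5
      linarith

/-- Explicit form: `b = β (q0,..,q0) > 0`, `β ≤ 0` on the faces `q i = Q`. -/
theorem exists_rewards_box [Nonempty ι] {β : (ι → ℝ) → ℝ} {q0 Q : ℝ} (hQ : q0 < Q)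
    (husc : UpperSemicontinuousOn β (Icc (fun _ => q0) (fun _ => Q)))
    (h0 : 0 < β (fun _ => q0))
    (h2 : ∀ q ∈ Icc (fun _ : ι => q0) (fun _ => Q), (∃ i, q i = Q) → β q ≤ 0) :
    ∃ (q : ι → ℝ) (κ : ℝ), (∀ i, q0 ≤ q i ∧ q i < Q) ∧ 0 < κ ∧ β (fun _ => q0) / 2 ≤ β q ∧
      ∀ e : ι → ℝ, (∀ i, 0 ≤ e i) → (∀ i, q i + e i ≤ Q) →
        β (q + e) ≤ β q - κ * ∑ i, e i := by
  classical
  set b : ℝ := β (fun _ => q0) with hb
  have hn : (0 : ℝ) < (Fintype.card ι : ℝ) := by exact_mod_cast Fintype.card_pos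
  set n : ℝ := (Fintype.card ι : ℝ) with hndef
  have hd : 0 < Q - q0 := sub_pos.2 hQ
  set κ : ℝ := b / (2 * (n * (Q - q0))) with hκ
  have hκ0 : 0 < κ := by positivity
  have hκd : κ * (n * (Q - q0)) = b / 2 := by rw [hκ]; field_simp
  have hsum0 : ∑ _i : ι, q0 = n * q0 := by simp [hndef]
  have hsumQ : ∀ q ∈ Icc (fun _ : ι => q0) (fun _ => Q), ∑ i, q i ≤ n * Q := by
    intro q hq
    calc ∑ i, q i ≤ ∑ _i : ι, Q := Finset.sum_le_sum fun i _ => hq.2 i
      _ = n * Q := by simp [hndef]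
  obtain ⟨q, hq, hth, hsw⟩ := exists_thr_box (β := β) (κ := κ) (θ := b + κ * (n * q0)) hQ.le husc
    (by rw [hsum0]) (by
      intro q hq hi
      have h3 := h2 q hq hi
      have h4 := mul_le_mul_of_nonneg_left (hsumQ q hq) hκ0.le
      have h5 : κ * (n * Q) = κ * (n * q0) + b / 2 := by rw [← hκd]; ring
      linarith)
  refine ⟨q, κ, hq, hκ0, ?_, fun e he hle => (hsw e he hle).2⟩
  have hqK : q ∈ Icc (fun _ : ι => q0) (fun _ => Q) := ⟨fun i => (hq i).1, fun i => (hq i).2.le⟩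
  have h4 := mul_le_mul_of_nonneg_left (hsumQ q hqK) hκ0.le
  have h5 : κ * (n * Q) = κ * (n * q0) + b / 2 := by rw [← hκd]; ring
  linarith

end box

section two

/-- Two rewards by a threshold, curried. -/
theorem exists_thr2 {β : ℝ → ℝ → ℝ} {q0 Q θ κ : ℝ} (hQ : q0 ≤ Q)
    (husc : UpperSemicontinuousOn (fun x : ℝ × ℝ => β x.1 x.2) (Icc q0 Q ×ˢ Icc q0 Q))
    (h0 : θ ≤ β q0 q0 + κ * (q0 + q0))
    (h1 : ∀ q' ∈ Icc q0 Q, β Q q' + κ * (Q + q') < θ)
    (h2 : ∀ q ∈ Icc q0 Q, β q Q + κ * (q + Q) < θ) :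
    ∃ q q' : ℝ, q0 ≤ q ∧ q < Q ∧ q0 ≤ q' ∧ q' < Q ∧ θ ≤ β q q' + κ * (q + q') ∧
      ∀ e e' : ℝ, 0 ≤ e → 0 ≤ e' → q + e ≤ Q → q' + e' ≤ Q →
        β (q + e) (q' + e') ≤ β q q' - κ * (e + e') := by
  have hmap : MapsTo (fun x : Fin 2 → ℝ => (x 0, x 1)) (Icc (fun _ => q0) (fun _ => Q))
      (Icc q0 Q ×ˢ Icc q0 Q) := fun x hx => ⟨⟨hx.1 0, hx.2 0⟩, ⟨hx.1 1, hx.2 1⟩⟩
  have hcont : Continuous (fun x : Fin 2 → ℝ => (x 0, x 1)) := by fun_prop
  have husc' : UpperSemicontinuousOn (fun x : Fin 2 → ℝ => β (x 0) (x 1))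
      (Icc (fun _ => q0) (fun _ => Q)) := by
    intro x hx y hy
    have := husc (x 0, x 1) (hmap hx) y hy
    exact (tendsto_nhdsWithin_of_tendsto_nhds_of_eventually_within _
      ((hcont.tendsto x).mono_left nhdsWithin_le_nhds)
      (eventually_nhdsWithin_of_forall fun z hz => hmap hz)).eventually this
  obtain ⟨q, hq, hth, hsw⟩ := exists_thr_box (ι := Fin 2) (β := fun x => β (x 0) (x 1))
    (κ := κ) (θ := θ) hQ husc' (by rw [Fin.sum_univ_two]; exact h0) (by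
      intro x hx hi
      simp only [Fin.sum_univ_two]
      obtain ⟨i, hi⟩ := hi
      fin_cases i
      · have h := h1 (x 1) ⟨hx.1 1, hx.2 1⟩
        have hi' : x 0 = Q := hi
        rw [hi']
        exact h
      · have h := h2 (x 0) ⟨hx.1 0, hx.2 0⟩
        have hi' : x 1 = Q := hi
        rw [hi']
        exact h)
  refine ⟨q 0, q 1, (hq 0).1, (hq 0).2, (hq 1).1, (hq 1).2,
    by simpa [Fin.sum_univ_two] using hth, ?_⟩
  intro e e' he he' hle hle'
  have := (hsw ![e, e'] (by intro i; fin_cases i <;> simpa) (by intro i; fin_cases i <;> simpa)).2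
  simpa [Fin.sum_univ_two] using this

/-- Two rewards, explicit `κ`. -/
theorem exists_rewards2 {β : ℝ → ℝ → ℝ} {q0 Q : ℝ} (hQ : q0 < Q)
    (husc : UpperSemicontinuousOn (fun x : ℝ × ℝ => β x.1 x.2) (Icc q0 Q ×ˢ Icc q0 Q))
    (h0 : 0 < β q0 q0) (h1 : ∀ q' ∈ Icc q0 Q, β Q q' ≤ 0) (h2 : ∀ q ∈ Icc q0 Q, β q Q ≤ 0) :
    ∃ q q' κ : ℝ, q0 ≤ q ∧ q < Q ∧ q0 ≤ q' ∧ q' < Q ∧ 0 < κ ∧ β q0 q0 / 2 ≤ β q q' ∧
      ∀ e e' : ℝ, 0 ≤ e → 0 ≤ e' → q + e ≤ Q → q' + e' ≤ Q →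
        β (q + e) (q' + e') ≤ β q q' - κ * (e + e') := by
  set b : ℝ := β q0 q0 with hb
  have hd : 0 < Q - q0 := sub_pos.2 hQ
  set κ : ℝ := b / (4 * (Q - q0)) with hκ
  have hκ0 : 0 < κ := by positivity
  have hκd : κ * (2 * (Q - q0)) = b / 2 := by rw [hκ]; field_simp; ring
  have hle : ∀ q q' : ℝ, q ≤ Q → q' ≤ Q → κ * (q + q') ≤ κ * (q0 + q0) + b / 2 := by
    intro q q' h h'
    rw [← hκd]
    nlinarith
  obtain ⟨q, q', a1, a2, a3, a4, a5, a6⟩ := exists_thr2 (β := β) (κ := κ)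
    (θ := b + κ * (q0 + q0)) hQ.le husc le_rfl
    (fun q' hq' => by have := h1 q' hq'; have := hle Q q' le_rfl hq'.2; linarith)
    (fun q hq => by have := h2 q hq; have := hle q Q hq.2 le_rfl; linarith)
  refine ⟨q, q', κ, a1, a2, a3, a4, hκ0, ?_, a6⟩
  have := hle q q' a2.le a4.le
  linarith

/-- the same from Lipschitz bounds in each variable. -/
theorem exists_rewards2_lip {β : ℝ → ℝ → ℝ} {q0 Q C : ℝ} (hQ : q0 < Q)
    (hL : ∀ q ∈ Icc q0 Q, ∀ q' ∈ Icc q0 Q, ∀ p ∈ Icc q0 Q, ∀ p' ∈ Icc q0 Q,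
      |β q q' - β p p'| ≤ C * (|q - p| + |q' - p'|))
    (h0 : 0 < β q0 q0) (h1 : ∀ q' ∈ Icc q0 Q, β Q q' ≤ 0) (h2 : ∀ q ∈ Icc q0 Q, β q Q ≤ 0) :
    ∃ q q' κ : ℝ, q0 ≤ q ∧ q < Q ∧ q0 ≤ q' ∧ q' < Q ∧ 0 < κ ∧ β q0 q0 / 2 ≤ β q q' ∧
      ∀ e e' : ℝ, 0 ≤ e → 0 ≤ e' → q + e ≤ Q → q' + e' ≤ Q →
        β (q + e) (q' + e') ≤ β q q' - κ * (e + e') := by
  refine exists_rewards2 hQ ?_ h0 h1 h2
  apply ContinuousOn.upperSemicontinuousOn
  have hlip : LipschitzOnWith (Real.toNNReal (2 * |C|)) (fun x : ℝ × ℝ => β x.1 x.2)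
      (Icc q0 Q ×ˢ Icc q0 Q) := by
    apply LipschitzOnWith.of_dist_le_mul
    intro x hx y hy
    have h3 := hL x.1 hx.1 x.2 hx.2 y.1 hy.1 y.2 hy.2
    rw [Real.dist_eq, Prod.dist_eq, Real.coe_toNNReal _ (by positivity)]
    have e1 : |x.1 - y.1| ≤ max (dist x.1 y.1) (dist x.2 y.2) := by
      rw [← Real.dist_eq]; exact le_max_left _ _
    have e2 : |x.2 - y.2| ≤ max (dist x.1 y.1) (dist x.2 y.2) := by
      rw [← Real.dist_eq]; exact le_max_right _ _
    have e3 : C * (|x.1 - y.1| + |x.2 - y.2|) ≤ |C| * (|x.1 - y.1| + |x.2 - y.2|) :=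
      mul_le_mul_of_nonneg_right (le_abs_self C) (by positivity)
    have e4 : |C| * (|x.1 - y.1| + |x.2 - y.2|) ≤
        |C| * (2 * max (dist x.1 y.1) (dist x.2 y.2)) :=
      mul_le_mul_of_nonneg_left (by linarith) (abs_nonneg C)
    linarith
  exact hlip.continuousOn

end two

section sweep

/-- **Sweep in a direction.**  `S` compact set of shapes (any topological space), `φ y` = value of
the shape `y` at the lower level (rewards `q` included), `c y` = its exponent in the direction `e`,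
`X`, `x` = value and exponent of the maximiser of the upper level. -/
theorem sweep_dir {Y : Type*} [TopologicalSpace Y] {S : Set Y} (hS : IsCompact S)
    (hne : S.Nonempty) {φ c : Y → ℝ} (hφ : ContinuousOn φ S) (hc : ContinuousOn c S)
    {X x L b κ h ε0 : ℝ} (hε0 : 0 < ε0)
    (hwin : ∀ ε, 0 < ε → ε ≤ ε0 →
      (X + ε * x) - sSup ((fun y => φ y + ε * c y) '' S) ≤ L + (b - κ * ε) * h)
    (heq : L + b * h ≤ X - sSup (φ '' S)) :
    ∃ y ∈ S, φ y = sSup (φ '' S) ∧ κ * h + x ≤ c y := by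
  set A : Set (ℝ × ℝ) := (fun y => (φ y, c y)) '' S with hA
  have hAc : IsCompact A := hS.image_of_continuousOn (hφ.prodMk hc)
  have himg : ∀ p : ℝ, (fun y : ℝ × ℝ => y.1 + p * y.2) '' A = (fun y => φ y + p * c y) '' S := by
    intro p
    rw [hA, image_image]
  have himg0 : (fun y : ℝ × ℝ => y.1 + 0 * y.2) '' A = φ '' S := by
    rw [himg 0]
    simp
  obtain ⟨y, hyA, hy1, hy2⟩ := Crest.Agent.R138.Sq248.sweep_compact (A := A) hAc (hne.image _)
    (x := (X, x)) (q := 0) (L := L) (b := b) (κ := κ) (h := h) hε0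
    (by
      intro ε hε hle
      have := hwin ε hε hle
      rw [himg (0 + ε), zero_add]
      exact this)
    (by
      rw [himg0]
      simpa using heq)
  obtain ⟨z, hz, rfl⟩ := hyA
  refine ⟨z, hz, ?_, hy2⟩
  rw [himg0] at hy1
  simpa using hy1

/-- Sweep of the maximisers for several rewards `q : ι → ℝ`, exponents `c : Y → ι → ℝ`, direction
`e ≥ 0`: every maximiser `x` of the upper level has a maximiser `y` of the lower level with
`κ h ∑ e + e·c x ≤ e·c y`. -/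
theorem sweep_rewards {Y Y' ι : Type*} [TopologicalSpace Y] [Fintype ι] {S : Set Y}
    (hS : IsCompact S) (hne : S.Nonempty) {S' : Set Y'} {φ : Y → ℝ} {φ' : Y' → ℝ} {c : Y → ι → ℝ}
    {c' : Y' → ι → ℝ} (hφ : ContinuousOn φ S) (hc : ContinuousOn c S) {q e : ι → ℝ}
    {L b κ h ε0 : ℝ} (hε0 : 0 < ε0) {x : Y'} (hx : x ∈ S')
    (hbdd : ∀ p : ι → ℝ, BddAbove ((fun y => φ' y + ∑ i, p i * c' y i) '' S'))
    (hwin : ∀ ε, 0 < ε → ε ≤ ε0 →
      sSup ((fun y => φ' y + ∑ i, (q i + ε * e i) * c' y i) '' S') -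
        sSup ((fun y => φ y + ∑ i, (q i + ε * e i) * c y i) '' S) ≤
          L + (b - κ * (ε * ∑ i, e i)) * h)
    (heq : L + b * h ≤ (φ' x + ∑ i, q i * c' x i) -
      sSup ((fun y => φ y + ∑ i, q i * c y i) '' S)) :
    ∃ y ∈ S, φ y + ∑ i, q i * c y i = sSup ((fun y => φ y + ∑ i, q i * c y i) '' S) ∧
      κ * (∑ i, e i) * h + ∑ i, e i * c' x i ≤ ∑ i, e i * c y i := by
  have hci : ∀ i, ContinuousOn (fun y => c y i) S := fun i =>
    (continuous_apply i).comp_continuousOn hc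
  have hsp : ∀ (ε : ℝ) (d : ι → ℝ), ∑ i, (q i + ε * e i) * d i =
      ∑ i, q i * d i + ε * ∑ i, e i * d i := by
    intro ε d
    rw [Finset.mul_sum, ← Finset.sum_add_distrib]
    exact Finset.sum_congr rfl fun i _ => by ring
  refine sweep_dir hS hne (φ := fun y => φ y + ∑ i, q i * c y i)
    (c := fun y => ∑ i, e i * c y i) (X := φ' x + ∑ i, q i * c' x i)
    (x := ∑ i, e i * c' x i) (L := L) (b := b) (κ := κ * ∑ i, e i) (h := h) ?_ ?_ hε0 ?_ heq
  · exact hφ.add (continuousOn_finsetSum _ fun i _ => continuousOn_const.mul (hci i))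
  · exact continuousOn_finsetSum _ fun i _ => continuousOn_const.mul (hci i)
  · intro ε hε hle
    have h1 := hwin ε hε hle
    have h2 : φ' x + ∑ i, (q i + ε * e i) * c' x i ≤
        sSup ((fun y => φ' y + ∑ i, (q i + ε * e i) * c' y i) '' S') :=
      le_csSup (hbdd _) ⟨x, hx, rfl⟩
    have h3 : (fun y => φ y + ∑ i, (q i + ε * e i) * c y i) =
        fun y => (φ y + ∑ i, q i * c y i) + ε * ∑ i, e i * c y i := by
      funext y
      rw [hsp]; ring
    rw [h3] at h1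
    rw [hsp] at h2
    have h4 : κ * (ε * ∑ i, e i) = κ * (∑ i, e i) * ε := by ring
    rw [h4] at h1
    linarith

/-- A tied record `b = a + k v` whose narrow exponent sweeps with `κ` has wide slope `≥ k + κ`. -/
theorem tied_slope {a b : ℝ → ℝ} {k κ : ℝ} (hb : ∀ u v, u ≤ v → κ * (v - u) ≤ b u - b v)
    {u v : ℝ} (huv : u ≤ v) (hu : b u = a u + k * u) (hv : b v = a v + k * v) :
    (k + κ) * (v - u) ≤ a u - a v := by
  have := hb u v huv
  nlinarith

end sweep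

end Crest.Agent.R116.Thr794
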