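import Mathlib
import Crest.Agent.R116.Tc4_635

/-!
# R116 K side: `MkA` + share / number at two levels ⟹ `TiltTwoA`, `TiltCrudeA` (helper635)

Ports of `TiltU2_51`, `TiltU0_51`, `TiltU_51` (R138) to the abstract marked sequence `MkA`.  The geometry
enters only through `ShNu` (file `Tc4_635`).
-/

set_option autoImplicit false
set_option linter.unusedVariables false

open Finset Filter Topology

namespace Crest.Agent.R116.Ti635

open Crest.Agent.R138.Ex926 Crest.Agent.R138.Dp76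
open Crest.Agent.R138.Mk163 (zc zl rho alive Negl)
open Crest.Agent.R138.TiltU51 (zc_nest card_cells alive_subset sum_bad le_dpow)
open Crest.Agent.R136.MkA627
open Crest.Agent.R116.Tc635

noncomputable section

variable {σ κ φ ι : Type*} {P : PDist φ ι} {B : Base} {I : ℕ → Finset (ℕ × ℝ)} {G : Geo σ κ}
    {lev : ℕ → ℚ → ℕ} {A : ℕ → ℝ} {c Λ : ℝ → ℝ} {τ : κ → ℝ → ℝ} {f : ℕ → ℚ → ℕ → ℤ → ℕ}
    {b : ℕ → ℚ → ℕ → σ} {vm : ℕ → ℚ → ℝ} {w : κ → ℕ → ℚ → ℝ} {e : ℕ → ℚ → ℕ → φ}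
    {pr : ι → ℕ → ℚ → ℝ}

/-- property of the marks of level `v` (field `mark` of `MkA`) -/
def mkP (G : Geo σ κ) (lev : ℕ → ℚ → ℕ) (vm : ℕ → ℚ → ℝ) (w : κ → ℕ → ℚ → ℝ) (n : ℕ) (v : ℚ)
    (J : ℤ) (s : σ) : Prop :=
  G.adm n (lev n v) J s ∧ G.val n (lev n v) J s = vm n v ∧ ∀ k, G.wid k s = w k n v

theorem mem_alive {I : Finset (ℕ × ℝ)} {i : ℕ} {J : ℤ} {t : ℕ} :
    t ∈ alive I i J ↔ ∃ x ∈ I, zc i x.2 = J ∧ x.1 = t :=
  Crest.Agent.R138.TiltU51.mem_alive

theorem ampA_pos (h : MkA B I G lev A c Λ τ f b vm w) (n : ℕ) (v : ℚ) : 0 < ampA B A c n v :=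
  mul_pos (h.Apos n) (dpow_pos B n _)

theorem ampA_ratio (h : MkA B I G lev A c Λ τ f b vm w) (n : ℕ) (u v : ℚ) :
    ampA B A c n u = B.d n ^ (c v - c u) * ampA B A c n v := by
  unfold ampA
  have e : B.d n ^ (-(c u)) = B.d n ^ (c v - c u) * B.d n ^ (-(c v)) := by
    rw [← dpow_add]; congr 1; ring
  rw [e]; ring

/-- the number of cells -/
theorem ev_RA (h : MkA B I G lev A c Λ τ f b vm w) {u v : ℚ} (hu : 0 ≤ u) (huv : u ≤ v)
    (hv : v ≤ 1) {η : ℝ} (hη : 0 < η) :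
    ∀ᶠ n in (U : Filter ℕ), lev n u ≤ lev n v ∧
      (2 : ℝ) ^ (lev n v - lev n u) ≤ B.d n ^ (-((v : ℝ) - u) - η) := by
  have h1 := (h.lev_lim u v hu huv hv).eventually
    (gt_mem_nhds (show (v : ℝ) - u < v - u + η by linarith))
  filter_upwards [h1, h.lev_mono u v hu huv hv] with n hn h2
  refine ⟨h2, ?_⟩
  have h3 : B.d n ^ (-((v : ℝ) - u) - η) = B.d n ^ (-((v : ℝ) - u + η)) := by congr 1; ring
  rw [h3]
  refine le_dpow (by positivity) ?_
  rw [Real.log_pow]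
  have h4 : ((lev n v - lev n u : ℕ) : ℝ) = (lev n v : ℝ) - lev n u := Nat.cast_sub h2
  rw [h4]
  exact hn.le

open Classical in
/-- number of incidences of a line in a cell of level `v` -/
theorem ev_nuA (h : MkA B I G lev A c Λ τ f b vm w) {v : ℚ} (h0 : 0 ≤ v)
    (h1 : v ≤ 1) {η : ℝ} (hη : 0 < η) :
    ∀ᶠ n in (U : Filter ℕ), ∀ x ∈ I n,
      B.d n ^ (-(1 - (v : ℝ)) + (Λ 1 - Λ v) + η) ≤
        (((I n).filter fun y => y.1 = x.1 ∧ zc (lev n v) y.2 = zc (lev n v) x.2).card : ℝ) ∧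
      (((I n).filter fun y => y.1 = x.1 ∧ zc (lev n v) y.2 = zc (lev n v) x.2).card : ℝ) ≤
        B.d n ^ (-(1 - (v : ℝ)) + (Λ 1 - Λ v) - η) := by
  have h2 := h.own v 1 h0 h1 le_rfl η hη
  simp only [Rat.cast_one] at h2
  filter_upwards [h2, h.one] with n hn hone x hx
  have h3 := hn x hx
  have h4 : (Crest.Agent.R138.Mk163.own (I n) (lev n v) (lev n 1) x).card =
      ((I n).filter fun y => y.1 = x.1 ∧ zc (lev n v) y.2 = zc (lev n v) x.2).card := by
    unfold Crest.Agent.R138.Mk163.own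
    rw [card_image_of_injOn]
    intro y hy y' hy' hyy
    rw [mem_coe, mem_filter] at hy hy'
    exact hone y hy.1 y' hy'.1 (hy.2.1.trans hy'.2.1.symm) hyy
  rw [h4] at h3
  exact h3

/-- bookkeeping of one stage: from the count of bad lines per small cell to the count of bad
incidences -/
theorem fin_stage {n : ℕ} {D ρ η R K : ℝ} (hη : 0 < η) (hη2 : 14 * η = ρ)
    (hR0 : 0 ≤ R) (hR : R ≤ B.d n ^ (-D - η)) (hK : K ≤ B.d n ^ (D + ρ - 4 * η)) :
    B.d n ^ (-(2 * η)) * (R * K) ≤ B.d n ^ (ρ / 2) := by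
  have P := fun t => (dpow_pos B n t)
  calc B.d n ^ (-(2 * η)) * (R * K)
      ≤ B.d n ^ (-(2 * η)) * (R * B.d n ^ (D + ρ - 4 * η)) :=
        mul_le_mul_of_nonneg_left (mul_le_mul_of_nonneg_left hK hR0) (P _).le
    _ ≤ B.d n ^ (-(2 * η)) * (B.d n ^ (-D - η) * B.d n ^ (D + ρ - 4 * η)) :=
        mul_le_mul_of_nonneg_left (mul_le_mul_of_nonneg_right hR (P _).le) (P _).le
    _ = B.d n ^ (-(2 * η) + ((-D - η) + (D + ρ - 4 * η))) := by rw [dpow_add, dpow_add]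
    _ = B.d n ^ (ρ / 2) := by congr 1; linarith

/-- hypothesis of the two-level tilt in the slot `j` : share and number for the marks of the levels `u`
and `v`, everything over cells of level `u` -/
def ShNuTwo (P : PDist φ ι) (B : Base) (G : Geo σ κ) (lev : ℕ → ℚ → ℕ) (c : ℝ → ℝ)
    (b : ℕ → ℚ → ℕ → σ) (vm : ℕ → ℚ → ℝ) (w : κ → ℕ → ℚ → ℝ) (e : ℕ → ℚ → ℕ → φ)
    (pr : ι → ℕ → ℚ → ℝ) (j : ι) (er : ℝ → ℝ → ℝ) : Prop :=
  ∀ u v : ℚ, 0 ≤ u → u < v → v ≤ 1 → ∀ ε : ℝ, 0 < ε → ∃ ρ : ℝ, 0 < ρ ∧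
    ∀ᶠ n in (U : Filter ℕ), 0 < max (pr j n u) (pr j n v) ∧
      ShNu G n (lev n u) (lev n u) (lev n v) (b n u) (b n v) (mkP G lev vm w n u)
        (mkP G lev vm w n v) (fun a a' => P.d j n (e n u a) (e n v a'))
        (max (pr j n u) (pr j n v) * B.d n ^ (-(er u v) - ε))
        (B.d n ^ ((v : ℝ) - u - (c v - c u) + ρ) * (vm n u * vm n v))

/-- hypothesis of the crude tilt in the slot `j` : share and number for the marks of level `v` in two
`v`-cells of one `u`-cell -/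
def ShNuCrude (P : PDist φ ι) (B : Base) (G : Geo σ κ) (lev : ℕ → ℚ → ℕ) (c : ℝ → ℝ)
    (b : ℕ → ℚ → ℕ → σ) (vm : ℕ → ℚ → ℝ) (w : κ → ℕ → ℚ → ℝ) (e : ℕ → ℚ → ℕ → φ)
    (pr : ι → ℕ → ℚ → ℝ) (j : ι) (er : ℝ → ℝ → ℝ) : Prop :=
  ∀ u v : ℚ, 0 ≤ u → u < v → v ≤ 1 → ∀ ε : ℝ, 0 < ε → ∃ ρ : ℝ, 0 < ρ ∧
    ∀ᶠ n in (U : Filter ℕ), 0 < pr j n v ∧
      ShNu G n (lev n u) (lev n v) (lev n v) (b n v) (b n v) (mkP G lev vm w n v)
        (mkP G lev vm w n v) (fun a a' => P.d j n (e n v a) (e n v a'))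
        (pr j n v * B.d n ^ (-(er u v) - ε))
        (B.d n ^ ((v : ℝ) - u - 2 * (c v - c u) + ρ) * (vm n v * vm n v))

set_option maxHeartbeats 1000000 in
/-- **(T)** tilt between two levels from share and number -/
theorem tiltTwoA_of (h : MkA B I G lev A c Λ τ f b vm w) {j : ι} {er : ℝ → ℝ → ℝ}
    (H : ShNuTwo P B G lev c b vm w e pr j er) : TiltTwoA P B I lev f e pr j er := by
  classical
  intro u v hu huv hv ε hε
  obtain ⟨ρ, hρ, H⟩ := H u v hu huv hv ε hε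
  set η : ℝ := ρ / 14 with hη
  have hη0 : 0 < η := by positivity
  have hη14 : 14 * η = ρ := by rw [hη]; ring
  have huvR : (u : ℝ) < v := by exact_mod_cast huv
  set D : ℝ := (v : ℝ) - u with hD
  have hv0 := hu.trans huv.le
  have hu1 := huv.le.trans hv
  refine ⟨ρ / 2, by positivity, ?_⟩
  filter_upwards [H, h.near u hu hu1 η hη0, h.near v hv0 hv η hη0, h.dmax u hu hu1 η hη0,
    h.mark u hu hu1, h.mark v hv0 hv, h.vpos u hu hu1, h.vpos v hv0 hv,
    ev_RA h hu huv.le hv hη0, ev_nuA h hu hu1 hη0, ev_nuA h hv0 hv hη0] with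
    n Hn nu nv dm mu mv pu pv hR cu cv
  obtain ⟨hprec, Hn⟩ := Hn
  obtain ⟨hij, hR2⟩ := hR
  set R : ℝ := 2 ^ (lev n v - lev n u) with hRdef
  have hR0 : 0 ≤ R := by positivity
  have hau := ampA_pos h n u
  have hav := ampA_pos h n v
  have PP := fun t => (dpow_pos B n t)
  set θ : ℝ := max (pr j n u) (pr j n v) * B.d n ^ (-(er u v) - ε) with hθ
  have hθ0 : 0 < θ := mul_pos hprec (PP _)
  set K : ℝ := B.d n ^ (D + ρ - 4 * η) with hK
  have hcell : ∀ x0 ∈ I n, ((((I n).filter fun x => zc (lev n v) x.2 = zc (lev n v) x0.2 ∧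
        θ ≤ P.d j n (frA lev f e n u x) (frA lev f e n v x)).image Prod.fst).card : ℝ) ≤
      K * ((((I n).filter fun x => zc (lev n u) x.2 = zc (lev n u) x0.2).image Prod.fst).card : ℝ) := by
    intro x0 hx0
    set J1 : ℤ := zc (lev n u) x0.2 with hJ1
    set J2 : ℤ := zc (lev n v) x0.2 with hJ2
    set S1 : Finset ℕ := alive (I n) (lev n u) J1 with hS1
    set S2 : Finset ℕ := alive (I n) (lev n v) J2 with hS2
    have hS21 : S2 ⊆ S1 := alive_subset hij hx0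
    have hcard : ((((I n).filter fun x => zc (lev n u) x.2 = J1).image Prod.fst).card : ℝ) =
        (S1.card : ℝ) := rfl
    rw [hcard]
    have key := Hn.cell hθ0 (S := S1) (S1 := S1) (S2 := S2) (f := fun t => f n u t J1)
      (g := fun t => f n v t J2) (J := J1) (J1 := J1) (J2 := J2)
      (M := B.d n ^ (-η) * ampA B A c n u) (M1 := ampA B A c n u * vm n u)
      (M2 := ampA B A c n v * vm n v) (E1 := B.d n ^ (-η)) (E2 := B.d n ^ (-η))
      (Finset.Subset.refl _) hS21 ⟨x0.2, rfl, rfl⟩ ⟨x0.2, rfl, rfl⟩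
      (mul_nonneg (PP _).le hau.le) (mul_nonneg hau.le pu.le) (mul_nonneg hav.le pv.le)
      (PP _).le (PP _).le (fun s hs => dm J1 s hs)
      (fun t ht => ⟨(mu J1 t ht).1, (mu J1 t ht).2.1, (mu J1 t ht).2.2.1, (mu J1 t ht).2.2.2⟩)
      (fun t ht => ⟨(mv J2 t ht).1, (mv J2 t ht).2.1, (mv J2 t ht).2.2.1, (mv J2 t ht).2.2.2⟩)
      (fun t ht => nu J1 t ht) (fun t ht => nv J2 t ht)
    have hsub : (((I n).filter fun x => zc (lev n v) x.2 = J2 ∧
        θ ≤ P.d j n (frA lev f e n u x) (frA lev f e n v x)).image Prod.fst) ⊆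
        (S1 ∩ S2).filter fun t => θ ≤ P.d j n (e n u (f n u t J1)) (e n v (f n v t J2)) := by
      intro t ht
      rw [mem_image] at ht
      obtain ⟨x, hx, rfl⟩ := ht
      rw [mem_filter] at hx
      obtain ⟨hxI, hxc, hxb⟩ := hx
      have hx2 : x.1 ∈ S2 := mem_alive.2 ⟨x, hxI, hxc, rfl⟩
      rw [mem_filter, mem_inter]
      refine ⟨⟨hS21 hx2, hx2⟩, ?_⟩
      unfold frA at hxb
      rw [hxc, zc_nest hij hxc] at hxb
      exact hxb
    have hle : ((((I n).filter fun x => zc (lev n v) x.2 = J2 ∧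
        θ ≤ P.d j n (frA lev f e n u x) (frA lev f e n v x)).image Prod.fst).card : ℝ) ≤
        (((S1 ∩ S2).filter fun t => θ ≤ P.d j n (e n u (f n u t J1)) (e n v (f n v t J2))).card : ℝ) := by
      exact_mod_cast card_le_card hsub
    refine hle.trans ?_
    have hpos : 0 < ampA B A c n u * vm n u * (ampA B A c n v * vm n v) := by positivity
    refine le_of_mul_le_mul_right (key.trans (le_of_eq ?_)) hpos
    rw [hK]
    have e1 : B.d n ^ (D + ρ - 4 * η) = B.d n ^ (-η) * B.d n ^ (-η) * (B.d n ^ (-η) * B.d n ^ (-η)) *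
        (B.d n ^ (c v - c u) * B.d n ^ (D - (c v - c u) + ρ)) := by
      rw [← dpow_add, ← dpow_add, ← dpow_add, ← dpow_add]; congr 1; ring
    rw [e1]
    have e2 := ampA_ratio h n u v
    calc B.d n ^ (-η) * B.d n ^ (-η) * ((B.d n ^ (-η) * ampA B A c n u) ^ 2 *
          (B.d n ^ (D - (c v - c u) + ρ) * (vm n u * vm n v))) * (S1.card : ℝ)
        = B.d n ^ (-η) * B.d n ^ (-η) * (B.d n ^ (-η) * B.d n ^ (-η)) *
          (ampA B A c n u * B.d n ^ (D - (c v - c u) + ρ)) * (S1.card : ℝ) *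
            (ampA B A c n u * (vm n u * vm n v)) := by ring
      _ = B.d n ^ (-η) * B.d n ^ (-η) * (B.d n ^ (-η) * B.d n ^ (-η)) *
          ((B.d n ^ (c v - c u) * ampA B A c n v) * B.d n ^ (D - (c v - c u) + ρ)) *
            (S1.card : ℝ) * (ampA B A c n u * (vm n u * vm n v)) := by rw [← e2]
      _ = _ := by ring
  have hν1 := PP (-(1 - (u : ℝ)) + (Λ 1 - Λ u) + η)
  have hν2 := PP (-(1 - (v : ℝ)) + (Λ 1 - Λ v) - η)
  have hsum := sum_bad (I := I n) (obj := Prod.fst) (c := fun x => zc (lev n u) x.2)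
    (c' := fun x => zc (lev n v) x.2)
    (bad := fun x => θ ≤ P.d j n (frA lev f e n u x) (frA lev f e n v x))
    (K := K) (N := R) (PP _).le (fun x _ y _ hxy => zc_nest hij hxy)
    (fun x0 hx0 => by convert hcell x0 hx0) hν2.le hν1.le
    (fun x hx => by
      have := card_cells hij (I n) (zc (lev n u) x.2)
      rw [hRdef]
      exact_mod_cast this)
    (fun x hx => (cv x hx).2) (fun x hx => (cu x hx).1)
  have hfin := fin_stage (B := B) (n := n) (D := D) (K := K) hη0 hη14 hR0 hR2 le_rfl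
  have hνν : B.d n ^ (-(1 - (v : ℝ)) + (Λ 1 - Λ v) - η) ≤
      B.d n ^ (-(2 * η)) * B.d n ^ (-(1 - (u : ℝ)) + (Λ 1 - Λ u) + η) := by
    rw [← dpow_add]
    apply dpow_le
    have := (h.lam u v (by exact_mod_cast hu) huvR.le (by exact_mod_cast hv)).2
    linarith
  have hI0 : (0 : ℝ) ≤ (I n).card := Nat.cast_nonneg _
  have hRK : 0 ≤ R * K * ((I n).card : ℝ) := by have := PP (D + ρ - 4 * η); positivity
  refine le_of_mul_le_mul_right (hsum.trans ?_) hν1
  calc B.d n ^ (-(1 - (v : ℝ)) + (Λ 1 - Λ v) - η) * R * K * ((I n).card : ℝ)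
      = B.d n ^ (-(1 - (v : ℝ)) + (Λ 1 - Λ v) - η) * (R * K * ((I n).card : ℝ)) := by ring
    _ ≤ (B.d n ^ (-(2 * η)) * B.d n ^ (-(1 - (u : ℝ)) + (Λ 1 - Λ u) + η)) *
          (R * K * ((I n).card : ℝ)) := mul_le_mul_of_nonneg_right hνν hRK
    _ = (B.d n ^ (-(2 * η)) * (R * K)) * ((I n).card : ℝ) *
          B.d n ^ (-(1 - (u : ℝ)) + (Λ 1 - Λ u) + η) := by ring
    _ ≤ B.d n ^ (ρ / 2) * ((I n).card : ℝ) *
          B.d n ^ (-(1 - (u : ℝ)) + (Λ 1 - Λ u) + η) :=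
        mul_le_mul_of_nonneg_right (mul_le_mul_of_nonneg_right hfin hI0) hν1.le

set_option maxHeartbeats 1000000 in
/-- **(T0)** crude tilt from share and number -/
theorem tiltCrudeA_of (h : MkA B I G lev A c Λ τ f b vm w) {j : ι} {er : ℝ → ℝ → ℝ}
    (H : ShNuCrude P B G lev c b vm w e pr j er) : TiltCrudeA P B I lev f e pr j er := by
  classical
  intro u v hu huv hv ε hε
  obtain ⟨ρ, hρ, H⟩ := H u v hu huv hv ε hε
  set η : ℝ := ρ / 14 with hη
  have hη0 : 0 < η := by positivity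
  have hη14 : 14 * η = ρ := by rw [hη]; ring
  have huvR : (u : ℝ) < v := by exact_mod_cast huv
  set D : ℝ := (v : ℝ) - u with hD
  have hv0 := hu.trans huv.le
  have hu1 := huv.le.trans hv
  refine ⟨ρ / 2, by positivity, ?_⟩
  filter_upwards [H, h.near v hv0 hv η hη0, h.dmax u hu hu1 η hη0, h.mark v hv0 hv,
    h.vpos v hv0 hv, ev_RA h hu huv.le hv hη0, ev_nuA h hv0 hv hη0] with
    n Hn nv dm mv pv hR cv
  obtain ⟨hprec, Hn⟩ := Hn
  obtain ⟨hij, hR2⟩ := hR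
  set R : ℝ := 2 ^ (lev n v - lev n u) with hRdef
  have hR0 : 0 ≤ R := by positivity
  have hau := ampA_pos h n u
  have hav := ampA_pos h n v
  have PP := fun t => (dpow_pos B n t)
  set θ : ℝ := pr j n v * B.d n ^ (-(er u v) - ε) with hθ
  have hθ0 : 0 < θ := mul_pos hprec (PP _)
  set K : ℝ := B.d n ^ (D + ρ - 4 * η) with hK
  have hcell : ∀ x0 ∈ I n, ((((I n).filter fun x => zc (lev n v) x.2 = zc (lev n v) x0.2 ∧
        ∃ y ∈ I n, y.1 = x.1 ∧ zc (lev n u) y.2 = zc (lev n u) x.2 ∧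
        θ ≤ P.d j n (frA lev f e n v x) (frA lev f e n v y)).image Prod.fst).card : ℝ) ≤
      (R * K) *
        ((((I n).filter fun x => zc (lev n v) x.2 = zc (lev n v) x0.2).image Prod.fst).card : ℝ) := by
    intro x0 hx0
    set J0 : ℤ := zc (lev n u) x0.2 with hJ0
    set J1 : ℤ := zc (lev n v) x0.2 with hJ1
    set S0 : Finset ℕ := alive (I n) (lev n u) J0 with hS0
    set S1 : Finset ℕ := alive (I n) (lev n v) J1 with hS1
    have hS10 : S1 ⊆ S0 := alive_subset hij hx0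
    have hcard : ((((I n).filter fun x => zc (lev n v) x.2 = J1).image Prod.fst).card : ℝ) =
        (S1.card : ℝ) := rfl
    rw [hcard]
    set cells : Finset ℤ := ((I n).filter fun y => zc (lev n u) y.2 = J0).image
      fun y => zc (lev n v) y.2 with hcells
    set bad : ℤ → Finset ℕ := fun J2 => (S1 ∩ alive (I n) (lev n v) J2).filter fun t =>
      θ ≤ P.d j n (e n v (f n v t J1)) (e n v (f n v t J2)) with hbad
    have h1 : (((I n).filter fun x => zc (lev n v) x.2 = J1 ∧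
        ∃ y ∈ I n, y.1 = x.1 ∧ zc (lev n u) y.2 = zc (lev n u) x.2 ∧
        θ ≤ P.d j n (frA lev f e n v x) (frA lev f e n v y)).image Prod.fst) ⊆
        cells.biUnion bad := by
      intro t ht
      rw [mem_image] at ht
      obtain ⟨x, hx, rfl⟩ := ht
      rw [mem_filter] at hx
      obtain ⟨hxI, hxc, y, hy, hy1, hy2, hy3⟩ := hx
      rw [mem_biUnion]
      have hyi : zc (lev n u) y.2 = J0 := hy2.trans (zc_nest hij hxc)
      refine ⟨zc (lev n v) y.2, mem_image.2 ⟨y, mem_filter.2 ⟨hy, hyi⟩, rfl⟩, ?_⟩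
      rw [hbad, mem_filter, mem_inter]
      refine ⟨⟨mem_alive.2 ⟨x, hxI, hxc, rfl⟩, mem_alive.2 ⟨y, hy, rfl, hy1⟩⟩, ?_⟩
      unfold frA at hy3
      rw [hxc, hy1] at hy3
      exact hy3
    have h2 : ∀ J2 ∈ cells, ((bad J2).card : ℝ) ≤ K * (S1.card : ℝ) := by
      intro J2 hJ2
      rw [mem_image] at hJ2
      obtain ⟨y, hy, rfl⟩ := hJ2
      rw [mem_filter] at hy
      have hS20 : alive (I n) (lev n v) (zc (lev n v) y.2) ⊆ S0 := by
        rw [hS0, ← hy.2]; exact alive_subset hij hy.1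
      have key := Hn.cell hθ0 (S := S0) (S1 := S1) (S2 := alive (I n) (lev n v) (zc (lev n v) y.2))
        (f := fun t => f n v t J1)
        (g := fun t => f n v t (zc (lev n v) y.2)) (J := J0) (J1 := J1) (J2 := zc (lev n v) y.2)
        (M := B.d n ^ (-η) * ampA B A c n u) (M1 := ampA B A c n v * vm n v)
        (M2 := ampA B A c n v * vm n v) (E1 := B.d n ^ (-η)) (E2 := B.d n ^ (-η))
        hS10 hS20 ⟨x0.2, rfl, rfl⟩ ⟨y.2, hy.2, rfl⟩
        (mul_nonneg (PP _).le hau.le) (mul_nonneg hav.le pv.le) (mul_nonneg hav.le pv.le)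
        (PP _).le (PP _).le (fun s hs => dm J0 s hs)
        (fun t ht => ⟨(mv J1 t ht).1, (mv J1 t ht).2.1, (mv J1 t ht).2.2.1, (mv J1 t ht).2.2.2⟩)
        (fun t ht => ⟨(mv _ t ht).1, (mv _ t ht).2.1, (mv _ t ht).2.2.1, (mv _ t ht).2.2.2⟩)
        (fun t ht => nv J1 t ht) (fun t ht => nv _ t ht)
      have hpos : 0 < ampA B A c n v * vm n v * (ampA B A c n v * vm n v) := by positivity
      refine le_of_mul_le_mul_right (key.trans (le_of_eq ?_)) hpos
      rw [hK]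
      have e1 : B.d n ^ (D + ρ - 4 * η) =
          B.d n ^ (-η) * B.d n ^ (-η) * (B.d n ^ (-η) * B.d n ^ (-η)) *
          (B.d n ^ (c v - c u) * B.d n ^ (c v - c u) * B.d n ^ (D - 2 * (c v - c u) + ρ)) := by
        rw [← dpow_add, ← dpow_add, ← dpow_add, ← dpow_add, ← dpow_add]; congr 1; ring
      rw [e1]
      have e2 := ampA_ratio h n u v
      rw [e2]
      ring
    have h3 : (cells.card : ℝ) ≤ R := by
      rw [hRdef]
      exact_mod_cast card_cells hij (I n) J0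
    have hK0 : 0 ≤ K := (PP _).le
    calc (((((I n).filter fun x => zc (lev n v) x.2 = J1 ∧
        ∃ y ∈ I n, y.1 = x.1 ∧ zc (lev n u) y.2 = zc (lev n u) x.2 ∧
        θ ≤ P.d j n (frA lev f e n v x) (frA lev f e n v y)).image Prod.fst).card : ℕ) : ℝ)
        ≤ ((cells.biUnion bad).card : ℝ) := by exact_mod_cast card_le_card h1
      _ ≤ ∑ J2 ∈ cells, ((bad J2).card : ℝ) := by exact_mod_cast card_biUnion_le
      _ ≤ ∑ J2 ∈ cells, K * (S1.card : ℝ) := sum_le_sum h2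
      _ = (cells.card : ℝ) * (K * S1.card) := by rw [sum_const, nsmul_eq_mul]
      _ ≤ R * (K * S1.card) := mul_le_mul_of_nonneg_right h3 (by positivity)
      _ = (R * K) * (S1.card : ℝ) := by ring
  have hν1 := PP (-(1 - (v : ℝ)) + (Λ 1 - Λ v) + η)
  have hν2 := PP (-(1 - (v : ℝ)) + (Λ 1 - Λ v) - η)
  have hRK0 : 0 ≤ R * K := mul_nonneg hR0 (PP _).le
  have hsum := sum_bad (I := I n) (obj := Prod.fst) (c := fun x => zc (lev n v) x.2)
    (c' := fun x => zc (lev n v) x.2)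
    (bad := fun x => ∃ y ∈ I n, y.1 = x.1 ∧ zc (lev n u) y.2 = zc (lev n u) x.2 ∧
        θ ≤ P.d j n (frA lev f e n v x) (frA lev f e n v y))
    (K := R * K) (N := 1) hRK0 (fun x _ y _ hxy => hxy)
    (fun x0 hx0 => by convert hcell x0 hx0) hν2.le hν1.le
    (fun x hx => by
      have h1 : (((I n).filter fun y => zc (lev n v) y.2 = zc (lev n v) x.2).image
          fun x => zc (lev n v) x.2) ⊆ {zc (lev n v) x.2} := by
        intro J hJ
        rw [mem_image] at hJ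
        obtain ⟨y, hy, rfl⟩ := hJ
        rw [mem_singleton]
        exact (mem_filter.1 hy).2
      have h2 := card_le_card h1
      rw [card_singleton] at h2
      exact_mod_cast h2)
    (fun x hx => (cv x hx).2) (fun x hx => (cv x hx).1)
  have hfin := fin_stage (B := B) (n := n) (D := D) (K := K) hη0 hη14 hR0 hR2 le_rfl
  have hνν : B.d n ^ (-(1 - (v : ℝ)) + (Λ 1 - Λ v) - η) =
      B.d n ^ (-(2 * η)) * B.d n ^ (-(1 - (v : ℝ)) + (Λ 1 - Λ v) + η) := by
    rw [← dpow_add]; congr 1; ring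
  have hI0 : (0 : ℝ) ≤ (I n).card := Nat.cast_nonneg _
  refine le_of_mul_le_mul_right (hsum.trans ?_) hν1
  calc B.d n ^ (-(1 - (v : ℝ)) + (Λ 1 - Λ v) - η) * 1 * (R * K) * ((I n).card : ℝ)
      = (B.d n ^ (-(2 * η)) * (R * K)) * ((I n).card : ℝ) *
          B.d n ^ (-(1 - (v : ℝ)) + (Λ 1 - Λ v) + η) := by rw [hνν]; ring
    _ ≤ B.d n ^ (ρ / 2) * ((I n).card : ℝ) *
          B.d n ^ (-(1 - (v : ℝ)) + (Λ 1 - Λ v) + η) :=
        mul_le_mul_of_nonneg_right (mul_le_mul_of_nonneg_right hfin hI0) hν1.le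

end

end Crest.Agent.R116.Ti635
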