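import Crest.Agent.R116.Tk8_126
import Crest.Agent.R116.Pd2_363

/-!
# R116 (K side, ties), `KUp'` at `k = 1` on plane data (helper126)

* **`kU1up`** : `KUp'` for `k = 1` from 736's plane data on `kU`, `D` raised by one unit
-/

set_option autoImplicit false
set_option linter.unusedVariables false
set_option linter.unusedSectionVars false

open Set Filter Topology MeasureTheory

namespace Crest.Agent.R116.Ku126

open Crest.Agent.R136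
open Crest.Agent.R136.Net191
open Crest.Agent.R138.Ex926 (IsTan)
open Crest.Agent.R116.ChL222
open Crest.Agent.R116.PL504 (eL βL rL)
open Crest.Agent.R116.Sg337 (coneL DL)
open Crest.Agent.R116.RbM219
open Crest.Agent.R116.RbK219 (SOk RS Par dl)
open Crest.Agent.R116.SgO219 (PP)
open Crest.Agent.R116.Kz647
open Crest.Agent.R116.Rcx363
open Crest.Agent.R116.Pd363
open Crest.Agent.R116.Tq741
open Crest.Agent.R116.Tq126
open Crest.Agent.R116.Tp139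
open Dg219 (mw)
open Sl741 (slice xt rs)
open Tie460 (Pl KF' KUp')

section eight

variable {R s : ℝ} {a b : Fin 2} {Vis' : Fin 12 → Prop} {θ θb g qa qb w0 sa sb v0 : ℝ}
    {f : Fin 2 → (Fin 12 → ℝ) → ℝ} {l α : ℝ} {h' : ℕ → ℝ} {X : ℕ → Fin 12 → ℝ} {H : ℕ → ℝ}
    {lam3 lam4 : Fin 2 → (Fin 12 → ℝ) → ℝ} {ρ ρ3 ρ4 : Fin 8 → ℝ}

/-- **`KUp'`, `k = 1`**, from the plane data of `kU` at `t = 1` -/
theorem kU1up (hb : θb = 2 * θ - 1)
    (P : Pd8 R s a b Vis' θ θb w0 sa sb v0 1 (DL g s qa qb 0 1 2) kU 1 f lam3 ρ3 l α h' X H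
      lam4 ρ4)
    (he : ∀ t, nat8 1 (-θ) (-θb) t ≠ 0 → ρ4 t = ρ t)
    (hT : ∀ τ : ℝ, lam4 0 (xt kp 0 (RL8.vec (τ • nat8 1 (-θ) (-θb)))) =
      DL g s qa qb τ (-(θ * τ)) (-(θb * τ)))
    (hθ : 0 < θ) (hVis : ∀ k, Vis' k → k = 0 ∨ k = 1 ∨ k = 2 ∨ k = 7 ∨ k = 8)
    (hK : ∀ {φ : Fin 9 → V9 → ℝ}, Cl9 (cK 1) (sn8 (dl (nat8 1 (-θ) (-θb)) kU 1) 1) s
      (fun w => lam4 0 (xt kp 0 (RL8.vec (fun i : Fin 8 => w i.castSucc)))) φ (sn8 ρ4 0) →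
      KF' s 1 (Tk299.AK (cK 1) s φ (sn8 ρ4 0)))
    {A : Pl} (ant : ρ 1 ≤ A.m) (pos : qa ≤ ρ 1) : ∃ B, KUp' 1 θ s g qa qb A B := by
  obtain ⟨φ, C⟩ := P.cls one_pos (sok_kU hθ one_pos hb) hVis (hc_kU hθ one_pos hb) h8_cK
    (hz_kU hθ one_pos hb)
  have tv : TVk 1 θ s g qa qb 0 1 (Tk299.AK (cK 1) s φ (sn8 ρ4 0)) := by
    refine tvK C (tk8_U hb) (fun _ => rfl) ?_ ?_
    · show lam4 0 (xt kp 0 (RL8.vec (fun i : Fin 8 =>
        nat9 1 (-θ) (-(2 * θ - 1)) i.castSucc))) = _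
      rw [cut_nat, ← hb]
      have h1 := hT 1
      rw [one_smul, mul_one, mul_one] at h1
      exact h1
    · have e : (2:ℝ) * 1 + 1 * 0 = 2 := by norm_num
      rw [e]
      show lam4 0 (xt kp 0 (RL8.vec (fun i : Fin 8 => nat9 0 1 2 i.castSucc))) ≤ _
      rw [cut_nat]
      exact P.half.row
  have hm : ρ4 1 = ρ 1 := he 1 (by
    show -θ ≠ 0
    exact neg_ne_zero.2 hθ.ne')
  refine ⟨_, kUp_of (hK C) tv (by norm_num) (fun _ => ?_) ?_⟩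
  · show ρ4 1 ≤ A.m
    rw [hm]; exact ant
  · show qa ≤ ρ4 1
    rw [hm]; exact pos

end eight

end Crest.Agent.R116.Ku126
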