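import Crest.Agent.R116.Tk3_299

/-!
# R116 (K side, ties): `κ`-tie with `k = 1`, the rate of `N` (helper647)

* `Cl9.tans` : tangents of all classes along one sequence of scales
* `K3K s Λ`  : (K3) at a `κ`-tie with `k = 1`; classes `{z, G}`, `{C_b, H}` (on its diagonal),
  `{X, N, B}`
* `PlK.n1`   : `nK ≤ s`
-/

set_option autoImplicit false
set_option linter.unusedSectionVars false
set_option linter.unusedVariables false

open Set Filter Topology Metric MeasureTheory
open scoped NNReal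

namespace Crest.Agent.R116.Tk299

open Crest.Agent.R136
open Crest.Agent.R138
open Tie460 (Pl)
open RbM219 (nat9)
open Tq741

variable {c : Fin 9 → Fin 9} {dl : V9} {s : ℝ} {Λ : V9 → ℝ} {φ : Fin 9 → V9 → ℝ} {ρ : V9}
variable {L : Prop} {k : ℝ} {Sk : V9 → Prop}

/-- tangents of all the classes -/
theorem cl9_tans (H : Cl9 c dl s Λ φ ρ) {w : V9} (hw : LegM 0 w) :
    ∃ (h : ℕ → ℝ) (lm : Fin 9 → V9 → ℝ), (∀ m, 0 < h m) ∧ Tendsto h atTop (𝓝[>] 0) ∧
      (∀ k d, LegM 0 d → Tendsto (fun m => (φ k (w + h m • d) - φ k w) / h m) atTop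
        (𝓝 (lm k d))) ∧
      ∀ k d d', (∀ t, c t = k → d t = d' t) → LegM 0 d → LegM 0 d' → lm k d = lm k d' := by
  obtain ⟨K, hK⟩ := H.lip
  have hs : Tendsto (fun m : ℕ => ((m : ℝ) + 1)⁻¹) atTop (𝓝[>] 0) := by
    refine tendsto_nhdsWithin_iff.2 ⟨?_, Eventually.of_forall fun m => ?_⟩
    · have := tendsto_one_div_add_atTop_nhds_zero_nat (𝕜 := ℝ)
      simpa [one_div] using this
    · show (0:ℝ) < _
      positivity
  obtain ⟨θ, hθ, lam, hlam⟩ := Rc683.exists_tan (J := Fin 9) (P := fun _ => {w : V9 | LegM 0 w})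
    (D := fun _ => {w : V9 | LegM 0 w}) (fun _ => isClosed_leg) (ν := φ) (K := K)
    K.2 (fun k p hp q hq => by
      have := (hK k).dist_le_mul p hp q hq
      rwa [Real.dist_eq, dist_eq_norm] at this)
    (x := fun _ => w) (h := fun m : ℕ => ((m : ℝ) + 1)⁻¹) (fun m => by positivity)
    (fun _ C => Eventually.of_forall fun m d hd _ => hw.add_smul hd (by positivity))
    (fun _ => leg_zero)
  set h' : ℕ → ℝ := fun m => ((θ m : ℝ) + 1)⁻¹ with hh'
  have hpos : ∀ m, 0 < h' m := fun m => by simp only [hh']; positivity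
  have hs' : Tendsto h' atTop (𝓝[>] 0) := hs.comp hθ.tendsto_atTop
  have hl : ∀ k d, LegM 0 d → Tendsto (fun m => (φ k (w + h' m • d) - φ k w) / h' m) atTop
      (𝓝 (lam k d)) := by
    intro k d hd
    rw [Metric.tendsto_nhds]
    intro ε hε
    filter_upwards [hlam k ‖d‖ (ε / 2) (by positivity)] with m hm
    have h3 := (hm d hd le_rfl).2
    have hh := hpos m
    rw [Real.dist_eq]
    have e : (φ k (w + h' m • d) - φ k w) / h' m - lam k d =
        (φ k (w + h' m • d) - φ k w - h' m * lam k d) / h' m := by field_simp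
    rw [e, abs_div, abs_of_pos hh]
    calc _ ≤ (ε / 2 * h' m) / h' m := div_le_div_of_nonneg_right h3 hh.le
      _ = ε / 2 := by field_simp
      _ < ε := by linarith
  refine ⟨h', lam, hpos, hs', hl, fun k d d' hdd hd hd' => ?_⟩
  have h1 := hl k d hd
  have h2 := hl k d' hd'
  exact tendsto_nhds_unique h1 (h2.congr fun m => by
    rw [H.loc k (w + h' m • d') (w + h' m • d) fun t ht => by
      simp only [Pi.add_apply, Pi.smul_apply, hdd t ht]])

/-- **(K3) at a `κ`-tie with `k = 1`**; `Q` = the class `{C_b, H}` on its diagonal, `q` = its rate -/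
def K3K (s : ℝ) (Λ : V9 → ℝ) : Prop :=
  ∀ (w R : V9) (Ψ Q : V9 → ℝ) (q : ℝ) (h : ℕ → ℝ),
    gap w 7 = 0 → gap w 9 = 0 → (∀ i, i ≠ 7 → i ≠ 9 → 0 < gap w i) → w 7 = w 0 →
    (∀ m, 0 < h m) → Tendsto h atTop (𝓝 0) →
    (∀ d d', d 0 = d' 0 → d 7 = d' 7 → d 8 = d' 8 → LegM 0 d → LegM 0 d' → Ψ d = Ψ d') →
    (∀ d, LegM 0 d → d 2 = d 5 → Q d = q * d 2) →
    (∀ d, LegM 0 d → Tendsto (fun m => (Λ (w + h m • d) - Λ w) / h m) atTop
      (𝓝 (-(Ψ d + Q d + (R 1 * d 1 + R 3 * d 3 + R 4 * d 4 + R 6 * d 6))))) →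
    1 - s ≤ q → 1 - s ≤ R 4

/-- the base of the path of `N` -/
def wN1 : V9 := ![0, 50, 10, 1, 0, 10, 1, 0, 100]

theorem leg_wN1 : LegM 1 wN1 := by constructor <;> simp only [wN1, Matrix.cons_val] <;> norm_num

theorem leg_wN1' {y m : ℝ} (hy : y + m ≤ 2) (hm : m ≤ 1) : LegM m (wN1 + y • e9 4) := by
  constructor <;> simp only [wN1] <;> vv <;> linarith

/-- **`n ≤ s` at `k = 1`** -/
theorem PlK.n1 (P : PlK L 1 c dl) (H : Cl9 c dl s Λ φ ρ) (K : K3K s Λ) (h2 : 1 - s ≤ ρ 2) :
    nK c φ ≤ s := by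
  have hloc : ∀ w w' : V9, w 3 = w' 3 → w 4 = w' 4 → w 6 = w' 6 → φ (c 4) w = φ (c 4) w' := by
    intro w w' a b d
    refine H.loc _ _ _ fun t ht => ?_
    rw [P.c4] at ht
    rcases P.k346.1 ht with rfl | rfl | rfl
    · exact a
    · exact b
    · exact d
  have e1 : nK c φ = 1 - (φ (c 4) wN1 - φ (c 4) (wN1 + (2:ℝ) • e9 4)) / 2 := by
    unfold nK
    rw [hloc (e9 3 + e9 6) wN1 (by simp [wN1, e9]) (by simp [wN1, e9]) (by simp [wN1, e9]),
      hloc (e9 3 + e9 6 + (2:ℝ) • e9 4) (wN1 + (2:ℝ) • e9 4) (by simp [wN1, e9])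
        (by simp [wN1, e9]) (by simp [wN1, e9])]
  have hI : ∀ y y' : ℝ, y ≤ y' → y' ≤ 2 →
      0 ≤ φ (c 4) (wN1 + y • e9 4) - φ (c 4) (wN1 + y' • e9 4) := by
    intro y y' h1 h3
    refine H.incr_nonneg (leg_wN1' (by linarith) (by norm_num)) (leg_wN1' (by linarith)
      (by norm_num)) (c 4) (fun i hi => ?_) ?_
    · have : i ≠ 4 := fun h => hi (by rw [h])
      rw [add_e9_ne this, add_e9_ne this]
    · intro i
      by_cases hi : i = 4
      · subst hi; rw [add_e9_same, add_e9_same]; linarith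
      · rw [add_e9_ne hi, add_e9_ne hi]
  have key : ∀ δ : ℝ, 0 < δ → δ < 1 →
      (1 - s) * (2 - δ) ≤ φ (c 4) wN1 - φ (c 4) (wN1 + (2 - δ) • e9 4) := by
    intro δ hδ hδ1
    refine H.mv_ge (t := 4) (w0 := wN1) (y := 2 - δ) (q := 1 - s) (η := δ / 100) (by linarith)
      (by positivity) (leg_wN1.mono (by linarith)) (leg_wN1' (by linarith) (by linarith))
      (N := univ) (by simp) ?_
    intro x hx w _ hw _ R hR
    have b3 := nbd hw 3
    have b4 := nbd hw 4
    have b6 := nbd hw 6
    simp only [wN1, Matrix.cons_val, Pi.add_apply, Pi.smul_apply, smul_eq_mul, e9, Pi.single_apply,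
      Fin.reduceEq, reduceIte, mul_one, mul_zero, add_zero, zero_add] at b3 b4 b6
    set w' : V9 := ![0, 50, w 4, w 3, w 4, w 4, w 6, 0, 100] with hw'
    have hgap : ∀ i : Fin 10, i ≠ 7 → i ≠ 9 → 0 < gap w' i := by
      intro i h7 h9
      fin_cases i
      · simp [gap, hw']
      · simp [gap, hw']; linarith [b3.2]
      · simp [gap, hw']; linarith [b6.2]
      · simp [gap, hw']; linarith [b6.2, b3.1]
      · simp [gap, hw']; linarith [b4.2, b3.1, hx.2]
      · simp [gap, hw']; linarith [b4.2, b6.1, hx.2]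
      · simp [gap, hw']
      · exact absurd rfl h7
      · simp [gap, hw']; linarith [b4.2, b3.1, b6.1, hx.2]
      · exact absurd rfl h9
    have g7 : gap w' 7 = 0 := by simp [gap, hw']
    have g9 : gap w' 9 = 0 := by simp [gap, hw']
    have hl : LegM 0 w' := LegM.of_gap fun i => by
      by_cases h7 : i = 7
      · rw [h7, g7]
      by_cases h9 : i = 9
      · rw [h9, g9]
      exact (hgap i h7 h9).le
    obtain ⟨h, lm, hp, h0, hlm, hll⟩ := cl9_tans H hl
    -- the linear class
    have hR' : RtAt (φ (c 3)) w' R := by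
      rw [← P.c4]
      refine hR.loc H fun t ht => ?_
      rw [P.c4] at ht
      rcases P.k346.1 ht with rfl | rfl | rfl <;> simp [hw']
    have l3 : ∀ d, LegM 0 d → lm (c 3) d = -(R 3 * d 3 + R 4 * d 4 + R 6 * d 6) := by
      intro d hd
      have h3 := tendsto_nhds_unique (hlm (c 3) d hd) ((hR' d).comp h0)
      rw [h3]
      have hoff : ∀ t, t ≠ 3 → t ≠ 4 → t ≠ 6 → R t = 0 := fun t a b e => hR'.off H fun h' => by
        rcases P.k346.1 h' with rfl | rfl | rfl
        · exact a rfl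
        · exact b rfl
        · exact e rfl
      simp only [Fin.sum_univ_succ, Finset.univ_eq_empty, Finset.sum_empty]
      have f0 := hoff 0 (by decide) (by decide) (by decide)
      have f1 := hoff 1 (by decide) (by decide) (by decide)
      have f2 := hoff 2 (by decide) (by decide) (by decide)
      have f5 := hoff 5 (by decide) (by decide) (by decide)
      have f7 := hoff 7 (by decide) (by decide) (by decide)
      have f8 := hoff 8 (by decide) (by decide) (by decide)
      simp only [Fin.reduceSucc, f0, f1, f2, f5, f7, f8]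
      ring
    have l1 : ∀ d, LegM 0 d → lm (c 1) d = -(ρ 1 * d 1) := by
      intro d hd
      refine tendsto_nhds_unique (hlm (c 1) d hd) (tendsto_const_nhds.congr fun m => ?_)
      rw [al_val H P.al1, al_val H P.al1, Pi.add_apply, Pi.smul_apply, smul_eq_mul]
      have := (hp m).ne'
      field_simp
      ring
    have l8 : ¬ L → ∀ d, LegM 0 d → lm (c 8) d = -(ρ 8 * d 8) := by
      intro hL d hd
      refine tendsto_nhds_unique (hlm (c 8) d hd) (tendsto_const_nhds.congr fun m => ?_)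
      rw [al_val H (P.al8 hL), al_val H (P.al8 hL), Pi.add_apply, Pi.smul_apply, smul_eq_mul]
      have := (hp m).ne'
      field_simp
      ring
    have l2 : ∀ d, LegM 0 d → d 2 = d 5 → lm (c 2) d = -(ρ 2 * d 2) := by
      intro d hd hdd
      refine tendsto_nhds_unique (hlm (c 2) d hd) (tendsto_const_nhds.congr fun m => ?_)
      have r : ∀ v : V9, v 2 = v 5 → φ (c 2) v = -(ρ 2 * v 2) := fun v hv =>
        H.rate 2 v fun t' ht' => by
          rcases P.k25.1 ht' with rfl | rfl
          · rfl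
          · rw [P.d5 rfl, hv]
      rw [r _ (by simp [hw', hdd]), r w' (by simp [hw'])]
      have := (hp m).ne'
      simp only [Pi.add_apply, Pi.smul_apply, smul_eq_mul]
      field_simp
      ring
    -- the sum over the classes
    have hsum : ∃ Ψ : V9 → ℝ, (∀ d d', d 0 = d' 0 → d 7 = d' 7 → d 8 = d' 8 → LegM 0 d →
        LegM 0 d' → Ψ d = Ψ d') ∧ ∀ d, LegM 0 d →
        Tendsto (fun m => (Λ (w' + h m • d) - Λ w') / h m) atTop
          (𝓝 (-(Ψ d + -lm (c 2) d + (ρ 1 * d 1 + R 3 * d 3 + R 4 * d 4 + R 6 * d 6)))) := by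
      have inj : ∀ t ∈ ({0, 1, 2, 3} : Finset (Fin 9)), ∀ t' ∈ ({0, 1, 2, 3} : Finset (Fin 9)),
          c t = c t' → t = t' := by
        intro t ht t' ht' he
        have h1 := (P.par t t').1 he
        unfold PK ZK at h1
        simp only [Finset.mem_insert, Finset.mem_singleton] at ht ht'
        rcases ht with rfl | rfl | rfl | rfl <;> rcases ht' with rfl | rfl | rfl | rfl <;>
          first | rfl | (exfalso; revert h1; simp)
      have cov : ∀ t : Fin 9, t ≠ 8 → ∃ t' ∈ ({0, 1, 2, 3} : Finset (Fin 9)), c t' = c t := by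
        intro t ht
        fin_cases t
        · exact ⟨0, by simp, rfl⟩
        · exact ⟨1, by simp, rfl⟩
        · exact ⟨2, by simp, rfl⟩
        · exact ⟨3, by simp, rfl⟩
        · exact ⟨3, by simp, P.c4.symm⟩
        · exact ⟨2, by simp, P.c5.symm⟩
        · exact ⟨3, by simp, P.c6.symm⟩
        · exact ⟨0, by simp, (P.z.2 (Or.inr (Or.inl rfl))).symm⟩
        · exact absurd rfl ht
      by_cases hL : L
      · refine ⟨fun d => -lm (c 0) d, fun d d' a b e hd hd' => ?_, fun d hd => ?_⟩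
        · show -lm (c 0) d = -lm (c 0) d'
          rw [hll (c 0) d d' (fun t ht => ?_) hd hd']
          rcases P.z.1 ht with rfl | rfl | ⟨-, rfl⟩
          · exact a
          · exact b
          · exact e
        · have cov' : ∀ t : Fin 9, ∃ t' ∈ ({0, 1, 2, 3} : Finset (Fin 9)), c t' = c t := fun t => by
            by_cases ht : t = 8
            · exact ⟨0, by simp, by rw [ht]; exact (P.z.2 (Or.inr (Or.inr ⟨hL, rfl⟩))).symm⟩
            · exact cov t ht
          have h5 : Tendsto (fun m => ∑ t ∈ ({0, 1, 2, 3} : Finset (Fin 9)),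
              (φ (c t) (w' + h m • d) - φ (c t) w') / h m) atTop
              (𝓝 (∑ t ∈ ({0, 1, 2, 3} : Finset (Fin 9)), lm (c t) d)) :=
            tendsto_finsetSum _ fun t _ => hlm (c t) d hd
          have e5 : ∑ t ∈ ({0, 1, 2, 3} : Finset (Fin 9)), lm (c t) d =
              lm (c 0) d + lm (c 1) d + lm (c 2) d + lm (c 3) d := by
            simp [Finset.sum_insert]; ring
          rw [e5, l1 d hd, l3 d hd] at h5
          have e6 : lm (c 0) d + -(ρ 1 * d 1) + lm (c 2) d +
              -(R 3 * d 3 + R 4 * d 4 + R 6 * d 6) =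
              -(-lm (c 0) d + -lm (c 2) d + (ρ 1 * d 1 + R 3 * d 3 + R 4 * d 4 + R 6 * d 6)) := by
            ring
          rw [e6] at h5
          refine h5.congr fun m => ?_
          rw [H.sum_rep inj cov' (hl.add_smul hd (hp m).le), H.sum_rep inj cov' hl,
            ← Finset.sum_sub_distrib, Finset.sum_div]
      · refine ⟨fun d => -lm (c 0) d + ρ 8 * d 8, fun d d' a b e hd hd' => ?_, fun d hd => ?_⟩
        · show -lm (c 0) d + ρ 8 * d 8 = -lm (c 0) d' + ρ 8 * d' 8
          rw [hll (c 0) d d' (fun t ht => ?_) hd hd', e]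
          rcases P.z.1 ht with rfl | rfl | ⟨-, rfl⟩
          · exact a
          · exact b
          · exact e
        · have cov' : ∀ t : Fin 9, ∃ t' ∈ insert (8 : Fin 9) ({0, 1, 2, 3} : Finset (Fin 9)),
              c t' = c t := fun t => by
            by_cases ht : t = 8
            · exact ⟨8, by simp, by rw [ht]⟩
            · obtain ⟨t', h3, h4⟩ := cov t ht
              exact ⟨t', Finset.mem_insert_of_mem h3, h4⟩
          have inj' : ∀ t ∈ insert (8 : Fin 9) ({0, 1, 2, 3} : Finset (Fin 9)),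
              ∀ t' ∈ insert (8 : Fin 9) ({0, 1, 2, 3} : Finset (Fin 9)), c t = c t' → t = t' := by
            intro t ht t' ht' he
            by_cases a8 : t = 8
            · subst a8; exact (P.al8 hL t' he.symm).symm
            by_cases b8 : t' = 8
            · subst b8; exact P.al8 hL t he
            exact inj t ((Finset.mem_insert.1 ht).resolve_left a8) t'
              ((Finset.mem_insert.1 ht').resolve_left b8) he
          have h5 : Tendsto (fun m => ∑ t ∈ insert (8 : Fin 9) ({0, 1, 2, 3} : Finset (Fin 9)),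
              (φ (c t) (w' + h m • d) - φ (c t) w') / h m) atTop
              (𝓝 (∑ t ∈ insert (8 : Fin 9) ({0, 1, 2, 3} : Finset (Fin 9)), lm (c t) d)) :=
            tendsto_finsetSum _ fun t _ => hlm (c t) d hd
          have e5 : ∑ t ∈ insert (8 : Fin 9) ({0, 1, 2, 3} : Finset (Fin 9)), lm (c t) d =
              lm (c 8) d + (lm (c 0) d + lm (c 1) d + lm (c 2) d + lm (c 3) d) := by
            simp [Finset.sum_insert]; ring
          rw [e5, l1 d hd, l3 d hd, l8 hL d hd] at h5
          have e6 : -(ρ 8 * d 8) + (lm (c 0) d + -(ρ 1 * d 1) + lm (c 2) d +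
              -(R 3 * d 3 + R 4 * d 4 + R 6 * d 6)) =
              -((-lm (c 0) d + ρ 8 * d 8) + -lm (c 2) d +
                (ρ 1 * d 1 + R 3 * d 3 + R 4 * d 4 + R 6 * d 6)) := by
            ring
          rw [e6] at h5
          refine h5.congr fun m => ?_
          rw [H.sum_rep inj' cov' (hl.add_smul hd (hp m).le), H.sum_rep inj' cov' hl,
            ← Finset.sum_sub_distrib, Finset.sum_div]
    obtain ⟨Ψ, hΨ, hT⟩ := hsum
    have h6 := K w' ![0, ρ 1, 0, R 3, R 4, 0, R 6, 0, 0] Ψ (fun d => -lm (c 2) d) (ρ 2) h g7 g9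
      hgap (by simp [hw']) hp (h0.mono_right nhdsWithin_le_nhds) hΨ
      (fun d hd hdd => by simp only [l2 d hd hdd, neg_neg]) (fun d hd => by
        have := hT d hd
        simpa using this) h2
    simpa using h6
  rcases le_or_gt 1 s with hs | hs
  · have := hI 0 2 (by norm_num) le_rfl
    rw [zero_smul, add_zero] at this
    rw [e1]; linarith
  by_contra hcon
  push Not at hcon
  rw [e1] at hcon
  set I := φ (c 4) wN1 - φ (c 4) (wN1 + (2:ℝ) • e9 4) with hI'
  have hlt : I < (1 - s) * 2 := by linarith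
  have hk : ∀ δ : ℝ, 0 < δ → δ < 1 → (1 - s) * (2 - δ) ≤ I := by
    intro δ hδ hδ1
    have h3 := key δ hδ hδ1
    have h4 := hI (2 - δ) 2 (by linarith) le_rfl
    rw [hI']; linarith
  obtain ⟨δ, hδ, hδ1, hδ2⟩ : ∃ δ : ℝ, 0 < δ ∧ δ < 1 ∧ (1 - s) * δ < (1 - s) * 2 - I := by
    refine ⟨min (1 / 2) (((1 - s) * 2 - I) / (2 * (1 - s))), lt_min (by norm_num)
      (div_pos (by linarith) (by linarith)), (min_le_left _ _).trans_lt (by norm_num), ?_⟩
    have h3 := min_le_right (1 / 2 : ℝ) (((1 - s) * 2 - I) / (2 * (1 - s)))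
    have h4 : 0 < 1 - s := by linarith
    calc (1 - s) * min (1 / 2 : ℝ) (((1 - s) * 2 - I) / (2 * (1 - s)))
        ≤ (1 - s) * (((1 - s) * 2 - I) / (2 * (1 - s))) := mul_le_mul_of_nonneg_left h3 h4.le
      _ = ((1 - s) * 2 - I) / 2 := by field_simp
      _ < (1 - s) * 2 - I := by linarith
  have := hk δ hδ hδ1
  nlinarith

end Crest.Agent.R116.Tk299
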