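import Crest.Agent.R116.Tk5_299
import Crest.Agent.R116.Tk7_647

/-!
# R116 (K side, ties): the `κ`-plane below the record, `k = 1` (helper647)

* `PlK.n1K` : `0 < m → n ≤ s` from (K1), (H1), (K3)
* **`kf1K`** : the facts `KF'` at `k = 1`
-/

set_option autoImplicit false
set_option linter.unusedSectionVars false
set_option linter.unusedVariables false

open Set Filter Topology

namespace Crest.Agent.R116.Tk299

open Tie460 (Pl KF')
open Tq741

variable {c : Fin 9 → Fin 9} {dl : V9} {s : ℝ} {Λ : V9 → ℝ} {φ : Fin 9 → V9 → ℝ} {ρ : V9}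
variable {L : Prop} {Sk : V9 → Prop}

theorem PlK.n1K (P : PlK L 1 c dl) (H : Cl9 c dl s Λ φ ρ) (hs0 : 0 ≤ s) (hs : s ≤ 1)
    (F : Fct9 Sk s Λ) (hSk : ∀ w : V9, w 7 < w 0 → w 8 < 0 → Sk w) (K : K3K s Λ) :
    0 < ρ 1 → nK c φ ≤ s := by
  intro hm
  have hSk' : ∀ w : V9, w 7 < 1 * w 0 → w 8 < (1 - 1) * w 0 → Sk w :=
    fun w h7 h8 => hSk w (by linarith) (by linarith)
  have h1 : hK c φ ≤ s := (P.fanA H one_pos hs0 hs F hSk').kh hm
  have h2 : 0 ≤ rK c φ := (P.pos (s := s) H).r0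
  have h3 := sum1 H P
  exact P.n1 H K (by linarith)

/-- **the facts of the `κ`-plane at `k = 1`** -/
theorem kf1K (P : PlK L 1 c dl) (H : Cl9 c dl s Λ φ ρ) (hs0 : 0 ≤ s) (hs : s ≤ 1)
    (F : Fct9 Sk s Λ) (hSk : ∀ w : V9, w 7 < w 0 → w 8 < 0 → Sk w) (K : K3K s Λ) :
    KF' s 1 (AK c s φ ρ) :=
  kf1 P H hs0 hs F hSk (P.n1K H hs0 hs F hSk K)

end Crest.Agent.R116.Tk299
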