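import Crest.Agent.R116.Tk10_126
import Crest.Agent.R116.Tk8_647
import Crest.Agent.R116.Kt3_387
import Crest.Agent.R116.K1p2_736
import Crest.Agent.R116.Rz3_460
import Crest.Agent.R116.Fk1_647

/-!
# R116 (K side, ties), `KUp'` over the context, `k = 1` (helper126)

* **`kU1ctx_of`** : `CtxT`, `Out8z` on `kD`, `kU`, `oP`, and (K3) on the raised plane ⊢ `KUp'`
-/

set_option autoImplicit false
set_option linter.unusedVariables false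
set_option linter.unusedSectionVars false

open Set Filter Topology MeasureTheory

namespace Crest.Agent.R116.Ku126

open Crest.Agent.R138
open Crest.Agent.R138.Ex926 (Base U IsTan)
open Crest.Agent.R136
open Crest.Agent.R136.MkA627
open Crest.Agent.R136.TD627
open Crest.Agent.R136.Net191
open Crest.Agent.R136.Lq196
open Crest.Agent.R136.Qg926 Crest.Agent.R136.Gf356 Crest.Agent.R116.EvL504
open Crest.Agent.R116.ChL222
open Crest.Agent.R116.PL504 (nb rL DN eL βL oL Shift)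
open Crest.Agent.R116.Sg337 (bx9 coneL DL natB)
open Crest.Agent.R116.Gd222 (TSet sN PDL DT)
open Crest.Agent.R116.KI439 hiding kD
open Crest.Agent.R116.KF439 (PL)
open Crest.Agent.R116.CtxB468
open Crest.Agent.R116.Rcx363
open Crest.Agent.R116.RbM219
open Crest.Agent.R116.RbK219 (RS SOk Par dl Aln)
open Crest.Agent.R116.SgO219 (PP)
open Crest.Agent.R116.Kz647
open Crest.Agent.R116.Pd363
open Crest.Agent.R116.Rz460
open Crest.Agent.R116.Tq741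
open Crest.Agent.R116.Tq794 (E8 E8_eq)
open Crest.Agent.R116.Tq126
open Crest.Agent.R116.Tp139 hiding cl8
open Crest.Agent.R116.Tie460 (Pl KF' KUp')
open Dg219 (mw Walls)
open Sl741 (slice xt rs)

section ctx

variable {G : Geo TSet (Fin 2)} {L : ℕ → ℕ → LRay} {r : ℕ → ℝ} {g s : ℝ} {θ q : Fin 2 → ℝ}
    {Rg : ℝ} {B : Base} {I : ℕ → Finset (ℕ × ℝ)} {lev : ℕ → ℚ → ℕ} {A : ℕ → ℝ}
    {f : ℕ → ℚ → ℕ → ℤ → ℕ} {b : ℕ → ℚ → ℕ → TSet} {vm : ℕ → ℚ → ℝ} {w : Fin 2 → ℕ → ℚ → ℝ}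
    {fr : ℕ → ℚ → ℕ × ℝ → LInc} {fl : ℕ → ℕ × ℝ → LInc} {sc : Fin 12 → ℕ → ℝ}
    {w0 sa sb δ R : ℝ} {I0 I' : ℕ → Finset (ℕ × ℝ)} {ν own : (Fin 12 → ℝ) → ℝ} {c₀ : ℝ}
    {v0 : ℝ} {a b' : Fin 2} {x : ℕ → Fin 12 → ℝ} {hh : ℕ → ℝ}
    {lam : Fin 2 → (Fin 12 → ℝ) → ℝ} {T : Type*}

/-- **`KUp'` over the context, `k = 1`** -/
theorem kU1ctx_of
    (C : CtxT G L r g s θ q Rg B I lev A f b vm w fr fl sc w0 sa sb δ R I0 I' ν own c₀)
    (hs0 : 0 ≤ s) (hs1 : s ≤ 1) (hθ : 0 < θ 0) (hb : θ 1 = 2 * θ 0 - 1) (hb0 : θ 1 < 0)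
    (hv0 : 0 < v0) (hv1 : v0 < 1) (hI1 : InvT PL B I 1 fl (sc 1))
    (hI7 : InvT PL B I 7 fl (sc 7)) (hI8 : InvT PL B I 8 fl (sc 8))
    {Bs : T → Fin 8 → ℝ} {sgs : T → ℝ}
    (O : Out8z R s a b' (VisT B I fl sc) (θ 0) (θ 1) g (q 0) (q 1) Bs sgs
      (rL (θ 0) (θ 1) w0 sa sb v0) (fo ν own) x hh lam)
    {iU iP : T} (hU : Bs iU = kU) (hU1 : sgs iU = 1) (hP : Bs iP = oP) (hP1 : sgs iP = 1)
    {cD : ℝ} {ρD : Fin 8 → ℝ} (hcD : 0 < cD)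
    (hLD : (srf8 (θ 0) (θ 1) 0 kD (-1)).LW (Q8 0) cD ⊆
      (Q8 0).L (rs kp (y8 0)) (rs kp (r8 (θ 0) (θ 1))) 0)
    (hRD : Rates8 (θ 0) (θ 1) 0 kD (-1) cD (lam 0) ρD)
    (hK3 : ∀ {l α : ℝ} {h' : ℕ → ℝ} {X : ℕ → Fin 12 → ℝ} {H : ℕ → ℝ}
      {lam3 lam4 : Fin 2 → (Fin 12 → ℝ) → ℝ} {ρ3 ρ4 : Fin 8 → ℝ},
      Pd8 R s a b' (VisT B I fl sc) (θ 0) (θ 1) w0 sa sb v0 1 (DL g s (q 0) (q 1) 0 1 2) kU 1
        (fo ν own) lam3 ρ3 l α h' X H lam4 ρ4 →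
      Tk299.K3K s (fun w => lam4 0 (xt kp 0 (RL8.vec (fun i : Fin 8 => w i.castSucc)))))
    {A' : Pl} (hA : A'.m = ρD 1) : ∃ B', KUp' 1 (θ 0) s g (q 0) (q 1) A' B' := by
  have hβ : 2 * θ 0 - θ 1 - 1 = 0 := by rw [hb]; ring
  have hvis : ∀ j, VisT B I fl sc j → j = 0 ∨ j = 2 := by
    intro j hj
    rcases Fk647.vis_flag C.out j hj with h | h | h | h | h
    · exact Or.inl h
    · subst h; exact absurd hI1 hj
    · exact Or.inr h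
    · subst h; exact absurd hI7 hj
    · subst h; exact absurd hI8 hj
  obtain ⟨cU, hcU, hLU, -, ρU, hRU⟩ := O.surf iU
  obtain ⟨cP, hcP, hLP, -, ρP, hRP⟩ := O.surf iP
  rw [hU, hU1] at hLU hRU
  rw [hP, hP1] at hLP hRP
  obtain ⟨l, α, h', X, H, lam3, lam4, ρ3, ρ4, hl, -, -, P, he, hT⟩ :=
    K1p736.plane8z (Vis' := VisT B I fl sc) O hβ (sok_kU hθ one_pos hb) leg80_kU hcU hRU
      (v := 0) (c := 1) (p := 2) le_rfl (by norm_num) (not_not.2 hI1) (fun j hj => by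
        refine Or.inl ⟨hj, ?_⟩
        have e0 : kU 0 = 0 := rfl
        rw [e0, zero_mul]
        rcases hvis j hj with rfl | rfl
        · exact le_of_eq rfl
        · have : kU (cl8 2) = kU 7 := rfl
          rw [this]; ev8; norm_num) (N := univ) (by simp) one_pos
  have e3 : βL (θ 0) (θ 1) 2 = 1 := by
    have e2 : βL (θ 0) (θ 1) 2 = -(θ 1) - 2 * -(θ 0) := rfl
    rw [e2, hb]; ring
  refine kU1up hb P he hT hθ (fun j hj => by rcases hvis j hj with h | h <;> simp [h])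
    (fun {φ} hC => ?_) ?_ (O.posB_kU hβ hθ hb0 hcU hcP hLU hLP hRU hRP)
  · refine Tk299.kf1K (tk8_U hb) hC hs0 hs1 (Sk := fun w => w 7 ≤ w 0) ?_ (fun w h7 h8 => h7.le)
      (hK3 P)
    refine Kt387.pd8_fct' P C hs0 hs1 one_ne_zero hθ hv0 hv1 ?_
    intro w hw hSk i hi
    rcases hvis i hi with rfl | rfl
    · change w 0 ≤ w 0 * βL (θ 0) (θ 1) 0
      have : βL (θ 0) (θ 1) 0 = 1 := rfl
      rw [this, mul_one]
    · change w 7 ≤ w 0 * βL (θ 0) (θ 1) 2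
      rw [e3, mul_one]
      exact hSk
  · rw [hA]
    exact O.ant_kU hβ hθ hcD hcU hLD hLU hRD hRU

end ctx

end Crest.Agent.R116.Ku126
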