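import Crest.Agent.R116.Sd3_538

/-!
# R116 (K side, ties), the plane `kUe e` above the record, `κ`-tie, `D` finer than natural by `e`
times the offset (helper538)

Offset `![0,1,2,1,2,2,1,0,e]`, `0 < e`: admissible for every sign of `β_D = 2 θ - θb - 1`.
`k = 2 θ - θb`, `1/2 < k < 1` : the classes are `{z, G}` and single slots.
* `sok_kUe`, `leg_kUe`, `exists_eK`, `rep_kUe`, `aln1_kUe`, `aln8_kUe`, `kap_kUe`
* `TVk`, `tvk` : the two relations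
* `rD_kUe` : `β_D < 0` : the rate of `D` is `0` (strong D-max)
* `kHalfS_le`, `kHalfS` : the row of the direction `(-1; μ, 2 μ - k)`, `μ = (1+k)/3`, `1/2 ≤ s`
-/

set_option autoImplicit false
set_option linter.unusedVariables false
set_option linter.unusedSimpArgs false
set_option linter.unusedSectionVars false

open Set Filter Topology

namespace Crest.Agent.R116.Tk538

open Crest.Agent.R136
open Dg219 (Walls mw)
open Sl741 (slice xt rs)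
open Dg262 (SupOn)
open RbK219 RbM219 Kz647
open ChL222 (monL)
open Tie460
open Sg337 (DL)
open Tp139

/-- the `κ`-plane above the record, `D` finer by `e` times the offset -/
def kUe (e : ℝ) : Fin 9 → ℝ := ![0, 1, 2, 1, 2, 2, 1, 0, e]

section vals
variable (e : ℝ)
theorem u0 : kUe e 0 = 0 := rfl
theorem u1 : kUe e 1 = 1 := rfl
theorem u2 : kUe e 2 = 2 := rfl
theorem u3 : kUe e 3 = 1 := rfl
theorem u4 : kUe e 4 = 2 := rfl
theorem u5 : kUe e 5 = 2 := rfl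
theorem u6 : kUe e 6 = 1 := rfl
theorem u7 : kUe e 7 = 0 := rfl
theorem u8 : kUe e 8 = e := rfl
end vals

/-- evaluate all entries -/
macro "kve" : tactic => `(tactic| simp only [Tp139.m0, Tp139.m1, Tp139.m2, Tp139.m3, Tp139.m4,
  Tp139.m5, Tp139.m6, Tp139.m7, Tp139.m8,
  u0, u1, u2, u3, u4, u5, u6, u7, u8] at *)

variable {θ θb k k' s c qa qb e : ℝ}

theorem sok_kUe (he : 0 < e) (hb2 : θb < 2 * θ) :
    SOk (nat9 1 (-θ) (-θb)) (kUe e) 1 where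
  sg1 := Or.inl rfl
  nn := by refine all9 ?_ ?_ ?_ ?_ ?_ ?_ ?_ ?_ ?_ <;> kve <;> linarith
  zero := by refine all9 ?_ ?_ ?_ ?_ ?_ ?_ ?_ ?_ ?_ <;> intro h <;> kve <;> linarith

theorem leg_kUe (he : 0 < e) : Leg9 (kUe e) := by constructor <;> kve <;> linarith

/-- `D` is not parallel to the other slots -/
def DAk (θ θb e : ℝ) : Prop := e * (1 + |θ| + |θb|) < |2 * θ - θb - 1|

theorem DAk.ne (h : DAk θ θb e) (he : 0 < e) {a : ℝ} (ha : |a| ≤ 1 + |θ| + |θb|) :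
    2 * θ - θb - 1 ≠ e * a := by
  intro h1
  have h3 : e * (1 + |θ| + |θb|) < |2 * θ - θb - 1| := h
  rw [h1, abs_mul, abs_of_pos he] at h3
  have := mul_le_mul_of_nonneg_left ha he.le
  linarith

theorem exists_DAk (θ θb : ℝ) {e0 : ℝ} (he0 : 0 < e0) (h2 : 2 * θ - θb - 1 ≠ 0) :
    ∃ e, 0 < e ∧ e < e0 ∧ DAk θ θb e := by
  have hM : 0 < 1 + |θ| + |θb| := by positivity
  have h3 : 0 < |2 * θ - θb - 1| := abs_pos.2 h2
  refine ⟨min (e0 / 2) (|2 * θ - θb - 1| / (2 * (1 + |θ| + |θb|))),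
    lt_min (by positivity) (by positivity), ?_, ?_⟩
  · exact (min_le_left _ _).trans_lt (by linarith)
  · calc min (e0 / 2) (|2 * θ - θb - 1| / (2 * (1 + |θ| + |θb|))) * (1 + |θ| + |θb|)
        ≤ (|2 * θ - θb - 1| / (2 * (1 + |θ| + |θb|))) * (1 + |θ| + |θb|) :=
          mul_le_mul_of_nonneg_right (min_le_right _ _) hM.le
      _ = |2 * θ - θb - 1| / 2 := by field_simp
      _ < _ := by linarith

/-- `D` against the other slots -/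
theorem d_nek (hd : DAk θ θb e) (he : 0 < e) :
    2 * θ - θb - 1 ≠ e * -θ ∧ 2 * θ - θb - 1 ≠ e * (-θb / 2) ∧ 2 * θ - θb - 1 ≠ e * (1 - θ) ∧
      2 * θ - θb - 1 ≠ e * ((1 - θb) / 2) ∧ 2 * θ - θb - 1 ≠ e * ((1 - 2 * θ) / 2) ∧
      2 * θ - θb - 1 ≠ e * (θ - θb) := by
  have a1 := abs_nonneg θ
  have a2 := abs_nonneg θb
  have b1 := le_abs_self θ
  have b2 := le_abs_self θb
  have b3 := neg_abs_le θ
  have b4 := neg_abs_le θb
  refine ⟨hd.ne he ?_, hd.ne he ?_, hd.ne he ?_, hd.ne he ?_, hd.ne he ?_, hd.ne he ?_⟩ <;>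
    rw [abs_le] <;> constructor <;> linarith

theorem mem8' {P : Fin 9 → Prop} (h0 : P 0) (h1 : P 1) (h2 : P 2) (h3 : P 3) (h4 : P 4)
    (h5 : P 5) (h6 : P 6) (h8 : P 8) :
    ∀ t ∈ ({0, 1, 2, 3, 4, 5, 6, 8} : Finset (Fin 9)), P t := by
  intro t h
  simp only [Finset.mem_insert, Finset.mem_singleton] at h
  rcases h with rfl | rfl | rfl | rfl | rfl | rfl | rfl | rfl <;> assumption

/-- `kUe`, `1/2 < 2 θ - θb < 1` : classes `{z, G}` and single slots -/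
theorem rep_kUe (he : 0 < e) (h1 : 1 / 2 < 2 * θ - θb) (h2 : 2 * θ - θb < 1)
    (hd : DAk θ θb e) :
    ∀ t, ∃! t', t' ∈ ({0, 1, 2, 3, 4, 5, 6, 8} : Finset (Fin 9)) ∧
      Par (nat9 1 (-θ) (-θb)) (kUe e) t t' := by
  obtain ⟨d1, d2, d3, d4, d5, d6⟩ := d_nek hd he
  refine rep_of (sok_kUe he (by linarith)) ![0, 1, 2, 3, 4, 5, 6, 0, 8] (by decide) ?_ ?_
  · refine all9 rfl rfl rfl rfl rfl rfl rfl ?_ rfl
    change Par _ _ 7 0
    simp only [Par]; kve; ring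
  · refine mem8' ?_ ?_ ?_ ?_ ?_ ?_ ?_ ?_ <;> refine mem8' ?_ ?_ ?_ ?_ ?_ ?_ ?_ ?_ <;>
      intro hp <;> first
        | rfl
        | (exfalso; simp only [Par] at hp; kve; linarith)
        | (exfalso; simp only [Par] at hp; kve; exact d1 (by linarith))
        | (exfalso; simp only [Par] at hp; kve; exact d2 (by linarith))
        | (exfalso; simp only [Par] at hp; kve; exact d3 (by linarith))
        | (exfalso; simp only [Par] at hp; kve; exact d4 (by linarith))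
        | (exfalso; simp only [Par] at hp; kve; exact d5 (by linarith))
        | (exfalso; simp only [Par] at hp; kve; exact d6 (by linarith))

theorem aln8_kUe (he : 0 < e) (hb2 : θb < 2 * θ) (hd : DAk θ θb e) :
    Aln (nat9 1 (-θ) (-θb)) (kUe e) 8 := by
  obtain ⟨d1, d2, d3, d4, d5, d6⟩ := d_nek hd he
  refine all9 ?_ ?_ ?_ ?_ ?_ ?_ ?_ ?_ ?_ <;> intro ht h <;>
    first
      | exact ht rfl
      | (exfalso; kve; nlinarith)
      | (exfalso; kve; exact d1 (by linarith))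
      | (exfalso; kve; exact d2 (by linarith))
      | (exfalso; kve; exact d3 (by linarith))
      | (exfalso; kve; exact d4 (by linarith))
      | (exfalso; kve; exact d5 (by linarith))
      | (exfalso; kve; exact d6 (by linarith))

theorem aln1_kUe (he : 0 < e) (hθ : 0 < θ) (hb2 : θb < 2 * θ) (hd : DAk θ θb e) :
    Aln (nat9 1 (-θ) (-θb)) (kUe e) 1 := by
  obtain ⟨d1, -⟩ := d_nek hd he
  refine all9 ?_ ?_ ?_ ?_ ?_ ?_ ?_ ?_ ?_ <;> intro ht h <;>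
    first | exact ht rfl | (exfalso; kve; nlinarith) | (exfalso; kve; exact d1 (by linarith))

/-- D-max on `kUe` -/
theorem kap_kUe {lam : (Fin 12 → ℝ) → ℝ}
    (hanti : ∀ w w' : Fin 9 → ℝ, Leg9 w → Leg9 w' → w ≤ w' →
      lam (RL9.vec w') ≤ lam (RL9.vec w))
    (hD : ∀ v a b : ℝ, lam (RL9.vec (nat9 v a b)) ≤ DL c s qa qb v a b) {y : ℝ}
    (he : 0 < e) (hy : 0 ≤ y) : lam (RL9.vec (y • kUe e)) ≤ -(5 + qa + 2 * qb) * y := by
  have h3 : 0 ≤ y * e := mul_nonneg hy he.le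
  have h1 : Leg9 (y • kUe e) := by
    constructor <;> simp only [Pi.smul_apply, smul_eq_mul] <;> kve <;> nlinarith
  have h2 := hanti (nat9 0 y (2 * y)) (y • kUe e) (leg9_nat _ _ _) h1 (by
    refine all9 ?_ ?_ ?_ ?_ ?_ ?_ ?_ ?_ ?_ <;> simp only [Pi.smul_apply, smul_eq_mul] <;> kve <;>
      nlinarith)
  refine h2.trans ((hD 0 y (2 * y)).trans (le_of_eq ?_))
  unfold DL; ring

/-- the two relations of the plane `kUe` -/
structure TVk (θ θb s c qa qb e ρz m r ρX ρN ρH ρB ρD : ℝ) : Prop where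
  T : ρz - θ * m - θb * r + (1 - θ) * ρX + (1 - θb) * ρN + (1 - 2 * θ) * ρH + (θ - θb) * ρB +
    (2 * θ - θb - 1) * ρD = (4 - s - c) - θ * (3 + qa) - θb * (1 + qb)
  V : 5 + qa + 2 * qb ≤ m + 2 * r + ρX + 2 * ρN + 2 * ρH + ρB + e * ρD

section tvk

variable {J : Type*} {lam lam2 : J → (Fin 12 → ℝ) → ℝ} {j0 : J} {ρ ρ2 : Fin 9 → ℝ}
  {l α : ℝ} {h : ℕ → ℝ}

theorem tvk (H : Half9 θ θb (kUe e) 1 lam j0 ρ (-(5 + qa + 2 * qb)) l α h lam2 ρ2)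
    (h0 : lam j0 0 = 0)
    (hrec : lam j0 (RL9.vec (nat9 1 (-θ) (-θb))) = DL c s qa qb 1 (-θ) (-θb))
    (he : 0 < e) (h1 : 1 / 2 < 2 * θ - θb) (h2 : 2 * θ - θb < 1) (hd : DAk θ θb e) :
    TVk θ θb s c qa qb e (ρ2 0) (ρ2 1) (ρ2 2) (ρ2 3) (ρ2 4) (ρ2 5) (ρ2 6) (ρ2 8) := by
  have a1 := cls_T H (rep_kUe he h1 h2 hd)
  have a2 := cls_V H (rep_kUe he h1 h2 hd)
  simp only [h0, hrec] at a1
  rw [Finset.sum_insert (by decide), Finset.sum_insert (by decide), Finset.sum_insert (by decide),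
    Finset.sum_insert (by decide), Finset.sum_insert (by decide), Finset.sum_insert (by decide),
    Finset.sum_insert (by decide), Finset.sum_singleton] at a1 a2
  unfold DL at a1
  kve
  exact ⟨by linarith, by linarith⟩

end tvk

/-! ### the row, `1/2 ≤ s` -/

variable {ρz ρD m r ρX ρN ρH ρB : ℝ}

/-- **the row of the direction `(-1; μ, 2 μ - k)`, `μ = (1+k)/3`, above the record** -/
theorem kHalfS_le (hk : 1 / 2 ≤ k) (hk1 : k ≤ 1) (hb : θb = 2 * θ - k)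
    (hθ : θ ≤ (1 + k) / 3) (hβ : 0 ≤ (2 * θ - θb - 1) * ρD) (he : 0 ≤ e)
    (H : TVk θ θb s c qa qb e ρz m r ρX ρN ρH ρB ρD)
    (hz : 1 - s ≤ ρz) (hD1 : ρD ≤ 1) (hH : ρH ≤ 1) (hr0 : 0 ≤ r)
    (p1 : m ≤ ρX) (p2 : r ≤ ρN) (mw : m ≤ ρB) :
    c + (1 + k) / 3 * qa + (2 - k) / 3 * qb ≤ 1 + ((1 + k) / 3 - θ) * e := by
  subst hb
  obtain ⟨hT, hV⟩ := H
  have h1 : 0 ≤ ((1 + k) / 3 - θ) *
      (m + 2 * r + ρX + 2 * ρN + 2 * ρH + ρB + e * ρD - (5 + qa + 2 * qb)) :=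
    mul_nonneg (by linarith) (by linarith)
  have h2 : 0 ≤ (2 - k) / 3 * (ρX - m) := mul_nonneg (by linarith) (by linarith)
  have h3 : 0 ≤ (1 + k) / 3 * (ρN - r) := mul_nonneg (by linarith) (by linarith)
  have h4 : 0 ≤ (2 * k - 1) / 3 * (1 - ρH) := mul_nonneg (by linarith) (by linarith)
  have h5 : 0 ≤ (2 * k - 1) / 3 * (ρB - m) := mul_nonneg (by linarith) (by linarith)
  have h6 : 0 ≤ (2 * k - 1) / 3 * r := mul_nonneg (by linarith) hr0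
  have h7 : 0 ≤ ((1 + k) / 3 - θ) * e * (1 - ρD) :=
    mul_nonneg (mul_nonneg (by linarith) he) (by linarith)
  nlinarith

/-- **contradiction for `1/2 ≤ s`** -/
theorem kHalfS (hk : 1 / 2 ≤ k) (hk1 : k ≤ 1) (hb : θb = 2 * θ - k) (hθ0 : 0 < θ)
    (hθ : θ ≤ (1 + k) / 3) (hβ : 0 ≤ (2 * θ - θb - 1) * ρD)
    (he : 0 < e) (hs : 1 / 2 ≤ s) (hc : 2 * s + e ≤ c) (hqa : 0 ≤ qa) (hqb : 0 ≤ qb)
    (H : TVk θ θb s c qa qb e ρz m r ρX ρN ρH ρB ρD)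
    (hz : 1 - s ≤ ρz) (hD1 : ρD ≤ 1) (hH : ρH ≤ 1) (hr0 : 0 ≤ r)
    (p1 : m ≤ ρX) (p2 : r ≤ ρN) (mw : m ≤ ρB) : False := by
  have h := kHalfS_le hk hk1 hb hθ hβ he.le H hz hD1 hH hr0 p1 p2 mw
  have h1 : 0 ≤ (1 + k) / 3 * qa := mul_nonneg (by linarith) hqa
  have h2 : 0 ≤ (2 - k) / 3 * qb := mul_nonneg (by linarith) hqb
  have h3 : ((1 + k) / 3 - θ) * e < e := by nlinarith
  linarith

section ctx

open Crest.Agent.R138.Ex926 (Base U)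
open Crest.Agent.R136.MkA627 Crest.Agent.R136.TD627 Crest.Agent.R136.Net191
open Crest.Agent.R136.Lq196
open Crest.Agent.R116.ChL222
open Crest.Agent.R116.PL504 (rL)
open Crest.Agent.R116.Gd222 (TSet)
open Crest.Agent.R116.KI439
open Crest.Agent.R116.KF439 (PL)
open Crest.Agent.R116.CtxB468
open Crest.Agent.R116.Rcx363

variable {G : Geo TSet (Fin 2)} {L : ℕ → ℕ → LRay} {r : ℕ → ℝ} {g s : ℝ} {θ q : Fin 2 → ℝ}
    {Rg : ℝ} {B : Base} {I : ℕ → Finset (ℕ × ℝ)} {lev : ℕ → ℚ → ℕ} {A : ℕ → ℝ}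
    {f : ℕ → ℚ → ℕ → ℤ → ℕ} {b : ℕ → ℚ → ℕ → TSet} {vm : ℕ → ℚ → ℝ} {w : Fin 2 → ℕ → ℚ → ℝ}
    {fr : ℕ → ℚ → ℕ × ℝ → LInc} {fl : ℕ → ℕ × ℝ → LInc} {sc : Fin 12 → ℕ → ℝ}
    {w0 sa sb δ R : ℝ} {I0 I' : ℕ → Finset (ℕ × ℝ)} {ν own : (Fin 12 → ℝ) → ℝ} {c₀ : ℝ}

/-- **the plane `kUe e`, `β_D < 0`, `e θ < |β_D|` : the rate of `D` is `0`** -/
theorem rD_kUe
    (h : CtxT G L r g s θ q Rg B I lev A f b vm w fr fl sc w0 sa sb δ R I0 I' ν own c₀)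
    (hθ : 0 < θ 0) (hRg : θ 0 + |θ 1| < Rg) {v0 : ℝ} (hv0 : 0 < v0) (hv1 : v0 < 1)
    {a b' : Fin 2} {Vis : Fin 12 → Prop} {gg qa qb : ℝ} {T : Type*} {Bs : T → Fin 9 → ℝ}
    {sgs : T → ℝ} {x : ℕ → Fin 12 → ℝ} {hh : ℕ → ℝ} {lam : Fin 2 → (Fin 12 → ℝ) → ℝ}
    (O : Out9 R s a b' Vis (θ 0) (θ 1) gg qa qb Bs sgs (rL (θ 0) (θ 1) w0 sa sb v0) (fo ν own)
      x hh lam)
    {e c0 : ℝ} (hc0 : 0 < c0) (he : 0 < e) (hb2 : θ 1 < 2 * θ 0)
    (hd : DAk (θ 0) (θ 1) e) (hβ : 2 * θ 0 - θ 1 - 1 < 0)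
    (heβ : e * θ 0 < -(2 * θ 0 - θ 1 - 1))
    {ρ : Fin 9 → ℝ} (hR : Rates9 (θ 0) (θ 1) (kUe e) 1 c0 (lam 0) ρ) : ρ 8 = 0 := by
  have hi : 0 < (θ 0)⁻¹ := inv_pos.2 hθ
  have hii : (θ 0)⁻¹ * θ 0 = 1 := inv_mul_cancel₀ hθ.ne'
  refine Sd538.rD_out h hθ hRg hv0 hv1 O hc0 (sok_kUe he hb2) (by
      change -(θ 1) - 2 * -(θ 0) - 1 ≠ 0
      intro h1; linarith) (aln8_kUe he hb2 hd) (leg_kUe he)
    (η := (θ 0)⁻¹) ?_ ?_ ?_ ?_ ?_ ?_ ?_ hR
  · rw [u0]; linarith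
  · rw [u1]; linarith
  · rw [u2]; nlinarith
  · rw [u3]; nlinarith
  · rw [u4]; nlinarith
  · rw [u5]; nlinarith
  · rw [u8]
    have h6 : e * θ 0 * (θ 0)⁻¹ < -(2 * θ 0 - θ 1 - 1) * (θ 0)⁻¹ :=
      mul_lt_mul_of_pos_right heβ hi
    have h7 : e * θ 0 * (θ 0)⁻¹ = e := by rw [mul_assoc, mul_comm (θ 0), hii, mul_one]
    linarith

end ctx

end Crest.Agent.R116.Tk538
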