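import Crest.Agent.R116.Tk0_741

/-!
# R116 (K side, ties): value at the natural vectors of the `κ`-plane (helper741)

* `Cl9.sum_rep'` : one representative of every class with a nonzero value
* `natK_of`     : the four cases `k = 1`, `2`, `1/2`, other, from explicit tables
-/

set_option autoImplicit false
set_option linter.unusedSectionVars false
set_option linter.unusedVariables false

open Set Filter Topology

namespace Crest.Agent.R116.Tq741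

open RbM219 (nat9)

variable {c : Fin 9 → Fin 9} {dl : V9} {s : ℝ} {Λ : V9 → ℝ} {φ : Fin 9 → V9 → ℝ} {ρ : V9}

/-- one representative of every class with a nonzero value -/
theorem Cl9.sum_rep' (H : Cl9 c dl s Λ φ ρ) {S : Finset (Fin 9)} {w : V9}
    (inj : ∀ t ∈ S, ∀ t' ∈ S, c t = c t' → t = t')
    (cov : ∀ t, (∃ t' ∈ S, c t' = c t) ∨ φ (c t) w = 0)
    (hw : LegM 0 w) : Λ w = ∑ t ∈ S, φ (c t) w := by
  classical
  rw [H.sum w hw]
  have e1 : ∑ t ∈ S, φ (c t) w = ∑ k ∈ S.image c, φ k w :=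
    (Finset.sum_image (f := fun k => φ k w) (g := c)
      fun t ht t' ht' h => inj t ht t' ht' h).symm
  rw [e1]
  refine (Finset.sum_subset (Finset.subset_univ _) fun k _ hk => ?_).symm
  by_cases h : ∃ t, c t = k
  · obtain ⟨t, rfl⟩ := h
    rcases cov t with ⟨t', ht', h⟩ | h
    · exact absurd (Finset.mem_image.2 ⟨t', ht', h⟩) hk
    · exact h
  · push Not at h
    exact H.emp k h w

/-- classes of the `κ`-plane (text of 299); `L` = `D` in the class of `z` -/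
structure KTab (L : Prop) (k : ℝ) (c : Fin 9 → Fin 9) (dl : V9) : Prop where
  c7 : c 7 = c 0
  c8 : L → c 8 = c 0
  c5 : k = 1 → c 5 = c 2
  c4 : k = 1 → c 4 = c 3
  c6 : k = 1 → c 6 = c 3
  c2 : k = 2 → c 2 = c 3
  c5h : k = 1 / 2 → c 5 = c 6
  /-- nothing else is parallel -/
  ne : ∀ t t', c t = c t' → t = t' ∨ ((t = 0 ∨ t = 7 ∨ (L ∧ t = 8)) ∧
    (t' = 0 ∨ t' = 7 ∨ (L ∧ t' = 8))) ∨
    (k = 1 ∧ (t = 2 ∨ t = 5) ∧ (t' = 2 ∨ t' = 5)) ∨
    (k = 1 ∧ (t = 3 ∨ t = 4 ∨ t = 6) ∧ (t' = 3 ∨ t' = 4 ∨ t' = 6)) ∨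
    (k = 2 ∧ (t = 2 ∨ t = 3) ∧ (t' = 2 ∨ t' = 3)) ∨
    (k = 1 / 2 ∧ (t = 5 ∨ t = 6) ∧ (t' = 5 ∨ t' = 6))
  d7 : dl 7 = k * dl 0
  d8 : L → dl 8 = (k - 1) * dl 0
  d5 : k = 1 → dl 5 = dl 2
  d4 : k = 1 → dl 4 = 2 * dl 3
  d6 : k = 1 → dl 6 = dl 3
  d2 : k = 2 → dl 2 = 2 * dl 3
  d5h : k = 1 / 2 → dl 5 = 2 * dl 6

section

variable {L : Prop} {k : ℝ}

/-- sum over an explicit set of representatives, the value of `z` evaluated -/
theorem KTab.zv (P : KTab L k c dl) (H : Cl9 c dl s Λ φ ρ) {w : V9} (h7 : w 7 = k * w 0)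
    (h8 : L → w 8 = (k - 1) * w 0) : φ (c 0) w = -(ρ 0 * w 0) := by
  refine H.rate 0 w fun t' ht' => ?_
  rcases P.ne t' 0 ht' with h | ⟨h, -⟩ | ⟨-, -, h⟩ | ⟨-, -, h⟩ | ⟨-, -, h⟩ | ⟨-, -, h⟩
  · rw [h]
  · rcases h with rfl | rfl | ⟨hL, rfl⟩
    · rfl
    · rw [h7, P.d7]; ring
    · rw [h8 hL, P.d8 hL]; ring
  · exact absurd h (by decide)
  · exact absurd h (by decide)
  · exact absurd h (by decide)
  · exact absurd h (by decide)

/-- slots which are alone -/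
theorem KTab.al (P : KTab L k c dl) {t : Fin 9}
    (h : t = 1 ∨ (t = 2 ∧ k ≠ 1 ∧ k ≠ 2) ∨ (t = 3 ∧ k ≠ 1 ∧ k ≠ 2) ∨ (t = 4 ∧ k ≠ 1) ∨
      (t = 5 ∧ k ≠ 1 ∧ k ≠ 1 / 2) ∨ (t = 6 ∧ k ≠ 1 ∧ k ≠ 1 / 2) ∨ (t = 8 ∧ ¬ L)) : Al c t := by
  intro t' ht'
  rcases P.ne t' t ht' with h0 | ⟨-, h0⟩ | ⟨hk, -, h0⟩ | ⟨hk, -, h0⟩ | ⟨hk, -, h0⟩ | ⟨hk, -, h0⟩
  · exact h0
  all_goals
    rcases h with rfl | ⟨rfl, h1, h2⟩ | ⟨rfl, h1, h2⟩ | ⟨rfl, h1⟩ | ⟨rfl, h1, h2⟩ |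
      ⟨rfl, h1, h2⟩ | ⟨rfl, h1⟩
  all_goals first
    | exact absurd hk h1
    | exact absurd hk h2
    | (simp at h0; exact absurd h0 h1)
    | (exfalso; simp at h0)

theorem KTab.v1 (P : KTab L k c dl) (H : Cl9 c dl s Λ φ ρ) {t : Fin 9} (ht : Al c t) (w : V9) :
    φ (c t) w = -(ρ t * w t) := H.rate t w fun t' ht' => by rw [ht t' ht']

theorem KTab.v8 (P : KTab L k c dl) (H : Cl9 c dl s Λ φ ρ) (h8 : ¬ L → ρ 8 = 0) (w : V9) :
    (∃ t' ∈ ({0} : Finset (Fin 9)), c t' = c 8) ∨ φ (c 8) w = 0 := by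
  by_cases hL : L
  · exact Or.inl ⟨0, by simp, (P.c8 hL).symm⟩
  · refine Or.inr ?_
    rw [P.v1 H (P.al (Or.inr (Or.inr (Or.inr (Or.inr (Or.inr (Or.inr ⟨rfl, hL⟩))))))) w, h8 hL]
    ring

/-- letters -/
def xK (c : Fin 9 → Fin 9) (φ : Fin 9 → V9 → ℝ) : ℝ := 1 - (φ (c 3) 0 - φ (c 3) (e9 3))
def wK (c : Fin 9 → Fin 9) (φ : Fin 9 → V9 → ℝ) : ℝ :=
  φ (c 6) (e9 3) - φ (c 6) (e9 3 + e9 6)
noncomputable def nK (c : Fin 9 → Fin 9) (φ : Fin 9 → V9 → ℝ) : ℝ :=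
  1 - (φ (c 4) (e9 3 + e9 6) - φ (c 4) (e9 3 + e9 6 + (2:ℝ) • e9 4)) / 2
noncomputable def hK (c : Fin 9 → Fin 9) (φ : Fin 9 → V9 → ℝ) : ℝ :=
  1 - (φ (c 5) (e9 6) - φ (c 5) (e9 6 + (2:ℝ) • e9 5)) / 2
noncomputable def rK (c : Fin 9 → Fin 9) (φ : Fin 9 → V9 → ℝ) : ℝ :=
  (φ (c 2) (e9 3 + (2:ℝ) • e9 5) - φ (c 2) (e9 3 + (2:ℝ) • e9 5 + (2:ℝ) • e9 2)) / 2

theorem xK_al (H : Cl9 c dl s Λ φ ρ) (h : Al c 3) : xK c φ = 1 - ρ 3 := by
  unfold xK
  rw [H.rate 3 _ fun t' ht' => by rw [h t' ht'], H.rate 3 _ fun t' ht' => by rw [h t' ht']]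
  simp [e9]

theorem wK_al (H : Cl9 c dl s Λ φ ρ) (h : Al c 6) : wK c φ = ρ 6 := by
  unfold wK
  rw [H.rate 6 _ fun t' ht' => by rw [h t' ht'], H.rate 6 _ fun t' ht' => by rw [h t' ht']]
  simp [e9]

theorem nK_al (H : Cl9 c dl s Λ φ ρ) (h : Al c 4) : nK c φ = 1 - ρ 4 := by
  unfold nK
  rw [H.rate 4 _ fun t' ht' => by rw [h t' ht'], H.rate 4 _ fun t' ht' => by rw [h t' ht']]
  simp [e9]

theorem hK_al (H : Cl9 c dl s Λ φ ρ) (h : Al c 5) : hK c φ = 1 - ρ 5 := by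
  unfold hK
  rw [H.rate 5 _ fun t' ht' => by rw [h t' ht'], H.rate 5 _ fun t' ht' => by rw [h t' ht']]
  simp [e9]

theorem rK_al (H : Cl9 c dl s Λ φ ρ) (h : Al c 2) : rK c φ = ρ 2 := by
  unfold rK
  rw [H.rate 2 _ fun t' ht' => by rw [h t' ht'], H.rate 2 _ fun t' ht' => by rw [h t' ht']]
  simp [e9]

/-- **value at the natural vectors of the `κ`-plane** -/
theorem KTab.nat (P : KTab L k c dl) (H : Cl9 c dl s Λ φ ρ) (h8 : ¬ L → ρ 8 = 0) (v a : ℝ) :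
    Λ (nat9 v a (2 * a + k * v)) = -(ρ 0 * v + ρ 1 * a + rK c φ * (2 * a + k * v) +
      (1 - xK c φ) * (v + a) + (1 - nK c φ) * (v + (2 * a + k * v)) +
      (1 - hK c φ) * (v + 2 * a) + wK c φ * (a + k * v)) := by
  set w := nat9 v a (2 * a + k * v) with hw
  obtain ⟨w0, w1, w2, w3, w4, w5, w6, w7, w8⟩ := nat9_v v a (2 * a + k * v)
  rw [← hw] at w0 w1 w2 w3 w4 w5 w6 w7 w8
  have hl : LegM 0 w := leg_nat9 _ _ _
  have f0 : φ (c 0) w = -(ρ 0 * v) := by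
    rw [P.zv H (w := w) (by rw [w7, w0]; ring) (fun _ => by rw [w8, w0]; ring), w0]
  have a1 : Al c 1 := P.al (Or.inl rfl)
  have f1 : φ (c 1) w = -(ρ 1 * a) := by rw [P.v1 H a1 w, w1]
  have c78 : ∀ {S : Finset (Fin 9)}, 0 ∈ S →
      ((∃ t' ∈ S, c t' = c 7) ∨ φ (c 7) w = 0) ∧ ((∃ t' ∈ S, c t' = c 8) ∨ φ (c 8) w = 0) := by
    intro S hS
    refine ⟨Or.inl ⟨0, hS, P.c7.symm⟩, ?_⟩
    rcases P.v8 H h8 w with ⟨t', ht', h⟩ | h
    · rw [Finset.mem_singleton] at ht'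
      subst ht'
      exact Or.inl ⟨0, hS, h⟩
    · exact Or.inr h
  by_cases hk1 : k = 1
  · -- `k = 1`
    have hk2 : k ≠ 2 := by rw [hk1]; norm_num
    have hk3 : k ≠ 1 / 2 := by rw [hk1]; norm_num
    have k2 : ∀ t', c t' = c 2 → t' = 2 ∨ t' = 5 := by
      intro t' ht'
      rcases P.ne t' 2 ht' with h | ⟨-, h⟩ | ⟨-, h, -⟩ | ⟨-, -, h⟩ | ⟨h, -, -⟩ | ⟨h, -, -⟩
      · exact Or.inl h
      · exact absurd h (by simp)
      · exact h
      · exact absurd h (by decide)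
      · exact absurd h hk2
      · exact absurd h hk3
    have k3 : ∀ t', c t' = c 3 → t' = 3 ∨ t' = 4 ∨ t' = 6 := by
      intro t' ht'
      rcases P.ne t' 3 ht' with h | ⟨-, h⟩ | ⟨-, -, h⟩ | ⟨-, h, -⟩ | ⟨h, -, -⟩ | ⟨h, -, -⟩
      · exact Or.inl h
      · exact absurd h (by simp)
      · exact absurd h (by decide)
      · exact h
      · exact absurd h hk2
      · exact absurd h hk3
    have c5 := P.c5 hk1
    have c4 := P.c4 hk1
    have c6 := P.c6 hk1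
    have f2 : φ (c 2) w = -(ρ 2 * (2 * a + k * v)) := by
      rw [H.rate 2 w fun t' ht' => by
        rcases k2 t' ht' with rfl | rfl
        · rfl
        · rw [w5, w2, P.d5 hk1, hk1]; ring, w2]
    have f3 : φ (c 3) w = -(ρ 3 * (v + a)) := by
      rw [H.rate 3 w fun t' ht' => by
        rcases k3 t' ht' with rfl | rfl | rfl
        · rfl
        · rw [w4, w3, P.d4 hk1, hk1]; ring
        · rw [w6, w3, P.d6 hk1, hk1]; ring, w3]
    have g2 : (1 - hK c φ) + rK c φ = ρ 2 := by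
      unfold hK rK
      rw [c5]
      have e1 : φ (c 2) (e9 6) = 0 := H.zero_of 2 fun t' ht' => by
        rcases k2 t' ht' with rfl | rfl <;> simp [e9]
      have e2 : φ (c 2) (e9 6 + (2:ℝ) • e9 5) = φ (c 2) (e9 3 + (2:ℝ) • e9 5) :=
        H.loc _ _ _ fun t' ht' => by rcases k2 t' ht' with rfl | rfl <;> simp [e9]
      have e3 : φ (c 2) (e9 3 + (2:ℝ) • e9 5 + (2:ℝ) • e9 2) = -(ρ 2 * 2) := by
        rw [H.rate 2 _ fun t' ht' => by
          rcases k2 t' ht' with rfl | rfl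
          · rfl
          · rw [P.d5 hk1]; simp [e9]]
        simp [e9]
      rw [e1, e2, e3]; ring
    have g3 : (1 - xK c φ) + wK c φ + 2 * (1 - nK c φ) = ρ 3 := by
      unfold xK wK nK
      rw [c4, c6]
      have e1 : φ (c 3) 0 = 0 := H.zero_of 3 fun t' _ => rfl
      have e3 : φ (c 3) (e9 3 + e9 6 + (2:ℝ) • e9 4) = -ρ 3 := by
        rw [H.rate 3 _ fun t' ht' => by
          rcases k3 t' ht' with rfl | rfl | rfl
          · rfl
          · rw [P.d4 hk1]; simp [e9]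
          · rw [P.d6 hk1]; simp [e9]]
        simp [e9]
      rw [e1, e3]; ring
    rw [H.sum_rep' (S := {0, 1, 2, 3}) ?_ ?_ hl]
    · have e : ∑ t ∈ ({0, 1, 2, 3} : Finset (Fin 9)), φ (c t) w =
          φ (c 0) w + φ (c 1) w + φ (c 2) w + φ (c 3) w := by
        simp [Finset.sum_insert]; ring
      rw [e, f0, f1, f2, f3, ← g2, ← g3, hk1]; ring
    · intro t ht t' ht' h
      rcases P.ne t t' h with h | ⟨h, h'⟩ | ⟨-, h, h'⟩ | ⟨-, h, h'⟩ | ⟨hk, h, h'⟩ | ⟨hk, h, h'⟩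
      · exact h
      · rcases h with rfl | rfl | ⟨-, rfl⟩ <;> rcases h' with rfl | rfl | ⟨-, rfl⟩ <;>
          simp at ht ht' ⊢
      · rcases h with rfl | rfl <;> rcases h' with rfl | rfl <;> simp at ht ht' ⊢
      · rcases h with rfl | rfl | rfl <;> rcases h' with rfl | rfl | rfl <;> simp at ht ht' ⊢
      · exact absurd hk hk2
      · exact absurd hk hk3
    · obtain ⟨g7, g8⟩ := c78 (S := {0, 1, 2, 3}) (by simp)
      intro t
      fin_cases t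
      · exact Or.inl ⟨0, by simp, rfl⟩
      · exact Or.inl ⟨1, by simp, rfl⟩
      · exact Or.inl ⟨2, by simp, rfl⟩
      · exact Or.inl ⟨3, by simp, rfl⟩
      · exact Or.inl ⟨3, by simp, c4.symm⟩
      · exact Or.inl ⟨2, by simp, c5.symm⟩
      · exact Or.inl ⟨3, by simp, c6.symm⟩
      · exact g7
      · exact g8
  have a4 : Al c 4 := P.al (Or.inr (Or.inr (Or.inr (Or.inl ⟨rfl, hk1⟩))))
  have f4 : φ (c 4) w = -(ρ 4 * (v + (2 * a + k * v))) := by rw [P.v1 H a4 w, w4]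
  have g4 := nK_al H a4
  by_cases hk2 : k = 2
  · have hk3 : k ≠ 1 / 2 := by rw [hk2]; norm_num
    have c2 := P.c2 hk2
    have a5 : Al c 5 := P.al (Or.inr (Or.inr (Or.inr (Or.inr (Or.inl ⟨rfl, hk1, hk3⟩)))))
    have a6 : Al c 6 :=
      P.al (Or.inr (Or.inr (Or.inr (Or.inr (Or.inr (Or.inl ⟨rfl, hk1, hk3⟩))))))
    have f5 : φ (c 5) w = -(ρ 5 * (v + 2 * a)) := by rw [P.v1 H a5 w, w5]
    have f6 : φ (c 6) w = -(ρ 6 * (a + k * v)) := by rw [P.v1 H a6 w, w6]; ring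
    have g5 := hK_al H a5
    have g6 := wK_al H a6
    have k3 : ∀ t', c t' = c 3 → t' = 2 ∨ t' = 3 := by
      intro t' ht'
      rcases P.ne t' 3 ht' with h | ⟨-, h⟩ | ⟨h, -, -⟩ | ⟨h, -, -⟩ | ⟨-, h, -⟩ | ⟨h, -, -⟩
      · exact Or.inr h
      · exact absurd h (by simp)
      · exact absurd h hk1
      · exact absurd h hk1
      · exact h
      · exact absurd h hk3
    have f3 : φ (c 3) w = -(ρ 3 * (v + a)) := by
      rw [H.rate 3 w fun t' ht' => by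
        rcases k3 t' ht' with rfl | rfl
        · rw [w2, w3, P.d2 hk2, hk2]; ring
        · rfl, w3]
    have g3 : (1 - xK c φ) + 2 * rK c φ = ρ 3 := by
      unfold xK rK
      rw [c2]
      have e1 : φ (c 3) 0 = 0 := H.zero_of 3 fun t' _ => rfl
      have e2 : φ (c 3) (e9 3 + (2:ℝ) • e9 5) = φ (c 3) (e9 3) :=
        H.loc _ _ _ fun t' ht' => by rcases k3 t' ht' with rfl | rfl <;> simp [e9]
      have e3 : φ (c 3) (e9 3 + (2:ℝ) • e9 5 + (2:ℝ) • e9 2) = -ρ 3 := by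
        rw [H.rate 3 _ fun t' ht' => by
          rcases k3 t' ht' with rfl | rfl
          · rw [P.d2 hk2]; simp [e9]
          · rfl]
        simp [e9]
      rw [e1, e2, e3]; ring
    rw [H.sum_rep' (S := {0, 1, 3, 4, 5, 6}) ?_ ?_ hl]
    · have e : ∑ t ∈ ({0, 1, 3, 4, 5, 6} : Finset (Fin 9)), φ (c t) w =
          φ (c 0) w + φ (c 1) w + φ (c 3) w + φ (c 4) w + φ (c 5) w + φ (c 6) w := by
        simp [Finset.sum_insert]; ring
      rw [e, f0, f1, f3, f4, f5, f6, g4, g5, g6, ← g3, hk2]; ring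
    · intro t ht t' ht' h
      rcases P.ne t t' h with h | ⟨h, h'⟩ | ⟨hk, h, h'⟩ | ⟨hk, h, h'⟩ | ⟨-, h, h'⟩ | ⟨hk, h, h'⟩
      · exact h
      · rcases h with rfl | rfl | ⟨-, rfl⟩ <;> rcases h' with rfl | rfl | ⟨-, rfl⟩ <;>
          simp at ht ht' ⊢
      · exact absurd hk hk1
      · exact absurd hk hk1
      · rcases h with rfl | rfl <;> rcases h' with rfl | rfl <;> simp at ht ht' ⊢
      · exact absurd hk hk3
    · obtain ⟨g7, g8⟩ := c78 (S := {0, 1, 3, 4, 5, 6}) (by simp)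
      intro t
      fin_cases t
      · exact Or.inl ⟨0, by simp, rfl⟩
      · exact Or.inl ⟨1, by simp, rfl⟩
      · exact Or.inl ⟨3, by simp, c2.symm⟩
      · exact Or.inl ⟨3, by simp, rfl⟩
      · exact Or.inl ⟨4, by simp, rfl⟩
      · exact Or.inl ⟨5, by simp, rfl⟩
      · exact Or.inl ⟨6, by simp, rfl⟩
      · exact g7
      · exact g8
  have a2 : Al c 2 := P.al (Or.inr (Or.inl ⟨rfl, hk1, hk2⟩))
  have a3 : Al c 3 := P.al (Or.inr (Or.inr (Or.inl ⟨rfl, hk1, hk2⟩)))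
  have f2 : φ (c 2) w = -(ρ 2 * (2 * a + k * v)) := by rw [P.v1 H a2 w, w2]
  have f3 : φ (c 3) w = -(ρ 3 * (v + a)) := by rw [P.v1 H a3 w, w3]
  have g2 := rK_al H a2
  have g3 := xK_al H a3
  by_cases hk3 : k = 1 / 2
  · have c5 := P.c5h hk3
    have k6 : ∀ t', c t' = c 6 → t' = 5 ∨ t' = 6 := by
      intro t' ht'
      rcases P.ne t' 6 ht' with h | ⟨-, h⟩ | ⟨h, -, -⟩ | ⟨h, -, -⟩ | ⟨h, -, -⟩ | ⟨-, h, -⟩
      · exact Or.inr h
      · exact absurd h (by simp)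
      · exact absurd h hk1
      · exact absurd h hk1
      · exact absurd h hk2
      · exact h
    have f6 : φ (c 6) w = -(ρ 6 * (a + k * v)) := by
      rw [H.rate 6 w fun t' ht' => by
        rcases k6 t' ht' with rfl | rfl
        · rw [w5, w6, P.d5h hk3, hk3]; ring
        · rfl, w6]
      ring
    have g6 : wK c φ + 2 * (1 - hK c φ) = ρ 6 := by
      unfold wK hK
      rw [c5]
      have e1 : φ (c 6) (e9 3) = 0 := H.zero_of 6 fun t' ht' => by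
        rcases k6 t' ht' with rfl | rfl <;> simp [e9]
      have e2 : φ (c 6) (e9 3 + e9 6) = φ (c 6) (e9 6) :=
        H.loc _ _ _ fun t' ht' => by rcases k6 t' ht' with rfl | rfl <;> simp [e9]
      have e3 : φ (c 6) (e9 6 + (2:ℝ) • e9 5) = -ρ 6 := by
        rw [H.rate 6 _ fun t' ht' => by
          rcases k6 t' ht' with rfl | rfl
          · rw [P.d5h hk3]; simp [e9]
          · rfl]
        simp [e9]
      rw [e1, e2, e3]; ring
    rw [H.sum_rep' (S := {0, 1, 2, 3, 4, 6}) ?_ ?_ hl]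
    · have e : ∑ t ∈ ({0, 1, 2, 3, 4, 6} : Finset (Fin 9)), φ (c t) w =
          φ (c 0) w + φ (c 1) w + φ (c 2) w + φ (c 3) w + φ (c 4) w + φ (c 6) w := by
        simp [Finset.sum_insert]; ring
      rw [e, f0, f1, f2, f3, f4, f6, g2, g3, g4, ← g6, hk3]; ring
    · intro t ht t' ht' h
      rcases P.ne t t' h with h | ⟨h, h'⟩ | ⟨hk, h, h'⟩ | ⟨hk, h, h'⟩ | ⟨hk, h, h'⟩ | ⟨-, h, h'⟩
      · exact h
      · rcases h with rfl | rfl | ⟨-, rfl⟩ <;> rcases h' with rfl | rfl | ⟨-, rfl⟩ <;>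
          simp at ht ht' ⊢
      · exact absurd hk hk1
      · exact absurd hk hk1
      · exact absurd hk hk2
      · rcases h with rfl | rfl <;> rcases h' with rfl | rfl <;> simp at ht ht' ⊢
    · obtain ⟨g7, g8⟩ := c78 (S := {0, 1, 2, 3, 4, 6}) (by simp)
      intro t
      fin_cases t
      · exact Or.inl ⟨0, by simp, rfl⟩
      · exact Or.inl ⟨1, by simp, rfl⟩
      · exact Or.inl ⟨2, by simp, rfl⟩
      · exact Or.inl ⟨3, by simp, rfl⟩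
      · exact Or.inl ⟨4, by simp, rfl⟩
      · exact Or.inl ⟨6, by simp, c5.symm⟩
      · exact Or.inl ⟨6, by simp, rfl⟩
      · exact g7
      · exact g8
  · have a5 : Al c 5 := P.al (Or.inr (Or.inr (Or.inr (Or.inr (Or.inl ⟨rfl, hk1, hk3⟩)))))
    have a6 : Al c 6 :=
      P.al (Or.inr (Or.inr (Or.inr (Or.inr (Or.inr (Or.inl ⟨rfl, hk1, hk3⟩))))))
    have f5 : φ (c 5) w = -(ρ 5 * (v + 2 * a)) := by rw [P.v1 H a5 w, w5]
    have f6 : φ (c 6) w = -(ρ 6 * (a + k * v)) := by rw [P.v1 H a6 w, w6]; ring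
    rw [H.sum_rep' (S := {0, 1, 2, 3, 4, 5, 6}) ?_ ?_ hl]
    · have e : ∑ t ∈ ({0, 1, 2, 3, 4, 5, 6} : Finset (Fin 9)), φ (c t) w =
          φ (c 0) w + φ (c 1) w + φ (c 2) w + φ (c 3) w + φ (c 4) w + φ (c 5) w + φ (c 6) w := by
        simp [Finset.sum_insert]; ring
      rw [e, f0, f1, f2, f3, f4, f5, f6, g2, g3, g4, hK_al H a5, wK_al H a6]; ring
    · intro t ht t' ht' h
      rcases P.ne t t' h with h | ⟨h, h'⟩ | ⟨hk, h, h'⟩ | ⟨hk, h, h'⟩ | ⟨hk, h, h'⟩ | ⟨hk, h, h'⟩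
      · exact h
      · rcases h with rfl | rfl | ⟨-, rfl⟩ <;> rcases h' with rfl | rfl | ⟨-, rfl⟩ <;>
          simp at ht ht' ⊢
      · exact absurd hk hk1
      · exact absurd hk hk1
      · exact absurd hk hk2
      · exact absurd hk hk3
    · obtain ⟨g7, g8⟩ := c78 (S := {0, 1, 2, 3, 4, 5, 6}) (by simp)
      intro t
      fin_cases t
      · exact Or.inl ⟨0, by simp, rfl⟩
      · exact Or.inl ⟨1, by simp, rfl⟩
      · exact Or.inl ⟨2, by simp, rfl⟩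
      · exact Or.inl ⟨3, by simp, rfl⟩
      · exact Or.inl ⟨4, by simp, rfl⟩
      · exact Or.inl ⟨5, by simp, rfl⟩
      · exact Or.inl ⟨6, by simp, rfl⟩
      · exact g7
      · exact g8

end

end Crest.Agent.R116.Tq741
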