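import Crest.Agent.R116.Tq1_741
import Crest.Agent.R116.RbM2_219
import Crest.Agent.R116.SgL1_337
import Crest.Agent.R116.IIr2_460

/-!
# R116 (K side), ties: the plane below the record, `e`-tie (helper741)

* `Cl9.sum_rep`, `Gen.rts` : rates from one generic point
* `one_of` : `One j w` from ten explicit gaps
* `PlE k c dl` : the classes of the `e`-plane `b = a + k v`
* **`natE`**   : value at the natural vectors of the `e`-plane, all `k` (resonances `k = 1, 1/2`)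
-/

set_option autoImplicit false
set_option linter.unusedSectionVars false
set_option linter.unusedVariables false

open Set Filter Topology Metric MeasureTheory
open scoped NNReal

namespace Crest.Agent.R116.Tq741

open Tie460 (Pl EF KF)
open RbM219 (nat9)
open Sg337 (DL)

variable {c : Fin 9 → Fin 9} {dl : V9} {s : ℝ} {Λ : V9 → ℝ} {φ : Fin 9 → V9 → ℝ} {ρ : V9}

/-- one representative of every class -/
theorem Cl9.sum_rep (H : Cl9 c dl s Λ φ ρ) {S : Finset (Fin 9)}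
    (inj : ∀ t ∈ S, ∀ t' ∈ S, c t = c t' → t = t') (cov : ∀ t, ∃ t' ∈ S, c t' = c t) {w : V9}
    (hw : LegM 0 w) : Λ w = ∑ t ∈ S, φ (c t) w := by
  classical
  rw [H.sum w hw]
  have e1 : ∑ t ∈ S, φ (c t) w = ∑ k ∈ S.image c, φ k w :=
    (Finset.sum_image (f := fun k => φ k w) (g := c)
      fun t ht t' ht' h => inj t ht t' ht' h).symm
  rw [e1]
  refine (Finset.sum_subset (Finset.subset_univ _) fun k _ hk => ?_).symm
  refine H.emp k (fun t ht => hk ?_) w
  obtain ⟨t', ht', h⟩ := cov t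
  exact Finset.mem_image.2 ⟨t', ht', h.trans ht⟩

/-- alone or unused label -/
theorem Cl9.rt_or (H : Cl9 c dl s Λ φ ρ) {k : Fin 9} (hk : ∀ t t', c t = k → c t' = k → t = t')
    (w : V9) : RtAt (φ k) w (fun i => if c i = k then ρ i else 0) := by
  by_cases h : ∃ t, c t = k
  · obtain ⟨t, rfl⟩ := h
    have h1 := H.rt_alone (t := t) (fun t' ht' => hk t' t ht' rfl) w
    have e : (fun i => if i = t then ρ t else 0) = fun i => if c i = c t then ρ i else 0 := by
      funext i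
      by_cases hi : i = t
      · subst hi; rw [if_pos rfl, if_pos rfl]
      · rw [if_neg hi, if_neg (fun h => hi (hk i t h rfl))]
    rw [e] at h1
    exact h1
  · push Not at h
    intro d
    have e : (∑ t, (if c t = k then ρ t else 0) * d t) = 0 :=
      Finset.sum_eq_zero fun t _ => by rw [if_neg (h t), zero_mul]
    rw [e, neg_zero]
    refine tendsto_const_nhds.congr fun x => ?_
    rw [H.emp k h, H.emp k h, sub_zero, zero_div]

/-- a generic point: every class has its rates -/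
def Gen (φ : Fin 9 → V9 → ℝ) (w : V9) : Prop := ∀ k, ∃ R, RtAt (φ k) w R

/-- co-null set of the positions -/
def NG (φ : Fin 9 → V9 → ℝ) : Set V9 := {w | (∃ m : ℝ, 0 < m ∧ LegM m w) → Gen φ w}

theorem Cl9.nG (H : Cl9 c dl s Λ φ ρ) : ∀ᵐ w : V9, w ∈ NG φ := H.ae_rt

/-- the rates of a generic point -/
theorem Gen.rts (H : Cl9 c dl s Λ φ ρ) {w w' : V9} (hg : Gen φ w) {A : Fin 9 → Prop}
    (hA : ∀ t, A t → ∀ t', c t' = c t → t' = t) (hw : ∀ t, ¬ A t → w' t = w t) (Zc : Fin 9 → Prop) :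
    ∃ R : V9, Rts c φ Zc w' R ∧ (∀ t, (∀ t', c t' = c t → t' = t) → R t = ρ t) ∧
      ∀ k R', RtAt (φ k) w R' → (∀ t, c t = k → ¬ A t) → ∀ t, c t = k → R t = R' t := by
  classical
  choose Rk hRk using hg
  set Rk' : Fin 9 → V9 := fun k => if (∃ t, c t = k ∧ A t) then
    (fun i => if c i = k then ρ i else 0) else Rk k with hRk'
  have h1 : ∀ k, RtAt (φ k) w' (Rk' k) := by
    intro k
    simp only [hRk']
    by_cases hk : ∃ t, c t = k ∧ A t
    · rw [if_pos hk]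
      obtain ⟨t, ht, hAt⟩ := hk
      exact H.rt_or (fun i j hi hj => by
        rw [hA t hAt i (hi.trans ht.symm), hA t hAt j (hj.trans ht.symm)]) w'
    · rw [if_neg hk]
      exact (hRk k).loc H fun t ht => hw t fun hAt => hk ⟨t, ht, hAt⟩
  refine ⟨fun t => Rk' (c t) t, Rts.of H fun k _ => h1 k, fun t ht => ?_, fun k R' hR' hk t ht => ?_⟩
  · have h2 := (h1 (c t)).uniq (H.rt_alone ht w')
    show Rk' (c t) t = ρ t
    rw [h2]; simp
  · have h3 : ¬ ∃ t, c t = k ∧ A t := fun ⟨t, ht, hAt⟩ => hk t ht hAt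
    show Rk' (c t) t = R' t
    rw [ht]
    simp only [hRk', if_neg h3]
    rw [(hRk k).uniq hR']

theorem nbd {w w0 : V9} {η : ℝ} (h : ‖w - w0‖ < η) (i : Fin 9) : w0 i - η < w i ∧ w i < w0 i + η := by
  have h1 := norm_le_pi_norm (w - w0) i
  rw [Real.norm_eq_abs, Pi.sub_apply] at h1
  have h2 := abs_lt.1 (h1.trans_lt h)
  constructor <;> linarith [h2.1, h2.2]

/-- strictly legal points of `NG` are generic -/
theorem gen_of {w w0 : V9} {η m : ℝ} (hN : w ∈ NG φ) (h0 : LegM m w0) (hm : 3 * η < m)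
    (hw : ‖w - w0‖ < η) : Gen φ w := by
  refine hN ⟨m - 3 * η, by linarith, ?_⟩
  obtain ⟨a, b, c, d, e, f, g, i, j, k⟩ := h0
  have b0 := nbd hw 0
  have b1 := nbd hw 1
  have b2 := nbd hw 2
  have b3 := nbd hw 3
  have b4 := nbd hw 4
  have b5 := nbd hw 5
  have b6 := nbd hw 6
  have b7 := nbd hw 7
  have b8 := nbd hw 8
  constructor <;> linarith [b0.1, b0.2, b1.1, b1.2, b2.1, b2.2, b3.1, b3.2, b4.1, b4.2, b5.1, b5.2,
    b6.1, b6.2, b7.1, b7.2, b8.1, b8.2]

theorem one_intro {w : V9} {j : Fin 10} (h0 : gap w j = 0) (h : ∀ i, i ≠ j → 0 < gap w i) :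
    One j w := ⟨h0, h⟩

theorem LegM.of_gap {m : ℝ} {w : V9} (h : ∀ i, m ≤ gap w i) : LegM m w := by
  have g0 : m ≤ w 0 + w 8 - w 7 := h 0
  have g1 : m ≤ w 0 + w 1 - w 3 := h 1
  have g2 : m ≤ w 7 + w 1 - w 6 := h 2
  have g3 : m ≤ w 8 + w 3 - w 6 := h 3
  have g4 : m ≤ w 1 + w 3 - w 5 := h 4
  have g5 : m ≤ w 1 + w 6 - w 2 := h 5
  have g6 : m ≤ w 8 + w 5 - w 2 := h 6
  have g7 : m ≤ w 0 + w 2 - w 4 := h 7
  have g8 : m ≤ w 3 + w 6 - w 4 := h 8
  have g9 : m ≤ w 7 + w 5 - w 4 := h 9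
  constructor <;> linarith

theorem One.leg {w : V9} {j : Fin 10} (h : One j w) : LegM 0 w := by
  refine LegM.of_gap fun i => ?_
  by_cases hi : i = j
  · rw [hi, h.1]
  · exact (h.2 i hi).le

/-- explicit form of `One` -/
theorem one_of {w : V9} (j : Fin 10)
    (g0 : if j = 0 then w 0 + w 8 - w 7 = 0 else 0 < w 0 + w 8 - w 7)
    (g1 : if j = 1 then w 0 + w 1 - w 3 = 0 else 0 < w 0 + w 1 - w 3)
    (g2 : if j = 2 then w 7 + w 1 - w 6 = 0 else 0 < w 7 + w 1 - w 6)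
    (g3 : if j = 3 then w 8 + w 3 - w 6 = 0 else 0 < w 8 + w 3 - w 6)
    (g4 : if j = 4 then w 1 + w 3 - w 5 = 0 else 0 < w 1 + w 3 - w 5)
    (g5 : if j = 5 then w 1 + w 6 - w 2 = 0 else 0 < w 1 + w 6 - w 2)
    (g6 : if j = 6 then w 8 + w 5 - w 2 = 0 else 0 < w 8 + w 5 - w 2)
    (g7 : if j = 7 then w 0 + w 2 - w 4 = 0 else 0 < w 0 + w 2 - w 4)
    (g8 : if j = 8 then w 3 + w 6 - w 4 = 0 else 0 < w 3 + w 6 - w 4)
    (g9 : if j = 9 then w 7 + w 5 - w 4 = 0 else 0 < w 7 + w 5 - w 4) : One j w := by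
  have key : ∀ i, if j = i then gap w i = 0 else 0 < gap w i := by
    intro i
    fin_cases i
    · exact g0
    · exact g1
    · exact g2
    · exact g3
    · exact g4
    · exact g5
    · exact g6
    · exact g7
    · exact g8
    · exact g9
  refine ⟨by have := key j; rwa [if_pos rfl] at this, fun i hi => ?_⟩
  have := key i
  rwa [if_neg (Ne.symm hi)] at this

/-! ### the classes of the `e`-plane -/

/-- parallel slots of the `e`-plane -/
def PE (k : ℝ) (t t' : Fin 9) : Prop :=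
  t = t' ∨ (t = 0 ∧ t' = 6) ∨ (t = 6 ∧ t' = 0) ∨
    (k = 1 ∧ ((t = 2 ∧ t' = 3) ∨ (t = 3 ∧ t' = 2))) ∨
    (k = 1 / 2 ∧ ((t = 2 ∧ t' = 5) ∨ (t = 5 ∧ t' = 2)))

structure PlE (k : ℝ) (c : Fin 9 → Fin 9) (dl : V9) : Prop where
  par : ∀ t t', c t = c t' ↔ PE k t t'
  d6 : dl 6 = k * dl 0
  d3 : k = 1 → dl 3 = dl 2
  d5 : k = 1 / 2 → dl 5 = 2 * dl 2

section

variable {k : ℝ}

theorem PlE.c6 (P : PlE k c dl) : c 6 = c 0 := (P.par 6 0).2 (by unfold PE; simp)

theorem PlE.al (P : PlE k c dl) {t : Fin 9} (ht : t = 1 ∨ t = 4 ∨ t = 7 ∨ t = 8) (t' : Fin 9)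
    (h : c t' = c t) : t' = t := by
  have h1 := (P.par t' t).1 h
  unfold PE at h1
  rcases ht with rfl | rfl | rfl | rfl <;> simpa using h1

theorem PlE.al3 (P : PlE k c dl) (hk : k ≠ 1) (t' : Fin 9) (h : c t' = c 3) : t' = 3 := by
  have h1 := (P.par t' 3).1 h
  unfold PE at h1
  simpa [hk] using h1

theorem PlE.al5 (P : PlE k c dl) (hk : k ≠ 1 / 2) (t' : Fin 9) (h : c t' = c 5) : t' = 5 := by
  have h1 := (P.par t' 5).1 h
  unfold PE at h1
  have hk' : k ≠ 2⁻¹ := by rwa [one_div] at hk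
  simpa [hk'] using h1

theorem PlE.al2 (P : PlE k c dl) (h1 : k ≠ 1) (h2 : k ≠ 1 / 2) (t' : Fin 9) (h : c t' = c 2) :
    t' = 2 := by
  have h1' := (P.par t' 2).1 h
  unfold PE at h1'
  have hk' : k ≠ 2⁻¹ := by rwa [one_div] at h2
  simpa [h1, hk'] using h1'

theorem PlE.c3 (P : PlE k c dl) (hk : k = 1) : c 3 = c 2 := (P.par 3 2).2 (by unfold PE; simp [hk])

theorem PlE.c5 (P : PlE k c dl) (hk : k = 1 / 2) : c 5 = c 2 :=
  (P.par 5 2).2 (by unfold PE; simp [hk])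

theorem PlE.z (P : PlE k c dl) {t : Fin 9} : c t = c 0 ↔ t = 0 ∨ t = 6 := by
  rw [P.par]; unfold PE
  constructor
  · rintro (h | h | h | h | h)
    · exact Or.inl h
    · simp at h
    · exact Or.inr h.1
    · simp at h
    · simp at h
  · rintro (rfl | rfl)
    · simp
    · simp

theorem PlE.k2 (P : PlE k c dl) {t : Fin 9} (h : c t = c 2) : t = 2 ∨ t = 3 ∨ t = 5 := by
  have h1 := (P.par t 2).1 h
  unfold PE at h1
  rcases h1 with h | h | h | h | h
  · exact Or.inl h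
  · simp at h
  · simp at h
  · simp at h; exact Or.inr (Or.inl h.2)
  · simp at h; exact Or.inr (Or.inr h.2)

/-- rate of `C_b`, `X` fine, `H` coarse -/
def rE (c : Fin 9 → Fin 9) (φ : Fin 9 → V9 → ℝ) : ℝ :=
  φ (c 2) (e9 3) - φ (c 2) (e9 3 + (1:ℝ) • e9 2)

/-- loss of `X`, `C_b` coarse -/
def xE (c : Fin 9 → Fin 9) (φ : Fin 9 → V9 → ℝ) : ℝ :=
  1 - (φ (c 3) 0 - φ (c 3) (0 + (1:ℝ) • e9 3))

/-- loss of `H`, `C_b` fine -/
noncomputable def hE (c : Fin 9 → Fin 9) (φ : Fin 9 → V9 → ℝ) : ℝ :=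
  1 - (φ (c 5) (e9 2) - φ (c 5) (e9 2 + (2:ℝ) • e9 5)) / 2

theorem rE_al (H : Cl9 c dl s Λ φ ρ) (h : ∀ t', c t' = c 2 → t' = 2) : rE c φ = ρ 2 := by
  unfold rE
  rw [H.rate 2 _ fun t' ht' => by rw [h t' ht'], H.rate 2 _ fun t' ht' => by rw [h t' ht']]
  simp [e9]

theorem xE_al (H : Cl9 c dl s Λ φ ρ) (h : ∀ t', c t' = c 3 → t' = 3) : xE c φ = 1 - ρ 3 := by
  unfold xE
  rw [H.rate 3 _ fun t' ht' => by rw [h t' ht'], H.rate 3 _ fun t' ht' => by rw [h t' ht']]
  simp [e9]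

theorem hE_al (H : Cl9 c dl s Λ φ ρ) (h : ∀ t', c t' = c 5 → t' = 5) : hE c φ = 1 - ρ 5 := by
  unfold hE
  rw [H.rate 5 _ fun t' ht' => by rw [h t' ht'], H.rate 5 _ fun t' ht' => by rw [h t' ht']]
  simp [e9]

theorem leg_nat9 (v a p : ℝ) : LegM 0 (nat9 v a p) := by
  constructor <;> simp [nat9] <;> linarith

theorem nat9_v (v a p : ℝ) : nat9 v a p 0 = v ∧ nat9 v a p 1 = a ∧ nat9 v a p 2 = p ∧
    nat9 v a p 3 = v + a ∧ nat9 v a p 4 = v + p ∧ nat9 v a p 5 = v + 2 * a ∧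
    nat9 v a p 6 = p - a ∧ nat9 v a p 7 = p - 2 * a ∧ nat9 v a p 8 = p - 2 * a - v :=
  ⟨rfl, rfl, rfl, rfl, rfl, rfl, rfl, rfl, rfl⟩

/-- **value at the natural vectors of the `e`-plane** -/
theorem natE (H : Cl9 c dl s Λ φ ρ) (P : PlE k c dl) (v a : ℝ) :
    Λ (nat9 v a (a + k * v)) = -(ρ 0 * v + ρ 1 * a + rE c φ * (a + k * v) +
      (1 - xE c φ) * (v + a) + ρ 4 * (v + a + k * v) + (1 - hE c φ) * (v + 2 * a) +
      ρ 7 * (k * v - a) + ρ 8 * (k * v - a - v)) := by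
  set w := nat9 v a (a + k * v) with hw
  obtain ⟨w0, w1, w2, w3, w4, w5, w6, w7, w8⟩ := nat9_v v a (a + k * v)
  rw [← hw] at w0 w1 w2 w3 w4 w5 w6 w7 w8
  have hl : LegM 0 w := leg_nat9 _ _ _
  have f0 : φ (c 0) w = -(ρ 0 * v) := by
    rw [H.rate 0 w fun t' ht' => by
      rcases P.z.1 ht' with rfl | rfl
      · rfl
      · rw [w6, w0, P.d6]; ring]
    rw [w0]
  have f1 : φ (c 1) w = -(ρ 1 * a) := by
    rw [H.rate 1 w fun t' ht' => by rw [P.al (Or.inl rfl) t' ht'], w1]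
  have f4 : φ (c 4) w = -(ρ 4 * (v + a + k * v)) := by
    rw [H.rate 4 w fun t' ht' => by rw [P.al (Or.inr (Or.inl rfl)) t' ht'], w4]; ring
  have f7 : φ (c 7) w = -(ρ 7 * (k * v - a)) := by
    rw [H.rate 7 w fun t' ht' => by rw [P.al (Or.inr (Or.inr (Or.inl rfl))) t' ht'], w7]; ring
  have f8 : φ (c 8) w = -(ρ 8 * (k * v - a - v)) := by
    rw [H.rate 8 w fun t' ht' => by rw [P.al (Or.inr (Or.inr (Or.inr rfl))) t' ht'], w8]; ring
  by_cases hk1 : k = 1
  · have hk2 : k ≠ 1 / 2 := by rw [hk1]; norm_num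
    have hc3 := P.c3 hk1
    have g5 := hE_al H (P.al5 hk2)
    have f5 : φ (c 5) w = -(ρ 5 * (v + 2 * a)) := by
      rw [H.rate 5 w fun t' ht' => by rw [P.al5 hk2 t' ht'], w5]
    have h2 : ∀ t', c t' = c 2 → t' = 2 ∨ t' = 3 := by
      intro t' ht'
      rcases P.k2 ht' with h | h | h
      · exact Or.inl h
      · exact Or.inr h
      · subst h
        exact absurd (P.al5 hk2 2 ht'.symm) (by decide)
    have f2 : φ (c 2) w = -(ρ 2 * (a + k * v)) := by
      rw [H.rate 2 w fun t' ht' => by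
        rcases h2 t' ht' with rfl | rfl
        · rfl
        · rw [w3, w2, P.d3 hk1, hk1]; ring, w2]
    have g2 : rE c φ + (1 - xE c φ) = ρ 2 := by
      unfold rE xE
      rw [hc3]
      have e1 : φ (c 2) 0 = 0 := H.zero_of 2 fun t' _ => rfl
      have e2 : φ (c 2) (e9 3 + (1:ℝ) • e9 2) = -ρ 2 := by
        rw [H.rate 2 _ fun t' ht' => by
          rcases h2 t' ht' with rfl | rfl
          · rfl
          · rw [P.d3 hk1]; simp [e9]]
        simp [e9]
      have e3 : (0 + (1:ℝ) • e9 3 : V9) = e9 3 := by simp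
      rw [e1, e2, e3]; ring
    rw [H.sum_rep (S := {0, 1, 2, 4, 5, 7, 8}) ?_ ?_ hl]
    · have e : ∑ t ∈ ({0, 1, 2, 4, 5, 7, 8} : Finset (Fin 9)), φ (c t) w =
          φ (c 0) w + φ (c 1) w + φ (c 2) w + φ (c 4) w + φ (c 5) w + φ (c 7) w + φ (c 8) w := by
        simp [Finset.sum_insert]; ring
      rw [e, f0, f1, f2, f4, f5, f7, f8, g5]
      have : rE c φ = ρ 2 - (1 - xE c φ) := by linarith
      rw [this, hk1]; ring
    · intro t ht t' ht' h
      have h1 := (P.par t t').1 h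
      unfold PE at h1
      rcases h1 with h | ⟨h, h'⟩ | ⟨h, h'⟩ | ⟨-, ⟨h, h'⟩ | ⟨h, h'⟩⟩ | ⟨h, -⟩
      · exact h
      · subst h'; simp at ht'
      · subst h; simp at ht
      · subst h'; simp at ht'
      · subst h; simp at ht
      · exact absurd h hk2
    · intro t
      fin_cases t
      · exact ⟨0, by simp, rfl⟩
      · exact ⟨1, by simp, rfl⟩
      · exact ⟨2, by simp, rfl⟩
      · exact ⟨2, by simp, hc3.symm⟩
      · exact ⟨4, by simp, rfl⟩
      · exact ⟨5, by simp, rfl⟩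
      · exact ⟨0, by simp, P.c6.symm⟩
      · exact ⟨7, by simp, rfl⟩
      · exact ⟨8, by simp, rfl⟩
  · have g3 := xE_al H (P.al3 hk1)
    have f3 : φ (c 3) w = -(ρ 3 * (v + a)) := by
      rw [H.rate 3 w fun t' ht' => by rw [P.al3 hk1 t' ht'], w3]
    by_cases hk2 : k = 1 / 2
    · have hc5 := P.c5 hk2
      have h2 : ∀ t', c t' = c 2 → t' = 2 ∨ t' = 5 := by
        intro t' ht'
        rcases P.k2 ht' with h | h | h
        · exact Or.inl h
        · subst h
          exact absurd (P.al3 hk1 2 ht'.symm) (by decide)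
        · exact Or.inr h
      have f2 : φ (c 2) w = -(ρ 2 * (a + k * v)) := by
        rw [H.rate 2 w fun t' ht' => by
          rcases h2 t' ht' with rfl | rfl
          · rfl
          · rw [w5, w2, P.d5 hk2, hk2]; ring, w2]
      have g2 : rE c φ + 2 * (1 - hE c φ) = ρ 2 := by
        unfold rE hE
        rw [hc5]
        have e1 : φ (c 2) (e9 3) = 0 := H.zero_of 2 fun t' ht' => by
          rcases h2 t' ht' with rfl | rfl <;> simp [e9]
        have e2 : φ (c 2) (e9 3 + (1:ℝ) • e9 2) = φ (c 2) (e9 2) :=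
          H.loc _ _ _ fun t' ht' => by rcases h2 t' ht' with rfl | rfl <;> simp [e9]
        have e3 : φ (c 2) (e9 2 + (2:ℝ) • e9 5) = -ρ 2 := by
          rw [H.rate 2 _ fun t' ht' => by
            rcases h2 t' ht' with rfl | rfl
            · rfl
            · rw [P.d5 hk2]; simp [e9]]
          simp [e9]
        rw [e1, e2, e3]; ring
      rw [H.sum_rep (S := {0, 1, 2, 3, 4, 7, 8}) ?_ ?_ hl]
      · have e : ∑ t ∈ ({0, 1, 2, 3, 4, 7, 8} : Finset (Fin 9)), φ (c t) w =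
            φ (c 0) w + φ (c 1) w + φ (c 2) w + φ (c 3) w + φ (c 4) w + φ (c 7) w + φ (c 8) w := by
          simp [Finset.sum_insert]; ring
        rw [e, f0, f1, f2, f3, f4, f7, f8, g3]
        have : rE c φ = ρ 2 - 2 * (1 - hE c φ) := by linarith
        rw [this, hk2]; ring
      · intro t ht t' ht' h
        have h1 := (P.par t t').1 h
        unfold PE at h1
        rcases h1 with h | ⟨h, h'⟩ | ⟨h, h'⟩ | ⟨h, -⟩ | ⟨-, ⟨h, h'⟩ | ⟨h, h'⟩⟩
        · exact h
        · subst h'; simp at ht'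
        · subst h; simp at ht
        · exact absurd h hk1
        · subst h'; simp at ht'
        · subst h; simp at ht
      · intro t
        fin_cases t
        · exact ⟨0, by simp, rfl⟩
        · exact ⟨1, by simp, rfl⟩
        · exact ⟨2, by simp, rfl⟩
        · exact ⟨3, by simp, rfl⟩
        · exact ⟨4, by simp, rfl⟩
        · exact ⟨2, by simp, hc5.symm⟩
        · exact ⟨0, by simp, P.c6.symm⟩
        · exact ⟨7, by simp, rfl⟩
        · exact ⟨8, by simp, rfl⟩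
    · have g5 := hE_al H (P.al5 hk2)
      have g2 := rE_al H (P.al2 hk1 hk2)
      have f5 : φ (c 5) w = -(ρ 5 * (v + 2 * a)) := by
        rw [H.rate 5 w fun t' ht' => by rw [P.al5 hk2 t' ht'], w5]
      have f2 : φ (c 2) w = -(ρ 2 * (a + k * v)) := by
        rw [H.rate 2 w fun t' ht' => by rw [P.al2 hk1 hk2 t' ht'], w2]
      rw [H.sum_rep (S := {0, 1, 2, 3, 4, 5, 7, 8}) ?_ ?_ hl]
      · have e : ∑ t ∈ ({0, 1, 2, 3, 4, 5, 7, 8} : Finset (Fin 9)), φ (c t) w =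
            φ (c 0) w + φ (c 1) w + φ (c 2) w + φ (c 3) w + φ (c 4) w + φ (c 5) w + φ (c 7) w +
              φ (c 8) w := by
          simp [Finset.sum_insert]; ring
        rw [e, f0, f1, f2, f3, f4, f5, f7, f8, g3, g5, g2]
        ring
      · intro t ht t' ht' h
        have h1 := (P.par t t').1 h
        unfold PE at h1
        rcases h1 with h | ⟨h, h'⟩ | ⟨h, h'⟩ | ⟨h, -⟩ | ⟨h, -⟩
        · exact h
        · subst h'; simp at ht'
        · subst h; simp at ht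
        · exact absurd h hk1
        · exact absurd h hk2
      · intro t
        fin_cases t
        · exact ⟨0, by simp, rfl⟩
        · exact ⟨1, by simp, rfl⟩
        · exact ⟨2, by simp, rfl⟩
        · exact ⟨3, by simp, rfl⟩
        · exact ⟨4, by simp, rfl⟩
        · exact ⟨5, by simp, rfl⟩
        · exact ⟨0, by simp, P.c6.symm⟩
        · exact ⟨7, by simp, rfl⟩
        · exact ⟨8, by simp, rfl⟩

end

end Crest.Agent.R116.Tq741
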