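import Crest.Agent.R116.Tq4_741
import Crest.Agent.R116.Tm1_741
import Crest.Agent.R116.Tp4_139

/-!
# R116 (K side, ties), the planes above the record over 741's class functions (helper139)

* `Al c t` : the slot `t` is alone; `LinS.mono`; `Cl9.pt` : a linear point near any strictly legal
  vector with one lonely slot moved freely
* `Cl9.pos0` : signs and costs of the lonely slots
* `kx_of, fx_of, hx_of, kn_of, fn_of, sx_of` : (K1), (F1), (H1), (K2), (F2), (S1) for lonely slots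
-/

set_option autoImplicit false
set_option linter.unusedVariables false
set_option linter.unusedSimpArgs false
set_option linter.unusedSectionVars false

open Set Filter Topology Metric MeasureTheory
open scoped NNReal

namespace Crest.Agent.R116.Tp139

open Crest.Agent.R116.Tq741

variable {c : Fin 9 → Fin 9} {dl : V9} {s : ℝ} {Λ : V9 → ℝ} {φ : Fin 9 → V9 → ℝ} {ρ : V9}

/-- the slot `t` is alone in its class -/
def Al (c : Fin 9 → Fin 9) (t : Fin 9) : Prop := ∀ t', c t' = c t → t' = t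

theorem LinS.mono {Z Z' : Finset (Fin 9)} {w R : V9} (hZ : Z ⊆ Z') (hL : LinS Z Λ w R) :
    LinS Z' Λ w R := by
  obtain ⟨h, Ψ, h0, ht, hΨ, hlim⟩ := hL
  refine ⟨h, fun d => Ψ d + ∑ t ∈ Z' \ Z, R t * d t, h0, ht, fun d d' hdd hd hd' => ?_,
    fun d hd => ?_⟩
  · have h1 := hΨ d d' (fun t ht => hdd t (hZ ht)) hd hd'
    have h2 : ∑ t ∈ Z' \ Z, R t * d t = ∑ t ∈ Z' \ Z, R t * d' t :=
      Finset.sum_congr rfl fun t ht => by rw [hdd t (Finset.mem_sdiff.1 ht).1]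
    simp only [h1, h2]
  · have e : Ψ d + ∑ t ∈ Zᶜ, R t * d t =
        Ψ d + ∑ t ∈ Z' \ Z, R t * d t + ∑ t ∈ Z'ᶜ, R t * d t := by
      rw [add_assoc, ← Finset.sum_union]
      · congr 2
        ext t
        simp only [Finset.mem_compl, Finset.mem_union, Finset.mem_sdiff]
        constructor
        · intro h1
          by_cases h2 : t ∈ Z'
          · exact Or.inl ⟨h2, h1⟩
          · exact Or.inr h2
        · rintro (⟨_, h1⟩ | h1)
          · exact h1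
          · exact fun h2 => h1 (hZ h2)
      · rw [Finset.disjoint_left]
        intro t h1 h2
        exact (Finset.mem_compl.1 h2) (Finset.mem_sdiff.1 h1).1
    have := hlim d hd
    rw [e] at this
    exact this

/-! ### one tight wall -/

/-- the ten gaps -/
theorem one_iff {j : Fin 10} {w : V9} (h : gap w j = 0)
    (g0 : j ≠ 0 → w 7 < w 0 + w 8) (g1 : j ≠ 1 → w 3 < w 0 + w 1) (g2 : j ≠ 2 → w 6 < w 7 + w 1)
    (g3 : j ≠ 3 → w 6 < w 8 + w 3) (g4 : j ≠ 4 → w 5 < w 1 + w 3) (g5 : j ≠ 5 → w 2 < w 1 + w 6)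
    (g6 : j ≠ 6 → w 2 < w 8 + w 5) (g7 : j ≠ 7 → w 4 < w 0 + w 2) (g8 : j ≠ 8 → w 4 < w 3 + w 6)
    (g9 : j ≠ 9 → w 4 < w 7 + w 5) : One j w := by
  refine ⟨h, fun i hi => ?_⟩
  fin_cases i
  · exact sub_pos.2 (g0 (Ne.symm hi))
  · exact sub_pos.2 (g1 (Ne.symm hi))
  · exact sub_pos.2 (g2 (Ne.symm hi))
  · exact sub_pos.2 (g3 (Ne.symm hi))
  · exact sub_pos.2 (g4 (Ne.symm hi))
  · exact sub_pos.2 (g5 (Ne.symm hi))
  · exact sub_pos.2 (g6 (Ne.symm hi))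
  · exact sub_pos.2 (g7 (Ne.symm hi))
  · exact sub_pos.2 (g8 (Ne.symm hi))
  · exact sub_pos.2 (g9 (Ne.symm hi))

theorem leg_of_gap {w : V9} (h : ∀ i, 0 ≤ gap w i) : LegM 0 w := by
  have g0 : 0 ≤ w 0 + w 8 - w 7 := h 0
  have g1 : 0 ≤ w 0 + w 1 - w 3 := h 1
  have g2 : 0 ≤ w 7 + w 1 - w 6 := h 2
  have g3 : 0 ≤ w 8 + w 3 - w 6 := h 3
  have g4 : 0 ≤ w 1 + w 3 - w 5 := h 4
  have g5 : 0 ≤ w 1 + w 6 - w 2 := h 5
  have g6 : 0 ≤ w 8 + w 5 - w 2 := h 6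
  have g7 : 0 ≤ w 0 + w 2 - w 4 := h 7
  have g8 : 0 ≤ w 3 + w 6 - w 4 := h 8
  have g9 : 0 ≤ w 7 + w 5 - w 4 := h 9
  constructor <;> linarith

theorem One.leg {j : Fin 10} {w : V9} (h : One j w) : LegM 0 w := by
  refine leg_of_gap fun i => ?_
  by_cases hi : i = j
  · rw [hi, h.1]
  · exact (h.2 i hi).le

/-! ### linear points -/

theorem rts_uniq {Zc : Fin 9 → Prop} {w R R' : V9} (hR : Rts c φ Zc w R) {k : Fin 9}
    (hk : ¬ Zc k) (h : RtAt (φ k) w R') {t : Fin 9} (ht : c t = k) : R t = R' t := by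
  have h1 := (hR k hk).uniq h
  have h2 := congrFun h1 t
  simp only [if_pos ht] at h2
  exact h2

theorem rt_emp (H : Cl9 c dl s Λ φ ρ) {k : Fin 9} (hk : ∀ t, c t ≠ k) (w : V9) :
    RtAt (φ k) w 0 := by
  intro d
  have e : ∀ x : ℝ, (φ k (w + x • d) - φ k w) / x = 0 := fun x => by
    rw [H.emp k hk, H.emp k hk, sub_self, zero_div]
  simp only [e, Pi.zero_apply, zero_mul, Finset.sum_const_zero, neg_zero]
  exact tendsto_const_nhds

/-- rates at a point where lonely slots and the slots of `Zc` have been moved -/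
theorem rts_adj (H : Cl9 c dl s Λ φ ρ) {Zc : Fin 9 → Prop} {w w' : V9}
    (hw : ∀ k, ¬ Zc k → (∀ t, c t = k → ¬ Al c t) → ∃ R, RtAt (φ k) w R)
    (he : ∀ i, ¬ Zc (c i) → ¬ Al c i → w' i = w i) :
    ∃ R, Rts c φ Zc w' R ∧ (∀ t, Al c t → ¬ Zc (c t) → R t = ρ t) ∧
      ∀ k R', ¬ Zc k → RtAt (φ k) w R' → ∀ t, c t = k → ¬ Al c t → R t = R' t := by
  have h1 : ∀ k, ∃ R, ¬ Zc k → RtAt (φ k) w' R := by
    intro k
    by_cases hk : Zc k
    · exact ⟨0, fun h => absurd hk h⟩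
    by_cases hka : ∃ t, c t = k ∧ Al c t
    · obtain ⟨t, rfl, ht⟩ := hka
      exact ⟨_, fun _ => H.rt_alone ht w'⟩
    · push Not at hka
      obtain ⟨R, hR⟩ := hw k hk hka
      exact ⟨R, fun _ => hR.loc H fun t ht => he t (by rw [ht]; exact hk) (hka t ht)⟩
  choose Rk hRk using h1
  have h2 := Rts.of H (Zc := Zc) hRk
  refine ⟨_, h2, fun t ht hz => ?_, fun k R' hk hR' t htk ht => ?_⟩
  · have h3 := rts_uniq h2 hz (H.rt_alone ht w') rfl
    rw [h3, if_pos rfl]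
  · refine rts_uniq h2 hk (hR'.loc H fun t' ht' => he t' (by rw [ht']; exact hk) fun h => ht ?_) htk
    have : t = t' := h t (by rw [htk, ht'])
    rw [this]; exact h

theorem near {w w0 : V9} {η : ℝ} (h : ‖w - w0‖ < η) (i : Fin 9) :
    w0 i - η < w i ∧ w i < w0 i + η := by
  have h1 := norm_le_pi_norm (w - w0) i
  rw [Real.norm_eq_abs, Pi.sub_apply] at h1
  have h2 := abs_lt.1 (h1.trans_lt h)
  constructor <;> linarith [h2.1, h2.2]

/-- **a linear point near `w0`, one lonely slot moved to `v`** -/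
theorem Cl9.pt (H : Cl9 c dl s Λ φ ρ) {a : Fin 9} (ha : Al c a) (w0 : V9) (v : V9 → ℝ)
    (hleg : LegM (6 / 10) w0) :
    ∃ w w' R, (∀ i, w0 i - 1 / 10 < w i ∧ w i < w0 i + 1 / 10) ∧ (∀ i, i ≠ a → w' i = w i) ∧
      w' a = v w ∧ Rts c φ (fun _ => False) w' R ∧ ∀ t, Al c t → R t = ρ t := by
  obtain ⟨w, -, hw, -, hR⟩ := H.pos_near (w0 := w0) (η := 1 / 10) (by norm_num)
    (by norm_num at hleg ⊢; exact hleg) (N := Set.univ) (Eventually.of_forall fun _ => trivial)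
  obtain ⟨R, h1, h2, -⟩ := rts_adj H (w := w) (w' := Function.update w a (v w))
    (Zc := fun _ => False) (fun k _ _ => hR k) (fun i _ hi =>
      Function.update_of_ne (fun h => hi (by rw [h]; exact ha)) _ _)
  exact ⟨w, _, R, near hw, fun i hi => Function.update_of_ne hi _ _, Function.update_self _ _ _,
    h1, fun t ht => h2 t ht not_false⟩

/-! ### signs and costs -/

theorem Cl9.nonneg (H : Cl9 c dl s Λ φ ρ) {t : Fin 9} (ht : Al c t) : 0 ≤ ρ t := by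
  have hl : ∀ x : ℝ, 0 ≤ x → x ≤ 1 → LegM 0 ((fun _ => 9 : V9) + x • e9 t) := by
    intro x h0 h1
    have hb : ∀ i, (9:ℝ) ≤ ((fun _ => 9 : V9) + x • e9 t) i ∧
        ((fun _ => 9 : V9) + x • e9 t) i ≤ 10 := by
      intro i
      rw [Pi.add_apply, Pi.smul_apply, smul_eq_mul]
      by_cases hi : i = t
      · subst hi; rw [e9_same]; constructor <;> linarith
      · rw [e9_ne hi]; constructor <;> linarith
    generalize ((fun _ => 9 : V9) + x • e9 t) = u at hb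
    have b0 := hb 0
    have b1 := hb 1
    have b2 := hb 2
    have b3 := hb 3
    have b4 := hb 4
    have b5 := hb 5
    have b6 := hb 6
    have b7 := hb 7
    have b8 := hb 8
    constructor <;> linarith [b0.1, b0.2, b1.1, b1.2, b2.1, b2.2, b3.1, b3.2, b4.1, b4.2, b5.1,
      b5.2, b6.1, b6.2, b7.1, b7.2, b8.1, b8.2]
  have h0 := hl 0 le_rfl zero_le_one
  rw [zero_smul, add_zero] at h0
  have h1 := hl 1 zero_le_one le_rfl
  have h2 := H.incr_nonneg h0 h1 (c t) (fun i hi => add_e9_ne (fun h => hi (by rw [h])))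
    (le_add_e9 zero_le_one)
  rw [H.rate t _ fun t' ht' => by rw [ht t' ht'], H.rate t _ fun t' ht' => by rw [ht t' ht'],
    add_e9_same] at h2
  linarith

theorem Cl9.le_cst (H : Cl9 c dl s Λ φ ρ) {t : Fin 9} (ht : Al c t) : ρ t ≤ cst t := by
  have hl : ∀ x : ℝ, 0 ≤ x → x ≤ 1 → LegM 0 ((fun _ => 9 : V9) + x • e9 t) := by
    intro x h0 h1
    have hb : ∀ i, (9:ℝ) ≤ ((fun _ => 9 : V9) + x • e9 t) i ∧
        ((fun _ => 9 : V9) + x • e9 t) i ≤ 10 := by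
      intro i
      rw [Pi.add_apply, Pi.smul_apply, smul_eq_mul]
      by_cases hi : i = t
      · subst hi; rw [e9_same]; constructor <;> linarith
      · rw [e9_ne hi]; constructor <;> linarith
    generalize ((fun _ => 9 : V9) + x • e9 t) = u at hb
    have b0 := hb 0
    have b1 := hb 1
    have b2 := hb 2
    have b3 := hb 3
    have b4 := hb 4
    have b5 := hb 5
    have b6 := hb 6
    have b7 := hb 7
    have b8 := hb 8
    constructor <;> linarith [b0.1, b0.2, b1.1, b1.2, b2.1, b2.2, b3.1, b3.2, b4.1, b4.2, b5.1,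
      b5.2, b6.1, b6.2, b7.1, b7.2, b8.1, b8.2]
  have h0 := hl 0 le_rfl zero_le_one
  rw [zero_smul, add_zero] at h0
  have h1 := hl 1 zero_le_one le_rfl
  have h2 := H.incr_cost (t := t) zero_le_one h0 h1
  rw [H.rate t _ fun t' ht' => by rw [ht t' ht'], H.rate t _ fun t' ht' => by rw [ht t' ht'],
    add_e9_same] at h2
  linarith

/-! ### facts for lonely slots -/

/-- the visible slots of the class of `z` are slack -/
def SkU (k k' k'' : ℝ) (Sk : V9 → Prop) : Prop :=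
  ∀ w : V9, w 6 < k * w 0 → w 7 < k' * w 0 → w 8 < k'' * w 0 → Sk w

/-- nine values -/
theorem v9_val (a b c d e f g h i : ℝ) :
    (![a, b, c, d, e, f, g, h, i] : V9) 0 = a ∧ (![a, b, c, d, e, f, g, h, i] : V9) 1 = b ∧
    (![a, b, c, d, e, f, g, h, i] : V9) 2 = c ∧ (![a, b, c, d, e, f, g, h, i] : V9) 3 = d ∧
    (![a, b, c, d, e, f, g, h, i] : V9) 4 = e ∧ (![a, b, c, d, e, f, g, h, i] : V9) 5 = f ∧
    (![a, b, c, d, e, f, g, h, i] : V9) 6 = g ∧ (![a, b, c, d, e, f, g, h, i] : V9) 7 = h ∧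
    (![a, b, c, d, e, f, g, h, i] : V9) 8 = i := ⟨rfl, rfl, rfl, rfl, rfl, rfl, rfl, rfl, rfl⟩

variable {k k' k'' : ℝ} {Sk : V9 → Prop}

/-- target of (K1), (F1) -/
def tK1 : V9 := ![1, 11, 0, 11, -10, 3, -1, -2, -1]
/-- target of (H1) -/
def tH1 : V9 := ![0, 11, 0, 0, -10, 10, 0, 0, 1]
/-- target of (K2), (F2) -/
def tK2 : V9 := ![1, 10, 0, 5, 0, 5, -1, -2, -1]
/-- target of (S1) -/
def tS1 : V9 := ![0, 10, 5, 1, 0, 8, 0, -1, 0]

theorem leg_tK1 : LegM (6 / 10) tK1 := by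
  constructor <;> simp [tK1] <;> norm_num
theorem leg_tH1 : LegM (6 / 10) tH1 := by
  constructor <;> simp [tH1] <;> norm_num
theorem leg_tK2 : LegM (6 / 10) tK2 := by
  constructor <;> simp [tK2] <;> norm_num
theorem leg_tS1 : LegM (6 / 10) tS1 := by
  constructor <;> simp [tS1] <;> norm_num

section pts

variable (H : Cl9 c dl s Λ φ ρ)
include H

/-- **a linear point with one tight wall** -/
theorem ptOne {a : Fin 9} (ha : Al c a) (w0 : V9) (v : V9 → ℝ) (hleg : LegM (6 / 10) w0)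
    (hv : ∀ w w' : V9, (∀ i, i ≠ a → w' i = w i) → v w' = v w) {P : V9 → Prop} {j : Fin 10}
    (hP : ∀ w : V9, (∀ i, i ≠ a → w0 i - 1 / 10 < w i ∧ w i < w0 i + 1 / 10) → w a = v w →
      One j w ∧ P w) :
    ∃ w R, One j w ∧ P w ∧ LinS ∅ Λ w R ∧ ∀ t, Al c t → R t = ρ t := by
  obtain ⟨w, w', R, hn, he, hva, hR, hal⟩ := Cl9.pt H ha w0 v hleg
  obtain ⟨h1, h2⟩ := hP w' (fun i hi => by rw [he i hi]; exact hn i) (by rw [hva, hv w w' he])
  exact ⟨w', R, h1, h2, H.lin0 (One.leg h1) hR, hal⟩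

theorem pt_K1 (hS : SkU k k' k'' Sk) (hk : 0 < k) (hk' : 0 < k') (hk'' : 0 < k'')
    (h1 : Al c 1) : ∃ w R, One 1 w ∧ Sk w ∧ LinS ∅ Λ w R ∧ ∀ t, Al c t → R t = ρ t := by
  refine ptOne H h1 tK1 (fun w => w 3 - w 0) leg_tK1
    (fun w w' h => by rw [h 3 (by decide), h 0 (by decide)]) fun w hn hv => ?_
  have b0 := hn 0 (by decide)
  have b2 := hn 2 (by decide)
  have b3 := hn 3 (by decide)
  have b4 := hn 4 (by decide)
  have b5 := hn 5 (by decide)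
  have b6 := hn 6 (by decide)
  have b7 := hn 7 (by decide)
  have b8 := hn 8 (by decide)
  replace hv : w 1 = w 3 - w 0 := hv
  obtain ⟨t0, t1, t2, t3, t4, t5, t6, t7, t8⟩ := v9_val 1 11 0 11 (-10) 3 (-1) (-2) (-1)
  change tK1 0 = _ at t0; change tK1 2 = _ at t2; change tK1 3 = _ at t3; change tK1 4 = _ at t4
  change tK1 5 = _ at t5; change tK1 6 = _ at t6; change tK1 7 = _ at t7; change tK1 8 = _ at t8
  rw [t0] at b0; rw [t2] at b2; rw [t3] at b3; rw [t4] at b4; rw [t5] at b5; rw [t6] at b6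
  rw [t7] at b7; rw [t8] at b8
  have p0 : 0 < w 0 := by linarith [b0.1]
  refine ⟨one_iff (show w 0 + w 1 - w 3 = 0 by linarith) ?_ ?_ ?_ ?_ ?_ ?_ ?_ ?_ ?_ ?_, hS w
    (by nlinarith [mul_pos hk p0]) (by nlinarith [mul_pos hk' p0])
    (by nlinarith [mul_pos hk'' p0])⟩ <;> intro hj <;> first
    | exact absurd rfl hj
    | linarith [b0.1, b0.2, b2.1, b2.2, b3.1, b3.2, b4.1, b4.2, b5.1, b5.2, b6.1, b6.2, b7.1,
        b7.2, b8.1, b8.2]

theorem pt_H1 (h1 : Al c 1) : ∃ w R, One 4 w ∧ True ∧ LinS ∅ Λ w R ∧ ∀ t, Al c t → R t = ρ t := by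
  refine ptOne H h1 tH1 (fun w => w 5 - w 3) leg_tH1
    (fun w w' h => by rw [h 3 (by decide), h 5 (by decide)]) fun w hn hv => ?_
  have b0 := hn 0 (by decide)
  have b2 := hn 2 (by decide)
  have b3 := hn 3 (by decide)
  have b4 := hn 4 (by decide)
  have b5 := hn 5 (by decide)
  have b6 := hn 6 (by decide)
  have b7 := hn 7 (by decide)
  have b8 := hn 8 (by decide)
  replace hv : w 1 = w 5 - w 3 := hv
  obtain ⟨t0, t1, t2, t3, t4, t5, t6, t7, t8⟩ := v9_val 0 11 0 0 (-10) 10 0 0 1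
  change tH1 0 = _ at t0; change tH1 2 = _ at t2; change tH1 3 = _ at t3; change tH1 4 = _ at t4
  change tH1 5 = _ at t5; change tH1 6 = _ at t6; change tH1 7 = _ at t7; change tH1 8 = _ at t8
  rw [t0] at b0; rw [t2] at b2; rw [t3] at b3; rw [t4] at b4; rw [t5] at b5; rw [t6] at b6
  rw [t7] at b7; rw [t8] at b8
  refine ⟨one_iff (show w 1 + w 3 - w 5 = 0 by linarith) ?_ ?_ ?_ ?_ ?_ ?_ ?_ ?_ ?_ ?_,
    trivial⟩ <;> intro hj <;> first
    | exact absurd rfl hj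
    | linarith [b0.1, b0.2, b2.1, b2.2, b3.1, b3.2, b4.1, b4.2, b5.1, b5.2, b6.1, b6.2, b7.1,
        b7.2, b8.1, b8.2]

theorem pt_K2 (hS : SkU k k' k'' Sk) (hk : 0 < k) (hk' : 0 < k') (hk'' : 0 < k'')
    (h4 : Al c 4) : ∃ w R, One 7 w ∧ Sk w ∧ LinS ∅ Λ w R ∧ ∀ t, Al c t → R t = ρ t := by
  refine ptOne H h4 tK2 (fun w => w 0 + w 2) leg_tK2
    (fun w w' h => by rw [h 2 (by decide), h 0 (by decide)]) fun w hn hv => ?_
  have b0 := hn 0 (by decide)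
  have b1 := hn 1 (by decide)
  have b2 := hn 2 (by decide)
  have b3 := hn 3 (by decide)
  have b5 := hn 5 (by decide)
  have b6 := hn 6 (by decide)
  have b7 := hn 7 (by decide)
  have b8 := hn 8 (by decide)
  replace hv : w 4 = w 0 + w 2 := hv
  obtain ⟨t0, t1, t2, t3, t4, t5, t6, t7, t8⟩ := v9_val 1 10 0 5 0 5 (-1) (-2) (-1)
  change tK2 0 = _ at t0; change tK2 1 = _ at t1; change tK2 2 = _ at t2; change tK2 3 = _ at t3
  change tK2 5 = _ at t5; change tK2 6 = _ at t6; change tK2 7 = _ at t7; change tK2 8 = _ at t8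
  rw [t0] at b0; rw [t1] at b1; rw [t2] at b2; rw [t3] at b3; rw [t5] at b5; rw [t6] at b6
  rw [t7] at b7; rw [t8] at b8
  have p0 : 0 < w 0 := by linarith [b0.1]
  refine ⟨one_iff (show w 0 + w 2 - w 4 = 0 by linarith) ?_ ?_ ?_ ?_ ?_ ?_ ?_ ?_ ?_ ?_, hS w
    (by nlinarith [mul_pos hk p0]) (by nlinarith [mul_pos hk' p0])
    (by nlinarith [mul_pos hk'' p0])⟩ <;> intro hj <;> first
    | exact absurd rfl hj
    | linarith [b0.1, b0.2, b1.1, b1.2, b2.1, b2.2, b3.1, b3.2, b5.1, b5.2, b6.1, b6.2, b7.1,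
        b7.2, b8.1, b8.2]

theorem pt_S1 (h4 : Al c 4) : ∃ w R, One 8 w ∧ True ∧ LinS ∅ Λ w R ∧ ∀ t, Al c t → R t = ρ t := by
  refine ptOne H h4 tS1 (fun w => w 3 + w 6) leg_tS1
    (fun w w' h => by rw [h 3 (by decide), h 6 (by decide)]) fun w hn hv => ?_
  have b0 := hn 0 (by decide)
  have b1 := hn 1 (by decide)
  have b2 := hn 2 (by decide)
  have b3 := hn 3 (by decide)
  have b5 := hn 5 (by decide)
  have b6 := hn 6 (by decide)
  have b7 := hn 7 (by decide)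
  have b8 := hn 8 (by decide)
  replace hv : w 4 = w 3 + w 6 := hv
  obtain ⟨t0, t1, t2, t3, t4, t5, t6, t7, t8⟩ := v9_val 0 10 5 1 0 8 0 (-1) 0
  change tS1 0 = _ at t0; change tS1 1 = _ at t1; change tS1 2 = _ at t2; change tS1 3 = _ at t3
  change tS1 5 = _ at t5; change tS1 6 = _ at t6; change tS1 7 = _ at t7; change tS1 8 = _ at t8
  rw [t0] at b0; rw [t1] at b1; rw [t2] at b2; rw [t3] at b3; rw [t5] at b5; rw [t6] at b6
  rw [t7] at b7; rw [t8] at b8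
  refine ⟨one_iff (show w 3 + w 6 - w 4 = 0 by linarith) ?_ ?_ ?_ ?_ ?_ ?_ ?_ ?_ ?_ ?_,
    trivial⟩ <;> intro hj <;> first
    | exact absurd rfl hj
    | linarith [b0.1, b0.2, b1.1, b1.2, b2.1, b2.2, b3.1, b3.2, b5.1, b5.2, b6.1, b6.2, b7.1,
        b7.2, b8.1, b8.2]

variable (F : Fct9 Sk s Λ)
include F

theorem kx_of (hS : SkU k k' k'' Sk) (hk : 0 < k) (hk' : 0 < k') (hk'' : 0 < k'')
    (h1 : Al c 1) (h3 : Al c 3) (hm : 0 < ρ 1) : 1 - s ≤ ρ 3 := by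
  obtain ⟨w, R, a1, a2, a3, a4⟩ := pt_K1 H hS hk hk' hk'' h1
  have := F.K1 w R a1 a2 a3 (by rw [a4 1 h1]; exact hm)
  rwa [a4 3 h3] at this

theorem fx_of (hS : SkU k k' k'' Sk) (hk : 0 < k) (hk' : 0 < k') (hk'' : 0 < k'')
    (h1 : Al c 1) (h3 : Al c 3) (hm : s < ρ 1) : 1 ≤ ρ 3 := by
  obtain ⟨w, R, a1, a2, a3, a4⟩ := pt_K1 H hS hk hk' hk'' h1
  have := F.F1 w R a1 a2 a3 (by rw [a4 1 h1]; exact hm)
  rwa [a4 3 h3] at this

theorem hx_of (h1 : Al c 1) (h3 : Al c 3) (h5 : Al c 5) (hm : 0 < ρ 1) : ρ 3 ≤ ρ 5 := by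
  obtain ⟨w, R, a1, a2, a3, a4⟩ := pt_H1 H h1
  have := F.H1 w R a1 a3 (by rw [a4 1 h1]; exact hm)
  rwa [a4 3 h3, a4 5 h5] at this

theorem kn_of (hS : SkU k k' k'' Sk) (hk : 0 < k) (hk' : 0 < k') (hk'' : 0 < k'')
    (h2 : Al c 2) (h4 : Al c 4) (hm : 0 < ρ 2) : 1 - s ≤ ρ 4 := by
  obtain ⟨w, R, a1, a2, a3, a4⟩ := pt_K2 H hS hk hk' hk'' h4
  have := F.K2 w R a1 a2 a3 (by rw [a4 2 h2]; exact hm)
  rwa [a4 4 h4] at this

theorem fn_of (hS : SkU k k' k'' Sk) (hk : 0 < k) (hk' : 0 < k') (hk'' : 0 < k'')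
    (h2 : Al c 2) (h4 : Al c 4) (hm : s < ρ 2) : 1 ≤ ρ 4 := by
  obtain ⟨w, R, a1, a2, a3, a4⟩ := pt_K2 H hS hk hk' hk'' h4
  have := F.F2 w R a1 a2 a3 (by rw [a4 2 h2]; exact hm)
  rwa [a4 4 h4] at this

theorem sx_of (h3 : Al c 3) (h4 : Al c 4) (h6 : Al c 6) (hm : 0 < ρ 6) : ρ 3 ≤ ρ 4 := by
  obtain ⟨w, R, a1, a2, a3, a4⟩ := pt_S1 H h4
  have := F.S1 w R a1 a3 (by rw [a4 6 h6]; exact hm)
  rwa [a4 3 h3, a4 4 h4] at this

end pts

end Crest.Agent.R116.Tp139
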