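import Crest.Agent.R116.Tk1_538
import Crest.Agent.R116.Tp5_139
import Crest.Agent.R116.Pu3_171

/-!
# R116 (K side, ties), the plane `kUe e`, class level (helper538)

Classes `{z, G}` and single slots.
* `p1_kU`, `p2_kU` : the two-height facts (171's `FctP`) ⊢ `ρ 1 ≤ ρ 3`, `ρ 2 ≤ ρ 4`;
* `mw_kU` : the twist fact of the `κ`-tie (741's `FctK`) ⊢ `ρ 1 ≤ ρ 6`;
* **`kU_false`** : `κ`-tie, `1/2 ≤ k ≤ 1`, `θ ≤ (1+k)/3`, `1/2 ≤ s` is impossible.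
-/

set_option autoImplicit false
set_option linter.unusedVariables false
set_option linter.unusedSectionVars false

open Set Filter Topology

namespace Crest.Agent.R116.Tk538

open Crest.Agent.R116.Tq741 Crest.Agent.R116.Tp139 Crest.Agent.R116.Pu171

/-- the classes of `kUe` -/
def cK : Fin 9 → Fin 9 := ![0, 1, 2, 3, 4, 5, 6, 0, 8]

theorem al_cK : ∀ t : Fin 9, t ≠ 0 → t ≠ 7 → Al cK t := by
  intro t h0 h7 t' h
  revert h0 h7 h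
  revert t t'
  decide

variable {dl : V9} {s : ℝ} {Λ : V9 → ℝ} {φ : Fin 9 → V9 → ℝ} {ρ : V9} {Sk : V9 → Prop}
  {k κ1 κ2 κ3 : ℝ}

theorem p1_kU (H : Cl9 cK dl s Λ φ ρ) (F : FctP Sk Λ) (hS : SkU κ1 κ2 κ3 Sk) (h1 : 0 < κ1)
    (h2 : 0 < κ2) (h3 : 0 < κ3) : ρ 1 ≤ ρ 3 := by
  obtain ⟨w, R, a1, a2, a3, a4⟩ := pt_K1 H hS h1 h2 h3 (al_cK 1 (by decide) (by decide))
  have := F.P1 w R a1 a2 a3
  rwa [a4 1 (al_cK 1 (by decide) (by decide)), a4 3 (al_cK 3 (by decide) (by decide))] at this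

theorem p2_kU (H : Cl9 cK dl s Λ φ ρ) (F : FctP Sk Λ) (hS : SkU κ1 κ2 κ3 Sk) (h1 : 0 < κ1)
    (h2 : 0 < κ2) (h3 : 0 < κ3) : ρ 2 ≤ ρ 4 := by
  obtain ⟨w, R, a1, a2, a3, a4⟩ := pt_K2 H hS h1 h2 h3 (al_cK 4 (by decide) (by decide))
  have := F.P2 w R a1 a2 a3
  rwa [a4 2 (al_cK 2 (by decide) (by decide)), a4 4 (al_cK 4 (by decide) (by decide))] at this

/-- the point of (W3k): `B = G + C` tight -/
def tW : V9 := ![0, 50, 0, 0, -200, 0, 50, 0, 1000]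

theorem one_tW : One 2 tW := by
  refine one_iff ?_ ?_ ?_ ?_ ?_ ?_ ?_ ?_ ?_ ?_ ?_
  · change (0:ℝ) + 50 - 50 = 0
    norm_num
  · intro _; change (0:ℝ) < 0 + 1000; norm_num
  · intro _; change (0:ℝ) < 0 + 50; norm_num
  · intro h; exact absurd rfl h
  · intro _; change (50:ℝ) < 1000 + 0; norm_num
  · intro _; change (0:ℝ) < 50 + 0; norm_num
  · intro _; change (0:ℝ) < 50 + 50; norm_num
  · intro _; change (0:ℝ) < 1000 + 0; norm_num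
  · intro _; change (-200:ℝ) < 0 + 0; norm_num
  · intro _; change (-200:ℝ) < 0 + 50; norm_num
  · intro _; change (-200:ℝ) < 0 + 0; norm_num

theorem lin_kU (H : Cl9 cK dl s Λ φ ρ) {w : V9} (hw : LegM 0 w) :
    ∃ R, LinS {0, 7} Λ w R ∧ ∀ t, t ≠ 0 → t ≠ 7 → R t = ρ t := by
  have hc : ∀ t : Fin 9, t ∈ ({0, 7} : Finset (Fin 9)) ↔ cK t = 0 := by decide
  have hne : ∀ t : Fin 9, cK t ≠ 0 → t ≠ 0 ∧ t ≠ 7 := by decide
  have hne' : ∀ t : Fin 9, t ≠ 0 → t ≠ 7 → cK t ≠ 0 := by decide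
  obtain ⟨R, h1, h2, -⟩ := rts_adj H (w := w) (w' := w) (Zc := fun k => k = 0)
    (fun k hk hka => by
      by_cases he : ∃ t, cK t = k
      · obtain ⟨t, rfl⟩ := he
        have h3 := hne t hk
        exact absurd (al_cK t h3.1 h3.2) (hka t rfl)
      · push Not at he
        exact ⟨0, rt_emp H he w⟩) (fun i _ _ => rfl)
  refine ⟨R, H.linZ hc hw h1, fun t h0 h7 => h2 t (al_cK t h0 h7) (hne' t h0 h7)⟩

theorem mw_kU (H : Cl9 cK dl s Λ φ ρ) (F : FctK k Λ) : ρ 1 ≤ ρ 6 := by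
  obtain ⟨R, h1, h2⟩ := lin_kU H (Tq741.One.leg one_tW)
  have := F.W3 tW R one_tW (by
    change (0:ℝ) = k * 0
    ring) h1
  rwa [h2 1 (by decide) (by decide), h2 6 (by decide) (by decide)] at this

/-- **`κ`-tie, `1/2 ≤ k ≤ 1`, `θ ≤ (1+k)/3`, `1/2 ≤ s` is impossible**, class level -/
theorem kU_false {θ θb c qa qb e : ℝ} (H : Cl9 cK dl s Λ φ ρ) (FP : FctP Sk Λ) (FK : FctK k Λ)
    (hS : SkU κ1 κ2 κ3 Sk) (h1 : 0 < κ1) (h2 : 0 < κ2) (h3 : 0 < κ3)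
    (hk : 1 / 2 ≤ k) (hk1 : k ≤ 1) (hb : θb = 2 * θ - k) (hθ0 : 0 < θ)
    (hθ : θ ≤ (1 + k) / 3) (he : 0 < e) (hs : 1 / 2 ≤ s) (hc : 2 * s + e ≤ c) (hqa : 0 ≤ qa)
    (hqb : 0 ≤ qb)
    (T : TVk θ θb s c qa qb e (ρ 0) (ρ 1) (ρ 2) (ρ 3) (ρ 4) (ρ 5) (ρ 6) (ρ 8)) (hD : ρ 8 = 0) :
    False := by
  refine kHalfS hk hk1 hb hθ0 hθ (by rw [hD, mul_zero]) he hs hc hqa hqb T H.own
    (by rw [hD]; norm_num) ?_ (Cl9.nonneg H (al_cK 2 (by decide) (by decide)))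
    (p1_kU H FP hS h1 h2 h3) (p2_kU H FP hS h1 h2 h3) (mw_kU H FK)
  exact Cl9.le_cst H (al_cK 5 (by decide) (by decide))

end Crest.Agent.R116.Tk538
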