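import Crest.Agent.R116.Tm2_741
import Crest.Agent.R116.IIr3_460

/-!
# R116 (K side, ties): the `κ`-plane below the record, all `k` (helper299), part 1

* `PK`, `PlK` : the classes of the `κ`-plane `b = 2 a + k v`; `L` = `D` is in the class of `z`
* letters `xK rK nK hK wK`, `AK`
* `PlK.gen` : generic points from pieces
* **`natK`** : value at the natural vectors, all `k` (resonances `k = 1/2, 1, 2`)
-/

set_option autoImplicit false
set_option linter.unusedSectionVars false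
set_option linter.unusedVariables false

open Set Filter Topology Metric MeasureTheory
open scoped NNReal

namespace Crest.Agent.R116.Tk299

open Tie460 (Pl)
open RbM219 (nat9)
open Tq741

variable {c : Fin 9 → Fin 9} {dl : V9} {s : ℝ} {Λ : V9 → ℝ} {φ : Fin 9 → V9 → ℝ} {ρ : V9}

/-- the class of `z` : `z`, `G`, and `D` if `L` -/
def ZK (L : Prop) (t : Fin 9) : Prop := t = 0 ∨ t = 7 ∨ (L ∧ t = 8)

/-- parallel slots of the `κ`-plane -/
def PK (L : Prop) (k : ℝ) (t t' : Fin 9) : Prop :=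
  t = t' ∨ (ZK L t ∧ ZK L t') ∨
    (k = 1 ∧ (t = 2 ∨ t = 5) ∧ (t' = 2 ∨ t' = 5)) ∨
    (k = 1 ∧ (t = 3 ∨ t = 4 ∨ t = 6) ∧ (t' = 3 ∨ t' = 4 ∨ t' = 6)) ∨
    (k = 2 ∧ (t = 2 ∨ t = 3) ∧ (t' = 2 ∨ t' = 3)) ∨
    (k = 1 / 2 ∧ (t = 5 ∨ t = 6) ∧ (t' = 5 ∨ t' = 6))

structure PlK (L : Prop) (k : ℝ) (c : Fin 9 → Fin 9) (dl : V9) : Prop where
  par : ∀ t t', c t = c t' ↔ PK L k t t'
  d7 : dl 7 = k * dl 0
  d8 : L → dl 8 = (k - 1) * dl 0
  d5 : k = 1 → dl 5 = dl 2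
  d4 : k = 1 → dl 4 = 2 * dl 3
  d6 : k = 1 → dl 6 = dl 3
  d2 : k = 2 → dl 2 = 2 * dl 3
  d5h : k = 1 / 2 → dl 5 = 2 * dl 6

/-- loss of `X`; `C_b`, `B`, `N` coarse -/
def xK (c : Fin 9 → Fin 9) (φ : Fin 9 → V9 → ℝ) : ℝ :=
  1 - (φ (c 3) 0 - φ (c 3) (e9 3))

/-- rate of `B`; `X` fine, `H`, `N` coarse -/
def wK (c : Fin 9 → Fin 9) (φ : Fin 9 → V9 → ℝ) : ℝ :=
  φ (c 6) (e9 3) - φ (c 6) (e9 3 + e9 6)

/-- loss of `N`; `X`, `B` fine -/
noncomputable def nK (c : Fin 9 → Fin 9) (φ : Fin 9 → V9 → ℝ) : ℝ :=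
  1 - (φ (c 4) (e9 3 + e9 6) - φ (c 4) (e9 3 + e9 6 + (2:ℝ) • e9 4)) / 2

/-- loss of `H`; `C_b` coarse, `B` fine -/
noncomputable def hK (c : Fin 9 → Fin 9) (φ : Fin 9 → V9 → ℝ) : ℝ :=
  1 - (φ (c 5) (e9 6) - φ (c 5) (e9 6 + (2:ℝ) • e9 5)) / 2

/-- rate of `C_b`; `X`, `H` fine -/
noncomputable def rK (c : Fin 9 → Fin 9) (φ : Fin 9 → V9 → ℝ) : ℝ :=
  (φ (c 2) (e9 3 + (2:ℝ) • e9 5) - φ (c 2) (e9 3 + (2:ℝ) • e9 5 + (2:ℝ) • e9 2)) / 2

/-- the rates of the plane -/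
noncomputable def AK (c : Fin 9 → Fin 9) (s : ℝ) (φ : Fin 9 → V9 → ℝ) (ρ : V9) : Pl :=
  ⟨xK c φ, nK c φ, hK c φ, ρ 1, rK c φ, ρ 0 - (1 - s), wK c φ, 0, 0⟩

section

variable {L : Prop} {k : ℝ}

theorem PlK.z (P : PlK L k c dl) {t : Fin 9} : c t = c 0 ↔ ZK L t := by
  rw [P.par]
  unfold PK
  constructor
  · rintro (h | ⟨h, -⟩ | ⟨-, -, h⟩ | ⟨-, -, h⟩ | ⟨-, -, h⟩ | ⟨-, -, h⟩)
    · exact Or.inl h
    · exact h
    · simp at h
    · simp at h
    · simp at h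
    · simp at h
  · intro h
    exact Or.inr (Or.inl ⟨h, Or.inl rfl⟩)

theorem PlK.al1 (P : PlK L k c dl) : Al c 1 := by
  intro t' h
  have h1 := (P.par t' 1).1 h
  unfold PK ZK at h1
  simpa using h1

theorem PlK.al8 (P : PlK L k c dl) (hL : ¬ L) : Al c 8 := by
  intro t' h
  have h1 := (P.par t' 8).1 h
  unfold PK ZK at h1
  simpa [hL] using h1

theorem PlK.al2 (P : PlK L k c dl) (h1 : k ≠ 1) (h2 : k ≠ 2) : Al c 2 := by
  intro t' h
  have h3 := (P.par t' 2).1 h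
  unfold PK ZK at h3
  simpa [h1, h2] using h3

theorem PlK.al3 (P : PlK L k c dl) (h1 : k ≠ 1) (h2 : k ≠ 2) : Al c 3 := by
  intro t' h
  have h3 := (P.par t' 3).1 h
  unfold PK ZK at h3
  simpa [h1, h2] using h3

theorem PlK.al4 (P : PlK L k c dl) (h1 : k ≠ 1) : Al c 4 := by
  intro t' h
  have h3 := (P.par t' 4).1 h
  unfold PK ZK at h3
  simpa [h1] using h3

theorem PlK.al5 (P : PlK L k c dl) (h1 : k ≠ 1) (h2 : k ≠ 1 / 2) : Al c 5 := by
  intro t' h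
  have h3 := (P.par t' 5).1 h
  unfold PK ZK at h3
  have hk' : k ≠ 2⁻¹ := by rwa [one_div] at h2
  simpa [h1, hk'] using h3

theorem PlK.al6 (P : PlK L k c dl) (h1 : k ≠ 1) (h2 : k ≠ 1 / 2) : Al c 6 := by
  intro t' h
  have h3 := (P.par t' 6).1 h
  unfold PK ZK at h3
  have hk' : k ≠ 2⁻¹ := by rwa [one_div] at h2
  simpa [h1, hk'] using h3

/-- the class `{C_b, H}` at `k = 1` -/
theorem PlK.k25 (P : PlK L 1 c dl) {t : Fin 9} : c t = c 2 ↔ t = 2 ∨ t = 5 := by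
  rw [P.par]
  unfold PK ZK
  constructor
  · rintro (h | ⟨-, h⟩ | ⟨-, h, -⟩ | ⟨-, -, h⟩ | ⟨h, -⟩ | ⟨h, -⟩)
    · exact Or.inl h
    · simp at h
    · exact h
    · simp at h
    · norm_num at h
    · norm_num at h
  · intro h
    exact Or.inr (Or.inr (Or.inl ⟨rfl, h, Or.inl rfl⟩))

/-- the class `{X, N, B}` at `k = 1` -/
theorem PlK.k346 (P : PlK L 1 c dl) {t : Fin 9} : c t = c 3 ↔ t = 3 ∨ t = 4 ∨ t = 6 := by
  rw [P.par]
  unfold PK ZK
  constructor
  · rintro (h | ⟨-, h⟩ | ⟨-, -, h⟩ | ⟨-, h, -⟩ | ⟨h, -⟩ | ⟨h, -⟩)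
    · exact Or.inl h
    · simp at h
    · simp at h
    · exact h
    · norm_num at h
    · norm_num at h
  · intro h
    exact Or.inr (Or.inr (Or.inr (Or.inl ⟨rfl, h, Or.inl rfl⟩)))

/-- the class `{C_b, X}` at `k = 2` -/
theorem PlK.k23 (P : PlK L 2 c dl) {t : Fin 9} : c t = c 2 ↔ t = 2 ∨ t = 3 := by
  rw [P.par]
  unfold PK ZK
  constructor
  · rintro (h | ⟨-, h⟩ | ⟨h, -⟩ | ⟨h, -⟩ | ⟨-, h, -⟩ | ⟨h, -⟩)
    · exact Or.inl h
    · simp at h
    · norm_num at h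
    · norm_num at h
    · exact h
    · norm_num at h
  · intro h
    exact Or.inr (Or.inr (Or.inr (Or.inr (Or.inl ⟨rfl, h, Or.inl rfl⟩))))

/-- the class `{H, B}` at `k = 1/2` -/
theorem PlK.k56 (P : PlK L (1 / 2) c dl) {t : Fin 9} : c t = c 5 ↔ t = 5 ∨ t = 6 := by
  rw [P.par]
  unfold PK ZK
  constructor
  · rintro (h | ⟨-, h⟩ | ⟨h, -⟩ | ⟨h, -⟩ | ⟨h, -⟩ | ⟨-, h, -⟩)
    · exact Or.inl h
    · simp at h
    · norm_num at h
    · norm_num at h
    · norm_num at h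
    · exact h
  · intro h
    exact Or.inr (Or.inr (Or.inr (Or.inr (Or.inr ⟨rfl, h, Or.inl rfl⟩))))

theorem PlK.c5 (P : PlK L 1 c dl) : c 5 = c 2 := P.k25.2 (Or.inr rfl)
theorem PlK.c4 (P : PlK L 1 c dl) : c 4 = c 3 := P.k346.2 (Or.inr (Or.inl rfl))
theorem PlK.c6 (P : PlK L 1 c dl) : c 6 = c 3 := P.k346.2 (Or.inr (Or.inr rfl))
theorem PlK.c3 (P : PlK L 2 c dl) : c 3 = c 2 := P.k23.2 (Or.inr rfl)
theorem PlK.c6h (P : PlK L (1 / 2) c dl) : c 6 = c 5 := P.k56.2 (Or.inr rfl)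

/-- every slot: alone, or in a listed class -/
theorem PlK.cases (P : PlK L k c dl) (t : Fin 9) : Al c t ∨ c t = c 0 ∨ (k = 1 ∧ c t = c 2) ∨
    (k = 1 ∧ c t = c 3) ∨ (k = 2 ∧ c t = c 2) ∨ (k = 1 / 2 ∧ c t = c 5) := by
  by_cases h0 : c t = c 0
  · exact Or.inr (Or.inl h0)
  by_cases h1 : ∃ t', c t' = c t ∧ t' ≠ t
  · obtain ⟨t', h2, h3⟩ := h1
    have h4 := (P.par t' t).1 h2
    rcases h4 with h | ⟨-, h⟩ | ⟨rfl, -, h⟩ | ⟨rfl, -, h⟩ | ⟨rfl, -, h⟩ | ⟨rfl, -, h⟩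
    · exact absurd h h3
    · exact absurd (P.z.2 h) h0
    · exact Or.inr (Or.inr (Or.inl ⟨rfl, P.k25.2 h⟩))
    · exact Or.inr (Or.inr (Or.inr (Or.inl ⟨rfl, P.k346.2 h⟩)))
    · exact Or.inr (Or.inr (Or.inr (Or.inr (Or.inl ⟨rfl, P.k23.2 h⟩))))
    · exact Or.inr (Or.inr (Or.inr (Or.inr (Or.inr ⟨rfl, P.k56.2 h⟩))))
  · push Not at h1
    exact Or.inl h1

/-- **generic points of the `κ`-plane from pieces** : `w1` for the class of `z`, `w2` for `{2,5}`
(`k = 1`), `{2,3}` (`k = 2`), `{5,6}` (`k = 1/2`), `w3` for `{3,4,6}` (`k = 1`) -/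
theorem PlK.gen (P : PlK L k c dl) (H : Cl9 c dl s Λ φ ρ) {Zc : Fin 9 → Prop} {w' w1 w2 w3 : V9}
    (h1 : ¬ Zc (c 0) → (∃ R, RtAt (φ (c 0)) w1 R) ∧ w' 0 = w1 0 ∧ w' 7 = w1 7 ∧ (L → w' 8 = w1 8))
    (h2 : k = 1 → (∃ R, RtAt (φ (c 2)) w2 R) ∧ w' 2 = w2 2 ∧ w' 5 = w2 5)
    (h3 : k = 1 → (∃ R, RtAt (φ (c 3)) w3 R) ∧ w' 3 = w3 3 ∧ w' 4 = w3 4 ∧ w' 6 = w3 6)
    (h4 : k = 2 → (∃ R, RtAt (φ (c 2)) w2 R) ∧ w' 2 = w2 2 ∧ w' 3 = w2 3)
    (h5 : k = 1 / 2 → (∃ R, RtAt (φ (c 5)) w2 R) ∧ w' 5 = w2 5 ∧ w' 6 = w2 6) :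
    GenZ φ Zc w' := by
  refine H.genZ fun t hZ => ?_
  rcases P.cases t with h | h | ⟨rfl, h⟩ | ⟨rfl, h⟩ | ⟨rfl, h⟩ | ⟨rfl, h⟩
  · exact Or.inl h
  · rw [h] at hZ ⊢
    obtain ⟨⟨R, hR⟩, e0, e7, e8⟩ := h1 hZ
    refine Or.inr ⟨w1, R, hR, fun t' ht' => ?_⟩
    rcases P.z.1 ht' with rfl | rfl | ⟨hl, rfl⟩
    · exact e0
    · exact e7
    · exact e8 hl
  · rw [h]
    obtain ⟨⟨R, hR⟩, e2, e5⟩ := h2 rfl
    refine Or.inr ⟨w2, R, hR, fun t' ht' => ?_⟩
    rcases P.k25.1 ht' with rfl | rfl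
    · exact e2
    · exact e5
  · rw [h]
    obtain ⟨⟨R, hR⟩, e3, e4, e6⟩ := h3 rfl
    refine Or.inr ⟨w3, R, hR, fun t' ht' => ?_⟩
    rcases P.k346.1 ht' with rfl | rfl | rfl
    · exact e3
    · exact e4
    · exact e6
  · rw [h]
    obtain ⟨⟨R, hR⟩, e2, e3⟩ := h4 rfl
    refine Or.inr ⟨w2, R, hR, fun t' ht' => ?_⟩
    rcases P.k23.1 ht' with rfl | rfl
    · exact e2
    · exact e3
  · rw [h]
    obtain ⟨⟨R, hR⟩, e5, e6⟩ := h5 rfl
    refine Or.inr ⟨w2, R, hR, fun t' ht' => ?_⟩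
    rcases P.k56.1 ht' with rfl | rfl
    · exact e5
    · exact e6

/-! ### the letters of the slots which are alone -/

theorem al_val (H : Cl9 c dl s Λ φ ρ) {t : Fin 9} (h : Al c t) (w : V9) :
    φ (c t) w = -(ρ t * w t) := H.rate t w fun t' ht' => by rw [h t' ht']

theorem xK_al (H : Cl9 c dl s Λ φ ρ) (h : Al c 3) : xK c φ = 1 - ρ 3 := by
  unfold xK
  rw [al_val H h, al_val H h]
  simp [e9]

theorem wK_al (H : Cl9 c dl s Λ φ ρ) (h : Al c 6) : wK c φ = ρ 6 := by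
  unfold wK
  rw [al_val H h, al_val H h]
  simp [e9]

theorem nK_al (H : Cl9 c dl s Λ φ ρ) (h : Al c 4) : nK c φ = 1 - ρ 4 := by
  unfold nK
  rw [al_val H h, al_val H h]
  simp [e9]

theorem hK_al (H : Cl9 c dl s Λ φ ρ) (h : Al c 5) : hK c φ = 1 - ρ 5 := by
  unfold hK
  rw [al_val H h, al_val H h]
  simp [e9]

theorem rK_al (H : Cl9 c dl s Λ φ ρ) (h : Al c 2) : rK c φ = ρ 2 := by
  unfold rK
  rw [al_val H h, al_val H h]
  simp [e9]

/-- `k = 1` : `2 r + 2 (1 - h) = 2 ρ 2` -/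
theorem sum1 (H : Cl9 c dl s Λ φ ρ) (P : PlK L 1 c dl) : rK c φ + (1 - hK c φ) = ρ 2 := by
  have hc : ∀ t, c t = c 2 → t = 2 ∨ t = 5 := fun t => P.k25.1
  unfold rK hK
  rw [P.c5]
  have e0 : φ (c 2) (e9 6) = 0 := H.zero_of 2 fun t ht => by
    rcases hc t ht with rfl | rfl <;> simp [e9]
  have e1 : φ (c 2) (e9 6 + (2:ℝ) • e9 5) = φ (c 2) (e9 3 + (2:ℝ) • e9 5) :=
    H.loc _ _ _ fun t ht => by rcases hc t ht with rfl | rfl <;> simp [e9]
  have e2 : φ (c 2) (e9 3 + (2:ℝ) • e9 5 + (2:ℝ) • e9 2) = -(ρ 2 * 2) := by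
    rw [H.rate 2 _ fun t ht => by
      rcases hc t ht with rfl | rfl
      · rfl
      · rw [P.d5 rfl]; simp [e9]]
    simp [e9]
  rw [e0, e1, e2]; ring

/-- `k = 1` : `(1 - x) + w + 2 (1 - n) = ρ 3` -/
theorem sum1' (H : Cl9 c dl s Λ φ ρ) (P : PlK L 1 c dl) :
    (1 - xK c φ) + wK c φ + 2 * (1 - nK c φ) = ρ 3 := by
  have hc : ∀ t, c t = c 3 → t = 3 ∨ t = 4 ∨ t = 6 := fun t => P.k346.1
  unfold xK wK nK
  rw [P.c4, P.c6]
  have e0 : φ (c 3) 0 = 0 := H.zero_of 3 fun t ht => rfl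
  have e2 : φ (c 3) (e9 3 + e9 6 + (2:ℝ) • e9 4) = -ρ 3 := by
    rw [H.rate 3 _ fun t ht => by
      rcases hc t ht with rfl | rfl | rfl
      · rfl
      · rw [P.d4 rfl]; simp [e9]
      · rw [P.d6 rfl]; simp [e9]]
    simp [e9]
  rw [e0, e2]; ring

/-- `k = 2` : `2 r + (1 - x) = 2 ρ 2` -/
theorem sum2 (H : Cl9 c dl s Λ φ ρ) (P : PlK L 2 c dl) : 2 * rK c φ + (1 - xK c φ) = 2 * ρ 2 := by
  have hc : ∀ t, c t = c 2 → t = 2 ∨ t = 3 := fun t => P.k23.1
  unfold rK xK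
  rw [P.c3]
  have e0 : φ (c 2) 0 = 0 := H.zero_of 2 fun t ht => rfl
  have e1 : φ (c 2) (e9 3 + (2:ℝ) • e9 5) = φ (c 2) (e9 3) :=
    H.loc _ _ _ fun t ht => by rcases hc t ht with rfl | rfl <;> simp [e9]
  have e2 : φ (c 2) (e9 3 + (2:ℝ) • e9 5 + (2:ℝ) • e9 2) = -(ρ 2 * 2) := by
    rw [H.rate 2 _ fun t ht => by
      rcases hc t ht with rfl | rfl
      · rfl
      · rw [P.d2 rfl]; simp [e9]]
    simp [e9]
  rw [e0, e1, e2]; ring

/-- `k = 1/2` : `w + 2 (1 - h) = ρ 6` -/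
theorem sumh (H : Cl9 c dl s Λ φ ρ) (P : PlK L (1 / 2) c dl) :
    wK c φ + 2 * (1 - hK c φ) = ρ 6 := by
  have hc : ∀ t, c t = c 5 → t = 5 ∨ t = 6 := fun t => P.k56.1
  unfold wK hK
  rw [P.c6h]
  have e0 : φ (c 5) (e9 3) = 0 := H.zero_of 5 fun t ht => by
    rcases hc t ht with rfl | rfl <;> simp [e9]
  have e1 : φ (c 5) (e9 3 + e9 6) = φ (c 5) (e9 6) :=
    H.loc _ _ _ fun t ht => by rcases hc t ht with rfl | rfl <;> simp [e9]
  have e2 : φ (c 5) (e9 6 + (2:ℝ) • e9 5) = -ρ 6 := by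
    rw [← P.c6h, H.rate 6 _ fun t ht => by
      rcases hc t (ht.trans P.c6h) with rfl | rfl
      · rw [P.d5h rfl]; simp [e9]
      · rfl]
    simp [e9]
  rw [e0, e1, e2]; ring

/-! ### the value at the natural vectors -/


/-- **value at the natural vectors of the `κ`-plane** -/
theorem natK (H : Cl9 c dl s Λ φ ρ) (P : PlK L k c dl) (v a : ℝ) (hL : ¬ L → ρ 8 = 0) :
    Λ (nat9 v a (2 * a + k * v)) = -(ρ 0 * v + ρ 1 * a + rK c φ * (2 * a + k * v) +
      (1 - xK c φ) * (v + a) + (1 - nK c φ) * ((1 + k) * v + 2 * a) +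
      (1 - hK c φ) * (v + 2 * a) + wK c φ * (a + k * v)) := by
  classical
  set w := nat9 v a (2 * a + k * v) with hw
  obtain ⟨w0, w1, w2, w3, w4, w5, w6, w7, w8⟩ := nat9_v v a (2 * a + k * v)
  rw [← hw] at w0 w1 w2 w3 w4 w5 w6 w7 w8
  have hl : LegM 0 w := leg_nat9 _ _ _
  have f0 : φ (c 0) w = -(ρ 0 * v) := by
    rw [H.rate 0 w fun t' ht' => by
      rcases P.z.1 ht' with rfl | rfl | ⟨hL, rfl⟩
      · rfl
      · rw [w7, w0, P.d7]; ring
      · rw [w8, w0, P.d8 hL]; ring]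
    rw [w0]
  have f1 : φ (c 1) w = -(ρ 1 * a) := by rw [al_val H P.al1, w1]
  -- the sum over representatives
  have key : ∀ S : Finset (Fin 9), (0 : Fin 9) ∈ S → (1 : Fin 9) ∈ S → (7 : Fin 9) ∉ S →
      (8 : Fin 9) ∉ S → (∀ t ∈ S, t ≠ 0 → t ≠ 1 → ∀ t' ∈ S, c t' = c t → t' = t) →
      (∀ t, t ≠ 0 → t ≠ 1 → t ≠ 7 → t ≠ 8 → ∃ t' ∈ S, PK L k t' t) →
      Λ w = ∑ t ∈ S, φ (c t) w := by
    intro S h0 h1 h7 h8 hinj hcov
    by_cases hL' : L
    · refine H.sum_rep (fun t ht t' ht' h => ?_) (fun t => ?_) hl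
      · have h2 := (P.par t t').1 h
        by_cases a0 : t = 0
        · subst a0
          have := P.z.1 h.symm
          rcases this with h | h | ⟨-, h⟩
          · exact h.symm
          · rw [h] at ht'; exact absurd ht' h7
          · rw [h] at ht'; exact absurd ht' h8
        by_cases b0 : t' = 0
        · subst b0
          have := P.z.1 h
          rcases this with h | h | ⟨-, h⟩
          · exact h
          · rw [h] at ht; exact absurd ht h7
          · rw [h] at ht; exact absurd ht h8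
        by_cases a1 : t = 1
        · subst a1; exact (P.al1 t' h.symm).symm
        by_cases b1 : t' = 1
        · subst b1; exact P.al1 t h
        exact (hinj t ht a0 a1 t' ht' h.symm).symm
      · by_cases a0 : t = 0
        · exact ⟨0, h0, by rw [a0]⟩
        by_cases a1 : t = 1
        · exact ⟨1, h1, by rw [a1]⟩
        by_cases a7 : t = 7
        · exact ⟨0, h0, by rw [a7]; exact (P.z.2 (Or.inr (Or.inl rfl))).symm⟩
        by_cases a8 : t = 8
        · exact ⟨0, h0, by rw [a8]; exact (P.z.2 (Or.inr (Or.inr ⟨hL', rfl⟩))).symm⟩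
        obtain ⟨t', ht', h2⟩ := hcov t a0 a1 a7 a8
        exact ⟨t', ht', (P.par t' t).2 h2⟩
    · have e : ∑ t ∈ S, φ (c t) w = ∑ t ∈ insert 8 S, φ (c t) w := by
        rw [Finset.sum_insert h8, al_val H (P.al8 hL'), hL hL']
        simp
      rw [e]
      refine H.sum_rep (fun t ht t' ht' h => ?_) (fun t => ?_) hl
      · by_cases a8 : t = 8
        · subst a8; exact (P.al8 hL' t' h.symm).symm
        by_cases b8 : t' = 8
        · subst b8; exact P.al8 hL' t h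
        have ht := (Finset.mem_insert.1 ht).resolve_left a8
        have ht' := (Finset.mem_insert.1 ht').resolve_left b8
        have h2 := (P.par t t').1 h
        by_cases a0 : t = 0
        · subst a0
          have := P.z.1 h.symm
          rcases this with h | h | ⟨-, h⟩
          · exact h.symm
          · rw [h] at ht'; exact absurd ht' h7
          · rw [h] at ht'; exact absurd ht' h8
        by_cases b0 : t' = 0
        · subst b0
          have := P.z.1 h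
          rcases this with h | h | ⟨-, h⟩
          · exact h
          · rw [h] at ht; exact absurd ht h7
          · rw [h] at ht; exact absurd ht h8
        by_cases a1 : t = 1
        · subst a1; exact (P.al1 t' h.symm).symm
        by_cases b1 : t' = 1
        · subst b1; exact P.al1 t h
        exact (hinj t ht a0 a1 t' ht' h.symm).symm
      · by_cases a8 : t = 8
        · exact ⟨8, Finset.mem_insert_self _ _, by rw [a8]⟩
        by_cases a0 : t = 0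
        · exact ⟨0, Finset.mem_insert_of_mem h0, by rw [a0]⟩
        by_cases a1 : t = 1
        · exact ⟨1, Finset.mem_insert_of_mem h1, by rw [a1]⟩
        by_cases a7 : t = 7
        · exact ⟨0, Finset.mem_insert_of_mem h0, by
            rw [a7]; exact (P.z.2 (Or.inr (Or.inl rfl))).symm⟩
        obtain ⟨t', ht', h2⟩ := hcov t a0 a1 a7 a8
        exact ⟨t', Finset.mem_insert_of_mem ht', (P.par t' t).2 h2⟩
  by_cases hk1 : k = 1
  · subst hk1
    have f2 : φ (c 2) w = -(ρ 2 * (2 * a + 1 * v)) := by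
      rw [H.rate 2 w fun t' ht' => by
        rcases P.k25.1 ht' with rfl | rfl
        · rfl
        · rw [w5, w2, P.d5 rfl]; ring, w2]
    have f3 : φ (c 3) w = -(ρ 3 * (v + a)) := by
      rw [H.rate 3 w fun t' ht' => by
        rcases P.k346.1 ht' with rfl | rfl | rfl
        · rfl
        · rw [w4, w3, P.d4 rfl]; ring
        · rw [w6, w3, P.d6 rfl]; ring, w3]
    rw [key {0, 1, 2, 3} (by simp) (by simp) (by simp) (by simp) ?_ ?_]
    · rw [show ∑ t ∈ ({0, 1, 2, 3} : Finset (Fin 9)), φ (c t) w =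
          φ (c 0) w + φ (c 1) w + φ (c 2) w + φ (c 3) w by simp [Finset.sum_insert]; ring,
        f0, f1, f2, f3, ← sum1 H P, ← sum1' H P]
      ring
    · intro t ht a0 a1 t' ht' h
      simp only [Finset.mem_insert, Finset.mem_singleton] at ht ht'
      rcases ht with rfl | rfl | rfl | rfl
      · exact absurd rfl a0
      · exact absurd rfl a1
      · rcases P.k25.1 h with h | h
        · exact h
        · subst h; simp at ht'
      · rcases P.k346.1 h with h | h | h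
        · exact h
        · subst h; simp at ht'
        · subst h; simp at ht'
    · intro t a0 a1 a7 a8
      fin_cases t
      · exact absurd rfl a0
      · exact absurd rfl a1
      · exact ⟨2, by simp, Or.inl rfl⟩
      · exact ⟨3, by simp, Or.inl rfl⟩
      · exact ⟨3, by simp, by unfold PK; simp⟩
      · exact ⟨2, by simp, by unfold PK; simp⟩
      · exact ⟨3, by simp, by unfold PK; simp⟩
      · exact absurd rfl a7
      · exact absurd rfl a8
  have g4 := nK_al H (P.al4 hk1)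
  have f4 : φ (c 4) w = -(ρ 4 * (v + (2 * a + k * v))) := by rw [al_val H (P.al4 hk1), w4]
  by_cases hk2 : k = 2
  · subst hk2
    have hh : (2:ℝ) ≠ 1 / 2 := by norm_num
    have g5 := hK_al H (P.al5 hk1 hh)
    have g6 := wK_al H (P.al6 hk1 hh)
    have f5 : φ (c 5) w = -(ρ 5 * (v + 2 * a)) := by rw [al_val H (P.al5 hk1 hh), w5]
    have f6 : φ (c 6) w = -(ρ 6 * (2 * a + 2 * v - a)) := by rw [al_val H (P.al6 hk1 hh), w6]
    have f2 : φ (c 2) w = -(ρ 2 * (2 * a + 2 * v)) := by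
      rw [H.rate 2 w fun t' ht' => by
        rcases P.k23.1 ht' with rfl | rfl
        · rfl
        · rw [w3, w2, P.d2 rfl]; ring, w2]
    have g2 := sum2 H P
    rw [key {0, 1, 2, 4, 5, 6} (by simp) (by simp) (by simp) (by simp) ?_ ?_]
    · rw [show ∑ t ∈ ({0, 1, 2, 4, 5, 6} : Finset (Fin 9)), φ (c t) w =
          φ (c 0) w + φ (c 1) w + φ (c 2) w + φ (c 4) w + φ (c 5) w + φ (c 6) w by
          simp [Finset.sum_insert]; ring,
        f0, f1, f2, f4, f5, f6, g4, g5, g6]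
      linear_combination (a + v) * g2
    · intro t ht a0 a1 t' ht' h
      simp only [Finset.mem_insert, Finset.mem_singleton] at ht ht'
      rcases ht with rfl | rfl | rfl | rfl | rfl | rfl
      · exact absurd rfl a0
      · exact absurd rfl a1
      · rcases P.k23.1 h with h | h
        · exact h
        · subst h; simp at ht'
      · exact P.al4 hk1 t' h
      · exact P.al5 hk1 hh t' h
      · exact P.al6 hk1 hh t' h
    · intro t a0 a1 a7 a8
      fin_cases t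
      · exact absurd rfl a0
      · exact absurd rfl a1
      · exact ⟨2, by simp, Or.inl rfl⟩
      · exact ⟨2, by simp, by unfold PK; simp⟩
      · exact ⟨4, by simp, Or.inl rfl⟩
      · exact ⟨5, by simp, Or.inl rfl⟩
      · exact ⟨6, by simp, Or.inl rfl⟩
      · exact absurd rfl a7
      · exact absurd rfl a8
  have g2 := rK_al H (P.al2 hk1 hk2)
  have g3 := xK_al H (P.al3 hk1 hk2)
  have f2 : φ (c 2) w = -(ρ 2 * (2 * a + k * v)) := by rw [al_val H (P.al2 hk1 hk2), w2]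
  have f3 : φ (c 3) w = -(ρ 3 * (v + a)) := by rw [al_val H (P.al3 hk1 hk2), w3]
  by_cases hkh : k = 1 / 2
  · subst hkh
    have f6 : φ (c 6) w = -(ρ 6 * (2 * a + 1 / 2 * v - a)) := by
      rw [H.rate 6 w fun t' ht' => by
        rcases P.k56.1 (ht'.trans P.c6h) with rfl | rfl
        · rw [w5, w6, P.d5h rfl]; ring
        · rfl, w6]
    have g6 := sumh H P
    rw [key {0, 1, 2, 3, 4, 6} (by simp) (by simp) (by simp) (by simp) ?_ ?_]
    · rw [show ∑ t ∈ ({0, 1, 2, 3, 4, 6} : Finset (Fin 9)), φ (c t) w =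
          φ (c 0) w + φ (c 1) w + φ (c 2) w + φ (c 3) w + φ (c 4) w + φ (c 6) w by
          simp [Finset.sum_insert]; ring,
        f0, f1, f2, f3, f4, f6, g2, g3, g4]
      linear_combination (a + 1 / 2 * v) * g6
    · intro t ht a0 a1 t' ht' h
      simp only [Finset.mem_insert, Finset.mem_singleton] at ht ht'
      rcases ht with rfl | rfl | rfl | rfl | rfl | rfl
      · exact absurd rfl a0
      · exact absurd rfl a1
      · exact P.al2 hk1 hk2 t' h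
      · exact P.al3 hk1 hk2 t' h
      · exact P.al4 hk1 t' h
      · rcases P.k56.1 (h.trans P.c6h) with h | h
        · subst h; simp at ht'
        · exact h
    · intro t a0 a1 a7 a8
      fin_cases t
      · exact absurd rfl a0
      · exact absurd rfl a1
      · exact ⟨2, by simp, Or.inl rfl⟩
      · exact ⟨3, by simp, Or.inl rfl⟩
      · exact ⟨4, by simp, Or.inl rfl⟩
      · exact ⟨6, by simp, by unfold PK; simp⟩
      · exact ⟨6, by simp, Or.inl rfl⟩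
      · exact absurd rfl a7
      · exact absurd rfl a8
  have g5 := hK_al H (P.al5 hk1 hkh)
  have g6 := wK_al H (P.al6 hk1 hkh)
  have f5 : φ (c 5) w = -(ρ 5 * (v + 2 * a)) := by rw [al_val H (P.al5 hk1 hkh), w5]
  have f6 : φ (c 6) w = -(ρ 6 * (2 * a + k * v - a)) := by rw [al_val H (P.al6 hk1 hkh), w6]
  have hkh' : k ≠ 2⁻¹ := by rwa [one_div] at hkh
  rw [key {0, 1, 2, 3, 4, 5, 6} (by simp) (by simp) (by simp) (by simp) ?_ ?_]
  · rw [show ∑ t ∈ ({0, 1, 2, 3, 4, 5, 6} : Finset (Fin 9)), φ (c t) w =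
        φ (c 0) w + φ (c 1) w + φ (c 2) w + φ (c 3) w + φ (c 4) w + φ (c 5) w + φ (c 6) w by
        simp [Finset.sum_insert]; ring,
      f0, f1, f2, f3, f4, f5, f6, g2, g3, g4, g5, g6]
    ring
  · intro t ht a0 a1 t' ht' h
    simp only [Finset.mem_insert, Finset.mem_singleton] at ht ht'
    rcases ht with rfl | rfl | rfl | rfl | rfl | rfl | rfl
    · exact absurd rfl a0
    · exact absurd rfl a1
    · exact P.al2 hk1 hk2 t' h
    · exact P.al3 hk1 hk2 t' h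
    · exact P.al4 hk1 t' h
    · exact P.al5 hk1 hkh t' h
    · exact P.al6 hk1 hkh t' h
  · intro t a0 a1 a7 a8
    refine ⟨t, ?_, Or.inl rfl⟩
    fin_cases t
    · exact absurd rfl a0
    · exact absurd rfl a1
    · simp
    · simp
    · simp
    · simp
    · simp
    · exact absurd rfl a7
    · exact absurd rfl a8

end

end Crest.Agent.R116.Tk299
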