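import Crest.Agent.R116.Tk2_538
import Crest.Agent.R116.Pd1_363
import Crest.Agent.R116.Tq5_794
import Crest.Agent.R116.Pu4_171

/-!
# R116 (K side, ties), class functions above the record with `G` in the class of `z` and `D` not
(helper538)

* `cl9_of9g`, **`clsg`** : 126's `cl9_of9`, 363's `Pd9.cls` with the hypothesis
  `dz9 7 ≤ 1 + dz9 8` (the natural box over the class of `z` is legal) in place of
  `Par 0 7 → Par 0 8 ∧ ..`;
* `ctxP9` : 171's `fctP9` over `CtxT` and plane data;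
* **`kappa_up`** : `κ`-tie, `1/2 < k < 1`, `θ ≤ (1+k)/3`, `1/2 ≤ s` is impossible (`T⁺`).
-/

set_option autoImplicit false
set_option linter.unusedVariables false
set_option linter.unusedSectionVars false

open Set Filter Topology MeasureTheory

namespace Crest.Agent.R116.Tk538

open Crest.Agent.R136
open Crest.Agent.R138
open Dg262 (X X_cont SupOn)
open Dg219 (Tn lf det2 zz lf_zz Cone Sep gset mem_gset Walls gC nC dhC gC_zero gC_eq nC_zero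
  nC_of dirC exists_grpC OutS mw)
open Rc683 (Srf)
open RbK219
open RbM219
open SgO219 (PP)
open Sl741 (slice xt rs)
open Kz647
open ChL222 (monL)
open Crest.Agent.R116.PL504 (eL)
open Crest.Agent.R116.Xd954 (cs xs)
open Crest.Agent.R116.Sg337 (coneL DL)
open Crest.Agent.R116.Pos126 (mem8 mem9 xt8_apply vec9_apply xt8_le vec9_le cost_sum8 cost_sum9)
open Crest.Agent.R116.Tq741
open Crest.Agent.R116.Tq126

section nine

variable {θa θb s sg : ℝ} {B : Fin 9 → ℝ} {a b : Fin 2}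

/-- **`Cl9` at `z0`, `D` live**, 126's theorem with the legality of the box over the class of `z`
as hypothesis -/
theorem cl9_of9g (hS : SOk (nat9 1 (-θa) (-θb)) B sg) {J : Type*}
    {lam lam2 : J → (Fin 12 → ℝ) → ℝ} {j0 : J} {ρ ρ2 : Fin 9 → ℝ} {κ l α : ℝ} {h : ℕ → ℝ}
    (hH : Half9 θa θb B sg lam j0 ρ κ l α h lam2 ρ2)
    (P : PZ (L9B θa θb B sg) s a b (lam2 j0)) {c : Fin 9 → Fin 9}
    (hc : ∀ i j : Fin 9, c i = c j ↔ Par (nat9 1 (-θa) (-θb)) B i j)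
    (hz : ∀ i : Fin 9, Par (nat9 1 (-θa) (-θb)) B 0 i → i = 0 ∨ i = 6 ∨ i = 7 ∨ i = 8)
    (hG : dz9 θa θb sg B 7 ≤ 1 + dz9 θa θb sg B 8) :
    ∃ φ, Cl9 c (dl (nat9 1 (-θa) (-θb)) B sg) s (fun w => lam2 j0 (RL9.vec w)) φ ρ2 := by
  obtain ⟨D, φ0, r, hO⟩ := hH.out
  obtain ⟨Φ, C⟩ := core_of (R := RL9) hS RL9_full hO hH.rates (c := c) hc
  have hmem : ∀ w : V9, LegM 0 w → RL9.vec w ∈
      (RL9.srf 0 (nat9 1 (-θa) (-θb)) B sg).L (mw monL) := fun w hw => mem9L (leg9_of hw)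
  have hcx : ∀ w : Fin 9 → ℝ, RL9.vec w (cs b) = RL9.vec w (cs a) ∧
      RL9.vec w (xs b) = RL9.vec w (xs a) := by
    intro w
    rw [vec9_apply, vec9_apply, vec9_apply, vec9_apply]
    fin_cases a <;> fin_cases b <;> exact ⟨rfl, rfl⟩
  refine ⟨Φ, ⟨fun w hw => C.sum _ (hmem w hw), C.loc, fun k hk w => C.empty k w hk, C.rate, ?_,
    fun w w' hw hw' hww => ?_, ?_, fun w w' hw hw' hww => ?_⟩⟩
  · -- Lipschitz
    refine ⟨⟨∑ i, RL9.mu i, Finset.sum_nonneg fun i _ => (RL9.pos i).le⟩, fun k => ?_⟩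
    refine LipschitzOnWith.of_dist_le_mul fun w hw w' hw' => ?_
    rw [Real.dist_eq, dist_eq_norm]
    exact C.lip (M := {w | LegM 0 w}) (fun v hv => hmem v hv)
      (fun v hv v' hv' => legM_sup hv hv') k hw hw'
  · -- anti
    have h1 := C.sum _ (hmem w hw)
    have h2 := C.sum _ (hmem w' hw')
    have h3 : 0 ≤ ∑ k, (Φ k w - Φ k w') := Finset.sum_nonneg fun k _ =>
      (C.mono k _ _ (hmem w hw) (hmem w' hw') fun i _ => hww i).1
    rw [Finset.sum_sub_distrib] at h3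
    change lam2 j0 (RL9.vec w') ≤ lam2 j0 (RL9.vec w)
    linarith
  · -- own
    obtain ⟨K, hK0, hK⟩ : ∃ K : ℝ, 0 ≤ K ∧ dz9 θa θb sg B 6 ≤ K :=
      ⟨_, dz9_nonneg hS 6, le_rfl⟩
    have hl1 := leg_w9 hK0
    have hl2 := leg_w9z hS hz hG hK
    have e : RL9.vec (w9 K + dz9 θa θb sg B) =
        RL9.vec (w9 K) + (1:ℝ) • RL9.eG (nat9 1 (-θa) (-θb)) B sg 0 := by
      rw [vec_dz9, one_smul, RS.vec_add]
    have k1 := hH.rates.grp 0 (RL9.vec (w9 K)) 0 1 (fun i hi => by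
      have h1 := hz _ hi
      simp only [RS.vec, mul_zero]
      rcases h1 with h1 | h1 | h1 | h1 <;> rw [h1] <;> simp [w9]) (mem9L hl1) (by
      rw [← e]; exact mem9L hl2)
    rw [← e, mul_one] at k1
    have k2 := P.own _ (mem9B hl1) _ (mem9B hl2) (vec9_le fun i => by
      rw [Pi.add_apply]; linarith [dz9_nonneg hS i]) (by rw [vec9_apply]; simp [cl9, w9])
      (by rw [vec9_apply]; simp [cl9, w9]) (by rw [vec9_apply]; simp [cl9, w9])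
      (by rw [vec9_apply]; simp [cl9, w9]) (by rw [vec9_apply]; simp [cl9, w9])
    have k3 : RL9.vec (w9 K + dz9 θa θb sg B) 0 = 1 := by
      rw [vec9_apply]
      simp [cl9, w9, dz9_zero hS]
    rw [k3, mul_one] at k2
    linarith
  · -- cost
    have h1 := P.cost _ (mem9B (leg9_of hw)) _ (mem9B (leg9_of hw'))
      (vec9_le hww) (Or.inr (hcx _).1.le) (Or.inr (hcx _).2.le)
    rw [cost_sum9 P.ab] at h1
    refine h1.trans (le_of_eq ?_)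
    refine Finset.sum_congr rfl fun i _ => ?_
    congr 1
    fin_cases i <;> rfl

end nine

open Crest.Agent.R138.Ex926 (Base U IsTan)
open Crest.Agent.R136.MkA627 Crest.Agent.R136.TD627 Crest.Agent.R136.Net191
open Crest.Agent.R136.Lq196
open Crest.Agent.R136.Qg926 Crest.Agent.R136.Gf356 Crest.Agent.R116.EvL504
open Crest.Agent.R116.ChL222
open Crest.Agent.R116.PL504 (rL βL)
open Crest.Agent.R116.Gd222 (TSet sN)
open Crest.Agent.R116.KI439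
open Crest.Agent.R116.KF439 (PL)
open Crest.Agent.R116.CtxB468
open Crest.Agent.R116.Rcx363
open Crest.Agent.R116.Pd363
open Crest.Agent.R116.WinG954 (LM)
open Crest.Agent.R116.Tq794 (E9 E9_mem E9_add own_R own_prf e9_nonneg9)
open Crest.Agent.R116.Pu171
open Crest.Agent.R116.Tp139

section cls

variable {R s : ℝ} {a b : Fin 2} {Vis' : Fin 12 → Prop} {θa θb w0 sa sb v0 κ : ℝ}
    {f : Fin 2 → (Fin 12 → ℝ) → ℝ} {Xb : ℕ → Fin 12 → ℝ} {h' H : ℕ → ℝ}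
    {lam lam2 : Fin 2 → (Fin 12 → ℝ) → ℝ} {B : Fin 9 → ℝ} {sg l α : ℝ} {ρ ρ2 : Fin 9 → ℝ}

/-- **the decoupled class function**, `G` may be in the class of `z` without `D` -/
theorem clsg (P : Pd9 R s a b Vis' θa θb w0 sa sb v0 κ B sg f lam ρ l α h' Xb H lam2 ρ2)
    (hS : SOk (nat9 1 (-θa) (-θb)) B sg)
    (hVis : ∀ k, Vis' k → k = 0 ∨ k = 1 ∨ k = 2 ∨ k = 7 ∨ k = 8) {c : Fin 9 → Fin 9}
    (hc : ∀ i j : Fin 9, c i = c j ↔ Par (nat9 1 (-θa) (-θb)) B i j)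
    (hz : ∀ i : Fin 9, Par (nat9 1 (-θa) (-θb)) B 0 i → i = 0 ∨ i = 6 ∨ i = 7 ∨ i = 8)
    (hG : dz9 θa θb sg B 7 ≤ 1 + dz9 θa θb sg B 8) :
    ∃ φ, Cl9 c (dl (nat9 1 (-θa) (-θb)) B sg) s (fun w => lam2 0 (RL9.vec w)) φ ρ2 :=
  cl9_of9g hS P.half (pz_of P.prf hVis) hc hz hG

end cls

/-! ### the plane `kUe` -/

/-- the classes of `kUe` -/
theorem hc_kUe {θ θb e : ℝ} (he : 0 < e) (h1 : 1 / 2 < 2 * θ - θb) (h2 : 2 * θ - θb < 1)
    (hd : DAk θ θb e) (i j : Fin 9) :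
    cK i = cK j ↔ Par (nat9 1 (-θ) (-θb)) (kUe e) i j := by
  have hS := sok_kUe (θ := θ) (θb := θb) he (by linarith)
  have hu := rep_kUe he h1 h2 hd
  have hm : ∀ t, cK t ∈ ({0, 1, 2, 3, 4, 5, 6, 8} : Finset (Fin 9)) := by decide
  have hp : ∀ t, Par (nat9 1 (-θ) (-θb)) (kUe e) t (cK t) := by
    refine all9 rfl rfl rfl rfl rfl rfl rfl ?_ rfl
    change Par _ _ 7 0
    simp only [Par]; kve; ring
  constructor
  · intro h
    have h3 := hp j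
    rw [← h] at h3
    exact Par.trans' hS (hp i) (Par.symm' h3)
  · intro h
    obtain ⟨t, -, ht⟩ := hu i
    rw [ht (cK i) ⟨hm i, hp i⟩, ht (cK j) ⟨hm j, Par.trans' hS h (hp j)⟩]

theorem hz_kUe {θ θb e : ℝ} (he : 0 < e) (h1 : 1 / 2 < 2 * θ - θb) (h2 : 2 * θ - θb < 1)
    (hd : DAk θ θb e) (i : Fin 9) (h : Par (nat9 1 (-θ) (-θb)) (kUe e) 0 i) :
    i = 0 ∨ i = 6 ∨ i = 7 ∨ i = 8 := by
  have h3 := (hc_kUe he h1 h2 hd 0 i).2 h
  have h4 : ∀ i : Fin 9, cK 0 = cK i → i = 0 ∨ i = 6 ∨ i = 7 ∨ i = 8 := by decide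
  exact h4 i h3

theorem hg_kUe {θ θb e : ℝ} (he : 0 < e) (hb2 : θb < 2 * θ) (h2 : 2 * θ - θb < 1) :
    dz9 θ θb 1 (kUe e) 7 ≤ 1 + dz9 θ θb 1 (kUe e) 8 := by
  have hS := sok_kUe (θ := θ) (θb := θb) he hb2
  have h8 := dz9_nonneg hS 8
  have h7 : dz9 θ θb 1 (kUe e) 7 ≤ 1 := by
    unfold dz9
    split_ifs
    · rw [div_le_one (hS.dl_pos 0)]
      unfold dl
      rw [if_pos (u7 e), if_pos (u0 e)]
      change -θb - 2 * -θ ≤ 1
      linarith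
    · exact zero_le_one
  linarith

section ctx

variable {G : Geo TSet (Fin 2)} {L : ℕ → ℕ → LRay} {r : ℕ → ℝ} {g s : ℝ} {θ q : Fin 2 → ℝ}
    {Rg : ℝ} {B : Base} {I : ℕ → Finset (ℕ × ℝ)} {lev : ℕ → ℚ → ℕ} {A : ℕ → ℝ}
    {f : ℕ → ℚ → ℕ → ℤ → ℕ} {b : ℕ → ℚ → ℕ → TSet} {vm : ℕ → ℚ → ℝ} {w : Fin 2 → ℕ → ℚ → ℝ}
    {fr : ℕ → ℚ → ℕ × ℝ → LInc} {fl : ℕ → ℕ × ℝ → LInc} {sc : Fin 12 → ℕ → ℝ}
    {w0 sa sb δ R : ℝ} {I0 I' : ℕ → Finset (ℕ × ℝ)} {ν own : (Fin 12 → ℝ) → ℝ} {c₀ : ℝ}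

/-- **171's two-height facts on plane data, `D` live**, any offset with `X = z + C`, `F = z + P` -/
theorem ctxP9
    (C : CtxT G L r g s θ q Rg B I lev A f b vm w fr fl sc w0 sa sb δ R I0 I' ν own c₀)
    (hs1 : s < 1) {a b' : Fin 2} {Vis' : Fin 12 → Prop} {v0 κ : ℝ} {Bo : Fin 9 → ℝ} {sg l α : ℝ}
    {lam lam2 : Fin 2 → (Fin 12 → ℝ) → ℝ} {ρ ρ2 : Fin 9 → ℝ} {h' H : ℕ → ℝ}
    {Xb : ℕ → Fin 12 → ℝ}
    (P : Pd9 R s a b' Vis' (θ 0) (θ 1) w0 sa sb v0 κ Bo sg (fo ν own) lam ρ l α h' Xb H lam2 ρ2)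
    (b5 : Bo 3 = Bo 0 + Bo 1) (b11 : Bo 4 = Bo 0 + Bo 2) {Sk : V9 → Prop}
    (hSk : ∀ w, LegM 0 w → Sk w → ∀ k, Vis' k → E9 w k ≤ w 0 * βL (θ 0) (θ 1) k) :
    FctP Sk (fun w => lam2 0 (RL9.vec w)) := by
  have hN := RowU388.nprof_T C
  have hcoc : ∀ n, Coc (PL504.coN B lev w w0 sa sb fl n) :=
    fun n => Sd369.coc_N B lev w w0 sa sb fl n
  have hLM : LM ⊆ L9B (θ 0) (θ 1) Bo sg := by
    intro c hc w hw
    exact hc w.1 w.2.1 w.2.2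
  have ht : ∀ j, IsTan (Leg monL R) LM (fo ν own j) Xb H (lam2 j) := fun j =>
    Rc683.tan_mono (P.tan j) Subset.rfl hLM
  have hlip : ∃ K : ℝ, 0 ≤ K ∧ ∀ j, ∀ p ∈ LM, ∀ q ∈ LM,
      |lam2 j p - lam2 j q| ≤ K * ‖p - q‖ := by
    refine ⟨12, by norm_num, fun j p hp' q hq' => ?_⟩
    have := SgO219.tan_lip P.pos (ht j) (K := 12) (fo_lip C j) p hp' q hq'
    rwa [dist_eq_norm] at this
  obtain ⟨V, E, -, -, -, hb⟩ := P.base
  have hbb : ∀ m k, Xb m k = rL (θ 0) (θ 1) w0 sa sb (v0 + V m) k + E m * Bo (cl9 k) := hb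
  have r5 : ∀ v, rL (θ 0) (θ 1) w0 sa sb v 5 = rL (θ 0) (θ 1) w0 sa sb v 0 +
      rL (θ 0) (θ 1) w0 sa sb v 3 := fun _ => rfl
  have r6 : ∀ v, rL (θ 0) (θ 1) w0 sa sb v 6 = rL (θ 0) (θ 1) w0 sa sb v 0 +
      rL (θ 0) (θ 1) w0 sa sb v 4 := fun _ => rfl
  have r11 : ∀ v, rL (θ 0) (θ 1) w0 sa sb v 11 = rL (θ 0) (θ 1) w0 sa sb v 0 +
      rL (θ 0) (θ 1) w0 sa sb v 10 := fun _ => rfl
  have key := fctP9 (M := LM) (Sk := Sk) (σ := 1 - s) (j0 := (0 : Fin 2)) (f := fo ν own) hN hcoc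
    (fun n => ((0 : ℕ), (0 : ℝ))) Tq794.LM_closed
    (by rw [← Tq794.E9_zero]; exact E9_mem leg_zero)
    (fun p hp q hq => Tq794.LM_add hp hq) (fun t ht p hp => Tq794.LM_smul ht hp) Subset.rfl
    P.pos P.lim ht rfl hlip
    (Eventually.of_forall fun m => ?_) (Eventually.of_forall fun m => ?_)
    (Eventually.of_forall fun m => ?_) (by linarith) (fun w R' hw hS hL => ?_)
  · simpa only [Tq794.E9_eq] using key
  · rw [hbb, hbb, hbb, r5]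
    change _ + E m * Bo 3 = (_ + E m * Bo 0) + (_ + E m * Bo 1)
    rw [b5]; ring
  · rw [hbb, hbb, hbb, r6]
    change _ + E m * Bo 3 = (_ + E m * Bo 0) + (_ + E m * Bo 1)
    rw [b5]; ring
  · rw [hbb, hbb, hbb, r11]
    change _ + E m * Bo 4 = (_ + E m * Bo 0) + (_ + E m * Bo 2)
    rw [b11]; ring
  · exact own_R (s := s) (M := LM) (fun d hd => E9_mem hd) E9_add hw hL fun t ht' =>
      own_prf (P.prf.mono hLM) (fun d hd => E9_mem hd) E9_add (fun _ => rfl) e9_nonneg9 hw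
        (hSk w hw hS) ht'

end ctx

end Crest.Agent.R116.Tk538
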