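import Crest.Agent.R116.Tk3_299

/-!
# R116 (K side, ties): the `κ`-plane below the record, all `k` (helper299), part 2

* `PlK.xpt`, **`PlK.xge`** : the wall of `X` (K1, F1, P1)
* **`PlK.hge`** : the wall of `H` (H1)
* **`PlK.pos`**, **`PlK.fanA`**
-/

set_option autoImplicit false
set_option linter.unusedSectionVars false
set_option linter.unusedVariables false

open Set Filter Topology Metric MeasureTheory
open scoped NNReal

namespace Crest.Agent.R116.Tk299

open Tie460 (Pl)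
open RbM219 (nat9)
open Tq741

variable {c : Fin 9 → Fin 9} {dl : V9} {s : ℝ} {Λ : V9 → ℝ} {φ : Fin 9 → V9 → ℝ} {ρ : V9}

section

variable {L : Prop} {k : ℝ}

/-- evaluation of explicit vectors -/
macro "vx" : tactic => `(tactic| simp only [Matrix.cons_val, Pi.add_apply, Pi.smul_apply,
  smul_eq_mul, e9, Pi.single_apply, Fin.reduceEq, reduceIte, mul_one, mul_zero, add_zero,
  zero_add])

theorem PlK.in2 (P : PlK L k c dl) {t : Fin 9} (h : c t = c 2) : t = 2 ∨ t = 3 ∨ t = 5 := by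
  have h1 := (P.par t 2).1 h
  unfold PK ZK at h1
  rcases h1 with h | ⟨-, h⟩ | ⟨-, h, -⟩ | ⟨-, -, h⟩ | ⟨-, h, -⟩ | ⟨-, -, h⟩
  · exact Or.inl h
  · simp at h
  · rcases h with h | h
    · exact Or.inl h
    · exact Or.inr (Or.inr h)
  · simp at h
  · rcases h with h | h
    · exact Or.inl h
    · exact Or.inr (Or.inl h)
  · simp at h

theorem PlK.in3 (P : PlK L k c dl) {t : Fin 9} (h : c t = c 3) :
    t = 2 ∨ t = 3 ∨ t = 4 ∨ t = 6 := by
  have h1 := (P.par t 3).1 h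
  unfold PK ZK at h1
  rcases h1 with h | ⟨-, h⟩ | ⟨-, -, h⟩ | ⟨-, h, -⟩ | ⟨-, h, -⟩ | ⟨-, -, h⟩
  · exact Or.inr (Or.inl h)
  · simp at h
  · simp at h
  · rcases h with h | h | h
    · exact Or.inr (Or.inl h)
    · exact Or.inr (Or.inr (Or.inl h))
    · exact Or.inr (Or.inr (Or.inr h))
  · rcases h with h | h
    · exact Or.inl h
    · exact Or.inr (Or.inl h)
  · simp at h

theorem PlK.in4 (P : PlK L k c dl) {t : Fin 9} (h : c t = c 4) : t = 3 ∨ t = 4 ∨ t = 6 := by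
  have h1 := (P.par t 4).1 h
  unfold PK ZK at h1
  rcases h1 with h | ⟨-, h⟩ | ⟨-, -, h⟩ | ⟨-, h, -⟩ | ⟨-, -, h⟩ | ⟨-, -, h⟩
  · exact Or.inr (Or.inl h)
  · simp at h
  · simp at h
  · exact h
  · simp at h
  · simp at h

theorem PlK.in5 (P : PlK L k c dl) {t : Fin 9} (h : c t = c 5) : t = 2 ∨ t = 5 ∨ t = 6 := by
  have h1 := (P.par t 5).1 h
  unfold PK ZK at h1
  rcases h1 with h | ⟨-, h⟩ | ⟨-, h, -⟩ | ⟨-, -, h⟩ | ⟨-, -, h⟩ | ⟨-, h, -⟩
  · exact Or.inr (Or.inl h)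
  · simp at h
  · rcases h with h | h
    · exact Or.inl h
    · exact Or.inr (Or.inl h)
  · simp at h
  · simp at h
  · rcases h with h | h
    · exact Or.inr (Or.inl h)
    · exact Or.inr (Or.inr h)

theorem PlK.in6 (P : PlK L k c dl) {t : Fin 9} (h : c t = c 6) :
    t = 3 ∨ t = 4 ∨ t = 5 ∨ t = 6 := by
  have h1 := (P.par t 6).1 h
  unfold PK ZK at h1
  rcases h1 with h | ⟨-, h⟩ | ⟨-, -, h⟩ | ⟨-, h, -⟩ | ⟨-, -, h⟩ | ⟨-, h, -⟩
  · exact Or.inr (Or.inr (Or.inr h))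
  · simp at h
  · simp at h
  · rcases h with h | h | h
    · exact Or.inl h
    · exact Or.inr (Or.inl h)
    · exact Or.inr (Or.inr (Or.inr h))
  · simp at h
  · rcases h with h | h
    · exact Or.inr (Or.inr (Or.inl h))
    · exact Or.inr (Or.inr (Or.inr h))

/-- generic class of `z` near `(0, -τ, -τ/2)` -/
theorem near_z (H : Cl9 c dl s Λ φ ρ) (hk : 0 < k) {τ : ℝ} (hτ : 0 < τ) (hτ1 : τ ≤ 1) :
    ∃ w : V9, |w 0| < τ / 100 ∧ |w 7 + τ| < τ / 100 ∧ |w 8 + τ / 2| < τ / 100 ∧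
      w 7 < k * w 0 ∧ w 8 < (k - 1) * w 0 ∧ ∀ j, ∃ R, RtAt (φ j) w R := by
  set η : ℝ := τ / (100 * (1 + k)) with hη
  have hη0 : 0 < η := by positivity
  have hη1 : η ≤ τ / 100 := by
    rw [hη, div_le_div_iff₀ (by positivity) (by norm_num)]; nlinarith
  have hη2 : k * η ≤ τ / 100 := by
    rw [hη, mul_div_assoc', div_le_div_iff₀ (by positivity) (by norm_num)]; nlinarith
  obtain ⟨w, -, hw, -, hg⟩ := H.pos_near (w0 := ![0, 50, -40, 5, -200, 0, -20, -τ, -(τ / 2)])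
    hη0 (by constructor <;> simp only [Matrix.cons_val] <;> linarith) (N := univ) (by simp)
  have b0 := nbd hw 0
  have b7 := nbd hw 7
  have b8 := nbd hw 8
  simp only [Matrix.cons_val] at b0 b7 b8
  have h1 : -(τ / 100) < k * w 0 := by nlinarith [mul_lt_mul_of_pos_left b0.1 hk]
  have h2 : k * w 0 < τ / 100 := by nlinarith [mul_lt_mul_of_pos_left b0.2 hk]
  refine ⟨w, abs_lt.2 ⟨by linarith [b0.1], by linarith [b0.2]⟩,
    abs_lt.2 ⟨by linarith [b7.1], by linarith [b7.2]⟩,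
    abs_lt.2 ⟨by linarith [b8.1], by linarith [b8.2]⟩, by linarith [b7.2],
    by linarith [b8.2, b0.2], hg⟩

/-- a fact at the wall of `X` -/
def XW (k : ℝ) (Λ : V9 → ℝ) (ρ : V9) (q : ℝ) : Prop :=
  ∀ w R, One 1 w → w 7 < k * w 0 → w 8 < (k - 1) * w 0 → LinS ∅ Λ w R → R 1 = ρ 1 → q ≤ R 3

/-- **the wall of `X`, pointwise** -/
theorem PlK.xpt (P : PlK L k c dl) (H : Cl9 c dl s Λ φ ρ) (hk : 0 < k) {q : ℝ}
    (h : XW k Λ ρ q) {u R : V9} (hR : RtAt (φ (c 3)) u R)
    (h1 : k = 1 → u 6 < u 3 ∧ u 4 < u 3 + u 6) (h2 : k = 2 → u 2 < 2 * u 3) : q ≤ R 3 := by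
  by_cases hk1 : k = 1
  · obtain ⟨a, b⟩ := h1 hk1
    subst hk1
    set μ : ℝ := min (u 3 - u 6) (u 3 + u 6 - u 4) with hμ
    have hμ0 : 0 < μ := lt_min (by linarith) (by linarith)
    have hμ1 : μ ≤ u 3 - u 6 := min_le_left _ _
    have hμ2 : μ ≤ u 3 + u 6 - u 4 := min_le_right _ _
    obtain ⟨w1, a0, a7, a8, a70, a80, hg1⟩ := near_z (k := 1) H one_pos (τ := min 1 (μ / 10))
      (lt_min one_pos (by positivity)) (min_le_left _ _)
    set τ : ℝ := min 1 (μ / 10) with hτ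
    have hτ0 : 0 < τ := lt_min one_pos (by positivity)
    have hτ2 : τ ≤ μ / 10 := min_le_right _ _
    have A0 := abs_lt.1 a0
    have A7 := abs_lt.1 a7
    have A8 := abs_lt.1 a8
    obtain ⟨w2, -, hw2, -, hg2⟩ := H.pos_near
      (w0 := ![0, 50 + |u 4| + μ, u 4 + μ / 4, 0, -200 - |u 4| - μ, u 4 + μ / 2, 0,
        50 + |u 4| + μ, 1000 + |u 4| + 2 * μ])
      (η := μ / 100) (by positivity) (by
        have := neg_abs_le (u 4)
        have := le_abs_self (u 4)
        have := abs_nonneg (u 4)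
        constructor <;> simp only [Matrix.cons_val] <;> linarith) (N := univ) (by simp)
    have b2 := nbd hw2 2
    have b5 := nbd hw2 5
    simp only [Matrix.cons_val] at b2 b5
    set w' : V9 := ![w1 0, u 3 - w1 0, w2 2, u 3, u 4, w2 5, u 6, w1 7, w1 8] with hw'
    have hgen : GenZ φ (fun _ => False) w' := P.gen H (w1 := w1) (w2 := w2) (w3 := u)
      (fun _ => ⟨hg1 _, by simp [hw'], by simp [hw'], fun _ => by simp [hw']⟩)
      (fun _ => ⟨hg2 _, by simp [hw'], by simp [hw']⟩)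
      (fun _ => ⟨⟨R, hR⟩, by simp [hw'], by simp [hw'], by simp [hw']⟩)
      (fun h => by norm_num at h) (fun h => by norm_num at h)
    have hone : One 1 w' := by
      refine one_of 1 ?_ ?_ ?_ ?_ ?_ ?_ ?_ ?_ ?_ ?_ <;>
        simp only [hw', Matrix.cons_val, Fin.reduceEq, reduceIte] <;>
        linarith [A0.1, A0.2, A7.1, A7.2, A8.1, A8.2, b2.1, b2.2, b5.1, b5.2]
    obtain ⟨R', hl, ha, hu⟩ := hgen.lin H hone.leg
    have h3 := h w' R' hone (by
      show w' 7 < 1 * w' 0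
      simp only [hw', Matrix.cons_val]; exact a70) (by
      show w' 8 < (1 - 1) * w' 0
      simp only [hw', Matrix.cons_val]; exact a80) hl (ha 1 P.al1)
    rwa [hu 3 R (hR.loc H fun t ht => by
      rcases P.k346.1 ht with rfl | rfl | rfl <;> simp [hw'])] at h3
  by_cases hk2 : k = 2
  · have b := h2 hk2
    subst hk2
    set μ : ℝ := 2 * u 3 - u 2 with hμ
    have hμ0 : 0 < μ := by linarith
    obtain ⟨w1, a0, a7, a8, a70, a80, hg1⟩ := near_z (k := 2) H two_pos (τ := min 1 (μ / 10) / 2)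
      (by have := lt_min one_pos (show 0 < μ / 10 by positivity); linarith)
      (by have := min_le_left (1:ℝ) (μ / 10); linarith)
    have c1 := min_le_left (1:ℝ) (μ / 10)
    have c2 := min_le_right (1:ℝ) (μ / 10)
    have c3 := lt_min one_pos (show 0 < μ / 10 by positivity)
    set τ : ℝ := min 1 (μ / 10) / 2 with hτ
    have A0 := abs_lt.1 a0
    have A7 := abs_lt.1 a7
    have A8 := abs_lt.1 a8
    set w' : V9 := ![w1 0, u 3 - w1 0, u 2, u 3, u 2 - 1, u 2 + μ / 2, u 3 - 3 * μ / 4, w1 7, w1 8]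
      with hw'
    have hgen : GenZ φ (fun _ => False) w' := P.gen H (w1 := w1) (w2 := u) (w3 := u)
      (fun _ => ⟨hg1 _, by simp [hw'], by simp [hw'], fun _ => by simp [hw']⟩)
      (fun h => by norm_num at h) (fun h => by norm_num at h)
      (fun _ => ⟨⟨R, by rw [← P.c3]; exact hR⟩, by simp [hw'], by simp [hw']⟩)
      (fun h => by norm_num at h)
    have hone : One 1 w' := by
      refine one_of 1 ?_ ?_ ?_ ?_ ?_ ?_ ?_ ?_ ?_ ?_ <;>
        simp only [hw', Matrix.cons_val, Fin.reduceEq, reduceIte] <;>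
        linarith [A0.1, A0.2, A7.1, A7.2, A8.1, A8.2]
    obtain ⟨R', hl, ha, hu⟩ := hgen.lin H hone.leg
    have h3 := h w' R' hone (by
      show w' 7 < 2 * w' 0
      simp only [hw', Matrix.cons_val]; exact a70) (by
      show w' 8 < (2 - 1) * w' 0
      simp only [hw', Matrix.cons_val]; exact a80) hl (ha 1 P.al1)
    rwa [hu 3 R (hR.loc H fun t ht => by
      rcases P.k23.1 (ht.trans P.c3) with rfl | rfl <;> simp [hw'])] at h3
  · have al3 := P.al3 hk1 hk2
    obtain ⟨w, a0, a7, a8, a70, a80, hg⟩ := near_z (k := k) H hk (τ := 1) one_pos le_rfl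
    have A0 := abs_lt.1 a0
    have A7 := abs_lt.1 a7
    have A8 := abs_lt.1 a8
    obtain ⟨w2, -, hw2, -, hg2⟩ := H.pos_near
      (w0 := ![0, 50, -40, 5, -200, 0, -20, -1, -(1 / 2)]) (η := 1 / 100) (by norm_num)
      (by constructor <;> simp only [Matrix.cons_val] <;> norm_num) (N := univ) (by simp)
    have b5 := nbd hw2 5
    have b6 := nbd hw2 6
    simp only [Matrix.cons_val] at b5 b6
    set w' : V9 := ![w 0, 5 - w 0, -40, 5, -200, w2 5, w2 6, w 7, w 8] with hw'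
    have hgen : GenZ φ (fun _ => False) w' := P.gen H (w1 := w) (w2 := w2) (w3 := w2)
      (fun _ => ⟨hg _, by simp [hw'], by simp [hw'], fun _ => by simp [hw']⟩)
      (fun h => absurd h hk1) (fun h => absurd h hk1) (fun h => absurd h hk2)
      (fun _ => ⟨hg2 _, by simp [hw'], by simp [hw']⟩)
    have hone : One 1 w' := by
      refine one_of 1 ?_ ?_ ?_ ?_ ?_ ?_ ?_ ?_ ?_ ?_ <;>
        simp only [hw', Matrix.cons_val, Fin.reduceEq, reduceIte] <;>
        linarith [A0.1, A0.2, A7.1, A7.2, A8.1, A8.2, b5.1, b5.2, b6.1, b6.2]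
    obtain ⟨R', hl, ha, hu⟩ := hgen.lin H hone.leg
    have h3 := h w' R' hone (by
      show w' 7 < k * w' 0
      simp only [hw', Matrix.cons_val]; exact a70) (by
      show w' 8 < (k - 1) * w' 0
      simp only [hw', Matrix.cons_val]; exact a80) hl (ha 1 P.al1)
    have h4 := hR.uniq (H.rt_alone al3 u)
    have h5 : R 3 = ρ 3 := by rw [h4]; simp
    rw [h5, ← ha 3 al3]
    exact h3

theorem le_of_scaled {q T : ℝ} (hq : 0 ≤ q) (h : ∀ ε, 0 < ε → ε < 1 → q * (1 - ε) ≤ T) :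
    q ≤ T := by
  by_contra hc
  push Not at hc
  have hT : 0 ≤ T := by
    have := h (1 / 2) (by norm_num) (by norm_num)
    nlinarith
  have hq0 : 0 < q := by linarith
  have hd : 0 < q - T := by linarith
  have h1 := h (min (1 / 2) ((q - T) / (2 * q))) (lt_min (by norm_num) (by positivity))
    (lt_of_le_of_lt (min_le_left _ _) (by norm_num))
  have h2 : q * min (1 / 2) ((q - T) / (2 * q)) ≤ (q - T) / 2 := by
    have h3 := mul_le_mul_of_nonneg_left (min_le_right (1 / 2) ((q - T) / (2 * q))) hq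
    have h4 : q * ((q - T) / (2 * q)) = (q - T) / 2 := by field_simp
    linarith
  nlinarith

/-- **the wall of `X`** -/
theorem PlK.xge (P : PlK L k c dl) (H : Cl9 c dl s Λ φ ρ) (hk : 0 < k) {q : ℝ} (hq : 0 ≤ q)
    (h : XW k Λ ρ q) : q ≤ 1 - xK c φ := by
  by_cases hk1 : k = 1
  · subst hk1
    have hin : ∀ t, c t = c 3 → t = 3 ∨ t = 4 ∨ t = 6 := fun t => P.k346.1
    refine le_of_scaled hq fun ε he0 he1 => ?_
    unfold xK
    rw [sub_sub_cancel]
    have e0 : φ (c 3) 0 = φ (c 3) ![0, 50, 0, 0, 0, 0, 0, 50, 1000] :=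
      H.loc _ _ _ fun t ht => by rcases hin t ht with rfl | rfl | rfl <;> simp
    have e1 : φ (c 3) (![0, 50, 0, 0, 0, 0, 0, 50, 1000] + ε • e9 3) =
        φ (c 3) ![0, 50, 40, ε, 0, 45, 0, 50, 1000] :=
      H.loc _ _ _ fun t ht => by rcases hin t ht with rfl | rfl | rfl <;> simp [e9]
    have e2 : φ (c 3) (e9 3) = φ (c 3) (![0, 50, 40, ε, 0, 45, 0, 50, 1000] + (1 - ε) • e9 3) :=
      H.loc _ _ _ fun t ht => by rcases hin t ht with rfl | rfl | rfl <;> simp [e9]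
    have m1 := H.incr_nonneg (w := ![0, 50, 0, 0, 0, 0, 0, 50, 1000])
      (w' := ![0, 50, 0, 0, 0, 0, 0, 50, 1000] + ε • e9 3)
      (by constructor <;> vx <;> norm_num) (by constructor <;> vx <;> linarith) (c 3)
      (fun i hi => add_e9_ne fun h => hi (by rw [h])) (le_add_e9 he0.le)
    have m2 := H.mv_ge' (t := 3) (w0 := ![0, 50, 40, ε, 0, 45, 0, 50, 1000]) (y := 1 - ε) (q := q)
      (m := ε) (by linarith) he0 hq (by constructor <;> vx <;> linarith)
      (by constructor <;> vx <;> linarith) (N := univ) (by simp) ?_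
    · rw [e0, e2]
      rw [e1] at m1
      linarith
    intro δ hδ hδ1 x hx w _ hw _ R hR
    have b3 := nbd hw 3
    have b4 := nbd hw 4
    have b6 := nbd hw 6
    simp only [Matrix.cons_val, Pi.add_apply, Pi.smul_apply, smul_eq_mul, e9, Pi.single_apply,
      Fin.reduceEq, reduceIte, mul_one, mul_zero, add_zero, zero_add] at b3 b4 b6
    refine P.xpt H hk h hR (fun _ => ⟨?_, ?_⟩) (fun h => by norm_num at h) <;>
      linarith [hx.1, hx.2, b3.1, b3.2, b4.1, b4.2, b6.1, b6.2]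
  by_cases hk2 : k = 2
  · subst hk2
    have hin : ∀ t, c t = c 3 → t = 2 ∨ t = 3 := fun t ht => P.k23.1 (ht.trans P.c3)
    unfold xK
    rw [sub_sub_cancel]
    have e0 : φ (c 3) 0 = φ (c 3) ![0, 50, 0, 0, -200, 40, 0, 50, 1000] :=
      H.loc _ _ _ fun t ht => by rcases hin t ht with rfl | rfl <;> simp
    have e2 : φ (c 3) (e9 3) =
        φ (c 3) (![0, 50, 0, 0, -200, 40, 0, 50, 1000] + (1:ℝ) • e9 3) :=
      H.loc _ _ _ fun t ht => by rcases hin t ht with rfl | rfl <;> simp [e9]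
    have m2 := H.mv_ge' (t := 3) (w0 := ![0, 50, 0, 0, -200, 40, 0, 50, 1000]) (y := 1) (q := q)
      (m := 1) one_pos one_pos hq (by constructor <;> vx <;> norm_num)
      (by constructor <;> vx <;> norm_num) (N := univ) (by simp) ?_
    · rw [e0, e2]
      linarith
    intro δ hδ hδ1 x hx w _ hw _ R hR
    have b2 := nbd hw 2
    have b3 := nbd hw 3
    simp only [Matrix.cons_val, Pi.add_apply, Pi.smul_apply, smul_eq_mul, e9, Pi.single_apply,
      Fin.reduceEq, reduceIte, mul_one, mul_zero, add_zero, zero_add] at b2 b3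
    refine P.xpt H hk h hR (fun h => by norm_num at h) (fun _ => ?_)
    linarith [hx.1, hx.2, b2.1, b2.2, b3.1, b3.2]
  · rw [xK_al H (P.al3 hk1 hk2), sub_sub_cancel]
    have h1 := P.xpt H hk h (H.rt_alone (P.al3 hk1 hk2) 0) (fun h => absurd h hk1)
      (fun h => absurd h hk2)
    simpa using h1

/-- **the wall of `H`** -/
theorem PlK.hge (P : PlK L k c dl) (H : Cl9 c dl s Λ φ ρ) (hk : 0 < k) {q : ℝ} (hq : 0 ≤ q)
    (h : XW k Λ ρ q) (h4 : ∀ w R, One 4 w → LinS ∅ Λ w R → R 1 = ρ 1 → R 3 ≤ R 5) :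
    q ≤ 1 - hK c φ := by
  obtain ⟨w1, -, hw1, -, hg1⟩ := H.pos_near (w0 := ![100, 50, 0, 0, -200, 0, 0, 50, 1000])
    (η := 1 / 100) (by norm_num) (by constructor <;> simp only [Matrix.cons_val] <;> norm_num)
    (N := univ) (by simp)
  have a0 := nbd hw1 0
  have a7 := nbd hw1 7
  have a8 := nbd hw1 8
  simp only [Matrix.cons_val] at a0 a7 a8
  by_cases hk1 : k = 1
  · subst hk1
    have hin : ∀ t, c t = c 5 → t = 2 ∨ t = 5 := fun t ht => P.k25.1 (ht.trans P.c5)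
    have e0 : φ (c 5) (e9 6) = φ (c 5) ![0, 50, 0, 0, -200, 0, 0, 50, 1000] :=
      H.loc _ _ _ fun t ht => by rcases hin t ht with rfl | rfl <;> simp [e9]
    have e1 : φ (c 5) (e9 6 + (2:ℝ) • e9 5) =
        φ (c 5) (![0, 50, 0, 0, -200, 0, 0, 50, 1000] + (2:ℝ) • e9 5) :=
      H.loc _ _ _ fun t ht => by rcases hin t ht with rfl | rfl <;> simp [e9]
    have m2 := H.mv_ge' (t := 5) (w0 := ![0, 50, 0, 0, -200, 0, 0, 50, 1000]) (y := 2) (q := q)
      (m := 1) two_pos one_pos hq (by constructor <;> vx <;> norm_num)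
      (by constructor <;> vx <;> norm_num) (N := univ) (by simp) ?_
    · unfold hK
      rw [e0, e1]
      linarith
    intro δ hδ hδ1 x hx w _ hw _ R hR
    have b2 := nbd hw 2
    have b5 := nbd hw 5
    simp only [Matrix.cons_val, Pi.add_apply, Pi.smul_apply, smul_eq_mul, e9, Pi.single_apply,
      Fin.reduceEq, reduceIte, mul_one, mul_zero, add_zero, zero_add] at b2 b5
    obtain ⟨u, -, hu0, -, hgu⟩ := H.pos_near
      (w0 := ![0, 50, 0, δ / 2, -(δ / 10), 0, 0, 50, 1000]) (η := δ / 100) (by positivity)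
      (by constructor <;> simp only [Matrix.cons_val] <;> linarith) (N := univ) (by simp)
    have d3 := nbd hu0 3
    have d4 := nbd hu0 4
    have d6 := nbd hu0 6
    simp only [Matrix.cons_val] at d3 d4 d6
    obtain ⟨Ru, hRu⟩ := hgu (c 3)
    have hq3 := P.xpt H hk h hRu (fun _ => ⟨by linarith [d3.1, d6.2], by
      linarith [d3.1, d4.2, d6.1]⟩) (fun h => by norm_num at h)
    set w' : V9 := ![w1 0, w 5 - u 3, w 2, u 3, u 4, w 5, u 6, w1 7, w1 8] with hw'
    have hgen : GenZ φ (fun _ => False) w' := P.gen H (w1 := w1) (w2 := w) (w3 := u)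
      (fun _ => ⟨hg1 _, by simp [hw'], by simp [hw'], fun _ => by simp [hw']⟩)
      (fun _ => ⟨⟨R, by rw [← P.c5]; exact hR⟩, by simp [hw'], by simp [hw']⟩)
      (fun _ => ⟨hgu _, by simp [hw'], by simp [hw'], by simp [hw']⟩)
      (fun h => by norm_num at h) (fun h => by norm_num at h)
    have hone : One 4 w' := by
      refine one_of 4 ?_ ?_ ?_ ?_ ?_ ?_ ?_ ?_ ?_ ?_ <;>
        simp only [hw', Matrix.cons_val, Fin.reduceEq, reduceIte] <;>
        linarith [hx.1, hx.2, a0.1, a0.2, a7.1, a7.2, a8.1, a8.2, b2.1, b2.2, b5.1, b5.2, d3.1,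
          d3.2, d4.1, d4.2, d6.1, d6.2]
    obtain ⟨R', hl, ha, hu⟩ := hgen.lin H hone.leg
    have h3 := h4 w' R' hone hl (ha 1 P.al1)
    rw [hu 3 Ru (hRu.loc H fun t ht => by
      rcases P.k346.1 ht with rfl | rfl | rfl <;> simp [hw']), hu 5 R (hR.loc H fun t ht => by
      rcases hin t ht with rfl | rfl <;> simp [hw'])] at h3
    linarith
  by_cases hkh : k = 1 / 2
  · subst hkh
    have hk2 : (1 / 2 : ℝ) ≠ 2 := by norm_num
    have hin : ∀ t, c t = c 5 → t = 5 ∨ t = 6 := fun t ht => P.k56.1 ht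
    have hq3 := P.xpt H hk h (H.rt_alone (P.al3 hk1 hk2) 0) (fun h => absurd h hk1)
      (fun h => absurd h hk2)
    have hq3' : q ≤ ρ 3 := by simpa using hq3
    have e0 : φ (c 5) (e9 6) = φ (c 5) ![0, 50, -50, 0, -200, 0, 1, 50, 1000] :=
      H.loc _ _ _ fun t ht => by rcases hin t ht with rfl | rfl <;> simp [e9]
    have e1 : φ (c 5) (e9 6 + (2:ℝ) • e9 5) =
        φ (c 5) (![0, 50, -50, 0, -200, 0, 1, 50, 1000] + (2:ℝ) • e9 5) :=
      H.loc _ _ _ fun t ht => by rcases hin t ht with rfl | rfl <;> simp [e9]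
    have m2 := H.mv_ge' (t := 5) (w0 := ![0, 50, -50, 0, -200, 0, 1, 50, 1000]) (y := 2) (q := q)
      (m := 1) two_pos one_pos hq (by constructor <;> vx <;> norm_num)
      (by constructor <;> vx <;> norm_num) (N := univ) (by simp) ?_
    · unfold hK
      rw [e0, e1]
      linarith
    intro δ hδ hδ1 x hx w _ hw _ R hR
    have b5 := nbd hw 5
    have b6 := nbd hw 6
    simp only [Matrix.cons_val, Pi.add_apply, Pi.smul_apply, smul_eq_mul, e9, Pi.single_apply,
      Fin.reduceEq, reduceIte, mul_one, mul_zero, add_zero, zero_add] at b5 b6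
    set w' : V9 := ![w1 0, w 5 + 50, -50, -50, -200, w 5, w 6, w1 7, w1 8] with hw'
    have hgen : GenZ φ (fun _ => False) w' := P.gen H (w1 := w1) (w2 := w) (w3 := w)
      (fun _ => ⟨hg1 _, by simp [hw'], by simp [hw'], fun _ => by simp [hw']⟩)
      (fun h => absurd h hk1) (fun h => absurd h hk1) (fun h => absurd h hk2)
      (fun _ => ⟨⟨R, hR⟩, by simp [hw'], by simp [hw']⟩)
    have hone : One 4 w' := by
      refine one_of 4 ?_ ?_ ?_ ?_ ?_ ?_ ?_ ?_ ?_ ?_ <;>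
        simp only [hw', Matrix.cons_val, Fin.reduceEq, reduceIte] <;>
        linarith [hx.1, hx.2, a0.1, a0.2, a7.1, a7.2, a8.1, a8.2, b5.1, b5.2, b6.1, b6.2]
    obtain ⟨R', hl, ha, hu⟩ := hgen.lin H hone.leg
    have h3 := h4 w' R' hone hl (ha 1 P.al1)
    rw [ha 3 (P.al3 hk1 hk2), hu 5 R (hR.loc H fun t ht => by
      rcases hin t ht with rfl | rfl <;> simp [hw'])] at h3
    linarith
  · rw [hK_al H (P.al5 hk1 hkh), sub_sub_cancel]
    obtain ⟨w, -, hw, -, hg⟩ := H.pos_near (w0 := ![100, 50, -50, 0, -200, 0, 0, 50, 1000])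
      (η := 1 / 100) (by norm_num) (by constructor <;> simp only [Matrix.cons_val] <;> norm_num)
      (N := univ) (by simp)
    have b0 := nbd hw 0
    have b2 := nbd hw 2
    have b3 := nbd hw 3
    have b7 := nbd hw 7
    have b8 := nbd hw 8
    simp only [Matrix.cons_val] at b0 b2 b3 b7 b8
    obtain ⟨Ru, hRu⟩ := hg (c 3)
    have hq3 := P.xpt H hk h hRu (fun h => absurd h hk1) (fun _ => by
      linarith [b2.2, b3.1])
    set w' : V9 := ![w 0, 50, w 2, w 3, -200, 50 + w 3, 0, w 7, w 8] with hw'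
    have hgen : GenZ φ (fun _ => False) w' := P.gen H (w1 := w) (w2 := w) (w3 := w)
      (fun _ => ⟨hg _, by simp [hw'], by simp [hw'], fun _ => by simp [hw']⟩)
      (fun h => absurd h hk1) (fun h => absurd h hk1)
      (fun _ => ⟨hg _, by simp [hw'], by simp [hw']⟩) (fun h => absurd h hkh)
    have hone : One 4 w' := by
      refine one_of 4 ?_ ?_ ?_ ?_ ?_ ?_ ?_ ?_ ?_ ?_ <;>
        simp only [hw', Matrix.cons_val, Fin.reduceEq, reduceIte] <;>
        linarith [b0.1, b0.2, b2.1, b2.2, b3.1, b3.2, b7.1, b7.2, b8.1, b8.2]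
    obtain ⟨R', hl, ha, hu⟩ := hgen.lin H hone.leg
    have h3 := h4 w' R' hone hl (ha 1 P.al1)
    have e3 : R' 3 = Ru 3 := hu 3 Ru (hRu.loc H fun t ht => by
      rcases P.par t 3 |>.1 ht with h | ⟨-, h⟩ | ⟨h, -⟩ | ⟨h, -⟩ | ⟨-, h, -⟩ | ⟨h, -⟩
      · subst h; simp [hw']
      · unfold ZK at h; simp at h
      · exact absurd h hk1
      · exact absurd h hk1
      · rcases h with rfl | rfl <;> simp [hw']
      · exact absurd h hkh)
    rw [e3, ha 5 (P.al5 hk1 hkh)] at h3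
    linarith

/-- **nonnegative rates** -/
theorem PlK.pos (P : PlK L k c dl) (H : Cl9 c dl s Λ φ ρ) : (AK c s φ ρ).Pos := by
  have l0 : LegM 0 (![0, 50, 0, 0, 0, 0, 0, 50, 1000] : V9) := by
    constructor <;> simp only [Matrix.cons_val] <;> norm_num
  refine ⟨?_, ?_, ?_, P.al1.nonneg H, ?_, ?_, ?_, le_rfl, le_rfl⟩
  · -- x
    show 0 ≤ xK c φ
    have e0 : φ (c 3) 0 = φ (c 3) ![0, 50, 0, 0, 0, 0, 0, 50, 1000] :=
      H.loc _ _ _ fun t ht => by rcases P.in3 ht with rfl | rfl | rfl | rfl <;> simp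
    have e1 : φ (c 3) (e9 3) = φ (c 3) (![0, 50, 0, 0, 0, 0, 0, 50, 1000] + (1:ℝ) • e9 3) :=
      H.loc _ _ _ fun t ht => by rcases P.in3 ht with rfl | rfl | rfl | rfl <;> simp [e9]
    have m1 := H.incr_cost (t := 3) (y := 1) zero_le_one l0
      (by constructor <;> vx <;> norm_num)
    unfold xK
    rw [e0, e1]
    simp only [cst, Matrix.cons_val] at m1
    linarith
  · -- n
    show 0 ≤ nK c φ
    have e0 : φ (c 4) (e9 3 + e9 6) = φ (c 4) ![0, 50, 2, 1, 0, 0, 1, 50, 1000] :=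
      H.loc _ _ _ fun t ht => by rcases P.in4 ht with rfl | rfl | rfl <;> simp [e9]
    have e1 : φ (c 4) (e9 3 + e9 6 + (2:ℝ) • e9 4) =
        φ (c 4) (![0, 50, 2, 1, 0, 0, 1, 50, 1000] + (2:ℝ) • e9 4) :=
      H.loc _ _ _ fun t ht => by rcases P.in4 ht with rfl | rfl | rfl <;> simp [e9]
    have m1 := H.incr_cost (t := 4) (w := ![0, 50, 2, 1, 0, 0, 1, 50, 1000]) (y := 2)
      zero_le_two (by constructor <;> vx <;> norm_num) (by constructor <;> vx <;> norm_num)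
    unfold nK
    rw [e0, e1]
    simp only [cst, Matrix.cons_val] at m1
    linarith
  · -- h
    show 0 ≤ hK c φ
    have e0 : φ (c 5) (e9 6) = φ (c 5) ![0, 50, 0, 0, 0, 0, 1, 50, 1000] :=
      H.loc _ _ _ fun t ht => by rcases P.in5 ht with rfl | rfl | rfl <;> simp [e9]
    have e1 : φ (c 5) (e9 6 + (2:ℝ) • e9 5) =
        φ (c 5) (![0, 50, 0, 0, 0, 0, 1, 50, 1000] + (2:ℝ) • e9 5) :=
      H.loc _ _ _ fun t ht => by rcases P.in5 ht with rfl | rfl | rfl <;> simp [e9]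
    have m1 := H.incr_cost (t := 5) (w := ![0, 50, 0, 0, 0, 0, 1, 50, 1000]) (y := 2)
      zero_le_two (by constructor <;> vx <;> norm_num) (by constructor <;> vx <;> norm_num)
    unfold hK
    rw [e0, e1]
    simp only [cst, Matrix.cons_val] at m1
    linarith
  · -- r
    show 0 ≤ rK c φ
    have e0 : φ (c 2) (e9 3 + (2:ℝ) • e9 5) = φ (c 2) ![0, 50, 0, 1, 0, 2, 0, 50, 1000] :=
      H.loc _ _ _ fun t ht => by rcases P.in2 ht with rfl | rfl | rfl <;> simp [e9]
    have e1 : φ (c 2) (e9 3 + (2:ℝ) • e9 5 + (2:ℝ) • e9 2) =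
        φ (c 2) (![0, 50, 0, 1, 0, 2, 0, 50, 1000] + (2:ℝ) • e9 2) :=
      H.loc _ _ _ fun t ht => by rcases P.in2 ht with rfl | rfl | rfl <;> simp [e9]
    have m1 := H.incr_nonneg (w := ![0, 50, 0, 1, 0, 2, 0, 50, 1000])
      (w' := ![0, 50, 0, 1, 0, 2, 0, 50, 1000] + (2:ℝ) • e9 2)
      (by constructor <;> vx <;> norm_num) (by constructor <;> vx <;> norm_num) (c 2)
      (fun i hi => add_e9_ne fun h => hi (by rw [h])) (le_add_e9 zero_le_two)
    unfold rK
    rw [e0, e1]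
    linarith
  · -- e
    show 0 ≤ ρ 0 - (1 - s)
    linarith [H.own]
  · -- w
    show 0 ≤ wK c φ
    have e0 : φ (c 6) (e9 3) = φ (c 6) ![0, 50, 0, 1, 0, 0, 0, 50, 1000] :=
      H.loc _ _ _ fun t ht => by rcases P.in6 ht with rfl | rfl | rfl | rfl <;> simp [e9]
    have e1 : φ (c 6) (e9 3 + e9 6) =
        φ (c 6) (![0, 50, 0, 1, 0, 0, 0, 50, 1000] + (1:ℝ) • e9 6) :=
      H.loc _ _ _ fun t ht => by rcases P.in6 ht with rfl | rfl | rfl | rfl <;> simp [e9]
    have m1 := H.incr_nonneg (w := ![0, 50, 0, 1, 0, 0, 0, 50, 1000])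
      (w' := ![0, 50, 0, 1, 0, 0, 0, 50, 1000] + (1:ℝ) • e9 6)
      (by constructor <;> vx <;> norm_num) (by constructor <;> vx <;> norm_num) (c 6)
      (fun i hi => add_e9_ne fun h => hi (by rw [h])) (le_add_e9 zero_le_one)
    unfold wK
    rw [e0, e1]
    linarith

/-- **the fan of `C_a`** -/
theorem PlK.fanA (P : PlK L k c dl) (H : Cl9 c dl s Λ φ ρ) (hk : 0 < k) (hs0 : 0 ≤ s)
    (hs : s ≤ 1) {Sk : V9 → Prop} (F : Fct9 Sk s Λ)
    (hSk : ∀ w, w 7 < k * w 0 → w 8 < (k - 1) * w 0 → Sk w) : (AK c s φ ρ).FanA s := by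
  have hP := P.pos H
  have kx : 0 < ρ 1 → XW k Λ ρ (1 - s) := fun hm w R h1 h7 h8 hl hR =>
    F.K1 w R h1 (hSk w h7 h8) hl (by rw [hR]; exact hm)
  have fx : s < ρ 1 → XW k Λ ρ 1 := fun hm w R h1 h7 h8 hl hR =>
    F.F1 w R h1 (hSk w h7 h8) hl (by rw [hR]; exact hm)
  have hh : 0 < ρ 1 → ∀ w R, One 4 w → LinS ∅ Λ w R → R 1 = ρ 1 → R 3 ≤ R 5 :=
    fun hm w R h1 hl hR => F.H1 w R h1 hl (by rw [hR]; exact hm)
  refine ⟨fun hm => ?_, fun hm => ?_, fun hm => ?_, fun hm => ?_⟩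
  · have := P.xge H hk (by linarith) (kx hm)
    show xK c φ ≤ s
    linarith
  · have := P.hge H hk (by linarith) (kx hm) (hh hm)
    show hK c φ ≤ s
    linarith
  · have h1 := P.xge H hk zero_le_one (fx hm)
    have h2 := hP.x0
    change 0 ≤ xK c φ at h2
    show xK c φ = 0
    linarith
  · have h1 := P.hge H hk zero_le_one (fx hm) (hh (lt_of_le_of_lt hs0 hm))
    have h2 := hP.h0
    change 0 ≤ hK c φ at h2
    show hK c φ = 0
    linarith

end

end Crest.Agent.R116.Tk299
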