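import Crest.Agent.R116.Tq5_126
import Crest.Agent.R116.Tk3_299

/-!
# R116 (K side, ties), the `κ`-plane: tables for `Tk299.PlK`, record identity, D-max row (helper126)

* `tk9_U`, `tk9_D`, `tk8_U`, `tk8_D` : `Tk299.PlK`
* `T9`, `V9`, `T8`, `V8` : `T` and `V` of a plane from `Pd9`, `Pd8`
* `tvK` : `TVk` for `Tk299.AK` from `natK`, `T`, `V`
-/

set_option autoImplicit false
set_option linter.unusedVariables false
set_option linter.unusedSectionVars false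
set_option linter.unusedSimpArgs false

open Set Filter Topology MeasureTheory

namespace Crest.Agent.R116.Ku126

open Crest.Agent.R136
open Crest.Agent.R136.Net191
open Crest.Agent.R138.Ex926 (IsTan)
open Crest.Agent.R116.ChL222
open Crest.Agent.R116.PL504 (eL βL rL)
open Crest.Agent.R116.Sg337 (coneL DL)
open Crest.Agent.R116.RbM219
open Crest.Agent.R116.RbK219 (SOk RS Par dl)
open Crest.Agent.R116.SgO219 (PP)
open Crest.Agent.R116.Kz647
open Crest.Agent.R116.Rcx363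
open Crest.Agent.R116.Pd363
open Crest.Agent.R116.Tq741
open Crest.Agent.R116.Tq126
open Crest.Agent.R116.Tp139
open Dg219 (mw)
open Sl741 (slice xt rs)
open Tie460 (Pl KF' KUp')

section tables

variable {θ θb k : ℝ}

theorem parT (hk : 1 < k) (t t' : Fin 9) : cK9 k t = cK9 k t' ↔ Tk299.PK True k t t' := by
  have h1 : ¬ k = 1 := hk.ne'
  have h3 : ¬ k = 1 / 2 := fun h => by rw [h] at hk; norm_num at hk
  by_cases h2 : k = 2
  · have e : cK9 k = ![0, 1, 2, 2, 4, 5, 6, 0, 0] := by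
      unfold cK9; simp only [if_pos h2, if_neg h1, if_neg h3]
    rw [e]
    simp only [Tk299.PK, Tk299.ZK, h1, h3, eq_true h2, true_and, false_and, or_false, false_or]
    revert t t'
    decide
  · have e : cK9 k = ![0, 1, 2, 3, 4, 5, 6, 0, 0] := by
      unfold cK9; simp only [if_neg h2, if_neg h1, if_neg h3]
    rw [e]
    simp only [Tk299.PK, Tk299.ZK, h1, h3, h2, true_and, false_and, or_false]
    revert t t'
    decide

theorem parF (t t' : Fin 9) : cK k t = cK k t' ↔ Tk299.PK False k t t' := by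
  by_cases h1 : k = 1
  · have h2 : ¬ k = 2 := fun h => by rw [h] at h1; norm_num at h1
    have h3 : ¬ k = 1 / 2 := fun h => by rw [h] at h1; norm_num at h1
    have e : cK k = ![0, 1, 2, 3, 3, 2, 3, 0, 8] := by
      unfold cK; simp only [if_pos h1, if_neg h2]
    rw [e]
    simp only [Tk299.PK, Tk299.ZK, h2, h3, eq_true h1, true_and, false_and, or_false, false_or]
    revert t t'
    decide
  by_cases h2 : k = 2
  · have h3 : ¬ k = 1 / 2 := fun h => by rw [h] at h2; norm_num at h2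
    have e : cK k = ![0, 1, 2, 2, 4, 5, 6, 0, 8] := by
      unfold cK; simp only [if_pos h2, if_neg h1, if_neg h3]
    rw [e]
    simp only [Tk299.PK, Tk299.ZK, h1, h3, eq_true h2, true_and, false_and, or_false, false_or]
    revert t t'
    decide
  by_cases h3 : k = 1 / 2
  · have e : cK k = ![0, 1, 2, 3, 4, 5, 5, 0, 8] := by
      unfold cK; simp only [if_neg h2, if_neg h1, if_pos h3]
    rw [e]
    simp only [Tk299.PK, Tk299.ZK, h1, h2, eq_true h3, true_and, false_and, or_false, false_or]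
    revert t t'
    decide
  · have e : cK k = ![0, 1, 2, 3, 4, 5, 6, 0, 8] := by
      unfold cK; simp only [if_neg h2, if_neg h1, if_neg h3]
    rw [e]
    simp only [Tk299.PK, Tk299.ZK, h1, h2, h3, true_and, false_and, or_false, false_or]
    revert t t'
    decide

/-- entries of `dl` on `kU9` -/
theorem dU9 (hb : θb = 2 * θ - k) :
    dl (nat9 1 (-θ) (-θb)) kU9 1 0 = 1 ∧ dl (nat9 1 (-θ) (-θb)) kU9 1 7 = k ∧
    dl (nat9 1 (-θ) (-θb)) kU9 1 8 = k - 1 ∧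
    dl (nat9 1 (-θ) (-θb)) kU9 1 5 = 2 ∧ dl (nat9 1 (-θ) (-θb)) kU9 1 6 = 1 ∧
    dl (nat9 1 (-θ) (-θb)) kU9 1 2 = 2 ∧ dl (nat9 1 (-θ) (-θb)) kU9 1 3 = 1 ∧
    dl (nat9 1 (-θ) (-θb)) kU9 1 4 = 2 := by
  refine ⟨?_, ?_, ?_, ?_, ?_, ?_, ?_, ?_⟩ <;> unfold dl
  · rw [if_pos (by ev9)]; ev9
  · rw [if_pos (by ev9; norm_num)]; ev9; linarith
  · rw [if_pos (by ev9; norm_num)]; ev9; linarith
  · rw [if_neg (by ev9; norm_num)]; ev9; norm_num
  · rw [if_neg (by ev9; norm_num)]; ev9; norm_num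
  · rw [if_neg (by ev9; norm_num)]; ev9; norm_num
  · rw [if_neg (by ev9; norm_num)]; ev9; norm_num
  · rw [if_neg (by ev9; norm_num)]; ev9; norm_num

/-- entries of `dl` on `kD9` -/
theorem dD9 (hb : θb = 2 * θ - k) :
    dl (nat9 1 (-θ) (-θb)) kD9 (-1) 0 = 1 ∧ dl (nat9 1 (-θ) (-θb)) kD9 (-1) 7 = k ∧
    dl (nat9 1 (-θ) (-θb)) kD9 (-1) 8 = k - 1 ∧
    dl (nat9 1 (-θ) (-θb)) kD9 (-1) 5 = 2 ∧ dl (nat9 1 (-θ) (-θb)) kD9 (-1) 6 = 1 ∧
    dl (nat9 1 (-θ) (-θb)) kD9 (-1) 2 = 2 ∧ dl (nat9 1 (-θ) (-θb)) kD9 (-1) 3 = 1 ∧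
    dl (nat9 1 (-θ) (-θb)) kD9 (-1) 4 = 2 := by
  refine ⟨?_, ?_, ?_, ?_, ?_, ?_, ?_, ?_⟩ <;> unfold dl
  · rw [if_pos (by ev9)]; ev9
  · rw [if_pos (by ev9; norm_num)]; ev9; linarith
  · rw [if_pos (by ev9; norm_num)]; ev9; linarith
  · rw [if_neg (by ev9; norm_num)]; ev9; norm_num
  · rw [if_neg (by ev9; norm_num)]; ev9; norm_num
  · rw [if_neg (by ev9; norm_num)]; ev9; norm_num
  · rw [if_neg (by ev9; norm_num)]; ev9; norm_num
  · rw [if_neg (by ev9; norm_num)]; ev9; norm_num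

theorem tk9_U (hk : 1 < k) (hb : θb = 2 * θ - k) :
    Tk299.PlK True k (cK9 k) (dl (nat9 1 (-θ) (-θb)) kU9 1) := by
  obtain ⟨d0, d7, d8, d5, d6, d2, d3, d4⟩ := dU9 hb
  have h1 : ¬ k = 1 := hk.ne'
  refine ⟨parT hk, ?_, fun _ => ?_, fun h => absurd h h1, fun h => absurd h h1,
    fun h => absurd h h1, fun _ => ?_, fun _ => ?_⟩
  · rw [d7, d0, mul_one]
  · rw [d8, d0, mul_one]
  · rw [d2, d3, mul_one]
  · rw [d5, d6, mul_one]

theorem tk9_D (hk : 1 < k) (hb : θb = 2 * θ - k) :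
    Tk299.PlK True k (cK9 k) (dl (nat9 1 (-θ) (-θb)) kD9 (-1)) := by
  obtain ⟨d0, d7, d8, d5, d6, d2, d3, d4⟩ := dD9 hb
  have h1 : ¬ k = 1 := hk.ne'
  refine ⟨parT hk, ?_, fun _ => ?_, fun h => absurd h h1, fun h => absurd h h1,
    fun h => absurd h h1, fun _ => ?_, fun _ => ?_⟩
  · rw [d7, d0, mul_one]
  · rw [d8, d0, mul_one]
  · rw [d2, d3, mul_one]
  · rw [d5, d6, mul_one]

theorem tk8_U (hb : θb = 2 * θ - k) :
    Tk299.PlK False k (cK k) (sn8 (dl (nat8 1 (-θ) (-θb)) kU 1) 1) := by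
  obtain ⟨e0, -, e2, e3, e4, e5, e6, e7, -⟩ := sn8_at (dl (nat8 1 (-θ) (-θb)) kU 1) 1
  obtain ⟨d0, d7, d5, d6, d2, d3, d4⟩ := dU8 hb
  refine ⟨parF, ?_, fun h => h.elim, fun _ => ?_, fun _ => ?_, fun _ => ?_, fun _ => ?_,
    fun _ => ?_⟩
  · rw [e7, e0, d7, d0, mul_one]
  · rw [e5, e2, d5, d2]
  · rw [e4, e3, d4, d3, mul_one]
  · rw [e6, e3, d6, d3]
  · rw [e2, e3, d2, d3, mul_one]
  · rw [e5, e6, d5, d6, mul_one]

theorem tk8_D (hb : θb = 2 * θ - k) :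
    Tk299.PlK False k (cK k) (sn8 (dl (nat8 1 (-θ) (-θb)) kD (-1)) 1) := by
  obtain ⟨e0, -, e2, e3, e4, e5, e6, e7, -⟩ := sn8_at (dl (nat8 1 (-θ) (-θb)) kD (-1)) 1
  obtain ⟨d0, d7, d5, d6, d2, d3, d4⟩ := dD8 hb
  refine ⟨parF, ?_, fun h => h.elim, fun _ => ?_, fun _ => ?_, fun _ => ?_, fun _ => ?_,
    fun _ => ?_⟩
  · rw [e7, e0, d7, d0, mul_one]
  · rw [e5, e2, d5, d2]
  · rw [e4, e3, d4, d3, mul_one]
  · rw [e6, e3, d6, d3]
  · rw [e2, e3, d2, d3, mul_one]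
  · rw [e5, e6, d5, d6, mul_one]

end tables

/-! ### `T` and `V` -/

section rec8

variable {R s : ℝ} {a b : Fin 2} {Vis : Fin 12 → Prop} {θa θb g qa qb t l α v c p : ℝ}
    {T : Type*} {Bs : T → Fin 8 → ℝ} {sgs : T → ℝ} {f : Fin 2 → (Fin 12 → ℝ) → ℝ}
    {x0 : Fin 12 → ℝ} {x : ℕ → Fin 12 → ℝ} {hh h' : ℕ → ℝ} {lam lam2 : Fin 2 → (Fin 12 → ℝ) → ℝ}
    {B : Fin 8 → ℝ} {sg κ : ℝ} {ρ ρ2 : Fin 8 → ℝ}

theorem cut_nat (v c p : ℝ) : (fun i : Fin 8 => nat9 v c p i.castSucc) = nat8 v c p := by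
  funext i
  fin_cases i <;> rfl

/-- record identity, `D` frozen -/
theorem T8 (O : Out8 R s a b Vis θa θb g qa qb t Bs sgs x0 f x hh lam)
    (P : Half8 θa θb t B sg lam 0 ρ κ l α h' lam2 ρ2) :
    lam2 0 (xt kp 0 (RL8.vec (fun i : Fin 8 => nat9 1 (-θa) (-θb) i.castSucc))) =
      DL g s qa qb 1 (-θa) (-θb) := by
  rw [cut_nat]
  have h1 := P.rcd 1
  rw [one_smul] at h1
  have h2 := O.rx.rcd 1
  rw [mul_one, mul_one] at h2
  have e0 : xt kp 0 (0 : K8 → ℝ) = (0 : Fin 12 → ℝ) := by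
    funext k
    by_cases hk : kp k
    · rw [Sl741.xt_in (p := kp) _ _ hk]; rfl
    · rw [Sl741.xt_off (p := kp) _ _ hk]
  rw [h1, e0, O.zero 0, sub_zero, ← h2]
  exact congrArg (lam 0) (b8_nat 1 (-θa) (-θb))

/-- D-max row, `D` frozen -/
theorem V8 (P : Half8 θa θb t (nat8 v c p) sg lam 0 ρ (DL g s qa qb v c p) l α h' lam2 ρ2) :
    lam2 0 (xt kp 0 (RL8.vec (fun i : Fin 8 => nat9 v c p i.castSucc))) ≤
      DL g s qa qb v c p := by
  rw [cut_nat]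
  exact P.row

end rec8

section rec9

variable {R s : ℝ} {a b : Fin 2} {Vis : Fin 12 → Prop} {θa θb g qa qb l α v c p : ℝ}
    {T : Type*} {Bs : T → Fin 9 → ℝ} {sgs : T → ℝ} {f : Fin 2 → (Fin 12 → ℝ) → ℝ}
    {x0 : Fin 12 → ℝ} {x : ℕ → Fin 12 → ℝ} {hh h' : ℕ → ℝ} {lam lam2 : Fin 2 → (Fin 12 → ℝ) → ℝ}
    {B : Fin 9 → ℝ} {sg κ : ℝ} {ρ ρ2 : Fin 9 → ℝ}

/-- record identity, `D` live -/
theorem T9 (O : Out9 R s a b Vis θa θb g qa qb Bs sgs x0 f x hh lam)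
    (P : Half9 θa θb B sg lam 0 ρ κ l α h' lam2 ρ2) :
    lam2 0 (RL9.vec (nat9 1 (-θa) (-θb))) = DL g s qa qb 1 (-θa) (-θb) := by
  have h1 := P.rcd 1
  rw [one_smul] at h1
  have h2 := O.rx.rcd 1
  rw [mul_one, mul_one] at h2
  rw [h1, O.zero 0, sub_zero, ← h2]
  exact congrArg (lam 0) (RL9_nat 1 (-θa) (-θb))

/-- D-max row, `D` live -/
theorem V9r (P : Half9 θa θb (nat9 v c p) sg lam 0 ρ (DL g s qa qb v c p) l α h' lam2 ρ2) :
    lam2 0 (RL9.vec (nat9 v c p)) ≤ DL g s qa qb v c p := P.row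

end rec9

/-! ### `TVk` for 299's letters -/

section tv

variable {c : Fin 9 → Fin 9} {dl : V9} {s : ℝ} {Λ : V9 → ℝ} {φ : Fin 9 → V9 → ℝ} {ρ : V9}
  {L : Prop} {k θ g qa qb v a : ℝ}

theorem tvK (H : Cl9 c dl s Λ φ ρ) (P : Tk299.PlK L k c dl) (hL : ¬ L → ρ 8 = 0)
    (T : Λ (nat9 1 (-θ) (-(2 * θ - k))) = DL g s qa qb 1 (-θ) (-(2 * θ - k)))
    (V : Λ (nat9 v a (2 * a + k * v)) ≤ DL g s qa qb v a (2 * a + k * v)) :
    TVk k θ s g qa qb v a (Tk299.AK c s φ ρ) where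
  T := by
    have h1 := Tk299.natK H P 1 (-θ) hL
    have e : 2 * (-θ) + k * 1 = -(2 * θ - k) := by ring
    rw [e, T] at h1
    unfold Tk299.AK
    simp only
    unfold DL at h1
    linarith
  V := by
    have h1 := Tk299.natK H P v a hL
    rw [h1] at V
    unfold Tk299.AK
    simp only
    unfold DL at V
    linarith

end tv

end Crest.Agent.R116.Ku126
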