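import Crest.Agent.R116.Tq1_741

/-!
# R116 (K side, ties), own-strip facts at a tied base (helper741)

Replaces the two last structures of `Tq1_741`: the wall of the fact is tight, the other windows are
open, the tied flag sits on its natural value.

* `FctE k Λ`  : (W3), (W2) at an `e`-tie
* `FctK k Λ`  : (W3k) at a `κ`-tie, `D` frozen;  `FctK9 k Λ` : `D` live
* `LinP`      : `LinS` with a named `Ψ`;  `K3E s Λ` : (K3) at an `e`-tie with `k = 1`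
-/

set_option autoImplicit false

open Set Filter Topology

namespace Crest.Agent.R116.Tq741

/-- own-strip facts at an `e`-tie (`B` tied); class `{z, B}` -/
structure FctE (k : ℝ) (Λ : V9 → ℝ) : Prop where
  W3 : ∀ w R, One 5 w → w 6 = k * w 0 → LinS {0, 6} Λ w R → R 1 ≤ R 2
  W2 : ∀ w R, One 8 w → w 6 = k * w 0 → LinS {0, 6} Λ w R → R 3 ≤ R 4

/-- own-strip fact at a `κ`-tie, `D` frozen; class `{z, G}` -/
structure FctK (k : ℝ) (Λ : V9 → ℝ) : Prop where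
  W3 : ∀ w R, One 2 w → w 7 = k * w 0 → LinS {0, 7} Λ w R → R 1 ≤ R 6

/-- own-strip fact at a `κ`-tie, `D` live; class `{z, G, D}` -/
structure FctK9 (k : ℝ) (Λ : V9 → ℝ) : Prop where
  W3 : ∀ w R, gap w 0 = 0 → gap w 1 = 0 → gap w 2 = 0 → gap w 3 = 0 →
    (∀ i : Fin 10, 4 ≤ i → 0 < gap w i) → w 7 = k * w 0 → w 8 = (k - 1) * w 0 →
    LinS {0, 7, 8} Λ w R → R 1 ≤ R 6

/-- `LinS` with the function `Ψ` of the slots of `Z` named -/
def LinP (Z : Finset (Fin 9)) (Λ : V9 → ℝ) (w : V9) (Ψ : V9 → ℝ) (R : V9) : Prop :=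
  ∃ h : ℕ → ℝ, (∀ m, 0 < h m) ∧ Tendsto h atTop (𝓝 0) ∧
    (∀ d d', (∀ t ∈ Z, d t = d' t) → LegM 0 d → LegM 0 d' → Ψ d = Ψ d') ∧
    ∀ d, LegM 0 d → Tendsto (fun m => (Λ (w + h m • d) - Λ w) / h m) atTop
      (𝓝 (-(Ψ d + ∑ t ∈ Zᶜ, R t * d t)))

/-- (K3) at an `e`-tie with `k = 1` (classes `{z, B}`, `{C_b, X}`), `D` frozen; the base of use is
`![0, 0, 0, 0, 0, -1, 0, 10, 100]`; `y • (e9 1 + e9 3)` = `X` alone finer by `y` -/
def K3E (s : ℝ) (Λ : V9 → ℝ) : Prop :=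
  ∀ (w : V9) (Ψ : V9 → ℝ) (R : V9),
    gap w 1 = 0 → gap w 5 = 0 → gap w 7 = 0 → gap w 8 = 0 →
    0 < gap w 0 → 0 < gap w 2 → 0 < gap w 3 → 0 < gap w 4 → 0 < gap w 6 → 0 < gap w 9 →
    w 6 = w 0 → LinP {0, 2, 3, 6} Λ w Ψ R → 0 < R 1 →
    (∀ y, 0 ≤ y → (1 - s) * y ≤ Ψ (y • (e9 1 + e9 3))) → 1 - s ≤ R 4

end Crest.Agent.R116.Tq741
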