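import Crest.Agent.R116.Tm1_741
import Crest.Agent.R116.Tq4_741

/-!
# R116 (K side, ties): rates and facts of the plane below the record, `e`-tie (helper741)

* `GenZ`, `Cl9.genZ`, `GenZ.rates`, `GenZ.lin` : generic points assembled class by class
* `Cl9.pos_gt'`, `Al.nonneg`, `Al.le_cst`
* `eX` (wall of `X`), `eN` (wall of `N`), `eH` (wall of `H`), `eW3`, `eW2`, `eK3` : the positions
-/

set_option autoImplicit false
set_option linter.unusedSectionVars false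
set_option linter.unusedVariables false

open Set Filter Topology Metric MeasureTheory
open scoped NNReal

namespace Crest.Agent.R116.Tq741

open Tie460 (Pl EF KF)
open RbM219 (nat9)
open Sg337 (DL)

variable {c : Fin 9 → Fin 9} {dl : V9} {s : ℝ} {Λ : V9 → ℝ} {φ : Fin 9 → V9 → ℝ} {ρ : V9}

/-- a strictly legal vector -/
def wB : V9 := ![0, 50, 0, 0, -200, 0, -1, 50, 1000]

/-- evaluation of explicit vectors -/
macro "vv" : tactic => `(tactic| simp only [Matrix.cons_val, Pi.add_apply, Pi.smul_apply,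
  smul_eq_mul, e9, Pi.single_apply, wB, Fin.reduceEq, reduceIte, mul_one, mul_zero, add_zero])

/-- alone in its class -/
def Al (c : Fin 9 → Fin 9) (t : Fin 9) : Prop := ∀ t', c t' = c t → t' = t

/-- every class outside `Zc` has its rates -/
def GenZ (φ : Fin 9 → V9 → ℝ) (Zc : Fin 9 → Prop) (w : V9) : Prop :=
  ∀ k, ¬ Zc k → ∃ R, RtAt (φ k) w R

theorem Cl9.genZ (H : Cl9 c dl s Λ φ ρ) {Zc : Fin 9 → Prop} {w' : V9}
    (h : ∀ t, ¬ Zc (c t) → Al c t ∨ ∃ w R, RtAt (φ (c t)) w R ∧ ∀ t', c t' = c t → w' t' = w t') :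
    GenZ φ Zc w' := by
  intro k hk
  by_cases hk' : ∃ t, c t = k
  · obtain ⟨t, rfl⟩ := hk'
    rcases h t hk with h1 | ⟨w, R, hR, h2⟩
    · exact ⟨_, H.rt_alone h1 w'⟩
    · exact ⟨R, hR.loc H h2⟩
  · push Not at hk'
    exact ⟨_, H.rt_or (fun t t' ht => absurd ht (hk' t)) w'⟩

/-- the rates of a generic point -/
theorem GenZ.rates (H : Cl9 c dl s Λ φ ρ) {Zc : Fin 9 → Prop} {w : V9} (hg : GenZ φ Zc w) :
    ∃ R : V9, Rts c φ Zc w R ∧ (∀ t, ¬ Zc (c t) → Al c t → R t = ρ t) ∧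
      ∀ t R', ¬ Zc (c t) → RtAt (φ (c t)) w R' → R t = R' t := by
  classical
  set Rk : Fin 9 → V9 := fun k => if hk : ¬ Zc k then (hg k hk).choose else 0 with hRk
  have h1 : ∀ k, ¬ Zc k → RtAt (φ k) w (Rk k) := by
    intro k hk
    simp only [hRk]
    rw [dif_pos hk]
    exact (hg k hk).choose_spec
  refine ⟨fun t => Rk (c t) t, Rts.of H h1, fun t hk ht => ?_, fun t R' hk hR' => ?_⟩
  · have h2 := (h1 (c t) hk).uniq (H.rt_alone ht w)
    show Rk (c t) t = ρ t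
    rw [h2]; simp
  · show Rk (c t) t = R' t
    rw [(h1 (c t) hk).uniq hR']

/-- linear point, no class left out -/
theorem GenZ.lin (H : Cl9 c dl s Λ φ ρ) {w : V9} (hw : LegM 0 w)
    (hg : GenZ φ (fun _ => False) w) : ∃ R : V9, LinS ∅ Λ w R ∧ (∀ t, Al c t → R t = ρ t) ∧
      ∀ t R', RtAt (φ (c t)) w R' → R t = R' t := by
  obtain ⟨R, h1, h2, h3⟩ := hg.rates H
  exact ⟨R, H.lin0 hw h1, fun t ht => h2 t not_false ht, fun t R' hR => h3 t R' not_false hR⟩

/-- linear point, the class `kz` left out -/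
theorem GenZ.linZ (H : Cl9 c dl s Λ φ ρ) {w : V9} (hw : LegM 0 w) {kz : Fin 9}
    {Z : Finset (Fin 9)} (hZ : ∀ t, t ∈ Z ↔ c t = kz)
    (hg : GenZ φ (fun k => k = kz) w) : ∃ R : V9, LinS Z Λ w R ∧
      (∀ t, t ∉ Z → Al c t → R t = ρ t) ∧
      ∀ t R', t ∉ Z → RtAt (φ (c t)) w R' → R t = R' t := by
  obtain ⟨R, h1, h2, h3⟩ := hg.rates H
  exact ⟨R, H.linZ hZ hw h1, fun t hn ht => h2 t (fun h => hn ((hZ t).2 h)) ht,
    fun t R' hn hR => h3 t R' (fun h => hn ((hZ t).2 h)) hR⟩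

theorem norm_e9_smul (t : Fin 9) {y : ℝ} (hy : 0 ≤ y) : ‖y • e9 t‖ ≤ y := by
  rw [pi_norm_le_iff_of_nonneg hy]
  intro i
  rw [Pi.smul_apply, smul_eq_mul]
  by_cases hi : i = t
  · subst hi; rw [e9_same, mul_one, Real.norm_eq_abs, abs_of_nonneg hy]
  · rw [e9_ne hi, mul_zero, norm_zero]; exact hy

/-- `pos_gt` away from the ends of the path -/
theorem Cl9.pos_gt' (H : Cl9 c dl s Λ φ ρ) {t : Fin 9} {w0 : V9} {y q m : ℝ} (hy : 0 < y)
    (hm : 0 < m) (h0 : LegM m w0) (h1 : LegM m (w0 + y • e9 t))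
    (hq : q * y < φ (c t) w0 - φ (c t) (w0 + y • e9 t)) {N : Set V9} (hN : ∀ᵐ u, u ∈ N) :
    ∃ δ : ℝ, 0 < δ ∧ δ ≤ m ∧ ∃ x ∈ Ioo δ (y - δ), ∃ w ∈ N, ‖w - (w0 + x • e9 t)‖ < δ / 100 ∧
      LegM 0 w ∧ ∃ R, RtAt (φ (c t)) w R ∧ q < R t := by
  set I := φ (c t) w0 - φ (c t) (w0 + y • e9 t) with hI
  set Cc : ℝ := |cst t - q| + 1 with hCc
  have hCc0 : 0 < Cc := by positivity
  obtain ⟨δ, hδ, hδm, hδy, h2⟩ : ∃ δ : ℝ, 0 < δ ∧ δ ≤ m ∧ 4 * δ < y ∧
      4 * Cc * δ ≤ I - q * y := by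
    have h3 : 0 < (I - q * y) / (4 * Cc) := div_pos (by linarith) (by positivity)
    refine ⟨min m (min (y / 8) ((I - q * y) / (4 * Cc))), lt_min hm (lt_min (by positivity) h3),
      min_le_left _ _, ?_, ?_⟩
    · have := (min_le_right m (min (y / 8) ((I - q * y) / (4 * Cc)))).trans (min_le_left _ _)
      linarith
    · have h4 := (min_le_right m (min (y / 8) ((I - q * y) / (4 * Cc)))).trans (min_le_right _ _)
      rw [le_div_iff₀ (by positivity)] at h4
      linarith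
  refine ⟨δ, hδ, hδm, ?_⟩
  have a0 : LegM m (w0 + δ • e9 t) := h0.seg h1 hδ.le (by linarith)
  have e1 : w0 + δ • e9 t + (y - 2 * δ) • e9 t = w0 + (y - δ) • e9 t := by
    rw [add_assoc, ← add_smul]; congr 2; ring
  have a1 : LegM m (w0 + δ • e9 t + (y - 2 * δ) • e9 t) := by
    rw [e1]; exact h0.seg h1 (by linarith) (by linarith)
  have a2 : LegM m (w0 + (y - δ) • e9 t) := h0.seg h1 (by linarith) (by linarith)
  have e3 : w0 + y • e9 t = w0 + (y - δ) • e9 t + δ • e9 t := by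
    rw [add_assoc, ← add_smul]; congr 2; ring
  have b1 := H.incr_cost (t := t) hδ.le (h0.mono hm.le) (a0.mono hm.le)
  have b2 := H.incr_cost (t := t) hδ.le (a2.mono hm.le) (by rw [← e3]; exact h1.mono hm.le)
  rw [← e3] at b2
  have b3 : (cst t - q) ≤ Cc := (le_abs_self _).trans (by linarith)
  have hlt : q * (y - 2 * δ) < φ (c t) (w0 + δ • e9 t) -
      φ (c t) (w0 + δ • e9 t + (y - 2 * δ) • e9 t) := by
    rw [e1]
    have h5 : (cst t - q) * δ ≤ Cc * δ := mul_le_mul_of_nonneg_right b3 hδ.le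
    have h6 : 0 < Cc * δ := by positivity
    nlinarith
  obtain ⟨x, hx, w, hwN, hwx, hwD, R, hR, hlt⟩ := H.pos_gt (t := t) (w0 := w0 + δ • e9 t)
    (y := y - 2 * δ) (q := q) (η := δ / 100) (by linarith) (by positivity)
    (a0.mono (by linarith)) (a1.mono (by linarith)) hlt hN
  refine ⟨δ + x, ⟨by linarith [hx.1], by linarith [hx.2]⟩, w, hwN, ?_, hwD, R, hR, hlt⟩
  rw [add_smul, ← add_assoc]
  exact hwx

theorem leg_wB : LegM 1 wB := by constructor <;> vv <;> norm_num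

theorem leg_wB' (t : Fin 9) : LegM 0 (wB + (1 / 3 : ℝ) • e9 t) := by
  refine leg_wB.ball (η := 1 / 3) (by norm_num) ?_
  rw [add_sub_cancel_left]
  exact norm_e9_smul t (by norm_num)

theorem Al.nonneg (H : Cl9 c dl s Λ φ ρ) {t : Fin 9} (h : Al c t) : 0 ≤ ρ t := by
  have h1 := H.incr_nonneg (leg_wB.mono (by norm_num)) (leg_wB' t) (c t)
    (fun i hi => add_e9_ne fun h => hi (by rw [h])) (le_add_e9 (by norm_num))
  rw [H.rate t _ fun t' ht' => by rw [h t' ht'], H.rate t _ fun t' ht' => by rw [h t' ht'],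
    add_e9_same] at h1
  nlinarith

theorem Al.le_cst (H : Cl9 c dl s Λ φ ρ) {t : Fin 9} (h : Al c t) : ρ t ≤ cst t := by
  have h1 := H.incr_cost (t := t) (y := 1 / 3) (by norm_num) (leg_wB.mono (by norm_num)) (leg_wB' t)
  rw [H.rate t _ fun t' ht' => by rw [h t' ht'], H.rate t _ fun t' ht' => by rw [h t' ht'],
    add_e9_same] at h1
  nlinarith

section

variable {k : ℝ}

theorem PlE.al1 (P : PlE k c dl) : Al c 1 := P.al (Or.inl rfl)
theorem PlE.al4 (P : PlE k c dl) : Al c 4 := P.al (Or.inr (Or.inl rfl))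
theorem PlE.al7 (P : PlE k c dl) : Al c 7 := P.al (Or.inr (Or.inr (Or.inl rfl)))
theorem PlE.al8 (P : PlE k c dl) : Al c 8 := P.al (Or.inr (Or.inr (Or.inr rfl)))

/-- the class of `z` -/
theorem PlE.hZ (P : PlE k c dl) (t : Fin 9) : t ∈ ({0, 6} : Finset (Fin 9)) ↔ c t = c 0 := by
  rw [P.z]; simp

/-- generic points of the `e`-plane from pieces: `w1` for `{z, B}`, `w2` for `{C_b, X, H}` -/
theorem PlE.gen (P : PlE k c dl) (H : Cl9 c dl s Λ φ ρ) {w' w1 w2 : V9}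
    (h1 : ∃ R, RtAt (φ (c 0)) w1 R) (e0 : w' 0 = w1 0) (e6 : w' 6 = w1 6)
    (h2 : (Al c 2 ∧ Al c 3 ∧ Al c 5) ∨ ((∃ R, RtAt (φ (c 2)) w2 R) ∧ w' 2 = w2 2 ∧
      (k = 1 → w' 3 = w2 3) ∧ (k = 1 / 2 → w' 5 = w2 5))) : GenZ φ (fun _ => False) w' := by
  have key0 : ∀ t', c t' = c 0 → w' t' = w1 t' := fun t' ht' => by
    rcases P.z.1 ht' with rfl | rfl
    · exact e0
    · exact e6
  have key2 : ((∃ R, RtAt (φ (c 2)) w2 R) ∧ w' 2 = w2 2 ∧
      (k = 1 → w' 3 = w2 3) ∧ (k = 1 / 2 → w' 5 = w2 5)) →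
      ∃ R, RtAt (φ (c 2)) w2 R ∧ ∀ t', c t' = c 2 → w' t' = w2 t' := by
    rintro ⟨⟨R, hR⟩, f2, f3, f5⟩
    refine ⟨R, hR, fun t' ht' => ?_⟩
    rcases P.k2 ht' with rfl | rfl | rfl
    · exact f2
    · refine f3 ?_
      by_contra hk
      exact absurd (P.al3 hk 2 ht'.symm) (by decide)
    · refine f5 ?_
      by_contra hk
      exact absurd (P.al5 hk 2 ht'.symm) (by decide)
  refine H.genZ fun t _ => ?_
  obtain ⟨R1, hR1⟩ := h1
  by_cases h0 : c t = c 0
  · exact Or.inr ⟨w1, R1, by rw [h0]; exact hR1, fun t' ht' => key0 t' (ht'.trans h0)⟩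
  by_cases ht2 : c t = c 2
  · rcases h2 with ⟨a2, -, -⟩ | h2
    · exact Or.inl (by rw [a2 t ht2]; exact a2)
    · obtain ⟨R, hR, hw⟩ := key2 h2
      exact Or.inr ⟨w2, R, by rw [ht2]; exact hR, fun t' ht' => hw t' (ht'.trans ht2)⟩
  · refine Or.inl fun t' ht' => ?_
    have h3 := (P.par t' t).1 ht'
    unfold PE at h3
    rcases h3 with h | ⟨h, h'⟩ | ⟨h, h'⟩ | ⟨hk, ⟨h, h'⟩ | ⟨h, h'⟩⟩ | ⟨hk, ⟨h, h'⟩ | ⟨h, h'⟩⟩
    · exact h
    · subst h'; exact absurd P.c6 h0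
    · subst h'; exact absurd rfl h0
    · subst h'; exact absurd (P.c3 hk) ht2
    · subst h'; exact absurd rfl ht2
    · subst h'; exact absurd (P.c5 hk) ht2
    · subst h'; exact absurd rfl ht2

/-- the same with the class of `z` left out -/
theorem PlE.genz (P : PlE k c dl) (H : Cl9 c dl s Λ φ ρ) {w' w2 : V9}
    (h2 : (Al c 2 ∧ Al c 3 ∧ Al c 5) ∨ ((∃ R, RtAt (φ (c 2)) w2 R) ∧ w' 2 = w2 2 ∧
      (k = 1 → w' 3 = w2 3) ∧ (k = 1 / 2 → w' 5 = w2 5))) : GenZ φ (fun k => k = c 0) w' := by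
  have key2 : ((∃ R, RtAt (φ (c 2)) w2 R) ∧ w' 2 = w2 2 ∧
      (k = 1 → w' 3 = w2 3) ∧ (k = 1 / 2 → w' 5 = w2 5)) →
      ∃ R, RtAt (φ (c 2)) w2 R ∧ ∀ t', c t' = c 2 → w' t' = w2 t' := by
    rintro ⟨⟨R, hR⟩, f2, f3, f5⟩
    refine ⟨R, hR, fun t' ht' => ?_⟩
    rcases P.k2 ht' with rfl | rfl | rfl
    · exact f2
    · refine f3 ?_
      by_contra hk
      exact absurd (P.al3 hk 2 ht'.symm) (by decide)
    · refine f5 ?_
      by_contra hk
      exact absurd (P.al5 hk 2 ht'.symm) (by decide)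
  refine H.genZ fun t h0 => ?_
  by_cases ht2 : c t = c 2
  · rcases h2 with ⟨a2, -, -⟩ | h2
    · exact Or.inl (by rw [a2 t ht2]; exact a2)
    · obtain ⟨R, hR, hw⟩ := key2 h2
      exact Or.inr ⟨w2, R, by rw [ht2]; exact hR, fun t' ht' => hw t' (ht'.trans ht2)⟩
  · refine Or.inl fun t' ht' => ?_
    have h3 := (P.par t' t).1 ht'
    unfold PE at h3
    rcases h3 with h | ⟨h, h'⟩ | ⟨h, h'⟩ | ⟨hk, ⟨h, h'⟩ | ⟨h, h'⟩⟩ | ⟨hk, ⟨h, h'⟩ | ⟨h, h'⟩⟩
    · exact h
    · subst h'; exact absurd P.c6 h0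
    · subst h'; exact absurd rfl h0
    · subst h'; exact absurd (P.c3 hk) ht2
    · subst h'; exact absurd rfl ht2
    · subst h'; exact absurd (P.c5 hk) ht2
    · subst h'; exact absurd rfl ht2

/-- the small radius -/
theorem exists_eta (hk : 0 < k) : ∃ η : ℝ, 0 < η ∧ η ≤ 1 / 100 ∧ k * η ≤ 1 / 100 := by
  refine ⟨1 / (100 * (1 + k)), by positivity, ?_, ?_⟩
  · rw [div_le_div_iff₀ (by positivity) (by norm_num)]; nlinarith
  · rw [mul_one_div, div_le_div_iff₀ (by positivity) (by norm_num)]; nlinarith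

/-- **the wall of `X`, `k = 1`** (`C_b` coarse), any length -/
theorem PlE.eX1 (P : PlE 1 c dl) (H : Cl9 c dl s Λ φ ρ) {q Y : ℝ} (hq : 0 ≤ q) (hY : 0 < Y)
    (h : ∀ w R, One 1 w → w 6 < 1 * w 0 → LinS ∅ Λ w R → R 1 = ρ 1 → q ≤ R 3) :
    q * Y ≤ φ (c 3) 0 - φ (c 3) (0 + Y • e9 3) := by
  have e1 : φ (c 3) 0 - φ (c 3) (0 + Y • e9 3) =
      φ (c 3) ![0, 50 + Y, 0, 0, -200, 0, -1, 50, 1000] -
        φ (c 3) (![0, 50 + Y, 0, 0, -200, 0, -1, 50, 1000] + Y • e9 3) := by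
    rw [H.loc (c 3) 0 ![0, 50 + Y, 0, 0, -200, 0, -1, 50, 1000] fun t ht => by
      rw [P.c3 rfl] at ht
      rcases P.k2 ht with rfl | rfl | rfl
      · simp
      · simp
      · simp,
      H.loc (c 3) (0 + Y • e9 3) (![0, 50 + Y, 0, 0, -200, 0, -1, 50, 1000] + Y • e9 3)
        fun t ht => by
      rw [P.c3 rfl] at ht
      rcases P.k2 ht with rfl | rfl | rfl
      · simp
      · simp
      · simp]
  rw [e1]
  refine H.mv_ge' (t := 3) (w0 := ![0, 50 + Y, 0, 0, -200, 0, -1, 50, 1000]) (y := Y) (q := q)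
    (m := 1) hY one_pos hq (by constructor <;> vv <;> linarith)
    (by constructor <;> vv <;> linarith) (N := univ) (by simp) ?_
  intro δ hδ hδ1 x hx w _ hw _ R hR
  obtain ⟨w1, -, hw1, -, hg1⟩ := H.pos_near (w0 := ![0, 50, 0, 0, -200, 0, -(δ / 10), 50, 1000])
    (η := δ / 100) (by positivity) (by constructor <;> vv <;> norm_num <;> linarith) (N := univ)
    (by simp)
  have b10 := nbd hw1 0
  have b16 := nbd hw1 6
  have b2 := nbd hw 2
  have b3 := nbd hw 3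
  simp only [Matrix.cons_val, Pi.add_apply, Pi.smul_apply, smul_eq_mul, e9, Pi.single_apply,
    Fin.reduceEq, reduceIte, mul_one, mul_zero, add_zero, zero_add] at b10 b16 b2 b3
  set w' : V9 := ![w1 0, w 3 - w1 0, w 2, w 3, -200, -10, w1 6, 50, 1000] with hw'
  have hgen : GenZ φ (fun _ => False) w' := P.gen H (w1 := w1) (w2 := w) (hg1 (c 0))
    (by simp [hw']) (by simp [hw']) (Or.inr ⟨⟨R, by rw [← P.c3 rfl]; exact hR⟩, by simp [hw'],
      fun _ => by simp [hw'], fun h => by norm_num at h⟩)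
  have hone : One 1 w' := by
    refine one_of 1 ?_ ?_ ?_ ?_ ?_ ?_ ?_ ?_ ?_ ?_ <;>
      simp only [hw', Matrix.cons_val, Fin.reduceEq, reduceIte] <;>
      linarith [hx.1, hx.2, b10.1, b10.2, b16.1, b16.2, b2.1, b2.2, b3.1, b3.2]
  obtain ⟨R', hl, ha, hu⟩ := hgen.lin H hone.leg
  have h3 := h w' R' hone (by
    show w' 6 < 1 * w' 0
    simp only [hw', Matrix.cons_val]
    linarith [b10.1, b10.2, b16.1, b16.2]) hl (ha 1 P.al1)
  have h4 := hu 3 R (hR.loc H fun t ht => by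
    rw [P.c3 rfl] at ht
    rcases P.k2 ht with rfl | rfl | rfl
    · simp [hw']
    · simp [hw']
    · exact absurd (P.al5 (by norm_num) 2 ht.symm) (by decide))
  rw [h4] at h3
  exact h3

/-- **the wall of `X`** -/
theorem PlE.eX (P : PlE k c dl) (H : Cl9 c dl s Λ φ ρ) (hk : 0 < k) {q : ℝ} (hq : 0 ≤ q)
    (h : ∀ w R, One 1 w → w 6 < k * w 0 → LinS ∅ Λ w R → R 1 = ρ 1 → q ≤ R 3) :
    q ≤ 1 - xE c φ := by
  by_cases hk1 : k = 1
  · subst hk1
    have := P.eX1 H hq one_pos h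
    unfold xE
    linarith
  · rw [xE_al H (P.al3 hk1)]
    obtain ⟨η, hη, hη1, hη2⟩ := exists_eta hk
    obtain ⟨w, -, hw, -, hg⟩ := H.pos_near (w0 := ![0, 50, 0, 49, -200, 0, -1, 50, 1000])
      hη (by constructor <;> vv <;> norm_num <;> linarith) (N := univ) (by simp)
    have b0 := nbd hw 0
    have b2 := nbd hw 2
    have b3 := nbd hw 3
    have b5 := nbd hw 5
    have b6 := nbd hw 6
    simp only [Matrix.cons_val] at b0 b2 b3 b5 b6
    set w' : V9 := ![w 0, w 3 - w 0, w 2, w 3, -200, w 5, w 6, 50, 1000] with hw'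
    have hgen : GenZ φ (fun _ => False) w' := P.gen H (w1 := w) (w2 := w) (hg (c 0))
      (by simp [hw']) (by simp [hw']) (Or.inr ⟨hg (c 2), by simp [hw'],
        fun _ => by simp [hw'], fun _ => by simp [hw']⟩)
    have hone : One 1 w' := by
      refine one_of 1 ?_ ?_ ?_ ?_ ?_ ?_ ?_ ?_ ?_ ?_ <;>
        simp only [hw', Matrix.cons_val, Fin.reduceEq, reduceIte] <;>
        linarith [b0.1, b0.2, b2.1, b2.2, b3.1, b3.2, b5.1, b5.2, b6.1, b6.2]
    obtain ⟨R', hl, ha, hu⟩ := hgen.lin H hone.leg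
    have h3 := h w' R' hone (by
      show w' 6 < k * w' 0
      simp only [hw', Matrix.cons_val]
      have := mul_le_mul_of_nonneg_left b0.1.le hk.le
      nlinarith [b6.2]) hl (ha 1 P.al1)
    rw [ha 3 (P.al3 hk1)] at h3
    linarith

/-- the base of the paths of `C_b` -/
def wC : V9 := ![0, 50, 0, 1, -200, 0, -1, 50, 1000]

theorem leg_wC : LegM 1 wC := by constructor <;> simp only [wC, Matrix.cons_val] <;> norm_num

theorem leg_wC1 : LegM 1 (wC + (1:ℝ) • e9 2) := by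
  constructor <;> simp only [wC] <;> vv <;> norm_num

theorem PlE.rE_eq (P : PlE k c dl) (H : Cl9 c dl s Λ φ ρ) :
    rE c φ = φ (c 2) wC - φ (c 2) (wC + (1:ℝ) • e9 2) := by
  unfold rE
  rw [H.loc (c 2) (e9 3) wC fun t ht => by
    rcases P.k2 ht with rfl | rfl | rfl <;> simp [wC, e9],
    H.loc (c 2) (e9 3 + (1:ℝ) • e9 2) (wC + (1:ℝ) • e9 2) fun t ht => by
    rcases P.k2 ht with rfl | rfl | rfl <;> simp [wC, e9]]

/-- **the wall of `N`** -/
theorem PlE.eN (P : PlE k c dl) (H : Cl9 c dl s Λ φ ρ) (hk : 0 < k) {q : ℝ} (hq : q < rE c φ)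
    (h : ∀ w R, One 7 w → w 6 < k * w 0 → LinS ∅ Λ w R → R 4 = ρ 4 → q < R 2 → False) :
    False := by
  rw [P.rE_eq H] at hq
  obtain ⟨δ, hδ, hδ1, x, hx, w, -, hw, -, R, hR, hlt⟩ := H.pos_gt' (t := 2) (w0 := wC) (y := 1)
    (q := q) one_pos one_pos leg_wC leg_wC1 (by rw [mul_one]; exact hq) (N := univ) (by simp)
  have b2 := nbd hw 2
  have b3 := nbd hw 3
  have b5 := nbd hw 5
  simp only [wC, Matrix.cons_val, Pi.add_apply, Pi.smul_apply, smul_eq_mul, e9, Pi.single_apply,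
    Fin.reduceEq, reduceIte, mul_one, mul_zero, add_zero, zero_add] at b2 b3 b5
  by_cases hk1 : k = 1
  · subst hk1
    obtain ⟨w1, -, hw1, -, hg1⟩ := H.pos_near (w0 := ![0, 50, 0, 0, -200, 0, -(δ / 10), 50, 1000])
      (η := δ / 100) (by positivity) (by constructor <;> vv <;> norm_num <;> linarith) (N := univ)
      (by simp)
    have b10 := nbd hw1 0
    have b16 := nbd hw1 6
    simp only [Matrix.cons_val] at b10 b16
    set w' : V9 := ![w1 0, 50, w 2, w 3, w1 0 + w 2, -10, w1 6, 50, 1000] with hw'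
    have hgen : GenZ φ (fun _ => False) w' := P.gen H (w1 := w1) (w2 := w) (hg1 (c 0))
      (by simp [hw']) (by simp [hw']) (Or.inr ⟨⟨R, hR⟩, by simp [hw'],
        fun _ => by simp [hw'], fun h => by norm_num at h⟩)
    have hone : One 7 w' := by
      refine one_of 7 ?_ ?_ ?_ ?_ ?_ ?_ ?_ ?_ ?_ ?_ <;>
        simp only [hw', Matrix.cons_val, Fin.reduceEq, reduceIte] <;>
        linarith [hx.1, hx.2, b10.1, b10.2, b16.1, b16.2, b2.1, b2.2, b3.1, b3.2]
    obtain ⟨R', hl, ha, hu⟩ := hgen.lin H hone.leg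
    refine h w' R' hone ?_ hl (ha 4 P.al4) ?_
    · simp only [hw', Matrix.cons_val]
      linarith [b10.1, b10.2, b16.1, b16.2]
    · rw [hu 2 R (hR.loc H fun t ht => ?_)]
      · exact hlt
      · rcases P.k2 ht with rfl | rfl | rfl
        · simp [hw']
        · simp [hw']
        · exact absurd (P.al5 (by norm_num) 2 ht.symm) (by decide)
  · obtain ⟨η, hη, hη1, hη2⟩ := exists_eta hk
    obtain ⟨w1, -, hw1, -, hg1⟩ := H.pos_near (w0 := wB) hη
      (leg_wB.mono (by linarith)) (N := univ) (by simp)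
    have b10 := nbd hw1 0
    have b16 := nbd hw1 6
    simp only [wB, Matrix.cons_val] at b10 b16
    set w' : V9 := ![w1 0, 50, w 2, 40, w1 0 + w 2, w 5, w1 6, 50, 1000] with hw'
    have hgen : GenZ φ (fun _ => False) w' := P.gen H (w1 := w1) (w2 := w) (hg1 (c 0))
      (by simp [hw']) (by simp [hw']) (Or.inr ⟨⟨R, hR⟩, by simp [hw'],
        fun h => absurd h hk1, fun _ => by simp [hw']⟩)
    have hone : One 7 w' := by
      refine one_of 7 ?_ ?_ ?_ ?_ ?_ ?_ ?_ ?_ ?_ ?_ <;>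
        simp only [hw', Matrix.cons_val, Fin.reduceEq, reduceIte] <;>
        linarith [hx.1, hx.2, b10.1, b10.2, b16.1, b16.2, b2.1, b2.2, b5.1, b5.2]
    obtain ⟨R', hl, ha, hu⟩ := hgen.lin H hone.leg
    refine h w' R' hone ?_ hl (ha 4 P.al4) ?_
    · simp only [hw', Matrix.cons_val]
      have := mul_le_mul_of_nonneg_left b10.1.le hk.le
      nlinarith [b16.2]
    · rw [hu 2 R (hR.loc H fun t ht => ?_)]
      · exact hlt
      · rcases P.k2 ht with rfl | rfl | rfl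
        · simp [hw']
        · exact absurd (P.al3 hk1 2 ht.symm) (by decide)
        · simp [hw']

/-- **the wall of `C_b`, flag natural** -/
theorem PlE.eW3 (P : PlE k c dl) (H : Cl9 c dl s Λ φ ρ) (hk1 : k ≠ 1)
    (h : ∀ w R, One 5 w → w 6 = k * w 0 → LinS {0, 6} Λ w R → R 1 ≤ R 2) : ρ 1 ≤ rE c φ := by
  rw [P.rE_eq H]
  have h1 := H.mv_ge' (t := 2) (w0 := wC) (y := 1) (q := ρ 1) (m := 1) one_pos one_pos
    (P.al1.nonneg H) leg_wC leg_wC1 (N := univ) (by simp) ?_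
  · linarith
  intro δ hδ hδ1 x hx w _ hw _ R hR
  have b2 := nbd hw 2
  have b5 := nbd hw 5
  simp only [wC, Matrix.cons_val, Pi.add_apply, Pi.smul_apply, smul_eq_mul, e9, Pi.single_apply,
    Fin.reduceEq, reduceIte, mul_one, mul_zero, add_zero, zero_add] at b2 b5
  set w' : V9 := ![0, w 2, w 2, 0, -200, w 5, 0, 50, 1000] with hw'
  have hgen : GenZ φ (fun k => k = c 0) w' := P.genz H (w2 := w)
    (Or.inr ⟨⟨R, hR⟩, by simp [hw'], fun h => absurd h hk1, fun _ => by simp [hw']⟩)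
  have hone : One 5 w' := by
    refine one_of 5 ?_ ?_ ?_ ?_ ?_ ?_ ?_ ?_ ?_ ?_ <;>
      simp only [hw', Matrix.cons_val, Fin.reduceEq, reduceIte] <;>
      linarith [hx.1, hx.2, b2.1, b2.2, b5.1, b5.2]
  obtain ⟨R', hl, ha, hu⟩ := hgen.linZ H hone.leg P.hZ
  have h3 := h w' R' hone (by simp [hw']) hl
  rw [ha 1 (by decide) P.al1, hu 2 R (by decide) (hR.loc H fun t ht => by
    rcases P.k2 ht with rfl | rfl | rfl
    · simp [hw']
    · exact absurd (P.al3 hk1 2 ht.symm) (by decide)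
    · simp [hw'])] at h3
  exact h3

/-- **the second wall of `N`, flag natural** -/
theorem PlE.eW2 (P : PlE k c dl) (H : Cl9 c dl s Λ φ ρ) (hk1 : k ≠ 1) (hk2 : k ≠ 1 / 2)
    (h : ∀ w R, One 8 w → w 6 = k * w 0 → LinS {0, 6} Λ w R → R 3 ≤ R 4) :
    1 - xE c φ ≤ ρ 4 := by
  rw [xE_al H (P.al3 hk1), sub_sub_cancel]
  set w' : V9 := ![0, 50, 1, 0, 0, 0, 0, 50, 1000] with hw'
  have hgen : GenZ φ (fun k => k = c 0) w' := P.genz H (w2 := 0)
    (Or.inl ⟨P.al2 hk1 hk2, P.al3 hk1, P.al5 hk2⟩)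
  have hone : One 8 w' := by
    refine one_of 8 ?_ ?_ ?_ ?_ ?_ ?_ ?_ ?_ ?_ ?_ <;>
      simp only [hw', Matrix.cons_val, Fin.reduceEq, reduceIte] <;> norm_num
  obtain ⟨R', hl, ha, hu⟩ := hgen.linZ H hone.leg P.hZ
  have h3 := h w' R' hone (by simp [hw']) hl
  rwa [ha 3 (by decide) (P.al3 hk1), ha 4 (by decide) P.al4] at h3

/-- **the wall of `H`** -/
theorem PlE.eH (P : PlE k c dl) (H : Cl9 c dl s Λ φ ρ)
    (h : ∀ w R, One 4 w → LinS ∅ Λ w R → R 1 = ρ 1 → R 3 ≤ R 5) :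
    1 - xE c φ ≤ 1 - hE c φ := by
  obtain ⟨w1, -, hw1, -, hg1⟩ := H.pos_near (w0 := wB) (η := 1 / 100) (by norm_num)
    (leg_wB.mono (by norm_num)) (N := univ) (by simp)
  have b10 := nbd hw1 0
  have b16 := nbd hw1 6
  simp only [wB, Matrix.cons_val] at b10 b16
  by_cases hk1 : k = 1
  · subst hk1
    have e1 : 1 - xE c φ = φ (c 3) wB - φ (c 3) (wB + (1:ℝ) • e9 3) := by
      unfold xE
      rw [sub_sub_cancel, H.loc (c 3) 0 wB fun t ht => by
        rw [P.c3 rfl] at ht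
        rcases P.k2 ht with rfl | rfl | rfl <;> simp [wB],
        H.loc (c 3) (0 + (1:ℝ) • e9 3) (wB + (1:ℝ) • e9 3) fun t ht => by
        rw [P.c3 rfl] at ht
        rcases P.k2 ht with rfl | rfl | rfl <;> simp [wB]]
    rw [e1, hE_al H (P.al5 (by norm_num)), sub_sub_cancel]
    have h2 := H.mv_le (t := 3) (w0 := wB) (y := 1) (q := ρ 5) (η := 1 / 100) one_pos
      (by norm_num) (leg_wB.mono (by norm_num)) (by
        constructor <;> vv <;> norm_num) (N := univ) (by simp) ?_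
    · linarith
    intro x hx w _ hw _ R hR
    have b2 := nbd hw 2
    have b3 := nbd hw 3
    simp only [wB, Matrix.cons_val, Pi.add_apply, Pi.smul_apply, smul_eq_mul, e9, Pi.single_apply,
      Fin.reduceEq, reduceIte, mul_one, mul_zero, add_zero, zero_add] at b2 b3
    set w' : V9 := ![w1 0, 50, w 2, w 3, -200, 50 + w 3, w1 6, 50, 1000] with hw'
    have hgen : GenZ φ (fun _ => False) w' := P.gen H (w1 := w1) (w2 := w) (hg1 (c 0))
      (by simp [hw']) (by simp [hw']) (Or.inr ⟨⟨R, by rw [← P.c3 rfl]; exact hR⟩, by simp [hw'],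
        fun _ => by simp [hw'], fun h => by norm_num at h⟩)
    have hone : One 4 w' := by
      refine one_of 4 ?_ ?_ ?_ ?_ ?_ ?_ ?_ ?_ ?_ ?_ <;>
        simp only [hw', Matrix.cons_val, Fin.reduceEq, reduceIte] <;>
        linarith [hx.1, hx.2, b10.1, b10.2, b16.1, b16.2, b2.1, b2.2, b3.1, b3.2]
    obtain ⟨R', hl, ha, hu⟩ := hgen.lin H hone.leg
    have h3 := h w' R' hone hl (ha 1 P.al1)
    rw [ha 5 (P.al5 (by norm_num)), hu 3 R (hR.loc H fun t ht => by
      rw [P.c3 rfl] at ht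
      rcases P.k2 ht with rfl | rfl | rfl
      · simp [hw']
      · simp [hw']
      · exact absurd (P.al5 (by norm_num) 2 ht.symm) (by decide))] at h3
    exact h3
  · rw [xE_al H (P.al3 hk1), sub_sub_cancel]
    by_cases hk2 : k = 1 / 2
    · have e1 : 1 - hE c φ = (φ (c 5) ![0, 200, 1, -50, -200, 0, -1, 60, 1000] -
          φ (c 5) (![0, 200, 1, -50, -200, 0, -1, 60, 1000] + (2:ℝ) • e9 5)) / 2 := by
        unfold hE
        rw [sub_sub_cancel, H.loc (c 5) (e9 2) ![0, 200, 1, -50, -200, 0, -1, 60, 1000]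
          fun t ht => by
          rw [P.c5 hk2] at ht
          rcases P.k2 ht with rfl | rfl | rfl
          · simp [e9]
          · exact absurd (P.al3 hk1 2 ht.symm) (by decide)
          · simp [e9],
          H.loc (c 5) (e9 2 + (2:ℝ) • e9 5) (![0, 200, 1, -50, -200, 0, -1, 60, 1000] +
            (2:ℝ) • e9 5) fun t ht => by
          rw [P.c5 hk2] at ht
          rcases P.k2 ht with rfl | rfl | rfl
          · simp [e9]
          · exact absurd (P.al3 hk1 2 ht.symm) (by decide)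
          · simp [e9]]
      rw [e1]
      have h2 := H.mv_ge (t := 5) (w0 := ![0, 200, 1, -50, -200, 0, -1, 60, 1000]) (y := 2)
        (q := ρ 3) (η := 1 / 100) two_pos (by norm_num) (by constructor <;> vv <;> norm_num)
        (by constructor <;> vv <;> norm_num) (N := univ) (by simp) ?_
      · linarith
      intro x hx w _ hw _ R hR
      have b2 := nbd hw 2
      have b5 := nbd hw 5
      simp only [Matrix.cons_val, Pi.add_apply, Pi.smul_apply, smul_eq_mul, e9, Pi.single_apply,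
        Fin.reduceEq, reduceIte, mul_one, mul_zero, add_zero, zero_add] at b2 b5
      set w' : V9 := ![w1 0, w 5 + 50, w 2, -50, -200, w 5, w1 6, 50, 1000] with hw'
      have hgen : GenZ φ (fun _ => False) w' := P.gen H (w1 := w1) (w2 := w) (hg1 (c 0))
        (by simp [hw']) (by simp [hw']) (Or.inr ⟨⟨R, by rw [← P.c5 hk2]; exact hR⟩,
          by simp [hw'], fun h => absurd h hk1, fun _ => by simp [hw']⟩)
      have hone : One 4 w' := by
        refine one_of 4 ?_ ?_ ?_ ?_ ?_ ?_ ?_ ?_ ?_ ?_ <;>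
          simp only [hw', Matrix.cons_val, Fin.reduceEq, reduceIte] <;>
          linarith [hx.1, hx.2, b10.1, b10.2, b16.1, b16.2, b2.1, b2.2, b5.1, b5.2]
      obtain ⟨R', hl, ha, hu⟩ := hgen.lin H hone.leg
      have h3 := h w' R' hone hl (ha 1 P.al1)
      rw [ha 3 (P.al3 hk1), hu 5 R (hR.loc H fun t ht => by
        rw [P.c5 hk2] at ht
        rcases P.k2 ht with rfl | rfl | rfl
        · simp [hw']
        · exact absurd (P.al3 hk1 2 ht.symm) (by decide)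
        · simp [hw'])] at h3
      exact h3
    · rw [hE_al H (P.al5 hk2), sub_sub_cancel]
      set w' : V9 := ![w1 0, 50, 0, 40, -200, 90, w1 6, 50, 1000] with hw'
      have hgen : GenZ φ (fun _ => False) w' := P.gen H (w1 := w1) (w2 := 0) (hg1 (c 0))
        (by simp [hw']) (by simp [hw']) (Or.inl ⟨P.al2 hk1 hk2, P.al3 hk1, P.al5 hk2⟩)
      have hone : One 4 w' := by
        refine one_of 4 ?_ ?_ ?_ ?_ ?_ ?_ ?_ ?_ ?_ ?_ <;>
          simp only [hw', Matrix.cons_val, Fin.reduceEq, reduceIte] <;>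
          linarith [b10.1, b10.2, b16.1, b16.2]
      obtain ⟨R', hl, ha, hu⟩ := hgen.lin H hone.leg
      have h3 := h w' R' hone hl (ha 1 P.al1)
      rwa [ha 3 (P.al3 hk1), ha 5 (P.al5 hk2)] at h3

end

end Crest.Agent.R116.Tq741
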