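import Crest.Agent.R116.Tp1_389

/-!
# R116, K side: the two-height fact `P` by `F` with `H` arbitrary (helper389)

`m2H` : slots `1, 2` have no own motion (not in `S`, or frozen and dropped): then `F` moves by `P`
only as soon as `C, X` are fine, whatever `H` (slot `9`) is.
-/

set_option autoImplicit false
set_option linter.unusedVariables false
set_option linter.unusedSectionVars false

open Filter Topology Finset

namespace Crest.Agent.R116.Tp389

open Crest.Agent.R138.Ex926 (Base U)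
open Crest.Agent.R138.Fal658 Crest.Agent.R136.Gf356 Crest.Agent.R116.Kr710
open Crest.Agent.R116.EvL504 (comp evoS SL LvS LnS hgt)

section facts

variable {B : Base} {G : ℕ → RCfg (Fin 12)} {Leg : Set (Fin 12 → ℝ)} {ν : (Fin 12 → ℝ) → ℝ}
  {σ R D : ℝ} {S : Finset (Fin 12)} {own : ℕ → ℕ → ℕ → ℕ → Fin 12 → ℝ} {x y : ℝ}

/-- **(M2H)** `P` is read off `F` at two heights; `C, X` fine, `H` (slot `9`) arbitrary, no own
motion in the slots `1, 2` -/
theorem m2H (H : RModel B G σ R Leg ν D) (hσ : 0 < σ) (hR : 0 < R) (L : LLaw B G S own x)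
    (z1 : ∀ n i k0 k, (1 : Fin 12) ∈ S → own n i k0 k 1 = 0)
    (z2 : ∀ n i k0 k, (2 : Fin 12) ∈ S → own n i k0 k 2 = 0)
    (hy : 0 ≤ y) (hyx : y ≤ x) {p p' pT r : Fin 12 → ℝ} (hp : p ∈ Leg) (hp' : p' ∈ Leg)
    (hpT : pT ∈ Leg) (hr : r ∈ Leg) (hTr : ∀ j, pT j ≤ r j)
    (hT0 : ∀ j, pT j ≤ 0 ∨ ((j = 3 ∨ j = 4 ∨ j = 5 ∨ j = 6) ∧ pT j ≤ y) ∨
      (j = 9 ∧ pT j ≤ y ∧ pT j ≤ p j))
    (p3 : y ≤ p 3) (p4 : y ≤ p 4) (p5 : y ≤ p 5) (p6 : y ≤ p 6)
    (p11 : y ≤ p 11) (r11 : y ≤ r 11)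
    (q : ∀ j, p' j ≤ 0 ∨ p' j ≤ p j ∨ (j = 10 ∧ p' j ≤ y)) :
    ν p - ν p' ≤ ν pT - ν r := by
  refine two_height H hσ hR p p' pT r hp hp' hpT hr hTr ?_
  intro C0 hC0
  refine ⟨C0 + 5, by linarith, fun C2 hC2 => ⟨C0 + C2 + 13, by linarith, fun ε hε => ?_⟩⟩
  filter_upwards [ev_pair H L hε] with n hn k hk k' hk' hdz i l a b c d hlo
  obtain ⟨h8, hn⟩ := hn
  obtain ⟨g1, g2, g3, g4, g5⟩ := hn k k' i l a c b d
  have hpow : ∀ t : ℝ, 0 < B.d n ^ t := fun t => rpos B n t
  have h0C : 0 < C0 * ε := by positivity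
  -- the fine slots at `k`
  have f : ∀ s : Fin 12, y ≤ p s → |(G n).rel k i l s| ≤ B.d n ^ (y - C0 * ε) := by
    intro s hs
    have := hlo s
    rw [H.base n] at this
    exact this.trans (rpow_anti B n (by linarith))
  -- products
  have pr : ∀ {K u v : ℝ}, |u| ≤ B.d n ^ (-ε) → |v| ≤ B.d n ^ (y - K * ε) →
      |u * v| ≤ B.d n ^ (y - (K + 1) * ε) := by
    intro K u v hu hv
    rw [abs_mul]
    calc |u| * |v| ≤ B.d n ^ (-ε) * B.d n ^ (y - K * ε) :=
          mul_le_mul hu hv (abs_nonneg _) (hpow _).le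
      _ = _ := by rw [← rpow_add']; congr 1; ring
  have up : ∀ {K K' v : ℝ}, K ≤ K' → |v| ≤ B.d n ^ (y - K * ε) → |v| ≤ B.d n ^ (y - K' * ε) :=
    fun hK hv => hv.trans (anK B n hε hK)
  have ad : ∀ {K u v : ℝ}, |u| ≤ B.d n ^ (y - K * ε) → |v| ≤ B.d n ^ (y - K * ε) →
      |u + v| ≤ B.d n ^ (y - (K + 1) * ε) := fun hu hv =>
    (abs_add_le _ _).trans (pwK2 B hε h8 hu hv le_rfl le_rfl)
  have sb : ∀ {K u v : ℝ}, |u| ≤ B.d n ^ (y - K * ε) → |v| ≤ B.d n ^ (y - K * ε) →
      |u - v| ≤ B.d n ^ (y - (K + 1) * ε) := by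
    intro K u v hu hv
    rw [sub_eq_add_neg]
    exact ad hu (by rwa [abs_neg])
  have err : ∀ s, s ∉ S → |(G n).rel k' i l s - evoS S (own n i k k') ((G n).rel k i l) s| ≤
      B.d n ^ (y - 1 * ε) := fun s hs => (g5 s hs).trans (rpow_anti B n (by linarith))
  have lv : ∀ s, |LvS S (own n i k k') s| ≤ B.d n ^ (-ε) := by
    intro s
    unfold LvS
    split_ifs
    · exact g3 s
    · simpa using (hpow _).le
  -- constants
  have f' : ∀ {s : Fin 12}, y ≤ p s → |(G n).rel k i l s| ≤ B.d n ^ (y - (C0 + 1) * ε) :=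
    fun hs => up (by linarith) (f _ hs)
  set c := (G n).rel k i l with hc
  set A0 := own n i k k' 0 with hA0
  have hA : |A0| ≤ B.d n ^ (-ε) := g3 0
  have c53 : |c 5 - A0 * c 3| ≤ B.d n ^ (y - (C0 + 2) * ε) :=
    (sb (f' p5) (pr hA (f 3 p3))).trans (anK B n hε (by linarith))
  have c64 : |c 6 - A0 * c 4| ≤ B.d n ^ (y - (C0 + 2) * ε) :=
    (sb (f' p6) (pr hA (f 4 p4))).trans (anK B n hε (by linarith))
  have c34 : |(c 3 ^ 2 + c 4 ^ 2) / 2| ≤ B.d n ^ (y - (C0 + 2) * ε) := by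
    have a3 := ad (pr (g1 3) (f 3 p3)) (pr (g1 4) (f 4 p4))
    have e : (c 3 ^ 2 + c 4 ^ 2) / 2 = (c 3 * c 3 + c 4 * c 4) / 2 := by ring
    rw [e, abs_div, abs_of_pos (two_pos : (0 : ℝ) < 2)]
    have a4 := abs_nonneg (c 3 * c 3 + c 4 * c 4)
    have a5 : B.d n ^ (y - (C0 + 1 + 1) * ε) = B.d n ^ (y - (C0 + 2) * ε) := by
      congr 1; ring
    rw [a5] at a3
    linarith
  have main : |(G n).rel k' i l 11 - (c 11 - A0 * c 10)| ≤ B.d n ^ (y - (C0 + 11) * ε) := by
    have e := err 11 (nS L.SSL (by decide))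
    rw [evo11 L.S0 L.SSL] at e
    have t7 : |LvS S (own n i k k') 7 * (c 5 - A0 * c 3)| ≤ B.d n ^ (y - (C0 + 7) * ε) :=
      (pr (lv 7) c53).trans (anK B n hε (by linarith))
    have t8 : |LvS S (own n i k k') 8 * (c 6 - A0 * c 4)| ≤ B.d n ^ (y - (C0 + 7) * ε) :=
      (pr (lv 8) c64).trans (anK B n hε (by linarith))
    have t2 : |LvS S (own n i k k') 2 * (c 9 - A0 * ((c 3 ^ 2 + c 4 ^ 2) / 2))| ≤
        B.d n ^ (y - (C0 + 7) * ε) := by
      have : LvS S (own n i k k') 2 = 0 := by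
        unfold LvS
        split_ifs with h
        · exact z2 n i k k' h
        · rfl
      rw [this, zero_mul, abs_zero]
      exact (hpow _).le
    have t1 : |LvS S (own n i k k') 1 * (c 5 ^ 2 + c 6 ^ 2 -
        2 * (A0 * (c 5 * c 3 + c 6 * c 4 - c 9)))| ≤ B.d n ^ (y - (C0 + 7) * ε) := by
      have : LvS S (own n i k k') 1 = 0 := by
        unfold LvS
        split_ifs with h
        · exact z1 n i k k' h
        · rfl
      rw [this, zero_mul, abs_zero]
      exact (hpow _).le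
    have t0 := e.trans (anK B n hε (show (1 : ℝ) ≤ C0 + 7 by linarith))
    have s1 := ad t7 t8
    have s2 := ad t2 t1
    have s3 := ad s1 s2
    have s4 := sb t0 (by exact t0)
    have s5 := sb (K := C0 + 7 + 1 + 1) (t0.trans (anK B n hε (by linarith))) s3
    have id1 : (G n).rel k' i l 11 - (c 11 - A0 * c 10) =
        ((G n).rel k' i l 11 - (c 11 - own n i k k' 0 * c 10 -
          LvS S (own n i k k') 7 * (c 5 - own n i k k' 0 * c 3) -
          LvS S (own n i k k') 8 * (c 6 - own n i k k' 0 * c 4) -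
          LvS S (own n i k k') 2 * (c 9 - own n i k k' 0 * ((c 3 ^ 2 + c 4 ^ 2) / 2)) -
          LvS S (own n i k k') 1 * (c 5 ^ 2 + c 6 ^ 2 -
            2 * (own n i k k' 0 * (c 5 * c 3 + c 6 * c 4 - c 9))))) -
        (LvS S (own n i k k') 7 * (c 5 - A0 * c 3) + LvS S (own n i k k') 8 * (c 6 - A0 * c 4) +
          (LvS S (own n i k k') 2 * (c 9 - A0 * ((c 3 ^ 2 + c 4 ^ 2) / 2)) +
            LvS S (own n i k k') 1 * (c 5 ^ 2 + c 6 ^ 2 -
              2 * (A0 * (c 5 * c 3 + c 6 * c 4 - c 9))))) := by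
      rw [hA0]; ring
    rw [id1]
    exact s5.trans (anK B n hε (by linarith))
  refine ⟨fun j => ?_, fun hlo' j => ?_⟩
  · rcases hT0 j with h | ⟨h, h'⟩ | ⟨rfl, h', h''⟩
    · exact loose0 H hε (by linarith) h (g2 j)
    · rw [H.base n]
      have fin : |(G n).rel k' i l j| ≤ B.d n ^ (y - (C0 + 5) * ε) := by
        rcases h with rfl | rfl | rfl | rfl
        · have e := err 3 (nS L.SSL (by decide))
          rw [evo3 L.SSL] at e
          have := ad (e.trans (anK B n hε (show (1 : ℝ) ≤ C0 + 1 by linarith))) (f' p3)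
          rw [show (G n).rel k' i l 3 = ((G n).rel k' i l 3 - c 3) + c 3 by ring]
          exact this.trans (anK B n hε (by linarith))
        · have e := err 4 (nS L.SSL (by decide))
          rw [evo4 L.SSL] at e
          have := ad (e.trans (anK B n hε (show (1 : ℝ) ≤ C0 + 1 by linarith))) (f' p4)
          rw [show (G n).rel k' i l 4 = ((G n).rel k' i l 4 - c 4) + c 4 by ring]
          exact this.trans (anK B n hε (by linarith))
        · have e := err 5 (nS L.SSL (by decide))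
          rw [evo5 L.S0 L.SSL] at e
          have := ad (e.trans (anK B n hε (show (1 : ℝ) ≤ C0 + 2 by linarith))) c53
          rw [show (G n).rel k' i l 5 = ((G n).rel k' i l 5 - (c 5 - A0 * c 3)) +
            (c 5 - A0 * c 3) by ring]
          exact this.trans (anK B n hε (by linarith))
        · have e := err 6 (nS L.SSL (by decide))
          rw [evo6 L.S0 L.SSL] at e
          have := ad (e.trans (anK B n hε (show (1 : ℝ) ≤ C0 + 2 by linarith))) c64
          rw [show (G n).rel k' i l 6 = ((G n).rel k' i l 6 - (c 6 - A0 * c 4)) +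
            (c 6 - A0 * c 4) by ring]
          exact this.trans (anK B n hε (by linarith))
      exact fin.trans (rpow_anti B n (by linarith))
    · -- slot 9
      rw [H.base n]
      have hm : y - (C0 + 5) * ε ≤ y := by
        have : 0 ≤ (C0 + 5) * ε := by positivity
        linarith
      have e := err 9 (nS L.SSL (by decide))
      rw [evo9 L.S0 L.SSL] at e
      have d9 : |c 9| ≤ B.d n ^ (pT 9 - C0 * ε) := by
        have := hlo 9
        rw [H.base n] at this
        exact this.trans (rpow_anti B n (by linarith))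
      have d34 : |A0 * ((c 3 ^ 2 + c 4 ^ 2) / 2)| ≤ B.d n ^ (pT 9 - (C0 + 3) * ε) :=
        (pr hA c34).trans (rpow_anti B n (by linarith))
      have e' : |(G n).rel k' i l 9 - (c 9 - A0 * ((c 3 ^ 2 + c 4 ^ 2) / 2))| ≤
          B.d n ^ (pT 9 - (C0 + 3) * ε) := by
        refine e.trans (rpow_anti B n ?_)
        nlinarith
      have d9' : |c 9| ≤ B.d n ^ (pT 9 - (C0 + 3) * ε) := d9.trans (anK B n hε (by linarith))
      have s : B.d n ^ (pT 9 - (C0 + 3) * ε) + B.d n ^ (pT 9 - (C0 + 3) * ε) +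
          B.d n ^ (pT 9 - (C0 + 3) * ε) ≤ B.d n ^ (pT 9 - (C0 + 5) * ε) := by
        have e8 : B.d n ^ (pT 9 - (C0 + 5) * ε) = B.d n ^ (-ε) * (B.d n ^ (-ε) *
            B.d n ^ (pT 9 - (C0 + 3) * ε)) := by
          rw [← rpow_add', ← rpow_add']; congr 1; ring
        rw [e8]
        have := hpow (pT 9 - (C0 + 3) * ε)
        have h88 : 64 ≤ B.d n ^ (-ε) * B.d n ^ (-ε) := by nlinarith
        nlinarith
      have id9 : (G n).rel k' i l 9 = ((G n).rel k' i l 9 -
          (c 9 - A0 * ((c 3 ^ 2 + c 4 ^ 2) / 2))) + (c 9 - A0 * ((c 3 ^ 2 + c 4 ^ 2) / 2)) := by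
        ring
      rw [id9]
      have c1 := abs_le.1 e'
      have c2 := abs_le.1 d9'
      have c3 := abs_le.1 d34
      rw [abs_le]
      constructor <;> linarith
  · rcases q j with h | h | ⟨rfl, h'⟩
    · exact loose0 H hε (by linarith) h (g1 j)
    · exact looseP H hε (by linarith) h (hlo j)
    · rw [H.base n]
      have b2 : |(G n).rel k' i l 11| ≤ B.d n ^ (y - C2 * ε) := by
        have := hlo' 11
        rw [H.base n] at this
        exact this.trans (rpow_anti B n (by linarith))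
      have b4 : |c 10| ≤ B.d n ^ (-(2 * ε)) := (g1 10).trans (rpow_anti B n (by linarith))
      have := solve hε h8 hyx (show (3 : ℝ) ≤ C0 + C2 + 11 by linarith) (by linarith)
        (by linarith) (by linarith) (f 11 p11) b2 main b4 g4 hdz
      exact this.trans (rpow_anti B n (by
        have e : (C0 + C2 + 11 + 2) * ε = (C0 + C2 + 13) * ε := by ring
        linarith))

end facts

end Crest.Agent.R116.Tp389
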