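import Crest.Agent.R116.Tp7_139
import Crest.Agent.R116.Tq4_126
import Crest.Agent.R116.Rcx5_363

/-!
# R116 (K side, ties), the planes above the record: tables and numbers (helper139)

* `plU_S`, `plU_S9`, `plU_Se` : `PlU` of the planes `oS`, `oS9`, `oSe e`
* `h8_S`, .. : every slot of `{6, 7, 8}` is in the class of `z` or alone
* `rx1`, `rhh` : the split of the joint rates
* **`tvU8`, `tvU9`** : `TV` in the letters of `Tm1_741`, all `k > 0`
* `recD8`, `recD9` : the record identity in the letters of `tvU8`, `tvU9`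
* `ant_kU`, `ant_kU9` : rate of `C_a` on `T⁺` ≤ rate on `T⁻` of the `κ`-plane
-/

set_option autoImplicit false
set_option linter.unusedVariables false
set_option linter.unusedSimpArgs false
set_option linter.unusedSectionVars false

open Set Filter Topology

namespace Crest.Agent.R116.Tp139

open Crest.Agent.R136
open Dg219 (Walls mw)
open Sl741 (slice xt rs)
open Dg262 (SupOn)
open RbK219 RbM219 Kz647
open ChL222 (monL)
open Tie460
open Sg337 (DL coneL)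
open Crest.Agent.R116.Tq741
open Crest.Agent.R116.Tq126 (cS cS9 sn8)
open Crest.Agent.R116.Rcx363 (Rx ntD b8_nat)
open Crest.Agent.R116.PL504 (eL)

/-! ### tables -/

section tables

variable {θ θb k e : ℝ}

theorem cS_one' : cS 1 = ![0, 1, 2, 2, 4, 5, 0, 0, 8] := by
  unfold cS
  rw [if_pos rfl, if_neg (by norm_num)]

theorem cS_half' : cS (1 / 2) = ![0, 1, 2, 3, 4, 2, 0, 0, 8] := by
  unfold cS
  rw [if_neg (by norm_num), if_pos rfl]

theorem cS_gen' (h1 : k ≠ 1) (h : k ≠ 1 / 2) : cS k = ![0, 1, 2, 3, 4, 5, 0, 0, 8] := by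
  unfold cS
  rw [if_neg h1, if_neg h]

theorem cS9_one' : cS9 1 = ![0, 1, 2, 2, 4, 5, 0, 0, 0] := by
  unfold cS9
  rw [if_pos rfl, if_neg (by norm_num)]

theorem cS9_half' : cS9 (1 / 2) = ![0, 1, 2, 3, 4, 2, 0, 0, 0] := by
  unfold cS9
  rw [if_neg (by norm_num), if_pos rfl]

theorem cS9_gen' (h1 : k ≠ 1) (h : k ≠ 1 / 2) : cS9 k = ![0, 1, 2, 3, 4, 5, 0, 0, 0] := by
  unfold cS9
  rw [if_neg h1, if_neg h]

/-- the table from the three slopes -/
theorem plU_cS {dl : V9} (h32 : dl 3 = dl 2) (h52 : dl 5 = 2 * dl 2) : PlU k (cS k) dl := by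
  by_cases h1 : k = 1
  · subst h1
    rw [cS_one']
    exact ⟨by decide, by unfold Al; decide, by unfold Al; decide, fun h => absurd rfl h,
      fun _ => by unfold Al; decide, fun h => absurd rfl h, fun _ => ⟨by decide, by decide, h32⟩,
      fun h => absurd h (by norm_num), by decide⟩
  by_cases h2 : k = 1 / 2
  · subst h2
    rw [cS_half']
    exact ⟨by decide, by unfold Al; decide, by unfold Al; decide, fun _ => by unfold Al; decide,
      fun h => absurd rfl h, fun _ h => absurd rfl h, fun h => absurd h h1,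
      fun _ => ⟨by decide, by decide, h52⟩, by decide⟩
  · rw [cS_gen' h1 h2]
    exact ⟨by decide, by unfold Al; decide, by unfold Al; decide, fun _ => by unfold Al; decide,
      fun _ => by unfold Al; decide, fun _ _ => by unfold Al; decide, fun h => absurd h h1,
      fun h => absurd h h2, by decide⟩

theorem plU_cS9 {dl : V9} (h32 : dl 3 = dl 2) (h52 : dl 5 = 2 * dl 2) : PlU k (cS9 k) dl := by
  by_cases h1 : k = 1
  · subst h1
    rw [cS9_one']
    exact ⟨by decide, by unfold Al; decide, by unfold Al; decide, fun h => absurd rfl h,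
      fun _ => by unfold Al; decide, fun h => absurd rfl h, fun _ => ⟨by decide, by decide, h32⟩,
      fun h => absurd h (by norm_num), by decide⟩
  by_cases h2 : k = 1 / 2
  · subst h2
    rw [cS9_half']
    exact ⟨by decide, by unfold Al; decide, by unfold Al; decide, fun _ => by unfold Al; decide,
      fun h => absurd rfl h, fun _ h => absurd rfl h, fun h => absurd h h1,
      fun _ => ⟨by decide, by decide, h52⟩, by decide⟩
  · rw [cS9_gen' h1 h2]
    exact ⟨by decide, by unfold Al; decide, by unfold Al; decide, fun _ => by unfold Al; decide,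
      fun _ => by unfold Al; decide, fun _ _ => by unfold Al; decide, fun h => absurd h h1,
      fun h => absurd h h2, by decide⟩

/-- **`PlU` of `oS`** -/
theorem plU_S : PlU k (cS k) (sn8 (dl (nat8 1 (-θ) (-θb)) oS 1) 1) := by
  have d2 : sn8 (dl (nat8 1 (-θ) (-θb)) oS 1) 1 2 = 1 := by
    show dl _ _ _ 2 = 1
    unfold dl; rw [s2, if_neg one_ne_zero, mul_one]
  have d3 : sn8 (dl (nat8 1 (-θ) (-θb)) oS 1) 1 3 = 1 := by
    show dl _ _ _ 3 = 1
    unfold dl; rw [s3, if_neg one_ne_zero, mul_one]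
  have d5 : sn8 (dl (nat8 1 (-θ) (-θb)) oS 1) 1 5 = 2 := by
    show dl _ _ _ 5 = 2
    unfold dl; rw [s5, if_neg two_ne_zero, one_mul]
  exact plU_cS (by rw [d3, d2]) (by rw [d5, d2]; norm_num)

/-- **`PlU` of `oS9`** -/
theorem plU_S9 : PlU k (cS9 k) (dl (nat9 1 (-θ) (-θb)) oS9 1) := by
  have d2 : dl (nat9 1 (-θ) (-θb)) oS9 1 2 = 1 := by
    unfold dl; rw [t2, if_neg one_ne_zero, mul_one]
  have d3 : dl (nat9 1 (-θ) (-θb)) oS9 1 3 = 1 := by
    unfold dl; rw [t3, if_neg one_ne_zero, mul_one]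
  have d5 : dl (nat9 1 (-θ) (-θb)) oS9 1 5 = 2 := by
    unfold dl; rw [t5, if_neg two_ne_zero, one_mul]
  exact plU_cS9 (by rw [d3, d2]) (by rw [d5, d2]; norm_num)

/-- **`PlU` of `oSe e`** -/
theorem plU_Se : PlU k (cS k) (dl (nat9 1 (-θ) (-θb)) (oSe e) 1) := by
  have d2 : dl (nat9 1 (-θ) (-θb)) (oSe e) 1 2 = 1 := by
    unfold dl; rw [u2, if_neg one_ne_zero, mul_one]
  have d3 : dl (nat9 1 (-θ) (-θb)) (oSe e) 1 3 = 1 := by
    unfold dl; rw [u3, if_neg one_ne_zero, mul_one]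
  have d5 : dl (nat9 1 (-θ) (-θb)) (oSe e) 1 5 = 2 := by
    unfold dl; rw [u5, if_neg two_ne_zero, one_mul]
  exact plU_cS (by rw [d3, d2]) (by rw [d5, d2]; norm_num)

theorem h6_S : cS k 6 = cS k 0 ∨ Al (cS k) 6 := Or.inl rfl
theorem h7_S : cS k 7 = cS k 0 ∨ Al (cS k) 7 := Or.inl rfl
theorem h8_S : cS k 8 = cS k 0 ∨ Al (cS k) 8 := by
  right
  refine all9 ?_ ?_ ?_ ?_ ?_ ?_ ?_ ?_ ?_ <;> intro h <;> revert h <;>
    simp only [cS, Matrix.cons_val] <;> (try split_ifs) <;> decide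
theorem h6_S9 : cS9 k 6 = cS9 k 0 ∨ Al (cS9 k) 6 := Or.inl rfl
theorem h7_S9 : cS9 k 7 = cS9 k 0 ∨ Al (cS9 k) 7 := Or.inl rfl
theorem h8_S9 : cS9 k 8 = cS9 k 0 ∨ Al (cS9 k) 8 := Or.inl rfl

end tables

/-! ### the split of the joint rates -/

section split

variable {c : Fin 9 → Fin 9} {dl : V9} {s k : ℝ} {Λ : V9 → ℝ} {φ : Fin 9 → V9 → ℝ} {ρ : V9}

theorem rx1 (H : Cl9 c dl s Λ φ ρ) (P : PlU k c dl) (hk : k = 1) :
    rE c φ + (1 - xE c φ) = ρ 3 := by
  obtain ⟨hc, hc', hd⟩ := P.c3 hk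
  have h0 : φ (c 3) 0 = 0 := by
    rw [H.rate 3 0 fun t' _ => by simp]; simp
  have h1 : φ (c 3) (e9 3 + (1:ℝ) • e9 2) = -(ρ 3 * (e9 3 + (1:ℝ) • e9 2) 3) := by
    refine H.rate 3 _ fun t' ht' => ?_
    rcases hc' t' (ht'.trans hc) with rfl | rfl
    · rw [add_e9_same, add_e9_ne (by decide), e9_same, e9_ne (by decide), hd]; ring
    · ring
  have h2 : (e9 3 + (1:ℝ) • e9 2) 3 = 1 := by rw [add_e9_ne (by decide), e9_same]
  have h3 : (0 + (1:ℝ) • e9 3) = e9 3 := by simp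
  unfold rE xE
  rw [← hc, h3, h0, h1, h2]
  ring

theorem rhh (H : Cl9 c dl s Λ φ ρ) (P : PlU k c dl) (hk : k = 1 / 2) :
    rE c φ / 2 + (1 - hE c φ) = ρ 5 := by
  obtain ⟨hc, hc', hd⟩ := P.c5 hk
  have h0 : φ (c 5) 0 = 0 := by
    rw [H.rate 5 0 fun t' _ => by simp]; simp
  have h1 : φ (c 5) (e9 2 + (2:ℝ) • e9 5) = -(ρ 5 * (e9 2 + (2:ℝ) • e9 5) 5) := by
    refine H.rate 5 _ fun t' ht' => ?_
    rcases hc' t' (ht'.trans hc) with rfl | rfl
    · rw [add_e9_same, add_e9_ne (by decide), e9_same, e9_ne (by decide), hd]; ring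
    · ring
  have h2 : (e9 2 + (2:ℝ) • e9 5) 5 = 2 := by rw [add_e9_same, e9_ne (by decide)]; ring
  rw [rE_half H P hk (wb := 0) rfl rfl]
  unfold hE
  have h3 : (0 + (1:ℝ) • e9 2) = e9 2 := by simp
  rw [h3, ← hc, h0, h1, h2]
  ring

end split

/-! ### `TV` in the letters of the class functions -/

/-- **tangential identity**, the record identity of the second tangent -/
theorem cls_T' {ι W τ : Type*} [Fintype ι] [DecidableEq ι] [Fintype W] [Fintype τ] [DecidableEq τ]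
    {Q : Walls ι W} {R : RS ι τ} {A B : τ → ℝ} {sg : ℝ} {y0 : ι → ℝ} {J : Type*}
    {g : J → (ι → ℝ) → ℝ} {j0 : J} {ρ : τ → ℝ} {κ l α : ℝ} {h : ℕ → ℝ} {lam : J → (ι → ℝ) → ℝ}
    {ρ2 : τ → ℝ} (H : Half Q R A B sg y0 g j0 ρ κ l α h lam ρ2) {R0 : Finset τ}
    (hR : ∀ t, ∃! t', t' ∈ R0 ∧ Par A B t t') : ∑ t ∈ R0, ρ2 t * A t = -(lam j0 (R.vec A)) := by
  have h1 := cls_T H hR
  have h2 := H.rcd 1
  rw [one_smul] at h2
  rw [h1, h2]

section tvU

variable {θ θb s g qa qb t l α v c' p : ℝ} {J : Type*} {lam lam2 : J → (Fin 12 → ℝ) → ℝ} {j0 : J}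
  {h : ℕ → ℝ} {Λ : V9 → ℝ} {φ : Fin 9 → V9 → ℝ}

/-- record identity of the second tangent, `D` frozen -/
theorem hT8 {B : Fin 8 → ℝ} {sg κ : ℝ} {ρ ρ2 : Fin 8 → ℝ}
    (H : Half8 θ θb t B sg lam j0 ρ κ l α h lam2 ρ2) (h0 : lam j0 0 = 0)
    (hrec : lam j0 (xt kp 0 (RL8.vec (nat8 1 (-θ) (-θb)))) = DL g s qa qb 1 (-θ) (-θb)) :
    lam2 j0 (xt kp 0 (RL8.vec (nat8 1 (-θ) (-θb)))) = DL g s qa qb 1 (-θ) (-θb) := by
  have h1 := H.rcd 1
  rw [one_smul] at h1
  rw [h1, xt_zero8, h0, sub_zero, hrec]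

/-- record identity of the second tangent, `D` live -/
theorem hT9 {B : Fin 9 → ℝ} {sg κ : ℝ} {ρ ρ2 : Fin 9 → ℝ}
    (H : Half9 θ θb B sg lam j0 ρ κ l α h lam2 ρ2) (h0 : lam j0 0 = 0)
    (hrec : lam j0 (RL9.vec (nat9 1 (-θ) (-θb))) = DL g s qa qb 1 (-θ) (-θb)) :
    lam2 j0 (RL9.vec (nat9 1 (-θ) (-θb))) = DL g s qa qb 1 (-θ) (-θb) := by
  have h1 := H.rcd 1
  rw [one_smul] at h1
  rw [h1, h0, sub_zero, hrec]

/-- **`TV` of the plane `oS`, all `k = θ - θb > 0`** -/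
theorem tvU8 {k : ℝ} {ρ ρ2 : Fin 8 → ℝ} {c : Fin 9 → Fin 9} {dl : V9} {y : ℝ}
    (H : Half8 θ θb t oS 1 lam j0 ρ (DL g s qa qb 0 1 1) l α h lam2 ρ2)
    (hT : lam2 j0 (xt kp 0 (RL8.vec (nat8 1 (-θ) (-θb)))) = DL g s qa qb 1 (-θ) (-θb))
    (hk : 0 < k) (hθ : 0 < θ) (hb : θb = θ - k) (C : Cl9 c dl s Λ φ (sn8 ρ2 y))
    (P : PlU k c dl) :
    TV θ θb s g qa qb (ρ2 0) (ρ2 1) (rE c φ) (1 - xE c φ) (ρ2 4) (1 - hE c φ) := by
  by_cases h1 : k = 1
  · have a1 := cls_T' H (rep_oS1 (by linarith) (by linarith))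
    have a2 := cls_V H (rep_oS1 (by linarith) (by linarith))
    have a3 : rE c φ + (1 - xE c φ) = ρ2 3 := rx1 C P h1
    have a5 : (1 - hE c φ) = ρ2 5 := by
      rw [hE_al C (P.a5 (by rw [h1]; norm_num))]
      show 1 - (1 - ρ2 5) = _
      ring
    simp only [hT] at a1
    rw [Finset.sum_insert (by decide), Finset.sum_insert (by decide),
      Finset.sum_insert (by decide), Finset.sum_insert (by decide), Finset.sum_singleton] at a1 a2
    unfold DL at a1 a2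
    rw [← a3, ← a5] at a1 a2
    have e : θb = θ - 1 := by rw [hb, h1]
    ev8
    exact ⟨by rw [e] at a1 ⊢; linarith, by linarith⟩
  have a3 : (1 - xE c φ) = ρ2 3 := by
    rw [xE_al C (P.a3 h1)]
    show 1 - (1 - ρ2 3) = _
    ring
  by_cases h2 : k = 1 / 2
  · have a1 := cls_T' H (rep_oSh (by linarith) (by linarith))
    have a2 := cls_V H (rep_oSh (by linarith) (by linarith))
    have a5 : rE c φ / 2 + (1 - hE c φ) = ρ2 5 := rhh C P h2
    simp only [hT] at a1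
    rw [Finset.sum_insert (by decide), Finset.sum_insert (by decide),
      Finset.sum_insert (by decide), Finset.sum_insert (by decide), Finset.sum_singleton] at a1 a2
    unfold DL at a1 a2
    rw [← a3, ← a5] at a1 a2
    have e : θb = θ - 1 / 2 := by rw [hb, h2]
    ev8
    exact ⟨by rw [e] at a1 ⊢; linarith, by linarith⟩
  · have a1 := cls_T' H (rep_oS (by linarith) (by linarith) (fun h => h1 (by linarith))
      (fun h => h2 (by linarith)))
    have a2 := cls_V H (rep_oS (by linarith) (by linarith) (fun h => h1 (by linarith))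
      (fun h => h2 (by linarith)))
    have a4 : rE c φ = ρ2 2 := rE_al C (P.a2 h1 h2)
    have a5 : (1 - hE c φ) = ρ2 5 := by
      rw [hE_al C (P.a5 h2)]
      show 1 - (1 - ρ2 5) = _
      ring
    simp only [hT] at a1
    rw [Finset.sum_insert (by decide), Finset.sum_insert (by decide),
      Finset.sum_insert (by decide), Finset.sum_insert (by decide), Finset.sum_insert (by decide),
      Finset.sum_singleton] at a1 a2
    unfold DL at a1 a2
    rw [← a3, ← a4, ← a5] at a1 a2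
    ev8
    exact ⟨by linarith, by linarith⟩

/-- **`TV` of the plane `oS9`, all `k = θ - θb > 0`** -/
theorem tvU9 {k : ℝ} {ρ ρ2 : Fin 9 → ℝ} {c : Fin 9 → Fin 9} {dl : V9}
    (H : Half9 θ θb oS9 1 lam j0 ρ (DL g s qa qb 0 1 1) l α h lam2 ρ2)
    (hT : lam2 j0 (RL9.vec (nat9 1 (-θ) (-θb))) = DL g s qa qb 1 (-θ) (-θb))
    (hk : 0 < k) (hk1 : 1 < θ + k) (hθ : 0 < θ) (hb : θb = θ - k) (C : Cl9 c dl s Λ φ ρ2)
    (P : PlU k c dl) :
    TV θ θb s g qa qb (ρ2 0) (ρ2 1) (rE c φ) (1 - xE c φ) (ρ2 4) (1 - hE c φ) := by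
  by_cases h1 : k = 1
  · have a1 := cls_T' H (rep_oS91 hθ (by linarith) (by linarith))
    have a2 := cls_V H (rep_oS91 hθ (by linarith) (by linarith))
    have a3 : rE c φ + (1 - xE c φ) = ρ2 3 := rx1 C P h1
    have a5 : (1 - hE c φ) = ρ2 5 := by
      rw [hE_al C (P.a5 (by rw [h1]; norm_num))]
      ring
    simp only [hT] at a1
    rw [Finset.sum_insert (by decide), Finset.sum_insert (by decide),
      Finset.sum_insert (by decide), Finset.sum_insert (by decide), Finset.sum_singleton] at a1 a2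
    unfold DL at a1 a2
    rw [← a3, ← a5] at a1 a2
    have e : θb = θ - 1 := by rw [hb, h1]
    ev9
    exact ⟨by rw [e] at a1 ⊢; linarith, by linarith⟩
  have a3 : (1 - xE c φ) = ρ2 3 := by
    rw [xE_al C (P.a3 h1)]
    ring
  by_cases h2 : k = 1 / 2
  · have a1 := cls_T' H (rep_oS9h hθ (by linarith) (by linarith))
    have a2 := cls_V H (rep_oS9h hθ (by linarith) (by linarith))
    have a5 : rE c φ / 2 + (1 - hE c φ) = ρ2 5 := rhh C P h2
    simp only [hT] at a1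
    rw [Finset.sum_insert (by decide), Finset.sum_insert (by decide),
      Finset.sum_insert (by decide), Finset.sum_insert (by decide), Finset.sum_singleton] at a1 a2
    unfold DL at a1 a2
    rw [← a3, ← a5] at a1 a2
    have e : θb = θ - 1 / 2 := by rw [hb, h2]
    ev9
    exact ⟨by rw [e] at a1 ⊢; linarith, by linarith⟩
  · have a1 := cls_T' H (rep_oS9 hθ (by linarith) (by linarith) (fun h => h1 (by linarith))
      (fun h => h2 (by linarith)))
    have a2 := cls_V H (rep_oS9 hθ (by linarith) (by linarith) (fun h => h1 (by linarith))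
      (fun h => h2 (by linarith)))
    have a4 : rE c φ = ρ2 2 := rE_al C (P.a2 h1 h2)
    have a5 : (1 - hE c φ) = ρ2 5 := by
      rw [hE_al C (P.a5 h2)]
      ring
    simp only [hT] at a1
    rw [Finset.sum_insert (by decide), Finset.sum_insert (by decide),
      Finset.sum_insert (by decide), Finset.sum_insert (by decide), Finset.sum_insert (by decide),
      Finset.sum_singleton] at a1 a2
    unfold DL at a1 a2
    rw [← a3, ← a4, ← a5] at a1 a2
    ev9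
    exact ⟨by linarith, by linarith⟩

end tvU

/-! ### the rate of `C_a` on the two sides of the `κ`-plane -/

section kU

variable {θ θb k : ℝ}

/-- `κ`-tie : rate of `C_a` on `T⁺` ≤ rate on `T⁻` -/
theorem ant_kU {t : ℝ} {lam : (Fin 12 → ℝ) → ℝ} {M : Set (K8 → ℝ)}
    {c₁ c₂ : ℝ} {ρ₁ ρ₂ : Fin 8 → ℝ}
    (hs : SupOn (fun c => lam (xt kp 0 c)) M) (hθ : 0 < θ) (hk : 0 < k) (hc₁ : 0 < c₁)
    (hc₂ : 0 < c₂) (hb : θb = 2 * θ - k)
    (hM₁ : (srf8 θ θb t kD (-1)).LW (Q8 t) c₁ ⊆ M)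
    (hM₂ : (srf8 θ θb t kU 1).LW (Q8 t) c₂ ⊆ M)
    (r₁ : Rates8 θ θb t kD (-1) c₁ lam ρ₁) (r₂ : Rates8 θ θb t kU 1 c₂ lam ρ₂) :
    ρ₂ 1 ≤ ρ₁ 1 := by
  refine cl8 hs hθ (sok_kD hθ hk hb) (sok_kU hθ hk hb) (aln_kD hθ hk hb)
    (aln_kU hθ hk hb) hc₁ hc₂ hM₁ hM₂ r₁ r₂ (-2) 0 θ θ hθ hθ ?_ ?_
  · subst hb
    refine all8 ?_ ?_ ?_ ?_ ?_ ?_ ?_ ?_ <;> ev8 <;> nlinarith
  · ev8; ring

/-- `κ`-tie, `k > 1` : rate of `C_a` on `T⁺` ≤ rate on `T⁻` -/
theorem ant_kU9 {lam : (Fin 12 → ℝ) → ℝ} {M : Set (Fin 12 → ℝ)}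
    {c₁ c₂ : ℝ} {ρ₁ ρ₂ : Fin 9 → ℝ}
    (hs : SupOn lam M) (hθ : 0 < θ) (hk : 1 < k) (hc₁ : 0 < c₁)
    (hc₂ : 0 < c₂) (hb : θb = 2 * θ - k)
    (hM₁ : (srf9 θ θb kD9 (-1)).LW (mw monL) c₁ ⊆ M)
    (hM₂ : (srf9 θ θb kU9 1).LW (mw monL) c₂ ⊆ M)
    (r₁ : Rates9 θ θb kD9 (-1) c₁ lam ρ₁) (r₂ : Rates9 θ θb kU9 1 c₂ lam ρ₂) :
    ρ₂ 1 ≤ ρ₁ 1 := by
  refine cl9' hs hθ (sok_kD9 hk hb) (sok_kU9 hk hb) (aln_kD9 hθ hk hb)
    (aln_kU9 hθ hk hb) hc₁ hc₂ hM₁ hM₂ r₁ r₂ (-2) 0 θ θ hθ hθ ?_ ?_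
  · subst hb
    refine all9 ?_ ?_ ?_ ?_ ?_ ?_ ?_ ?_ ?_ <;> ev9 <;> nlinarith
  · ev9; ring

end kU

/-! ### the record identity -/

section rec

variable {θ θb s g qa qb t : ℝ} {a b : Fin 2} {Vis : Fin 12 → Prop}
  {lam : (Fin 12 → ℝ) → ℝ}

theorem xt_ntD (v c p : ℝ) : xt kp 0 (RL8.vec (nat8 v c p)) = ntD 0 v c p := b8_nat _ _ _

/-- record identity, `D` frozen -/
theorem recD8 (hrx : Rx (L8 θ θb t) (ntD 0) s a b Vis θ θb g qa qb lam) :
    lam (xt kp 0 (RL8.vec (nat8 1 (-θ) (-θb)))) = DL g s qa qb 1 (-θ) (-θb) := by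
  have h1 := hrx.rcd 1
  rw [mul_one, mul_one] at h1
  rw [xt_ntD]; exact h1

/-- record identity, `D` live -/
theorem recD9 (hrx : Rx coneL eL s a b Vis θ θb g qa qb lam) :
    lam (RL9.vec (nat9 1 (-θ) (-θb))) = DL g s qa qb 1 (-θ) (-θb) := by
  have h1 := hrx.rcd 1
  rw [mul_one, mul_one] at h1
  rw [RL9_nat]; exact h1

end rec

end Crest.Agent.R116.Tp139
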