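import Crest.Agent.R116.Tp8_139
import Crest.Agent.R116.Pd1_363

/-!
# R116 (K side, ties), the planes above the record: the fields of the tables (helper139)

* `eUpU`, `eUpNZU`, `dUpNZU`, `s1U` : `EUp'`, `EUpNZ`, `DUpNZ`, `S1` at class level
* `rg_e`, `rg_d8`, `rg_d9`, `rg_k`  : the regions `RgU`
* `eUp8`, `eUpNZ8`, `dUpNZ8`, `s1U8`, `eUp9` : the same from 363's `Pd8`, `Pd9`
-/

set_option autoImplicit false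
set_option linter.unusedVariables false
set_option linter.unusedSimpArgs false
set_option linter.unusedSectionVars false

open Set Filter Topology

namespace Crest.Agent.R116.Tp139

open Crest.Agent.R136
open Dg219 (Walls mw)
open Sl741 (slice xt rs)
open RbK219 RbM219 Kz647
open ChL222 (monL)
open Tie460
open Sg337 (DL coneL)
open Crest.Agent.R116.Tq741
open Crest.Agent.R116.Tq126 (cS cS9 sn8)
open Crest.Agent.R116.Rcx363 (Rx ntD Out8 Out9)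
open Crest.Agent.R116.Pd363
open Crest.Agent.R116.PL504 (eL)

/-! ### class level -/

section cls

variable {c : Fin 9 → Fin 9} {dl : V9} {s θ g qa qb k k' k'' κ : ℝ} {Λ : V9 → ℝ}
  {φ : Fin 9 → V9 → ℝ} {ρ : V9} {Sk Sg : V9 → Prop} {A : Pl}

/-- **`EUp'`** -/
theorem eUpU (H : Cl9 c dl s Λ φ ρ) (P : PlU k c dl) (G : RgU k k' k'' Sk Sg)
    (F : Fct9 Sk s Λ) (hs : 0 ≤ s) (h8 : c 8 = c 0 ∨ Al c 8) (h7 : c 7 = c 0 ∨ Al c 7)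
    (h6 : c 6 = c 0 ∨ Al c 6) (FU : k ≠ 1 → FctU k Sg Λ) (K3 : k = 1 → K3U c s φ ρ)
    (T : TV θ (θ - k) s g qa qb (ρ 0) (ρ 1) (rE c φ) (1 - xE c φ) (ρ 4) (1 - hE c φ))
    (ant : ρ 1 ≤ A.m) (pos : qa ≤ ρ 1) : ∃ B, EUp' k θ s g qa qb A B ∧ B.d = 0 :=
  ⟨plS s (ρ 0) (ρ 1) (rE c φ) (1 - xE c φ) (ρ 4) (1 - hE c φ),
    ⟨efU H P G F hs h8 h7 h6 FU K3, T.tan, T.ver, ant, pos⟩, rfl⟩

/-- **`EUpNZ`** -/
theorem eUpNZU (H : Cl9 c dl s Λ φ ρ) (P : PlU k c dl) (G : RgU k k' k'' Sk Sg)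
    (F : Fct9 Sk s Λ) (hs : 0 ≤ s) (h8 : c 8 = c 0 ∨ Al c 8) (h7 : c 7 = c 0 ∨ Al c 7)
    (h6 : c 6 = c 0 ∨ Al c 6) (hk : k ≠ 1) (FU : FctU k Sg Λ)
    (T : TV θ (θ - k) s g qa qb (ρ 0) (ρ 1) (rE c φ) (1 - xE c φ) (ρ 4) (1 - hE c φ))
    (ant : ρ 1 ≤ A.m) (nz : ρ 4 = 1 → (1 + k - θ) * A.n ≤ A.e + k * A.w + (k + θ) * A.u) :
    ∃ B, EUpNZ k θ s g qa qb A B :=
  ⟨_, eUpNZ_of T ((efU H P G F hs h8 h7 h6 (fun _ => FU) fun h => absurd h hk).toEF hk) ant nz⟩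

/-- **`DUpNZ`** -/
theorem dUpNZU (H : Cl9 c dl s Λ φ ρ) (P : PlU k c dl) (G : RgU k k' k'' Sk Sg)
    (F : Fct9 Sk s Λ) (hk : k ≠ 1)
    (T : TV θ (θ - k) s g qa qb (ρ 0) (ρ 1) (rE c φ) (1 - xE c φ) (ρ 4) (1 - hE c φ))
    (ant : ρ 1 ≤ A.m)
    (nz : ρ 4 = 1 → (1 + κ - 2 * θ) * A.n ≤ A.e + (κ - θ) * A.w + κ * A.u) :
    ∃ B, DUpNZ k κ θ s g qa qb A B :=
  ⟨_, dUpNZ_of T (posU H P) (fanBU H P G F hk) ant nz⟩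

/-- **`S1`**, `κ = 2 θ - θb`, `k = θ - θb` -/
theorem s1U (H : Cl9 c dl s Λ φ ρ) (P : PlU k c dl) (G : RgU k k' k'' Sk Sg)
    (F : Fct9 Sk s Λ) (hk : k ≠ 1) (hκ : κ = k + θ)
    (T : TV θ (θ - k) s g qa qb (ρ 0) (ρ 1) (rE c φ) (1 - xE c φ) (ρ 4) (1 - hE c φ))
    (ant : ρ 1 ≤ A.m)
    (nz : ρ 4 = 1 → (1 + κ - 2 * θ) * A.n ≤ A.e + (κ - θ) * A.w + κ * A.u) :
    ∃ B, S1 κ θ s g qa qb A B := by
  have e : θ - k = 2 * θ - κ := by rw [hκ]; ring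
  rw [e] at T
  exact ⟨_, s1_of T (posU H P) (fanBU H P G F hk) ant nz⟩

end cls

/-! ### the regions -/

section rg

variable {k k' : ℝ}

/-- `e`-tie : only `B` is visible -/
theorem rg_e (hk : 0 < k) :
    RgU k (1 / 2) 1 (fun w => w 6 < k * w 0) (fun _ => True) where
  k0 := hk
  k1 := by norm_num
  k2 := one_pos
  sk := fun w h _ _ => h
  sg := fun w _ _ => trivial
  h12 := fun h => ⟨by norm_num, fun w h1 _ => by rw [h]; exact h1, fun w _ => trivial⟩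
  h11 := fun _ => ⟨by norm_num, by norm_num⟩

/-- `κ`-tie : only `E` is visible, `k' = 2 θ - θb` -/
theorem rg_k (hk : 0 < k) (hk' : 0 < k') (h1 : k' < 1) :
    RgU k k' 1 (fun w => w 7 < k' * w 0) (fun _ => True) where
  k0 := hk
  k1 := hk'
  k2 := one_pos
  sk := fun w _ h _ => h
  sg := fun w _ _ => trivial
  h12 := fun h => ⟨h1, fun w _ h2 => h2, fun w _ => trivial⟩
  h11 := fun _ => ⟨by linarith, by norm_num⟩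

/-- double tie, `D` invisible -/
theorem rg_d8 (hk : 0 < k) (hk' : 0 < k') (h12 : k = 1 / 2 → k' < 1) (h11 : k = 1 → k' ≤ 3) :
    RgU k k' 1 (fun w => w 6 < k * w 0 ∧ w 7 < k' * w 0) (fun w => w 7 < k' * w 0) where
  k0 := hk
  k1 := hk'
  k2 := one_pos
  sk := fun w h1 h2 _ => ⟨h1, h2⟩
  sg := fun w h _ => h
  h12 := fun h => ⟨h12 h, fun w h1 h2 => ⟨by rw [h]; exact h1, h2⟩, fun w h1 => h1⟩
  h11 := fun h => ⟨h11 h, by norm_num⟩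

/-- double tie, `D` visible -/
theorem rg_d9 (hk : 0 < k) (hk' : 1 < k') (h12 : k ≠ 1 / 2) (h11 : k = 1 → k' ≤ 3) :
    RgU k k' (k' - 1) (fun w => w 6 < k * w 0 ∧ w 7 < k' * w 0 ∧ w 8 < (k' - 1) * w 0)
      (fun w => w 7 < k' * w 0 ∧ w 8 < (k' - 1) * w 0) where
  k0 := hk
  k1 := by linarith
  k2 := by linarith
  sk := fun w h1 h2 h3 => ⟨h1, h2, h3⟩
  sg := fun w h1 h2 => ⟨h1, h2⟩
  h12 := fun h => absurd h h12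
  h11 := fun h => ⟨h11 h, by linarith [h11 h]⟩

end rg

/-! ### from the plane data -/

section eight

variable {R s : ℝ} {a b : Fin 2} {Vis Vis' : Fin 12 → Prop} {θ θb g qa qb w0 sa sb v0 t : ℝ}
    {f : Fin 2 → (Fin 12 → ℝ) → ℝ}
    {X : ℕ → Fin 12 → ℝ} {h' H : ℕ → ℝ} {lam lam2 : Fin 2 → (Fin 12 → ℝ) → ℝ}
    {l α k k' k'' κ : ℝ} {ρ ρ2 : Fin 8 → ℝ} {Sk Sg : V9 → Prop} {A : Pl}

/-- the class function of a plane, `D` frozen -/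
def LamU (lam2 : (Fin 12 → ℝ) → ℝ) : V9 → ℝ :=
  fun w => lam2 (xt kp 0 (RL8.vec (fun i : Fin 8 => w i.castSucc)))

/-- the slopes of `oS` -/
noncomputable def dS (θ θb : ℝ) : V9 := sn8 (dl (nat8 1 (-θ) (-θb)) oS 1) 1

variable (P : Pd8 R s a b Vis' θ θb w0 sa sb v0 t (DL g s qa qb 0 1 1) oS 1 f lam ρ l α h' X H
    lam2 ρ2)
  (hT : lam2 0 (xt kp 0 (RL8.vec (nat8 1 (-θ) (-θb)))) = DL g s qa qb 1 (-θ) (-θb))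
  (ht : 0 < t) (hθ : 0 < θ) (hk : 0 < k) (hb : θb = θ - k)
  (hV : ∀ j, Vis' j → j = 0 ∨ j = 1 ∨ j = 2 ∨ j = 7 ∨ j = 8)
include P hT ht hθ hk hb hV

/-- **classes and numbers of `oS`** -/
theorem data8 : ∃ φ, Cl9 (cS k) (dS θ θb) s (LamU (lam2 0)) φ (sn8 ρ2 0) ∧
    PlU k (cS k) (dS θ θb) ∧
    TV θ (θ - k) s g qa qb (sn8 ρ2 0 0) (sn8 ρ2 0 1) (rE (cS k) φ) (1 - xE (cS k) φ)
      (sn8 ρ2 0 4) (1 - hE (cS k) φ) := by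
  obtain ⟨φ, C⟩ := P.cls ht (sok_oS (by linarith) (by linarith)) hV
    (fun i j => Tq126.hc_oS hθ hk hb i j) Tq126.h8_cS
    (fun i h => Tq126.hz_oS hθ hk hb i h)
  have PU : PlU k (cS k) (sn8 (dl (nat8 1 (-θ) (-θb)) oS 1) 1) := plU_S
  refine ⟨φ, C, PU, ?_⟩
  have T := tvU8 P.half hT hk hθ hb C PU
  rw [hb] at T
  exact T

variable (hs : 0 ≤ s) (G : RgU k k' k'' Sk Sg) (F : Fct9 Sk s (LamU (lam2 0)))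
include hs G F

/-- **`EUp'` from `oS`** -/
theorem eUp8 (FU : k ≠ 1 → FctU k Sg (LamU (lam2 0)))
    (K3 : k = 1 → ∀ φ, Cl9 (cS k) (dS θ θb) s (LamU (lam2 0)) φ (sn8 ρ2 0) →
      K3U (cS k) s φ (sn8 ρ2 0)) (ant : ρ2 1 ≤ A.m) (pos : qa ≤ ρ2 1) :
    ∃ B, EUp' k θ s g qa qb A B ∧ B.d = 0 := by
  obtain ⟨φ, C, PU, T⟩ := data8 P hT ht hθ hk hb hV
  exact eUpU C PU G F hs h8_S h7_S h6_S FU (fun h => K3 h φ C) T ant pos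

/-- **`EUpNZ` from `oS`** -/
theorem eUpNZ8 (hk1 : k ≠ 1) (FU : FctU k Sg (LamU (lam2 0))) (ant : ρ2 1 ≤ A.m)
    (nz : ρ2 4 = 1 → (1 + k - θ) * A.n ≤ A.e + k * A.w + (k + θ) * A.u) :
    ∃ B, EUpNZ k θ s g qa qb A B := by
  obtain ⟨φ, C, PU, T⟩ := data8 P hT ht hθ hk hb hV
  exact eUpNZU C PU G F hs h8_S h7_S h6_S hk1 FU T ant nz

/-- **`DUpNZ` from `oS`** -/
theorem dUpNZ8 (hk1 : k ≠ 1) (ant : ρ2 1 ≤ A.m)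
    (nz : ρ2 4 = 1 → (1 + κ - 2 * θ) * A.n ≤ A.e + (κ - θ) * A.w + κ * A.u) :
    ∃ B, DUpNZ k κ θ s g qa qb A B := by
  obtain ⟨φ, C, PU, T⟩ := data8 P hT ht hθ hk hb hV
  exact dUpNZU C PU G F hk1 T ant nz

/-- **`S1` from `oS`** -/
theorem s1U8 (hk1 : k ≠ 1) (hκ : κ = k + θ) (ant : ρ2 1 ≤ A.m)
    (nz : ρ2 4 = 1 → (1 + κ - 2 * θ) * A.n ≤ A.e + (κ - θ) * A.w + κ * A.u) :
    ∃ B, S1 κ θ s g qa qb A B := by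
  obtain ⟨φ, C, PU, T⟩ := data8 P hT ht hθ hk hb hV
  exact s1U C PU G F hk1 hκ T ant nz

end eight

/-- record identity over 363's `Out8` -/
theorem hT_out8 {R s : ℝ} {a b : Fin 2} {Vis Vis' : Fin 12 → Prop}
    {θ θb g qa qb w0 sa sb v0 t κ : ℝ} {T : Type*} {Bs : T → Fin 8 → ℝ} {sgs : T → ℝ}
    {f : Fin 2 → (Fin 12 → ℝ) → ℝ} {x X : ℕ → Fin 12 → ℝ} {hh h' H : ℕ → ℝ}
    {lam lam2 : Fin 2 → (Fin 12 → ℝ) → ℝ} {B : Fin 8 → ℝ} {sg l α : ℝ} {ρ ρ2 : Fin 8 → ℝ}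
    {x0 : Fin 12 → ℝ}
    (O : Out8 R s a b Vis θ θb g qa qb t Bs sgs x0 f x hh lam)
    (P : Pd8 R s a b Vis' θ θb w0 sa sb v0 t κ B sg f lam ρ l α h' X H lam2 ρ2) :
    lam2 0 (xt kp 0 (RL8.vec (nat8 1 (-θ) (-θb)))) = DL g s qa qb 1 (-θ) (-θb) :=
  hT8 P.half (O.zero 0) (recD8 O.rx)

/-- record identity over 363's `Out9` -/
theorem hT_out9 {R s : ℝ} {a b : Fin 2} {Vis Vis' : Fin 12 → Prop}
    {θ θb g qa qb w0 sa sb v0 κ : ℝ} {T : Type*} {Bs : T → Fin 9 → ℝ} {sgs : T → ℝ}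
    {f : Fin 2 → (Fin 12 → ℝ) → ℝ} {x X : ℕ → Fin 12 → ℝ} {hh h' H : ℕ → ℝ}
    {lam lam2 : Fin 2 → (Fin 12 → ℝ) → ℝ} {B : Fin 9 → ℝ} {sg l α : ℝ} {ρ ρ2 : Fin 9 → ℝ}
    {x0 : Fin 12 → ℝ}
    (O : Out9 R s a b Vis θ θb g qa qb Bs sgs x0 f x hh lam)
    (P : Pd9 R s a b Vis' θ θb w0 sa sb v0 κ B sg f lam ρ l α h' X H lam2 ρ2) :
    lam2 0 (RL9.vec (nat9 1 (-θ) (-θb))) = DL g s qa qb 1 (-θ) (-θb) :=
  hT9 P.half (O.zero 0) (recD9 O.rx)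

/-- the rates of the slots which move with the record are those of the surface -/
theorem m_eq8 {R s : ℝ} {a b : Fin 2} {Vis' : Fin 12 → Prop}
    {θ θb w0 sa sb v0 t κ : ℝ} {f : Fin 2 → (Fin 12 → ℝ) → ℝ} {X : ℕ → Fin 12 → ℝ}
    {h' H : ℕ → ℝ} {lam lam2 : Fin 2 → (Fin 12 → ℝ) → ℝ} {B : Fin 8 → ℝ} {sg l α : ℝ}
    {ρ ρ2 : Fin 8 → ℝ} (hθ : 0 < θ)
    (P : Pd8 R s a b Vis' θ θb w0 sa sb v0 t κ B sg f lam ρ l α h' X H lam2 ρ2) :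
    ρ2 1 = ρ 1 := P.half.eq 1 (A1_ne hθ)

theorem m_eq9 {R s : ℝ} {a b : Fin 2} {Vis' : Fin 12 → Prop}
    {θ θb w0 sa sb v0 κ : ℝ} {f : Fin 2 → (Fin 12 → ℝ) → ℝ} {X : ℕ → Fin 12 → ℝ}
    {h' H : ℕ → ℝ} {lam lam2 : Fin 2 → (Fin 12 → ℝ) → ℝ} {B : Fin 9 → ℝ} {sg l α : ℝ}
    {ρ ρ2 : Fin 9 → ℝ} (hθ : 0 < θ)
    (P : Pd9 R s a b Vis' θ θb w0 sa sb v0 κ B sg f lam ρ l α h' X H lam2 ρ2) :
    ρ2 1 = ρ 1 := P.half.eq 1 (A1_ne9 hθ)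

section nine

variable {R s : ℝ} {a b : Fin 2} {Vis Vis' : Fin 12 → Prop} {θ θb g qa qb w0 sa sb v0 : ℝ}
    {f : Fin 2 → (Fin 12 → ℝ) → ℝ}
    {X : ℕ → Fin 12 → ℝ} {h' H : ℕ → ℝ} {lam lam2 : Fin 2 → (Fin 12 → ℝ) → ℝ}
    {l α k k' k'' κ : ℝ} {ρ ρ2 : Fin 9 → ℝ} {Sk Sg : V9 → Prop} {A : Pl}

/-- the slopes of `oS9` -/
noncomputable def dS9 (θ θb : ℝ) : V9 := dl (nat9 1 (-θ) (-θb)) oS9 1

variable (P : Pd9 R s a b Vis' θ θb w0 sa sb v0 (DL g s qa qb 0 1 1) oS9 1 f lam ρ l α h' X H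
    lam2 ρ2)
  (hT : lam2 0 (RL9.vec (nat9 1 (-θ) (-θb))) = DL g s qa qb 1 (-θ) (-θb))
  (hθ : 0 < θ) (hk : 0 < k) (hk1 : 1 < θ + k) (hb : θb = θ - k)
  (hV : ∀ j, Vis' j → j = 0 ∨ j = 1 ∨ j = 2 ∨ j = 7 ∨ j = 8)
include P hT hθ hk hk1 hb hV

/-- **classes and numbers of `oS9`** -/
theorem data9 : ∃ φ, Cl9 (cS9 k) (dS9 θ θb) s (fun w => lam2 0 (RL9.vec w)) φ ρ2 ∧
    PlU k (cS9 k) (dS9 θ θb) ∧
    TV θ (θ - k) s g qa qb (ρ2 0) (ρ2 1) (rE (cS9 k) φ) (1 - xE (cS9 k) φ)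
      (ρ2 4) (1 - hE (cS9 k) φ) := by
  obtain ⟨φ, C⟩ := P.cls (sok_oS9 (by linarith) (by linarith) hθ) hV
    (fun i j => Tq126.hc_oS9 hθ hk hk1 hb i j)
    (fun i h => Tq126.hz_oS9 hθ hk hk1 hb i h) (Tq126.hG_oS9 hθ hk hk1 hb)
  have PU : PlU k (cS9 k) (dl (nat9 1 (-θ) (-θb)) oS9 1) := plU_S9
  refine ⟨φ, C, PU, ?_⟩
  have T := tvU9 P.half hT hk hk1 hθ hb C PU
  rw [hb] at T
  exact T

/-- **`EUp'` from `oS9`** -/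
theorem eUp9 (hs : 0 ≤ s) (G : RgU k k' k'' Sk Sg)
    (F : Fct9 Sk s (fun w => lam2 0 (RL9.vec w)))
    (FU : k ≠ 1 → FctU k Sg (fun w => lam2 0 (RL9.vec w)))
    (K3 : k = 1 → ∀ φ, Cl9 (cS9 k) (dS9 θ θb) s (fun w => lam2 0 (RL9.vec w)) φ ρ2 →
      K3U (cS9 k) s φ ρ2) (ant : ρ2 1 ≤ A.m) (pos : qa ≤ ρ2 1) :
    ∃ B, EUp' k θ s g qa qb A B ∧ B.d = 0 := by
  obtain ⟨φ, C, PU, T⟩ := data9 P hT hθ hk hk1 hb hV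
  exact eUpU C PU G F hs h8_S9 h7_S9 h6_S9 FU (fun h => K3 h φ C) T ant pos

end nine

end Crest.Agent.R116.Tp139
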