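import Crest.Agent.R116.Tk0_741
import Crest.Agent.R116.Tq4_126
import Crest.Agent.R116.Pos3_126
import Crest.Agent.R116.Pd1_363
import Crest.Agent.R116.Tp2_139

/-!
# R116 (K side, ties), the plane above the record of a `κ`-tie (helper126)

* `TVk.ver'`, **`kUp_of`** : `KF'`, `TVk`, `ant`, `pos` give `KUp'`
* `T9`, `V9`, `T8`, `V8` : record identity and D-max row of a plane in the letters of `nat9`
* `plk9_U`, `plk9_D`, `plk8_U`, `plk8_D`, `plk1_U`, `plk1_D` : the class data of the `κ`-planes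
* **`kU9up`** : `KUp'` for `k > 1` from `Out9`
-/

set_option autoImplicit false
set_option linter.unusedVariables false
set_option linter.unusedSectionVars false

open Set Filter Topology MeasureTheory

namespace Crest.Agent.R116.Ku126

open Crest.Agent.R136
open Crest.Agent.R136.Net191
open Crest.Agent.R138.Ex926 (IsTan)
open Crest.Agent.R116.ChL222
open Crest.Agent.R116.PL504 (eL βL rL)
open Crest.Agent.R116.Sg337 (coneL DL)
open Crest.Agent.R116.RbM219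
open Crest.Agent.R116.RbK219 (SOk RS Par dl)
open Crest.Agent.R116.SgO219 (PP)
open Crest.Agent.R116.Kz647
open Crest.Agent.R116.Rcx363
open Crest.Agent.R116.Pd363
open Crest.Agent.R116.Tq741
open Crest.Agent.R116.Tq126
open Crest.Agent.R116.Tp139
open Dg219 (mw)
open Sl741 (slice xt rs)
open Tie460 (Pl KF' KUp')

/-! ### class level -/

section alg

variable {k θ s g qa qb v a : ℝ} {A B : Pl}

/-- the vertical exit on the side above -/
theorem TVk.ver' (h : TVk k θ s g qa qb v a A) (hva : 0 < a + θ * v) :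
    A.Fa qa + 2 * A.Fb qb ≤ 0 := by
  have h1 := h.tan
  have h2 := h.V
  have key : 0 ≤ -(a + θ * v) * (A.Fa qa + 2 * A.Fb qb) := by
    unfold Pl.Tan at h1
    unfold Pl.Fa Pl.Fb at *
    have h3 := congrArg (fun x => v * x) h1
    linarith
  by_contra hcon
  push Not at hcon
  nlinarith

/-- **`KUp'`** -/
theorem kUp_of (F : KF' s k B) (tv : TVk k θ s g qa qb v a B) (hva : 0 < a + θ * v)
    (ant : k = 1 → B.m ≤ A.m) (pos : qa ≤ B.m) : KUp' k θ s g qa qb A B where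
  F := F
  tan := tv.tan
  ver := TVk.ver' tv hva
  ant := ant
  pos := pos

end alg

/-! ### tables -/

section tables

variable {θ θb k : ℝ}

theorem par9 (hk : 1 < k) (t t' : Fin 9) : cK9 k t = cK9 k t' ↔ PK9 k t t' := by
  have h1 : ¬ k = 1 := hk.ne'
  have h3 : ¬ k = 1 / 2 := fun h => by rw [h] at hk; norm_num at hk
  by_cases h2 : k = 2
  · have e : cK9 k = ![0, 1, 2, 2, 4, 5, 6, 0, 0] := by
      unfold cK9; simp only [if_pos h2, if_neg h1, if_neg h3]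
    rw [e]
    simp only [PK9, h2, true_and]
    revert t t'
    decide
  · have e : cK9 k = ![0, 1, 2, 3, 4, 5, 6, 0, 0] := by
      unfold cK9; simp only [if_neg h2, if_neg h1, if_neg h3]
    rw [e]
    simp only [PK9, h2, false_and, or_false]
    revert t t'
    decide

theorem par8 (hk : 0 < k) (hk1 : k < 1) (t t' : Fin 9) : cK k t = cK k t' ↔ PK k t t' := by
  have h1 : ¬ k = 1 := hk1.ne
  have h2 : ¬ k = 2 := fun h => by rw [h] at hk1; norm_num at hk1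
  by_cases h3 : k = 1 / 2
  · have e : cK k = ![0, 1, 2, 3, 4, 5, 5, 0, 8] := by
      unfold cK; simp only [if_neg h2, if_neg h1, if_pos h3]
    rw [e]
    simp only [PK, h3, true_and]
    revert t t'
    decide
  · have e : cK k = ![0, 1, 2, 3, 4, 5, 6, 0, 8] := by
      unfold cK; simp only [if_neg h2, if_neg h1, if_neg h3]
    rw [e]
    simp only [PK, h3, false_and, or_false]
    revert t t'
    decide

theorem par1 (t t' : Fin 9) : cK 1 t = cK 1 t' ↔ PK1 t t' := by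
  have e : cK 1 = ![0, 1, 2, 3, 3, 2, 3, 0, 8] := by
    unfold cK
    have h2 : ¬ (1:ℝ) = 2 := by norm_num
    simp only [if_neg h2, if_true]
  rw [e]
  simp only [PK1]
  revert t t'
  decide

theorem plk9_U (hk : 1 < k) (hb : θb = 2 * θ - k) :
    PlK9 k (cK9 k) (dl (nat9 1 (-θ) (-θb)) kU9 1) where
  par := par9 hk
  d7 := by
    unfold dl
    rw [if_pos (by ev9; norm_num), if_pos (by ev9)]
    ev9; linarith
  d8 := by
    unfold dl
    rw [if_pos (by ev9; norm_num), if_pos (by ev9)]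
    ev9; linarith
  d2 := fun _ => by
    unfold dl
    rw [if_neg (by ev9; norm_num), if_neg (by ev9; norm_num)]
    ev9; norm_num

theorem plk9_D (hk : 1 < k) (hb : θb = 2 * θ - k) :
    PlK9 k (cK9 k) (dl (nat9 1 (-θ) (-θb)) kD9 (-1)) where
  par := par9 hk
  d7 := by
    unfold dl
    rw [if_pos (by ev9; norm_num), if_pos (by ev9)]
    ev9; linarith
  d8 := by
    unfold dl
    rw [if_pos (by ev9; norm_num), if_pos (by ev9)]
    ev9; linarith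
  d2 := fun _ => by
    unfold dl
    rw [if_neg (by ev9; norm_num), if_neg (by ev9; norm_num)]
    ev9; norm_num

theorem dU8 (hb : θb = 2 * θ - k) :
    dl (nat8 1 (-θ) (-θb)) kU 1 0 = 1 ∧ dl (nat8 1 (-θ) (-θb)) kU 1 7 = k ∧
    dl (nat8 1 (-θ) (-θb)) kU 1 5 = 2 ∧ dl (nat8 1 (-θ) (-θb)) kU 1 6 = 1 ∧
    dl (nat8 1 (-θ) (-θb)) kU 1 2 = 2 ∧ dl (nat8 1 (-θ) (-θb)) kU 1 3 = 1 ∧
    dl (nat8 1 (-θ) (-θb)) kU 1 4 = 2 := by
  refine ⟨?_, ?_, ?_, ?_, ?_, ?_, ?_⟩ <;> unfold dl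
  · rw [if_pos (by ev8)]; ev8
  · rw [if_pos (by ev8; norm_num)]; ev8; linarith
  · rw [if_neg (by ev8; norm_num)]; ev8; norm_num
  · rw [if_neg (by ev8; norm_num)]; ev8; norm_num
  · rw [if_neg (by ev8; norm_num)]; ev8; norm_num
  · rw [if_neg (by ev8; norm_num)]; ev8; norm_num
  · rw [if_neg (by ev8; norm_num)]; ev8; norm_num

theorem dD8 (hb : θb = 2 * θ - k) :
    dl (nat8 1 (-θ) (-θb)) kD (-1) 0 = 1 ∧ dl (nat8 1 (-θ) (-θb)) kD (-1) 7 = k ∧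
    dl (nat8 1 (-θ) (-θb)) kD (-1) 5 = 2 ∧ dl (nat8 1 (-θ) (-θb)) kD (-1) 6 = 1 ∧
    dl (nat8 1 (-θ) (-θb)) kD (-1) 2 = 2 ∧ dl (nat8 1 (-θ) (-θb)) kD (-1) 3 = 1 ∧
    dl (nat8 1 (-θ) (-θb)) kD (-1) 4 = 2 := by
  refine ⟨?_, ?_, ?_, ?_, ?_, ?_, ?_⟩ <;> unfold dl
  · rw [if_pos (by ev8)]; ev8
  · rw [if_pos (by ev8; norm_num)]; ev8; linarith
  · rw [if_neg (by ev8; norm_num)]; ev8; norm_num
  · rw [if_neg (by ev8; norm_num)]; ev8; norm_num
  · rw [if_neg (by ev8; norm_num)]; ev8; norm_num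
  · rw [if_neg (by ev8; norm_num)]; ev8; norm_num
  · rw [if_neg (by ev8; norm_num)]; ev8; norm_num

theorem sn8_at (f : Fin 8 → ℝ) (x : ℝ) :
    sn8 f x 0 = f 0 ∧ sn8 f x 1 = f 1 ∧ sn8 f x 2 = f 2 ∧ sn8 f x 3 = f 3 ∧ sn8 f x 4 = f 4 ∧
      sn8 f x 5 = f 5 ∧ sn8 f x 6 = f 6 ∧ sn8 f x 7 = f 7 ∧ sn8 f x 8 = x :=
  ⟨rfl, rfl, rfl, rfl, rfl, rfl, rfl, rfl, rfl⟩

theorem plk8_U (hk : 0 < k) (hk1 : k < 1) (hb : θb = 2 * θ - k) :
    PlK k (cK k) (sn8 (dl (nat8 1 (-θ) (-θb)) kU 1) 1) := by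
  obtain ⟨e0, -, -, -, -, e5, e6, e7, -⟩ := sn8_at (dl (nat8 1 (-θ) (-θb)) kU 1) 1
  obtain ⟨d0, d7, d5, d6, -, -, -⟩ := dU8 hb
  refine ⟨par8 hk hk1, ?_, fun _ => ?_⟩
  · rw [e7, e0, d7, d0, mul_one]
  · rw [e5, e6, d5, d6, mul_one]

theorem plk8_D (hk : 0 < k) (hk1 : k < 1) (hb : θb = 2 * θ - k) :
    PlK k (cK k) (sn8 (dl (nat8 1 (-θ) (-θb)) kD (-1)) 1) := by
  obtain ⟨e0, -, -, -, -, e5, e6, e7, -⟩ := sn8_at (dl (nat8 1 (-θ) (-θb)) kD (-1)) 1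
  obtain ⟨d0, d7, d5, d6, -, -, -⟩ := dD8 hb
  refine ⟨par8 hk hk1, ?_, fun _ => ?_⟩
  · rw [e7, e0, d7, d0, mul_one]
  · rw [e5, e6, d5, d6, mul_one]

theorem plk1_U (hb : θb = 2 * θ - 1) :
    PlK1 (cK 1) (sn8 (dl (nat8 1 (-θ) (-θb)) kU 1) 1) := by
  obtain ⟨e0, -, e2, e3, e4, e5, e6, e7, -⟩ := sn8_at (dl (nat8 1 (-θ) (-θb)) kU 1) 1
  obtain ⟨d0, d7, d5, d6, d2, d3, d4⟩ := dU8 hb
  refine ⟨par1, ?_, ?_, ?_, ?_⟩
  · rw [e7, e0, d7, d0]
  · rw [e5, e2, d5, d2]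
  · rw [e4, e3, d4, d3, mul_one]
  · rw [e6, e3, d6, d3]

theorem plk1_D (hb : θb = 2 * θ - 1) :
    PlK1 (cK 1) (sn8 (dl (nat8 1 (-θ) (-θb)) kD (-1)) 1) := by
  obtain ⟨e0, -, e2, e3, e4, e5, e6, e7, -⟩ := sn8_at (dl (nat8 1 (-θ) (-θb)) kD (-1)) 1
  obtain ⟨d0, d7, d5, d6, d2, d3, d4⟩ := dD8 hb
  refine ⟨par1, ?_, ?_, ?_, ?_⟩
  · rw [e7, e0, d7, d0]
  · rw [e5, e2, d5, d2]
  · rw [e4, e3, d4, d3, mul_one]
  · rw [e6, e3, d6, d3]

end tables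

end Crest.Agent.R116.Ku126
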