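import Crest.Agent.R116.Tq2_126

/-!
# R116 (K side, ties), `Cl9` from `OutS` and `FRates` (helper126)

* **`cl9_raw8`**, **`cl9_raw9`** : `cl9_of8`, `cl9_of9` without `Half8`, `Half9`
-/

set_option autoImplicit false
set_option linter.unusedSectionVars false
set_option linter.unusedVariables false

open Set Filter Topology Metric MeasureTheory
open scoped NNReal

namespace Crest.Agent.R116.Tq126

open Crest.Agent.R136
open Crest.Agent.R138
open Dg262 (X X_cont SupOn)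
open Dg219 (Tn lf det2 zz lf_zz Cone Sep Geo gset mem_gset Walls gC nC dhC gC_zero gC_eq nC_zero
  nC_of dirC exists_grpC OutS mw)
open Rc683 (Srf)
open RbK219
open RbM219
open SgO219 (PP)
open Sl741 (slice xt rs)
open Kz647
open ChL222 (monL)
open Crest.Agent.R116.PL504 (eL)
open Crest.Agent.R116.Xd954 (cs xs)
open Crest.Agent.R116.Sg337 (coneL DL)
open Crest.Agent.R116.Pos126 (mem8 mem9 xt8_apply vec9_apply xt8_le vec9_le cost_sum8 cost_sum9)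
open Crest.Agent.R116.Tq741

section eight

variable {θa θb t s sg : ℝ} {B : Fin 8 → ℝ} {a b : Fin 2}

/-- **`Cl9` from `OutS` and `FRates`, `D` frozen** -/
theorem cl9_raw8 (ht : 0 < t) (hS : SOk (nat8 1 (-θa) (-θb)) B sg)
    {lam2 : (Fin 12 → ℝ) → ℝ} {ρ2 : Fin 8 → ℝ} {D : ℝ × ℝ} {φ0 : ℕ → (K8 → ℝ) → ℝ} {r : ℕ → ℝ}
    (hO : OutS (srf8 θa θb t B sg).g ((srf8 θa θb t B sg).L (Q8 t)) (srf8 θa θb t B sg).dh
      (srf8 θa θb t B sg).n (fun c => lam2 (xt kp 0 c)) D φ0 r)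
    (hF : FRates RL8 (nat8 1 (-θa) (-θb)) B sg (fun c => lam2 (xt kp 0 c))
      ((srf8 θa θb t B sg).L (Q8 t)) ρ2)
    (P : PZ (L8B θa θb t B sg) s a b lam2) {c : Fin 9 → Fin 9}
    (hc : ∀ i j : Fin 8, c i.castSucc = c j.castSucc ↔ Par (nat8 1 (-θa) (-θb)) B i j)
    (h8 : ∀ i : Fin 8, c i.castSucc ≠ c 8)
    (hz : ∀ i : Fin 8, Par (nat8 1 (-θa) (-θb)) B 0 i → i = 0 ∨ i = 6 ∨ i = 7) :
    ∃ φ, Cl9 c (sn8 (dl (nat8 1 (-θa) (-θb)) B sg) 1) s
      (fun w => lam2 (xt kp 0 (RL8.vec (fun i => w i.castSucc)))) φ (sn8 ρ2 0) := by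
  obtain ⟨Φ, C⟩ := core_of (R := RL8) hS RL8_full hO hF (c := fun i => c i.castSucc) hc
  have hmem : ∀ w : V9, LegM 0 w → RL8.vec (cut w) ∈
      (RL8.srf (rs kp (y8 t)) (nat8 1 (-θa) (-θb)) B sg).L (Q8 t) := fun w hw =>
    mem8 ht.ne' (leg8_cut hw)
  have hcx : ∀ w : Fin 8 → ℝ, xt kp 0 (RL8.vec w) (cs b) = xt kp 0 (RL8.vec w) (cs a) ∧
      xt kp 0 (RL8.vec w) (xs b) = xt kp 0 (RL8.vec w) (xs a) := by
    intro w
    rw [xt8_apply, xt8_apply, xt8_apply, xt8_apply]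
    fin_cases a <;> fin_cases b <;> exact ⟨rfl, rfl⟩
  have hle : ∀ {w w' : V9}, w ≤ w' → cut w ≤ cut w' := fun h i => h _
  refine ⟨fun k w => Φ k (cut w), ⟨fun w hw => C.sum _ (hmem w hw), fun k w w' hww =>
    C.loc k _ _ fun i hi => hww _ hi, fun k hk w => C.empty k _ fun i => hk _,
    fun i w hw => ?_, ?_, fun w w' hw hw' hww => ?_, ?_,
    fun w w' hw hw' hww => ?_⟩⟩
  · -- rate
    refine Fin.lastCases ?_ (fun i => ?_) i (motive := fun i => (∀ t', c t' = c i →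
      w t' * sn8 (dl (nat8 1 (-θa) (-θb)) B sg) 1 i =
        w i * sn8 (dl (nat8 1 (-θa) (-θb)) B sg) 1 t') → Φ (c i) (cut w) = -(sn8 ρ2 0 i * w i)) hw
    · intro _
      have e : (Fin.last 8 : Fin 9) = 8 := rfl
      rw [e, C.empty _ _ fun i => h8 i, sn8_last]; ring
    · intro hw
      rw [sn8_cast]
      refine C.rate i (cut w) fun i' hi' => ?_
      have := hw i'.castSucc hi'
      rw [sn8_cast, sn8_cast] at this
      exact this
  · -- Lipschitz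
    refine ⟨⟨∑ i, RL8.mu i, Finset.sum_nonneg fun i _ => (RL8.pos i).le⟩, fun k => ?_⟩
    refine LipschitzOnWith.of_dist_le_mul fun w hw w' hw' => ?_
    rw [Real.dist_eq, dist_eq_norm]
    have h1 := C.lip (M := cut '' {w | LegM 0 w}) (by
      rintro _ ⟨v, hv, rfl⟩; exact hmem v hv) (by
      rintro _ ⟨v, hv, rfl⟩ _ ⟨v', hv', rfl⟩
      exact ⟨v ⊔ v', legM_sup hv hv', by funext i; rfl⟩) k (w := cut w) (w' := cut w')
      ⟨w, hw, rfl⟩ ⟨w', hw', rfl⟩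
    refine h1.trans ?_
    refine mul_le_mul_of_nonneg_left ?_ (Finset.sum_nonneg fun i _ => (RL8.pos i).le)
    rw [pi_norm_le_iff_of_nonneg (norm_nonneg _)]
    exact fun i => norm_le_pi_norm (w - w') i.castSucc
  · -- anti
    have h1 := C.sum _ (hmem w hw)
    have h2 := C.sum _ (hmem w' hw')
    have h3 : 0 ≤ ∑ k, (Φ k (cut w) - Φ k (cut w')) := Finset.sum_nonneg fun k _ =>
      (C.mono k _ _ (hmem w hw) (hmem w' hw') fun i _ => hle hww i).1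
    rw [Finset.sum_sub_distrib] at h3
    change lam2 (xt kp 0 (RL8.vec (cut w'))) ≤ lam2 (xt kp 0 (RL8.vec (cut w)))
    linarith
  · -- own
    obtain ⟨K, hK0, hK⟩ : ∃ K : ℝ, 0 ≤ K ∧ dz8 θa θb sg B 6 ≤ K :=
      ⟨_, dz8_nonneg hS 6, le_rfl⟩
    have hl1 := leg_w8 hK0
    have hl2 := leg_w8z hS hz hK
    have e : RL8.vec (w8 K + dz8 θa θb sg B) =
        RL8.vec (w8 K) + (1:ℝ) • RL8.eG (nat8 1 (-θa) (-θb)) B sg 0 := by
      rw [vec_dz8, one_smul, RS.vec_add]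
    have k1 := hF.grp 0 (RL8.vec (w8 K)) 0 1 (fun i hi => by
      have h1 := hz _ hi
      simp only [RS.vec, mul_zero]
      rcases h1 with h1 | h1 | h1 <;> rw [h1] <;> simp [w8]) (mem8 ht.ne' hl1) (by
      rw [← e]; exact mem8 ht.ne' hl2)
    rw [← e, mul_one] at k1
    have k2 := P.own _ (mem8B ht.ne' hl1) _ (mem8B ht.ne' hl2) (xt8_le fun i => by
      rw [Pi.add_apply]; linarith [dz8_nonneg hS i]) (by rw [xt8_apply]; simp [cl8, w8])
      (by rw [xt8_apply]; simp) (by rw [xt8_apply]; simp [cl8, w8])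
      (by rw [xt8_apply]; simp [cl8, w8]) (by rw [xt8_apply]; simp [cl8, w8])
    have k3 : xt kp 0 (RL8.vec (w8 K + dz8 θa θb sg B)) 0 = 1 := by
      rw [xt8_apply]
      simp [cl8, w8, dz8_zero hS]
    rw [k3, mul_one] at k2
    have e0 : sn8 ρ2 0 0 = ρ2 0 := rfl
    rw [e0]
    have k4 : lam2 (xt kp 0 (RL8.vec (w8 K))) -
        lam2 (xt kp 0 (RL8.vec (w8 K + dz8 θa θb sg B))) = ρ2 0 := k1
    linarith
  · -- cost
    have h1 := P.cost _ (mem8B ht.ne' (leg8_cut hw)) _ (mem8B ht.ne' (leg8_cut hw'))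
      (xt8_le (hle hww)) (Or.inr (hcx _).1.le) (Or.inr (hcx _).2.le)
    rw [cost_sum8 P.ab] at h1
    refine h1.trans ?_
    rw [Fin.sum_univ_eight]
    have e9 : ∀ f : Fin 9 → ℝ, ∑ t, f t =
        f 0 + f 1 + f 2 + f 3 + f 4 + f 5 + f 6 + f 7 + f 8 := by
      intro f
      rw [Fin.sum_univ_castSucc, Fin.sum_univ_eight]
      rfl
    rw [e9]
    have h8' : 0 ≤ w' 8 - w 8 := sub_nonneg.2 (hww 8)
    simp [cst, cut]
    linarith

end eight

section nine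

variable {θa θb s sg : ℝ} {B : Fin 9 → ℝ} {a b : Fin 2}

/-- **`Cl9` from `OutS` and `FRates`, `D` live** -/
theorem cl9_raw9 (hS : SOk (nat9 1 (-θa) (-θb)) B sg)
    {lam2 : (Fin 12 → ℝ) → ℝ} {ρ2 : Fin 9 → ℝ} {D : ℝ × ℝ} {φ0 : ℕ → (Fin 12 → ℝ) → ℝ}
    {r : ℕ → ℝ}
    (hO : OutS (srf9 θa θb B sg).g ((srf9 θa θb B sg).L (mw monL)) (srf9 θa θb B sg).dh
      (srf9 θa θb B sg).n lam2 D φ0 r)
    (hF : FRates RL9 (nat9 1 (-θa) (-θb)) B sg lam2 ((srf9 θa θb B sg).L (mw monL)) ρ2)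
    (P : PZ (L9B θa θb B sg) s a b lam2) {c : Fin 9 → Fin 9}
    (hc : ∀ i j : Fin 9, c i = c j ↔ Par (nat9 1 (-θa) (-θb)) B i j)
    (hz : ∀ i : Fin 9, Par (nat9 1 (-θa) (-θb)) B 0 i → i = 0 ∨ i = 6 ∨ i = 7 ∨ i = 8)
    (hG : Par (nat9 1 (-θa) (-θb)) B 0 7 → Par (nat9 1 (-θa) (-θb)) B 0 8 ∧
      dl (nat9 1 (-θa) (-θb)) B sg 7 ≤ dl (nat9 1 (-θa) (-θb)) B sg 0 +
        dl (nat9 1 (-θa) (-θb)) B sg 8) :
    ∃ φ, Cl9 c (dl (nat9 1 (-θa) (-θb)) B sg) s (fun w => lam2 (RL9.vec w)) φ ρ2 := by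
  obtain ⟨Φ, C⟩ := core_of (R := RL9) hS RL9_full hO hF (c := c) hc
  have hmem : ∀ w : V9, LegM 0 w → RL9.vec w ∈
      (RL9.srf 0 (nat9 1 (-θa) (-θb)) B sg).L (mw monL) := fun w hw => mem9L (leg9_of hw)
  have hcx : ∀ w : Fin 9 → ℝ, RL9.vec w (cs b) = RL9.vec w (cs a) ∧
      RL9.vec w (xs b) = RL9.vec w (xs a) := by
    intro w
    rw [vec9_apply, vec9_apply, vec9_apply, vec9_apply]
    fin_cases a <;> fin_cases b <;> exact ⟨rfl, rfl⟩
  refine ⟨Φ, ⟨fun w hw => C.sum _ (hmem w hw), C.loc, fun k hk w => C.empty k w hk, C.rate, ?_,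
    fun w w' hw hw' hww => ?_, ?_, fun w w' hw hw' hww => ?_⟩⟩
  · -- Lipschitz
    refine ⟨⟨∑ i, RL9.mu i, Finset.sum_nonneg fun i _ => (RL9.pos i).le⟩, fun k => ?_⟩
    refine LipschitzOnWith.of_dist_le_mul fun w hw w' hw' => ?_
    rw [Real.dist_eq, dist_eq_norm]
    exact C.lip (M := {w | LegM 0 w}) (fun v hv => hmem v hv)
      (fun v hv v' hv' => legM_sup hv hv') k hw hw'
  · -- anti
    have h1 := C.sum _ (hmem w hw)
    have h2 := C.sum _ (hmem w' hw')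
    have h3 : 0 ≤ ∑ k, (Φ k w - Φ k w') := Finset.sum_nonneg fun k _ =>
      (C.mono k _ _ (hmem w hw) (hmem w' hw') fun i _ => hww i).1
    rw [Finset.sum_sub_distrib] at h3
    change lam2 (RL9.vec w') ≤ lam2 (RL9.vec w)
    linarith
  · -- own
    obtain ⟨K, hK0, hK⟩ : ∃ K : ℝ, 0 ≤ K ∧ dz9 θa θb sg B 6 ≤ K :=
      ⟨_, dz9_nonneg hS 6, le_rfl⟩
    have hl1 := leg_w9 hK0
    have hl2 := leg_w9z hS hz (dz9_G hS hG) hK
    have e : RL9.vec (w9 K + dz9 θa θb sg B) =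
        RL9.vec (w9 K) + (1:ℝ) • RL9.eG (nat9 1 (-θa) (-θb)) B sg 0 := by
      rw [vec_dz9, one_smul, RS.vec_add]
    have k1 := hF.grp 0 (RL9.vec (w9 K)) 0 1 (fun i hi => by
      have h1 := hz _ hi
      simp only [RS.vec, mul_zero]
      rcases h1 with h1 | h1 | h1 | h1 <;> rw [h1] <;> simp [w9]) (mem9L hl1) (by
      rw [← e]; exact mem9L hl2)
    rw [← e, mul_one] at k1
    have k2 := P.own _ (mem9B hl1) _ (mem9B hl2) (vec9_le fun i => by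
      rw [Pi.add_apply]; linarith [dz9_nonneg hS i]) (by rw [vec9_apply]; simp [cl9, w9])
      (by rw [vec9_apply]; simp [cl9, w9]) (by rw [vec9_apply]; simp [cl9, w9])
      (by rw [vec9_apply]; simp [cl9, w9]) (by rw [vec9_apply]; simp [cl9, w9])
    have k3 : RL9.vec (w9 K + dz9 θa θb sg B) 0 = 1 := by
      rw [vec9_apply]
      simp [cl9, w9, dz9_zero hS]
    rw [k3, mul_one] at k2
    linarith
  · -- cost
    have h1 := P.cost _ (mem9B (leg9_of hw)) _ (mem9B (leg9_of hw'))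
      (vec9_le hww) (Or.inr (hcx _).1.le) (Or.inr (hcx _).2.le)
    rw [cost_sum9 P.ab] at h1
    refine h1.trans (le_of_eq ?_)
    refine Finset.sum_congr rfl fun i _ => ?_
    congr 1
    fin_cases i <;> rfl

end nine

end Crest.Agent.R116.Tq126
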