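import Mathlib

/-!
# R116, cell (H4) (e-tie, `k = 1`, `s ≥ 1/2`): the two-step argument (helper654; doc 24076)

* `grow` : a Lipschitz function of one variable whose derivative is a.e. `≥ γ` where it exists.
* `two_step` : there is no `f ≤ 0` on `[0,τ]²`, Lipschitz in each variable, `f (0,0) ≥ -γτ/8`,
  with a set `Hi` upward closed in the first variable such that a.e. `∂_a f ≥ γ` on `Hi` and
  a.e. `∂_b f ≥ γ` off `Hi`.
-/

set_option autoImplicit false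

open MeasureTheory Set Filter Topology
open scoped NNReal

namespace Crest.Agent.R116.Ts654

theorem grow {g : ℝ → ℝ} {K x y γ : ℝ} (hK : 0 ≤ K)
    (hg : ∀ t ∈ Icc x y, ∀ t' ∈ Icc x y, |g t - g t'| ≤ K * |t - t'|) (hxy : x ≤ y)
    (hd : ∀ᵐ t, t ∈ Ioo x y → ∀ d, HasDerivAt g d t → γ ≤ d) : γ * (y - x) ≤ g y - g x := by
  have hL : LipschitzOnWith ⟨K, hK⟩ g (Icc x y) := by
    refine LipschitzOnWith.of_dist_le_mul fun t ht t' ht' => ?_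
    rw [Real.dist_eq, Real.dist_eq]
    exact hg t ht t' ht'
  have hac : AbsolutelyContinuousOnInterval g x y :=
    LipschitzOnWith.absolutelyContinuousOnInterval (by rwa [uIcc_of_le hxy])
  have hI := hac.integral_deriv_eq_sub
  have hii := hac.intervalIntegrable_deriv
  have hae : ∀ᵐ t, t ∈ Ioo x y → γ ≤ deriv g t := by
    filter_upwards [hd, hac.ae_differentiableAt] with t h1 h2 ht
    have h3 : t ∈ uIcc x y := by
      rw [uIcc_of_le hxy]; exact Ioo_subset_Icc_self ht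
    exact h1 ht _ (h2 h3).hasDerivAt
  have hle : ∫ t in x..y, γ ≤ ∫ t in x..y, deriv g t := by
    refine intervalIntegral.integral_mono_ae_restrict hxy intervalIntegrable_const hii ?_
    have h1 : ∀ᵐ t ∂(volume.restrict (Icc x y)), t ∈ Ioo x y := by
      rw [← restrict_Ioo_eq_restrict_Icc]
      exact ae_restrict_mem measurableSet_Ioo
    filter_upwards [h1, ae_restrict_of_ae hae] with t h2 h3 using h3 h2
  rw [hI, intervalIntegral.integral_const, smul_eq_mul] at hle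
  linarith

theorem two_step {τ γ K : ℝ} (hτ : 0 < τ) (hγ : 0 < γ) (hK : 0 ≤ K) {f : ℝ → ℝ → ℝ}
    (hLa : ∀ b ∈ Icc 0 τ, ∀ a ∈ Icc 0 τ, ∀ a' ∈ Icc 0 τ, |f a b - f a' b| ≤ K * |a - a'|)
    (hLb : ∀ a ∈ Icc 0 τ, ∀ b ∈ Icc 0 τ, ∀ b' ∈ Icc 0 τ, |f a b - f a b'| ≤ K * |b - b'|)
    (h0 : -(γ * τ / 8) ≤ f 0 0) (hneg : ∀ a ∈ Icc 0 τ, ∀ b ∈ Icc 0 τ, f a b ≤ 0)
    {Hi : ℝ → ℝ → Prop}
    (hup : ∀ a ∈ Ioo 0 τ, ∀ a' ∈ Ioo 0 τ, ∀ b ∈ Ioo 0 τ, a ≤ a' → Hi a b → Hi a' b)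
    (hA : ∀ᵐ z : ℝ × ℝ, z.1 ∈ Ioo 0 τ → z.2 ∈ Ioo 0 τ → Hi z.1 z.2 →
      ∀ d, HasDerivAt (fun a => f a z.2) d z.1 → γ ≤ d)
    (hB : ∀ᵐ z : ℝ × ℝ, z.1 ∈ Ioo 0 τ → z.2 ∈ Ioo 0 τ → ¬ Hi z.1 z.2 →
      ∀ d, HasDerivAt (fun b => f z.1 b) d z.2 → γ ≤ d) : False := by
  -- Fubini
  have hB1 : ∀ᵐ a : ℝ, ∀ᵐ b : ℝ, a ∈ Ioo 0 τ → b ∈ Ioo 0 τ → ¬ Hi a b →
      ∀ d, HasDerivAt (fun b => f a b) d b → γ ≤ d := Measure.ae_ae_of_ae_prod hB
  have hA1 : ∀ᵐ b : ℝ, ∀ᵐ a : ℝ, a ∈ Ioo 0 τ → b ∈ Ioo 0 τ → Hi a b →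
      ∀ d, HasDerivAt (fun a => f a b) d a → γ ≤ d := by
    have h1 : ∀ᵐ z : ℝ × ℝ, z.2 ∈ Ioo 0 τ → z.1 ∈ Ioo 0 τ → Hi z.2 z.1 →
        ∀ d, HasDerivAt (fun a => f a z.1) d z.2 → γ ≤ d :=
      (Measure.measurePreserving_swap (μ := (volume : Measure ℝ))
        (ν := (volume : Measure ℝ))).quasiMeasurePreserving.ae hA
    exact Measure.ae_ae_of_ae_prod h1
  -- the line `a = a0`
  obtain ⟨δ, hδ, hδτ, hδK⟩ : ∃ δ, 0 < δ ∧ δ ≤ τ / 2 ∧ K * δ ≤ γ * τ / 8 := by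
    refine ⟨min (τ / 2) (γ * τ / 8 / (K + 1)), lt_min (by positivity) (by positivity),
      min_le_left _ _, ?_⟩
    calc K * min (τ / 2) (γ * τ / 8 / (K + 1)) ≤ (K + 1) * (γ * τ / 8 / (K + 1)) := by
          refine mul_le_mul (by linarith) (min_le_right _ _) ?_ (by linarith)
          exact (lt_min (by positivity) (by positivity)).le
      _ = γ * τ / 8 := by field_simp
  obtain ⟨a0, ha0, hb⟩ : ∃ a0 ∈ Ioo 0 δ, ∀ᵐ b : ℝ, a0 ∈ Ioo 0 τ → b ∈ Ioo 0 τ → ¬ Hi a0 b →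
      ∀ d, HasDerivAt (fun b => f a0 b) d b → γ ≤ d := by
    refine Measure.exists_mem_of_measure_ne_zero_of_ae (μ := volume) ?_ (ae_restrict_of_ae hB1)
    rw [Real.volume_Ioo]
    simpa using hδ
  have ha0τ : a0 ∈ Ioo 0 τ := ⟨ha0.1, by linarith [ha0.2]⟩
  have ha0c : a0 ∈ Icc 0 τ := Ioo_subset_Icc_self ha0τ
  set g : ℝ → ℝ := fun b => f a0 b with hg
  have hgL : ∀ b ∈ Icc 0 τ, ∀ b' ∈ Icc 0 τ, |g b - g b'| ≤ K * |b - b'| := hLb a0 ha0c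
  have h0c : (0 : ℝ) ∈ Icc 0 τ := ⟨le_rfl, hτ.le⟩
  have hg0 : -(γ * τ / 4) ≤ g 0 := by
    have h1 := hLa 0 h0c 0 h0c a0 ha0c
    have h2 := (abs_le.1 h1).2
    have h3 : |0 - a0| = a0 := by rw [zero_sub, abs_neg, abs_of_pos ha0.1]
    rw [h3] at h2
    have h4 : K * a0 ≤ K * δ := mul_le_mul_of_nonneg_left ha0.2.le hK
    simp only [hg]
    linarith
  -- off the barrier, the derivative is `≥ γ`
  have hder : ∀ᵐ b : ℝ, b ∈ Ioo 0 τ → -(γ * τ / 2) < g b → ∀ d, HasDerivAt g d b → γ ≤ d := by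
    filter_upwards [hb, hA1] with b m1 m2 hbτ hlow
    have hbc : b ∈ Icc 0 τ := Ioo_subset_Icc_self hbτ
    by_cases hHi : Hi a0 b
    · exfalso
      have h1 := grow (γ := γ) hK (g := fun a => f a b) (x := a0) (y := τ)
        (fun t ht t' ht' => hLa b hbc t ⟨by linarith [ht.1, ha0.1], ht.2⟩ t'
          ⟨by linarith [ht'.1, ha0.1], ht'.2⟩) ha0τ.2.le (by
          filter_upwards [m2] with a m3 ha d hd
          have haτ : a ∈ Ioo 0 τ := ⟨by linarith [ha.1, ha0.1], ha.2⟩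
          exact m3 haτ hbτ (hup a0 ha0τ a haτ b hbτ ha.1.le hHi) d hd)
      have h2 := hneg τ ⟨hτ.le, le_rfl⟩ b hbc
      have h3 : γ * (τ / 2) ≤ γ * (τ - a0) :=
        mul_le_mul_of_nonneg_left (by linarith [ha0.2]) hγ.le
      simp only [hg] at hlow
      have h1' : γ * (τ - a0) ≤ f τ b - f a0 b := h1
      linarith
    · exact m1 ha0τ hbτ hHi
  have hcont : ContinuousOn g (Icc 0 τ) := by
    have hL : LipschitzOnWith ⟨K, hK⟩ g (Icc 0 τ) := by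
      refine LipschitzOnWith.of_dist_le_mul fun t ht t' ht' => ?_
      rw [Real.dist_eq, Real.dist_eq]
      exact hgL t ht t' ht'
    exact hL.continuousOn
  -- the barrier is never crossed
  have hbar : ∀ b ∈ Icc 0 τ, -(γ * τ / 2) < g b := by
    by_contra hcon
    push Not at hcon
    obtain ⟨b1, hb1, hlow⟩ := hcon
    set S : Set ℝ := {b ∈ Icc 0 τ | g b ≤ -(γ * τ / 2)} with hS
    have hSc : IsClosed S := by
      have h1 : IsClosed (Icc (0:ℝ) τ ∩ g ⁻¹' (Iic (-(γ * τ / 2)))) :=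
        hcont.preimage_isClosed_of_isClosed isClosed_Icc isClosed_Iic
      exact h1
    have hSne : S.Nonempty := ⟨b1, hb1, hlow⟩
    have hSb : BddBelow S := ⟨0, fun b hb => hb.1.1⟩
    set c := sInf S with hc
    have hcS : c ∈ S := hSc.csInf_mem hSne hSb
    have hlt : ∀ b ∈ Icc 0 τ, b < c → -(γ * τ / 2) < g b := fun b hb' hbc => by
      by_contra h1
      exact absurd (csInf_le hSb (show b ∈ S from ⟨hb', not_lt.1 h1⟩)) (not_le.2 hbc)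
    have h1 := grow (γ := γ) hK (g := g) (x := 0) (y := c)
      (fun t ht t' ht' => hgL t ⟨ht.1, ht.2.trans hcS.1.2⟩ t' ⟨ht'.1, ht'.2.trans hcS.1.2⟩)
      hcS.1.1 (by
        filter_upwards [hder] with b m1 hb' d hd
        have hbτ : b ∈ Ioo 0 τ := ⟨hb'.1, hb'.2.trans_le hcS.1.2⟩
        exact m1 hbτ (hlt b (Ioo_subset_Icc_self hbτ) hb'.2) d hd)
    have h2 : 0 ≤ γ * (c - 0) := mul_nonneg hγ.le (by linarith [hcS.1.1])
    have h3 := hcS.2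
    have h4 : 0 < γ * τ := mul_pos hγ hτ
    linarith
  have h1 := grow (γ := γ) hK (g := g) (x := 0) (y := τ) hgL hτ.le (by
    filter_upwards [hder] with b m1 hb' d hd
    exact m1 hb' (hbar b (Ioo_subset_Icc_self hb')) d hd)
  have h2 := hneg a0 ha0c τ ⟨hτ.le, le_rfl⟩
  have h4 : 0 < γ * τ := mul_pos hγ hτ
  have h5 : γ * (τ - 0) ≤ g τ - g 0 := h1
  have h6 : g τ ≤ 0 := h2
  linarith

end Crest.Agent.R116.Ts654

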