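import Crest.Agent.R116.D0n3_878
import Crest.Agent.R116.SgO3_219

/-!
# R116 (ties, (H4)), increments of `C` at boxes with the same `C`, `D` (helper604, for helper101)

* `incC f p y = f p - f (p + y e_C)` (both slots `3`, `4` move)
* `incC_le`, `incC_ev` : `p ≤ q` legal with the same `C`: increments at `q` ≤ increments at `p`
* `MC f κ h p` : the increments at `p` are `≥ κ h l` for infinitely many `l`; `MC.mono`
* `MC.sub`, `tan_ge`, `tan_le` : the rate of `C` in tangents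
-/

set_option autoImplicit false
set_option linter.unusedVariables false

open Set Filter Topology

namespace Crest.Agent.R116.Ts2p604

open Crest.Agent.R138
open Crest.Agent.R138.Ex926 (IsTan)
open Crest.Agent.R136
open Crest.Agent.R136.Net191
open Crest.Agent.R116.ChL222
open Crest.Agent.R116.Sg337 (bx9 natB uC)
open Crest.Agent.R116.D0F878
open Crest.Agent.R116.D0n878
open Crest.Agent.R116.SgO219 (tan_lim tan_ev)

/-- increment of the slots `C` -/
def incC (f : (Fin 12 → ℝ) → ℝ) (p : Fin 12 → ℝ) (y : ℝ) : ℝ := f p - f (p + y • uC)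

theorem uC_ne {k : Fin 12} (hk : uC k ≠ 0) : k = 3 ∨ k = 4 := by
  by_contra h
  push Not at h
  apply hk
  fin_cases k <;> simp [uC, bx9] at h ⊢

theorem yuC_nonneg {y : ℝ} (hy : 0 ≤ y) : ∀ k, 0 ≤ (y • uC) k := by
  intro k
  rw [Pi.smul_apply, smul_eq_mul]
  exact mul_nonneg hy (uC_nonneg k)

theorem yuC_z {y : ℝ} : ∀ k, k ≠ 1 → k ≠ 3 → k ≠ 4 → (y • uC) k = 0 := by
  intro k h1 h3 h4
  rw [Pi.smul_apply, smul_eq_mul, uC_z k h1 h3 h4, mul_zero]

/-- raising `C` keeps the box legal -/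
theorem leg_C {R : ℝ} {p : Fin 12 → ℝ} (hp : p ∈ Leg monL R) {y : ℝ} (hy : 0 ≤ y)
    (h3 : p 3 + y ≤ R) (h4 : p 4 + y ≤ R) : p + y • uC ∈ Leg monL R := by
  refine leg_raise hp (yuC_nonneg hy) yuC_z fun k => ?_
  rw [Pi.smul_apply, smul_eq_mul]
  by_cases hk : uC k = 0
  · rw [hk, mul_zero, add_zero]; exact hp.2 k
  · rcases uC_ne hk with rfl | rfl
    · have : uC 3 = 1 := rfl
      rw [this, mul_one]; exact h3
    · have : uC 4 = 1 := rfl
      rw [this, mul_one]; exact h4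

section inc

variable {R : ℝ} {f : (Fin 12 → ℝ) → ℝ} {p q : Fin 12 → ℝ}

/-- **increments of `C` are larger at the coarser box** -/
theorem incC_le
    (hs : ∀ p ∈ Leg monL R, ∀ q ∈ Leg monL R, p ⊓ q ∈ Leg monL R → f p + f q ≤ f (p ⊔ q) + f (p ⊓ q))
    (hp : p ∈ Leg monL R) (hq : q ∈ Leg monL R) (hpq : p ≤ q) (h3 : p 3 = q 3) (h4 : p 4 = q 4)
    {y : ℝ} (hy : 0 ≤ y) (r3 : p 3 + y ≤ R) (r4 : p 4 + y ≤ R) :
    incC f q y ≤ incC f p y := by
  refine incr hs hpq (yuC_nonneg hy) (fun k hk => ?_) hp hq (leg_C hp hy r3 r4)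
  rw [Pi.smul_apply, smul_eq_mul] at hk
  rcases uC_ne (fun h => hk (by rw [h, mul_zero])) with rfl | rfl
  · exact h3
  · exact h4

/-- the same for all small steps -/
theorem incC_ev
    (hs : ∀ p ∈ Leg monL R, ∀ q ∈ Leg monL R, p ⊓ q ∈ Leg monL R → f p + f q ≤ f (p ⊔ q) + f (p ⊓ q))
    (hp : p ∈ Leg monL R) (hq : q ∈ Leg monL R) (hpq : p ≤ q) (h3 : p 3 = q 3) (h4 : p 4 = q 4)
    (r3 : p 3 < R) (r4 : p 4 < R) :
    ∀ᶠ y in 𝓝[>] (0:ℝ), incC f q y ≤ incC f p y := by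
  have e3 : ∀ᶠ y in 𝓝[>] (0:ℝ), y < R - p 3 :=
    (tendsto_id.mono_left nhdsWithin_le_nhds).eventually_lt_const (by linarith)
  have e4 : ∀ᶠ y in 𝓝[>] (0:ℝ), y < R - p 4 :=
    (tendsto_id.mono_left nhdsWithin_le_nhds).eventually_lt_const (by linarith)
  filter_upwards [e3, e4, self_mem_nhdsWithin] with y h1 h2 h5
  have hy : (0:ℝ) < y := h5
  exact incC_le hs hp hq hpq h3 h4 hy.le (by linarith) (by linarith)

end inc

/-- **the predicate** : infinitely many steps of the sequence `h` have a `C`-increment `≥ κ h` -/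
def MC (f : (Fin 12 → ℝ) → ℝ) (κ : ℝ) (h : ℕ → ℝ) (p : Fin 12 → ℝ) : Prop :=
  ∃ᶠ l in atTop, κ * h l ≤ incC f p (h l)

section seq

variable {R κ : ℝ} {f : (Fin 12 → ℝ) → ℝ} {p q : Fin 12 → ℝ} {h : ℕ → ℝ}

theorem tend_pos (hpos : ∀ l, 0 < h l) (h0 : Tendsto h atTop (𝓝 0)) :
    Tendsto h atTop (𝓝[>] 0) :=
  tendsto_nhdsWithin_iff.2 ⟨h0, Eventually.of_forall hpos⟩

/-- **the predicate passes to coarser boxes with the same `C`** -/
theorem MC.mono
    (hs : ∀ p ∈ Leg monL R, ∀ q ∈ Leg monL R, p ⊓ q ∈ Leg monL R → f p + f q ≤ f (p ⊔ q) + f (p ⊓ q))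
    (hp : p ∈ Leg monL R) (hq : q ∈ Leg monL R) (hpq : p ≤ q) (h3 : p 3 = q 3) (h4 : p 4 = q 4)
    (r3 : p 3 < R) (r4 : p 4 < R) (hpos : ∀ l, 0 < h l) (h0 : Tendsto h atTop (𝓝 0))
    (hM : MC f κ h q) : MC f κ h p :=
  (hM.and_eventually ((tend_pos hpos h0).eventually (incC_ev hs hp hq hpq h3 h4 r3 r4))).mono
    fun _ hl => hl.1.trans hl.2

theorem MC.anti {κ' : ℝ} (hκ : κ' ≤ κ) (hpos : ∀ l, 0 < h l) (hM : MC f κ h p) : MC f κ' h p :=
  Frequently.mono hM fun l hl => (mul_le_mul_of_nonneg_right hκ (hpos l).le).trans hl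

/-- a subsequence on which the increments are large -/
theorem MC.sub (hM : MC f κ h p) :
    ∃ ψ : ℕ → ℕ, StrictMono ψ ∧ ∀ l, κ * h (ψ l) ≤ incC f p (h (ψ l)) :=
  extraction_of_frequently_atTop hM

/-- outside the predicate the increments are eventually small -/
theorem not_MC (hM : ¬ MC f κ h p) : ∀ᶠ l in atTop, incC f p (h l) < κ * h l := by
  have := not_frequently.1 hM
  filter_upwards [this] with l hl
  exact not_le.1 hl

variable {P L : Set (Fin 12 → ℝ)} {lam : (Fin 12 → ℝ) → ℝ} {k : ℕ → ℝ}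

/-- lower bound of the rate in a tangent -/
theorem tan_ge (hpos : ∀ l, 0 < k l) (ht : IsTan P L f (fun _ => p) k lam) (z0 : (0 : Fin 12 → ℝ) ∈ L)
    (zC : uC ∈ L) (hM : ∃ᶠ l in atTop, κ * k l ≤ incC f p (k l)) : κ ≤ lam 0 - lam uC := by
  refine ge_of_tendsto_of_frequently (tan_lim hpos ht z0 zC) (hM.mono fun l hl => ?_)
  rw [le_div_iff₀ (hpos l), smul_zero, add_zero]
  exact hl

/-- upper bound of the rate in a tangent -/
theorem tan_le (hpos : ∀ l, 0 < k l) (ht : IsTan P L f (fun _ => p) k lam) (z0 : (0 : Fin 12 → ℝ) ∈ L)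
    (zC : uC ∈ L) (hM : ∃ᶠ l in atTop, incC f p (k l) ≤ κ * k l) : lam 0 - lam uC ≤ κ := by
  refine le_of_tendsto_of_frequently (tan_lim hpos ht z0 zC) (hM.mono fun l hl => ?_)
  rw [div_le_iff₀ (hpos l), smul_zero, add_zero]
  exact hl

/-- `MC` along the unit `h`: after passing to a subsequence every tangent has rate `≥ κ` -/
theorem MC.tan (hM : MC f κ h p) (hpos : ∀ l, 0 < h l) :
    ∃ ψ : ℕ → ℕ, StrictMono ψ ∧ ∀ (χ : ℕ → ℕ) (P L : Set (Fin 12 → ℝ)) (lam : (Fin 12 → ℝ) → ℝ),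
      IsTan P L f (fun _ => p) (fun l => h (ψ (χ l))) lam → (0 : Fin 12 → ℝ) ∈ L → uC ∈ L →
        κ ≤ lam 0 - lam uC := by
  obtain ⟨ψ, hψ, hl⟩ := hM.sub
  exact ⟨ψ, hψ, fun χ P L lam ht z0 zC => tan_ge (fun l => hpos _) ht z0 zC
    (Eventually.of_forall fun l => hl (χ l)).frequently⟩

/-- outside `MC` every tangent along a subsequence of `h` has rate `≤ κ` -/
theorem not_MC_tan (hM : ¬ MC f κ h p) (hpos : ∀ l, 0 < h l) {χ : ℕ → ℕ} (hχ : StrictMono χ)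
    (ht : IsTan P L f (fun _ => p) (fun l => h (χ l)) lam) (z0 : (0 : Fin 12 → ℝ) ∈ L)
    (zC : uC ∈ L) : lam 0 - lam uC ≤ κ :=
  tan_le (fun l => hpos _) ht z0 zC
    ((hχ.tendsto_atTop.eventually (not_MC hM)).mono fun _ hl => hl.le).frequently

end seq

end Crest.Agent.R116.Ts2p604
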