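import Crest.Agent.R116.D0y1_219
import Crest.Agent.R116.Tq5_794

/-!
# R116 (K side, ties), cell (H4) (e-tie, `k = 1`, `s ≥ 1/2`), the a.e. half (helper894)

The plane `P4 a b = a n0 + b n1` (`n0 = (-1;0,-1)`, `n1 = (-1;1,0)`, slot `D` frozen at `0`) in the
first tangent `g1` of `(ν, own)` at a record box.

* `X_F`, `L_F`, `O_F` : the plane in the coordinates of 219's engine (`aF = -(11/10) n0 + (1/10) n1`,
  `bF = n1`), its walls
* **`h4_ae`** : at a.e. `(a, b)`, `0 < b`: derivative of `g1 0 ∘ P4`, second tangents along every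
  scale, `OutS`
-/

set_option autoImplicit false
set_option linter.unusedVariables false
set_option linter.unusedSectionVars false

open Set Filter Topology MeasureTheory

namespace Crest.Agent.R116.Ts894

open Crest.Agent.R138
open Crest.Agent.R138.Ex926 (IsTan)
open Crest.Agent.R136
open Crest.Agent.R136.Net191
open Crest.Agent.R136.Dg219 (mw gC dhC nC gset lf gC_eq gC_zero Walls OutS dirC leg_outC leg_legal
  mw_full)
open Crest.Agent.R116.ChL222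
open Crest.Agent.R116.Sg337 (bx9 natB coneL)
open Crest.Agent.R116.SgF665 (wl wl_add wl_smul LM0 mem_LM0)
open Crest.Agent.R116.D0F878 (natB_wall)
open Crest.Agent.R116.SgO219
open Crest.Agent.R116.Tq794 (mon_one wl_single)
open Dg262 (SupOn)

/-- the box `a n0 + b n1`, slot `D` frozen at `0` -/
def P4 (a b : ℝ) : Fin 12 → ℝ := natB (-(a + b)) b (-a) + b • (Pi.single 1 1 : Fin 12 → ℝ)

/-- first direction of the engine -/
noncomputable def aF : Fin 12 → ℝ := natB 1 (1 / 10) (11 / 10) + (1 / 10 : ℝ) • (Pi.single 1 1 : Fin 12 → ℝ)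

/-- second direction of the engine -/
def bF : Fin 12 → ℝ := natB (-1) 1 0 + Pi.single 1 1

theorem bF_eq : bF = natB (-1) 1 0 + (1 : ℝ) • (Pi.single 1 1 : Fin 12 → ℝ) := by
  rw [one_smul]; rfl

theorem natB_zero : natB 0 0 0 = 0 := by
  funext k; fin_cases k <;> simp [natB, bx9]

theorem aF_nonneg : ∀ i, 0 ≤ aF i := by
  intro i
  fin_cases i <;> simp [aF, natB, bx9] <;> norm_num

/-- the walls at a natural box with `D` raised -/
theorem wl_nat1 (z c p x : ℝ) (k : Fin 12) {e : Fin 12 → ℕ} (he : e ∈ monL.mon k) :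
    wl e (natB z c p + x • (Pi.single 1 1 : Fin 12 → ℝ)) =
      (natB z c p + x • (Pi.single 1 1 : Fin 12 → ℝ)) k + x * e 1 := by
  rw [wl_add, natB_wall _ _ _ k he, wl_single, Pi.add_apply, Pi.smul_apply,
    Pi.single_eq_of_ne (mon_one he), smul_zero, add_zero]

theorem act_F {k : Fin 12} {e : Fin 12 → ℕ} (he : e ∈ monL.mon k) :
    (mw monL).Act 0 aF bF ⟨k, e, he⟩ ↔ e 1 = 0 := by
  have h1 := wl_nat1 0 0 0 0 k he
  rw [natB_zero, zero_smul, zero_mul, add_zero, add_zero] at h1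
  have h2 := wl_nat1 1 (1 / 10) (11 / 10) (1 / 10) k he
  have h3 := wl_nat1 (-1) 1 0 1 k he
  rw [← bF_eq] at h3
  change wl e aF = aF k + 1 / 10 * e 1 at h2
  unfold wl at h1 h2 h3
  simp only [Walls.Act, mw, Walls.rhs, add_zero]
  constructor
  · rintro ⟨-, h4, -⟩
    have h5 : (1 / 10 : ℝ) * (e 1 : ℝ) = 0 := by linarith
    have h6 : (e 1 : ℝ) = 0 := by linarith
    exact_mod_cast h6
  · intro h4
    rw [h4, Nat.cast_zero, mul_zero, add_zero] at h2 h3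
    exact ⟨h1.symm, h2.symm, h3.symm⟩

theorem L_F : (mw monL).L 0 aF bF = LM0 := by
  ext c
  constructor
  · intro h k e he h1
    exact h ⟨k, e, he⟩ ((act_F he).2 h1)
  · intro h w hw
    obtain ⟨k, e, he⟩ := w
    exact h k e he ((act_F he).1 hw)

theorem X_F (a b : ℝ) : Dg262.X 0 aF bF (-(10 / 11) * a, b + 1 / 11 * a) = P4 a b := by
  funext k
  simp only [Dg262.X]
  fin_cases k <;> simp [aF, bF, P4, natB, bx9] <;> ring

theorem O_F {a b : ℝ} (hb : 0 < b) :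
    ((-(10 / 11) * a, b + 1 / 11 * a) : ℝ × ℝ) ∈ OO (mw monL) 0 aF bF := by
  intro w
  obtain ⟨k, e, he⟩ := w
  by_cases h1 : e 1 = 0
  · exact Or.inl ((act_F he).2 h1)
  · right
    rw [X_F]
    have h2 := wl_nat1 (-(a + b)) b (-a) b k he
    have h3 : (1 : ℝ) ≤ e 1 := by exact_mod_cast Nat.one_le_iff_ne_zero.2 h1
    change P4 a b k < wl e (P4 a b) + 0
    change wl e (P4 a b) = P4 a b k + b * e 1 at h2
    rw [h2]
    nlinarith

/-- the change of coordinates -/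
noncomputable def TF : (ℝ × ℝ) ≃ₗ[ℝ] (ℝ × ℝ) where
  toFun z := (-(10 / 11) * z.1, z.2 + 1 / 11 * z.1)
  invFun z := (-(11 / 10) * z.1, z.2 + 1 / 10 * z.1)
  map_add' x y := by ext <;> simp <;> ring
  map_smul' r x := by ext <;> simp <;> ring
  left_inv z := by ext <;> simp <;> ring
  right_inv z := by ext <;> simp <;> ring

theorem TF_apply (z : ℝ × ℝ) : TF z = (-(10 / 11) * z.1, z.2 + 1 / 11 * z.1) := rfl

theorem ae_TF {Q : ℝ × ℝ → Prop} (h : ∀ᵐ z : ℝ × ℝ, Q z) : ∀ᵐ z : ℝ × ℝ, Q (TF z) :=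
  (Measure.LinearMap.quasiMeasurePreserving (volume : Measure (ℝ × ℝ))
    (TF : (ℝ × ℝ) →ₗ[ℝ] (ℝ × ℝ)) (LinearEquiv.isUnit_det' TF).ne_zero).ae h

/-- **the a.e. half of (H4)** -/
theorem h4_ae {g1 : Fin 2 → (Fin 12 → ℝ) → ℝ} {K : ℝ} (hK : 0 ≤ K)
    (hlip : ∀ j, ∀ p ∈ coneL, ∀ q ∈ coneL, |g1 j p - g1 j q| ≤ K * dist p q)
    (hm : ∀ p ∈ coneL, ∀ q ∈ coneL, p ≤ q → 0 ≤ g1 0 p - g1 0 q ∧ g1 0 p - g1 0 q ≤ ∑ i, (q i - p i))
    (hs : SupOn (g1 0) coneL) :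
    ∀ᵐ z : ℝ × ℝ, 0 < z.2 → ∃ D : ℝ × ℝ →L[ℝ] ℝ,
      HasFDerivAt (fun z : ℝ × ℝ => g1 0 (P4 z.1 z.2)) D z ∧
      ∀ h : ℕ → ℝ, (∀ l, 0 < h l) → Tendsto h atTop (𝓝 0) →
      ∃ (χ : ℕ → ℕ) (lam : Fin 2 → (Fin 12 → ℝ) → ℝ), StrictMono χ ∧
        (∀ j, IsTan coneL LM0 (g1 j) (fun _ => P4 z.1 z.2) (fun l => h (χ l)) (lam j)) ∧
        ∃ (φ : ℕ → (Fin 12 → ℝ) → ℝ) (r : ℕ → ℝ), OutS (gC aF bF) LM0 (dhC aF bF) (nC aF bF) (lam 0)
          (-(11 / 10) * D (1, 0) + 1 / 10 * D (0, 1), D (0, 1)) φ r := by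
  have ePL : PP (mw monL) = coneL := D0y219.PP_LM
  have key := ae_TF (ae_out_lam (mw monL) (x0 := 0) (a := aF) (b := bF) (g := g1 0) hK
    (by rw [ePL]; exact hlip 0) (by rw [ePL]; exact hm) (by rw [ePL]; exact hs) aF_nonneg
    (mw_full _ _ _ _))
  filter_upwards [key] with z hz hz2
  have hO := O_F (a := z.1) hz2
  obtain ⟨D, hD, H⟩ := hz hO
  have hX : ∀ z : ℝ × ℝ, Dg262.X 0 aF bF (TF z) = P4 z.1 z.2 := fun z => X_F z.1 z.2
  set TL : (ℝ × ℝ) →L[ℝ] (ℝ × ℝ) := (TF : (ℝ × ℝ) →ₗ[ℝ] (ℝ × ℝ)).toContinuousLinearMap with hTL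
  have hTLa : ∀ z, TL z = TF z := fun z => rfl
  have hD' : HasFDerivAt (fun z : ℝ × ℝ => g1 0 (P4 z.1 z.2)) (D.comp TL) z := by
    have h1 : HasFDerivAt (fun z : ℝ × ℝ => TF z) TL z := TL.hasFDerivAt
    have h2 := hD.comp z h1
    refine h2.congr_of_eventuallyEq (Eventually.of_forall fun y => ?_)
    show g1 0 (P4 y.1 y.2) = g1 0 (Dg262.X 0 aF bF (TF y))
    rw [hX]
  have e1 : D.comp TL (1, 0) = -(10 / 11) * D (1, 0) + 1 / 11 * D (0, 1) := by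
    rw [ContinuousLinearMap.comp_apply, hTLa, TF_apply]
    have : ((-(10 / 11) * ((1, 0) : ℝ × ℝ).1, ((1, 0) : ℝ × ℝ).2 + 1 / 11 * ((1, 0) : ℝ × ℝ).1) :
        ℝ × ℝ) = (-(10 / 11) : ℝ) • (1, 0) + (1 / 11 : ℝ) • (0, 1) := by
      ext <;> simp
    rw [this, map_add, map_smul, map_smul, smul_eq_mul, smul_eq_mul]
  have e2 : D.comp TL (0, 1) = D (0, 1) := by
    rw [ContinuousLinearMap.comp_apply, hTLa, TF_apply]
    congr 1
    ext <;> simp
  refine ⟨D.comp TL, hD', fun h hpos h0 => ?_⟩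
  obtain ⟨χ, hχ, lam, hlam⟩ := exists_tan_OO (mw monL) (x0 := 0) (a := aF) (b := bF) (g := g1) hK
    (by
      rw [ePL]
      intro j p hp q hq
      rw [← dist_eq_norm]
      exact hlip j p hp q hq) hO hpos h0
  obtain ⟨φ, r, HO⟩ := H (fun l => h (χ l)) (fun l => hpos _) (h0.comp hχ.tendsto_atTop) (lam 0)
    (hlam 0)
  refine ⟨χ, lam, hχ, fun j => ?_, φ, r, ?_⟩
  · have h1 := hlam j
    rw [ePL, L_F, X_F] at h1
    exact h1
  · rw [L_F] at HO
    rw [e1, e2]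
    have e3 : -(11 / 10) * (-(10 / 11) * D (1, 0) + 1 / 11 * D (0, 1)) + 1 / 10 * D (0, 1) =
        D (1, 0) := by ring
    rw [e3]
    exact HO

end Crest.Agent.R116.Ts894
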