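import Crest.Agent.R116.TuC1_373

/-!
# R116 (S0155), wave side: the tube step on the cone, part 2 (helper373)

`tube_core` = the tube step for one parent frame: `g`, `S` = root in the parent frame and parent
selection (angle `th`); child frames `z ∈ Zc` with displacement `dz z`, root `gz z` and plates
`Sel z i` (angle `th1`, length `r`, sides `s1 ≤ s2 ≤ G th1`).
-/

set_option autoImplicit false

open MeasureTheory
open scoped ENNReal

namespace Crest.Agent.R116.TuC373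

open Crest.Agent.R138.Defs (E2)
open Crest.Agent.R138.Wpk685 (cen caps cen_zero cen_one)
open Crest.Agent.R138.Rect779 (card_caps_le)
open Crest.Agent.R116.CDef480 Crest.Agent.R116.Ckm538 Crest.Agent.R116.Cad538
open Crest.Agent.R116.TuG373

variable {n : ℕ} {th kp th1 : ℝ} {g : E3 → ℂ} {S : ℤ × ℤ → Set E3}

/-! ### overlap of the tubes of one cap -/

theorem norm_cen_caps {ρ : ℝ} (hρ : 0 < ρ) (hρ1 : ρ ≤ 1) {m : ℤ × ℤ} (hm : m ∈ caps ρ) :
    ‖cen ρ m‖ ≤ 8 := by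
  unfold caps at hm
  rw [Finset.mem_product, Finset.mem_Icc, Finset.mem_Icc] at hm
  have hc : (⌈2 / ρ⌉ : ℝ) < 2 / ρ + 1 := Int.ceil_lt_add_one _
  have key : ∀ k : ℤ, -⌈2 / ρ⌉ - 1 ≤ k → k ≤ ⌈2 / ρ⌉ + 1 → |ρ * k| ≤ 4 := by
    intro k h1 h2
    have h3 : (k : ℝ) ≤ 2 / ρ + 2 := by
      have : (k : ℝ) ≤ ⌈2 / ρ⌉ + 1 := by exact_mod_cast h2
      linarith
    have h4 : -(2 / ρ + 2) ≤ (k : ℝ) := by
      have : (-⌈2 / ρ⌉ - 1 : ℝ) ≤ k := by exact_mod_cast h1
      linarith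
    have h5 : ρ * (2 / ρ + 2) = 2 + 2 * ρ := by field_simp
    rw [abs_le]
    constructor
    · nlinarith
    · nlinarith
  have := norm2_le (x := cen ρ m) (a := 4) (by norm_num) (by rw [cen_zero]; exact key _ hm.1.1 hm.1.2)
    (by rw [cen_one]; exact key _ hm.2.1 hm.2.2)
  linarith

theorem norm_vel_le {C : E2} (h : ‖C‖ ≤ 8) : ‖vel C‖ ≤ 40 := by
  refine (norm3_le _).trans ?_
  unfold vel
  rw [lat_pt, pt_two, abs_div, abs_neg, abs_of_nonneg (sq_nonneg ‖C‖), abs_two]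
  have := norm_nonneg C
  nlinarith

open Classical in
/-- number of child frames whose tubes of the cap `m` contain a given point. -/
theorem card_frames {ζ : Type*} (Zc : Finset ζ) (dz : ζ → E3 × ℝ) {r A Y : ℝ} (hr : 0 < r)
    (hth : 0 < th) (hkp : 0 < kp) (hthr : th⁻¹ ≤ r) (hkr : kp⁻¹ ≤ r) (hA : 0 ≤ A) (hY : 0 ≤ Y)
    (hsep : ∀ z ∈ Zc, ∀ z' ∈ Zc, z ≠ z' → r ≤ dist (dz z) (dz z')) {C : E2} (hC : ‖C‖ ≤ 8)
    (U : ζ → Set E3) (hU : ∀ z ∈ Zc, ∀ y ∈ U z, ‖y‖ ≤ A * r) (p : E3 × ℝ) :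
    ((Zc.filter fun z => p ∈ Qs r C (dz z) (Nb th kp C Y (U z))).card : ℝ) ≤
      (2 * (A + 10 * Y + 20) + 2) ^ 4 := by
  set W := Zc.filter fun z => p ∈ Qs r C (dz z) (Nb th kp C Y (U z)) with hW
  have hinj : Set.InjOn dz (W : Set ζ) := by
    intro z hz z' hz' he
    by_contra hne
    have := hsep z (Finset.mem_filter.1 hz).1 z' (Finset.mem_filter.1 hz').1 hne
    rw [he, dist_self] at this
    linarith
  have hcard : (W.image dz).card = W.card := Finset.card_image_of_injOn hinj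
  have hfin : Module.finrank ℝ (E3 × ℝ) = 4 := by
    rw [Module.finrank_prod, finrank_euclideanSpace_fin, Module.finrank_self]
  have h := SmC339.card_sep_le (E := E3) (r := r) (K := A + 10 * Y + 20) hr (by positivity)
    (W.image dz) (by
      intro x hx y hy hxy
      obtain ⟨z, hz, rfl⟩ := Finset.mem_image.1 hx
      obtain ⟨z', hz', rfl⟩ := Finset.mem_image.1 hy
      exact hsep z (Finset.mem_filter.1 hz).1 z' (Finset.mem_filter.1 hz').1
        (fun h => hxy (congrArg dz h))) p (by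
      intro x hx
      obtain ⟨z, hz, rfl⟩ := Finset.mem_image.1 hx
      obtain ⟨hzZ, ht, y, hy, hyY⟩ := Finset.mem_filter.1 hz
      have hyA := hU z hzZ y hy
      set w := p.1 - (dz z).1 + (p.2 - (dz z).2) • vel C - y with hw
      have a1 := lat_le_frc (kp := kp) hth.le C w
      have a2 := nrm_le_frc (th := th) hkp.le C w
      have b1 : ‖lat w‖ ≤ Y * r := by
        have : th * ‖lat w‖ ≤ Y := a1.trans hyY.le
        calc ‖lat w‖ = th⁻¹ * (th * ‖lat w‖) := by rw [← mul_assoc, inv_mul_cancel₀ hth.ne', one_mul]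
          _ ≤ r * Y := mul_le_mul hthr this (by positivity) hr.le
          _ = _ := mul_comm _ _
      have b2 : |nrm C w 0| ≤ Y * r := by
        have : kp * |nrm C w 0| ≤ Y := a2.trans hyY.le
        calc |nrm C w 0| = kp⁻¹ * (kp * |nrm C w 0|) := by
              rw [← mul_assoc, inv_mul_cancel₀ hkp.ne', one_mul]
          _ ≤ r * Y := mul_le_mul hkr this (by positivity) hr.le
          _ = _ := mul_comm _ _
      have b3 : ‖w‖ ≤ 10 * Y * r := by
        refine (norm3_le_nrm C w).trans ?_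
        have c1 : (1 + ‖C‖) * ‖lat w‖ ≤ 9 * (Y * r) :=
          mul_le_mul (by linarith) b1 (norm_nonneg _) (by norm_num)
        linarith
      have e1 : p.1 - (dz z).1 = w + y - (p.2 - (dz z).2) • vel C := by
        rw [hw]; abel
      have b4 : ‖p.1 - (dz z).1‖ ≤ (A + 10 * Y + 20) * r := by
        rw [e1]
        refine (norm_sub_le _ _).trans ?_
        have c1 := norm_add_le w y
        have c2 : ‖(p.2 - (dz z).2) • vel C‖ ≤ r / 2 * 40 := by
          rw [norm_smul, Real.norm_eq_abs]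
          exact mul_le_mul ht (norm_vel_le hC) (norm_nonneg _) (by positivity)
        nlinarith
      rw [dist_comm, dist_eq_norm, Prod.norm_def, max_le_iff]
      refine ⟨b4, ?_⟩
      rw [Prod.snd_sub, Real.norm_eq_abs]
      refine ht.trans ?_
      have : 0 ≤ (A + 10 * Y) * r := by positivity
      nlinarith)
  rw [hfin, hcard] at h
  exact h

/-! ### the core -/

/-- the constant of the volume of narrow plates. -/
noncomputable def CGn (A G : ℝ) : ℝ := 8 * A ^ 3 * (2 * (A * G) + 1) ^ 2 * G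

open Classical in
/-- **the tube step for one parent frame.** -/
theorem tube_core {ζ : Type*} {N : ℤ × ℤ → Finset (ℤ × ℤ)} (hN : NearF th th1 N)
    {r s1 s2 T2 T σ s K Y A G Lc Ce a pl : ℝ}
    (hth : 0 < th) (h01 : th ≤ th1) (h1 : th1 ≤ 1) (hkp : 0 < kp) (hkp1 : kp ≤ 1)
    (hst : kp * th1 ≤ th) (hr : 0 < r) (hrt : r * th1 ^ 2 ≤ 1) (hthr : th⁻¹ ≤ r) (hkr : kp⁻¹ ≤ r)
    (hσ0 : 0 ≤ σ) (hσ : σ ≤ s) (h1s : th1 ≤ s) (hstσ : kp * σ ≤ th) (hs1 : th * (r * σ) ≤ 1)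
    (hs2 : kp * (r * σ ^ 2) ≤ 1) (hK : 0 < K) (hY : 0 ≤ Y) (hA : 0 < A) (hG : 0 < G)
    (hsd1 : th1 ≤ s1) (hsd2 : s1 ≤ s2) (hsd3 : s2 ≤ G * th1) (hT2 : 0 < T2) (hLc : 0 ≤ Lc)
    (hCe : 0 ≤ Ce) (ha : 0 < a) (hpl : 0 < pl)
    (hg : ∀ m, Measurable fun y => ‖umc th g m y‖ₑ ^ 2)
    (Zc : Finset ζ) (dz : ζ → E3 × ℝ) (gz : ζ → E3 → ℂ)
    (hdz : ∀ z ∈ Zc, |(dz z).2| + r / 2 ≤ T)
    (hsep : ∀ z ∈ Zc, ∀ z' ∈ Zc, z ≠ z' → r ≤ dist (dz z) (dz z'))
    (J : ζ → Finset ℕ) (Sel : ζ → ℕ → ℤ × ℤ → Set E3) (cc : ζ → ℕ → E2) (XX : ζ → ℕ → E3)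
    (hmeas : ∀ z ∈ Zc, ∀ i ∈ J z, ∀ m, MeasurableSet (Sel z i m))
    (hdisj : ∀ z ∈ Zc, ∀ i ∈ J z, ∀ i' ∈ J z, i ≠ i' → ∀ m, Disjoint (Sel z i m) (Sel z i' m))
    (hbox : ∀ z ∈ Zc, ∀ i ∈ J z, ∀ m, ∀ y ∈ Sel z i m, ‖cen th1 m - cc z i‖ ≤ A * s2 ∧
      ‖lat y - lat (XX z i)‖ ≤ A * s2 * r ∧ |nrm (cc z i) y 0 - nrm (cc z i) (XX z i) 0| ≤ A * T2 * r)
    (hbd : ∀ z ∈ Zc, ∀ i ∈ J z, ∀ m, ∀ y ∈ Sel z i m, ‖y‖ ≤ A * r)
    (hlo : ∀ z ∈ Zc, ∀ i ∈ J z, ∀ m ∈ caps th1, ∀ y ∈ Sel z i m,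
      ENNReal.ofReal a ≤ AdN n th kp g S N m (dz z) y)
    (hhi : ∀ z ∈ Zc, ∀ i ∈ J z, ∀ m ∈ caps th1, ∀ y ∈ Sel z i m,
      AdN n th kp g S N m (dz z) y ≤ ENNReal.ofReal (8 * a))
    (hpot : ∀ z ∈ Zc, ∀ i ∈ J z, ∀ m ∈ caps th1, ∀ y ∈ Sel z i m,
      pl ≤ (potT (AdN n th kp g S N) th1 σ K m (dz z) y : ℝ))
    {τ0 τ1 : ℝ≥0∞}
    (hU : ∀ z ∈ Zc, ∀ i ∈ J z, ∀ m ∈ caps th1, ∀ y ∈ Sel z i m,
      ‖umc th1 (gz z) m y‖ₑ ^ 2 ≤ ENNReal.ofReal Lc * AdN n th kp g S N m (dz z) y + τ0)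
    (hE : ∀ z ∈ Zc, ∀ m ∈ caps th1, ∫⁻ y in ⋃ i ∈ J z, Sel z i m, ‖umc th1 (gz z) m y‖ₑ ^ 2 ≤
      ENNReal.ofReal Ce * (∫⁻ x in Nb th kp (cen th1 m) Y (⋃ i ∈ J z, Sel z i m),
        AdN n th kp g S N m (dz z) x) + τ1) :
    ∑ z ∈ Zc, ∑ i ∈ J z, ENNReal.ofReal ((r * (s1 * s2 * T2 * r ^ 3)) ^ (-(1/2) : ℝ)) *
        (ENNReal.ofReal r * enc th1 (gz z) (Sel z i)) ^ (3/2 : ℝ) ≤
      ENNReal.ofReal (((2 * (A + 10 * Y + 20) + 2) ^ 4 + 1) * (81 * (Ce * 13 ^ n)) *
          (648 * (K * Fm n (4 * Y + 3 / 2)) * CGn A G * Lc / pl) ^ (1/2 : ℝ)) *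
        (∑ k ∈ (caps th1).image (tau th1 s), ∫⁻ t in Set.Icc (-T) T, ∫⁻ x,
          (Cad538.Acc n th kp th g S (Mk th s k) x t) ^ (3/2 : ℝ)) +
      (ENNReal.ofReal ((8 * CGn A G * Lc * a) ^ (1/2 : ℝ)) *
          (Zc.card * ((caps th1).card * (ENNReal.ofReal r * τ1))) +
        (ENNReal.ofReal (CGn A G) * τ0) ^ (1/2 : ℝ) *
          ∑ z ∈ Zc, ∑ i ∈ J z, ENNReal.ofReal r * enc th1 (gz z) (Sel z i)) := by
  have hth1 : 0 < th1 := hth.trans_le h01
  have hs : 0 < s := hth1.trans_le h1s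
  have hs10 : 0 < s1 := hth1.trans_le hsd1
  have hs20 : 0 < s2 := hs10.trans_le hsd2
  have hCG : 0 < CGn A G := by unfold CGn; positivity
  have hF : 0 < Fm n (4 * Y + 3 / 2) := by unfold Fm; positivity
  have hS : Slow th kp th1 r (Fm n) (AdN n th kp g S N) :=
    slow_AdN hN hth.le h01 hkp.le hkp1 hst hr.le hrt
  set U : ζ → ℤ × ℤ → Set E3 := fun z m => ⋃ i ∈ J z, Sel z i m with hUd
  set Q : ζ → ℤ × ℤ → Set (E3 × ℝ) := fun z m =>
    Qs r (cen th1 m) (dz z) (Nb th kp (cen th1 m) Y (U z m)) with hQd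
  set μ : Measure (E3 × ℝ) := (volume : Measure E3).prod (volume.restrict (Set.Icc (-T) T)) with hμ
  have hUmem : ∀ z m y, y ∈ U z m ↔ ∃ i ∈ J z, y ∈ Sel z i m := by
    intro z m y
    simp only [hUd, Set.mem_iUnion, exists_prop]
  set e : (_ : ζ) × ℕ → ℝ≥0∞ := fun p => ENNReal.ofReal r * enc th1 (gz p.1) (Sel p.1 p.2) with he
  set lam : ℝ := pl * a / (81 * (K * Fm n (4 * Y + 3 / 2))) with hlamd
  have hlam0 : 0 < lam := by positivity
  have hmA : ∀ M : Finset (ℤ × ℤ), Measurable fun p : E3 × ℝ =>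
      Cad538.Acc n th kp th g S M p.1 p.2 := fun M => Den_meas2 fun m _ => hg m
  -- the abstract step
  have key := Tu373.tube_abs (ζ := ζ) (κ := ℤ × ℤ) (τ := ℤ × ℤ) μ (Zc.sigma J) e
    (ENNReal.ofReal (r * (s1 * s2 * T2 * r ^ 3))) (ENNReal.ofReal (CGn A G * (Lc * (8 * a))))
    (ENNReal.ofReal (CGn A G) * τ0) (Zc.card * ((caps th1).card * (ENNReal.ofReal r * τ1)))
    (by rw [ne_eq, ENNReal.ofReal_eq_zero, not_le]; positivity) ENNReal.ofReal_ne_top
    (by
      rintro ⟨z, i⟩ hp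
      obtain ⟨hz, hi⟩ := Finset.mem_sigma.1 hp
      have h2 := enc_box_le (g := gz z) (T := T2) (c := cc z i) (X0 := XX z i) hr hth1 hA.le hsd1
        hsd2 hsd3 hG.le hT2.le (hmeas z hz i hi) (hbox z hz i hi)
        (B := ENNReal.ofReal (Lc * (8 * a)) + τ0) (by
          intro m hm y hy
          refine (hU z hz i hi m hm y hy).trans (add_le_add ?_ le_rfl)
          rw [ENNReal.ofReal_mul hLc]
          exact mul_le_mul' le_rfl (hhi z hz i hi m hm y hy))
      refine h2.trans (le_of_eq ?_)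
      rw [mul_add, ENNReal.ofReal_mul hCG.le]
      rfl)
    Zc (caps th1) ((caps th1).image (tau th1 s)) (tau th1 s)
    (fun m hm => Finset.mem_image_of_mem _ hm)
    (fun m p => ENNReal.ofReal (Ce * 13 ^ n) * Cad538.Acc n th kp th g S (N m) p.1 p.2)
    (fun k p => Cad538.Acc n th kp th g S (Mk th s k) p.1 p.2) Q
    (fun k _ => hmA _) (fun m _ => (hmA _).const_mul _)
    (fun z _ m _ => meas_Qs _ _ _ (isOpen_Nb _ _ _ _ _).measurableSet)
    ⌈(2 * (A + 10 * Y + 20) + 2) ^ 4⌉₊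
    (by
      intro m hm p
      have h3 := card_frames (th := th) (kp := kp) Zc dz hr hth hkp hthr hkr hA.le hY hsep
        (norm_cen_caps hth1 h1 hm) (fun z => U z m) (by
          intro z hz y hy
          obtain ⟨i, hi, hyi⟩ := (hUmem z m y).1 hy
          exact hbd z hz i hi m y hyi) p
      have h4 := h3.trans (Nat.le_ceil _)
      have h5 : (Zc.filter fun z => p ∈ Qs r (cen th1 m) (dz z)
          (Nb th kp (cen th1 m) Y (U z m))).card ≤ ⌈(2 * (A + 10 * Y + 20) + 2) ^ 4⌉₊ := by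
        exact_mod_cast h4
      convert h5)
    (81 * ENNReal.ofReal (Ce * 13 ^ n))
    (by
      intro k _ p
      rw [← Finset.mul_sum]
      have h3 := sum_AdN_le (n := n) (kp := kp) (g := g) (S := S) hN hth1
        (T := (caps th1).filter (fun m => tau th1 s m = k)) (M := Mk th s k)
        (fun m hm => by
          have := near_sub_Mk hN hs h1s (σ := 0) hs.le (m' := m) (m := m) (by simp)
          rwa [(Finset.mem_filter.1 hm).2] at this) (p.1, p.2) 0
      have h4 : ∀ m, AdN n th kp g S N m (p.1, p.2) 0 =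
          Cad538.Acc n th kp th g S (N m) p.1 p.2 := by
        intro m; unfold AdN; simp
      simp only [h4, add_zero] at h3
      refine (mul_le_mul' le_rfl ?_ : _ ≤ ENNReal.ofReal (Ce * 13 ^ n) *
        (81 * Cad538.Acc n th kp th g S (Mk th s k) p.1 p.2)).trans (le_of_eq (by ring))
      refine le_of_eq_of_le ?_ h3
      exact Finset.sum_congr (by congr) fun _ _ => rfl)
    (ENNReal.ofReal lam) (by rw [ne_eq, ENNReal.ofReal_eq_zero, not_le]; exact hlam0)
    ENNReal.ofReal_ne_top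
    (by
      intro z hz m hm p hp
      have h3 := lam_le (n := n) (g := g) (S := S) (a := a) (pl := pl) hN hth.le hth1 hkp.le hS
        hr.le hσ0 hσ h1s hstσ hs1 hs2 hK.le hY (m' := m) (z := dz z) (U := U z m)
        (fun y hy => by
          obtain ⟨i, hi, hyi⟩ := (hUmem z m y).1 hy
          exact hlo z hz i hi m hm y hyi)
        (fun y hy => by
          obtain ⟨i, hi, hyi⟩ := (hUmem z m y).1 hy
          exact hpot z hz i hi m hm y hyi) hp
      have h4 : (0:ℝ) < 81 * (K * Fm n (4 * Y + 3 / 2)) := by positivity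
      rw [hlamd, ENNReal.ofReal_div_of_pos h4]
      refine ENNReal.div_le_of_le_mul' ?_
      rw [ENNReal.ofReal_mul hpl.le]
      exact h3)
    (by
      rw [Finset.sum_sigma]
      calc ∑ z ∈ Zc, ∑ i ∈ J z, e ⟨z, i⟩
          = ∑ z ∈ Zc, ∑ m ∈ caps th1, ENNReal.ofReal r *
              ∫⁻ y in U z m, ‖umc th1 (gz z) m y‖ₑ ^ 2 := by
            refine Finset.sum_congr rfl fun z hz => ?_
            simp only [he]
            rw [← Finset.mul_sum, ← Finset.mul_sum]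
            congr 1
            unfold enc
            rw [Finset.sum_comm]
            refine Finset.sum_congr rfl fun m _ => ?_
            rw [hUd]
            rw [lintegral_biUnion_finset (fun i hi i' hi' hne => hdisj z hz i hi i' hi' hne m)
              (fun i hi => hmeas z hz i hi m)]
        _ ≤ ∑ z ∈ Zc, ∑ m ∈ caps th1, ((∫⁻ p in Q z m,
              ENNReal.ofReal (Ce * 13 ^ n) * Cad538.Acc n th kp th g S (N m) p.1 p.2 ∂μ) +
              ENNReal.ofReal r * τ1) := by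
            refine Finset.sum_le_sum fun z hz => Finset.sum_le_sum fun m hm => ?_
            have h3 := lint_Qs (r := r) (T := T) (C := cen th1 m) (z := dz z)
              (N := Nb th kp (cen th1 m) Y (U z m)) (isOpen_Nb _ _ _ _ _).measurableSet
              (hdz z hz) (f := AdN n th kp g S N m (dz z))
              (Φ := fun p => Cad538.Acc n th kp th g S (N m) p.1 p.2) (hmA _)
              (c := ENNReal.ofReal (13 ^ n)) (fun x t ht => AdN_ray hS hr.le hm (dz z) x ht)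
            calc ENNReal.ofReal r * ∫⁻ y in U z m, ‖umc th1 (gz z) m y‖ₑ ^ 2
                ≤ ENNReal.ofReal r * (ENNReal.ofReal Ce *
                  (∫⁻ x in Nb th kp (cen th1 m) Y (U z m), AdN n th kp g S N m (dz z) x) + τ1) :=
                  mul_le_mul' le_rfl (hE z hz m hm)
              _ = ENNReal.ofReal Ce * (ENNReal.ofReal r *
                  ∫⁻ x in Nb th kp (cen th1 m) Y (U z m), AdN n th kp g S N m (dz z) x) +
                    ENNReal.ofReal r * τ1 := by ring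
              _ ≤ ENNReal.ofReal Ce * (∫⁻ p in Q z m, ENNReal.ofReal (13 ^ n) *
                    Cad538.Acc n th kp th g S (N m) p.1 p.2 ∂μ) + ENNReal.ofReal r * τ1 :=
                  add_le_add (mul_le_mul' le_rfl h3) le_rfl
              _ = _ := by
                  congr 1
                  rw [← lintegral_const_mul' _ _ ENNReal.ofReal_ne_top]
                  refine lintegral_congr fun p => ?_
                  rw [ENNReal.ofReal_mul hCe, mul_assoc]
        _ = _ := by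
            simp_rw [Finset.sum_add_distrib]
            congr 1
            rw [Finset.sum_const, Finset.sum_const, nsmul_eq_mul, nsmul_eq_mul])
  -- the left side
  have hlhs : ∑ p ∈ Zc.sigma J, ENNReal.ofReal (r * (s1 * s2 * T2 * r ^ 3)) ^ (-(1/2) : ℝ) *
      e p ^ (3/2 : ℝ) = ∑ z ∈ Zc, ∑ i ∈ J z,
        ENNReal.ofReal ((r * (s1 * s2 * T2 * r ^ 3)) ^ (-(1/2) : ℝ)) *
        (ENNReal.ofReal r * enc th1 (gz z) (Sel z i)) ^ (3/2 : ℝ) := by
    rw [Finset.sum_sigma]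
    refine Finset.sum_congr rfl fun z _ => Finset.sum_congr rfl fun i _ => ?_
    rw [ENNReal.ofReal_rpow_of_pos (by positivity)]
  rw [hlhs] at key
  refine key.trans (add_le_add ?_ (add_le_add ?_ ?_))
  · refine mul_le_mul' ?_ (le_of_eq ?_)
    · have c0 : ENNReal.ofReal (CGn A G * (Lc * (8 * a))) ^ (1/2 : ℝ) *
          ENNReal.ofReal lam ^ (-(1/2) : ℝ) =
          ENNReal.ofReal ((648 * (K * Fm n (4 * Y + 3 / 2)) * CGn A G * Lc / pl) ^ (1/2 : ℝ)) := by
        rw [ENNReal.ofReal_rpow_of_nonneg (by positivity) (by norm_num),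
          ENNReal.ofReal_rpow_of_pos hlam0, ← ENNReal.ofReal_mul (by positivity)]
        congr 1
        rw [Real.rpow_neg hlam0.le, ← div_eq_mul_inv, ← Real.div_rpow (by positivity) hlam0.le]
        congr 1
        rw [hlamd]
        field_simp
        ring
      have c1 : ((⌈(2 * (A + 10 * Y + 20) + 2) ^ 4⌉₊ : ℕ) : ℝ≥0∞) ≤
          ENNReal.ofReal ((2 * (A + 10 * Y + 20) + 2) ^ 4 + 1) := by
        rw [← ENNReal.ofReal_natCast]
        exact ENNReal.ofReal_le_ofReal (Nat.ceil_lt_add_one (by positivity)).le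
      have c2 : (81 : ℝ≥0∞) * ENNReal.ofReal (Ce * 13 ^ n) =
          ENNReal.ofReal (81 * (Ce * 13 ^ n)) := by
        rw [ENNReal.ofReal_mul (by norm_num : (0:ℝ) ≤ 81)]
        norm_num
      rw [c0, c2, ENNReal.ofReal_mul (by positivity : (0:ℝ) ≤
        ((2 * (A + 10 * Y + 20) + 2) ^ 4 + 1) * (81 * (Ce * 13 ^ n))),
        ENNReal.ofReal_mul (by positivity : (0:ℝ) ≤ (2 * (A + 10 * Y + 20) + 2) ^ 4 + 1)]
      exact mul_le_mul' (mul_le_mul' c1 le_rfl) le_rfl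
    · refine Finset.sum_congr rfl fun k _ => ?_
      rw [hμ, lintegral_prod_symm _ ((hmA _).pow_const _).aemeasurable]
  · refine mul_le_mul' (le_of_eq ?_) le_rfl
    rw [ENNReal.ofReal_rpow_of_nonneg (by positivity) (by norm_num)]
    congr 2
    ring
  · refine mul_le_mul' le_rfl (le_of_eq ?_)
    rw [Finset.sum_sigma]

end Crest.Agent.R116.TuC373
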