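import Crest.Agent.R116.GlC_210
import Crest.Agent.R116.TuC2_373
import Crest.Agent.R116.Bas2_367
import Crest.Agent.R138.Acl_101

/-!
# R116 (S0155), wave side: the class functional of the tube step (helper373)

* `pz L j i z` = frame of level `i` on the path of the frame `z` of level `j`;
* `tht R dl t` = angle of level `t`; `nrC` = near caps; `dns` = density of level `i` (label `k`) in
  the caps of level `j`; `sgm` = radius of the isotropic coherence count;
* `AT` = class functional: digits of the dyadic indices of the densities of all ancestors and of all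
  coherence counts; `pT` = decoded coherence number.
-/

set_option autoImplicit false

open MeasureTheory
open scoped ENNReal

namespace Crest.Agent.R116.TuD373

open Crest.Agent.R138.Defs (E2)
open Crest.Agent.R138.Wpk685 (cen caps)
open Crest.Agent.R138.Acl101 (dy dy_le le_of_dy lt_of_dy half_double measurable_dy pcnt
  measurable_pcnt logb_ceil_le)
open Crest.Agent.R116.CDef480 Crest.Agent.R116.Ckm538 Crest.Agent.R116.Cad538
open Crest.Agent.R116.WC188 Crest.Agent.R116.GlC210
open Crest.Agent.R116.LZg725 (Cf)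
open Crest.Agent.R116.TuG373 Crest.Agent.R116.TuC373

/-! ### objects -/

/-- frame of level `i` on the path of the frame `z` of level `j` (`z` itself if `j ≤ i`). -/
def pz (L : ℕ → Lev) : ℕ → ℕ → E3 × ℝ → E3 × ℝ
  | 0, _, z => z
  | j + 1, i, z => if j + 1 ≤ i then z else pz L j i ((L j).ζ z)

/-- angle of the level `t`. -/
noncomputable def tht (R dl : ℝ) (t : ℕ) : ℝ := (R * dl ^ t) ^ (-(1/2) : ℝ)

open Classical in
/-- near caps. -/
noncomputable def nrC (th th1 : ℝ) (m' : ℤ × ℤ) : Finset (ℤ × ℤ) :=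
  (caps th).filter fun m => ‖cen th m - cen th1 m'‖ ≤ 4 * th1

theorem nearF_nrC (th th1 : ℝ) : NearF th th1 (nrC th th1) := by
  classical
  intro m' m hm
  exact Finset.mem_filter.1 hm

/-- density of level `i`, label `k`, in the caps of level `j` (frame `z` of level `j`); used at
`(m, z - pz L j i z, y)`. -/
noncomputable def dns (n0 : ℕ) (κ : ℝ) (g : E3 → ℂ) (R dl : ℝ) (L : ℕ → Lev) (j i : ℕ)
    (z : E3 × ℝ) (k : ℕ) : Dn :=
  AdN n0 (tht R dl i) κ (trc (pz L j i z) g) ((L i).sl (pz L j i z) k)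
    (nrC (tht R dl i) (tht R dl j))

/-- radius of the isotropic coherence count `(i, j, l)`. -/
noncomputable def sgm (R dl : ℝ) (i j l : ℕ) : ℝ :=
  min (tht R dl l) ((R * dl ^ i) ^ (1/2 : ℝ) / (R * dl ^ j))

/-! ### codes -/

/-- code of the digits `d 0, .., d (T-1)` in base `B`. -/
def code (B : ℕ) : ℕ → (ℕ → ℕ) → ℕ
  | 0, _ => 0
  | T + 1, d => d 0 + B * code B T (fun t => d (t + 1))

theorem code_lt {B : ℕ} : ∀ (T : ℕ) (d : ℕ → ℕ), (∀ t < T, d t < B) → code B T d < B ^ T := by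
  intro T
  induction T with
  | zero => intro d _; simp [code]
  | succ T ih =>
    intro d hd
    have h1 := ih (fun t => d (t + 1)) fun t ht => hd (t + 1) (by omega)
    have h0 := hd 0 (by omega)
    simp only [code]
    have h2 : B * (code B T (fun t => d (t + 1)) + 1) ≤ B * B ^ T := Nat.mul_le_mul_left B h1
    rw [Nat.mul_add, Nat.mul_one] at h2
    rw [pow_succ, Nat.mul_comm (B ^ T) B]
    omega

/-- the digit `t` of the code `c`. -/
def dig (B t c : ℕ) : ℕ := c / B ^ t % B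

theorem dig_code {B : ℕ} : ∀ (T : ℕ) (d : ℕ → ℕ), (∀ t < T, d t < B) → ∀ t < T,
    dig B t (code B T d) = d t := by
  intro T
  induction T with
  | zero => intro d _ t ht; omega
  | succ T ih =>
    intro d hd t ht
    have h0 := hd 0 (by omega)
    simp only [code]
    cases t with
    | zero =>
      unfold dig
      rw [pow_zero, Nat.div_one, Nat.add_mul_mod_self_left, Nat.mod_eq_of_lt h0]
    | succ t =>
      have h1 := ih (fun t => d (t + 1)) (fun t ht => hd (t + 1) (by omega)) t (by omega)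
      rw [← h1]
      unfold dig
      rw [pow_succ, Nat.mul_comm (B ^ t) B, ← Nat.div_div_eq_div_mul,
        Nat.add_mul_div_left _ _ (by omega : 0 < B), Nat.div_eq_of_lt h0, zero_add]

theorem measurable_code {X : Type*} [MeasurableSpace X] (B : ℕ) : ∀ (T : ℕ) (d : ℕ → X → ℕ),
    (∀ t < T, Measurable (d t)) → Measurable fun x => code B T (fun t => d t x) := by
  intro T
  induction T with
  | zero => intro d _; simp only [code]; exact measurable_const
  | succ T ih =>
    intro d hd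
    simp only [code]
    exact (hd 0 (by omega)).add ((ih (fun t => d (t + 1)) fun t ht => hd (t + 1)
      (by omega)).const_mul B)

/-! ### the class functional -/

/-- number of dyadic classes of the density. -/
noncomputable def NA (Ma : ℕ) (R : ℝ) : ℕ := Ma * ⌈Real.logb 2 R⌉₊

/-- base of the code. -/
noncomputable def BR (Ma : ℕ) (R : ℝ) : ℕ := NA Ma R + ⌈Real.logb 2 R⌉₊ + 10

/-- label of level `i` above the phase point `(m, y)` of level `j` in the frame `z`. -/
noncomputable def lab (R dl : ℝ) (L : ℕ → Lev) (j i : ℕ) (z : E3 × ℝ) (m : ℤ × ℤ) (y : E3) : ℕ :=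
  anc L (j - 1) i (argc (tht R dl j) ((L (j - 1)).pf z) (L (j - 1)).n m y)

/-- digits of the phase point `(m, y)`, for given labels `kk i` of the ancestors: the digit
`i * (n+1)` is the dyadic index of the density of level `i`, the digit `i * (n+1) + l` the dyadic
index of the coherence count `(i, j, l)`. -/
noncomputable def dgt (n0 n Ma : ℕ) (Kf : ℝ → ℝ) (κ : ℝ) (g : E3 → ℂ) (R dl : ℝ) (L : ℕ → Lev)
    (j : ℕ) (z : E3 × ℝ) (kk : ℕ → ℕ) (m : ℤ × ℤ) (y : E3) (t : ℕ) : ℕ :=
  if t / (n + 1) < j then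
    if t % (n + 1) = 0 then
      dy (NA Ma R) (ENNReal.ofReal (Enc g)) (dns n0 κ g R dl L j (t / (n + 1)) z (kk (t / (n + 1))) m
        (z - pz L j (t / (n + 1)) z) y)
    else Nat.log 2 (potT (dns n0 κ g R dl L j (t / (n + 1)) z (kk (t / (n + 1)))) (tht R dl j)
      (sgm R dl (t / (n + 1)) j (t % (n + 1))) (Kf R) m (z - pz L j (t / (n + 1)) z) y)
  else 0

open Classical in
/-- **the class functional of the tube step.** -/
noncomputable def AT (n0 n Ma : ℕ) (Kf : ℝ → ℝ) : AuxF := fun κ _ g R dl L j z _ m y =>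
  if z ∈ cylc R ∧ 1 ≤ j then
    code (BR Ma R) (n * (n + 1)) fun t =>
      min (dgt n0 n Ma Kf κ g R dl L j z (fun i => lab R dl L j i z m y) m y t) (BR Ma R - 1)
  else 0

/-- the coherence number `p_hij` of a label of level `i` with class `x`. -/
noncomputable def pT (n Ma : ℕ) (R dl : ℝ) (h i j x : ℕ) : ℝ :=
  min (2 ^ dig (BR Ma R) (h * (n + 1) + j) x) (9 * dl ^ (-((j : ℝ) - i)))

theorem pT_bound (n Ma : ℕ) {R dl : ℝ} {h i j x : ℕ} (hdl : 0 < dl) (hdl1 : dl ≤ 1) (hij : i < j) :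
    1 ≤ pT n Ma R dl h i j x ∧ pT n Ma R dl h i j x ≤ 9 * dl ^ (-((j : ℝ) - i)) := by
  unfold pT
  refine ⟨le_min (one_le_pow₀ (by norm_num)) ?_, min_le_right _ _⟩
  have h1 : (i : ℝ) < j := by exact_mod_cast hij
  have := Real.one_le_rpow_of_pos_of_le_one_of_nonpos hdl hdl1 (by linarith : -((j : ℝ) - i) ≤ 0)
  linarith

/-! ### number of classes -/

theorem BR_pos (Ma : ℕ) (R : ℝ) : 1 ≤ BR Ma R := by unfold BR; omega

theorem BR_bound (Ma : ℕ) {η : ℝ} (hη : 0 < η) : ∃ C : ℝ, 1 ≤ C ∧ ∀ R : ℝ, 1 ≤ R →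
    (BR Ma R : ℝ) ≤ C * R ^ η := by
  refine ⟨(Ma + 1) * (2 / η + 2) + 10, ?_, fun R hR => ?_⟩
  · have : 0 < 2 / η := by positivity
    have h1 : (0:ℝ) ≤ Ma := Nat.cast_nonneg _
    nlinarith
  · have h1 := logb_ceil_le hη hR
    have h2 : 1 ≤ R ^ η := Real.one_le_rpow hR hη.le
    have h3 : (0:ℝ) ≤ Ma := Nat.cast_nonneg _
    unfold BR NA
    push_cast
    nlinarith

theorem AT_lt (n0 n Ma : ℕ) (Kf : ℝ → ℝ) (κ η0 : ℝ) (g : E3 → ℂ) (R dl : ℝ) (L : ℕ → Lev) (j : ℕ)
    (z : E3 × ℝ) (f : Cf E2) (m : ℤ × ℤ) (y : E3) :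
    AT n0 n Ma Kf κ η0 g R dl L j z f m y < BR Ma R ^ (n * (n + 1)) := by
  classical
  have hB := BR_pos Ma R
  unfold AT
  split_ifs
  · exact code_lt _ _ fun t _ => by omega
  · exact Nat.pow_pos hB

/-! ### measurability -/

theorem measurable_sel_nat {X : Type*} [MeasurableSpace X] {κ : X → ℕ} (hκ : Measurable κ)
    {F : ℕ → X → ℕ} (hF : ∀ k, Measurable (F k)) : Measurable fun x => F (κ x) x := by
  have h1 : Measurable fun p : ℕ × X => F p.1 p.2 :=
    measurable_from_prod_countable_right (fun k => hF k)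
  exact h1.comp (hκ.prodMk measurable_id)

theorem measurable_AdN {n0 : ℕ} {th κ : ℝ} {g : E3 → ℂ} {S : ℤ × ℤ → Set E3}
    {N : ℤ × ℤ → Finset (ℤ × ℤ)} (hg : Integrable g) (m : ℤ × ℤ) (z : E3 × ℝ) :
    Measurable fun y => AdN n0 th κ g S N m z y := by
  unfold AdN Cad538.Acc
  have h1 := Den_meas (μ := (volume : Measure E3)) (n := n0) (c := th ^ 2 * κ)
    (A := fun m => frc th κ (cen th m)) (v := fun m => vel (cen th m))
    (U := fun m y => ‖umc th g m y‖ₑ ^ 2) (S := S) (M := N m)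
    (fun j _ => Bas367.umc_meas_sq hg th j) z.2
  exact h1.comp (measurable_const_add z.1)

theorem measurable_potT {Ad : Dn} {th' σ K : ℝ} {m : ℤ × ℤ} {z : E3 × ℝ}
    (h : ∀ m, Measurable fun y => Ad m z y) : Measurable fun y => potT Ad th' σ K m z y := by
  classical
  have h1 := measurable_pcnt (β := Unit) (caps th') (A := fun m y => Ad m z y) h
    (fun _ m' m => ‖cen th' m - cen th' m'‖ ≤ σ) (ENNReal.ofReal K) () m
  have e : (fun y => potT Ad th' σ K m z y) = fun y => pcnt (caps th') (fun m y => Ad m z y)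
      (fun _ m' m => ‖cen th' m - cen th' m'‖ ≤ σ) (ENNReal.ofReal K) () m y := by
    funext y
    unfold potT pcnt
    congr
  rw [e]
  exact h1

theorem measurable_dgt {n0 n Ma : ℕ} {Kf : ℝ → ℝ} {κ : ℝ} {g : E3 → ℂ} {R dl : ℝ} {L : ℕ → Lev}
    {j : ℕ} {z : E3 × ℝ} {kk : ℕ → ℕ} {m : ℤ × ℤ} (hg : Integrable g) (t : ℕ) :
    Measurable fun y => dgt n0 n Ma Kf κ g R dl L j z kk m y t := by
  unfold dgt
  have hA : ∀ i m, Measurable fun y => dns n0 κ g R dl L j i z (kk i) m (z - pz L j i z) y :=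
    fun i m => measurable_AdN (Bas367.trc_int hg _) m _
  by_cases h1 : t / (n + 1) < j
  · simp only [h1, if_true]
    by_cases h2 : t % (n + 1) = 0
    · simp only [h2, if_true]
      exact (measurable_dy _ _).comp (hA _ m)
    · simp only [h2, if_false]
      exact (measurable_from_top (f := Nat.log 2)).comp (measurable_potT fun m => hA _ m)
  · simp only [h1, if_false]
    exact measurable_const

theorem AT_meas (n0 n Ma : ℕ) (Kf : ℝ → ℝ) {M κ q A A' a b Cn M0 : ℝ} {K : ℕ} {η0 : ℝ} {C0 : E2}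
    {σ : ℝ} {g : E3 → ℂ} {R D dl ν : ℝ} (ha : 1 ≤ a) (hSt : Ss M κ q a b M0 η0 C0 σ g R D)
    {t : ℕ} {L : ℕ → Lev} (hT : Tow M κ q A A' a b Cn K η0 C0 σ g R dl ν t L) (z : E3 × ℝ)
    (f : Cf E2) (m : ℤ × ℤ) : Measurable (AT n0 n Ma Kf κ η0 g R dl L (t + 1) z f m) := by
  classical
  have hg : Integrable g := (Bas367.St.gd (by linarith) hSt.toSt).int
  by_cases hz : z ∈ cylc R
  · have e : AT n0 n Ma Kf κ η0 g R dl L (t + 1) z f m = fun y =>
        (fun (k : ℕ) (y : E3) => code (BR Ma R) (n * (n + 1)) fun t' =>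
          min (dgt n0 n Ma Kf κ g R dl L (t + 1) z (fun i => anc L t i k) m y t') (BR Ma R - 1))
          (argc (tht R dl (t + 1)) ((L t).pf z) (L t).n m y) y := by
      funext y
      unfold AT
      rw [if_pos ⟨hz, by omega⟩]
      rfl
    rw [e]
    have hok := hT.ok t le_rfl
    refine measurable_sel_nat (κ := argc (tht R dl (t + 1)) ((L t).pf z) (L t).n m)
      (F := fun (k : ℕ) (y : E3) => code (BR Ma R) (n * (n + 1)) fun t' =>
          min (dgt n0 n Ma Kf κ g R dl L (t + 1) z (fun i => anc L t i k) m y t') (BR Ma R - 1))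
      (measurable_argc hok.n1 (fun k hk => ?_) m) (fun k => ?_)
    · obtain ⟨cls, hd⟩ := hok.dec ((L t).ζ z) (hok.near z hz).1
      have h1 := hd.st k (Finset.mem_range.2 hk)
      exact Bas367.trc_int (Bas367.St.gd (by linarith) h1).int _
    · exact measurable_code _ _ _ fun t' _ => (measurable_dgt hg t').min measurable_const
  · have e : AT n0 n Ma Kf κ η0 g R dl L (t + 1) z f m = fun _ => 0 := by
      funext y
      unfold AT
      rw [if_neg (fun h => hz h.1)]
    rw [e]
    exact measurable_const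

/-- **AuxOk** for the tube functional. -/
theorem AT_ok (n0 n Ma : ℕ) (Kf : ℝ → ℝ) (M q : ℝ) {a : ℝ} (ha : 1 ≤ a) (b M0 : ℝ) :
    AuxOk (AT n0 n Ma Kf) (fun R => BR Ma R ^ (n * (n + 1))) M q a b M0 := by
  refine ⟨fun R => Nat.one_le_pow _ _ (BR_pos Ma R), fun η hη => ?_, ?_, ?_⟩
  · obtain ⟨C, hC, H⟩ := BR_bound Ma (η := η / ((n * (n + 1) : ℕ) + 1)) (by positivity)
    refine ⟨C ^ (n * (n + 1)), fun R hR => ?_⟩
    have hR0 : 0 < R := by linarith
    push_cast
    calc (BR Ma R : ℝ) ^ (n * (n + 1)) ≤ (C * R ^ (η / ((n * (n + 1) : ℕ) + 1))) ^ (n * (n + 1)) :=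
          pow_le_pow_left₀ (Nat.cast_nonneg _) (H R hR) _
      _ = C ^ (n * (n + 1)) * R ^ (η / ((n * (n + 1) : ℕ) + 1) * (n * (n + 1) : ℕ)) := by
          rw [mul_pow, ← Real.rpow_natCast (R ^ _), ← Real.rpow_mul hR0.le]
      _ ≤ C ^ (n * (n + 1)) * R ^ η := by
          refine mul_le_mul_of_nonneg_left (Real.rpow_le_rpow_of_exponent_le hR ?_) (by positivity)
          rw [div_mul_eq_mul_div, div_le_iff₀ (by positivity)]
          nlinarith
  · intro κ η0 g R dl L j z f m y
    exact AT_lt _ _ _ _ _ _ _ _ _ _ _ _ _ _ _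
  · intro κ η0 C0 σ g R D hSt _ A A' Cn dl ν K t L _ _ hT _ z f m
    exact AT_meas n0 n Ma Kf ha hSt hT z f m

end Crest.Agent.R116.TuD373
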