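import Crest.Agent.R116.TuD_373
import Crest.Agent.R116.TuL_890

/-!
# R116 (S0155), wave side: decoding of the tube classes (helper373)
-/

set_option autoImplicit false

open MeasureTheory
open scoped ENNReal

namespace Crest.Agent.R116.TuD373

open Crest.Agent.R138.Defs (E2)
open Crest.Agent.R138.Wpk685 (cen caps)
open Crest.Agent.R138.Rect779 (card_caps_le)
open Crest.Agent.R138.Acl101 (dy dy_le le_of_dy lt_of_dy half_double measurable_dy pcnt
  measurable_pcnt logb_ceil_le)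
open Crest.Agent.R116.CDef480 Crest.Agent.R116.Ckm538 Crest.Agent.R116.Cad538
open Crest.Agent.R116.WC188 Crest.Agent.R116.GlC210
open Crest.Agent.R116.AsmP597 (up up_succ up_self)
open Crest.Agent.R116.LZg725 (Cf)
open Crest.Agent.R116.TuG373 Crest.Agent.R116.TuC373

/-! ### truncated history -/

theorem trn_lt {L : ℕ → Lev} {j i : ℕ} (h : i < j) : trn L j i = L i := by
  unfold trn
  rw [if_pos h]

theorem pz_self (L : ℕ → Lev) (j : ℕ) (z : E3 × ℝ) : pz L j j z = z := by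
  cases j with
  | zero => rfl
  | succ j => simp [pz]

theorem pz_succ (L : ℕ → Lev) {j i : ℕ} (h : i ≤ j) (z : E3 × ℝ) :
    pz L (j + 1) i z = pz L j i ((L j).ζ z) := by
  simp only [pz]
  rw [if_neg (by omega)]

theorem pz_trn (L : ℕ → Lev) {j' : ℕ} : ∀ (j i : ℕ) (z : E3 × ℝ), j ≤ j' →
    pz (trn L j') j i z = pz L j i z := by
  intro j
  induction j with
  | zero => intro i z _; rfl
  | succ j ih =>
    intro i z h
    simp only [pz]
    rw [trn_lt (by omega : j < j'), ih _ _ (by omega)]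

theorem up_congr {par par' : ℕ → ℕ → ℕ} : ∀ (j i k : ℕ), (∀ t < j, par t = par' t) →
    up par j i k = up par' j i k := by
  intro j
  induction j with
  | zero => intro i k _; rfl
  | succ j ih =>
    intro i k h
    rcases Nat.lt_or_ge i (j + 1) with h1 | h1
    · rw [up_succ par (by omega), up_succ par' (by omega), h j (by omega)]
      exact ih _ _ fun t ht => h t (by omega)
    · simp only [up]
      rw [if_pos h1, if_pos h1]

theorem anc_trn (L : ℕ → Lev) {j' j : ℕ} (h : j < j') (i k : ℕ) :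
    anc (trn L j') j i k = anc L j i k := by
  unfold anc
  refine up_congr j i k fun t ht => ?_
  rw [trn_lt (by omega : t + 1 < j')]

theorem anc_succ (L : ℕ → Lev) {j i : ℕ} (h : i ≤ j) (k : ℕ) :
    anc L (j + 1) i k = anc L j i ((L (j + 1)).par k) := by
  unfold anc
  exact up_succ _ h k

theorem dns_trn {n0 : ℕ} {κ : ℝ} {g : E3 → ℂ} {R dl : ℝ} {L : ℕ → Lev} {j i : ℕ} (hij : i < j)
    (z : E3 × ℝ) (k : ℕ) : dns n0 κ g R dl (trn L j) j i z k = dns n0 κ g R dl L j i z k := by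
  unfold dns
  rw [pz_trn L j i z le_rfl, trn_lt hij]

/-! ### paths -/

section tow

variable {M κ q A A' a b Cn M0 : ℝ} {K : ℕ} {η0 : ℝ} {C0 : E2} {σ : ℝ} {g : E3 → ℂ} {R D dl ν : ℝ}
  {n : ℕ} {L : ℕ → Lev}

theorem pz_mem (hT : Tow M κ q A A' a b Cn K η0 C0 σ g R dl ν n L) : ∀ (j i : ℕ), j ≤ n → i ≤ j →
    ∀ z ∈ (L j).Z, pz L j i z ∈ (L i).Z := by
  intro j
  induction j with
  | zero =>
    intro i _ hi z hz
    have : i = 0 := by omega
    subst this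
    exact hz
  | succ j ih =>
    intro i hj hi z hz
    rcases Nat.lt_or_ge j i with h | h
    · have : i = j + 1 := by omega
      subst this
      rw [pz_self]
      exact hz
    · rw [pz_succ L h]
      exact ih i (by omega) h _ ((hT.ok j (by omega)).near z ((hT.ok (j + 1) hj).net.mem z hz)).1

/-- the displacement of the path is at most `2 r_i`. -/
theorem pz_disp (hT : Tow M κ q A A' a b Cn K η0 C0 σ g R dl ν n L) (hR : 0 < R) (hdl : 0 < dl)
    (hdl2 : 2 * dl ≤ 1) : ∀ (j i : ℕ), j ≤ n → i ≤ j →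
    ∀ z ∈ (L j).Z, z - pz L j i z ∈ cylc (2 * (R * dl ^ i) - 2 * (R * dl ^ j)) := by
  intro j
  induction j with
  | zero =>
    intro i _ hi z hz
    have : i = 0 := by omega
    subst this
    rw [pz_self, sub_self, sub_self]
    unfold cylc
    simp
  | succ j ih =>
    intro i hj hi z hz
    rcases Nat.lt_or_ge j i with h | h
    · have : i = j + 1 := by omega
      subst this
      rw [pz_self, sub_self, sub_self]
      unfold cylc
      simp
    · rw [pz_succ L h]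
      have hz' := (hT.ok j (by omega)).near z ((hT.ok (j + 1) hj).net.mem z hz)
      have h1 := ih i (by omega) h _ hz'.1
      have h2 := hz'.2
      rw [hT.rad j (by omega)] at h2
      have e : z - pz L j i ((L j).ζ z) = (z - (L j).ζ z) + ((L j).ζ z - pz L j i ((L j).ζ z)) := by
        abel
      rw [e]
      have h3 : R * dl ^ (j + 1) * 2 ≤ R * dl ^ j := by
        have : 0 < R * dl ^ j := by positivity
        rw [pow_succ]
        nlinarith
      refine ⟨?_, ?_⟩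
      · rw [Prod.fst_add]
        refine (norm_add_le _ _).trans ?_
        have a1 := h1.1
        have a2 := h2.1
        linarith
      · rw [Prod.snd_add]
        refine (abs_add_le _ _).trans ?_
        have a1 := h1.2
        have a2 := h2.2
        linarith

theorem anc_lt (hT : Tow M κ q A A' a b Cn K η0 C0 σ g R dl ν n L) : ∀ (j i : ℕ), j ≤ n → i ≤ j →
    ∀ k < (L j).n, anc L j i k < (L i).n := by
  intro j
  induction j with
  | zero =>
    intro i _ hi k hk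
    have : i = 0 := by omega
    subst this
    exact hk
  | succ j ih =>
    intro i hj hi k hk
    rcases Nat.lt_or_ge j i with h | h
    · have : i = j + 1 := by omega
      subst this
      unfold anc
      rw [up_self]
      exact hk
    · rw [anc_succ L h]
      exact ih i (by omega) h _ ((hT.next j (by omega)).par_lt k hk)

/-- angle of the level. -/
theorem tht_eq (hT : Tow M κ q A A' a b Cn K η0 C0 σ g R dl ν n L) {t : ℕ} (ht : t ≤ n) :
    (L t).r ^ (-(1/2) : ℝ) = tht R dl t := by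
  rw [hT.rad t ht]
  rfl

/-! ### decoding -/

theorem lab_eq (hT : Tow M κ q A A' a b Cn K η0 C0 σ g R dl ν n L) {s : ℕ} (hs : s + 1 ≤ n)
    {z : E3 × ℝ} (hz : z ∈ (L (s + 1)).Z) {k : ℕ} (hk : k < (L (s + 1)).n) {i' : ℕ}
    (hi' : i' ∈ (L (s + 1)).I z k) {m : ℤ × ℤ} {y : E3} (hy : y ∈ ((L (s + 1)).P z k i').S m)
    {i : ℕ} (hi : i ≤ s) :
    lab R dl (trn L (s + 1)) (s + 1) i z m y = anc L (s + 1) i k := by
  have h2 := (hT.next s (by omega)).arg z hz k hk i' hi' m y hy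
  rw [tht_eq hT hs] at h2
  unfold lab
  rw [Nat.add_sub_cancel, anc_trn L (Nat.lt_succ_self s), trn_lt (Nat.lt_succ_self s), h2,
    anc_succ L hi]

theorem AT_digits {n0 Ma : ℕ} {Kf : ℝ → ℝ} {η1 : ℝ} {L' : ℕ → Lev} {j : ℕ} {z : E3 × ℝ}
    {f : Cf E2} {m : ℤ × ℤ} {y : E3} (hz : z ∈ cylc R) (hj1 : 1 ≤ j) {t : ℕ}
    (ht : t < n * (n + 1)) :
    dig (BR Ma R) t (AT n0 n Ma Kf κ η1 g R dl L' j z f m y) =
      min (dgt n0 n Ma Kf κ g R dl L' j z (fun i => lab R dl L' j i z m y) m y t)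
        (BR Ma R - 1) := by
  classical
  have hB := BR_pos Ma R
  have h := dig_code (B := BR Ma R) (n * (n + 1)) (fun t =>
    min (dgt n0 n Ma Kf κ g R dl L' j z (fun i => lab R dl L' j i z m y) m y t) (BR Ma R - 1))
    (fun t _ => by omega) t ht
  unfold AT
  rw [if_pos ⟨hz, hj1⟩]
  exact h

theorem dgt_trn {n0 Ma : ℕ} {Kf : ℝ → ℝ} {j : ℕ} {z : E3 × ℝ} {kk kk' : ℕ → ℕ} {m : ℤ × ℤ}
    {y : E3} {t : ℕ} (htj : t / (n + 1) < j) (hk : kk (t / (n + 1)) = kk' (t / (n + 1))) :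
    dgt n0 n Ma Kf κ g R dl (trn L j) j z kk m y t = dgt n0 n Ma Kf κ g R dl L j z kk' m y t := by
  unfold dgt
  rw [if_pos htj, if_pos htj, hk, dns_trn htj, pz_trn L j _ z le_rfl]

theorem dig_of' {n0 Ma : ℕ} {Kf : ℝ → ℝ} {ac : ℕ → ℕ → ℕ}
    (hT : Tow M κ q A A' a b Cn K η0 C0 σ g R dl ν n L)
    (hac : Acl (AT n0 n Ma Kf) κ η0 g R dl n L ac) {s : ℕ} (hj : s + 1 ≤ n)
    {z : E3 × ℝ} (hz : z ∈ (L (s + 1)).Z) {k : ℕ} (hk : k < (L (s + 1)).n) {i' : ℕ}
    (hi' : i' ∈ (L (s + 1)).I z k) {m : ℤ × ℤ} {y : E3} (hy : y ∈ ((L (s + 1)).P z k i').S m)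
    {t : ℕ} (ht : t < n * (n + 1)) (htj : t / (n + 1) < s + 1) :
    dig (BR Ma R) t (ac (s + 1) k) =
      min (dgt n0 n Ma Kf κ g R dl L (s + 1) z (fun i => anc L (s + 1) i k) m y t)
        (BR Ma R - 1) := by
  have h1 := hac s (by omega) z hz k hk i' hi' m y hy
  have hzR := (hT.ok (s + 1) hj).net.mem z hz
  have h2 := AT_digits (n0 := n0) (n := n) (Ma := Ma) (Kf := Kf) (κ := κ) (η1 := η0) (g := g)
    (R := R) (dl := dl) (L' := trn L (s + 1)) (j := s + 1) (z := z)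
    (f := ((L (s + 1)).P z k i').f) (m := m) (y := y) hzR (by omega) ht
  rw [h1] at h2
  have h3 := dgt_trn (n0 := n0) (Ma := Ma) (Kf := Kf) (κ := κ) (g := g) (R := R) (dl := dl)
    (L := L) (z := z) (m := m) (y := y) (n := n) htj
    (kk := fun i => lab R dl (trn L (s + 1)) (s + 1) i z m y) (kk' := fun i => anc L (s + 1) i k)
    (lab_eq hT hj hz hk hi' hy (by omega))
  rw [h2, h3]

theorem dig_of {n0 Ma : ℕ} {Kf : ℝ → ℝ} {ac : ℕ → ℕ → ℕ}
    (hT : Tow M κ q A A' a b Cn K η0 C0 σ g R dl ν n L)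
    (hac : Acl (AT n0 n Ma Kf) κ η0 g R dl n L ac) {j : ℕ} (hj1 : 1 ≤ j) (hj : j ≤ n)
    {z : E3 × ℝ} (hz : z ∈ (L j).Z) {k : ℕ} (hk : k < (L j).n) {i' : ℕ} (hi' : i' ∈ (L j).I z k)
    {m : ℤ × ℤ} {y : E3} (hy : y ∈ ((L j).P z k i').S m) {t : ℕ} (ht : t < n * (n + 1))
    (htj : t / (n + 1) < j) :
    dig (BR Ma R) t (ac j k) = min (dgt n0 n Ma Kf κ g R dl L j z (fun i => anc L j i k) m y t)
      (BR Ma R - 1) := by
  cases j with
  | zero => omega
  | succ s => exact dig_of' hT hac hj hz hk hi' hy ht htj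

/-- the density is at most the energy. -/
theorem dns_le (ha : 1 ≤ a) (hb : b ≤ 2) (hSt : St M κ q a b M0 C0 σ g R D) (hκ1 : κ ≤ 1) {n0 : ℕ} {j i : ℕ} (hr : 1 ≤ R * dl ^ i) (z z' : E3 × ℝ) (k : ℕ) (m : ℤ × ℤ)
    (y : E3) : dns n0 κ g R dl L j i z k m z' y ≤ ENNReal.ofReal (Enc g) := by
  classical
  have hth0 : 0 < tht R dl i := Real.rpow_pos_of_pos (by linarith) _
  have hth1 : tht R dl i ≤ 1 := Real.rpow_le_one_of_one_le_of_nonpos hr (by norm_num)
  unfold dns AdN Cad538.Acc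
  refine (Den_le _ _).trans ?_
  have h1 : ENNReal.ofReal (tht R dl i ^ 2 * κ) ≤ 1 := by
    rw [← ENNReal.ofReal_one]
    refine ENNReal.ofReal_le_ofReal ?_
    have : tht R dl i ^ 2 ≤ 1 := pow_le_one₀ hth0.le hth1
    nlinarith
  have h2 : ∑ m ∈ nrC (tht R dl i) (tht R dl j) m, ∫⁻ y in (L i).sl (pz L j i z) k m,
      ‖umc (tht R dl i) (trc (pz L j i z) g) m y‖ₑ ^ 2 ≤
      enc (tht R dl i) (trc (pz L j i z) g) ((L i).sl (pz L j i z) k) := by
    unfold enc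
    exact Finset.sum_le_sum_of_subset fun m hm => (Finset.mem_filter.1 hm).1
  calc ENNReal.ofReal (tht R dl i ^ 2 * κ) * ∑ m ∈ nrC (tht R dl i) (tht R dl j) m,
        ∫⁻ y in (L i).sl (pz L j i z) k m, ‖umc (tht R dl i) (trc (pz L j i z) g) m y‖ₑ ^ 2
      ≤ 1 * enc (tht R dl i) (trc (pz L j i z) g) ((L i).sl (pz L j i z) k) :=
        mul_le_mul' h1 h2
    _ ≤ _ := by
        rw [one_mul]
        exact TuL890.enc_le_Enc ha hb hSt hth0 _ _

/-- lower end of the density class. -/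
noncomputable def A0 (n Ma : ℕ) (g : E3 → ℂ) (R : ℝ) (i x : ℕ) : ℝ :=
  Enc g / 2 ^ (dig (BR Ma R) (i * (n + 1)) x + 1)

/-- the density of level `i` is tiny in the class `x`. -/
def Tiny (n Ma : ℕ) (R : ℝ) (i x : ℕ) : Prop := ¬ dig (BR Ma R) (i * (n + 1)) x < NA Ma R

theorem Enc_nonneg (g : E3 → ℂ) : 0 ≤ Enc g := by
  unfold Enc
  exact integral_nonneg fun ζ => by positivity

theorem ofReal_A0 (n Ma : ℕ) (g : E3 → ℂ) (R : ℝ) (i x : ℕ) :
    ENNReal.ofReal (A0 n Ma g R i x) =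
      ENNReal.ofReal (Enc g) / 2 ^ (dig (BR Ma R) (i * (n + 1)) x + 1) := by
  unfold A0
  rw [ENNReal.ofReal_div_of_pos (by positivity), ENNReal.ofReal_pow (by norm_num)]
  norm_num

/-- **decoding of the density.** -/
theorem dec_dens {n0 Ma : ℕ} {Kf : ℝ → ℝ} {ac : ℕ → ℕ → ℕ} (ha : 1 ≤ a) (hb : b ≤ 2)
    (hSt : St M κ q a b M0 C0 σ g R D) (hκ1 : κ ≤ 1)
    (hT : Tow M κ q A A' a b Cn K η0 C0 σ g R dl ν n L)
    (hac : Acl (AT n0 n Ma Kf) κ η0 g R dl n L ac) {j i : ℕ} (hij : i < j) (hj : j ≤ n)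
    (hr : 1 ≤ R * dl ^ i)
    {z : E3 × ℝ} (hz : z ∈ (L j).Z) {k : ℕ} (hk : k < (L j).n) {i' : ℕ} (hi' : i' ∈ (L j).I z k)
    {m : ℤ × ℤ} {y : E3} (hy : y ∈ ((L j).P z k i').S m) :
    (¬ Tiny n Ma R i (ac j k) →
      ENNReal.ofReal (A0 n Ma g R i (ac j k)) ≤
        dns n0 κ g R dl L j i z (anc L j i k) m (z - pz L j i z) y ∧
      dns n0 κ g R dl L j i z (anc L j i k) m (z - pz L j i z) y ≤
        ENNReal.ofReal (2 * A0 n Ma g R i (ac j k))) ∧
    (Tiny n Ma R i (ac j k) → dns n0 κ g R dl L j i z (anc L j i k) m (z - pz L j i z) y ≤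
      ENNReal.ofReal (Enc g / 2 ^ NA Ma R)) := by
  have hin : i < n := by omega
  have ht : i * (n + 1) < n * (n + 1) := by nlinarith
  have hdiv : i * (n + 1) / (n + 1) = i := Nat.mul_div_cancel _ (by omega)
  have hmod : i * (n + 1) % (n + 1) = 0 := Nat.mul_mod_left _ _
  have h1 := dig_of hT hac (by omega) hj hz hk hi' hy ht (by rw [hdiv]; exact hij)
  have h2 : dgt n0 n Ma Kf κ g R dl L j z (fun i => anc L j i k) m y (i * (n + 1)) =
      dy (NA Ma R) (ENNReal.ofReal (Enc g))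
        (dns n0 κ g R dl L j i z (anc L j i k) m (z - pz L j i z) y) := by
    unfold dgt
    rw [hdiv, if_pos hij, hmod, if_pos rfl]
  have h3 : dig (BR Ma R) (i * (n + 1)) (ac j k) = dy (NA Ma R) (ENNReal.ofReal (Enc g))
        (dns n0 κ g R dl L j i z (anc L j i k) m (z - pz L j i z) y) := by
    rw [h1, h2, min_eq_left]
    have := dy_le (NA Ma R) (ENNReal.ofReal (Enc g))
      (dns n0 κ g R dl L j i z (anc L j i k) m (z - pz L j i z) y)
    unfold BR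
    omega
  have hle := dns_le (L := L) (n0 := n0) (dl := dl) (i := i) (j := j) ha hb hSt hκ1 hr z
    (z - pz L j i z) (anc L j i k) m y
  refine ⟨fun hnt => ⟨?_, ?_⟩, fun ht => ?_⟩
  · unfold Tiny at hnt
    push Not at hnt
    rw [ofReal_A0]
    rw [h3] at hnt ⊢
    exact (lt_of_dy hnt).le
  · rw [ENNReal.ofReal_mul (by norm_num), ofReal_A0, h3, ENNReal.ofReal_ofNat, ← half_double]
    exact le_of_dy hle
  · unfold Tiny at ht
    rw [h3] at ht
    have h4 := le_antisymm (dy_le (NA Ma R) (ENNReal.ofReal (Enc g)) _) (not_lt.1 ht)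
    have h5 := le_of_dy (n := NA Ma R) hle
    rw [h4] at h5
    refine h5.trans (le_of_eq ?_)
    rw [ENNReal.ofReal_div_of_pos (by positivity), ENNReal.ofReal_pow (by norm_num)]
    norm_num

end tow

/-! ### real facts -/

theorem tht_pos {R dl : ℝ} (hR : 0 < R) (hdl : 0 < dl) (t : ℕ) : 0 < tht R dl t :=
  Real.rpow_pos_of_pos (by positivity) _

theorem tht_sq {R dl : ℝ} (hR : 0 < R) (hdl : 0 < dl) (t : ℕ) :
    R * dl ^ t * tht R dl t ^ 2 = 1 := by
  have h : 0 < R * dl ^ t := by positivity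
  unfold tht
  rw [← Real.rpow_natCast ((R * dl ^ t) ^ (-(1/2) : ℝ)) 2, ← Real.rpow_mul h.le,
    show (-(1/2) : ℝ) * ((2 : ℕ) : ℝ) = -1 by norm_num, Real.rpow_neg_one, mul_inv_cancel₀ h.ne']

theorem tht_inv {R dl : ℝ} (hR : 0 < R) (hdl : 0 < dl) (t : ℕ) :
    (tht R dl t)⁻¹ = (R * dl ^ t) ^ (1/2 : ℝ) := by
  have h : 0 < R * dl ^ t := by positivity
  unfold tht
  rw [← Real.rpow_neg h.le, neg_neg]

/-- ratio of two angles. -/
theorem tht_ratio {R dl : ℝ} (hR : 0 < R) (hdl : 0 < dl) (i j : ℕ) :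
    tht R dl j = tht R dl i * dl ^ (-(((j : ℝ) - i) / 2)) := by
  unfold tht
  rw [Real.mul_rpow hR.le (by positivity), Real.mul_rpow hR.le (by positivity),
    ← Real.rpow_natCast, ← Real.rpow_natCast, ← Real.rpow_mul hdl.le, ← Real.rpow_mul hdl.le,
    mul_assoc, ← Real.rpow_add hdl]
  congr 2
  ring

theorem tht_mono {R dl : ℝ} (hR : 0 < R) (hdl : 0 < dl) (hdl1 : dl ≤ 1) {i j : ℕ} (h : i ≤ j) :
    tht R dl i ≤ tht R dl j := by
  rw [tht_ratio hR hdl i j]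
  have h1 : (i : ℝ) ≤ j := by exact_mod_cast h
  have := Real.one_le_rpow_of_pos_of_le_one_of_nonpos hdl hdl1
    (by linarith : -(((j : ℝ) - i) / 2) ≤ 0)
  have h2 := tht_pos hR hdl i
  nlinarith

/-- **static**: `κ θ_j ≤ θ_i` for `j ≤ i + 4 Lw`. -/
theorem tht_static {R dl κ : ℝ} (hR : 0 < R) (hdl : 0 < dl) (hdl1 : dl ≤ 1) {i j Lw : ℕ}
    (hκ : κ ≤ dl ^ (4 * (Lw : ℝ))) (h : j ≤ i + 8 * Lw) :
    κ * tht R dl j ≤ tht R dl i := by
  have hi := tht_pos hR hdl i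
  rw [tht_ratio hR hdl i j]
  have h1 : (j : ℝ) ≤ i + 8 * Lw := by exact_mod_cast h
  have h2 : κ * dl ^ (-(((j : ℝ) - i) / 2)) ≤ 1 := by
    calc κ * dl ^ (-(((j : ℝ) - i) / 2)) ≤ dl ^ (4 * (Lw : ℝ)) * dl ^ (-(((j : ℝ) - i) / 2)) := by
          gcongr
      _ = dl ^ (4 * (Lw : ℝ) + -(((j : ℝ) - i) / 2)) := by rw [← Real.rpow_add hdl]
      _ ≤ 1 := Real.rpow_le_one hdl.le hdl1 (by linarith)
  nlinarith

/-! ### the radius of the coherence count -/

theorem sgm_le (R dl : ℝ) (i j l : ℕ) : sgm R dl i j l ≤ tht R dl l := min_le_left _ _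

theorem rho_div {R dl : ℝ} (hR : 0 < R) (hdl : 0 < dl) (i j : ℕ) :
    (R * dl ^ i) ^ (1/2 : ℝ) / (R * dl ^ j) = tht R dl j ^ 2 / tht R dl i := by
  have h1 := tht_sq hR hdl j
  have h2 : 0 < R * dl ^ j := by positivity
  rw [← tht_inv hR hdl i]
  have h3 : (R * dl ^ j)⁻¹ = tht R dl j ^ 2 := by
    exact inv_eq_of_mul_eq_one_right h1
  rw [div_eq_mul_inv, h3, div_eq_mul_inv, mul_comm]

theorem tht_le_sgm {R dl : ℝ} (hR : 0 < R) (hdl : 0 < dl) (hdl1 : dl ≤ 1) {i j l : ℕ}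
    (hij : i ≤ j) (hjl : j ≤ l) : tht R dl j ≤ sgm R dl i j l := by
  refine le_min (tht_mono hR hdl hdl1 hjl) ?_
  rw [rho_div hR hdl]
  have h1 := tht_pos hR hdl i
  have h2 := tht_pos hR hdl j
  have h3 := tht_mono hR hdl hdl1 hij
  rw [le_div_iff₀ h1]
  nlinarith

theorem sgm_pos {R dl : ℝ} (hR : 0 < R) (hdl : 0 < dl) (hdl1 : dl ≤ 1) {i j l : ℕ}
    (hij : i ≤ j) (hjl : j ≤ l) : 0 < sgm R dl i j l :=
  (tht_pos hR hdl j).trans_le (tht_le_sgm hR hdl hdl1 hij hjl)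

/-- `θ_i r_j σ ≤ 1`. -/
theorem sgm_drift {R dl : ℝ} (hR : 0 < R) (hdl : 0 < dl) (i j l : ℕ) :
    tht R dl i * (R * dl ^ j * sgm R dl i j l) ≤ 1 := by
  have h1 := tht_pos hR hdl i
  have h2 : 0 < R * dl ^ j := by positivity
  have h3 : sgm R dl i j l ≤ (R * dl ^ i) ^ (1/2 : ℝ) / (R * dl ^ j) := min_le_right _ _
  have h4 := tht_inv hR hdl i
  calc tht R dl i * (R * dl ^ j * sgm R dl i j l)
      ≤ tht R dl i * (R * dl ^ j * ((R * dl ^ i) ^ (1/2 : ℝ) / (R * dl ^ j))) := by gcongr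
    _ = tht R dl i * (R * dl ^ i) ^ (1/2 : ℝ) := by field_simp
    _ = 1 := by rw [← h4, mul_inv_cancel₀ h1.ne']

/-- `κ r_j σ² ≤ 1`. -/
theorem sgm_drift2 {R dl κ : ℝ} (hR : 0 < R) (hdl : 0 < dl) (hdl1 : dl ≤ 1) (hκ0 : 0 ≤ κ)
    {i j l Lw : ℕ} (hij : i ≤ j) (hjl : j ≤ l) (hκ : κ ≤ dl ^ (4 * (Lw : ℝ)))
    (h : l ≤ i + 8 * Lw) : κ * (R * dl ^ j * sgm R dl i j l ^ 2) ≤ 1 := by
  have h0 := sgm_pos hR hdl hdl1 hij hjl
  have h1 := tht_pos hR hdl i
  have h2 : 0 < R * dl ^ j := by positivity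
  have h3 := sgm_drift hR hdl i j l
  have h4 := tht_static hR hdl hdl1 hκ h
  have h5 := sgm_le R dl i j l
  have h6 : κ * sgm R dl i j l ≤ tht R dl i := (mul_le_mul_of_nonneg_left h5 hκ0).trans h4
  calc κ * (R * dl ^ j * sgm R dl i j l ^ 2)
      = (κ * sgm R dl i j l) * (R * dl ^ j * sgm R dl i j l) := by ring
    _ ≤ tht R dl i * (R * dl ^ j * sgm R dl i j l) := by gcongr
    _ ≤ 1 := h3

/-- **defect**: `θ_l ≤ σ_ijl X^(max 0 (i + l - 2 j) / 2)`. -/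
theorem sgm_defect {R dl : ℝ} (hR : 0 < R) (hdl : 0 < dl) (hdl1 : dl ≤ 1) (i j l : ℕ) :
    tht R dl l ≤ sgm R dl i j l * dl ^ (-(max 0 ((i : ℝ) + l - 2 * j) / 2)) := by
  have hl := tht_pos hR hdl l
  have h0 : 1 ≤ dl ^ (-(max 0 ((i : ℝ) + l - 2 * j) / 2)) := by
    refine Real.one_le_rpow_of_pos_of_le_one_of_nonpos hdl hdl1 ?_
    have := le_max_left 0 ((i : ℝ) + l - 2 * j)
    linarith
  unfold sgm
  rcases le_total (tht R dl l) ((R * dl ^ i) ^ (1/2 : ℝ) / (R * dl ^ j)) with h | h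
  · rw [min_eq_left h]
    nlinarith
  · rw [min_eq_right h, rho_div hR hdl]
    have e1 := tht_ratio hR hdl i l
    have e2 := tht_ratio hR hdl i j
    have hi := tht_pos hR hdl i
    rw [e1, e2, mul_pow, ← Real.rpow_natCast (dl ^ (-(((j : ℝ) - i) / 2))) 2,
      ← Real.rpow_mul hdl.le]
    have e3 : tht R dl i ^ 2 * dl ^ (-(((j : ℝ) - i) / 2) * ((2 : ℕ) : ℝ)) / tht R dl i *
        dl ^ (-(max 0 ((i : ℝ) + l - 2 * j) / 2)) =
        tht R dl i * dl ^ (-(((j : ℝ) - i) / 2) * ((2 : ℕ) : ℝ) +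
          -(max 0 ((i : ℝ) + l - 2 * j) / 2)) := by
      rw [Real.rpow_add hdl]
      field_simp
    rw [e3]
    refine mul_le_mul_of_nonneg_left (Real.rpow_le_rpow_of_exponent_ge hdl hdl1 ?_) hi.le
    have := le_max_right 0 ((i : ℝ) + l - 2 * j)
    push_cast
    linarith

/-! ### decoding of the coherence count -/

theorem potT_le {R dl : ℝ} (hR : 0 < R) (hdl : 0 < dl) (hdl1 : dl ≤ 1) (Ad : Dn) {i j l : ℕ}
    (hjl : j ≤ l) (K : ℝ) (m : ℤ × ℤ) (z : E3 × ℝ) (y : E3) :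
    (potT Ad (tht R dl j) (sgm R dl i j l) K m z y : ℝ) ≤ 9 * dl ^ (-((l : ℝ) - j)) := by
  classical
  have hj := tht_pos hR hdl j
  have h1 : (j : ℝ) ≤ l := by exact_mod_cast hjl
  set X : ℝ := dl ^ (-(((l : ℝ) - j) / 2)) with hX
  have hX1 : 1 ≤ X := Real.one_le_rpow_of_pos_of_le_one_of_nonpos hdl hdl1 (by linarith)
  have h2 : (potT Ad (tht R dl j) (sgm R dl i j l) K m z y : ℝ) ≤ (2 * X + 1) ^ 2 := by
    unfold potT
    refine card_caps_le hj (ξ0 := cen (tht R dl j) m) (by linarith) fun m' hm' => ?_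
    obtain ⟨-, h3, -⟩ := Finset.mem_filter.1 hm'
    refine h3.trans ((sgm_le R dl i j l).trans (le_of_eq ?_))
    rw [tht_ratio hR hdl j l, mul_comm]
  have h4 : X ^ 2 = dl ^ (-((l : ℝ) - j)) := by
    rw [hX, ← Real.rpow_natCast, ← Real.rpow_mul hdl.le]
    congr 1
    push_cast
    ring
  rw [← h4]
  nlinarith

theorem potT_pos {Ad : Dn} {th' σ K : ℝ} {m : ℤ × ℤ} {z : E3 × ℝ} {y : E3} (hm : m ∈ caps th')
    (hσ : 0 ≤ σ) (hK : 1 ≤ K) : 1 ≤ potT Ad th' σ K m z y := by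
  classical
  unfold potT
  refine Finset.card_pos.2 ⟨m, Finset.mem_filter.2 ⟨hm, by simpa using hσ, ?_⟩⟩
  calc Ad m z y = 1 * Ad m z y := (one_mul _).symm
    _ ≤ _ := by
        refine mul_le_mul' ?_ le_rfl
        rw [← ENNReal.ofReal_one]
        exact ENNReal.ofReal_le_ofReal hK

/-- **decoding of the coherence count.** -/
theorem dec_pot {M κ q A A' a b Cn : ℝ} {K : ℕ} {η0 : ℝ} {C0 : E2} {σ : ℝ} {g : E3 → ℂ}
    {R dl ν : ℝ} {n : ℕ} {L : ℕ → Lev} {n0 Ma : ℕ} {Kf : ℝ → ℝ} {ac : ℕ → ℕ → ℕ}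
    (hR : 1 ≤ R) (hdl : 0 < dl) (hdl1 : dl ≤ 1) (hK : 1 ≤ Kf R)
    (hT : Tow M κ q A A' a b Cn K η0 C0 σ g R dl ν n L)
    (hac : Acl (AT n0 n Ma Kf) κ η0 g R dl n L ac) {j i l : ℕ} (hij : i < j) (hjl : j < l)
    (hl : l ≤ n) {z : E3 × ℝ} (hz : z ∈ (L j).Z) {k : ℕ} (hk : k < (L j).n) {i' : ℕ}
    (hi' : i' ∈ (L j).I z k) {m : ℤ × ℤ} (hm : m ∈ caps (tht R dl j)) {y : E3}
    (hy : y ∈ ((L j).P z k i').S m) :
    pT n Ma R dl i j l (ac j k) ≤ (potT (dns n0 κ g R dl L j i z (anc L j i k)) (tht R dl j)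
      (sgm R dl i j l) (Kf R) m (z - pz L j i z) y : ℝ) ∧
    (potT (dns n0 κ g R dl L j i z (anc L j i k)) (tht R dl j)
      (sgm R dl i j l) (Kf R) m (z - pz L j i z) y : ℝ) ≤ 2 * pT n Ma R dl i j l (ac j k) := by
  have hR0 : 0 < R := by linarith
  set v : ℕ := potT (dns n0 κ g R dl L j i z (anc L j i k)) (tht R dl j)
      (sgm R dl i j l) (Kf R) m (z - pz L j i z) y with hv
  have hv1 : 1 ≤ v := potT_pos hm (sgm_pos hR0 hdl hdl1 hij.le hjl.le).le hK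
  have hv2 : (v : ℝ) ≤ 9 * dl ^ (-((l : ℝ) - j)) := potT_le hR0 hdl hdl1 _ hjl.le _ _ _ _
  have ht : i * (n + 1) + l < n * (n + 1) := by
    have : i + 1 ≤ n := by omega
    have h2 : (i + 1) * (n + 1) ≤ n * (n + 1) := Nat.mul_le_mul_right _ this
    have h3 : (i + 1) * (n + 1) = i * (n + 1) + (n + 1) := by ring
    omega
  have hdiv : (i * (n + 1) + l) / (n + 1) = i := by
    rw [Nat.mul_comm, Nat.mul_add_div (by omega), Nat.div_eq_of_lt (by omega), Nat.add_zero]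
  have hmod : (i * (n + 1) + l) % (n + 1) = l := by
    rw [Nat.mul_comm, Nat.mul_add_mod, Nat.mod_eq_of_lt (by omega)]
  have h1 := dig_of hT hac (by omega) (by omega) hz hk hi' hy ht (by rw [hdiv]; exact hij)
  have h2 : dgt n0 n Ma Kf κ g R dl L j z (fun i => anc L j i k) m y (i * (n + 1) + l) =
      Nat.log 2 v := by
    unfold dgt
    rw [hdiv, if_pos hij, hmod, if_neg (by omega)]
  -- the logarithm is not clipped
  have hlog : Nat.log 2 v ≤ BR Ma R - 1 := by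
    have h3 : dl ^ (-((l : ℝ) - j)) ≤ R := by
      have h4 := (hT.ok l hl).lo
      rw [hT.rad l hl] at h4
      have h5 : 1 ≤ R * dl ^ l := (Real.one_le_rpow hR (by norm_num)).trans h4
      have h6 : dl ^ (-(l : ℝ)) ≤ R := by
        rw [Real.rpow_neg hdl.le, Real.rpow_natCast, inv_le_iff_one_le_mul₀ (by positivity)]
        linarith
      refine le_trans (Real.rpow_le_rpow_of_exponent_ge hdl hdl1 ?_) h6
      have : (0:ℝ) ≤ j := Nat.cast_nonneg _
      linarith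
    have h7 : (v : ℝ) < 2 ^ (⌈Real.logb 2 R⌉₊ + 4) := by
      have h8 : R ≤ 2 ^ ⌈Real.logb 2 R⌉₊ := by
        have h9 : Real.logb 2 R ≤ (⌈Real.logb 2 R⌉₊ : ℝ) := Nat.le_ceil _
        rw [Real.logb_le_iff_le_rpow (by norm_num) hR0, Real.rpow_natCast] at h9
        exact h9
      calc (v : ℝ) ≤ 9 * R := hv2.trans (by linarith)
        _ < 16 * 2 ^ ⌈Real.logb 2 R⌉₊ := by
            have : (0:ℝ) < 2 ^ ⌈Real.logb 2 R⌉₊ := by positivity
            nlinarith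
        _ = _ := by rw [pow_add]; norm_num; ring
    have h8 : v < 2 ^ (⌈Real.logb 2 R⌉₊ + 4) := by exact_mod_cast h7
    have h9 : Nat.log 2 v < ⌈Real.logb 2 R⌉₊ + 4 :=
      (Nat.log_lt_iff_lt_pow (by norm_num) (by omega)).2 h8
    unfold BR
    omega
  have h3 : dig (BR Ma R) (i * (n + 1) + l) (ac j k) = Nat.log 2 v := by
    rw [h1, h2, min_eq_left hlog]
  have h4 : 2 ^ Nat.log 2 v ≤ v := Nat.pow_log_le_self 2 (by omega)
  have h5 : v < 2 ^ (Nat.log 2 v + 1) := Nat.lt_pow_succ_log_self (by norm_num) v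
  have h6 : (2:ℝ) ^ Nat.log 2 v ≤ v := by exact_mod_cast h4
  have h7 : (v : ℝ) ≤ 2 * 2 ^ Nat.log 2 v := by
    have : (v : ℝ) < 2 ^ (Nat.log 2 v + 1) := by exact_mod_cast h5
    rw [pow_succ] at this
    linarith
  have h8 : pT n Ma R dl i j l (ac j k) = 2 ^ Nat.log 2 v := by
    unfold pT
    rw [h3, min_eq_left (h6.trans hv2)]
  rw [h8]
  exact ⟨h6, h7⟩

end Crest.Agent.R116.TuD373
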