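import Crest.Agent.R116.TuE_373
import Crest.Agent.R116.TuS_363

/-!
# R116 (S0155), wave side: class data of a label which is not tiny (helper373)
-/

set_option autoImplicit false

open MeasureTheory
open scoped ENNReal

namespace Crest.Agent.R116.TuD373

open Crest.Agent.R138.Defs (E2)
open Crest.Agent.R138.Wpk685 (cen caps)
open Crest.Agent.R116.CDef480 Crest.Agent.R116.WC188 Crest.Agent.R116.GlC210
open Crest.Agent.R116.TuG373 Crest.Agent.R116.TuC373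

variable {M κ q A A' a b Cn M0 : ℝ} {K : ℕ} {η0 : ℝ} {C0 : E2} {σ : ℝ} {g : E3 → ℂ} {R D dl ν : ℝ}
  {n : ℕ} {L : ℕ → Lev}

/-- the selected caps are caps. -/
theorem mem_caps_of (hT : Tow M κ q A A' a b Cn K η0 C0 σ g R dl ν n L) {j : ℕ} (hj : j ≤ n)
    {z : E3 × ℝ} (hz : z ∈ (L j).Z) {k : ℕ} (hk : k < (L j).n) {i' : ℕ} (hi' : i' ∈ (L j).I z k)
    {m : ℤ × ℤ} {y : E3} (hy : y ∈ ((L j).P z k i').S m) : m ∈ caps (tht R dl j) := by
  obtain ⟨cls, hd⟩ := (hT.ok j hj).dec z hz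
  rw [← tht_eq hT hj]
  by_contra hcon
  have h1 := hd.cp k (Finset.mem_range.2 hk) m hcon
  unfold uS at h1
  simp only [Set.iUnion_eq_empty] at h1
  rw [h1 i' hi'] at hy
  exact hy

/-- radii of the levels are at least one. -/
theorem rad_ge (hR : 1 ≤ R) (hT : Tow M κ q A A' a b Cn K η0 C0 σ g R dl ν n L) {t : ℕ}
    (ht : t ≤ n) : 1 ≤ R * dl ^ t := by
  rw [← hT.rad t ht]
  exact (Real.one_le_rpow hR (by norm_num)).trans (hT.ok t ht).lo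

/-- **class data** of a label which is not tiny. -/
theorem cdat_of {n0 Ma : ℕ} {Kf : ℝ → ℝ} {ac : ℕ → ℕ → ℕ} (ha : 1 ≤ a) (hb : b ≤ 2)
    (hSt : St M κ q a b M0 C0 σ g R D) (hκ1 : κ ≤ 1) (hdl : 0 < dl) (hdl1 : dl ≤ 1)
    (hK : 1 ≤ Kf R) (hT : Tow M κ q A A' a b Cn K η0 C0 σ g R dl ν n L)
    (hac : Acl (AT n0 n Ma Kf) κ η0 g R dl n L ac) {j i l : ℕ} (hij : i < j) (hjl : j < l)
    (hl : l ≤ n) {k : ℕ} (hk : k < (L j).n) (hnt : ¬ Tiny n Ma R i (ac j k)) :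
    TuS363.Cdat n0 κ g R dl L i j l k (Kf R) (A0 n Ma g R i (ac j k)) (pT n Ma R dl i j l (ac j k))
      (2 * pT n Ma R dl i j l (ac j k)) := by
  intro z hz p hp m y hy
  have hR := hSt.R1
  have h1 := (dec_dens (n0 := n0) (Ma := Ma) ha hb hSt hκ1 hT hac hij (by omega)
    (rad_ge hR hT (by omega)) hz hk hp hy).1 hnt
  have h2 := dec_pot (n0 := n0) (Ma := Ma) hR hdl hdl1 hK hT hac hij hjl hl hz hk hp
    (mem_caps_of hT (by omega) hz hk hp hy) hy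
  refine ⟨h1.1, h1.2.trans (ENNReal.ofReal_le_ofReal ?_), h2.1, h2.2⟩
  have : 0 ≤ A0 n Ma g R i (ac j k) := by
    unfold A0
    have := Enc_nonneg g
    positivity
  linarith

/-- the density of a tiny label. -/
theorem tiny_of {n0 Ma : ℕ} {Kf : ℝ → ℝ} {ac : ℕ → ℕ → ℕ} (ha : 1 ≤ a) (hb : b ≤ 2)
    (hSt : St M κ q a b M0 C0 σ g R D) (hκ1 : κ ≤ 1)
    (hT : Tow M κ q A A' a b Cn K η0 C0 σ g R dl ν n L)
    (hac : Acl (AT n0 n Ma Kf) κ η0 g R dl n L ac) {j i : ℕ} (hij : i < j) (hj : j ≤ n)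
    {k : ℕ} (hk : k < (L j).n) (ht : Tiny n Ma R i (ac j k)) {z : E3 × ℝ} (hz : z ∈ (L j).Z)
    {p : ℕ} (hp : p ∈ (L j).I z k) {m : ℤ × ℤ} {y : E3} (hy : y ∈ ((L j).P z k p).S m) :
    dns n0 κ g R dl L j i z (anc L j i k) m (z - pz L j i z) y ≤
      ENNReal.ofReal (R ^ (-(Ma : ℝ)) * Enc g) := by
  have hR := hSt.R1
  have hR0 : 0 < R := by linarith
  refine ((dec_dens (n0 := n0) (Ma := Ma) ha hb hSt hκ1 hT hac hij hj
    (rad_ge hR hT (by omega)) hz hk hp hy).2 ht).trans (ENNReal.ofReal_le_ofReal ?_)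
  rw [div_eq_inv_mul]
  refine mul_le_mul_of_nonneg_right ?_ (Enc_nonneg g)
  rw [Real.rpow_neg hR0.le, Real.rpow_natCast]
  refine inv_anti₀ (by positivity) ?_
  have h8 : R ≤ 2 ^ ⌈Real.logb 2 R⌉₊ := by
    have h9 : Real.logb 2 R ≤ (⌈Real.logb 2 R⌉₊ : ℝ) := Nat.le_ceil _
    rw [Real.logb_le_iff_le_rpow (by norm_num) hR0, Real.rpow_natCast] at h9
    exact h9
  unfold NA
  rw [Nat.mul_comm, pow_mul]
  exact pow_le_pow_left₀ hR0.le h8 Ma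

end Crest.Agent.R116.TuD373
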