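import Crest.Agent.R116.TuD_373

/-!
# R116 (S0155), wave side: numerology of the tube step (helper171)

Pure reals. `numer`: the constant of `TuC373.tube_core` with `G = dl^(-Gw)`, `Y = R^e1`,
`Kf R = 8 (28 + 15 Y)^n0`, `Lc = Cu ν^Kv 324 dl^(-max 0 (h+j-2i)) 2 pu`, times the angular factor
`s2^(-q/2) s^(q/2)` with `s ≤ tht l`, `tht j ≤ s2`; `numer_full`: the same with the factors
`√(Cn nb)` and `CK ri^ε'` of `TuP890.sum_frames` and of the Kakeya row.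
-/

set_option autoImplicit false

namespace Crest.Agent.R116.TuN171

open Crest.Agent.R116.TuC373 Crest.Agent.R116.TuD373

/-! ### elementary bounds -/

theorem dl_mono {dl x y : ℝ} (hdl : 0 < dl) (hdl1 : dl ≤ 1) (h : x ≤ y) :
    dl ^ (-x) ≤ dl ^ (-y) :=
  Real.rpow_le_rpow_of_exponent_ge hdl hdl1 (by linarith)

/-- overlap constant. -/
theorem ovl_le {A Y : ℝ} (hA : 0 ≤ A) (hY : 1 ≤ Y) :
    (2 * (A + 10 * Y + 20) + 2) ^ 4 + 1 ≤ ((2 * A + 62) ^ 4 + 1) * Y ^ 4 := by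
  have h1 : 2 * (A + 10 * Y + 20) + 2 ≤ (2 * A + 62) * Y := by nlinarith
  have h2 : (2 * (A + 10 * Y + 20) + 2) ^ 4 ≤ ((2 * A + 62) * Y) ^ 4 :=
    pow_le_pow_left₀ (by positivity) h1 4
  have h3 : (1 : ℝ) ≤ Y ^ 4 := one_le_pow₀ hY
  rw [mul_pow] at h2
  linarith

theorem Kf_le {Y : ℝ} (n : ℕ) (hY : 1 ≤ Y) : 8 * (28 + 15 * Y) ^ n ≤ 8 * 43 ^ n * Y ^ n := by
  have h1 : (28 + 15 * Y) ^ n ≤ (43 * Y) ^ n := pow_le_pow_left₀ (by positivity) (by linarith) n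
  rw [mul_pow] at h1
  linarith

theorem Fm_le {Y : ℝ} (n : ℕ) (hY : 1 ≤ Y) : Fm n (4 * Y + 3 / 2) ≤ 41 ^ n * Y ^ n := by
  unfold Fm
  have h1 : (13 + 5 * (4 * Y + 3 / 2)) ^ n ≤ (41 * Y) ^ n :=
    pow_le_pow_left₀ (by positivity) (by linarith) n
  rwa [mul_pow] at h1

theorem CGn_le {A G : ℝ} (hA : 0 ≤ A) (hG : 1 ≤ G) :
    CGn A G ≤ 8 * A ^ 3 * (2 * A + 1) ^ 2 * G ^ 3 := by
  unfold CGn
  have h1 : 2 * (A * G) + 1 ≤ (2 * A + 1) * G := by nlinarith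
  have h2 : (2 * (A * G) + 1) ^ 2 ≤ ((2 * A + 1) * G) ^ 2 := pow_le_pow_left₀ (by positivity) h1 2
  calc 8 * A ^ 3 * (2 * (A * G) + 1) ^ 2 * G ≤ 8 * A ^ 3 * ((2 * A + 1) * G) ^ 2 * G := by gcongr
    _ = _ := by ring

/-- the constant under the root. -/
noncomputable def C2 (n0 : ℕ) (A Cu : ℝ) : ℝ :=
  648 * (8 * 43 ^ n0 * 41 ^ n0) * (8 * A ^ 3 * (2 * A + 1) ^ 2) * (Cu * 324 * 2)

/-- the root. -/
theorem root_le (n0 Kv : ℕ) {A Cu Y G ν pu pl X : ℝ} (hA : 0 ≤ A) (hCu : 0 ≤ Cu) (hY : 1 ≤ Y)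
    (hG : 1 ≤ G) (hν : 1 ≤ ν) (hpu : 0 ≤ pu) (hpl : 0 < pl) (hX : 0 ≤ X) :
    (648 * ((8 * (28 + 15 * Y) ^ n0) * Fm n0 (4 * Y + 3 / 2)) * CGn A G *
      (Cu * ν ^ Kv * 324 * X * 2 * pu) / pl) ^ (1/2 : ℝ) ≤
    C2 n0 A Cu ^ (1/2 : ℝ) * Y ^ n0 * G ^ (3/2 : ℝ) * ν ^ Kv * X ^ (1/2 : ℝ) *
      (pu / pl) ^ (1/2 : ℝ) := by
  have hY0 : 0 < Y := by linarith
  have hG0 : 0 < G := by linarith
  have hν0 : 0 < ν := by linarith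
  have hC2 : 0 ≤ C2 n0 A Cu := by unfold C2; positivity
  have hν1 : (1 : ℝ) ≤ ν ^ Kv := one_le_pow₀ hν
  have hF0 : 0 ≤ Fm n0 (4 * Y + 3 / 2) := by unfold Fm; positivity
  have hCG0 : 0 ≤ CGn A G := by unfold CGn; positivity
  have h1 : 648 * ((8 * (28 + 15 * Y) ^ n0) * Fm n0 (4 * Y + 3 / 2)) * CGn A G *
      (Cu * ν ^ Kv * 324 * X * 2 * pu) / pl ≤
      C2 n0 A Cu * (Y ^ n0) ^ 2 * G ^ (3 : ℝ) * (ν ^ Kv) ^ 2 * X * (pu / pl) := by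
    calc 648 * ((8 * (28 + 15 * Y) ^ n0) * Fm n0 (4 * Y + 3 / 2)) * CGn A G *
          (Cu * ν ^ Kv * 324 * X * 2 * pu) / pl ≤
          648 * ((8 * 43 ^ n0 * Y ^ n0) * (41 ^ n0 * Y ^ n0)) *
            (8 * A ^ 3 * (2 * A + 1) ^ 2 * G ^ 3) *
            (Cu * (ν ^ Kv) ^ 2 * 324 * X * 2 * pu) / pl := by
          have a1 := Kf_le n0 hY
          have a2 := Fm_le n0 hY
          have a3 := CGn_le hA hG
          have a4 : ν ^ Kv ≤ (ν ^ Kv) ^ 2 := by nlinarith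
          gcongr
      _ = _ := by
          rw [show G ^ (3 : ℝ) = G ^ 3 by exact_mod_cast Real.rpow_natCast G 3]
          unfold C2
          ring
  refine (Real.rpow_le_rpow (by positivity) h1 (by norm_num)).trans (le_of_eq ?_)
  have hh : ∀ x : ℝ, 0 ≤ x → (x ^ 2) ^ (1/2 : ℝ) = x := fun x hx => by
    rw [← Real.sqrt_eq_rpow, Real.sqrt_sq hx]
  rw [Real.mul_rpow (by positivity) (by positivity), Real.mul_rpow (by positivity) hX,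
    Real.mul_rpow (by positivity) (by positivity), Real.mul_rpow (by positivity) (by positivity),
    Real.mul_rpow hC2 (by positivity), hh _ (by positivity), hh _ (by positivity),
    ← Real.rpow_mul hG0.le]
  norm_num

/-- the total constant. -/
noncomputable def C3 (n0 : ℕ) (A Cc Cu : ℝ) : ℝ :=
  ((2 * A + 62) ^ 4 + 1) * (81 * (Cc * 13 ^ n0)) * C2 n0 A Cu ^ (1/2 : ℝ)

/-- **constant of the tube step.** -/
theorem cst_le (n0 Kn Kv : ℕ) {A Cc Cu Y G ν pu pl X : ℝ} (hA : 0 ≤ A) (hCc : 0 ≤ Cc)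
    (hCu : 0 ≤ Cu) (hY : 1 ≤ Y) (hG : 1 ≤ G) (hν : 1 ≤ ν) (hpu : 0 ≤ pu) (hpl : 0 < pl)
    (hX : 0 ≤ X) :
    ((2 * (A + 10 * Y + 20) + 2) ^ 4 + 1) * (81 * ((Cc * ν ^ Kn) * 13 ^ n0)) *
      (648 * ((8 * (28 + 15 * Y) ^ n0) * Fm n0 (4 * Y + 3 / 2)) * CGn A G *
        (Cu * ν ^ Kv * 324 * X * 2 * pu) / pl) ^ (1/2 : ℝ) ≤
    C3 n0 A Cc Cu * ν ^ (Kn + Kv) * Y ^ (n0 + 4) * G ^ (3/2 : ℝ) * X ^ (1/2 : ℝ) *
      (pu / pl) ^ (1/2 : ℝ) := by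
  have hY0 : 0 < Y := by linarith
  have hG0 : 0 < G := by linarith
  have hν0 : 0 < ν := by linarith
  have h1 := root_le n0 Kv hA hCu hY hG hν hpu hpl hX
  have h2 := ovl_le hA hY
  calc _ ≤ (((2 * A + 62) ^ 4 + 1) * Y ^ 4) * (81 * ((Cc * ν ^ Kn) * 13 ^ n0)) *
        (C2 n0 A Cu ^ (1/2 : ℝ) * Y ^ n0 * G ^ (3/2 : ℝ) * ν ^ Kv * X ^ (1/2 : ℝ) *
          (pu / pl) ^ (1/2 : ℝ)) := by
        refine mul_le_mul (mul_le_mul_of_nonneg_right h2 (by positivity)) h1 ?_ (by positivity)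
        refine Real.rpow_nonneg (div_nonneg ?_ hpl.le) _
        unfold Fm CGn
        positivity
    _ = _ := by
        unfold C3
        rw [pow_add, pow_add]
        ring

/-! ### angles -/

theorem tht_pos {R dl : ℝ} (hR : 0 < R) (hdl : 0 < dl) (t : ℕ) : 0 < tht R dl t :=
  Real.rpow_pos_of_pos (by positivity) _

/-- quotient of angles. -/
theorem tht_div {R dl : ℝ} (hR : 0 < R) (hdl : 0 < dl) (j l : ℕ) (q : ℝ) :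
    (tht R dl l / tht R dl j) ^ (q / 2) = dl ^ (-(q / 4 * ((l : ℝ) - j))) := by
  unfold tht
  rw [← Real.div_rpow (by positivity) (by positivity), mul_div_mul_left _ _ hR.ne',
    ← Real.rpow_natCast, ← Real.rpow_natCast, ← Real.rpow_sub hdl, ← Real.rpow_mul hdl.le,
    ← Real.rpow_mul hdl.le]
  congr 1
  ring

/-- **the angular factor.** -/
theorem ang_le {R dl s s2 q : ℝ} (hR : 0 < R) (hdl : 0 < dl) {j l : ℕ} (hq : 0 ≤ q) (hs0 : 0 ≤ s)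
    (hs : s ≤ tht R dl l) (hs2 : tht R dl j ≤ s2) :
    s2 ^ (-q / 2) * s ^ (q / 2) ≤ dl ^ (-(q / 4 * ((l : ℝ) - j))) := by
  have hj := tht_pos hR hdl j
  have hs20 : 0 < s2 := hj.trans_le hs2
  rw [show -q / 2 = -(q / 2) by ring, Real.rpow_neg hs20.le, inv_mul_eq_div,
    ← Real.div_rpow hs0 hs20.le, ← tht_div hR hdl]
  exact Real.rpow_le_rpow (by positivity) (div_le_div₀ (tht_pos hR hdl l).le hs hj hs2)
    (by positivity)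

/-! ### the numerology -/

/-- exponent bookkeeping: `R^e1`, `dl^(-Gw)` and the coherence defect. -/
theorem exps_le (n0 : ℕ) {Gw ε e1 R dl a b c : ℝ} (hGw : 0 ≤ Gw) (hR : 1 ≤ R) (hdl : 0 < dl)
    (hdl1 : dl ≤ 1) (he : ((n0 : ℝ) + 4) * e1 ≤ ε) (ha : 0 ≤ a) (hb : 0 ≤ b) :
    (R ^ e1) ^ (n0 + 4) * (dl ^ (-Gw)) ^ (3/2 : ℝ) * (dl ^ (-b)) ^ (1/2 : ℝ) * dl ^ (-c) ≤
      R ^ ε * dl ^ (-((6 * Gw + 6) + (6 * Gw + 6) * (a + b) + c)) := by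
  have h1 : (R ^ e1) ^ (n0 + 4) ≤ R ^ ε := by
    rw [← Real.rpow_natCast (R ^ e1), ← Real.rpow_mul (by linarith)]
    refine Real.rpow_le_rpow_of_exponent_le hR ?_
    push_cast
    linarith
  have h2 : (dl ^ (-Gw)) ^ (3/2 : ℝ) * (dl ^ (-b)) ^ (1/2 : ℝ) * dl ^ (-c) ≤
      dl ^ (-((6 * Gw + 6) + (6 * Gw + 6) * (a + b) + c)) := by
    rw [← Real.rpow_mul hdl.le, ← Real.rpow_mul hdl.le, ← Real.rpow_add hdl, ← Real.rpow_add hdl]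
    refine Real.rpow_le_rpow_of_exponent_ge hdl hdl1 ?_
    nlinarith [mul_nonneg hGw ha, mul_nonneg hGw hb]
  calc (R ^ e1) ^ (n0 + 4) * (dl ^ (-Gw)) ^ (3/2 : ℝ) * (dl ^ (-b)) ^ (1/2 : ℝ) * dl ^ (-c) =
        (R ^ e1) ^ (n0 + 4) * ((dl ^ (-Gw)) ^ (3/2 : ℝ) * (dl ^ (-b)) ^ (1/2 : ℝ) * dl ^ (-c)) := by
        ring
    _ ≤ _ := mul_le_mul h1 h2 (by positivity) (by positivity)

/-- **NUMEROLOGY of the tube step.** -/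
theorem numer (n0 Kn Kv : ℕ) {Gw q ε e1 A Cc Cu : ℝ} (hGw : 0 ≤ Gw) (hq : 0 ≤ q)
    (he1 : 0 ≤ e1) (he : ((n0 : ℝ) + 4) * e1 ≤ ε) (hA : 0 ≤ A) (hCc : 0 ≤ Cc) (hCu : 0 ≤ Cu)
    {R dl ν pu pl s s2 : ℝ} {h i j l : ℕ} (hR : 1 ≤ R) (hdl : 0 < dl) (hdl1 : dl ≤ 1) (hν : 1 ≤ ν)
    (hpu : 0 ≤ pu) (hpl : 0 < pl) (hs0 : 0 ≤ s) (hs : s ≤ tht R dl l) (hs2 : tht R dl j ≤ s2) :
    ((2 * (A + 10 * R ^ e1 + 20) + 2) ^ 4 + 1) * (81 * ((Cc * ν ^ Kn) * 13 ^ n0)) *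
      (648 * ((8 * (28 + 15 * R ^ e1) ^ n0) * Fm n0 (4 * R ^ e1 + 3 / 2)) * CGn A (dl ^ (-Gw)) *
        (Cu * ν ^ Kv * 324 * dl ^ (-(max 0 ((h : ℝ) + j - 2 * i))) * 2 * pu) / pl) ^ (1/2 : ℝ) *
      (s2 ^ (-q / 2) * s ^ (q / 2)) ≤
    C3 n0 A Cc Cu * ν ^ (Kn + Kv) * R ^ ε *
      dl ^ (-((6 * Gw + 6) + (6 * Gw + 6) * (max 0 ((i : ℝ) + l - 2 * j) +
        max 0 ((h : ℝ) + j - 2 * i)) + q / 4 * ((l : ℝ) - j))) * (pu / pl) ^ (1/2 : ℝ) := by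
  have hR0 : 0 < R := by linarith
  have hY : 1 ≤ R ^ e1 := Real.one_le_rpow hR he1
  have hG : 1 ≤ dl ^ (-Gw) := Real.one_le_rpow_of_pos_of_le_one_of_nonpos hdl hdl1 (by linarith)
  have hC3 : 0 ≤ C3 n0 A Cc Cu := by unfold C3 C2; positivity
  have h1 := cst_le n0 Kn Kv (X := dl ^ (-(max 0 ((h : ℝ) + j - 2 * i)))) hA hCc hCu hY hG hν hpu
    hpl (by positivity)
  have h2 := ang_le (q := q) hR0 hdl hq hs0 hs hs2
  have h3 := exps_le n0 (c := q / 4 * ((l : ℝ) - j)) hGw hR hdl hdl1 he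
    (le_max_left 0 ((i : ℝ) + l - 2 * j)) (le_max_left 0 ((h : ℝ) + j - 2 * i))
  have hs20 : 0 < s2 := (tht_pos hR0 hdl j).trans_le hs2
  have hν0 : 0 < ν := by linarith
  refine (mul_le_mul h1 h2 (by positivity) (by positivity)).trans ?_
  calc _ = C3 n0 A Cc Cu * ν ^ (Kn + Kv) * (pu / pl) ^ (1/2 : ℝ) *
        ((R ^ e1) ^ (n0 + 4) * (dl ^ (-Gw)) ^ (3/2 : ℝ) *
          (dl ^ (-(max 0 ((h : ℝ) + j - 2 * i)))) ^ (1/2 : ℝ) *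
            dl ^ (-(q / 4 * ((l : ℝ) - j)))) := by ring
    _ ≤ C3 n0 A Cc Cu * ν ^ (Kn + Kv) * (pu / pl) ^ (1/2 : ℝ) * (R ^ ε *
        dl ^ (-((6 * Gw + 6) + (6 * Gw + 6) * (max 0 ((i : ℝ) + l - 2 * j) +
        max 0 ((h : ℝ) + j - 2 * i)) + q / 4 * ((l : ℝ) - j)))) :=
        mul_le_mul_of_nonneg_left h3 (by positivity)
    _ = _ := by ring

/-- **NUMEROLOGY of the tube step, with the factors of the sum over the frames and of the Kakeya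
row.** -/
theorem numer_full (n0 Kn Kv : ℕ) {Gw q ε ε' e1 A Cc Cu Cn CK : ℝ} (hGw : 0 ≤ Gw) (hq : 0 ≤ q)
    (he1 : 0 ≤ e1) (he : ((n0 : ℝ) + 4) * e1 ≤ ε) (he' : 0 ≤ ε') (hA : 0 ≤ A) (hCc : 0 ≤ Cc)
    (hCu : 0 ≤ Cu) (hCn : 0 ≤ Cn) (hCK : 0 ≤ CK)
    {R dl ν pu pl s s2 nb ri : ℝ} {h i j l : ℕ} (hR : 1 ≤ R) (hdl : 0 < dl) (hdl1 : dl ≤ 1)
    (hν : 1 ≤ ν) (hpu : 0 ≤ pu) (hpl : 0 < pl) (hs0 : 0 ≤ s) (hs : s ≤ tht R dl l)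
    (hs2 : tht R dl j ≤ s2) (hnb : nb ≤ ν) (hri : 0 ≤ ri) (hriR : ri ≤ R) :
    √(Cn * nb) * s2 ^ (-q / 2) *
      ((((2 * (A + 10 * R ^ e1 + 20) + 2) ^ 4 + 1) * (81 * ((Cc * ν ^ Kn) * 13 ^ n0)) *
        (648 * ((8 * (28 + 15 * R ^ e1) ^ n0) * Fm n0 (4 * R ^ e1 + 3 / 2)) * CGn A (dl ^ (-Gw)) *
          (Cu * ν ^ Kv * 324 * dl ^ (-(max 0 ((h : ℝ) + j - 2 * i))) * 2 * pu) / pl) ^ (1/2 : ℝ)) *
        (CK * ri ^ ε' * s ^ (q / 2))) ≤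
    (√Cn * CK * C3 n0 A Cc Cu) * ν ^ (Kn + Kv + 1) * R ^ (ε + ε') *
      dl ^ (-((6 * Gw + 6) + (6 * Gw + 6) * (max 0 ((i : ℝ) + l - 2 * j) +
        max 0 ((h : ℝ) + j - 2 * i)) + q / 4 * ((l : ℝ) - j))) * (pu / pl) ^ (1/2 : ℝ) := by
  have hR0 : 0 < R := by linarith
  have hν0 : 0 < ν := by linarith
  have h1 := numer n0 Kn Kv (h := h) (i := i) hGw hq he1 he hA hCc hCu hR hdl hdl1 hν hpu hpl
    hs0 hs hs2
  have hs20 : 0 < s2 := (tht_pos hR0 hdl j).trans_le hs2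
  have hC3 : 0 ≤ C3 n0 A Cc Cu := by unfold C3 C2; positivity
  have h2 : √(Cn * nb) ≤ √Cn * ν := by
    rw [Real.sqrt_mul hCn]
    refine mul_le_mul_of_nonneg_left ?_ (Real.sqrt_nonneg _)
    refine (Real.sqrt_le_sqrt hnb).trans ?_
    rw [Real.sqrt_le_left hν0.le]
    nlinarith
  have h3 : ri ^ ε' ≤ R ^ ε' := Real.rpow_le_rpow hri hriR he'
  set P := ((2 * (A + 10 * R ^ e1 + 20) + 2) ^ 4 + 1) * (81 * ((Cc * ν ^ Kn) * 13 ^ n0)) *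
        (648 * ((8 * (28 + 15 * R ^ e1) ^ n0) * Fm n0 (4 * R ^ e1 + 3 / 2)) * CGn A (dl ^ (-Gw)) *
          (Cu * ν ^ Kv * 324 * dl ^ (-(max 0 ((h : ℝ) + j - 2 * i))) * 2 * pu) / pl) ^ (1/2 : ℝ)
    with hP
  set Q := dl ^ (-((6 * Gw + 6) + (6 * Gw + 6) * (max 0 ((i : ℝ) + l - 2 * j) +
        max 0 ((h : ℝ) + j - 2 * i)) + q / 4 * ((l : ℝ) - j))) * (pu / pl) ^ (1/2 : ℝ) with hQ
  have hP0 : 0 ≤ P * (s2 ^ (-q / 2) * s ^ (q / 2)) := by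
    refine mul_nonneg ?_ (by positivity)
    refine mul_nonneg (by positivity) (Real.rpow_nonneg (div_nonneg ?_ hpl.le) _)
    unfold Fm CGn
    positivity
  calc √(Cn * nb) * s2 ^ (-q / 2) * (P * (CK * ri ^ ε' * s ^ (q / 2))) =
        √(Cn * nb) * CK * ri ^ ε' * (P * (s2 ^ (-q / 2) * s ^ (q / 2))) := by ring
    _ ≤ (√Cn * ν) * CK * R ^ ε' * (P * (s2 ^ (-q / 2) * s ^ (q / 2))) := by gcongr
    _ ≤ (√Cn * ν) * CK * R ^ ε' * (C3 n0 A Cc Cu * ν ^ (Kn + Kv) * R ^ ε *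
          dl ^ (-((6 * Gw + 6) + (6 * Gw + 6) * (max 0 ((i : ℝ) + l - 2 * j) +
            max 0 ((h : ℝ) + j - 2 * i)) + q / 4 * ((l : ℝ) - j))) * (pu / pl) ^ (1/2 : ℝ)) :=
        mul_le_mul_of_nonneg_left h1 (by positivity)
    _ = _ := by
        rw [Real.rpow_add hR0, pow_succ, pow_add]
        ring

end Crest.Agent.R116.TuN171
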