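import Crest.Agent.R116.TuL_890

/-!
# R116 (S0155), wave side, TUBE plug (P4): tiny labels and tails (helper890)

* `tiny_S`: a label all of whose selected packets are tiny has a tiny functional.
* `core_tails`: the two tail summands of `TuC373.tube_core` (constant `CG` for `CGn A G`), summed
  over the parent frames, are at most `C R^(-T) SS`.
-/

set_option autoImplicit false

open MeasureTheory FourierTransform
open scoped ENNReal

namespace Crest.Agent.R116.TuT890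

open Crest.Agent.R138.Defs (E2 ee)
open Crest.Agent.R138.Wpk685 (cen caps)
open Crest.Agent.R116.CDef480 Crest.Agent.R116.WC188 Crest.Agent.R116.GlC210
open Crest.Agent.R116.TuL890

/-! ### elementary bounds -/

theorem Enc_nn (g : E3 → ℂ) : 0 ≤ Enc g := Ba449.Enc_nonneg g

/-- powers of the aperture. -/
theorem s2_pow {q r R s2 : ℝ} (hq : 0 ≤ q) (hr : 1 ≤ r) (hrR : r ≤ R)
    (hs : r ^ (-(1/2) : ℝ) ≤ s2) : s2 ^ (-q / 2) ≤ R ^ (q / 4) := by
  have hr0 : 0 < r := by linarith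
  have h0 : 0 < r ^ (-(1/2) : ℝ) := Real.rpow_pos_of_pos hr0 _
  calc s2 ^ (-q / 2) ≤ (r ^ (-(1/2) : ℝ)) ^ (-q / 2) :=
        Real.rpow_le_rpow_of_nonpos h0 hs (by linarith)
    _ = r ^ (q / 4) := by rw [← Real.rpow_mul hr0.le]; congr 1; ring
    _ ≤ R ^ (q / 4) := Real.rpow_le_rpow hr0.le hrR (by linarith)

/-- number of caps of a level. -/
theorem card_caps_lev {r R : ℝ} (hr : 1 ≤ r) (hrR : r ≤ R) :
    ((caps (r ^ (-(1/2) : ℝ))).card : ℝ) ≤ 81 * R := by
  have hr0 : 0 < r := by linarith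
  have h := Tr126.card_caps (ρ := r ^ (-(1/2) : ℝ)) (Real.rpow_pos_of_pos hr0 _)
    (Real.rpow_le_one_of_one_le_of_nonpos hr (by norm_num))
  rw [Tr126.rpow_half_sq hr0] at h
  linarith

/-- volume of the unit ball. -/
noncomputable def v3 : ℝ := (volume (Metric.closedBall (0 : E3) 1)).toReal

theorem v3_nonneg : 0 ≤ v3 := ENNReal.toReal_nonneg

theorem volume_ball3 (y : E3) {r : ℝ} (hr : 0 ≤ r) :
    volume (Metric.closedBall y r) = ENNReal.ofReal (r ^ 3 * v3) := by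
  rw [Measure.addHaar_closedBall' volume y hr, finrank_euclideanSpace_fin,
    ENNReal.ofReal_mul (by positivity)]
  unfold v3
  rw [ENNReal.ofReal_toReal measure_closedBall_lt_top.ne]

/-- cost of a plate times the length is at least one. -/
theorem one_le_cost {κ s1 s2 r : ℝ} (hr : 1 ≤ r) (h1 : r ^ (-(1/2) : ℝ) ≤ s1) (h2 : s1 ≤ s2) :
    1 ≤ r * scost κ s1 s2 r := by
  have hr0 : 0 < r := by linarith
  set t := r ^ (-(1/2) : ℝ) with ht
  have ht0 : 0 < t := Real.rpow_pos_of_pos hr0 _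
  have ht2 : t * t = r⁻¹ := by
    rw [ht, ← Real.rpow_add hr0, ← Real.rpow_neg_one]; norm_num
  have hs1 : 0 < s1 := ht0.trans_le h1
  have hs2 : t ≤ s2 := h1.trans h2
  have hs20 : 0 < s2 := ht0.trans_le hs2
  have h3 : r⁻¹ ≤ s1 * s2 := by rw [← ht2]; exact mul_le_mul h1 hs2 ht0.le hs1.le
  have h4 : r⁻¹ ≤ TT κ s2 r := by
    unfold TT
    refine le_max_of_le_left ?_
    rw [← ht2, sq]
    exact mul_le_mul hs2 hs2 ht0.le hs20.le
  have h5 : 0 < r⁻¹ := by positivity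
  unfold scost
  calc (1 : ℝ) ≤ r ^ 2 := one_le_pow₀ hr
    _ = r * (r⁻¹ * r⁻¹ * r ^ 3) := by field_simp
    _ ≤ r * (s1 * s2 * TT κ s2 r * r ^ 3) := by
        gcongr

/-- small packets carry small energy. -/
theorem enc_tiny {r R A' x : ℝ} (hr : 1 ≤ r) (hrR : r ≤ R) (hA' : 0 ≤ A') (hx : 0 ≤ x)
    {f : E3 → ℂ} {S : ℤ × ℤ → Set E3} (hS : ∀ m, S m ⊆ Metric.closedBall 0 (A' * r))
    (hm : ∀ m, MeasurableSet (S m))
    (h : ∀ m ∈ caps (r ^ (-(1/2) : ℝ)), ∀ y ∈ S m,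
      ‖umc (r ^ (-(1/2) : ℝ)) f m y‖ₑ ^ 2 ≤ ENNReal.ofReal x) :
    enc (r ^ (-(1/2) : ℝ)) f S ≤ ENNReal.ofReal (81 * A' ^ 3 * v3 * R ^ 4 * x) := by
  have hr0 : 0 < r := by linarith
  have hR : 1 ≤ R := hr.trans hrR
  have hv := v3_nonneg
  unfold enc
  calc ∑ m ∈ caps (r ^ (-(1/2) : ℝ)), ∫⁻ y in S m, ‖umc (r ^ (-(1/2) : ℝ)) f m y‖ₑ ^ 2 ≤
        ∑ _m ∈ caps (r ^ (-(1/2) : ℝ)), ENNReal.ofReal (x * ((A' * R) ^ 3 * v3)) := by
        refine Finset.sum_le_sum fun m hmc => ?_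
        calc ∫⁻ y in S m, ‖umc (r ^ (-(1/2) : ℝ)) f m y‖ₑ ^ 2 ≤
              ∫⁻ _y in S m, ENNReal.ofReal x :=
              setLIntegral_mono' (hm m) fun y hy => h m hmc y hy
          _ = ENNReal.ofReal x * volume (S m) := setLIntegral_const _ _
          _ ≤ ENNReal.ofReal x * volume (Metric.closedBall (0 : E3) (A' * R)) := by
              refine mul_le_mul' le_rfl (measure_mono ((hS m).trans ?_))
              exact Metric.closedBall_subset_closedBall (by gcongr)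
          _ = _ := by rw [volume_ball3 _ (by positivity), ← ENNReal.ofReal_mul hx]
    _ = ENNReal.ofReal (((caps (r ^ (-(1/2) : ℝ))).card : ℝ) * (x * ((A' * R) ^ 3 * v3))) := by
        rw [Finset.sum_const, nsmul_eq_mul, ENNReal.ofReal_mul
          (p := ((caps (r ^ (-(1/2) : ℝ))).card : ℝ)) (Nat.cast_nonneg _), ENNReal.ofReal_natCast]
    _ ≤ ENNReal.ofReal ((81 * R) * (x * ((A' * R) ^ 3 * v3))) := by
        refine ENNReal.ofReal_le_ofReal ?_
        have := card_caps_lev hr hrR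
        gcongr
    _ = _ := by congr 1; ring

/-! ### tiny labels -/

/-- **tiny labels.** If all selected packets of the label `k` are tiny then its functional is tiny. -/
theorem tiny_S (q a b A' Cn M0 T c : ℝ) (ha : 1 ≤ a) (hb : b ≤ 2) (hq : 0 ≤ q) (hA' : 0 ≤ A')
    (hCn : 0 ≤ Cn) (hc : 0 ≤ c) : ∃ C : ℝ, 1 ≤ C ∧
    ∀ (M κ A : ℝ) (K : ℕ) (η0 : ℝ) (C0 : E2) (σ : ℝ) (g : E3 → ℂ) (R D : ℝ),
      St M κ q a b M0 C0 σ g R D → ∀ L : Lev, LevOk M κ q A A' a b Cn K η0 C0 σ g R L →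
      ∀ k < L.n, ∀ B : ℝ, 13 + M0 + 2 * T + q / 2 ≤ B →
        (∀ z ∈ L.Z, ∀ m ∈ caps (L.r ^ (-(1/2) : ℝ)), ∀ y ∈ L.sl z k m,
          ‖umc (L.r ^ (-(1/2) : ℝ)) (trc z g) m y‖ₑ ^ 2 ≤ ENNReal.ofReal (c * R ^ (-B) * Enc g)) →
        L.S g k ≤ ENNReal.ofReal (C * √L.nb * (R ^ (-T) * SS g R D)) := by
  have hv := v3_nonneg
  refine ⟨1 + √Cn * (√(81 * A' ^ 3 * v3 * c) * 1296), ?_, ?_⟩
  · have : 0 ≤ √Cn * (√(81 * A' ^ 3 * v3 * c) * 1296) := by positivity
    linarith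
  intro M κ A K η0 C0 σ g R D hst L hL k hk B hB htiny
  have hR := hst.R1
  have hR0 : 0 < R := by linarith
  have hr := lev_r1 hL hR
  have hr0 : 0 < L.r := by linarith
  have hrR := hL.hi
  have hE := Enc_nn g
  obtain ⟨hs1, hs2⟩ := lev_s_pos hL hR hk
  have hsd := hL.sd k hk
  set θ := L.r ^ (-(1/2) : ℝ) with hθ
  have hθ0 : 0 < θ := Real.rpow_pos_of_pos hr0 _
  -- one frame
  have hval : ∀ z ∈ L.Z, val κ g L.r (L.s k).1 (L.s k).2 (L.I z k) (L.P z k) ≤
      ENNReal.ofReal (81 * A' ^ 3 * v3 * c * R ^ (5 - B) * Enc g) ^ (1/2 : ℝ) *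
        ENNReal.ofReal (1 * R ^ (1 : ℝ) * Enc g) := by
    intro z hz
    obtain ⟨cls, hd⟩ := hL.dec z hz
    have hkΛ : k ∈ Finset.range L.n := Finset.mem_range.2 hk
    obtain ⟨hp, hpz⟩ := hd.pl k hkΛ
    have hmeas : ∀ m, MeasurableSet (L.sl z k m) := fun m => by
      unfold Lev.sl uS
      exact Finset.measurableSet_biUnion _ fun i hi => hp.meas i hi m
    have hsl := enc_tiny (x := c * R ^ (-B) * Enc g) hr hrR hA' (by positivity)
      (S := L.sl z k) (fun m => hd.bd k hkΛ m) hmeas (htiny z hz)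
    have hsum := enc_sl hL hk hz θ (trc z g)
    have hle : ∀ i ∈ L.I z k, enc θ (trc z g) (L.P z k i).S ≤ enc θ (trc z g) (L.sl z k) := by
      intro i hi
      rw [hsum]
      exact Finset.single_le_sum (f := fun i => enc θ (trc z g) (L.P z k i).S)
        (fun _ _ => zero_le) hi
    have htot : enc θ (trc z g) (L.sl z k) ≤ ENNReal.ofReal (Enc g) :=
      enc_le_Enc ha hb hst hθ0 z _
    have hcost := one_le_cost (κ := κ) hr hsd.lo hsd.le
    unfold val
    calc ∑ i ∈ L.I z k, ENNReal.ofReal ((L.r * scost κ (L.s k).1 (L.s k).2 L.r) ^ (-(1/2) : ℝ)) *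
          (ENNReal.ofReal L.r * enc (L.r ^ (-(1/2) : ℝ)) (trc (L.P z k i).z g)
            (L.P z k i).S) ^ (3 / 2 : ℝ) ≤
          ∑ i ∈ L.I z k, (ENNReal.ofReal R * enc θ (trc z g) (L.sl z k)) ^ (1/2 : ℝ) *
            (ENNReal.ofReal R * enc θ (trc z g) (L.P z k i).S) := by
          refine Finset.sum_le_sum fun i hi => ?_
          rw [hpz i hi, ← hθ]
          have h1 : ENNReal.ofReal ((L.r * scost κ (L.s k).1 (L.s k).2 L.r) ^ (-(1/2) : ℝ)) ≤ 1 := by
            rw [← ENNReal.ofReal_one]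
            exact ENNReal.ofReal_le_ofReal
              (Real.rpow_le_one_of_one_le_of_nonpos hcost (by norm_num))
          have h2 : ENNReal.ofReal L.r ≤ ENNReal.ofReal R := ENNReal.ofReal_le_ofReal hrR
          calc _ ≤ 1 * (ENNReal.ofReal L.r * enc θ (trc z g) (L.P z k i).S) ^ (3 / 2 : ℝ) :=
                mul_le_mul' h1 le_rfl
            _ = (ENNReal.ofReal L.r * enc θ (trc z g) (L.P z k i).S) ^ (1/2 : ℝ) *
                (ENNReal.ofReal L.r * enc θ (trc z g) (L.P z k i).S) := by rw [one_mul, pow32]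
            _ ≤ _ := mul_le_mul' (ENNReal.rpow_le_rpow (mul_le_mul' h2 (hle i hi)) (by norm_num))
                (mul_le_mul' h2 le_rfl)
      _ = (ENNReal.ofReal R * enc θ (trc z g) (L.sl z k)) ^ (1/2 : ℝ) *
            (ENNReal.ofReal R * enc θ (trc z g) (L.sl z k)) := by
          rw [← Finset.mul_sum, ← Finset.mul_sum, ← hsum]
      _ ≤ _ := by
          refine mul_le_mul' (ENNReal.rpow_le_rpow ?_ (by norm_num)) ?_
          · refine (mul_le_mul' le_rfl hsl).trans ?_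
            rw [← ENNReal.ofReal_mul hR0.le]
            refine ENNReal.ofReal_le_ofReal (le_of_eq ?_)
            have e : R ^ (5 - B) = R * R ^ 4 * R ^ (-B) := by
              rw [show (5 - B : ℝ) = 1 + (4 : ℕ) + (-B) by push_cast; ring, Real.rpow_add hR0,
                Real.rpow_add hR0, Real.rpow_natCast, Real.rpow_one]
            rw [e]; ring
          · refine (mul_le_mul' le_rfl htot).trans (le_of_eq ?_)
            rw [← ENNReal.ofReal_mul hR0.le, Real.rpow_one, one_mul]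
  have htail := tail_sum (T := T + q / 4) (α := 5 - B) (β := 1) (γ := 4) hR hE hst.nd
    (c1 := 81 * A' ^ 3 * v3 * c) (c2 := 1) (c3 := 1296) (by positivity) (by norm_num) L.Z
    (card_net' hr hrR hL.net) (x := fun _ => ENNReal.ofReal
      (81 * A' ^ 3 * v3 * c * R ^ (5 - B) * Enc g))
    (y := fun _ => ENNReal.ofReal (1 * R ^ (1 : ℝ) * Enc g)) (fun _ _ => le_rfl)
    (fun _ _ => le_rfl) (by linarith)
  have hs2' := s2_pow hq hr hrR (hsd.lo.trans hsd.le)
  have hRq : 0 ≤ R ^ (q / 4) := Real.rpow_nonneg hR0.le _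
  calc L.S g k ≤ ENNReal.ofReal (√(Cn * L.nb)) * (ENNReal.ofReal ((L.s k).2 ^ (-q / 2)) *
        ∑ z ∈ L.Z, val κ g L.r (L.s k).1 (L.s k).2 (L.I z k) (L.P z k)) := S_le_val hL hR hk
    _ ≤ ENNReal.ofReal (√(Cn * L.nb)) * (ENNReal.ofReal (R ^ (q / 4)) *
        ENNReal.ofReal (√(81 * A' ^ 3 * v3 * c) * 1 * 1296 *
          (R ^ (-(T + q / 4)) * (R * Enc g * √D)))) := by
        refine mul_le_mul' le_rfl (mul_le_mul' (ENNReal.ofReal_le_ofReal hs2') ?_)
        exact (Finset.sum_le_sum hval).trans htail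
    _ = ENNReal.ofReal (√Cn * (√(81 * A' ^ 3 * v3 * c) * 1296) * √L.nb *
          ((R ^ (q / 4) * R ^ (-(T + q / 4))) * (R * Enc g * √D))) := by
        rw [← ENNReal.ofReal_mul hRq, ← ENNReal.ofReal_mul (Real.sqrt_nonneg _),
          Real.sqrt_mul hCn]
        congr 1
        ring
    _ ≤ _ := by
        refine ENNReal.ofReal_le_ofReal ?_
        have e : R ^ (q / 4) * R ^ (-(T + q / 4)) = R ^ (-T) := by
          rw [← Real.rpow_add hR0]; congr 1; ring
        rw [e]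
        unfold SS
        have h0 : 0 ≤ R ^ (-T) * (R * Enc g * √D) := by positivity
        have h1 : 0 ≤ √L.nb := Real.sqrt_nonneg _
        have h2 : 0 ≤ √Cn * (√(81 * A' ^ 3 * v3 * c) * 1296) := by positivity
        nlinarith [mul_nonneg h1 h0]

/-! ### tails of the core -/

/-- **the two tail summands of `tube_core`**, summed over the parent frames. -/
theorem core_tails (q a b A' Cn M0 T cG cL ca c0 cF γG γL γa γF : ℝ) (ha : 1 ≤ a) (hb : b ≤ 2)
    (hcG : 0 ≤ cG) (hcL : 0 ≤ cL) (hca : 0 ≤ ca) (hc0 : 0 ≤ c0) (hcF : 0 ≤ cF)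
    (hγG : 0 ≤ γG) (hγL : 0 ≤ γL) (hγa : 0 ≤ γa) (hγF : 0 ≤ γF) : ∃ C : ℝ, 1 ≤ C ∧
    ∀ (M κ A : ℝ) (K : ℕ) (η0 : ℝ) (C0 : E2) (σ : ℝ) (g : E3 → ℂ) (R D : ℝ),
      St M κ q a b M0 C0 σ g R D → ∀ L : Lev, LevOk M κ q A A' a b Cn K η0 C0 σ g R L →
      ∀ k < L.n, ∀ B : ℝ, γG + γL + γa + 2 * γF + |M0| + 2 * |T| + 20 ≤ B →
      ∀ (ω : Type) (W : Finset ω) (Zc : ω → Finset (E3 × ℝ)), (W.card : ℝ) ≤ 1296 * R ^ (4 : ℝ) →
        (∀ w ∈ W, Zc w ⊆ L.Z) → ∀ (CG Lc al : ℝ) (τ0 τ1 Fc : ℝ≥0∞),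
        0 ≤ CG → 0 ≤ Lc → 0 ≤ al → CG ≤ cG * R ^ γG → Lc ≤ cL * R ^ γL → al ≤ ca * R ^ γa * Enc g →
        τ0 ≤ ENNReal.ofReal (c0 * R ^ (-B) * Enc g) → τ1 ≤ ENNReal.ofReal (c0 * R ^ (-B) * Enc g) →
        Fc ≤ ENNReal.ofReal (cF * R ^ γF) →
        Fc * ∑ w ∈ W, (ENNReal.ofReal ((8 * CG * Lc * al) ^ (1/2 : ℝ)) *
            ((Zc w).card * ((caps (L.r ^ (-(1/2) : ℝ))).card * (ENNReal.ofReal L.r * τ1))) +
          (ENNReal.ofReal CG * τ0) ^ (1/2 : ℝ) *
            ∑ z ∈ Zc w, ∑ i ∈ L.I z k, ENNReal.ofReal L.r *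
              enc (L.r ^ (-(1/2) : ℝ)) (trc z g) (L.P z k i).S) ≤
          ENNReal.ofReal (C * (R ^ (-T) * SS g R D)) := by
  refine ⟨1 + cF * (√(8 * cG * cL * ca) * (1296 * 81 * c0) * 1296 + √(cG * c0) * 1296 * 1296),
    ?_, ?_⟩
  · have : 0 ≤ cF * (√(8 * cG * cL * ca) * (1296 * 81 * c0) * 1296 +
      √(cG * c0) * 1296 * 1296) := by positivity
    linarith
  intro M κ A K η0 C0 σ g R D hst L hL k hk B hB ω W Zc hW hZc CG Lc al τ0 τ1 Fc hCG0 hLc0 hal0
    hCG hLc hal hτ0 hτ1 hFc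
  have hR := hst.R1
  have hR0 : 0 < R := by linarith
  have hr := lev_r1 hL hR
  have hr0 : 0 < L.r := by linarith
  have hrR := hL.hi
  have hE := Enc_nn g
  set θ := L.r ^ (-(1/2) : ℝ) with hθ
  have hθ0 : 0 < θ := Real.rpow_pos_of_pos hr0 _
  have hM0 := le_abs_self M0
  have hT := le_abs_self T
  have hM0' := abs_nonneg M0
  have hT' := abs_nonneg T
  have hcardZ : ∀ w ∈ W, ((Zc w).card : ℝ) ≤ 1296 * R ^ (4 : ℝ) := fun w hw => by
    refine le_trans ?_ (card_net' hr hrR hL.net)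
    exact_mod_cast Finset.card_le_card (hZc w hw)
  have hrw : ENNReal.ofReal L.r ≤ ENNReal.ofReal R := ENNReal.ofReal_le_ofReal hrR
  -- first tail
  have hx1 : ENNReal.ofReal (8 * CG * Lc * al) ≤
      ENNReal.ofReal (8 * cG * cL * ca * R ^ (γG + γL + γa) * Enc g) := by
    refine ENNReal.ofReal_le_ofReal ?_
    calc 8 * CG * Lc * al ≤ 8 * (cG * R ^ γG) * (cL * R ^ γL) * (ca * R ^ γa * Enc g) := by
          gcongr
      _ = _ := by rw [Real.rpow_add hR0, Real.rpow_add hR0]; ring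
  have hy1 : ∀ w ∈ W, ((Zc w).card : ℝ≥0∞) * ((caps θ).card * (ENNReal.ofReal L.r * τ1)) ≤
      ENNReal.ofReal (1296 * 81 * c0 * R ^ (6 - B) * Enc g) := by
    intro w hw
    have e1 : ((Zc w).card : ℝ≥0∞) ≤ ENNReal.ofReal (1296 * R ^ (4 : ℝ)) := by
      rw [← ENNReal.ofReal_natCast]
      exact ENNReal.ofReal_le_ofReal (hcardZ w hw)
    have e2 : ((caps θ).card : ℝ≥0∞) ≤ ENNReal.ofReal (81 * R) := by
      rw [← ENNReal.ofReal_natCast]
      exact ENNReal.ofReal_le_ofReal (card_caps_lev hr hrR)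
    calc _ ≤ ENNReal.ofReal (1296 * R ^ (4 : ℝ)) * (ENNReal.ofReal (81 * R) *
          (ENNReal.ofReal R * ENNReal.ofReal (c0 * R ^ (-B) * Enc g))) :=
          mul_le_mul' e1 (mul_le_mul' e2 (mul_le_mul' hrw hτ1))
      _ = ENNReal.ofReal (1296 * R ^ (4 : ℝ) * (81 * R * (R * (c0 * R ^ (-B) * Enc g)))) := by
          rw [← ENNReal.ofReal_mul hR0.le, ← ENNReal.ofReal_mul (by positivity),
            ← ENNReal.ofReal_mul (by positivity)]
      _ = _ := by
          congr 1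
          have e : R ^ (6 - B) = R ^ (4 : ℝ) * R * R * R ^ (-B) := by
            rw [show (6 - B : ℝ) = 4 + 1 + 1 + (-B) by ring, Real.rpow_add hR0,
              Real.rpow_add hR0, Real.rpow_add hR0, Real.rpow_one]
          rw [e]; ring
  have ht1 := tail_sum (T := T + γF) (α := γG + γL + γa) (β := 6 - B) (γ := 4) hR hE hst.nd
    (c1 := 8 * cG * cL * ca) (c2 := 1296 * 81 * c0) (c3 := 1296) (by positivity) (by positivity) W
    hW (x := fun _ => ENNReal.ofReal (8 * CG * Lc * al))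
    (y := fun w => ((Zc w).card : ℝ≥0∞) * ((caps θ).card * (ENNReal.ofReal L.r * τ1)))
    (fun _ _ => hx1) hy1 (by linarith)
  -- second tail
  have hx2 : ENNReal.ofReal CG * τ0 ≤ ENNReal.ofReal (cG * c0 * R ^ (γG - B) * Enc g) := by
    calc ENNReal.ofReal CG * τ0 ≤ ENNReal.ofReal (cG * R ^ γG) *
          ENNReal.ofReal (c0 * R ^ (-B) * Enc g) := mul_le_mul' (ENNReal.ofReal_le_ofReal hCG) hτ0
      _ = ENNReal.ofReal (cG * R ^ γG * (c0 * R ^ (-B) * Enc g)) := by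
          rw [← ENNReal.ofReal_mul (by positivity)]
      _ = _ := by
          congr 1
          rw [sub_eq_add_neg, Real.rpow_add hR0]; ring
  have hy2 : ∀ w ∈ W, ∑ z ∈ Zc w, ∑ i ∈ L.I z k, ENNReal.ofReal L.r *
      enc θ (trc z g) (L.P z k i).S ≤ ENNReal.ofReal (1296 * R ^ (5 : ℝ) * Enc g) := by
    intro w hw
    calc ∑ z ∈ Zc w, ∑ i ∈ L.I z k, ENNReal.ofReal L.r * enc θ (trc z g) (L.P z k i).S ≤
          ∑ _z ∈ Zc w, ENNReal.ofReal R * ENNReal.ofReal (Enc g) := by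
          refine Finset.sum_le_sum fun z hz => ?_
          rw [← Finset.mul_sum, ← enc_sl hL hk (hZc w hw hz)]
          exact mul_le_mul' hrw (enc_le_Enc ha hb hst hθ0 z _)
      _ = ENNReal.ofReal (((Zc w).card : ℝ) * (R * Enc g)) := by
          rw [Finset.sum_const, nsmul_eq_mul, ENNReal.ofReal_mul (p := ((Zc w).card : ℝ))
            (Nat.cast_nonneg _), ENNReal.ofReal_natCast, ENNReal.ofReal_mul hR0.le]
      _ ≤ ENNReal.ofReal ((1296 * R ^ (4 : ℝ)) * (R * Enc g)) := by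
          refine ENNReal.ofReal_le_ofReal ?_
          have := hcardZ w hw
          gcongr
      _ = _ := by
          congr 1
          rw [show (5 : ℝ) = 4 + 1 by norm_num, Real.rpow_add hR0, Real.rpow_one]; ring
  have ht2 := tail_sum (T := T + γF) (α := γG - B) (β := 5) (γ := 4) hR hE hst.nd
    (c1 := cG * c0) (c2 := 1296) (c3 := 1296) (by positivity) (by norm_num) W
    hW (x := fun _ => ENNReal.ofReal CG * τ0)
    (y := fun w => ∑ z ∈ Zc w, ∑ i ∈ L.I z k, ENNReal.ofReal L.r *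
      enc θ (trc z g) (L.P z k i).S) (fun _ _ => hx2) hy2 (by linarith)
  have e8 : ENNReal.ofReal ((8 * CG * Lc * al) ^ (1/2 : ℝ)) =
      ENNReal.ofReal (8 * CG * Lc * al) ^ (1/2 : ℝ) := by
    rw [ofReal_half, Real.sqrt_eq_rpow]
  rw [e8, Finset.sum_add_distrib]
  have hRF : 0 ≤ R ^ γF := Real.rpow_nonneg hR0.le _
  have eT : R ^ γF * R ^ (-(T + γF)) = R ^ (-T) := by
    rw [← Real.rpow_add hR0]; congr 1; ring
  calc _ ≤ ENNReal.ofReal (cF * R ^ γF) *
        (ENNReal.ofReal (√(8 * cG * cL * ca) * (1296 * 81 * c0) * 1296 *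
            (R ^ (-(T + γF)) * (R * Enc g * √D))) +
          ENNReal.ofReal (√(cG * c0) * 1296 * 1296 * (R ^ (-(T + γF)) * (R * Enc g * √D)))) :=
        mul_le_mul' hFc (add_le_add ht1 ht2)
    _ = ENNReal.ofReal (cF * (√(8 * cG * cL * ca) * (1296 * 81 * c0) * 1296 +
          √(cG * c0) * 1296 * 1296) * ((R ^ γF * R ^ (-(T + γF))) * (R * Enc g * √D))) := by
        rw [← ENNReal.ofReal_add (by positivity) (by positivity),
          ← ENNReal.ofReal_mul (by positivity)]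
        congr 1
        ring
    _ ≤ _ := by
        refine ENNReal.ofReal_le_ofReal ?_
        rw [eT]
        unfold SS
        have h0 : 0 ≤ R ^ (-T) * (R * Enc g * √D) := by positivity
        nlinarith [h0]

end Crest.Agent.R116.TuT890
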