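import Crest.Agent.R116.TuP1_363
import Crest.Agent.R116.TuN_171
import Crest.Agent.R116.TuT_890

/-!
# R116 (S0155), wave side: numerology of the tube step in the literal of `TuP363` (helper171)

`numer_ctu`: `√(Cn nb) s2^(-q/2) (Ctu .. * (CK ri^ε' s^(q/2)))` is at most the factor of `TUBE`.
`ctu_nonneg`, `lcc_nonneg`, and the size bounds of `core_tails`: `cgn_R`, `lcc_R`, `fc_R`.
-/

set_option autoImplicit false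

namespace Crest.Agent.R116.TuN171

open Crest.Agent.R116.TuC373 Crest.Agent.R116.TuD373 Crest.Agent.R116.TuP363

theorem lcc_nonneg {Cu dl pp : ℝ} (hdl : 0 < dl) (hCu : 0 ≤ Cu) (hpp : 0 ≤ pp) (h i j : ℕ) :
    0 ≤ Lcc Cu dl h i j pp := by
  unfold Lcc
  have : 0 ≤ dl ^ (-(max 0 ((h : ℝ) + j - 2 * i))) := Real.rpow_nonneg hdl.le _
  positivity

theorem ctu_nonneg (n0 : ℕ) {A' Y K0 G Ce Lc pl : ℝ} (hA' : 0 ≤ A') (hY : 0 ≤ Y) (hK0 : 0 ≤ K0)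
    (hG : 0 ≤ G) (hCe : 0 ≤ Ce) (hLc : 0 ≤ Lc) (hpl : 0 < pl) :
    0 ≤ Ctu n0 A' Y K0 G Ce Lc pl := by
  unfold Ctu
  refine mul_nonneg (by positivity) (Real.rpow_nonneg (div_nonneg ?_ hpl.le) _)
  unfold Fm CGn
  positivity

/-- **NUMEROLOGY of the tube step in the literal of `TuP363.frame_one`.** -/
theorem numer_ctu (n0 Kn Kv : ℕ) {Gw q ε ε' e1 A' Cc Cu Cn CK : ℝ} (hGw : 0 ≤ Gw) (hq : 0 ≤ q)
    (he1 : 0 ≤ e1) (he : ((n0 : ℝ) + 4) * e1 ≤ ε) (he' : 0 ≤ ε') (hA' : 0 ≤ A') (hCc : 0 ≤ Cc)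
    (hCu : 0 ≤ Cu) (hCn : 0 ≤ Cn) (hCK : 0 ≤ CK)
    {R dl ν pu pl s s2 nb ri : ℝ} {h i j l : ℕ} (hR : 1 ≤ R) (hdl : 0 < dl) (hdl1 : dl ≤ 1)
    (hν : 1 ≤ ν) (hpu : 0 ≤ pu) (hpl : 0 < pl) (hs0 : 0 ≤ s) (hs : s ≤ tht R dl l)
    (hs2 : tht R dl j ≤ s2) (hnb : nb ≤ ν) (hri : 0 ≤ ri) (hriR : ri ≤ R) :
    √(Cn * nb) * s2 ^ (-q / 2) *
      (Ctu n0 A' (R ^ e1) (8 * (28 + 15 * R ^ e1) ^ n0) (dl ^ (-Gw)) (Cc * ν ^ Kn)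
        (Lcc (Cu * ν ^ Kv) dl h i j (2 * pu)) pl * (CK * ri ^ ε' * s ^ (q / 2))) ≤
    (√Cn * CK * C3 n0 A' Cc Cu) * ν ^ (Kn + Kv + 1) * R ^ (ε + ε') *
      dl ^ (-((6 * Gw + 6) + (6 * Gw + 6) * (max 0 ((i : ℝ) + l - 2 * j) +
        max 0 ((h : ℝ) + j - 2 * i)) + q / 4 * ((l : ℝ) - j))) * (pu / pl) ^ (1/2 : ℝ) := by
  have h1 := numer_full n0 Kn Kv (h := h) (i := i) hGw hq he1 he he' hA' hCc hCu hCn hCK hR hdl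
    hdl1 hν hpu hpl hs0 hs hs2 hnb hri hriR
  refine le_trans (le_of_eq ?_) h1
  unfold Ctu Lcc
  congr 6
  ring

/-! ### sizes in powers of `R` (hypotheses of `TuT890.core_tails`) -/

/-- negative powers of the ratio, up to the depth of the tower. -/
theorem dl_R {R dl x : ℝ} {n : ℕ} (hR : 1 ≤ R) (hdl : 0 < dl) (hdl1 : dl ≤ 1)
    (hn : R ^ (1/2 : ℝ) ≤ R * dl ^ n) (hx : x ≤ n) : dl ^ (-x) ≤ R ^ (1/2 : ℝ) := by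
  have hR0 : 0 < R := by linarith
  have h0 : 0 < R ^ (1/2 : ℝ) := Real.rpow_pos_of_pos hR0 _
  have h1 : dl ^ (-x) ≤ dl ^ (-(n : ℝ)) :=
    Real.rpow_le_rpow_of_exponent_ge hdl hdl1 (by linarith)
  refine h1.trans ?_
  rw [Real.rpow_neg hdl.le, Real.rpow_natCast, inv_le_iff_one_le_mul₀ (by positivity)]
  have h2 : R ^ (1/2 : ℝ) * R ^ (1/2 : ℝ) = R := by
    rw [← Real.rpow_add hR0]; norm_num
  have h3 : R ^ (1/2 : ℝ) * 1 ≤ R ^ (1/2 : ℝ) * (R ^ (1/2 : ℝ) * dl ^ n) := by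
    rw [mul_one, ← mul_assoc, h2]; exact hn
  exact le_of_mul_le_mul_left h3 h0

/-- any negative power of the ratio. -/
theorem dl_R' {R dl G : ℝ} {n : ℕ} (hR : 1 ≤ R) (hdl : 0 < dl) (hdl1 : dl ≤ 1)
    (hn : R ^ (1/2 : ℝ) ≤ R * dl ^ n) (hn1 : 1 ≤ n) (hG : 0 ≤ G) : dl ^ (-G) ≤ R ^ (G / 2) := by
  have hR0 : 0 < R := by linarith
  have h1 := dl_R hR hdl hdl1 hn (x := 1) (by exact_mod_cast hn1)
  rw [show -G = (-1) * G by ring, Real.rpow_mul hdl.le, show G / 2 = (1/2) * G by ring,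
    Real.rpow_mul hR0.le]
  exact Real.rpow_le_rpow (by positivity) h1 hG

theorem cgn_R {A' R dl Gw : ℝ} {n : ℕ} (hA' : 0 ≤ A') (hR : 1 ≤ R) (hdl : 0 < dl) (hdl1 : dl ≤ 1)
    (hn : R ^ (1/2 : ℝ) ≤ R * dl ^ n) (hn1 : 1 ≤ n) (hGw : 0 ≤ Gw) :
    CGn A' (dl ^ (-Gw)) ≤ (8 * A' ^ 3 * (2 * A' + 1) ^ 2) * R ^ (3 / 2 * Gw) := by
  have hR0 : 0 < R := by linarith
  have hG : 1 ≤ dl ^ (-Gw) := Real.one_le_rpow_of_pos_of_le_one_of_nonpos hdl hdl1 (by linarith)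
  have h1 := CGn_le hA' hG
  have h2 := dl_R' hR hdl hdl1 hn hn1 hGw
  have h3 : (dl ^ (-Gw)) ^ 3 ≤ R ^ (3 / 2 * Gw) := by
    calc (dl ^ (-Gw)) ^ 3 ≤ (R ^ (Gw / 2)) ^ 3 := pow_le_pow_left₀ (by positivity) h2 3
      _ = R ^ (3 / 2 * Gw) := by
          rw [← Real.rpow_natCast, ← Real.rpow_mul hR0.le]
          congr 1
          push_cast
          ring
  exact h1.trans (mul_le_mul_of_nonneg_left h3 (by positivity))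

theorem lcc_R {Cu ν R dl pu : ℝ} {n Kv h i j : ℕ} (hCu : 0 ≤ Cu) (hR : 1 ≤ R) (hν : 0 ≤ ν)
    (hνR : ν ≤ R) (hdl : 0 < dl) (hdl1 : dl ≤ 1) (hn : R ^ (1/2 : ℝ) ≤ R * dl ^ n)
    (hpu : pu ≤ 9 * dl ^ (-((i : ℝ) - h))) (hi : i ≤ n) (hj : j ≤ n) (hhi : h ≤ i) :
    Lcc (Cu * ν ^ Kv) dl h i j (2 * pu) ≤ (5832 * Cu) * R ^ ((Kv : ℝ) + 1) := by
  have hR0 : 0 < R := by linarith
  have h1 : dl ^ (-(max 0 ((h : ℝ) + j - 2 * i))) ≤ R ^ (1/2 : ℝ) := by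
    refine dl_R hR hdl hdl1 hn (max_le (Nat.cast_nonneg _) ?_)
    have a1 : (h : ℝ) ≤ i := by exact_mod_cast hhi
    have a2 : (j : ℝ) ≤ n := by exact_mod_cast hj
    have a3 : (0 : ℝ) ≤ i := Nat.cast_nonneg _
    linarith
  have h2 : dl ^ (-((i : ℝ) - h)) ≤ R ^ (1/2 : ℝ) := by
    refine dl_R hR hdl hdl1 hn ?_
    have a1 : (0 : ℝ) ≤ h := Nat.cast_nonneg _
    have a2 : (i : ℝ) ≤ n := by exact_mod_cast hi
    linarith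
  have h3 : ν ^ Kv ≤ R ^ Kv := pow_le_pow_left₀ hν hνR Kv
  have h4 : R ^ (1/2 : ℝ) * R ^ (1/2 : ℝ) = R := by
    rw [← Real.rpow_add hR0]; norm_num
  have h5 : 0 ≤ dl ^ (-((i : ℝ) - h)) := Real.rpow_nonneg hdl.le _
  unfold Lcc
  calc Cu * ν ^ Kv * (324 * dl ^ (-(max 0 ((h : ℝ) + j - 2 * i))) * (2 * pu)) ≤
        Cu * R ^ Kv * (324 * R ^ (1/2 : ℝ) * (2 * (9 * R ^ (1/2 : ℝ)))) := by
        have h6 : 2 * pu ≤ 2 * (9 * R ^ (1/2 : ℝ)) := by linarith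
        have h7 : 324 * dl ^ (-(max 0 ((h : ℝ) + j - 2 * i))) * (2 * pu) ≤
            324 * R ^ (1/2 : ℝ) * (2 * (9 * R ^ (1/2 : ℝ))) := by
          calc _ ≤ 324 * dl ^ (-(max 0 ((h : ℝ) + j - 2 * i))) * (2 * (9 * R ^ (1/2 : ℝ))) :=
                mul_le_mul_of_nonneg_left h6 (by positivity)
            _ ≤ _ := by gcongr
        calc _ ≤ Cu * ν ^ Kv * (324 * R ^ (1/2 : ℝ) * (2 * (9 * R ^ (1/2 : ℝ)))) :=
              mul_le_mul_of_nonneg_left h7 (by positivity)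
          _ ≤ _ := by gcongr
    _ = (5832 * Cu) * (R ^ Kv * (R ^ (1/2 : ℝ) * R ^ (1/2 : ℝ))) := by ring
    _ = _ := by rw [h4, Real.rpow_add hR0, Real.rpow_natCast, Real.rpow_one]

theorem fc_R {Cn nb ν R s2 q r : ℝ} (hCn : 0 ≤ Cn) (hR : 1 ≤ R) (hnb : nb ≤ ν) (hνR : ν ≤ R)
    (hq : 0 ≤ q) (hr : 1 ≤ r) (hrR : r ≤ R) (hs : r ^ (-(1/2) : ℝ) ≤ s2) :
    √(Cn * nb) * s2 ^ (-q / 2) ≤ √Cn * R ^ (1 + q / 4) := by
  have hR0 : 0 < R := by linarith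
  have h1 : √(Cn * nb) ≤ √Cn * R := by
    rw [Real.sqrt_mul hCn]
    refine mul_le_mul_of_nonneg_left ?_ (Real.sqrt_nonneg _)
    refine (Real.sqrt_le_sqrt (hnb.trans hνR)).trans ?_
    rw [Real.sqrt_le_left hR0.le]
    nlinarith
  have h2 := TuT890.s2_pow hq hr hrR hs
  have h3 : 0 ≤ s2 ^ (-q / 2) := by
    have : 0 < r ^ (-(1/2) : ℝ) := Real.rpow_pos_of_pos (by linarith) _
    exact Real.rpow_nonneg (this.le.trans hs) _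
  calc √(Cn * nb) * s2 ^ (-q / 2) ≤ (√Cn * R) * R ^ (q / 4) :=
        mul_le_mul h1 h2 h3 (by positivity)
    _ = _ := by rw [Real.rpow_add hR0, Real.rpow_one]; ring

end Crest.Agent.R116.TuN171
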