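import Crest.Agent.R116.TuS_363

/-!
# R116 (S0155), wave side, tube step: one parent frame (helper363)

* `cntU_le` : the count of (U) is at most `324 X^(max 0 (h+j-2i)) pp` (class of the parent label, COHT).
* `U_of` : (U) without the count.
* `frame_one` : the tube step for the child frames of one parent frame `w` (call of `tube_core`).
-/

set_option autoImplicit false

open MeasureTheory
open scoped ENNReal

namespace Crest.Agent.R116.TuP363

open Crest.Agent.R138.Defs (E2)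
open Crest.Agent.R138.Wpk685 (cen caps)
open Crest.Agent.R116.CDef480 Crest.Agent.R116.WC188 Crest.Agent.R116.GlC210
open Crest.Agent.R116.TuG373 Crest.Agent.R116.TuC373 Crest.Agent.R116.TuD373
open Crest.Agent.R116.TuS363 Crest.Agent.R116.TuL890

variable {M κ q A A' a b Cn : ℝ} {K : ℕ} {η0 : ℝ} {C0 : E2} {σ : ℝ} {g : E3 → ℂ} {R dl ν : ℝ}
  {n : ℕ} {L : ℕ → Lev} {h i j l k Lw n0 : ℕ}

theorem mem_sl {L : Lev} {z : E3 × ℝ} {k : ℕ} {m : ℤ × ℤ} {y : E3} :
    y ∈ L.sl z k m ↔ ∃ p ∈ L.I z k, y ∈ (L.P z k p).S m := by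
  unfold Lev.sl uS
  simp only [Set.mem_iUnion, exists_prop]

/-- ancestors. -/
theorem anc_lt (hT : Tow M κ q A A' a b Cn K η0 C0 σ g R dl ν n L) (hij : i ≤ j) (hjn : j ≤ n)
    (hk : k < (L j).n) : anc L j i k < (L i).n := by
  obtain ⟨d, rfl⟩ : ∃ d, j = i + d := ⟨j - i, by omega⟩
  clear hij
  induction d generalizing k with
  | zero =>
    unfold anc
    cases i with
    | zero => simpa [AsmP597.up] using hk
    | succ i => simpa [AsmP597.up] using hk
  | succ d ih =>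
    have h1 := (hT.next (i + d) (by omega)).par_lt k hk
    have h2 := ih (by omega) h1
    have e : anc L (i + (d + 1)) i k = anc L (i + d) i ((L (i + d + 1)).par k) := by
      unfold anc
      rw [← add_assoc]
      simp only [AsmP597.up]
      rw [if_neg (by omega)]
    rwa [e]

/-- **the count of (U)** from the class of the parent label. -/
theorem cntU_le (hT : Tow M κ q A A' a b Cn K η0 C0 σ g R dl ν n L) (hR : 0 < R) (hdl : 0 < dl)
    (hdl2 : dl ≤ 1/2) (hκ0 : 0 ≤ κ) (hκ1 : κ ≤ 1) (hκ : κ ≤ dl ^ (4 * (Lw : ℝ)))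
    (hhi : h < i) (hij : i < j) (hjn : j ≤ n) (hj : j ≤ h + 4 * Lw) {Y K0 al pl pp : ℝ}
    (hY : 0 ≤ Y) (hK : 8 * (28 + 15 * Y) ^ n0 ≤ K0) (hpp : 0 ≤ pp) {k' : ℕ}
    (hC : Cdat n0 κ g R dl L h i j k' K0 al pl pp) {z : E3 × ℝ} (hz : z ∈ (L j).Z) (m : ℤ × ℤ)
    (y : E3) :
    (cntU κ R dl Y L j i z k' m y : ℝ) ≤ 324 * dl ^ (-(max 0 ((h : ℝ) + j - 2 * i))) * pp := by
  classical
  have hdl1 : dl ≤ 1 := by linarith
  have hw := pz_mem' hT hij.le hjn hz
  set w := pz L j i z with hwd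
  have hzR := (hT.ok j hjn).net.mem z hz
  have hdisp := pz_disp hT hR hdl hdl2 hij.le hjn hzR
  have hth0 := tht_pos hR hdl h
  have hthi := tht_pos hR hdl i
  have hthj := tht_pos hR hdl j
  have hσ := sgm_pos (i := h) (j := i) (l := j) hR hdl
  have hkσ := kap_sgm (i := h) (j := i) (l := j) hR hdl hdl1 hκ0 hκ (by omega) hj
  have hri := rad_pos hR hdl i
  have hrj := rad_pos hR hdl j
  have hslow : Slow (tht R dl h) κ (tht R dl i) 0 (Fm n0)
      (dns n0 κ g R dl L i h w (anc L i h k')) := by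
    unfold dns
    exact slow_AdN (nearF_nrC _ _) hth0.le (tht_mono hR hdl hdl1 hhi.le) hκ0 hκ1
      (kap_tht hR hdl hdl1 hκ hhi.le (by omega)) le_rfl (by rw [zero_mul]; exact zero_le_one)
  have hmem : ∀ m, ∀ y ∈ (L i).sl w k' m,
      ENNReal.ofReal al ≤ dns n0 κ g R dl L i h w (anc L i h k') m (w - pz L i h w) y ∧
      dns n0 κ g R dl L i h w (anc L i h k') m (w - pz L i h w) y ≤ ENNReal.ofReal (8 * al) ∧
      (TuG373.potT (dns n0 κ g R dl L i h w (anc L i h k')) (tht R dl i) (sgm R dl h i j) K0 m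
        (w - pz L i h w) y : ℝ) ≤ pp := fun m y hy => by
    obtain ⟨p, hp, hyp⟩ := mem_sl.1 hy
    obtain ⟨h1, h2, -, h3⟩ := hC w hw p hp m y hyp
    exact ⟨h1, h2, h3⟩
  have key := coht (Ad := dns n0 κ g R dl L i h w (anc L i h k')) (th0 := tht R dl h)
    (th := tht R dl i) (kp := κ) (σ := sgm R dl h i j) (K := K0) (L1 := 1) (Y := Y)
    (T := 2 * (R * dl ^ i)) (R0 := 4 * tht R dl j) (pp := pp) (F := Fm n0) hslow hth0.le hκ0
    (tht_mono hR hdl hdl1 hhi.le) zero_le_one hσ hY (by positivity) (by positivity)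
    (by rw [one_mul]; exact hkσ) (S := (L i).sl w k') (ζ := w - pz L i h w) (a := al)
    (by
      refine le_trans (mul_le_mul_of_nonneg_left ?_ (by norm_num)) hK
      have e : (28 + 15 * Y : ℝ) = 13 + 5 * (3 * Y + 3) := by ring
      have h1 : (28 + 15 * Y : ℝ) ^ n0 = Fm n0 (3 * Y + 3) := by unfold Fm; rw [e]
      rw [h1]
      have h2 := tht_rad_sgm (i := h) (j := i) (l := j) hR hdl
      have h3 := kap_rad_sgm (i := h) (j := i) (l := j) hR hdl hkσ
      have e2 : tht R dl h * (2 * (R * dl ^ i) * sgm R dl h i j) =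
        2 * (tht R dl h * (R * dl ^ i * sgm R dl h i j)) := by ring
      have e3 : κ * (2 * (R * dl ^ i) * sgm R dl h i j ^ 2 / 2) =
        κ * (R * dl ^ i * sgm R dl h i j ^ 2) := by ring
      refine Fm_mono n0 ?_ ?_
      · positivity
      · rw [e2, e3]; linarith)
    (fun δ hδ => Fm_nonneg n0 hδ)
    (fun m y hy => (hmem m y hy).1) (fun m y hy => (hmem m y hy).2.1)
    (fun m y hy => (hmem m y hy).2.2) hpp
    ((nrC (tht R dl i) (tht R dl j) m).filter fun m' => ∃ y0 ∈ (L i).sl w k' m',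
      pn (tht R dl i) κ (cen (tht R dl i) m') (y0 - TuG373.D (z - w) y (cen (tht R dl i) m')) ≤ Y)
    (cen (tht R dl j) m) (z - w) y
    (by
      have := hdisp.2
      linarith)
    (fun m' hm' => by
      obtain ⟨h1, h2⟩ := Finset.mem_filter.1 hm'
      obtain ⟨h3, h4⟩ := nearF_nrC _ _ _ _ h1
      exact ⟨h3, h4, h2⟩)
  have e : (cntU κ R dl Y L j i z k' m y : ℝ) = ((((nrC (tht R dl i) (tht R dl j) m).filter
      fun m' => ∃ y0 ∈ (L i).sl w k' m', pn (tht R dl i) κ (cen (tht R dl i) m')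
        (y0 - TuG373.D (z - w) y (cen (tht R dl i) m')) ≤ Y).card : ℕ) : ℝ) := by
    unfold cntU
    rw [← hwd]
  rw [e]
  exact key.trans (mul_le_mul_of_nonneg_right (cnt_le hR hdl hdl1) hpp)

/-- **(U) without the count**. -/
theorem U_of (hT : Tow M κ q A A' a b Cn K η0 C0 σ g R dl ν n L) (hR : 0 < R) (hdl : 0 < dl)
    (hdl2 : dl ≤ 1/2) (hκ0 : 0 ≤ κ) (hκ1 : κ ≤ 1) (hκ : κ ≤ dl ^ (4 * (Lw : ℝ)))
    (hhi : h < i) (hij : i < j) (hjn : j ≤ n) (hj : j ≤ h + 4 * Lw) {Y K0 al pl pp Cu : ℝ}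
    (hY : 0 ≤ Y) (hK : 8 * (28 + 15 * Y) ^ n0 ≤ K0) (hpp : 0 ≤ pp) (hCu : 0 ≤ Cu) {τ0 : ℝ≥0∞}
    (hC : Cdat n0 κ g R dl L h i j (anc L j i k) K0 al pl pp)
    (hU : Uat n0 κ g R dl Y L j i k Cu τ0) {z : E3 × ℝ} (hz : z ∈ (L j).Z) {p : ℕ}
    (hp : p ∈ (L j).I z k) (m : ℤ × ℤ) {y : E3} (hy : y ∈ ((L j).P z k p).S m) :
    ‖umc (tht R dl j) (trc z g) m y‖ₑ ^ 2 ≤
      ENNReal.ofReal (Cu * (324 * dl ^ (-(max 0 ((h : ℝ) + j - 2 * i))) * pp)) *
        dns n0 κ g R dl L j i z (anc L j i k) m (z - pz L j i z) y + τ0 := by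
  refine (hU z hz p hp m y hy).trans (add_le_add (mul_le_mul' ?_ le_rfl) le_rfl)
  rw [ENNReal.ofReal_mul hCu]
  refine mul_le_mul' le_rfl ?_
  rw [← ENNReal.ofReal_natCast]
  exact ENNReal.ofReal_le_ofReal
    (cntU_le hT hR hdl hdl2 hκ0 hκ1 hκ hhi hij hjn hj hY hK hpp hC hz m y)

/-- the constant of (U) without the count. -/
noncomputable def Lcc (Cu dl : ℝ) (h i j : ℕ) (pp : ℝ) : ℝ :=
  Cu * (324 * dl ^ (-(max 0 ((h : ℝ) + j - 2 * i))) * pp)

/-- the constant of `tube_core`. -/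
noncomputable def Ctu (n0 : ℕ) (A' Y K0 G Ce Lc pl : ℝ) : ℝ :=
  ((2 * (A' + 10 * Y + 20) + 2) ^ 4 + 1) * (81 * (Ce * 13 ^ n0)) *
    (648 * (K0 * Fm n0 (4 * Y + 3 / 2)) * CGn A' G * Lc / pl) ^ (1/2 : ℝ)

open Classical in
/-- **the tube step for one parent frame.** -/
theorem frame_one {M0 D : ℝ} (ha : 1 ≤ a) (hSs : Ss M κ q a b M0 η0 C0 σ g R D)
    (hKp : Kp a R κ) (hT : Tow M κ q A A' a b Cn K η0 C0 σ g R dl ν n L) (hdl : 0 < dl)
    (hdl2 : dl ≤ 1/2) (hκ : κ ≤ dl ^ (4 * (Lw : ℝ))) (hhi : h < i) (hij : i < j) (hjl : j < l)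
    (hln : l ≤ n) (hl : l ≤ h + 4 * Lw) (hk : k < (L j).n) {Y K0 al al0 pl ph pl0 pp Cu Ce G : ℝ}
    (hA' : 0 < A') (hG : 0 < G) (hGs : ((L j).s k).2 ≤ G * tht R dl j)
    (hY : 0 ≤ Y) (hK : 8 * (28 + 15 * Y) ^ n0 ≤ K0) (hal : 0 < al) (hpl : 0 < pl) (hpp : 0 ≤ pp)
    (hCu : 0 ≤ Cu) (hCe : 0 ≤ Ce) {τ0 τ1 : ℝ≥0∞}
    (hC1 : Cdat n0 κ g R dl L i j l k K0 al pl ph)
    (hC0 : Cdat n0 κ g R dl L h i j (anc L j i k) K0 al0 pl0 pp)
    (hU : Uat n0 κ g R dl Y L j i k Cu τ0) (hE : Eat n0 κ g R dl Y L j i k Ce τ1)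
    (w : E3 × ℝ) :
    ∑ z ∈ (L j).Z.filter (fun z => pz L j i z = w),
        val κ g (L j).r ((L j).s k).1 ((L j).s k).2 ((L j).I z k) ((L j).P z k) ≤
      ENNReal.ofReal (Ctu n0 A' Y K0 G Ce (Lcc Cu dl h i j pp) pl) *
        (∑ c ∈ (caps (tht R dl j)).image (tau (tht R dl j) (sgm R dl i j l)),
          ∫⁻ t in Set.Icc (-(2 * (R * dl ^ i))) (2 * (R * dl ^ i)), ∫⁻ x,
            (Cad538.Acc n0 (tht R dl i) κ (tht R dl i) (trc w g) ((L i).sl w (anc L j i k))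
              (Mk (tht R dl i) (sgm R dl i j l) c) x t) ^ (3/2 : ℝ)) +
      (ENNReal.ofReal ((8 * CGn A' G * Lcc Cu dl h i j pp * al) ^ (1/2 : ℝ)) *
          (((L j).Z.filter (fun z => pz L j i z = w)).card *
            ((caps ((L j).r ^ (-(1/2) : ℝ))).card * (ENNReal.ofReal (L j).r * τ1))) +
        (ENNReal.ofReal (CGn A' G) * τ0) ^ (1/2 : ℝ) *
          ∑ z ∈ (L j).Z.filter (fun z => pz L j i z = w), ∑ p ∈ (L j).I z k,
            ENNReal.ofReal (L j).r * enc ((L j).r ^ (-(1/2) : ℝ)) (trc z g) ((L j).P z k p).S) := by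
  have hR1 := hSs.R1
  have hR : 0 < R := by linarith
  have hdl1 : dl ≤ 1 := by linarith
  have hjn : j ≤ n := by omega
  have hokj := hT.ok j hjn
  have hrj : (L j).r = R * dl ^ j := hT.rad j hjn
  have hκ0 : 0 < κ := hKp.k0
  have hκ1 : κ ≤ 1 := by linarith [hKp.k4]
  have hth : (L j).r ^ (-(1/2) : ℝ) = tht R dl j := by rw [hrj]; rfl
  have hRj : R ^ (1/2 : ℝ) ≤ R * dl ^ j := by rw [← hrj]; exact hokj.lo
  have hrj1 : 1 ≤ R * dl ^ j := (Real.one_le_rpow hR1 (by norm_num)).trans hRj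
  have hsd := hokj.sd k hk
  rw [hrj] at hsd
  have hgd := Bas367.St.gd (by linarith) hSs.toSt
  have hgi := hgd.int
  have hri : R * dl ^ i ≤ R := by
    have := pow_le_one₀ hdl.le hdl1 (n := i)
    nlinarith
  have hs1 : 0 < ((L j).s k).1 := (tht_pos hR hdl j).trans_le hsd.lo
  have hs2 : 0 < ((L j).s k).2 := hs1.trans_le hsd.le
  have hT2 : 0 < TT κ ((L j).s k).2 (R * dl ^ j) := by
    unfold TT
    exact lt_max_of_lt_left (by positivity)
  have hdec : ∀ z ∈ (L j).Z.filter (fun z => pz L j i z = w), z ∈ (L j).Z ∧ pz L j i z = w :=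
    fun z hz => Finset.mem_filter.1 hz
  have hLc : 0 ≤ Lcc Cu dl h i j pp := by
    unfold Lcc
    have : 0 ≤ dl ^ (-(max 0 ((h : ℝ) + j - 2 * i))) := Real.rpow_nonneg hdl.le _
    positivity
  have hK0 : 0 < K0 := lt_of_lt_of_le (by positivity) hK
  have key := tube_core (n := n0) (th := tht R dl i) (kp := κ) (th1 := tht R dl j) (g := trc w g)
    (S := (L i).sl w (anc L j i k)) (N := nrC (tht R dl i) (tht R dl j)) (nearF_nrC _ _)
    (r := R * dl ^ j) (s1 := ((L j).s k).1) (s2 := ((L j).s k).2)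
    (T2 := TT κ ((L j).s k).2 (R * dl ^ j)) (T := 2 * (R * dl ^ i)) (σ := sgm R dl i j l)
    (s := sgm R dl i j l) (K := K0) (Y := Y) (A := A') (G := G) (Lc := Lcc Cu dl h i j pp)
    (Ce := Ce) (a := al) (pl := pl) (tht_pos hR hdl i) (tht_mono hR hdl hdl1 hij.le)
    (tht_le_one hrj1) hκ0 hκ1 (kap_tht hR hdl hdl1 hκ hij.le (by omega)) (rad_pos hR hdl j)
    (rad_tht_sq hR hdl j).le
    (by
      rw [tht_inv hR hdl]
      exact (Real.rpow_le_rpow (rad_pos hR hdl i).le hri (by norm_num)).trans hRj)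
    (by
      refine le_trans ?_ hRj
      have h1 : κ⁻¹ ≤ (R ^ (-(1/16) : ℝ))⁻¹ :=
        inv_anti₀ (Real.rpow_pos_of_pos hR _) hKp.kR
      rw [← Real.rpow_neg hR.le, neg_neg] at h1
      exact h1.trans (Real.rpow_le_rpow_of_exponent_le hR1 (by norm_num)))
    (sgm_pos hR hdl).le le_rfl (tht_le_sgm hR hdl hdl1 hij.le hjl.le)
    (kap_sgm hR hdl hdl1 hκ0.le hκ (by omega) (by omega)) (tht_rad_sgm hR hdl)
    (kap_rad_sgm hR hdl (kap_sgm hR hdl hdl1 hκ0.le hκ (by omega) (by omega))) hK0 hY hA' hG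
    hsd.lo hsd.le hGs hT2 hLc hCe hal hpl
    (fun m => Bas367.umc_meas_sq (Bas367.trc_int hgi _) _ m)
    ((L j).Z.filter (fun z => pz L j i z = w)) (fun z => z - w) (fun z => trc z g)
    (by
      intro z hz
      obtain ⟨h1, h2⟩ := hdec z hz
      have h3 := (pz_disp hT hR hdl hdl2 hij.le hjn (hokj.net.mem z h1)).2
      rw [h2] at h3
      have := rad_pos hR hdl j
      change |(z - w).2| + R * dl ^ j / 2 ≤ 2 * (R * dl ^ i)
      linarith)
    (by
      intro z hz z' hz' hne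
      rw [dist_sub_right, Prod.dist_eq, dist_eq_norm, Real.dist_eq, ← hrj]
      rcases hokj.net.sep z (hdec z hz).1 z' (hdec z' hz').1 with h1 | h1 | h1
      · exact absurd h1 hne
      · exact le_max_of_le_left h1
      · exact le_max_of_le_right h1)
    (fun z => (L j).I z k) (fun z p => ((L j).P z k p).S) (fun z p => ((L j).P z k p).c)
    (fun z p => ((L j).P z k p).X0)
    (by
      intro z hz p hp m
      obtain ⟨cls, hd⟩ := hokj.dec z (hdec z hz).1
      exact (hd.pl k (Finset.mem_range.2 hk)).1.meas p hp m)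
    (by
      intro z hz p hp p' hp' hne m
      obtain ⟨cls, hd⟩ := hokj.dec z (hdec z hz).1
      obtain ⟨hpl1, hpz⟩ := hd.pl k (Finset.mem_range.2 hk)
      exact hpl1.disj p hp p' hp' hne (by rw [hpz p hp, hpz p' hp']) m)
    (by
      intro z hz p hp m y hy
      obtain ⟨cls, hd⟩ := hokj.dec z (hdec z hz).1
      obtain ⟨hpl1, hpz⟩ := hd.pl k (Finset.mem_range.2 hk)
      have h1 := hpl1.box p hp m hy
      unfold pbx mset at h1
      rw [Set.mem_ofPred_eq, hrj] at h1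
      exact ⟨h1.1, h1.2.1, h1.2.2.1⟩)
    (by
      intro z hz p hp m y hy
      obtain ⟨cls, hd⟩ := hokj.dec z (hdec z hz).1
      have h1 := hd.bd k (Finset.mem_range.2 hk) m (mem_sl.2 ⟨p, hp, hy⟩)
      rw [mem_closedBall_zero_iff, hrj] at h1
      exact h1)
    (by
      intro z hz p hp m _ y hy
      obtain ⟨h1, h2⟩ := hdec z hz
      have h3 := (hC1 z h1 p hp m y hy).1
      unfold dns at h3
      rw [h2] at h3
      exact h3)
    (by
      intro z hz p hp m _ y hy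
      obtain ⟨h1, h2⟩ := hdec z hz
      have h3 := (hC1 z h1 p hp m y hy).2.1
      unfold dns at h3
      rw [h2] at h3
      exact h3)
    (by
      intro z hz p hp m _ y hy
      obtain ⟨h1, h2⟩ := hdec z hz
      have h3 := (hC1 z h1 p hp m y hy).2.2.1
      unfold dns at h3
      rw [h2] at h3
      exact h3)
    (τ0 := τ0) (τ1 := τ1)
    (by
      intro z hz p hp m _ y hy
      obtain ⟨h1, h2⟩ := hdec z hz
      have h3 := U_of hT hR hdl hdl2 hκ0.le hκ1 hκ hhi hij hjn (by omega) hY hK hpp hCu hC0 hU h1 hp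
        m hy
      unfold dns at h3
      rw [h2] at h3
      exact h3)
    (by
      intro z hz m hm
      obtain ⟨h1, h2⟩ := hdec z hz
      have h3 := hE z h1 m hm
      unfold dns at h3
      rw [h2] at h3
      exact h3)
  rw [hth]
  rw [hrj]
  refine le_trans (le_of_eq ?_) key
  refine Finset.sum_congr rfl fun z hz => ?_
  obtain ⟨h1, h2⟩ := hdec z hz
  obtain ⟨cls, hd⟩ := hokj.dec z h1
  obtain ⟨hpl1, hpz⟩ := hd.pl k (Finset.mem_range.2 hk)
  unfold val scost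
  refine Finset.sum_congr rfl fun p hp => ?_
  rw [hpz p hp]
  rfl

end Crest.Agent.R116.TuP363
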