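import Crest.Agent.R116.TuF_373
import Crest.Agent.R116.TuT_890
import Crest.Agent.R116.TuP1_363

/-!
# R116 (S0155), wave side, tube step: tiny labels (helper171)

* `uat_tiny`: (U) with a tiny density gives tiny packets.
* `dns_small`: tiny packets of the level `i` give a tiny density of the level `i`.
* `tiny1`, `tiny2`: the functional of a label with tiny density (of its ancestor of level `i`, resp. of
  the ancestor of level `h` of this ancestor) is tiny.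
-/

set_option autoImplicit false

open MeasureTheory
open scoped ENNReal

namespace Crest.Agent.R116.TuY171

open Crest.Agent.R138.Defs (E2)
open Crest.Agent.R138.Wpk685 (cen caps)
open Crest.Agent.R116.CDef480 Crest.Agent.R116.WC188 Crest.Agent.R116.GlC210
open Crest.Agent.R116.TuG373 Crest.Agent.R116.TuC373 Crest.Agent.R116.TuD373
open Crest.Agent.R116.TuS363 (Uat cntU)
open Crest.Agent.R116.TuP363 (mem_sl)
open Crest.Agent.R116.TuL890 Crest.Agent.R116.TuT890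

variable {M κ q A A' a b Cn M0 : ℝ} {K : ℕ} {η0 : ℝ} {C0 : E2} {σ : ℝ} {g : E3 → ℂ} {R D dl ν : ℝ}
  {n : ℕ} {L : ℕ → Lev} {h i j k n0 Kv : ℕ}

/-- the count is at most the number of caps. -/
theorem cntU_caps (κ R dl Y : ℝ) (L : ℕ → Lev) (j i : ℕ) (z : E3 × ℝ) (k' : ℕ) (m : ℤ × ℤ)
    (y : E3) : cntU κ R dl Y L j i z k' m y ≤ (caps (tht R dl i)).card := by
  classical
  unfold cntU nrC
  exact Finset.card_le_card ((Finset.filter_subset _ _).trans (Finset.filter_subset _ _))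

/-- a density is at most the energy. -/
theorem dns_le_enc (hκ1 : κ ≤ 1) (hr : 1 ≤ R * dl ^ i) (z z' : E3 × ℝ) (k : ℕ)
    (m : ℤ × ℤ) (y : E3) : dns n0 κ g R dl L j i z k m z' y ≤
      enc (tht R dl i) (trc (pz L j i z) g) ((L i).sl (pz L j i z) k) := by
  classical
  have hth0 : 0 < tht R dl i := Real.rpow_pos_of_pos (by linarith) _
  have hth1 : tht R dl i ≤ 1 := Real.rpow_le_one_of_one_le_of_nonpos hr (by norm_num)
  unfold dns AdN Cad538.Acc
  refine (Cad538.Den_le _ _).trans ?_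
  have h1 : ENNReal.ofReal (tht R dl i ^ 2 * κ) ≤ 1 := by
    rw [← ENNReal.ofReal_one]
    refine ENNReal.ofReal_le_ofReal ?_
    have : tht R dl i ^ 2 ≤ 1 := pow_le_one₀ hth0.le hth1
    nlinarith
  have h2 : ∑ m ∈ nrC (tht R dl i) (tht R dl j) m, ∫⁻ y in (L i).sl (pz L j i z) k m,
      ‖umc (tht R dl i) (trc (pz L j i z) g) m y‖ₑ ^ 2 ≤
      enc (tht R dl i) (trc (pz L j i z) g) ((L i).sl (pz L j i z) k) := by
    unfold enc
    exact Finset.sum_le_sum_of_subset fun m hm => (Finset.mem_filter.1 hm).1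
  calc _ ≤ 1 * enc (tht R dl i) (trc (pz L j i z) g) ((L i).sl (pz L j i z) k) :=
        mul_le_mul' h1 h2
    _ = _ := one_mul _

/-- **(U) with a tiny density.** -/
theorem uat_tiny (hT : Tow M κ q A A' a b Cn K η0 C0 σ g R dl ν n L) (hR : 1 ≤ R) (hν : 1 ≤ ν)
    (hνR : ν ≤ R) (hij : i < j) (hjn : j ≤ n) {Y Cu c1 Ma T' B : ℝ} (hCu : 0 ≤ Cu) (hc1 : 0 ≤ c1)
    (hMa : B + Kv + 1 ≤ Ma) (hT' : B ≤ T')
    (hU : Uat n0 κ g R dl Y L j i k (Cu * ν ^ Kv) (ENNReal.ofReal (Cu * R ^ (-T') * Enc g)))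
    (hd : ∀ z ∈ (L j).Z, ∀ p ∈ (L j).I z k, ∀ m, ∀ y ∈ ((L j).P z k p).S m,
      dns n0 κ g R dl L j i z (anc L j i k) m (z - pz L j i z) y ≤
        ENNReal.ofReal (c1 * (R ^ (-Ma) * Enc g))) :
    ∀ z ∈ (L j).Z, ∀ m, ∀ y ∈ (L j).sl z k m, ‖umc (tht R dl j) (trc z g) m y‖ₑ ^ 2 ≤
      ENNReal.ofReal ((Cu * (81 * c1 + 1)) * R ^ (-B) * Enc g) := by
  intro z hz m y hy
  obtain ⟨p, hp, hyp⟩ := mem_sl.1 hy
  have hR0 : 0 < R := by linarith
  have hE := Enc_nn g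
  have hri : 1 ≤ (L i).r := lev_r1 (hT.ok i (by omega)) hR
  have hriR : (L i).r ≤ R := (hT.ok i (by omega)).hi
  have hcap : ((caps (tht R dl i)).card : ℝ) ≤ 81 * R := by
    have h1 := card_caps_lev hri hriR
    rw [hT.rad i (by omega)] at h1
    exact h1
  have h2 : ((cntU κ R dl Y L j i z (anc L j i k) m y : ℕ) : ℝ≥0∞) ≤ ENNReal.ofReal (81 * R) := by
    rw [← ENNReal.ofReal_natCast]
    refine ENNReal.ofReal_le_ofReal (le_trans ?_ hcap)
    exact_mod_cast cntU_caps κ R dl Y L j i z (anc L j i k) m y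
  have hpow : ν ^ Kv ≤ R ^ (Kv : ℝ) := by
    rw [Real.rpow_natCast]
    exact pow_le_pow_left₀ (by linarith) hνR Kv
  have e1 : R ^ (Kv : ℝ) * (R * R ^ (-Ma)) ≤ R ^ (-B) := by
    have e2 : R ^ (Kv : ℝ) * (R * R ^ (-Ma)) = R ^ ((Kv : ℝ) + 1 - Ma) := by
      rw [show (Kv : ℝ) + 1 - Ma = Kv + (1 + -Ma) by ring, Real.rpow_add hR0, Real.rpow_add hR0,
        Real.rpow_one]
    rw [e2]
    exact Real.rpow_le_rpow_of_exponent_le hR (by linarith)
  have e3 : R ^ (-T') ≤ R ^ (-B) := Real.rpow_le_rpow_of_exponent_le hR (by linarith)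
  calc ‖umc (tht R dl j) (trc z g) m y‖ₑ ^ 2 ≤
        ENNReal.ofReal (Cu * ν ^ Kv) * (cntU κ R dl Y L j i z (anc L j i k) m y : ℝ≥0∞) *
          dns n0 κ g R dl L j i z (anc L j i k) m (z - pz L j i z) y +
          ENNReal.ofReal (Cu * R ^ (-T') * Enc g) := hU z hz p hp m y hyp
    _ ≤ ENNReal.ofReal (Cu * ν ^ Kv) * ENNReal.ofReal (81 * R) *
          ENNReal.ofReal (c1 * (R ^ (-Ma) * Enc g)) + ENNReal.ofReal (Cu * R ^ (-T') * Enc g) :=
        add_le_add (mul_le_mul' (mul_le_mul' le_rfl h2) (hd z hz p hp m y hyp)) le_rfl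
    _ = ENNReal.ofReal (Cu * ν ^ Kv * (81 * R) * (c1 * (R ^ (-Ma) * Enc g)) +
          Cu * R ^ (-T') * Enc g) := by
        rw [← ENNReal.ofReal_mul (by positivity), ← ENNReal.ofReal_mul (by positivity),
          ← ENNReal.ofReal_add (by positivity) (by positivity)]
    _ ≤ _ := by
        refine ENNReal.ofReal_le_ofReal ?_
        have f1 : Cu * ν ^ Kv * (81 * R) * (c1 * (R ^ (-Ma) * Enc g)) ≤
            81 * c1 * Cu * R ^ (-B) * Enc g := by
          calc _ = 81 * c1 * Cu * (ν ^ Kv * (R * R ^ (-Ma))) * Enc g := by ring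
            _ ≤ 81 * c1 * Cu * (R ^ (Kv : ℝ) * (R * R ^ (-Ma))) * Enc g := by gcongr
            _ ≤ 81 * c1 * Cu * R ^ (-B) * Enc g := by gcongr
        have f2 : Cu * R ^ (-T') * Enc g ≤ Cu * R ^ (-B) * Enc g := by gcongr
        calc _ ≤ 81 * c1 * Cu * R ^ (-B) * Enc g + Cu * R ^ (-B) * Enc g := add_le_add f1 f2
          _ = _ := by ring

/-- tiny packets of level `i` give tiny densities of level `i`. -/
theorem dns_small (hT : Tow M κ q A A' a b Cn K η0 C0 σ g R dl ν n L) (hR : 1 ≤ R)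
    (hκ1 : κ ≤ 1) (hA' : 0 ≤ A') (hij : i < j) (hjn : j ≤ n) {k' : ℕ} (hk' : k' < (L i).n)
    {x : ℝ} (hx : 0 ≤ x)
    (hu : ∀ w ∈ (L i).Z, ∀ m, ∀ y ∈ (L i).sl w k' m, ‖umc (tht R dl i) (trc w g) m y‖ₑ ^ 2 ≤
      ENNReal.ofReal x) {z : E3 × ℝ} (hz : z ∈ (L j).Z) (z' : E3 × ℝ) (m : ℤ × ℤ) (y : E3) :
    dns n0 κ g R dl L j i z k' m z' y ≤ ENNReal.ofReal (81 * A' ^ 3 * v3 * R ^ 4 * x) := by
  have hin : i ≤ n := by omega
  have hok := hT.ok i hin
  have hri : 1 ≤ (L i).r := lev_r1 hok hR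
  have hr := hT.rad i hin
  have hw := TuS363.pz_mem' hT hij.le hjn hz
  obtain ⟨cls, hd⟩ := hok.dec _ hw
  have hkΛ : k' ∈ Finset.range (L i).n := Finset.mem_range.2 hk'
  obtain ⟨hp, hpz⟩ := hd.pl k' hkΛ
  have hmeas : ∀ m, MeasurableSet ((L i).sl (pz L j i z) k' m) := fun m => by
    unfold Lev.sl uS
    exact Finset.measurableSet_biUnion _ fun p hp' => hp.meas p hp' m
  refine (dns_le_enc hκ1 (by rw [← hr]; exact hri) z z' k' m y).trans ?_
  have h1 := enc_tiny (A' := A') (x := x) (f := trc (pz L j i z) g)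
    (S := (L i).sl (pz L j i z) k') hri hok.hi hA' hx (fun m => hd.bd k' hkΛ m) hmeas
    (fun m _ y hy => by
      have h2 := hu _ hw m y hy
      rw [hr]
      exact h2)
  rw [hr] at h1
  exact h1

/-- **a label whose ancestor of level `i` has a tiny density.** -/
theorem tiny1 (q a b A' Cn M0 T Cu : ℝ) (Kv : ℕ) (ha : 1 ≤ a) (hb : b ≤ 2) (hq : 0 ≤ q)
    (hA' : 1 ≤ A') (hCn : 1 ≤ Cn) (hCu : 0 ≤ Cu) : ∃ C : ℝ, 1 ≤ C ∧
    ∀ (M κ A : ℝ) (K : ℕ) (η0 : ℝ) (C0 : E2) (σ : ℝ) (g : E3 → ℂ) (R D dl ν : ℝ) (n : ℕ)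
      (L : ℕ → Lev) (n0 : ℕ) (Y : ℝ) (i j k : ℕ),
      Ss M κ q a b M0 η0 C0 σ g R D → Kp a R κ →
      Tow M κ q A A' a b Cn K η0 C0 σ g R dl ν n L → 0 < dl → dl ≤ 1/2 → 1 ≤ ν → ν ≤ R →
      i < j → j ≤ n → k < (L j).n → ∀ Ma T' : ℝ,
      (13 + |M0| + 2 * |T| + q / 2) + Kv + 1 ≤ Ma → 13 + |M0| + 2 * |T| + q / 2 ≤ T' →
      Uat n0 κ g R dl Y L j i k (Cu * ν ^ Kv) (ENNReal.ofReal (Cu * R ^ (-T') * Enc g)) →
      (∀ z ∈ (L j).Z, ∀ p ∈ (L j).I z k, ∀ m, ∀ y ∈ ((L j).P z k p).S m,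
        dns n0 κ g R dl L j i z (anc L j i k) m (z - pz L j i z) y ≤
          ENNReal.ofReal (R ^ (-Ma) * Enc g)) →
      (L j).S g k ≤ ENNReal.ofReal (C * ν * (R ^ (-T) * SS g R D)) := by
  obtain ⟨C, hC, H⟩ := tiny_S q a b A' Cn M0 T (Cu * (81 * 1 + 1)) ha hb hq (by linarith)
    (by linarith) (by positivity)
  refine ⟨C, hC, ?_⟩
  intro M κ A K η0 C0 σ g R D dl ν n L n0 Y i j k hSs _ hT _ _ hν hνR hij hjn hk Ma T' hMa hT' hU hd
  have hR := hSs.R1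
  have hE := Enc_nn g
  have hB : 13 + M0 + 2 * T + q / 2 ≤ 13 + |M0| + 2 * |T| + q / 2 := by
    have := le_abs_self M0
    have := le_abs_self T
    linarith
  have h1 := uat_tiny hT hR hν hνR hij hjn hCu zero_le_one hMa hT' hU (fun z hz p hp m y hy => by
    rw [one_mul]; exact hd z hz p hp m y hy)
  have h2 := H M κ A K η0 C0 σ g R D hSs.toSt (L j) (hT.ok j hjn) k hk _ hB (fun z hz m _ y hy => by
    have h3 := h1 z hz m y hy
    rw [hT.rad j hjn]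
    exact h3)
  refine h2.trans (ENNReal.ofReal_le_ofReal ?_)
  have h4 : √((L j).nb : ℝ) ≤ ν := by
    refine (Real.sqrt_le_sqrt (hT.le j hjn).2).trans ?_
    rw [Real.sqrt_le_left (by linarith)]
    nlinarith
  have h5 : 0 ≤ R ^ (-T) * SS g R D := by
    have : 0 < R ^ (-T) := Real.rpow_pos_of_pos (by linarith) _
    unfold SS
    positivity
  exact mul_le_mul_of_nonneg_right (mul_le_mul_of_nonneg_left h4 (by linarith)) h5

/-- **a label whose ancestor of level `i` has an ancestor of level `h` with a tiny density.** -/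
theorem tiny2 (q a b A' Cn M0 T Cu : ℝ) (Kv : ℕ) (ha : 1 ≤ a) (hb : b ≤ 2) (hq : 0 ≤ q)
    (hA' : 1 ≤ A') (hCn : 1 ≤ Cn) (hCu : 0 ≤ Cu) : ∃ C : ℝ, 1 ≤ C ∧
    ∀ (M κ A : ℝ) (K : ℕ) (η0 : ℝ) (C0 : E2) (σ : ℝ) (g : E3 → ℂ) (R D dl ν : ℝ) (n : ℕ)
      (L : ℕ → Lev) (n0 : ℕ) (Y : ℝ) (h i j k : ℕ),
      Ss M κ q a b M0 η0 C0 σ g R D → Kp a R κ →
      Tow M κ q A A' a b Cn K η0 C0 σ g R dl ν n L → 0 < dl → dl ≤ 1/2 → 1 ≤ ν → ν ≤ R →
      h < i → i < j → j ≤ n → k < (L j).n → ∀ Ma T' : ℝ,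
      (13 + |M0| + 2 * |T| + q / 2) + 2 * Kv + 6 ≤ Ma →
      (13 + |M0| + 2 * |T| + q / 2) + Kv + 5 ≤ T' →
      Uat n0 κ g R dl Y L j i k (Cu * ν ^ Kv) (ENNReal.ofReal (Cu * R ^ (-T') * Enc g)) →
      Uat n0 κ g R dl Y L i h (anc L j i k) (Cu * ν ^ Kv)
        (ENNReal.ofReal (Cu * R ^ (-T') * Enc g)) →
      (∀ z ∈ (L i).Z, ∀ p ∈ (L i).I z (anc L j i k), ∀ m,
        ∀ y ∈ ((L i).P z (anc L j i k) p).S m,
        dns n0 κ g R dl L i h z (anc L i h (anc L j i k)) m (z - pz L i h z) y ≤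
          ENNReal.ofReal (R ^ (-Ma) * Enc g)) →
      (L j).S g k ≤ ENNReal.ofReal (C * ν * (R ^ (-T) * SS g R D)) := by
  have hv := v3_nonneg
  obtain ⟨C, hC, H⟩ := tiny_S q a b A' Cn M0 T
    (Cu * (81 * (81 * A' ^ 3 * v3 * (Cu * (81 * 1 + 1))) + 1)) ha hb hq (by linarith)
    (by linarith) (by positivity)
  refine ⟨C, hC, ?_⟩
  intro M κ A K η0 C0 σ g R D dl ν n L n0 Y h i j k hSs hKp hT _ _ hν hνR hhi hij hjn hk Ma T'
    hMa hT' hU hU' hd
  have hR := hSs.R1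
  have hR0 : 0 < R := by linarith
  have hE := Enc_nn g
  have hKv : (0 : ℝ) ≤ Kv := Nat.cast_nonneg _
  have hκ1 : κ ≤ 1 := by linarith [hKp.k4]
  set B := 13 + |M0| + 2 * |T| + q / 2 with hBd
  have hB : 13 + M0 + 2 * T + q / 2 ≤ B := by
    have := le_abs_self M0
    have := le_abs_self T
    linarith
  have hk' : anc L j i k < (L i).n := TuP363.anc_lt hT hij.le hjn hk
  have h1 := uat_tiny (B := B + Kv + 5) (Ma := Ma) (T' := T') (c1 := 1) hT hR hν hνR hhi (by omega) hCu zero_le_one (by linarith)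
    hT' hU' (fun z hz p hp m y hy => by rw [one_mul]; exact hd z hz p hp m y hy)
  have h2 := uat_tiny (B := B) (c1 := 81 * A' ^ 3 * v3 * (Cu * (81 * 1 + 1))) (Ma := B + Kv + 1) hT
    hR hν hνR hij hjn hCu (by positivity) le_rfl (by linarith) hU (fun z hz p hp m y hy => by
      refine (dns_small hT hR hκ1 (by linarith) hij hjn hk' (by positivity) h1 hz _ _
        _).trans (ENNReal.ofReal_le_ofReal (le_of_eq ?_))
      have e : R ^ (-(B + Kv + 1)) = R ^ 4 * R ^ (-(B + Kv + 5)) := by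
        rw [← Real.rpow_natCast, ← Real.rpow_add hR0]
        congr 1
        push_cast
        ring
      rw [e]
      ring)
  have h2 := H M κ A K η0 C0 σ g R D hSs.toSt (L j) (hT.ok j hjn) k hk _ hB (fun z hz m _ y hy => by
    have h3 := h2 z hz m y hy
    rw [hT.rad j hjn]
    exact h3)
  refine h2.trans (ENNReal.ofReal_le_ofReal ?_)
  have h4 : √((L j).nb : ℝ) ≤ ν := by
    refine (Real.sqrt_le_sqrt (hT.le j hjn).2).trans ?_
    rw [Real.sqrt_le_left (by linarith)]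
    nlinarith
  have h5 : 0 ≤ R ^ (-T) * SS g R D := by
    have : 0 < R ^ (-T) := Real.rpow_pos_of_pos (by linarith) _
    unfold SS
    positivity
  exact mul_le_mul_of_nonneg_right (mul_le_mul_of_nonneg_left h4 (by linarith)) h5

end Crest.Agent.R116.TuY171
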