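import Crest.Agent.R116.TuZ0_373
import Crest.Agent.R116.TuF_373
import Crest.Agent.R116.TuP1_363
import Crest.Agent.R116.TuP3_890
import Crest.Agent.R116.TuN_171

/-!
# R116 (S0155), wave side: the tube rule for one quadruple of levels, non-tiny labels (helper373)
-/

set_option autoImplicit false

open MeasureTheory
open scoped ENNReal

namespace Crest.Agent.R116.TuZ373

open Crest.Agent.R138.Defs (E2)
open Crest.Agent.R138.Wpk685 (cen caps)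
open Crest.Agent.R116.CDef480 Crest.Agent.R116.WC188 Crest.Agent.R116.GlC210
open Crest.Agent.R116.TuG373 Crest.Agent.R116.TuC373 Crest.Agent.R116.TuD373
open Crest.Agent.R116.TuS363 (Cdat Uat Eat)
open Crest.Agent.R116.TuP363 (frame_one Lcc Ctu)
open Crest.Agent.R116.TuN171 (C3 numer_full)

theorem inv_dl_le {M κ q A A' a b Cn : ℝ} {K : ℕ} {η0 : ℝ} {C0 : E2} {σ : ℝ} {g : E3 → ℂ}
    {R dl ν : ℝ} {n : ℕ} {L : ℕ → Lev} (hR : 1 ≤ R) (hdl : 0 < dl) (hdl1 : dl ≤ 1)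
    (hT : Tow M κ q A A' a b Cn K η0 C0 σ g R dl ν n L) {x : ℝ} (hx : x ≤ n) :
    dl ^ (-x) ≤ R := by
  have hR0 : 0 < R := by linarith
  have h5 := rad_ge hR hT (le_refl n)
  have h6 : dl ^ (-(n : ℝ)) ≤ R := by
    rw [Real.rpow_neg hdl.le, Real.rpow_natCast, inv_le_iff_one_le_mul₀ (by positivity)]
    linarith
  exact le_trans (Real.rpow_le_rpow_of_exponent_ge hdl hdl1 (by linarith)) h6

/-- the constants of the tails. -/
theorem CGn_bound {A' G R Gw : ℝ} (hA' : 1 ≤ A') (hR : 1 ≤ R) (hGw : 0 ≤ Gw) (hG0 : 0 ≤ G)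
    (hG : G ≤ R ^ Gw) : CGn A' G ≤ 8 * A' ^ 3 * (2 * A' + 1) ^ 2 * R ^ (3 * Gw) := by
  have hR0 : 0 < R := by linarith
  have hR1 : 1 ≤ R ^ Gw := Real.one_le_rpow hR hGw
  have e : R ^ (3 * Gw) = (R ^ Gw) ^ 2 * R ^ Gw := by
    rw [← Real.rpow_natCast (R ^ Gw), ← Real.rpow_mul hR0.le, ← Real.rpow_add hR0]
    congr 1
    push_cast
    ring
  rw [e]
  unfold CGn
  have h1 : 2 * (A' * G) + 1 ≤ (2 * A' + 1) * R ^ Gw := by
    have : A' * G ≤ A' * R ^ Gw := mul_le_mul_of_nonneg_left hG (by linarith)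
    nlinarith
  have h2 : (2 * (A' * G) + 1) ^ 2 ≤ ((2 * A' + 1) * R ^ Gw) ^ 2 :=
    pow_le_pow_left₀ (by positivity) h1 2
  calc 8 * A' ^ 3 * (2 * (A' * G) + 1) ^ 2 * G
      ≤ 8 * A' ^ 3 * ((2 * A' + 1) * R ^ Gw) ^ 2 * R ^ Gw := by gcongr
    _ = _ := by ring

theorem Lcc_bound {CU ν R dl pu : ℝ} {Kv n h i j : ℕ} (hCU : 1 ≤ CU) (hR : 1 ≤ R) (hν : 1 ≤ ν)
    (hνR : ν ≤ R) (hpu0 : 0 ≤ pu) (hpu : pu ≤ 9 * R) (hdlR : ∀ x : ℝ, x ≤ n → dl ^ (-x) ≤ R)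
    (hdl : 0 < dl) (hjn : j ≤ n) (hhi : h < i) :
    Lcc (CU * ν ^ Kv) dl h i j (2 * pu) ≤ 5832 * CU * R ^ ((Kv : ℝ) + 2) := by
  have hR0 : 0 < R := by linarith
  have h1 : dl ^ (-(max 0 ((h : ℝ) + j - 2 * i))) ≤ R := by
    refine hdlR _ (max_le (Nat.cast_nonneg _) ?_)
    have h2 : (h : ℝ) < i := by exact_mod_cast hhi
    have h3 : (j : ℝ) ≤ n := by exact_mod_cast hjn
    have h4 : (0:ℝ) ≤ i := Nat.cast_nonneg _
    linarith
  have h0 : 0 ≤ dl ^ (-(max 0 ((h : ℝ) + j - 2 * i))) := Real.rpow_nonneg hdl.le _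
  have h2 : ν ^ Kv ≤ R ^ Kv := pow_le_pow_left₀ (by linarith) hνR Kv
  have e : R ^ ((Kv : ℝ) + 2) = R ^ Kv * (R * R) := by
    rw [Real.rpow_add hR0, Real.rpow_natCast]
    congr 1
    rw [← pow_two, ← Real.rpow_natCast]
    norm_num
  rw [e]
  unfold Lcc
  calc CU * ν ^ Kv * (324 * dl ^ (-(max 0 ((h : ℝ) + j - 2 * i))) * (2 * pu))
      ≤ CU * R ^ Kv * (324 * R * (2 * (9 * R))) := by gcongr
    _ = _ := by ring

open Classical in
/-- **main case**: both labels have class data. -/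
theorem main_case {M q : ℝ} (hq : 0 ≤ q) {a b A A' Cn M0 Gw ε T e1 CU CE CR CT T' : ℝ}
    {Kv Kn K n0 n Lw Ma : ℕ} {Kf : ℝ → ℝ} (hKf : ∀ R, Kf R = 8 * (28 + 15 * R ^ e1) ^ n0)
    (ha : 1 ≤ a) (hGw : 0 ≤ Gw) (hε : 0 < ε) (he1 : 0 ≤ e1) (he : ((n0 : ℝ) + 4) * e1 ≤ ε / 2)
    (hA' : 1 ≤ A') (hCn : 1 ≤ Cn) (hCU : 1 ≤ CU) (hCE : 1 ≤ CE) (hCR : 0 ≤ CR)
    (hT' : 3 * Gw + Kv + q + |M0| + 2 * |T| + 40 ≤ T')
    (hrow : ∀ (a b M0 κ A Cn : ℝ) (K : ℕ) (η0 : ℝ) (C0 : E2) (σ : ℝ) (g : E3 → ℂ) (R D : ℝ),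
      1 ≤ a → St M κ q a b M0 C0 σ g R D → 0 < κ → κ ≤ 1 → R ^ (-(1/16) : ℝ) ≤ κ →
      ∀ L : Lev, LevOk M κ q A A' a b Cn K η0 C0 σ g R L → ∀ k < L.n, ∀ w ∈ L.Z,
      ∀ s : ℝ, L.r ^ (-(1/2) : ℝ) ≤ s → s ≤ 1 → ∀ T' : ℝ, T' ≤ 2 * L.r →
      ∀ Kf : Finset (ℤ × ℤ),
      ∑ j ∈ Kf, ∫⁻ t in Set.Icc (-T') T', ∫⁻ x,
        (Cad538.Acc n0 (L.r ^ (-(1/2) : ℝ)) κ (L.r ^ (-(1/2) : ℝ)) (trc w g) (L.sl w k)
          (TuC373.Mk (L.r ^ (-(1/2) : ℝ)) s j) x t) ^ (3/2 : ℝ) ≤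
        ENNReal.ofReal (CR * L.r ^ (ε / 2) * s ^ (q / 2)) *
          (ENNReal.ofReal (L.r * √(L.D w k)) *
          enc (L.r ^ (-(1/2) : ℝ)) (trc w g) (L.sl w k)))
    (htail : ∀ (M κ A : ℝ) (K : ℕ) (η0 : ℝ) (C0 : E2) (σ : ℝ) (g : E3 → ℂ) (R D : ℝ),
      St M κ q a b M0 C0 σ g R D → ∀ L : Lev, LevOk M κ q A A' a b Cn K η0 C0 σ g R L →
      ∀ k < L.n, ∀ B : ℝ, 3 * Gw + ((Kv : ℝ) + 2) + 0 + 2 * (1 + q / 4) + |M0| + 2 * |T| + 20 ≤ B →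
      ∀ (ω : Type) (W : Finset ω) (Zc : ω → Finset (E3 × ℝ)), (W.card : ℝ) ≤ 1296 * R ^ (4 : ℝ) →
        (∀ w ∈ W, Zc w ⊆ L.Z) → ∀ (CG Lc al : ℝ) (τ0 τ1 Fc : ℝ≥0∞),
        0 ≤ CG → 0 ≤ Lc → 0 ≤ al → CG ≤ (8 * A' ^ 3 * (2 * A' + 1) ^ 2) * R ^ (3 * Gw) →
        Lc ≤ (5832 * CU) * R ^ ((Kv : ℝ) + 2) → al ≤ 1 * R ^ (0 : ℝ) * Enc g →
        τ0 ≤ ENNReal.ofReal ((CU + CE) * R ^ (-B) * Enc g) →
        τ1 ≤ ENNReal.ofReal ((CU + CE) * R ^ (-B) * Enc g) →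
        Fc ≤ ENNReal.ofReal (√Cn * R ^ (1 + q / 4)) →
        Fc * ∑ w ∈ W, (ENNReal.ofReal ((8 * CG * Lc * al) ^ (1/2 : ℝ)) *
            ((Zc w).card * ((caps (L.r ^ (-(1/2) : ℝ))).card * (ENNReal.ofReal L.r * τ1))) +
          (ENNReal.ofReal CG * τ0) ^ (1/2 : ℝ) *
            ∑ z ∈ Zc w, ∑ i ∈ L.I z k, ENNReal.ofReal L.r *
              enc (L.r ^ (-(1/2) : ℝ)) (trc z g) (L.P z k i).S) ≤
          ENNReal.ofReal (CT * (R ^ (-T) * SS g R D)))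
    {κ η0 : ℝ} {C0 : E2} {σ : ℝ} {g : E3 → ℂ} {R D : ℝ}
    (hSs : Ss M κ q a b M0 η0 C0 σ g R D) (hKp : Kp a R κ) {dl ν : ℝ} (hdl : 0 < dl)
    (hdl2 : dl ≤ 1/2) (hκ : κ ≤ dl ^ (4 * (Lw : ℝ))) (hν : 1 ≤ ν) (hνR : ν ≤ R) {L : ℕ → Lev}
    {ac : ℕ → ℕ → ℕ} (hT : Tow M κ q A A' a b Cn K η0 C0 σ g R dl ν n L)
    (hb : b ≤ 2) (hac : Acl (AT n0 n Ma Kf) κ η0 g R dl n L ac)
    {h i j l : ℕ} (hhi : h < i) (hij : i < j) (hjl : j < l) (hln : l ≤ n) (hl : l ≤ h + 4 * Lw)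
    {k : ℕ} (hk : k < (L j).n) (hnar : ¬ Wide dl Gw (L j).r ((L j).s k).2)
    (hU : Uat n0 κ g R dl (R ^ e1) L j i k (CU * ν ^ Kv) (ENNReal.ofReal (CU * R ^ (-T') * Enc g)))
    (hE : Eat n0 κ g R dl (R ^ e1) L j i k (CE * ν ^ Kn) (ENNReal.ofReal (CE * R ^ (-T') * Enc g)))
    (hE0 : 0 < Enc g)
    (hn1 : ¬ Tiny n Ma R i (ac j k)) (hn2 : ¬ Tiny n Ma R h (ac i (anc L j i k))) :
    (L j).S g k ≤ ENNReal.ofReal ((√Cn * CR * C3 n0 A' CE CU) * ν ^ (Kn + Kv + 1) *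
        R ^ ε * dl ^ (-((6 * Gw + 6) + (6 * Gw + 6) * (max 0 ((i : ℝ) + l - 2 * j) +
        max 0 ((h : ℝ) + j - 2 * i)) + q / 4 * ((l : ℝ) - j))) *
        (pT n Ma R dl h i j (ac i (anc L j i k)) / pT n Ma R dl i j l (ac j k)) ^ (1/2 : ℝ)) *
          (L i).S g (anc L j i k) + ENNReal.ofReal (CT * (R ^ (-T) * SS g R D)) := by
  have hR := hSs.R1
  have hR0 : 0 < R := by linarith
  have hdl1 : dl ≤ 1 := by linarith
  have hjn : j ≤ n := by omega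
  have hin : i ≤ n := by omega
  have hκ0 := hKp.k0
  have hκ1 : κ ≤ 1 := by linarith [hKp.k4]
  have hri := hT.rad i hin
  have hrj := hT.rad j hjn
  have hki : anc L j i k < (L i).n := TuP363.anc_lt hT hij.le hjn hk
  have hY : 0 ≤ R ^ e1 := Real.rpow_nonneg hR0.le _
  have hKf1 : 1 ≤ Kf R := by
    rw [hKf]
    have : (1:ℝ) ≤ (28 + 15 * R ^ e1) ^ n0 := one_le_pow₀ (by linarith)
    linarith
  have hC1 := cdat_of (n0 := n0) (Ma := Ma) ha hb hSs.toSt hκ1 hdl hdl1 hKf1 hT hac hij hjl hln hk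
    hn1
  have hC0 := cdat_of (n0 := n0) (Ma := Ma) ha hb hSs.toSt hκ1 hdl hdl1 hKf1 hT hac hhi hij
    (by omega) hki hn2
  have hp1 := pT_bound n Ma (R := R) (h := i) (i := j) (j := l) (x := ac j k) hdl hdl1 hjl
  have hp0 := pT_bound n Ma (R := R) (h := h) (i := i) (j := j) (x := ac i (anc L j i k)) hdl hdl1
    hij
  set pu := pT n Ma R dl h i j (ac i (anc L j i k)) with hpu
  set pl := pT n Ma R dl i j l (ac j k) with hpl
  have hal : 0 < A0 n Ma g R i (ac j k) := by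
    unfold A0; positivity
  set G : ℝ := dl ^ (-Gw) with hG
  have hG0 : 0 < G := Real.rpow_pos_of_pos hdl _
  have hGs : ((L j).s k).2 ≤ G * tht R dl j := by
    unfold Wide at hnar
    rw [tht_eq hT hjn] at hnar
    exact (not_le.1 hnar).le
  have hdlR : ∀ x : ℝ, x ≤ n → dl ^ (-x) ≤ R := fun x hx => inv_dl_le hR hdl hdl1 hT hx
  have hn3 : (1:ℝ) ≤ n := by
    have : 1 ≤ n := by omega
    exact_mod_cast this
  have hGR : G ≤ R ^ Gw := by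
    rw [hG, show -Gw = (-1) * Gw by ring, Real.rpow_mul hdl.le]
    exact Real.rpow_le_rpow (Real.rpow_nonneg hdl.le _) (hdlR 1 hn3) hGw
  have hCG0 : 0 ≤ CGn A' G := by unfold CGn; positivity
  have hCuν : 0 ≤ CU * ν ^ Kv := by positivity
  have hCeν : 0 ≤ CE * ν ^ Kn := by positivity
  have hpu9 : pu ≤ 9 * R := by
    refine hp0.2.trans (mul_le_mul_of_nonneg_left (hdlR _ ?_) (by norm_num))
    have h1 : (j : ℝ) ≤ n := by exact_mod_cast hjn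
    have h2 : (0:ℝ) ≤ i := Nat.cast_nonneg _
    linarith
  have hLc0 : 0 ≤ Lcc (CU * ν ^ Kv) dl h i j (2 * pu) := by
    unfold Lcc
    have : 0 ≤ dl ^ (-(max 0 ((h : ℝ) + j - 2 * i))) := Real.rpow_nonneg hdl.le _
    have := hp0.1
    positivity
  have hKeq : 8 * (28 + 15 * R ^ e1) ^ n0 ≤ Kf R := by rw [hKf]
  -- one frame
  have hcore : ∀ w ∈ (L i).Z, ∑ z ∈ (L j).Z.filter (fun z => pz L j i z = w),
      val κ g (L j).r ((L j).s k).1 ((L j).s k).2 ((L j).I z k) ((L j).P z k) ≤ _ :=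
    fun w _ => frame_one ha hSs hKp hT hdl hdl2 hκ hhi hij hjl hln hl hk (Y := R ^ e1)
      (K0 := Kf R) (by linarith : 0 < A') hG0 hGs hY hKeq hal (by linarith [hp1.1])
      (by linarith [hp0.1] : 0 ≤ 2 * pu) hCuν hCeν hC1 hC0 hU hE w
  have hrow' : ∀ w ∈ (L i).Z,
      (∑ c ∈ (caps (tht R dl j)).image (tau (tht R dl j) (sgm R dl i j l)),
          ∫⁻ t in Set.Icc (-(2 * (R * dl ^ i))) (2 * (R * dl ^ i)), ∫⁻ x,
            (Cad538.Acc n0 (tht R dl i) κ (tht R dl i) (trc w g) ((L i).sl w (anc L j i k))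
              (Mk (tht R dl i) (sgm R dl i j l) c) x t) ^ (3/2 : ℝ)) ≤
      ENNReal.ofReal (CR * (L i).r ^ (ε / 2) * sgm R dl i j l ^ (q / 2)) *
        (ENNReal.ofReal ((L i).r * √((L i).D w (anc L j i k))) *
          enc ((L i).r ^ (-(1/2) : ℝ)) (trc w g) ((L i).sl w (anc L j i k))) := by
    intro w hw
    have h1 := hrow a b M0 κ A Cn K η0 C0 σ g R D ha hSs.toSt hκ0 hκ1 hKp.kR (L i) (hT.ok i hin)
      (anc L j i k) hki w hw (sgm R dl i j l)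
      (by rw [tht_eq hT hin]
          exact (TuS363.tht_mono hR0 hdl hdl1 hij.le).trans
            (TuS363.tht_le_sgm hR0 hdl hdl1 hij.le hjl.le))
      ((TuD373.sgm_le R dl i j l).trans (TuS363.tht_le_one (rad_ge hR hT hln)))
      (2 * (R * dl ^ i)) (by rw [hri])
      ((caps (tht R dl j)).image (tau (tht R dl j) (sgm R dl i j l)))
    rw [tht_eq hT hin] at h1 ⊢
    exact h1
  have hsum := TuP890.sum_frames (hT.ok j hjn) (hT.ok i hin) hR hk hki (fun z => pz L j i z)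
    (fun z hz => TuS363.pz_mem' hT hij.le hjn hz)
    (by
      unfold Ctu
      have h1 : 0 ≤ Fm n0 (4 * R ^ e1 + 3 / 2) := Fm_nonneg n0 (by positivity)
      have h2 := hp1.1
      have h3 : 0 ≤ Kf R := by linarith
      positivity) hcore hrow'
  refine hsum.trans (add_le_add (mul_le_mul' (ENNReal.ofReal_le_ofReal ?_) le_rfl) ?_)
  · -- numerology
    have h1 := numer_full n0 Kn Kv (Gw := Gw) (q := q) (ε := ε / 2) (ε' := ε / 2) (e1 := e1)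
      (A := A') (Cc := CE) (Cu := CU) (Cn := Cn) (CK := CR) hGw hq he1 he (by positivity)
      (by linarith) (by linarith) (by linarith) (by linarith) hCR (R := R) (dl := dl) (ν := ν)
      (pu := pu) (pl := pl) (s := sgm R dl i j l) (s2 := ((L j).s k).2) (nb := (L j).nb)
      (ri := (L i).r) (h := h) (i := i) (j := j) (l := l) hR hdl hdl1 hν (by linarith [hp0.1])
      (by linarith [hp1.1]) (TuD373.sgm_pos hR0 hdl hdl1 hij.le hjl.le).le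
      (TuD373.sgm_le R dl i j l)
      (by
        have := (hT.ok j hjn).sd k hk
        rw [← tht_eq hT hjn]
        exact this.lo.trans this.le)
      ((hT.le j hjn).2) (by rw [hri]; positivity) ((hT.ok i hin).hi)
    rw [show ε / 2 + ε / 2 = ε by ring] at h1
    refine le_trans (le_of_eq ?_) h1
    unfold Ctu Lcc
    rw [hKf]
    have e1 : CU * ν ^ Kv * (324 * dl ^ (-(max 0 ((h : ℝ) + j - 2 * i))) * (2 * pu)) =
      CU * ν ^ Kv * 324 * dl ^ (-(max 0 ((h : ℝ) + j - 2 * i))) * 2 * pu := by ring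
    rw [e1]
  · -- tails
    refine htail M κ A K η0 C0 σ g R D hSs.toSt (L j) (hT.ok j hjn) k hk T' ?_ (E3 × ℝ) (L i).Z
      (fun w => (L j).Z.filter (fun z => pz L j i z = w))
      (TuL890.card_net' (TuL890.lev_r1 (hT.ok i hin) hR) (hT.ok i hin).hi (hT.ok i hin).net)
      (fun w _ => Finset.filter_subset _ _) (CGn A' G) (Lcc (CU * ν ^ Kv) dl h i j (2 * pu))
      (A0 n Ma g R i (ac j k)) _ _ _ hCG0 hLc0 hal.le (CGn_bound hA' hR hGw hG0.le hGR)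
      (Lcc_bound hCU hR hν hνR (by linarith [hp0.1]) hpu9 hdlR hdl hjn hhi) ?_ ?_ ?_ ?_
    · have := abs_nonneg M0
      linarith
    · rw [Real.rpow_zero, one_mul, one_mul]
      unfold A0
      refine div_le_self hE0.le (one_le_pow₀ (by norm_num))
    · refine ENNReal.ofReal_le_ofReal ?_
      have : 0 ≤ R ^ (-T') := Real.rpow_nonneg hR0.le _
      gcongr
      linarith
    · refine ENNReal.ofReal_le_ofReal ?_
      have : 0 ≤ R ^ (-T') := Real.rpow_nonneg hR0.le _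
      gcongr
      linarith
    · refine ENNReal.ofReal_le_ofReal ?_
      have hnb : ((L j).nb : ℝ) ≤ R := ((hT.le j hjn).2).trans hνR
      have h1 : √(Cn * (L j).nb) ≤ √Cn * R := by
        rw [Real.sqrt_mul (by linarith)]
        refine mul_le_mul_of_nonneg_left ?_ (Real.sqrt_nonneg _)
        rw [Real.sqrt_le_left hR0.le]
        nlinarith
      have h2 : ((L j).s k).2 ^ (-q / 2) ≤ R ^ (q / 4) := by
        have hsd := (hT.ok j hjn).sd k hk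
        exact TuT890.s2_pow hq (TuL890.lev_r1 (hT.ok j hjn) hR) (hT.ok j hjn).hi
          (hsd.lo.trans hsd.le)
      have h3 : R ^ (1 + q / 4) = R * R ^ (q / 4) := by
        rw [Real.rpow_add hR0, Real.rpow_one]
      rw [h3, ← mul_assoc]
      exact mul_le_mul h1 h2 (Real.rpow_nonneg (TuL890.lev_s_pos (hT.ok j hjn) hR hk).2.le _)
        (by positivity)

end Crest.Agent.R116.TuZ373
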