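import Crest.Agent.R116.TuZ_373
import Crest.Agent.R116.DcU4_894
import Crest.Agent.R116.Dch9_229

/-!
# The tube step from KMR alone (final form)
-/

namespace Crest.Agent.R116.TuZ373

/-- **W12**: the tube step, from the sliced square function estimate `KMR`. -/
theorem tube {M q : ℝ} (hq : 0 ≤ q) (hK : KMR890.KMR M q) : GlC210.TUBE M q :=
  tube_of hq hK (DcU894.usrc M q) (Dch229.esrc M q)

end Crest.Agent.R116.TuZ373
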