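import Crest.Agent.R116.TuZ1_373
import Crest.Agent.R116.TuY_171

/-!
# R116 (S0155), wave side: **TUBE** (helper373)

`tube_of : 0 ≤ q → KMR M q → USRC M q → ESRC M q → TUBE M q`.
-/

set_option autoImplicit false

open MeasureTheory
open scoped ENNReal

namespace Crest.Agent.R116.TuZ373

open Crest.Agent.R138.Defs (E2)
open Crest.Agent.R138.Wpk685 (cen caps)
open Crest.Agent.R116.CDef480 Crest.Agent.R116.WC188 Crest.Agent.R116.GlC210
open Crest.Agent.R116.TuG373 Crest.Agent.R116.TuC373 Crest.Agent.R116.TuD373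
open Crest.Agent.R116.TuN171 (C3)

/-- zero energy. -/
theorem S_zero {M κ q A A' a b Cn M0 : ℝ} {K : ℕ} {η0 : ℝ} {C0 : E2} {σ : ℝ} {g : E3 → ℂ}
    {R D : ℝ} {L : Lev} (ha : 1 ≤ a) (hb : b ≤ 2) (hSt : St M κ q a b M0 C0 σ g R D)
    (hL : LevOk M κ q A A' a b Cn K η0 C0 σ g R L) (k : ℕ) (hE : Enc g = 0) : L.S g k = 0 := by
  have hr := TuL890.lev_r1 hL hSt.R1
  unfold Lev.S
  refine Finset.sum_eq_zero fun z _ => ?_
  rw [Finset.sum_eq_zero fun i _ => ?_, mul_zero]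
  have h1 := TuL890.enc_le_Enc ha hb hSt
    (Real.rpow_pos_of_pos (by linarith : 0 < L.r) (-(1/2) : ℝ)) z (L.P z k i).S
  rw [hE, ENNReal.ofReal_zero] at h1
  exact le_antisymm h1 (zero_le)

theorem C3_nonneg {n0 : ℕ} {A' CE CU : ℝ} (hA : 0 ≤ A') (hE : 0 ≤ CE) (hU : 0 ≤ CU) :
    0 ≤ C3 n0 A' CE CU := by
  unfold C3 TuN171.C2
  positivity

set_option maxHeartbeats 1000000 in
/-- **TUBE**. -/
theorem tube_of {M q : ℝ} (hq : 0 ≤ q) (hKM : KMR890.KMR M q) (hU : USRC M q) (hE : ESRC M q) :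
    TUBE M q := by
  intro Gw hGw
  refine ⟨6 * Gw + 6, by positivity, ?_⟩
  intro n Lw a b A ε M0 T hRg
  have ha := hRg.a1
  have hb : b ≤ 2 := hRg.b2.le
  have hε := hRg.e0
  obtain ⟨nK, hrow⟩ := TuP890.row_tube hKM (ε / 2) (half_pos hε)
  obtain ⟨Kv, hU⟩ := hU n
  obtain ⟨Kn, hE⟩ := hE n
  set n0 : ℕ := max nK 4 with hn0
  set e1 : ℝ := ε / (2 * ((n0 : ℝ) + 4)) with he1
  have he10 : 0 < e1 := by positivity
  have he : ((n0 : ℝ) + 4) * e1 ≤ ε / 2 := by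
    rw [he1]
    refine le_of_eq ?_
    field_simp
  set T' : ℝ := 3 * Gw + Kv + q + |M0| + 2 * |T| + 40 with hT'
  have hRg' : Rg a b A e1 := ⟨hRg.a1, hRg.b0, hRg.b2, hRg.A1, he10⟩
  obtain ⟨K1, hU⟩ := hU Lw n0 a b A e1 M0 T' hRg' (le_max_right _ _)
  obtain ⟨K2, hE⟩ := hE Lw n0 a b A e1 M0 T' hRg' (le_max_right _ _)
  set Ma : ℕ := ⌈T' + 2 * Kv + 6⌉₊ with hMa
  have hMa' : T' + 2 * Kv + 6 ≤ (Ma : ℝ) := Nat.le_ceil _
  set Kf : ℝ → ℝ := fun R => 8 * (28 + 15 * R ^ e1) ^ n0 with hKf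
  refine ⟨Kn + Kv + 1, fun R => BR Ma R ^ (n * (n + 1)), AT n0 n Ma Kf,
    fun R dl h i j x => pT n Ma R dl h i j x, 9, by norm_num, AT_ok n0 n Ma Kf M q ha b M0,
    fun R dl h i j x h1 h2 _ h4 => pT_bound n Ma h1 h2 h4, max K1 K2, ?_⟩
  intro K hK A' Cn hA' hCn
  obtain ⟨CU, hCU, hU⟩ := hU K ((le_max_left _ _).trans hK) A' Cn hA' hCn
  obtain ⟨CE, hCE, hE⟩ := hE K ((le_max_right _ _).trans hK) A' Cn hA' hCn
  obtain ⟨CR, hCR, hrow⟩ := hrow n0 (le_max_left _ _) A' 2 (by linarith) (by norm_num)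
  obtain ⟨CT, hCT, htail⟩ := TuT890.core_tails q a b A' Cn M0 T
    (8 * A' ^ 3 * (2 * A' + 1) ^ 2) (5832 * CU) 1 (CU + CE) (√Cn) (3 * Gw) ((Kv : ℝ) + 2) 0
    (1 + q / 4) ha hb (by positivity) (by positivity) zero_le_one (by positivity)
    (Real.sqrt_nonneg _) (by positivity) (by positivity) le_rfl (by positivity)
  obtain ⟨Ct1, hCt1, ht1⟩ := TuY171.tiny1 q a b A' Cn M0 T CU Kv ha hb hq hA' hCn (by linarith)
  obtain ⟨Ct2, hCt2, ht2⟩ := TuY171.tiny2 q a b A' Cn M0 T CU Kv ha hb hq hA' hCn (by linarith)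
  have hC3 : 0 ≤ √Cn * CR * C3 n0 A' CE CU :=
    mul_nonneg (mul_nonneg (Real.sqrt_nonneg _) hCR)
      (C3_nonneg (by linarith) (by linarith) (by linarith))
  set C : ℝ := 2 + CU + CE + CT + Ct1 + Ct2 + √Cn * CR * C3 n0 A' CE CU with hC
  refine ⟨C, by linarith, ?_⟩
  intro κ η0 C0 σ g R D hSs hKp hCR' dl ν hdl hCdl hdlR hκ hν hνR L ac hT hac h i j l hh hhi hij hjl
    hln hl k hk hnar
  have hR := hSs.R1
  have hR0 : 0 < R := by linarith
  have hCpos : 0 < C := by linarith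
  have hdl2 : dl ≤ 1 / 2 := by
    have : 2 * dl ≤ C * dl := mul_le_mul_of_nonneg_right (by linarith) hdl.le
    linarith
  have hCUdl : CU * dl ≤ 1 :=
    le_trans (mul_le_mul_of_nonneg_right (by linarith) hdl.le) hCdl
  have hCEdl : CE * dl ≤ 1 :=
    le_trans (mul_le_mul_of_nonneg_right (by linarith) hdl.le) hCdl
  have hjn : j ≤ n := by omega
  have hin : i ≤ n := by omega
  have hki : anc L j i k < (L i).n := TuP363.anc_lt hT hij.le hjn hk
  have hSS : 0 ≤ SS g R D := by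
    unfold SS
    have := Enc_nonneg g
    positivity
  have hRT : 0 ≤ R ^ (-T) := Real.rpow_nonneg hR0.le _
  have hνp : ν ≤ ν ^ (Kn + Kv + 1) := by
    calc ν = ν ^ 1 := (pow_one ν).symm
      _ ≤ _ := pow_le_pow_right₀ hν (by omega)
  have hν1 : 1 ≤ ν ^ (Kn + Kv + 1) := one_le_pow₀ hν
  rcases (Enc_nonneg g).eq_or_lt with hE0 | hE0
  · rw [S_zero ha hb hSs.toSt (hT.ok j hjn) k hE0.symm]
    exact zero_le
  have hUij := hU κ η0 C0 σ g R D hSs hKp (by linarith) dl ν hdl hCUdl hκ hν hνR L hT i j k hij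
    hjn (by omega) hk
  have hUhi := hU κ η0 C0 σ g R D hSs hKp (by linarith) dl ν hdl hCUdl hκ hν hνR L hT h i
    (anc L j i k) hhi hin (by omega) hki
  have hEij := hE κ η0 C0 σ g R D hSs hKp (by linarith) dl ν hdl hCEdl hκ hν hνR L hT i j k hij
    hjn (by omega) hk
  have hqn : 0 ≤ q := hq
  have hKvn : (0:ℝ) ≤ Kv := Nat.cast_nonneg _
  -- tiny labels
  have htiny : ∀ c : ℝ, 1 ≤ c → c ≤ C →
      (L j).S g k ≤ ENNReal.ofReal (c * ν * (R ^ (-T) * SS g R D)) →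
      (L j).S g k ≤ ENNReal.ofReal (C * ν ^ (Kn + Kv + 1) * R ^ ε *
          dl ^ (-((6 * Gw + 6) + (6 * Gw + 6) * (max 0 ((i : ℝ) + l - 2 * j) +
            max 0 ((h : ℝ) + j - 2 * i)) + q / 4 * ((l : ℝ) - j))) *
          (pT n Ma R dl h i j (ac i (anc L j i k)) / pT n Ma R dl i j l (ac j k)) ^ (1 / 2 : ℝ)) *
            (L i).S g (anc L j i k) +
          ENNReal.ofReal (C * ν ^ (Kn + Kv + 1) * R ^ (-T) * SS g R D) := by
    intro c hc1 hcC hS
    refine hS.trans (le_trans (ENNReal.ofReal_le_ofReal ?_) le_add_self)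
    calc c * ν * (R ^ (-T) * SS g R D) ≤ C * ν ^ (Kn + Kv + 1) * (R ^ (-T) * SS g R D) := by
          gcongr
      _ = _ := by ring
  by_cases hn1 : Tiny n Ma R i (ac j k)
  · refine htiny Ct1 hCt1 (by linarith) ?_
    refine ht1 M κ A K η0 C0 σ g R D dl ν n L n0 (R ^ e1) i j k hSs hKp hT hdl hdl2 hν hνR hij hjn
      hk Ma T' (by linarith) (by linarith) hUij ?_
    intro z hz p hp m y hy
    exact tiny_of ha hb hSs.toSt (by linarith [hKp.k4]) hT hac hij hjn hk hn1 hz hp hy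
  by_cases hn2 : Tiny n Ma R h (ac i (anc L j i k))
  · refine htiny Ct2 hCt2 (by linarith) ?_
    refine ht2 M κ A K η0 C0 σ g R D dl ν n L n0 (R ^ e1) h i j k hSs hKp hT hdl hdl2 hν hνR hhi
      hij hjn hk Ma T' (by linarith) (by linarith) hUij hUhi ?_
    intro z hz p hp m y hy
    exact tiny_of ha hb hSs.toSt (by linarith [hKp.k4]) hT hac hhi hin hki hn2 hz hp hy
  -- main case
  have hmain := main_case (M := M) (q := q) hq (a := a) (b := b) (A := A) (A' := A') (Cn := Cn)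
    (M0 := M0) (Gw := Gw) (ε := ε) (T := T) (e1 := e1) (CU := CU) (CE := CE) (CR := CR) (CT := CT)
    (T' := T') (Kv := Kv) (Kn := Kn) (K := K) (n0 := n0) (n := n) (Lw := Lw) (Ma := Ma) (Kf := Kf)
    (fun R => rfl) ha hGw hε he10.le he hA' hCn hCU hCE hCR le_rfl hrow htail hSs hKp hdl hdl2 hκ
    hν hνR hT hb hac hhi hij hjl hln hl hk hnar hUij hEij hE0 hn1 hn2
  refine hmain.trans (add_le_add (mul_le_mul' (ENNReal.ofReal_le_ofReal ?_) le_rfl)
    (ENNReal.ofReal_le_ofReal ?_))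
  · have hp1 := pT_bound n Ma (R := R) (h := i) (i := j) (j := l) (x := ac j k) hdl
      (by linarith) hjl
    have hp0 := pT_bound n Ma (R := R) (h := h) (i := i) (j := j) (x := ac i (anc L j i k)) hdl
      (by linarith) hij
    have h1 : 0 ≤ (pT n Ma R dl h i j (ac i (anc L j i k)) / pT n Ma R dl i j l (ac j k)) ^
        (1 / 2 : ℝ) :=
      Real.rpow_nonneg (div_nonneg (by linarith [hp0.1]) (by linarith [hp1.1])) _
    have h2 : √Cn * CR * C3 n0 A' CE CU ≤ C := by linarith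
    gcongr
  · calc CT * (R ^ (-T) * SS g R D) = CT * 1 * (R ^ (-T) * SS g R D) := by ring
      _ ≤ C * ν ^ (Kn + Kv + 1) * (R ^ (-T) * SS g R D) := by
          have : CT ≤ C := by linarith
          gcongr
      _ = _ := by ring

end Crest.Agent.R116.TuZ373
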