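import Crest.Agent.R136.PqG2_464
import Crest.Agent.R116.KIDef_439

/-!
# R116, K10 (helper468), part 1: the field `gH` of `PreQ` for the light-ray test sets

* `valW q ρ x` : value of a test set over a cell of length `ρ`, absolute widths `x 0` (wide), `x 1`
  (thin).
* `vm_eqW`, `valW_mono` : the values of the marks are monomials in the widths.
* `gH_L` : the field `gH`, normalisation `N0 n = A n * vm n 0 * d^(-(1-s))`, exponent `EL`.
* `geoL_val` : 794's `geo` over 439's `TSL` has these values.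
-/

set_option autoImplicit false
set_option linter.unusedVariables false

open Finset Filter Topology

namespace Crest.Agent.R116.Tw468

open Crest.Agent.R138
open Crest.Agent.R138.Ex926 (Base U)
open Crest.Agent.R138.Mk163 (zc zl rho alive)
open Crest.Agent.R138.MkRef627 (mem_alive)
open Crest.Agent.R136
open Crest.Agent.R136.MkA627
open Crest.Agent.R136.ArgA163 (monoW)
open Crest.Agent.R136.PqG464 (gH_mono N0_pos)
open Crest.Agent.R116.KI439
open Crest.Agent.R116.Xa794 (TS geo)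

/-- value of a test set over a cell of length `ρ` with absolute widths `x`: `W³ a / ρ` times the
rewards. -/
noncomputable def valW (q : Fin 2 → ℝ) (ρ : ℝ) (x : Fin 2 → ℝ) : ℝ :=
  x 1 * x 0 ^ 3 / ρ * ((x 0 / ρ) ^ q 0 * (x 1 / ρ) ^ q 1)

/-- exponents of the widths in `valW` -/
noncomputable def axL (q : Fin 2 → ℝ) : Fin 2 → ℝ := ![3 + q 0, 1 + q 1]

/-- exponent of `ρ` in `valW` -/
noncomputable def arL (q : Fin 2 → ℝ) : ℝ := -(1 + q 0 + q 1)

/-- exponent of the number of incidences in the marked classes -/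
noncomputable def EL (θ : Fin 2 → ℝ) (g s : ℝ) (q : Fin 2 → ℝ) (u : ℝ) : ℝ :=
  (g - (1 - s)) * u - (3 - (3 + q 0) * θ 0 - (1 + q 1) * θ 1) * u

theorem valW_eq (q : Fin 2 → ℝ) {ρ : ℝ} (hρ : 0 < ρ) {x : Fin 2 → ℝ} (hx : ∀ k, 0 < x k) :
    valW q ρ x = (∏ k, x k ^ axL q k) * ρ ^ arL q := by
  have h0 := hx 0
  have h1 := hx 1
  rw [Fin.prod_univ_two]
  simp only [axL, arL, valW, Matrix.cons_val_zero, Matrix.cons_val_one]
  rw [Real.div_rpow h0.le hρ.le, Real.div_rpow h1.le hρ.le, Real.rpow_add h0, Real.rpow_add h1,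
    Real.rpow_neg hρ.le, Real.rpow_add hρ, Real.rpow_add hρ, Real.rpow_one, Real.rpow_one]
  have h3 : x 0 ^ (3 : ℝ) = x 0 ^ 3 := by
    rw [← Real.rpow_natCast]; norm_num
  rw [h3]
  have p0 : 0 < ρ ^ q 0 := Real.rpow_pos_of_pos hρ _
  have p1 : 0 < ρ ^ q 1 := Real.rpow_pos_of_pos hρ _
  field_simp

variable {σ : Type*} {B : Base} {I : ℕ → Finset (ℕ × ℝ)} {G : Geo σ (Fin 2)} {lev : ℕ → ℚ → ℕ}
    {A : ℕ → ℝ} {g s : ℝ} {θ : Fin 2 → ℝ} {f : ℕ → ℚ → ℕ → ℤ → ℕ} {b : ℕ → ℚ → ℕ → σ}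
    {vm : ℕ → ℚ → ℝ} {w : Fin 2 → ℕ → ℚ → ℝ} {q : Fin 2 → ℝ}

/-- the values of the marks -/
theorem vm_eqW {c Λ : ℝ → ℝ} {τ : Fin 2 → ℝ → ℝ} (h : MkA B I G lev A c Λ τ f b vm w)
    (hval : ∀ n i J t, G.adm n i J t → G.val n i J t = valW q (rho i) fun k => G.wid k t) {v : ℚ}
    (h0 : 0 ≤ v) (h1 : v ≤ 1) :
    ∀ᶠ n in (U : Filter ℕ), vm n v = valW q (rho (lev n v)) fun k => w k n v := by
  filter_upwards [h.mark v h0 h1, h.ne] with n hn hne
  obtain ⟨x, hx⟩ := hne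
  have hal : x.1 ∈ alive (I n) (lev n v) (zc (lev n v) x.2) := mem_alive.2 ⟨x, hx, rfl, rfl⟩
  obtain ⟨h2, h3, h4, h5⟩ := hn _ _ hal
  rw [← h4, hval _ _ _ _ h3]
  congr 1
  funext k
  exact h5 k

/-- ... are monomials in the widths -/
theorem vm_monoW {c Λ : ℝ → ℝ} {τ : Fin 2 → ℝ → ℝ} (h : MkA B I G lev A c Λ τ f b vm w)
    (hval : ∀ n i J t, G.adm n i J t → G.val n i J t = valW q (rho i) fun k => G.wid k t) (v : ℚ)
    (h0 : 0 ≤ v) (h1 : v ≤ 1) :
    ∀ᶠ n in (U : Filter ℕ), vm n v = monoW lev w (axL q) (arL q) n v := by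
  filter_upwards [vm_eqW h hval h0 h1, Filter.eventually_all.2 fun k => h.wpos k v h0 h1]
    with n h2 h3
  rw [h2, valW_eq q (by unfold rho; positivity) h3]
  rfl

/-- **the field `gH`** of the light-ray chart. -/
theorem gH_L
    (h : MkA B I G lev A (fun v => g * v) (fun v => s * v) (fun j v => θ j * (1 - v)) f b vm w)
    (hval : ∀ n i J t, G.adm n i J t → G.val n i J t = valW q (rho i) fun k => G.wid k t) (u : ℚ)
    (h0 : 0 ≤ u) (h1 : u ≤ 1) :
    Tendsto (fun n => Real.log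
      (ampA B A (fun v => g * v) n u * vm n u * B.d n ^ (-((1 - s) * (1 - u))) /
        (A n * vm n 0 * B.d n ^ (-(1 - s)))) / B.L n) U (𝓝 (EL θ g s q u)) := by
  have h2 := gH_mono h (a := axL q) (a₀ := arL q) (vm_monoW h hval) u h0 h1
  have e1 : (g - (1 - s)) * (u : ℝ) - (∑ k, axL q k * (1 - θ k) + arL q) * u = EL θ g s q u := by
    rw [Fin.sum_univ_two]
    simp only [axL, arL, EL, Matrix.cons_val_zero, Matrix.cons_val_one]
    ring
  rw [e1] at h2
  exact h2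

/-- the normalisation is positive -/
theorem N0_L
    (h : MkA B I G lev A (fun v => g * v) (fun v => s * v) (fun j v => θ j * (1 - v)) f b vm w) :
    ∀ᶠ n in (U : Filter ℕ), 0 < A n * vm n 0 * B.d n ^ (-(1 - s)) :=
  N0_pos h (V := fun n => vm n 0) (h.vpos 0 le_rfl zero_le_one)

/-- **the values of 794's `geo` over 439's classes `TSL`.** -/
theorem geoL_val (T : ℕ → TS LRay (Fin 2) LZg725.Mem) (hT : ∀ n, ∃ r : ℝ, T n = TSL r)
    (q : Fin 2 → ℝ) (L : ℕ → ℕ → LRay) (n i : ℕ) (J : ℤ) (t : (Fin 2 → ℕ) × LZg725.Mem) :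
    (geo T q L).val n i J t = valW q (rho i) fun k => (geo T q L).wid k t := by
  obtain ⟨r, hr⟩ := hT n
  have key : ∀ (m : ℕ) (r : ℝ), ((1 / 2 : ℝ) ^ m / rho i) ^ r = (2 : ℝ) ^ (-(r * ((m : ℝ) - i))) := by
    intro m r
    have : (1 / 2 : ℝ) ^ m / rho i = (2 : ℝ) ^ (-((m : ℝ) - i)) := by
      unfold rho
      rw [neg_sub, Real.rpow_sub (by norm_num), Real.rpow_natCast, Real.rpow_natCast]
      rw [one_div_pow]
      field_simp
    rw [this, ← Real.rpow_mul (by norm_num)]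
    congr 1; ring
  show (T n).cap q i t.1 = _
  unfold TS.cap valW
  rw [hr]
  show volL i t.1 * _ = _
  unfold volL geo
  simp only
  rw [key, key, ← Real.rpow_add (by norm_num), Fin.sum_univ_two, pow_add, pow_mul']
  unfold rho
  rw [show -(q 0 * ((t.1 0 : ℝ) - i)) + -(q 1 * ((t.1 1 : ℝ) - i)) =
    -(q 0 * ((t.1 0 : ℝ) - i) + q 1 * ((t.1 1 : ℝ) - i)) by ring]
  rw [div_div_eq_mul_div, div_one]
  ring

end Crest.Agent.R116.Tw468
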