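import Crest.Agent.R136.TD3_627

/-!
# R116, K10 (helper468), part 2: properties of the marks which survive all windows

The windows of 627's second zoom (`NatT`) are diagonal: facts of the form "for every rational level,
eventually in `n`" do not pass to them, except the fields of `MkA`.  Trick: the test sets get a Boolean
label, the test sets labelled `true` (the marks) have to be good (`Gd`), those labelled `false` are
arbitrary; so D-max is still known for all test sets, and the marks of every window are good.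

* `flagG`, `mka_flag`, `mka_unflag`, `tsys_flag`, `tsys_unflag`.
* `NatG` = `NatT` + good marks, `natG_of`.
-/

set_option autoImplicit false
set_option linter.unusedVariables false

open Finset Filter Topology

namespace Crest.Agent.R116.Tw468

open Crest.Agent.R138.Ex926 (Base U)
open Crest.Agent.R138.Mk163 (zc zl rho alive)
open Crest.Agent.R136.MkA627
open Crest.Agent.R136.TD627

variable {σ κ φ : Type*} {m : ℕ}

/-- test sets with a label; the test sets labelled `true` are good. -/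
def flagG (G : Geo σ κ) (Gd : ℕ → ℕ → ℤ → σ → Prop) : Geo (Bool × σ) κ where
  mem := fun n i J s t => G.mem n i J s.2 t
  adm := fun n i J s => G.adm n i J s.2 ∧ (s.1 = true → Gd n i J s.2)
  val := fun n i J s => G.val n i J s.2
  wid := fun k s => G.wid k s.2

section mka

variable {B : Base} {I : ℕ → Finset (ℕ × ℝ)} {G : Geo σ κ} {lev : ℕ → ℚ → ℕ}
    {A : ℕ → ℝ} {c Λ : ℝ → ℝ} {τ : κ → ℝ → ℝ} {f : ℕ → ℚ → ℕ → ℤ → ℕ}
    {b : ℕ → ℚ → ℕ → σ} {vm : ℕ → ℚ → ℝ} {w : κ → ℕ → ℚ → ℝ} {Gd : ℕ → ℕ → ℤ → σ → Prop}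

/-- all marks are good -/
def GoodM (I : ℕ → Finset (ℕ × ℝ)) (lev : ℕ → ℚ → ℕ) (f : ℕ → ℚ → ℕ → ℤ → ℕ)
    (b : ℕ → ℚ → ℕ → σ) (Gd : ℕ → ℕ → ℤ → σ → Prop) : Prop :=
  ∀ v : ℚ, 0 ≤ v → v ≤ 1 → ∀ᶠ n in (U : Filter ℕ), ∀ J : ℤ, ∀ t ∈ alive (I n) (lev n v) J,
    Gd n (lev n v) J (b n v (f n v t J))

theorem mka_flag (h : MkA B I G lev A c Λ τ f b vm w) (hg : GoodM I lev f b Gd) :
    MkA B I (flagG G Gd) lev A c Λ τ f (fun n v a => (true, b n v a)) vm w where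
  ne := h.ne
  card := h.card
  Apos := h.Apos
  c0 := h.c0
  lam0 := h.lam0
  lam := h.lam
  tau1 := h.tau1
  lev_mono := h.lev_mono
  lev_lim := h.lev_lim
  cell0 := h.cell0
  one := h.one
  own := h.own
  dmax := fun v h0 h1 ε hε => by
    filter_upwards [h.dmax v h0 h1 ε hε] with n hn J s hs using hn J s.2 hs.1
  mark := fun v h0 h1 => by
    filter_upwards [h.mark v h0 h1, hg v h0 h1] with n hn hn2 J t ht
    obtain ⟨a1, a2, a3, a4⟩ := hn J t ht
    exact ⟨a1, ⟨a2, fun _ => hn2 J t ht⟩, a3, a4⟩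
  near := h.near
  vpos := h.vpos
  wpos := h.wpos
  tau := h.tau

theorem mka_unflag
    (h : MkA B I (flagG G Gd) lev A c Λ τ f (fun n v a => (true, b n v a)) vm w) :
    MkA B I G lev A c Λ τ f b vm w where
  ne := h.ne
  card := h.card
  Apos := h.Apos
  c0 := h.c0
  lam0 := h.lam0
  lam := h.lam
  tau1 := h.tau1
  lev_mono := h.lev_mono
  lev_lim := h.lev_lim
  cell0 := h.cell0
  one := h.one
  own := h.own
  dmax := fun v h0 h1 ε hε => by
    filter_upwards [h.dmax v h0 h1 ε hε] with n hn J s hs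
    exact hn J (false, s) ⟨hs, fun h => absurd h (by simp)⟩
  mark := fun v h0 h1 => by
    filter_upwards [h.mark v h0 h1] with n hn J t ht
    obtain ⟨a1, a2, a3, a4⟩ := hn J t ht
    exact ⟨a1, a2.1, a3, a4⟩
  near := h.near
  vpos := h.vpos
  wpos := h.wpos
  tau := h.tau

theorem goodM_unflag
    (h : MkA B I (flagG G Gd) lev A c Λ τ f (fun n v a => (true, b n v a)) vm w) :
    GoodM I lev f b Gd := by
  intro v h0 h1
  filter_upwards [h.mark v h0 h1] with n hn J t ht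
  exact (hn J t ht).2.1.2 rfl

end mka

section tsys

variable {P : TDist φ m} {G : Geo σ κ} {g s : ℝ} {θ : κ → ℝ} {β C0 : Fin m → ℝ}
    {B : Base} {I : ℕ → Finset (ℕ × ℝ)} {lev : ℕ → ℚ → ℕ} {A : ℕ → ℝ}
    {f : ℕ → ℚ → ℕ → ℤ → ℕ} {b : ℕ → ℚ → ℕ → σ} {vm : ℕ → ℚ → ℝ} {w : κ → ℕ → ℚ → ℝ}
    {fr : ℕ → ℚ → ℕ × ℝ → φ} {pr : Fin m → ℕ → ℚ → ℝ} {fl : ℕ → ℕ × ℝ → φ} {sc : Fin m → ℕ → ℝ}
    {Gd : ℕ → ℕ → ℤ → σ → Prop}

theorem tsys_flag (h : TSys P G g s θ β B I lev A f b vm w fr pr fl sc)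
    (hg : GoodM I lev f b Gd) :
    TSys P (flagG G Gd) g s θ β B I lev A f (fun n v a => (true, b n v a)) vm w fr pr fl sc where
  mka := mka_flag h.mka hg
  scpos := h.scpos
  prpos := h.prpos
  prc := h.prc
  cell := h.cell
  close := h.close
  wpr := h.wpr

theorem tsys_unflag
    (h : TSys P (flagG G Gd) g s θ β B I lev A f (fun n v a => (true, b n v a)) vm w fr pr fl
      sc) : TSys P G g s θ β B I lev A f b vm w fr pr fl sc where
  mka := mka_unflag h.mka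
  scpos := h.scpos
  prpos := h.prpos
  prc := h.prc
  cell := h.cell
  close := h.close
  wpr := h.wpr

/-- output of the second zoom, with good marks. -/
def NatG (P : TDist φ m) (G : Geo σ κ) (g s : ℝ) (θ : κ → ℝ) (β C0 : Fin m → ℝ)
    (fl : ℕ → ℕ × ℝ → φ) (B : Base) (I : ℕ → Finset (ℕ × ℝ)) (lev : ℕ → ℚ → ℕ)
    (f : ℕ → ℚ → ℕ → ℤ → ℕ) (b : ℕ → ℚ → ℕ → σ) (vm : ℕ → ℚ → ℝ) (w : κ → ℕ → ℚ → ℝ)
    (fr : ℕ → ℚ → ℕ × ℝ → φ) (pr : Fin m → ℕ → ℚ → ℝ) (Gd : ℕ → ℕ → ℤ → σ → Prop) : Prop :=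
  ∃ (H : ℕ → ℝ) (mm : ℕ → ℚ → ℚ) (B' : Base) (I' : ℕ → Finset (ℕ × ℝ)) (A' : ℕ → ℝ)
    (sc' : Fin m → ℕ → ℝ), (∀ n, 0 < H n ∧ H n ≤ 1) ∧
    (∀ n, ∀ x : ℚ, 0 ≤ x → x ≤ 1 → 0 ≤ mm n x ∧ mm n x ≤ 1) ∧
    (∀ n, ∀ x y : ℚ, (mm n y : ℝ) - mm n x = H n * ((y : ℝ) - x)) ∧
    (∀ n, B'.d n = B.d n ^ H n) ∧ (∀ᶠ n in (U : Filter ℕ), I' n ⊆ I n) ∧
    TSys P G g s θ β B' I' (fun n x => lev n (mm n x)) A' (fun n x => f n (mm n x))
      (fun n x => b n (mm n x)) (fun n x => vm n (mm n x)) (fun j n x => w j n (mm n x))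
      (fun n x => fr n (mm n x)) (fun j n x => pr j n (mm n x)) fl sc' ∧
    Slack P β B' sc' ∧
    (∀ j, InvT P B' I' j fl (sc' j) ∨
      (0 < β j ∧ RotT P B' I' (fun n x => lev n (mm n x)) j fl (sc' j) (C0 j) (fun u => β j * u)) ∨
      (0 < β j ∧ ∃ a ∈ P.M.mon j, ∑ t, (a t : ℝ) * β t = β j ∧
        ∀ t, a t ≠ 0 → ¬ InvT P B' I' t fl (sc' t))) ∧
    GoodM I' (fun n x => lev n (mm n x)) (fun n x => f n (mm n x)) (fun n x => b n (mm n x)) Gd

/-- **second zoom with good marks**, from any theorem which gives `NatT` for all systems with the same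
flags. -/
theorem natG_of (hn : NatT P (flagG G Gd) g s θ β C0 fl B I lev f (fun n v a => (true, b n v a)) vm w
      fr pr) : NatG P G g s θ β C0 fl B I lev f b vm w fr pr Gd := by
  obtain ⟨H, mm, B', I', A', sc', h1, h2, h3, h4, h5, h6, h7, h8⟩ := hn
  exact ⟨H, mm, B', I', A', sc', h1, h2, h3, h4, h5, tsys_unflag h6, h7, h8, goodM_unflag h6.mka⟩

/-- **`TSys.natT` with good marks** -/
theorem natG [Countable κ] (h : TSys P G g s θ β B I lev A f b vm w fr pr fl sc)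
    (hβ : ∀ j, InvT P B I j fl (sc j) ∨ 0 < β j) (hC : ∀ j, β j ≤ C0 j)
    (hg : GoodM I lev f b Gd) : NatG P G g s θ β C0 fl B I lev f b vm w fr pr Gd :=
  natG_of ((tsys_flag h hg).natT hβ hC)

end tsys

end Crest.Agent.R116.Tw468
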