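import Crest.Agent.R116.Tw1_468
import Crest.Agent.R116.Tw2_468
import Crest.Agent.R116.Gd6_222
import Crest.Agent.R116.KF3_439
import Crest.Agent.R116.Rl5_899

/-!
# R116, K10 (helper468), part 3: static range of the test sets, range and thinness in the windows

* `InW X Lo K n a` : the dyadic absolute widths `a` are within `e^(±K Lo)` of `X`.
* `AdmS G X Lo l0 l1 K` : every member of constant `2 kD` in the range, over a cell of level in
  `[l0 n, l1 n]`, is admissible (`admS_of`).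
* `goodM_init` : the marks of a sequence are in the range (constant `|θ| + 3`).
* **`admR_of_static`** : 222's `AdmR` in every window of a sequence with good marks.
* `STh`, `thin_of_static` : thinness in every window.
-/

set_option autoImplicit false
set_option linter.unusedVariables false

open Finset Filter Topology

namespace Crest.Agent.R116.Tw468

open Crest.Agent.R138.Ex926 (Base U)
open Crest.Agent.R138.Mk163 (zc zl rho alive own)
open Crest.Agent.R138.MkRef627 (lc kc mem_alive)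
open Crest.Agent.R138.Dp76 (dpow_pos dpow_add dpow_le)
open Crest.Agent.R138.ArgM163 (log_dpow)
open Crest.Agent.R136.MkA627
open Crest.Agent.R116.LZg725
open Crest.Agent.R116.ChL222
open Crest.Agent.R116.PL504 (ev_len ev_ang ps ps_pos ps_eq)
open Crest.Agent.R116.Gd222 (TSet AdmR sN sN_pos)
open Crest.Agent.R116.KI439
open Crest.Agent.R116.KF439 (Thin Thick)

/-! ### logarithms -/

theorem rho_pos3 (i : ℕ) : 0 < rho i := by unfold rho; positivity

/-- two-sided bound of a logarithm -/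
theorem abs_log_le (B : Base) {n : ℕ} {x a b C : ℝ} (hx : 0 < x) (h1 : B.d n ^ a ≤ x)
    (h2 : x ≤ B.d n ^ b) (ha : a ≤ C) (hb : -C ≤ b) : |Real.log x| ≤ C * B.L n := by
  have hL := B.L_pos n
  have e1 := Real.log_le_log (dpow_pos B n a) h1
  have e2 := Real.log_le_log hx h2
  rw [log_dpow] at e1 e2
  rw [abs_le]
  constructor
  · nlinarith
  · nlinarith

/-- the converse -/
theorem of_abs_log (B : Base) {n : ℕ} {x y K R : ℝ} (hx : 0 < x) (hy : 0 < y) (hK : K ≤ R)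
    (h : |Real.log (y / x)| ≤ K * B.L n) : B.d n ^ R * x ≤ y ∧ y ≤ B.d n ^ (-R) * x := by
  have hL := B.L_pos n
  rw [abs_le] at h
  have h1 : K * B.L n ≤ R * B.L n := mul_le_mul_of_nonneg_right hK hL.le
  constructor
  · rw [← le_div_iff₀ hx, ← Real.log_le_log_iff (dpow_pos B n _) (div_pos hy hx), log_dpow]
    linarith [h.1]
  · rw [← div_le_iff₀ hx, ← Real.log_le_log_iff (div_pos hy hx) (dpow_pos B n _), log_dpow]
    linarith [h.2]

/-! ### the static range -/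

/-- dyadic absolute widths within `e^(±K Lo)` of `X` -/
def InW (X : Fin 2 → ℕ → ℝ) (Lo : ℕ → ℝ) (K : ℝ) (n : ℕ) (a : Fin 2 → ℕ) : Prop :=
  ∀ j, |Real.log ((1 / 2 : ℝ) ^ a j / X j n)| ≤ K * Lo n

/-- good marks: level and widths in the range -/
def GdW (X : Fin 2 → ℕ → ℝ) (Lo : ℕ → ℝ) (l0 l1 : ℕ → ℕ) (K : ℝ) (n i : ℕ) (J : ℤ) (s : TSet) :
    Prop :=
  (l0 n ≤ i ∧ i ≤ l1 n) ∧ InW X Lo K n s.1

/-- **the static class**: every member of constant `2 kD` in the range is admissible -/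
def AdmS (G : Geo TSet (Fin 2)) (X : Fin 2 → ℕ → ℝ) (Lo : ℕ → ℝ) (l0 l1 : ℕ → ℕ) (K : ℝ) : Prop :=
  ∀ᶠ n in (U : Filter ℕ), ∀ i : ℕ, l0 n ≤ i → i ≤ l1 n → ∀ (J : ℤ) (a : Fin 2 → ℕ) (m : Mem),
    m.Ok (2 * kD) 0 → m.R = rho i → m.s0 = ((J : ℝ) + 1 / 2) * rho i → m.sg ≤ 1 →
    m.sg * m.R = (1 / 2 : ℝ) ^ a 0 → m.s1 * m.R = (1 / 2 : ℝ) ^ a 1 → InW X Lo K n a →
    G.adm n i J (a, m)

/-- the range is thin -/
def STh (X : Fin 2 → ℕ → ℝ) (Lo : ℕ → ℝ) : Prop :=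
  ∀ M : ℝ, ∀ᶠ n in (U : Filter ℕ), X 1 n ≤ Real.exp (-(M * Lo n)) * X 0 n

theorem InW.mono {X : Fin 2 → ℕ → ℝ} {Lo : ℕ → ℝ} {K K' : ℝ} {n : ℕ} {a : Fin 2 → ℕ}
    (h : InW X Lo K n a) (hK : K ≤ K') (hL : 0 ≤ Lo n) : InW X Lo K' n a := fun j =>
  (h j).trans (mul_le_mul_of_nonneg_right hK hL)

/-- monotonicity in the class constant -/
theorem ok_mono {M M' B : ℝ} {m : Mem} (h : m.Ok M B) (hM : M ≤ M') : m.Ok M' B := by
  have h0 : 0 ≤ m.sg := h.hs1.le.trans h.hsg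
  obtain ⟨h1, h2, h3, h4⟩ := h.adm
  refine ⟨h.hR, h.hs1, h.hsg, h1, fun s hs => (h2 s hs).trans ?_, h3.trans ?_, h4.trans ?_⟩
  · exact mul_le_mul_of_nonneg_right hM h0
  · exact mul_le_mul_of_nonneg_right hM h0
  · exact mul_le_mul_of_nonneg_right (mul_le_mul_of_nonneg_right hM h0) h.hR.le

/-- **`AdmL` from `Ok (2 kD) 0`** -/
theorem admL_of {r : ℝ} {i : ℕ} {J : ℤ} {a : Fin 2 → ℕ} {m : Mem} (hok : m.Ok (2 * kD) 0)
    (hR : m.R = (1 / 2 : ℝ) ^ i) (hs0 : m.s0 = ((J : ℝ) + 1 / 2) * (1 / 2 : ℝ) ^ i)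
    (hsg : m.sg ≤ 1) (h0 : m.sg * m.R = (1 / 2 : ℝ) ^ (a 0))
    (h1 : m.s1 * m.R = (1 / 2 : ℝ) ^ (a 1)) (hr : r ≤ m.s1 * m.R) : AdmL r i J a m := by
  have hs : 0 < m.sg := hok.hs1.trans_le hok.hsg
  have hRp := hok.hR
  have hT : m.T 0 = m.sg ^ 2 := by
    unfold Mem.T
    rw [zero_div]
    exact max_eq_left (sq_nonneg _)
  refine ⟨ok_mono hok (by unfold kD kM0; norm_num), hR, hs0, hsg, h0, h1, hr, ?_, ?_⟩
  · have h2 := d_le_of_ny (T := m.T 0) hRp.le (by rw [hT]; positivity) hok.adm.ny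
    rw [hT] at h2
    have e : 2 * |m.phi.d| * (m.sg ^ 2 * m.R) = (2 * (|m.phi.d| * (m.sg * m.R))) * m.sg := by ring
    rw [e] at h2
    have := le_of_mul_le_mul_right h2 hs
    linarith
  · have h2 := hok.adm.ny m.s0 (by rw [sub_self, abs_zero]; exact hRp.le)
    rw [hT] at h2
    have e : |m.phi.ny m.s0| * m.sg ^ 2 = (|m.phi.ny m.s0| * m.sg) * m.sg := by ring
    rw [e] at h2
    exact le_of_mul_le_mul_right h2 hs

/-- **`AdmS` from `TSL`**: range and room at the resolution. -/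
theorem admS_of {G : Geo TSet (Fin 2)} {r : ℕ → ℝ} {X : Fin 2 → ℕ → ℝ} {Lo : ℕ → ℝ}
    {l0 l1 : ℕ → ℕ} {K : ℝ}
    (hG : ∀ᶠ n in (U : Filter ℕ), ∀ i : ℕ, l0 n ≤ i → i ≤ l1 n → ∀ (J : ℤ) (a : Fin 2 → ℕ)
      (m : Mem), AdmL (r n) i J a m → InW X Lo K n a → G.adm n i J (a, m))
    (hX : ∀ᶠ n in (U : Filter ℕ), 0 < X 1 n)
    (room : ∀ᶠ n in (U : Filter ℕ), r n ≤ Real.exp (-(K * Lo n)) * X 1 n) :
    AdmS G X Lo l0 l1 K := by
  filter_upwards [hG, hX, room] with n h1 h2 h3 i i0 i1 J a m hok hR hs0 hsg e0 e1 hin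
  refine h1 i i0 i1 J a m (admL_of hok (by rw [hR, Gd222.rho_half])
    (by rw [hs0, Gd222.rho_half]) hsg e0 e1 ?_) hin
  refine h3.trans ?_
  rw [e1]
  have h4 := (abs_le.1 (hin 1)).1
  have h5 : (0 : ℝ) < (1 / 2 : ℝ) ^ a 1 := by positivity
  rw [← le_div_iff₀ h2, ← Real.log_le_log_iff (Real.exp_pos _) (div_pos h5 h2), Real.log_exp]
  exact h4

section mk

variable {B : Base} {I : ℕ → Finset (ℕ × ℝ)} {G : Geo TSet (Fin 2)} {lev : ℕ → ℚ → ℕ}
    {A : ℕ → ℝ} {g s : ℝ} {θ : Fin 2 → ℝ} {f : ℕ → ℚ → ℕ → ℤ → ℕ} {b : ℕ → ℚ → ℕ → TSet}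
    {vm : ℕ → ℚ → ℝ} {w : Fin 2 → ℕ → ℚ → ℝ}

/-- lengths of the cells -/
theorem ev_rho (h : MkA B I G lev A (fun v => g * v) (fun v => s * v)
    (fun j v => θ j * (1 - v)) f b vm w) {u : ℚ} (h0 : 0 ≤ u) (h1 : u ≤ 1) :
    ∀ᶠ n in (U : Filter ℕ), |Real.log (rho (lev n u) / rho (lev n 1))| ≤ 2 * B.L n := by
  have h0' : (0 : ℝ) ≤ u := by exact_mod_cast h0
  have h1' : (u : ℝ) ≤ 1 := by exact_mod_cast h1
  filter_upwards [ev_len h h0 h1 one_half_pos, ev_len h zero_le_one le_rfl one_half_pos]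
    with n a1 a2
  rw [Rat.cast_one] at a2
  have r1 := rho_pos3 (lev n 1)
  have ru := rho_pos3 (lev n u)
  have p : (0 : ℝ) < 2 ^ lev n 0 := by positivity
  have dp := fun a => dpow_pos B n a
  have e : rho (lev n u) / rho (lev n 1) =
      ((2 : ℝ) ^ lev n 0 * rho (lev n u)) / ((2 : ℝ) ^ lev n 0 * rho (lev n 1)) := by
    field_simp
  rw [e]
  have q1 : 0 < (2 : ℝ) ^ lev n 0 * rho (lev n u) := by positivity
  have q2 : 0 < (2 : ℝ) ^ lev n 0 * rho (lev n 1) := by positivity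
  refine abs_log_le B (a := u) (b := u - 2) (div_pos q1 q2) ?_ ?_ (by linarith) (by linarith)
  · rw [le_div_iff₀ q2]
    refine le_trans (mul_le_mul_of_nonneg_left a2.2 (dp _).le) ?_
    rw [← dpow_add]
    refine le_trans (le_of_eq ?_) a1.1
    congr 1; ring
  · rw [div_le_iff₀ q2]
    refine le_trans a1.2 ?_
    refine le_trans (le_of_eq ?_) (mul_le_mul_of_nonneg_left a2.1 (dp _).le)
    rw [← dpow_add]
    congr 1; ring

/-- widths of the marks against those of level `1` -/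
theorem ev_wid (h : MkA B I G lev A (fun v => g * v) (fun v => s * v)
    (fun j v => θ j * (1 - v)) f b vm w) (j : Fin 2) {u : ℚ} (h0 : 0 ≤ u) (h1 : u ≤ 1) :
    ∀ᶠ n in (U : Filter ℕ), |Real.log (w j n u / w j n 1)| ≤ (|θ j| + 3) * B.L n := by
  have h0' : (0 : ℝ) ≤ u := by exact_mod_cast h0
  have h1' : (u : ℝ) ≤ 1 := by exact_mod_cast h1
  filter_upwards [ev_ang h j h0 h1 one_pos, ev_rho h h0 h1, h.wpos j u h0 h1,
    h.wpos j 1 zero_le_one le_rfl] with n a1 a2 p1 p2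
  have r1 := rho_pos3 (lev n 1)
  have ru := rho_pos3 (lev n u)
  have hL := B.L_pos n
  rw [ps_eq (div_pos p2 r1)] at a1
  have q1 : 0 < w j n u / rho (lev n u) := div_pos p1 ru
  have q2 : 0 < w j n 1 / rho (lev n 1) := div_pos p2 r1
  have e : w j n u / w j n 1 = (w j n u / rho (lev n u)) / (w j n 1 / rho (lev n 1)) *
      (rho (lev n u) / rho (lev n 1)) := by field_simp
  rw [e, Real.log_mul (div_pos q1 q2).ne' (div_pos ru r1).ne']
  refine (abs_add_le _ _).trans ?_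
  have b1 : |Real.log (w j n u / rho (lev n u) / (w j n 1 / rho (lev n 1)))| ≤
      (|θ j| + 1) * B.L n := by
    have c1 : |θ j * (1 - (u : ℝ))| ≤ |θ j| := by
      rw [abs_mul, abs_of_nonneg (by linarith : (0 : ℝ) ≤ 1 - u)]
      exact mul_le_of_le_one_right (abs_nonneg _) (by linarith)
    have c2 := abs_le.1 c1
    exact abs_log_le B (div_pos q1 q2) a1.1 a1.2 (by linarith [c2.2]) (by linarith [c2.1])
  linarith

/-- **the marks of a sequence are in the range** -/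
theorem goodM_init (h : MkA B I G lev A (fun v => g * v) (fun v => s * v)
    (fun j v => θ j * (1 - v)) f b vm w)
    (hwid : ∀ j (t : TSet), G.wid j t = (1 / 2 : ℝ) ^ t.1 j) {Kw : ℝ} (hK : ∀ j, |θ j| + 3 ≤ Kw) :
    GoodM I lev f b (GdW (fun j n => w j n 1) B.L (fun n => lev n 0) (fun n => lev n 1) Kw) := by
  intro v h0 h1
  filter_upwards [h.mark v h0 h1, Filter.eventually_all.2 fun j => ev_wid h j h0 h1,
    h.lev_mono 0 v le_rfl h0 h1, h.lev_mono v 1 h0 h1 le_rfl]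
    with n a1 a2 a3 a4 J t ht
  refine ⟨⟨a3, a4⟩, fun j => ?_⟩
  obtain ⟨-, -, -, b4⟩ := a1 J t ht
  have e : (1 / 2 : ℝ) ^ (b n v (f n v t J)).1 j = w j n v := by rw [← hwid, b4]
  show |Real.log ((1 / 2 : ℝ) ^ (b n v (f n v t J)).1 j / w j n 1)| ≤ Kw * B.L n
  rw [e]
  exact (a2 j).trans (mul_le_mul_of_nonneg_right (hK j) (B.L_pos n).le)

/-- good marks: the common widths and the level -/
theorem goodM_wid (h : MkA B I G lev A (fun v => g * v) (fun v => s * v)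
    (fun j v => θ j * (1 - v)) f b vm w)
    (hwid : ∀ j (t : TSet), G.wid j t = (1 / 2 : ℝ) ^ t.1 j) {X : Fin 2 → ℕ → ℝ} {Lo : ℕ → ℝ}
    {l0 l1 : ℕ → ℕ} {Kw : ℝ} (hgood : GoodM I lev f b (GdW X Lo l0 l1 Kw)) {v : ℚ} (h0 : 0 ≤ v)
    (h1 : v ≤ 1) :
    ∀ᶠ n in (U : Filter ℕ), (l0 n ≤ lev n v ∧ lev n v ≤ l1 n) ∧
      ∀ j, |Real.log (w j n v / X j n)| ≤ Kw * Lo n := by
  filter_upwards [h.ne, h.mark v h0 h1, hgood v h0 h1] with n a1 a2 a3
  obtain ⟨x, hx⟩ := a1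
  have hal : x.1 ∈ alive (I n) (lev n v) (zc (lev n v) x.2) := mem_alive.2 ⟨x, hx, rfl, rfl⟩
  obtain ⟨-, -, -, b4⟩ := a2 _ _ hal
  obtain ⟨b6, b7⟩ := a3 _ _ hal
  refine ⟨b6, fun j => ?_⟩
  have b5 := b7 j
  rw [← hwid, b4] at b5
  exact b5

/-- **222's `AdmR` from the static range, in every window.** -/
theorem admR_of_static (h : MkA B I G lev A (fun v => g * v) (fun v => s * v)
    (fun j v => θ j * (1 - v)) f b vm w)
    (hwid : ∀ j (t : TSet), G.wid j t = (1 / 2 : ℝ) ^ t.1 j) {X : Fin 2 → ℕ → ℝ} {Lo : ℕ → ℝ}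
    {l0 l1 : ℕ → ℕ} {K Kw Rg : ℝ} (hS : AdmS G X Lo l0 l1 K)
    (hgood : GoodM I lev f b (GdW X Lo l0 l1 Kw))
    (hLo : ∀ᶠ n in (U : Filter ℕ), B.L n ≤ Lo n) (hRg : 0 ≤ Rg) (hK : Rg + Kw + 2 ≤ K) :
    AdmR B G lev (sN lev w) (2 * kD) 1 Rg := by
  intro u hu0 hu1
  filter_upwards [hS, goodM_wid h hwid hgood zero_le_one le_rfl, ev_rho h hu0 hu1, hLo,
    h.wpos 0 1 zero_le_one le_rfl, h.wpos 1 1 zero_le_one le_rfl, goodM_wid h hwid hgood hu0 hu1]
    with n a1 a2' a3 a4 p0 p1 a5 J a m hok hR hs0 hsg e0 e1 l1 l2 l3 l4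
  have a2 := a2'.2
  refine a1 (lev n u) a5.1.1 a5.1.2 J a m hok hR hs0 hsg e0 e1 ?_
  have hL := B.L_pos n
  have hLo0 : 0 < Lo n := hL.trans_le a4
  have r1 := rho_pos3 (lev n 1)
  have ru := rho_pos3 (lev n u)
  have dp := fun a => dpow_pos B n a
  have key : ∀ (j : Fin 2) (t : ℝ), 0 < w j n 1 → t * m.R = (1 / 2 : ℝ) ^ a j →
      B.d n ^ Rg * sN lev w j n ≤ t → t ≤ B.d n ^ (-Rg) * sN lev w j n →
      |Real.log ((1 / 2 : ℝ) ^ a j / X j n)| ≤ K * Lo n := by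
    intro j t hw ht k1 k2
    have hKp : 0 ≤ K * Lo n := by
      have := (abs_nonneg _).trans (a2 j)
      nlinarith
    have es : sN lev w j n = w j n 1 / rho (lev n 1) := by
      unfold sN; rw [ps_eq (div_pos hw r1)]
    have hs := sN_pos lev w j n
    have ht0 : 0 < t := lt_of_lt_of_le (mul_pos (dp _) hs) k1
    by_cases hX : X j n = 0
    · rw [hX, div_zero, Real.log_zero, abs_zero]; exact hKp
    · have e : (1 / 2 : ℝ) ^ a j / X j n =
          (t / sN lev w j n) * (w j n 1 / X j n) * (rho (lev n u) / rho (lev n 1)) := by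
        rw [← ht, hR, es]
        field_simp
      have n1 : t / sN lev w j n ≠ 0 := (div_pos ht0 hs).ne'
      have n2 : w j n 1 / X j n ≠ 0 := div_ne_zero hw.ne' hX
      rw [e, Real.log_mul (mul_ne_zero n1 n2) (div_pos ru r1).ne', Real.log_mul n1 n2]
      have b1 : |Real.log (t / sN lev w j n)| ≤ Rg * B.L n :=
        abs_log_le B (a := Rg) (b := -Rg) (div_pos ht0 hs) (by rw [le_div_iff₀ hs]; exact k1)
          (by rw [div_le_iff₀ hs]; exact k2) le_rfl le_rfl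
      have b2 := a2 j
      have b3 := abs_add_le (Real.log (t / sN lev w j n) + Real.log (w j n 1 / X j n))
        (Real.log (rho (lev n u) / rho (lev n 1)))
      have b4 := abs_add_le (Real.log (t / sN lev w j n)) (Real.log (w j n 1 / X j n))
      have b5 : Rg * B.L n ≤ Rg * Lo n := mul_le_mul_of_nonneg_left a4 hRg
      nlinarith
  intro j
  fin_cases j
  · exact key 0 m.sg p0 e0 l1 l2
  · exact key 1 m.s1 p1 e1 l3 l4

/-- **thinness in every window** -/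
theorem thin_of_static (h : MkA B I G lev A (fun v => g * v) (fun v => s * v)
    (fun j v => θ j * (1 - v)) f b vm w)
    (hwid : ∀ j (t : TSet), G.wid j t = (1 / 2 : ℝ) ^ t.1 j) {X : Fin 2 → ℕ → ℝ} {Lo : ℕ → ℝ}
    {l0 l1 : ℕ → ℕ} {Kw : ℝ} (hX : ∀ j, ∀ᶠ n in (U : Filter ℕ), 0 < X j n) (hth : STh X Lo)
    (hgood : GoodM I lev f b (GdW X Lo l0 l1 Kw))
    (hLo : ∀ᶠ n in (U : Filter ℕ), B.L n ≤ Lo n) : Thin B w := by
  intro M v h0 h1
  filter_upwards [goodM_wid h hwid hgood h0 h1, hth (2 * Kw + |M|), hX 0, hX 1, hLo,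
    h.wpos 0 v h0 h1, h.wpos 1 v h0 h1] with n a1 a2 x0 x1 a3 p0 p1
  have hL := B.L_pos n
  have b0 := (abs_le.1 (a1.2 0)).1
  have b1 := (abs_le.1 (a1.2 1)).2
  have c2 := Real.log_le_log x1 a2
  rw [Real.log_mul (Real.exp_pos _).ne' x0.ne', Real.log_exp] at c2
  rw [Real.log_div p0.ne' x0.ne'] at b0
  rw [Real.log_div p1.ne' x1.ne'] at b1
  rw [← Real.log_le_log_iff p1 (mul_pos (dpow_pos B n M) p0),
    Real.log_mul (dpow_pos B n M).ne' p0.ne', log_dpow]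
  have d1 : M * B.L n ≤ |M| * Lo n :=
    (mul_le_mul_of_nonneg_right (le_abs_self M) hL.le).trans
      (mul_le_mul_of_nonneg_left a3 (abs_nonneg M))
  have e : (2 * Kw + |M|) * Lo n = 2 * (Kw * Lo n) + |M| * Lo n := by ring
  rw [e] at c2
  linarith

/-- the static thinness of a thin sequence -/
theorem sth_of_thin (h : Thin B w) : STh (fun j n => w j n 1) B.L := by
  intro M
  filter_upwards [h M 1 zero_le_one le_rfl] with n hn
  have e : Real.exp (-(M * B.L n)) = B.d n ^ M := by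
    rw [Real.rpow_def_of_pos (B.pos n)]
    congr 1
    unfold Base.L
    ring
  rw [e]
  exact hn

end mk

end Crest.Agent.R116.Tw468
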