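import Crest.Agent.R116.Tw4_468
import Crest.Agent.R116.KF8_439
import Crest.Agent.R116.Bd3_710

/-!
# R116, K10 (helper468), part 8: composite flags with gradients of length `1`

439's composite flag `flT` with its gradient `b` divided by its length.  The length is `1` up to the
precision of the slot `B` at the level where this precision is smallest, so the flag moves by less than
the precision of every level (`close_unit`, `tsys_unit`); it is still constant along the lines where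
`flT` is (`inv_unit`, `flOK_unit`).
-/

set_option autoImplicit false
set_option linter.unusedVariables false

open Finset Filter Topology

namespace Crest.Agent.R116.Tw468

open Crest.Agent.R138.Ex926 (Base U)
open Crest.Agent.R138.Mk163 (zc zl rho alive own)
open Crest.Agent.R138.MkRef627 (lc kc mem_alive)
open Crest.Agent.R138.Dp76 (dpow_pos dpow_add dpow_le Dense)
open Crest.Agent.R138.Ps926 (dpow_small)
open Crest.Agent.R136.MkA627
open Crest.Agent.R136.Net191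
open Crest.Agent.R136.TD627
open Crest.Agent.R138.Defs (E2)
open Crest.Agent.R116.LZg725
open Crest.Agent.R116.ChL222
open Crest.Agent.R116.Bm903
open Crest.Agent.R116.PL504 (ps ps_pos ps_eq prN βL)
open Crest.Agent.R116.Gd222 (TSet vb rayL)
open Crest.Agent.R116.KI439
open Crest.Agent.R116.KF439 (IsL PL PL_d frL frL_kc psi psm sm sm_grr Sg nsg nsg_sg lvl lvl_mem
  lvl_zero comp_rayL comp_line mkL mark_L le_norm2 gr_le_two FS βL_one scN spN_pos EndClose
  close_trans comp_close base_close ev_prN_pos prN_cmp tsys_mk)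
open Crest.Agent.R116.Rl899 (FlOK SameL)

/-- **composite flag with gradient of length `1`** -/
noncomputable def flN (lev : ℕ → ℚ → ℕ) (f : ℕ → ℚ → ℕ → ℤ → ℕ) (b : ℕ → ℚ → ℕ → TSet) (a : Fin 2)
    (θ : Fin 2 → ℝ) (L : ℕ → ℕ → LRay) (n : ℕ) (x : ℕ × ℝ) : LInc :=
  KF439.comp (L n x.1) x.2
    (sm (‖grr (psi lev f b a n (lvl (βL (θ 0) (θ 1) 7)) x) (L n x.1)‖⁻¹)
      (psi lev f b a n (lvl (βL (θ 0) (θ 1) 7)) x))
    (psi lev f b a n (lvl (βL (θ 0) (θ 1) 2)) x) (psi lev f b a n (lvl (βL (θ 0) (θ 1) 1)) x)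

section

variable {r : ℕ → ℝ} {L : ℕ → ℕ → LRay} {B : Base} {J : ℕ → Finset (ℕ × ℝ)}
    {G : Geo TSet (Fin 2)} {lev : ℕ → ℚ → ℕ} {A : ℕ → ℝ} {g s : ℝ} {θ : Fin 2 → ℝ} {c Λ : ℝ → ℝ}
    {τ : Fin 2 → ℝ → ℝ}
    {f : ℕ → ℚ → ℕ → ℤ → ℕ} {b : ℕ → ℚ → ℕ → TSet} {vm : ℕ → ℚ → ℝ} {w : Fin 2 → ℕ → ℚ → ℝ}
    {a : Fin 2}

theorem psi_norm (n : ℕ) (v : ℚ) (x : ℕ × ℝ) (r : LRay) :
    ‖grr (psi lev f b a n v x) r‖ = ‖grr (mkL lev f b n v x).phi r‖ := by
  have hσ : Sg (nsg a (mkL lev f b n v x).phi (KF439.bray (mkL lev f b n v x))) := nsg_sg _ _ _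
  unfold psi psm
  rw [sm_grr, norm_smul, Real.norm_eq_abs, hσ.abs, one_mul]

/-- the length of the gradients of one level -/
theorem psi_len (h : MkA B J G lev A c Λ τ f b vm w) (hG : IsL G L r) (a : Fin 2) {v : ℚ}
    (h0 : 0 ≤ v) (h1 : v ≤ 1) : ∀ᶠ n in (U : Filter ℕ), ∀ x ∈ J n,
      |‖grr (psi lev f b a n v x) (L n x.1)‖ ^ 2 - 1| ≤ prN lev w 7 n v := by
  filter_upwards [mark_L h hG h0 h1] with n hmk x hx
  have hm := hmk x hx
  have hok := hm.ok
  rw [psi_norm]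
  set m := mkL lev f b n v x with hmd
  have hsg := KF439.sg_pos hok
  have hs1 := hok.hs1
  have hR := hok.hR
  have es : w 0 n v / rho (lev n v) = m.sg := by
    rw [← hm.wide, ← hm.R]
    field_simp
  have es1 : w 1 n v / rho (lev n v) = m.s1 := by
    rw [← hm.thin, ← hm.R]
    field_simp
  have q7 : prN lev w 7 n v = m.s1 / m.sg := by
    rw [← es, ← es1]; rfl
  rw [q7, le_div_iff₀ hsg]
  have := Bd369.gr_sq_sharp hok hm.ray
  have hM : kM0 = 1 / 100 := rfl
  rw [hM] at this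
  linarith

theorem unit_move {g gp : E2} : ‖(‖g‖⁻¹ • g) - gp‖ ≤ |‖g‖ ^ 2 - 1| + ‖g - gp‖ := by
  have e : (‖g‖⁻¹ • g) - gp = (‖g‖⁻¹ • g - g) + (g - gp) := by abel
  rw [e]
  refine (norm_add_le _ _).trans (add_le_add_left ?_ _)
  by_cases hg : ‖g‖ = 0
  · have : g = 0 := norm_eq_zero.1 hg
    rw [this]; simp
  have hp : 0 < ‖g‖ := lt_of_le_of_ne (norm_nonneg g) (Ne.symm hg)
  have e2 : ‖g‖⁻¹ • g - g = (‖g‖⁻¹ - 1) • g := by rw [sub_smul, one_smul]
  rw [e2, norm_smul, Real.norm_eq_abs]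
  have e3 : |‖g‖⁻¹ - 1| * ‖g‖ = |(‖g‖⁻¹ - 1) * ‖g‖| := by rw [abs_mul, abs_norm]
  have e4 : (‖g‖⁻¹ - 1) * ‖g‖ = 1 - ‖g‖ := by
    rw [sub_mul, inv_mul_cancel₀ hg, one_mul]
  rw [e3, e4]
  have e5 : ‖g‖ ^ 2 - 1 = (‖g‖ - 1) * (‖g‖ + 1) := by ring
  rw [e5, abs_mul, abs_sub_comm]
  have : 1 ≤ |‖g‖ + 1| := by
    rw [abs_of_pos (by linarith)]; linarith
  exact le_mul_of_one_le_right (abs_nonneg _) this

theorem close_unit (h : MkA B J G lev A (fun v => g * v) (fun v => s * v)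
    (fun j v => θ j * (1 - v)) f b vm w) (hG : IsL G L r)
    (hE : EndClose J B L lev f b w θ a) (k : Fin 12) (v : ℚ) (h0 : 0 ≤ v) (h1 : v ≤ 1) (ε : ℝ)
    (hε : 0 < ε) : ∀ᶠ n in (U : Filter ℕ), ∀ x ∈ J n,
      |coL (flN lev f b a θ L n x) (frL lev f b a n v x) k| ≤ prN lev w k n v * B.d n ^ (-ε) := by
  obtain ⟨l0, l1⟩ := lvl_mem (βL (θ 0) (θ 1) 7)
  refine close_trans h h0 h1 (q := fun n x => toL (L n x.1) x.2 (psi lev f b a n v x)) ?_ ?_ k hε
  · intro k ε hε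
    have hε2 : 0 < ε / 2 := half_pos hε
    filter_upwards [hE 1 (Or.inl rfl) v h0 h1 ε hε, hE 2 (Or.inr (Or.inl rfl)) v h0 h1 ε hε,
      hE 7 (Or.inr (Or.inr (Or.inl rfl))) v h0 h1 (ε / 2) hε2, ev_prN_pos h h0 h1,
      psi_len h hG a l0 l1, prN_cmp h l0 l1 h0 h1 hε2,
      dpow_small B hε2 (ε := 1 / 2) (by norm_num)] with n a1 a2 a7 a0 al ac ad x hx
    have c1 := a1 x hx
    have c2 := a2 x hx
    have c7 := a7 x hx
    have hp2 := dpow_pos B n (-(ε / 2))
    have hd2 := dpow_pos B n (ε / 2)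
    have two : 2 ≤ B.d n ^ (-(ε / 2)) := by
      rw [Real.rpow_neg (B.pos n).le, le_inv_comm₀ (by norm_num) hd2]
      linarith
    have ee : B.d n ^ (-(ε / 2)) * B.d n ^ (-(ε / 2)) = B.d n ^ (-ε) := by
      rw [← dpow_add]; congr 1; ring
    have p7 := a0 7
    have al1 : prN lev w 7 n (lvl (βL (θ 0) (θ 1) 7)) ≤ prN lev w 7 n v * B.d n ^ (-(ε / 2)) := by
      refine (ac 7).trans (mul_le_mul_of_nonneg_left (dpow_le B n ?_) p7.le)
      have : 0 ≤ βL (θ 0) (θ 1) 7 * (((lvl (βL (θ 0) (θ 1) 7) : ℚ) : ℝ) - (v : ℝ)) := by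
        have v0 : (0 : ℝ) ≤ (v : ℝ) := by exact_mod_cast h0
        have v1 : (v : ℝ) ≤ 1 := by exact_mod_cast h1
        unfold lvl
        split_ifs with hb
        · rw [Rat.cast_one]
          exact mul_nonneg hb.le (by linarith)
        · rw [Rat.cast_zero, zero_sub]
          have := not_lt.1 hb
          nlinarith
      linarith
    have c7' : ‖grr (dif (sm (‖grr (psi lev f b a n (lvl (βL (θ 0) (θ 1) 7)) x) (L n x.1)‖⁻¹)
        (psi lev f b a n (lvl (βL (θ 0) (θ 1) 7)) x)) (psi lev f b a n v x)) (L n x.1)‖ ≤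
        prN lev w 7 n v * B.d n ^ (-ε) := by
      rw [dif_grr, sm_grr]
      refine unit_move.trans ?_
      have b1 := (al x hx).trans al1
      have b2 : ‖grr (psi lev f b a n (lvl (βL (θ 0) (θ 1) 7)) x) (L n x.1) -
          grr (psi lev f b a n v x) (L n x.1)‖ ≤ prN lev w 7 n v * B.d n ^ (-(ε / 2)) := by
        rw [← dif_grr]
        exact c7
      have b3 : 0 ≤ prN lev w 7 n v * B.d n ^ (-(ε / 2)) := mul_nonneg p7.le hp2.le
      calc _ ≤ 2 * (prN lev w 7 n v * B.d n ^ (-(ε / 2))) := by linarith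
        _ ≤ B.d n ^ (-(ε / 2)) * (prN lev w 7 n v * B.d n ^ (-(ε / 2))) :=
            mul_le_mul_of_nonneg_right two b3
        _ = prN lev w 7 n v * B.d n ^ (-ε) := by rw [← ee]; ring
    have key := comp_close (r := L n x.1) (z := x.2) (p := psi lev f b a n v x) c7' c2 c1 k
    refine key.trans ?_
    have hp := dpow_pos B n (-ε)
    have hk : ∀ k, 0 ≤ prN lev w k n v * B.d n ^ (-ε) := fun k => mul_nonneg (a0 k).le hp.le
    have e8 : prN lev w 8 n v = prN lev w 7 n v := rfl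
    fin_cases k
    · exact hk 0
    · exact le_rfl
    · exact le_rfl
    · exact hk 3
    · exact hk 4
    · exact hk 5
    · exact hk 6
    · exact le_rfl
    · exact le_of_eq (by rw [← e8]; rfl)
    · exact hk 9
    · exact hk 10
    · exact hk 11
  · intro k ε hε
    filter_upwards [mark_L h hG h0 h1, ev_prN_pos h h0 h1,
      dpow_small B hε (ε := 1 / 4) (by norm_num)] with n a1 a2 a3 x hx
    have c1 := base_close (ax := a) (a1 x hx) k
    refine c1.trans ?_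
    have hp := dpow_pos B n ε
    have h4 : 4 ≤ B.d n ^ (-ε) := by
      rw [Real.rpow_neg (B.pos n).le, le_inv_comm₀ (by norm_num) hp]
      linarith
    have := mul_le_mul_of_nonneg_left h4 (a2 k).le
    linarith

/-- **`TSys` with the normalised composite flags** -/
theorem tsys_unit (h : MkA B J G lev A (fun v => g * v) (fun v => s * v)
    (fun j v => θ j * (1 - v)) f b vm w) (hG : IsL G L r)
    (hE : EndClose J B L lev f b w θ a) :
    TSys PL G g s θ (βL (θ 0) (θ 1)) B J lev A f b vm w (frL lev f b a) (prN lev w)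
      (flN lev f b a θ L) (scN lev w) :=
  tsys_mk h (fun n v x y hxy => frL_kc lev f b a n v x y hxy) fun k v h0 h1 ε hε =>
    close_unit h hG hE k v h0 h1 ε hε

/-- slots of rate at most `0` are constant along the lines -/
theorem inv_unit (h : MkA B J G lev A c Λ τ f b vm w) (k : Fin 12) (hk : k ≠ 0)
    (hβ : FS k → βL (θ 0) (θ 1) k ≤ 0) (sc : ℕ → ℝ) (hsc : ∀ n, 0 < sc n) :
    InvT PL B J k (flN lev f b a θ L) sc := by
  intro M
  filter_upwards [h.cell0] with n hn x hx y hy hxy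
  have hz := hn y hy x hx
  have e0 : psi lev f b a n 0 y = psi lev f b a n 0 x := by
    unfold psi mkL
    rw [hxy, hz]
  have key : coL (flN lev f b a θ L n x) (flN lev f b a θ L n y) k = 0 := by
    unfold flN
    rw [hxy]
    refine comp_line hk (fun e => ?_) (fun e => ?_) fun e => ?_
    · subst e
      rw [lvl_zero (hβ (Or.inl rfl)), e0]
    · subst e
      have h2 := hβ (Or.inr (Or.inl rfl))
      have h1 : βL (θ 0) (θ 1) 1 ≤ 0 := by rw [βL_one]; linarith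
      rw [lvl_zero h2, lvl_zero h1, e0]
      exact ⟨rfl, rfl⟩
    · have h7 : βL (θ 0) (θ 1) 7 ≤ 0 := by
        rcases e with e | e
        · subst e
          exact hβ (Or.inr (Or.inr (Or.inl rfl)))
        · subst e
          exact hβ (Or.inr (Or.inr (Or.inr rfl)))
      rw [lvl_zero h7, e0]
  rw [PL_d, key, abs_zero]
  exact mul_nonneg (hsc n).le (dpow_pos B n _).le

theorem flOK_unit (h : MkA B J G lev A c Λ τ f b vm w) (hβ : βL (θ 0) (θ 1) 1 ≤ 0) :
    FlOK J (flN lev f b a θ L) := by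
  refine ⟨?_, fun n x => rfl⟩
  filter_upwards [h.cell0] with n hn x hx y hy hxy
  have hz := hn y hy x hx
  have e0 : psi lev f b a n 0 y = psi lev f b a n 0 x := by
    unfold psi mkL
    rw [hxy, hz]
  unfold flN
  rw [hxy, lvl_zero hβ]
  exact ⟨rfl, rfl, rfl, rfl, rfl, by
    show (psi lev f b a n 0 y).d = (psi lev f b a n 0 x).d
    rw [e0]⟩

theorem vb_flN (n : ℕ) (x : ℕ × ℝ) : vb (flN lev f b a θ L n x) =
    ‖grr (psi lev f b a n (lvl (βL (θ 0) (θ 1) 7)) x) (L n x.1)‖⁻¹ •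
      grr (psi lev f b a n (lvl (βL (θ 0) (θ 1) 7)) x) (L n x.1) := by
  rw [← sm_grr]
  ext i
  fin_cases i <;> rfl

/-- **length and axis of the normalised flags** -/
theorem vb_unit (h : MkA B J G lev A c Λ τ f b vm w) (hG : IsL G L r)
    (hl : ∀ v : ℚ, 0 ≤ v → v ≤ 1 → ∀ᶠ n in (U : Filter ℕ), ∀ x ∈ J n,
      59 / 100 ≤ |grr (mkL lev f b n v x).phi (L n x.1) a|) :
    ∀ᶠ n in (U : Filter ℕ), ∀ x ∈ J n, ‖vb (flN lev f b a θ L n x)‖ = 1 ∧
      1 / 2 ≤ |vb (flN lev f b a θ L n x) a| := by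
  obtain ⟨l0, l1⟩ := lvl_mem (βL (θ 0) (θ 1) 7)
  filter_upwards [hl _ l0 l1, mark_L h hG l0 l1] with n hn hm x hx
  have h1 := hn x hx
  have h2 := gr_le_two (hm x hx).ok (hm x hx).ray
  have h3 : |grr (psi lev f b a n (lvl (βL (θ 0) (θ 1) 7)) x) (L n x.1) a| =
      |grr (mkL lev f b n (lvl (βL (θ 0) (θ 1) 7)) x).phi (L n x.1) a| := by
    have hσ : Sg (nsg a (mkL lev f b n (lvl (βL (θ 0) (θ 1) 7)) x).phi
      (KF439.bray (mkL lev f b n (lvl (βL (θ 0) (θ 1) 7)) x))) := nsg_sg _ _ _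
    unfold psi psm
    rw [sm_grr, PiLp.smul_apply, smul_eq_mul, abs_mul, hσ.abs, one_mul]
  rw [vb_flN]
  have h4 := psi_norm (a := a) (lev := lev) (f := f) (b := b) n (lvl (βL (θ 0) (θ 1) 7)) x
    (L n x.1)
  set gg := grr (psi lev f b a n (lvl (βL (θ 0) (θ 1) 7)) x) (L n x.1) with hgg
  rw [← h3] at h1
  rw [← h4] at h2
  have h5 := le_norm2 gg a
  have hp : 0 < ‖gg‖ := by linarith
  refine ⟨?_, ?_⟩
  · rw [norm_smul, norm_inv, norm_norm, inv_mul_cancel₀ hp.ne']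
  · rw [PiLp.smul_apply, smul_eq_mul, abs_mul, abs_of_pos (inv_pos.2 hp), inv_mul_eq_div,
      le_div_iff₀ hp]
    linarith

end

end Crest.Agent.R116.Tw468
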