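import Crest.Agent.R116.Tw4_468
import Crest.Agent.R116.KF8_439
import Crest.Agent.R116.Rn3_899
import Crest.Agent.R116.Bd3_710
import Crest.Agent.R116.Tw8_468

/-!
# R116, K10 (helper468), part 5: the seam I-c / II-c

* **`OutT`** : thin case: one window (`LWin`), thin marks, classification of the slots (899's
  `NatL3`), `β_D = 0` clause.
* **`OutR`** : round case: one window, flat flags, all slots except the height invisible.
* **`outT_thin`**, **`outR_thick`** : from the linear sequence, 439's `thin_sys`, `thick_sys` and 899's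
  `natL3`; `X, Lo, l0, l1, K` : static range of the test sets.
-/

set_option autoImplicit false
set_option linter.unusedVariables false

open Finset Filter Topology

namespace Crest.Agent.R116.Tw468

open Crest.Agent.R138.Ex926 (Base U)
open Crest.Agent.R138.Mk163 (zc zl rho alive own)
open Crest.Agent.R138.MkRef627 (lc kc mem_alive)
open Crest.Agent.R138.Dp76 (dpow_pos dpow_add dpow_le Dense)
open Crest.Agent.R138.ArgM163 (log_dpow)
open Crest.Agent.R136.MkA627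
open Crest.Agent.R136.Net191
open Crest.Agent.R136.TD627
open Crest.Agent.R136.Lq196
open Crest.Agent.R116.LZg725
open Crest.Agent.R116.ChL222
open Crest.Agent.R116.PL504 (ps ps_pos ps_eq prN βL eL rL oL Shift uL)
open Crest.Agent.R116.Gd222 (TSet AdmR LData sN sN_pos vb rayL PDL DT own_thin dflat LData_of)
open Crest.Agent.R116.KI439
open Crest.Agent.R116.Bm903 (grr)
open Crest.Agent.R116.KF439 (IsL ValL Thin Thick PL PL_d PL_M frL frL_kc TiltL thick_sys flT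
  flF frF scN FlagD flOK_thin mkL psi psm nsg nsg_sg Sg sm_grr lvl lvl_mem le_norm2 gr_le_two
  mark_L vb_thin tsys_thin endClose EndClose inv_thin tilt_norm spN_pos bray βL_zero)
open Crest.Agent.R116.Rl899 (rg rg_zero FlOK monL_two prN_two)
open Crest.Agent.R116.Rm899 (STwL2)
open Crest.Agent.R116.Rn899 (NatL3 TwP natL3)

/-! ### good marks -/

section good

variable {σ : Type*} {I J : ℕ → Finset (ℕ × ℝ)} {lev : ℕ → ℚ → ℕ} {f : ℕ → ℚ → ℕ → ℤ → ℕ}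
    {b : ℕ → ℚ → ℕ → σ} {Gd Gd' : ℕ → ℕ → ℤ → σ → Prop}

theorem GoodM.sub (h : GoodM I lev f b Gd) (hJ : ∀ᶠ n in (U : Filter ℕ), J n ⊆ I n) :
    GoodM J lev f b Gd := by
  intro v h0 h1
  filter_upwards [h v h0 h1, hJ] with n a1 a2 K t ht
  obtain ⟨x, hx, e1, e2⟩ := mem_alive.1 ht
  exact a1 K t (mem_alive.2 ⟨x, a2 hx, e1, e2⟩)

theorem GoodM.and (h : GoodM I lev f b Gd) (h' : GoodM I lev f b Gd') :
    GoodM I lev f b (fun n i J s => Gd n i J s ∧ Gd' n i J s) := by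
  intro v h0 h1
  filter_upwards [h v h0 h1, h' v h0 h1] with n a1 a2 K t ht
  exact ⟨a1 K t ht, a2 K t ht⟩

theorem GoodM.mono (h : GoodM I lev f b Gd) (h' : ∀ n i J s, Gd n i J s → Gd' n i J s) :
    GoodM I lev f b Gd' := by
  intro v h0 h1
  filter_upwards [h v h0 h1] with n a1 K t ht
  exact h' _ _ _ _ (a1 K t ht)

end good

/-! ### 439's `thin_sys` with the axis of the flags -/

/-- the flag is large along the axis `b`, and bounded -/
def AxB (I : ℕ → Finset (ℕ × ℝ)) (fl : ℕ → ℕ × ℝ → LInc) : Prop :=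
  ∃ b : Fin 2, ∀ᶠ n in (U : Filter ℕ), ∀ x ∈ I n, 1 / 2 ≤ |vb (fl n x) b| ∧
    ∀ c, |vb (fl n x) c| ≤ 2

theorem AxB.sub {I J : ℕ → Finset (ℕ × ℝ)} {fl : ℕ → ℕ × ℝ → LInc} (h : AxB I fl)
    (hJ : ∀ᶠ n in (U : Filter ℕ), J n ⊆ I n) : AxB J fl := by
  obtain ⟨b, hb⟩ := h
  exact ⟨b, by filter_upwards [hb, hJ] with n a1 a2 x hx using a1 x (a2 hx)⟩

section axis

variable {r : ℕ → ℝ} {L : ℕ → ℕ → LRay} {B : Base} {I J : ℕ → Finset (ℕ × ℝ)}
    {G : Geo TSet (Fin 2)} {lev : ℕ → ℚ → ℕ} {A : ℕ → ℝ} {g s : ℝ} {θ : Fin 2 → ℝ} {c Λ : ℝ → ℝ}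
    {τ : Fin 2 → ℝ → ℝ}
    {f : ℕ → ℚ → ℕ → ℤ → ℕ} {b : ℕ → ℚ → ℕ → TSet} {vm : ℕ → ℚ → ℝ} {w : Fin 2 → ℕ → ℚ → ℝ}

/-- axis of the composite flags, with the upper bound -/
theorem axB_thin (h : MkA B J G lev A c Λ τ f b vm w) (hG : IsL G L r) {a : Fin 2}
    (hl : ∀ v : ℚ, 0 ≤ v → v ≤ 1 → ∀ᶠ n in (U : Filter ℕ), ∀ x ∈ J n,
      59 / 100 ≤ |grr (mkL lev f b n v x).phi (L n x.1) a|) : AxB J (flT lev f b a θ L) := by
  obtain ⟨l0, l1⟩ := lvl_mem (βL (θ 0) (θ 1) 7)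
  refine ⟨a, ?_⟩
  filter_upwards [hl _ l0 l1, mark_L h hG l0 l1] with n hn hm x hx
  have h1 := hn x hx
  have h2 := gr_le_two (hm x hx).ok (hm x hx).ray
  have e1 : vb (flT lev f b a θ L n x) =
      grr (psi lev f b a n (lvl (βL (θ 0) (θ 1) 7)) x) (L n x.1) := by
    ext i
    fin_cases i <;> rfl
  have hσ : Sg (nsg a (mkL lev f b n (lvl (βL (θ 0) (θ 1) 7)) x).phi
    (bray (mkL lev f b n (lvl (βL (θ 0) (θ 1) 7)) x))) := nsg_sg _ _ _
  have e2 : ∀ c, |vb (flT lev f b a θ L n x) c| =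
      |grr (mkL lev f b n (lvl (βL (θ 0) (θ 1) 7)) x).phi (L n x.1) c| := fun c => by
    rw [e1]
    unfold psi psm
    rw [sm_grr, PiLp.smul_apply, smul_eq_mul, abs_mul, hσ.abs, one_mul]
  refine ⟨by rw [e2]; linarith, fun c => ?_⟩
  rw [e2]
  exact (le_norm2 _ c).trans (h2.trans (by norm_num))

/-- **439's `thin_sys` with the axis** (same proof) -/
theorem thin_sysX (h : MkA B I G lev A (fun v => g * v) (fun v => s * v)
    (fun j v => θ j * (1 - v)) f b vm w) (hG : IsL G L r) {C : ℝ}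
    (hT : TiltL B I L lev f b w C) (hThin : Thin B w) :
    ∃ (a : Fin 2) (J : ℕ → Finset (ℕ × ℝ)), Dense B J I ∧
      TSys PL G g s θ (βL (θ 0) (θ 1)) B J lev A f b vm w (frL lev f b a) (prN lev w)
        (flT lev f b a θ L) (scN lev w) ∧
      FlagD J L lev f (frL lev f b a) (flT lev f b a θ L) ∧
      (∀ k, InvT PL B J k (flT lev f b a θ L) (scN lev w k) ∨ 0 < βL (θ 0) (θ 1) k) ∧
      AxB J (flT lev f b a θ L) := by
  obtain ⟨a, J1, hJ1, hax⟩ := Crest.Agent.R116.KFx126.axis h hG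
  obtain ⟨J2, h2s, h2d, -, hM2⟩ := h.refine' hJ1
  obtain ⟨J3, h3s, h3d, hlarge, htilt⟩ := tilt_norm hM2 hG (hT.dense (h2d.trans hJ1)) hThin
    (a := a) (hax.mono fun n hn x hx => hn x (h2s n hx))
  obtain ⟨J4, h4s, h4d, -, hM4⟩ := hM2.refine' h3d
  have hE : EndClose J4 B L lev f b w θ a := endClose hM4 (C := C) fun u v h0 huv h1 ε hε =>
    (htilt u v h0 huv h1 ε hε).mono fun n hn x hx => hn x (h4s n hx)
  have hl4 : ∀ v : ℚ, 0 ≤ v → v ≤ 1 → ∀ᶠ n in (U : Filter ℕ), ∀ x ∈ J4 n,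
      59 / 100 ≤ |grr (mkL lev f b n v x).phi (L n x.1) a| := fun v h0 h1 =>
    (hlarge v h0 h1).mono fun n hn x hx => hn x (h4s n hx)
  refine ⟨a, J4, h4d.trans (h3d.trans (h2d.trans hJ1)), tsys_thin hM4 hG hE,
    ⟨fun n x => KF439.comp_rayL _ _ _ _ _, fun n x => rfl,
      fun n v x y hxy => frL_kc lev f b a n v x y hxy, vb_thin hl4⟩, fun k => ?_,
    axB_thin hM4 hG hl4⟩
  by_cases hk : 0 < βL (θ 0) (θ 1) k
  · exact Or.inr hk
  · refine Or.inl (inv_thin hM4 k ?_ (fun _ => not_lt.1 hk) _ fun n => spN_pos lev w 0 k n)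
    rintro rfl
    exact hk (by rw [βL_zero]; exact one_pos)

/-- axis of the normalised flags -/
theorem axB_unit (h : MkA B J G lev A c Λ τ f b vm w) (hG : IsL G L r) {a : Fin 2}
    (hl : ∀ v : ℚ, 0 ≤ v → v ≤ 1 → ∀ᶠ n in (U : Filter ℕ), ∀ x ∈ J n,
      59 / 100 ≤ |grr (mkL lev f b n v x).phi (L n x.1) a|) : AxB J (flN lev f b a θ L) := by
  refine ⟨a, ?_⟩
  filter_upwards [vb_unit (θ := θ) h hG hl] with n hn x hx
  obtain ⟨h1, h2⟩ := hn x hx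
  refine ⟨h2, fun c => (le_norm2 _ c).trans ?_⟩
  rw [h1]
  norm_num

/-- gradients of length `1` -/
def NrB (I : ℕ → Finset (ℕ × ℝ)) (fl : ℕ → ℕ × ℝ → LInc) : Prop :=
  ∀ᶠ n in (U : Filter ℕ), ∀ x ∈ I n, Xd954.bb (fl n x) 0 ^ 2 + Xd954.bb (fl n x) 1 ^ 2 = 1

theorem NrB.sub {I J : ℕ → Finset (ℕ × ℝ)} {fl : ℕ → ℕ × ℝ → LInc} (h : NrB I fl)
    (hJ : ∀ᶠ n in (U : Filter ℕ), J n ⊆ I n) : NrB J fl := by
  filter_upwards [h, hJ] with n a1 a2 x hx using a1 x (a2 hx)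

/-- **439's `thin_sys` with normalised composite flags** -/
theorem thin_sysN (h : MkA B I G lev A (fun v => g * v) (fun v => s * v)
    (fun j v => θ j * (1 - v)) f b vm w) (hG : IsL G L r) {C : ℝ}
    (hT : TiltL B I L lev f b w C) (hThin : Thin B w) :
    ∃ (a : Fin 2) (J : ℕ → Finset (ℕ × ℝ)), Dense B J I ∧
      TSys PL G g s θ (βL (θ 0) (θ 1)) B J lev A f b vm w (frL lev f b a) (prN lev w)
        (flN lev f b a θ L) (scN lev w) ∧
      FlagD J L lev f (frL lev f b a) (flN lev f b a θ L) ∧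
      (∀ k, InvT PL B J k (flN lev f b a θ L) (scN lev w k) ∨ 0 < βL (θ 0) (θ 1) k) ∧
      AxB J (flN lev f b a θ L) ∧ NrB J (flN lev f b a θ L) := by
  obtain ⟨a, J1, hJ1, hax⟩ := Crest.Agent.R116.KFx126.axis h hG
  obtain ⟨J2, h2s, h2d, -, hM2⟩ := h.refine' hJ1
  obtain ⟨J3, h3s, h3d, hlarge, htilt⟩ := tilt_norm hM2 hG (hT.dense (h2d.trans hJ1)) hThin
    (a := a) (hax.mono fun n hn x hx => hn x (h2s n hx))
  obtain ⟨J4, h4s, h4d, -, hM4⟩ := hM2.refine' h3d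
  have hE : EndClose J4 B L lev f b w θ a := endClose hM4 (C := C) fun u v h0 huv h1 ε hε =>
    (htilt u v h0 huv h1 ε hε).mono fun n hn x hx => hn x (h4s n hx)
  have hl4 : ∀ v : ℚ, 0 ≤ v → v ≤ 1 → ∀ᶠ n in (U : Filter ℕ), ∀ x ∈ J4 n,
      59 / 100 ≤ |grr (mkL lev f b n v x).phi (L n x.1) a| := fun v h0 h1 =>
    (hlarge v h0 h1).mono fun n hn x hx => hn x (h4s n hx)
  have hu := vb_unit (θ := θ) hM4 hG hl4
  refine ⟨a, J4, h4d.trans (h3d.trans (h2d.trans hJ1)), tsys_unit hM4 hG hE,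
    ⟨fun n x => KF439.comp_rayL _ _ _ _ _, fun n x => rfl,
      fun n v x y hxy => frL_kc lev f b a n v x y hxy, ?_⟩, fun k => ?_,
    axB_unit hM4 hG hl4, ?_⟩
  · filter_upwards [hu] with n hn x hx
    rw [(hn x hx).1]
    norm_num
  · by_cases hk : 0 < βL (θ 0) (θ 1) k
    · exact Or.inr hk
    · refine Or.inl (inv_unit hM4 k ?_ (fun _ => not_lt.1 hk) _ fun n => spN_pos lev w 0 k n)
      rintro rfl
      exact hk (by rw [βL_zero]; exact one_pos)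
  · filter_upwards [hu] with n hn x hx
    rw [Xd954.bb_sq, (hn x hx).1, one_pow]

end axis

/-! ### output -/

/-- **thin case**: one window of the light-ray chart -/
structure OutT (G : Geo TSet (Fin 2)) (L : ℕ → ℕ → LRay) (r : ℕ → ℝ) (g s : ℝ)
    (θ q : Fin 2 → ℝ) (Rg : ℝ) (B : Base) (I : ℕ → Finset (ℕ × ℝ)) (lev : ℕ → ℚ → ℕ) (A : ℕ → ℝ)
    (f : ℕ → ℚ → ℕ → ℤ → ℕ) (b : ℕ → ℚ → ℕ → TSet) (vm : ℕ → ℚ → ℝ) (w : Fin 2 → ℕ → ℚ → ℝ)
    (fr : ℕ → ℚ → ℕ × ℝ → LInc) (fl : ℕ → ℕ × ℝ → LInc) (sc : Fin 12 → ℕ → ℝ) : Prop where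
  win : LWin G L r g s θ q Rg B I lev A f b vm w fr fl sc
  thin : Thin B w
  /-- the flag is large along a fixed axis -/
  ax : AxB I fl
  /-- `||vb| ^ 2 - 1| s0 ≤ s1 d^(-ε)` (helper369) -/
  nrm : Bd369.FlagN B I fl (sN lev w)
  /-- every slot is constant along the lines, or tied with linear modulus, or the product of visible
  slots -/
  cls : ∀ j, InvT PL B I j fl (sc j) ∨
    (0 < βL (θ 0) (θ 1) j ∧
      RotT PL B I lev j fl (sc j) (βL (θ 0) (θ 1) j) (fun u => βL (θ 0) (θ 1) j * u) ∧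
      TwP PL B I lev j fl (sc j) (βL (θ 0) (θ 1) j)) ∨
    (0 < βL (θ 0) (θ 1) j ∧ ∃ a ∈ monL.mon j,
      ∑ t, (a t : ℝ) * βL (θ 0) (θ 1) t = βL (θ 0) (θ 1) j ∧
      ∀ t, a t ≠ 0 → ¬ InvT PL B I t fl (sc t))
  /-- `k' = 1` -/
  kone : βL (θ 0) (θ 1) 1 = 0 → InvT PL B I 2 fl (sc 2) ∨ STwL2 B I lev fl (sc 2)
  /-- `||vb| ^ 2 - 1| s0 ≤ s1 d^(θ 1 - θ 0 - ε)` (helper710) -/
  nrz : 0 ≤ θ 0 → ∀ ε : ℝ, 0 < ε → ∀ᶠ n in (U : Filter ℕ), ∀ x ∈ I n,
    |Xd954.bb (fl n x) 0 ^ 2 + Xd954.bb (fl n x) 1 ^ 2 - 1| * sN lev w 0 n ≤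
      sN lev w 1 n * B.d n ^ (θ 1 - θ 0 - ε)
  /-- the gradients of the flags have length `1` -/
  nr1 : ∀ᶠ n in (U : Filter ℕ), ∀ x ∈ I n,
    Xd954.bb (fl n x) 0 ^ 2 + Xd954.bb (fl n x) 1 ^ 2 = 1

/-- **round case**: one window, flat flags -/
structure OutR (G : Geo TSet (Fin 2)) (L : ℕ → ℕ → LRay) (r : ℕ → ℝ) (g s : ℝ)
    (θ q : Fin 2 → ℝ) (Rg : ℝ) (a : Fin 2) (B : Base) (I : ℕ → Finset (ℕ × ℝ)) (lev : ℕ → ℚ → ℕ)
    (A : ℕ → ℝ) (f : ℕ → ℚ → ℕ → ℤ → ℕ) (b : ℕ → ℚ → ℕ → TSet) (vm : ℕ → ℚ → ℝ)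
    (w : Fin 2 → ℕ → ℚ → ℝ) : Prop where
  win : LWin G L r g s θ q Rg B I lev A f b vm w (frF lev f b a) (flF a L) (scN lev w)
  thick : Thick B w
  inv : ∀ k, k ≠ 0 → InvT PL B I k (flF a L) (scN lev w k)

section win

variable {G : Geo TSet (Fin 2)} {L : ℕ → ℕ → LRay} {r : ℕ → ℝ} {g s : ℝ} {θ q : Fin 2 → ℝ}
    {Rg K Kw Kx : ℝ} {X Y : Fin 2 → ℕ → ℝ} {Lo Ly : ℕ → ℝ} {l0 l1 k0 k1 : ℕ → ℕ} {B : Base}
    {I : ℕ → Finset (ℕ × ℝ)} {lev : ℕ → ℚ → ℕ} {A : ℕ → ℝ}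
    {f : ℕ → ℚ → ℕ → ℤ → ℕ} {b : ℕ → ℚ → ℕ → TSet} {vm : ℕ → ℚ → ℝ} {w : Fin 2 → ℕ → ℚ → ℝ}
    {fr : ℕ → ℚ → ℕ × ℝ → LInc} {fl : ℕ → ℕ × ℝ → LInc} {sc : Fin 12 → ℕ → ℝ}

/-- **a window of a thin system** -/
theorem lwin_thin (a : Fin 2)
    (h : TSys PL G g s θ (βL (θ 0) (θ 1)) B I lev A f b vm w (frL lev f b a)
      (fun k n v => prN lev w k n v) fl sc) (hG : IsL G L r) (hv : ValL G q)
    (hq : ∀ j, 0 ≤ q j) (hs : s < 1) (hthin : Thin B w)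
    (hadm : AdmR B G lev (sN lev w) (2 * kD) 1 Rg)
    (hz : ∀ n x, (fl n x).z = x.2) (hray : ∀ n x, rayL (fl n x) = L n x.1)
    (hb : ∀ᶠ n in (U : Filter ℕ), ∀ x ∈ I n, 1 / 2 ≤ ‖vb (fl n x)‖) :
    LWin G L r g s θ q Rg B I lev A f b vm w (frL lev f b a) fl sc := by
  have hsf := sN_fact h.mka hG
  have he : ∀ ε : ℝ, 0 < ε → ∀ᶠ n in (U : Filter ℕ), ∀ x ∈ I n,
      |(fl n x).et| * sN lev w 0 n ≤ B.d n ^ (-ε) := fun ε hε =>
    he_of h hz (hsf.mono fun n hn => hn.1) (frL_fact a h.mka hG) hε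
  have hd := dflat h.mka hs (fun n => sN_pos lev w 0 n) (fun n x _ => hz n x) he
    (own_thin (fun k n a b => PL_d k n a b) h (fun _ _ _ => rfl) hthin)
  exact
  { sys := h
    hfr := fun n v x y hxy => frL_kc lev f b a n v x y hxy
    isL := hG
    val := hv
    hz := hz
    ray := hray
    dat := LData_of h.mka hG hv hq le_rfl hadm (fun n x _ => hz n x) (fun n x _ => hray n x) hb he
      (fun ε hε => by
        have := hd ε hε
        rwa [neg_zero, zero_sub])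
    s10 := hsf.mono fun n hn => hn.1 }

/-- base of a window -/
theorem win_L {B B' : Base} {H : ℕ → ℝ} (hH : ∀ n, 0 < H n ∧ H n ≤ 1)
    (hB : ∀ n, B'.d n = B.d n ^ H n) (n : ℕ) : B'.L n ≤ B.L n := by
  have e : B'.L n = H n * B.L n := by
    unfold Base.L
    rw [hB, Real.log_rpow (B.pos n)]
    ring
  rw [e]
  exact mul_le_of_le_one_left (B.L_pos n).le (hH n).2

/-- **from the second zoom to the output.** `X, Lo, l0, l1` : static range of the test sets;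
`Y, Ly, k0, k1` : static thin range. -/
theorem outT_of_nat (a : Fin 2)
    (h : NatL3 PL (flagG G (fun n i J s => GdW X Lo l0 l1 Kw n i J s ∧ GdW Y Ly k0 k1 Kx n i J s))
      g s θ (βL (θ 0) (θ 1)) (βL (θ 0) (θ 1)) fl B I lev f (fun n v a => (true, b n v a)) vm w
      (frL lev f b a) (fun k n v => prN lev w k n v))
    (hG : IsL G L r) (hv : ValL G q) (hq : ∀ j, 0 ≤ q j) (hs : s < 1)
    (hS : AdmS G X Lo l0 l1 K) (hLo : ∀ᶠ n in (U : Filter ℕ), B.L n ≤ Lo n) (hRg : 0 ≤ Rg)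
    (hK : Rg + Kw + 2 ≤ K)
    (hY : ∀ j, ∀ᶠ n in (U : Filter ℕ), 0 < Y j n) (hth : STh Y Ly)
    (hLy : ∀ᶠ n in (U : Filter ℕ), B.L n ≤ Ly n)
    (hz : ∀ n x, (fl n x).z = x.2) (hray : ∀ n x, rayL (fl n x) = L n x.1)
    (hb : ∀ᶠ n in (U : Filter ℕ), ∀ x ∈ I n, 1 / 2 ≤ ‖vb (fl n x)‖) (hax : AxB I fl)
    (hnr : NrB I fl) :
    ∃ (B' : Base) (I' : ℕ → Finset (ℕ × ℝ)) (lev' : ℕ → ℚ → ℕ) (A' : ℕ → ℝ)
      (f' : ℕ → ℚ → ℕ → ℤ → ℕ) (b' : ℕ → ℚ → ℕ → TSet) (vm' : ℕ → ℚ → ℝ)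
      (w' : Fin 2 → ℕ → ℚ → ℝ) (fr' : ℕ → ℚ → ℕ × ℝ → LInc) (fl' : ℕ → ℕ × ℝ → LInc)
      (sc' : Fin 12 → ℕ → ℝ), OutT G L r g s θ q Rg B' I' lev' A' f' b' vm' w' fr' fl' sc' := by
  obtain ⟨H, mm, B', I', A', sc', cc, h1, -, -, h2, h3, -, h4, -, h5, h6⟩ := h
  have hgood : GoodM I' (fun n x => lev n (mm n x)) (fun n x => f n (mm n x))
      (fun n x => b n (mm n x))
      (fun n i J s => GdW X Lo l0 l1 Kw n i J s ∧ GdW Y Ly k0 k1 Kx n i J s) :=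
    goodM_unflag (b := fun n x => b n (mm n x)) h4.mka
  have hsys : TSys PL G g s θ (βL (θ 0) (θ 1)) B' I' (fun n x => lev n (mm n x)) A'
      (fun n x => f n (mm n x)) (fun n x => b n (mm n x)) (fun n x => vm n (mm n x))
      (fun j n x => w j n (mm n x)) (fun n x => frL lev f b a n (mm n x))
      (fun j n x => prN lev w j n (mm n x)) (rg cc fl) sc' :=
    tsys_unflag (b := fun n x => b n (mm n x)) h4
  have hsys' : TSys PL G g s θ (βL (θ 0) (θ 1)) B' I' (fun n x => lev n (mm n x)) A'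
      (fun n x => f n (mm n x)) (fun n x => b n (mm n x)) (fun n x => vm n (mm n x))
      (fun j n x => w j n (mm n x))
      (frL (fun n x => lev n (mm n x)) (fun n x => f n (mm n x)) (fun n x => b n (mm n x)) a)
      (fun k n v => prN (fun n x => lev n (mm n x)) (fun j n x => w j n (mm n x)) k n v)
      (rg cc fl) sc' := hsys
  have hL1 : ∀ᶠ n in (U : Filter ℕ), B'.L n ≤ Lo n :=
    hLo.mono fun n hn => (win_L h1 h2 n).trans hn
  have hL2 : ∀ᶠ n in (U : Filter ℕ), B'.L n ≤ Ly n :=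
    hLy.mono fun n hn => (win_L h1 h2 n).trans hn
  have hthin : Thin B' (fun j n x => w j n (mm n x)) :=
    thin_of_static hsys'.mka hG.wid hY hth (hgood.mono fun _ _ _ _ h => h.2) hL2
  have hadm : AdmR B' G (fun n x => lev n (mm n x))
      (sN (fun n x => lev n (mm n x)) (fun j n x => w j n (mm n x))) (2 * kD) 1 Rg :=
    admR_of_static hsys'.mka hG.wid hS (hgood.mono fun _ _ _ _ h => h.1) hL1 hRg hK
  have hbb : ∀ᶠ n in (U : Filter ℕ), ∀ x ∈ I' n, 1 / 2 ≤ ‖vb (rg cc fl n x)‖ := by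
    filter_upwards [hb, h3] with n a1 a2 x hx using a1 x (a2 hx)
  have hwin := lwin_thin a hsys' hG hv hq hs hthin hadm (fun n x => hz n x)
    (fun n x => hray n x) hbb
  exact ⟨B', I', fun n x => lev n (mm n x), A', fun n x => f n (mm n x),
    fun n x => b n (mm n x), fun n x => vm n (mm n x), fun j n x => w j n (mm n x),
    frL (fun n x => lev n (mm n x)) (fun n x => f n (mm n x)) (fun n x => b n (mm n x)) a,
    rg cc fl, sc', hwin, hthin, hax.sub h3,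
    Bd369.flagN_of a hsys' hG (fun n x => hz n x), h5, h6,
    fun h0 => Bd710.flagZ_of a hsys' hG (fun n x => hz n x) h0 (fun ε hε => by
      have := hwin.dat.hd ε hε
      rwa [neg_zero, zero_sub] at this), hnr.sub h3⟩

/-- **RESULT, thin case.** -/
theorem outT_thin (h : MkA B I G lev A (fun v => g * v) (fun v => s * v)
    (fun j v => θ j * (1 - v)) f b vm w) (hG : IsL G L r) (hv : ValL G q) (hq : ∀ j, 0 ≤ q j)
    (hs : s < 1) {C : ℝ} (hT : TiltL B I L lev f b w C) (hThin : Thin B w)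
    (hS : AdmS G X Lo l0 l1 K) (hgood : GoodM I lev f b (GdW X Lo l0 l1 Kw))
    (hLo : ∀ᶠ n in (U : Filter ℕ), B.L n ≤ Lo n) (hRg : 0 ≤ Rg) (hK : Rg + Kw + 2 ≤ K) :
    ∃ (B' : Base) (I' : ℕ → Finset (ℕ × ℝ)) (lev' : ℕ → ℚ → ℕ) (A' : ℕ → ℝ)
      (f' : ℕ → ℚ → ℕ → ℤ → ℕ) (b' : ℕ → ℚ → ℕ → TSet) (vm' : ℕ → ℚ → ℝ)
      (w' : Fin 2 → ℕ → ℚ → ℝ) (fr' : ℕ → ℚ → ℕ × ℝ → LInc) (fl' : ℕ → ℕ × ℝ → LInc)
      (sc' : Fin 12 → ℕ → ℝ), OutT G L r g s θ q Rg B' I' lev' A' f' b' vm' w' fr' fl' sc' := by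
  obtain ⟨a, J, hJ, hsys, hfd, hinv, hax, hnr⟩ := thin_sysN h hG hT hThin
  have hJs : ∀ᶠ n in (U : Filter ℕ), J n ⊆ I n := hJ.1
  have hKx : ∀ j, |θ j| + 3 ≤ |θ 0| + |θ 1| + 3 := fun j => by
    have h0 := abs_nonneg (θ 0)
    have h1 := abs_nonneg (θ 1)
    fin_cases j
    · show |θ 0| + 3 ≤ _
      linarith
    · show |θ 1| + 3 ≤ _
      linarith
  have hg2 : GoodM J lev f b (GdW (fun j n => w j n 1) B.L (fun n => lev n 0) (fun n => lev n 1)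
      (|θ 0| + |θ 1| + 3)) := goodM_init hsys.mka hG.wid hKx
  have hgg := (hgood.sub hJs).and hg2
  have hflag := tsys_flag hsys hgg
  have hnat := natL3 (C0 := βL (θ 0) (θ 1)) (fun k n a b => PL_d k n a b)
    (fun e he => monL_two e he) (fun h0 => by
      have := KF439.βL_one (θ 0) (θ 1)
      linarith) (fun j => le_rfl) hflag hinv (fun n v => prN_two lev w n v)
      (fun h0 => flOK_unit hsys.mka h0.le)
  exact outT_of_nat a hnat hG hv hq hs hS hLo hRg hK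
    (fun j => h.wpos j 1 zero_le_one le_rfl) (sth_of_thin hThin)
    (Eventually.of_forall fun n => le_rfl) hfd.z hfd.ray hfd.vb hax hnr

/-- **RESULT, round case.** -/
theorem outR_thick (h : MkA B I G lev A (fun v => g * v) (fun v => s * v)
    (fun j v => θ j * (1 - v)) f b vm w) (hG : IsL G L r) (hv : ValL G q) (hq : ∀ j, 0 ≤ q j)
    (hT : Thick B w) (hS : AdmS G X Lo l0 l1 K) (hgood : GoodM I lev f b (GdW X Lo l0 l1 Kw))
    (hLo : ∀ᶠ n in (U : Filter ℕ), B.L n ≤ Lo n) (hRg : 0 ≤ Rg) (hK : Rg + Kw + 2 ≤ K)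
    (a : Fin 2) : OutR G L r g s θ q Rg a B I lev A f b vm w := by
  obtain ⟨hsys, hfd, hfl, hinv, -⟩ := thick_sys h hG hT a
  have hsf := sN_fact h hG
  have hadm := admR_of_static h hG.wid hS hgood hLo hRg hK
  refine ⟨
    { sys := hsys
      hfr := hfd.kc
      isL := hG
      val := hv
      hz := hfd.z
      ray := hfd.ray
      dat := LData_of h hG hv hq le_rfl hadm (fun n x _ => hfd.z n x) (fun n x _ => hfd.ray n x)
        hfd.vb (fun ε _ => Eventually.of_forall fun n x _ => ?_)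
        (fun ε _ => Eventually.of_forall fun n x _ => ?_)
      s10 := hsf.mono fun n hn => hn.1 }, hT, hinv⟩
  · rw [(hfl n x).1, abs_zero, zero_mul]
    exact (dpow_pos B n _).le
  · rw [(hfl n x).2, abs_zero, zero_mul]
    exact (dpow_pos B n _).le

/-! ### `PreQ` of the outputs -/

/-- thin case: `Vis k` = not constant along the lines, `Td k` = tied. -/
theorem OutT.preQ (h : OutT G L r g s θ q Rg B I lev A f b vm w fr fl sc) (hRg : 0 < Rg)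
    {κ0 : ℝ} (hκ0 : 0 ≤ κ0) {w0 sa sb δ R : ℝ} (sh : Shift (θ 0) (θ 1) w0 sa sb δ R) :
    PreQ B I G lev A g s (fun j v => θ j * (1 - v)) f b vm w
      (Crest.Agent.R116.PL504.coN B lev w w0 sa sb fl) monL 2 R 0 w0
      (fun n => A n * vm n 0 * B.d n ^ (-(1 - s))) (PDL w0 sa sb Rg 0 κ0 R)
      (DT g s q θ w0 sa sb) (rL (θ 0) (θ 1) w0 sa sb)
      (oL (θ 0) (θ 1) w0 sa sb R fun k => ¬ InvT PL B I k fl (sc k)) (EL θ g s q)
      (fun k => ¬ InvT PL B I k fl (sc k) ∧ 0 < βL (θ 0) (θ 1) k ∧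
        RotT PL B I lev k fl (sc k) (βL (θ 0) (θ 1) k) (fun u => βL (θ 0) (θ 1) k * u)) :=
  h.win.preQ hRg hκ0 (hk_thin h.win.sys.mka h.thin κ0) sh (fun k hk => not_not.1 hk)
    fun k hk => ⟨hk.1, hk.2.1, _, le_rfl, hk.2.2⟩

/-- round case: all slots except the height are invisible. -/
theorem OutR.preQ {a : Fin 2} (h : OutR G L r g s θ q Rg a B I lev A f b vm w) (hRg : 0 < Rg)
    {w0 sa sb δ R : ℝ} (sh : Shift (θ 0) (θ 1) w0 sa sb δ R) :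
    PreQ B I G lev A g s (fun j v => θ j * (1 - v)) f b vm w
      (Crest.Agent.R116.PL504.coN B lev w w0 sa sb (flF a L)) monL 2 R 0 w0
      (fun n => A n * vm n 0 * B.d n ^ (-(1 - s))) (PDL w0 sa sb Rg 0 0 R)
      (DT g s q θ w0 sa sb) (rL (θ 0) (θ 1) w0 sa sb)
      (oL (θ 0) (θ 1) w0 sa sb R fun k => k = 0) (EL θ g s q) (fun _ => False) :=
  h.win.preQ hRg le_rfl h.win.hk0 sh (fun k hk => h.inv k hk) fun k hk => hk.elim

end win

end Crest.Agent.R116.Tw468
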