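import Crest.Agent.R116.GlC_210

/-!
# R116 (S0155), wave side, CHAIN-C (helper210): towers from `EXL`
-/

set_option autoImplicit false

open MeasureTheory
open scoped ENNReal

namespace Crest.Agent.R116.GlC210

open Crest.Agent.R116.CDef480 Crest.Agent.R116.WC188

theorem trn_congr {L L' : ℕ → Lev} {t : ℕ} (h : ∀ i ≤ t, L' i = L i) (j : ℕ) (hj : j ≤ t + 1) :
    trn L' j = trn L j := by
  funext i
  simp only [trn]
  split_ifs with hi
  · exact h i (by omega)
  · exact h 0 (by omega)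

theorem Tow.congr {M κ q A A' a b Cn : ℝ} {K : ℕ} {η0 : ℝ} {C0 : Crest.Agent.R138.Defs.E2}
    {σ : ℝ} {g : E3 → ℂ} {R dl ν : ℝ} {t : ℕ} {L L' : ℕ → Lev}
    (hT : Tow M κ q A A' a b Cn K η0 C0 σ g R dl ν t L) (h : ∀ i ≤ t, L' i = L i) :
    Tow M κ q A A' a b Cn K η0 C0 σ g R dl ν t L' where
  rad := fun i hi => by rw [h i hi]; exact hT.rad i hi
  ok := fun i hi => by rw [h i hi]; exact hT.ok i hi
  le := fun i hi => by rw [h i hi]; exact hT.le i hi
  next := fun i hi => by rw [h i hi.le, h (i + 1) (by omega)]; exact hT.next i hi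

/-- **towers exist.** -/
theorem towx {M q : ℝ} (hX : EXL M q) : TOWX M q := by
  intro 𝒜 na a b A ε M0 hRg hok n K
  obtain ⟨ε', hε', hεn⟩ : ∃ ε' : ℝ, 0 < ε' ∧ (2 * ((n : ℝ) + 1)) * ε' = ε := by
    have h1 : (0:ℝ) < 2 * ((n : ℝ) + 1) := by positivity
    exact ⟨ε / (2 * ((n : ℝ) + 1)), div_pos hRg.e0 h1, mul_div_cancel₀ _ h1.ne'⟩
  obtain ⟨Ca, hCa⟩ := hok.2.1 ε' hε'
  obtain ⟨Cb, hCb1, hCb⟩ : ∃ Cb : ℝ, 1 ≤ Cb ∧ ∀ R, 1 ≤ R → (na R : ℝ) ≤ Cb * R ^ ε' := by
    refine ⟨max 1 Ca, le_max_left _ _, fun R hR => (hCa R hR).trans ?_⟩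
    have : 0 ≤ R ^ ε' := Real.rpow_nonneg (by linarith) _
    gcongr
    exact le_max_right _ _
  obtain ⟨A', Cn, hA', hCn, hE⟩ := hX a b A ε' M0 ⟨hRg.a1, hRg.b0, hRg.b2, hRg.A1, hε'⟩ K
  have hB1 : 1 ≤ Cn * Cb := by nlinarith
  refine ⟨A', Cn, (Cn * Cb) ^ (n + 1) + Cn, hA', hCn, by
    have := one_le_pow₀ hB1 (n := n + 1)
    linarith, ?_⟩
  intro κ η0 C0 σ g R D hSs hKp hCR dl hdl0 hdl1 hRn
  have hR1 : 1 ≤ R := hSs.R1
  have hR0 : 0 < R := by linarith
  have hBn : 0 ≤ (Cn * Cb) ^ (n + 1) := by positivity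
  obtain ⟨hfirst, hnext⟩ := hE κ η0 C0 σ g R D hSs hKp (by linarith)
  set ν : ℝ := (Cn * Cb) ^ (n + 1) * R ^ ε with hν
  have hν1 : 1 ≤ ν := by
    have h1 := one_le_pow₀ hB1 (n := n + 1)
    have h2 : 1 ≤ R ^ ε := Real.one_le_rpow hR1 hRg.e0.le
    rw [hν]; nlinarith
  -- growth
  have hgrow : ∀ t ≤ n, (Cn * Cb) ^ (t + 1) * R ^ (2 * ((t : ℝ) + 1) * ε') ≤ ν := by
    intro t ht
    have ht' : (t : ℝ) ≤ n := by exact_mod_cast ht
    rw [hν, ← hεn]
    refine mul_le_mul (pow_le_pow_right₀ hB1 (by omega))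
      (Real.rpow_le_rpow_of_exponent_le hR1 ?_) (by positivity) (by positivity)
    gcongr
  have hrad : ∀ t ≤ n, R ^ (1/2 : ℝ) ≤ R * dl ^ t := fun t ht =>
    hRn.trans (mul_le_mul_of_nonneg_left (pow_le_pow_of_le_one hdl0.le hdl1 ht) hR0.le)
  have hradR : ∀ t : ℕ, R * dl ^ t ≤ R := fun t =>
    mul_le_of_le_one_right hR0.le (pow_le_one₀ hdl0.le hdl1)
  have key : ∀ t ≤ n, ∃ (L : ℕ → Lev) (ac : ℕ → ℕ → ℕ),
      Tow M κ q A A' a b Cn K η0 C0 σ g R dl ν t L ∧ Acl 𝒜 κ η0 g R dl t L ac ∧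
      ((L t).n : ℝ) ≤ (Cn * Cb) ^ (t + 1) * R ^ ((2 * (t : ℝ) + 1) * ε') := by
    intro t
    induction t with
    | zero =>
      intro _
      obtain ⟨L0, hr, hL0, hnb, hn⟩ := hfirst R (by
        have := hrad 0 (Nat.zero_le n)
        rwa [pow_zero, mul_one] at this) le_rfl
      have hn' : (L0.n : ℝ) ≤ (Cn * Cb) ^ (0 + 1) * R ^ ((2 * ((0 : ℕ) : ℝ) + 1) * ε') := by
        refine hn.trans ?_
        rw [zero_add, pow_one, Nat.cast_zero, mul_zero, zero_add, one_mul]
        have : 0 ≤ R ^ ε' := by positivity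
        gcongr
        nlinarith
      refine ⟨fun _ => L0, fun _ _ => 0, ⟨?_, ?_, ?_, ?_⟩, ?_, hn'⟩
      · intro s hs
        have : s = 0 := by omega
        subst this
        rw [pow_zero, mul_one]; exact hr
      · intro s _; exact hL0
      · intro s _
        refine ⟨hn'.trans (le_trans ?_ (hgrow 0 (Nat.zero_le n))), ?_⟩
        · gcongr
          push_cast; linarith
        · rw [hnb, Nat.cast_one]; exact hν1
      · intro s hs; omega
      · intro s hs; omega
    | succ t ih =>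
      intro ht
      obtain ⟨L, ac, hT, hA, hn⟩ := ih (by omega)
      have hTtr : Tow M κ q A A' a b Cn K η0 C0 σ g R dl ν t (trn L (t + 1)) :=
        hT.congr fun i hi => by simp only [trn]; rw [if_pos (by omega)]
      have hlt : (L t).r = R * dl ^ t := hT.rad t le_rfl
      obtain ⟨L', acn, hr', hok', hnx, hcls, hac, hnb, hn'⟩ := hnext (L t) (hT.ok t le_rfl)
        (R * dl ^ (t + 1)) (hrad (t + 1) ht) (by
          rw [hlt, pow_succ, ← mul_assoc]
          exact mul_le_of_le_one_right (by positivity) hdl1) (na R)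
        (𝒜 κ η0 g R dl (trn L (t + 1)) (t + 1)) (hok.1 R)
        (fun z f m y => hok.2.2.1 κ η0 g R dl _ _ z f m y)
        (fun z f m => hok.2.2.2 κ η0 C0 σ g R D hSs hKp A A' Cn dl ν K t _ hdl0 hdl1 hTtr
          (hrad (t + 1) ht) z f m)
      obtain ⟨L2, hL, hL'⟩ : ∃ L2 : ℕ → Lev, (∀ i ≤ t, L2 i = L i) ∧ L2 (t + 1) = L' :=
        ⟨fun i => if i ≤ t then L i else L', fun i hi => by simp only [if_pos hi],
          by simp only [if_neg (show ¬ t + 1 ≤ t by omega)]⟩
      obtain ⟨ac2, hc2, hc2'⟩ : ∃ ac2 : ℕ → ℕ → ℕ, (∀ i ≤ t, ac2 i = ac i) ∧ ac2 (t + 1) = acn :=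
        ⟨fun i => if i ≤ t then ac i else acn, fun i hi => by simp only [if_pos hi],
          by simp only [if_neg (show ¬ t + 1 ≤ t by omega)]⟩
      have hT2 := hT.congr hL
      -- numbers of labels and classes
      have hna := hCb R hR1
      have hnaR : (0:ℝ) ≤ na R := Nat.cast_nonneg _
      have hLn0 : (0:ℝ) ≤ (L t).n := Nat.cast_nonneg _
      have hnbν : (L'.nb : ℝ) ≤ Cb * ((Cn * Cb) ^ (t + 1) * R ^ ((2 * (t : ℝ) + 2) * ε')) := by
        rw [hnb]
        push_cast
        calc ((L t).n : ℝ) * na R ≤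
              ((Cn * Cb) ^ (t + 1) * R ^ ((2 * (t : ℝ) + 1) * ε')) * (Cb * R ^ ε') :=
              mul_le_mul hn hna hnaR (by positivity)
          _ = Cb * ((Cn * Cb) ^ (t + 1) * (R ^ ((2 * (t : ℝ) + 1) * ε') * R ^ ε')) := by ring
          _ = _ := by
              rw [← Real.rpow_add hR0]
              congr 3
              ring
      have hn2 : (L'.n : ℝ) ≤
          (Cn * Cb) ^ (t + 1 + 1) * R ^ ((2 * ((t + 1 : ℕ) : ℝ) + 1) * ε') := by
        calc (L'.n : ℝ) ≤ Cn * R ^ ε' * L'.nb := hn'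
          _ ≤ Cn * R ^ ε' * (Cb * ((Cn * Cb) ^ (t + 1) * R ^ ((2 * (t : ℝ) + 2) * ε'))) := by
              gcongr
          _ = (Cn * Cb) ^ (t + 1 + 1) * (R ^ ε' * R ^ ((2 * (t : ℝ) + 2) * ε')) := by ring
          _ = _ := by
              rw [← Real.rpow_add hR0]
              congr 2
              push_cast
              ring
      refine ⟨L2, ac2, ⟨?_, ?_, ?_, ?_⟩, ?_, ?_⟩
      · intro s hs
        rcases Nat.lt_or_ge s (t + 1) with h | h
        · exact hT2.rad s (by omega)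
        · have : s = t + 1 := by omega
          subst this
          rw [hL']; exact hr'
      · intro s hs
        rcases Nat.lt_or_ge s (t + 1) with h | h
        · exact hT2.ok s (by omega)
        · have : s = t + 1 := by omega
          subst this
          rw [hL']; exact hok'
      · intro s hs
        rcases Nat.lt_or_ge s (t + 1) with h | h
        · exact hT2.le s (by omega)
        · have : s = t + 1 := by omega
          subst this
          rw [hL']
          refine ⟨hn2.trans (le_trans ?_ (hgrow (t + 1) ht)), hnbν.trans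
            (le_trans ?_ (hgrow (t + 1) ht))⟩
          · gcongr
            linarith
          · have e : Cb ≤ Cn * Cb := by nlinarith
            calc Cb * ((Cn * Cb) ^ (t + 1) * R ^ ((2 * (t : ℝ) + 2) * ε'))
                ≤ (Cn * Cb) * ((Cn * Cb) ^ (t + 1) * R ^ (2 * (((t + 1 : ℕ) : ℝ) + 1) * ε')) := by
                  gcongr
                  push_cast; linarith
              _ = _ := by ring
      · intro s hs
        rcases Nat.lt_or_ge s t with h | h
        · exact hT2.next s h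
        · have : s = t := by omega
          subst this
          rw [hL', hL s le_rfl]
          exact hnx
      · intro s hs
        rw [trn_congr hL (s + 1) (by omega)]
        rcases Nat.lt_or_ge s t with h | h
        · rw [hL (s + 1) (by omega), hc2 (s + 1) (by omega)]
          exact hA s h
        · have : s = t := by omega
          subst this
          rw [hL', hc2']
          exact hcls
      · rw [hL']; exact hn2
  obtain ⟨L, ac, hT, hA, -⟩ := key n le_rfl
  refine ⟨L, ac, ν, hν1, ?_, hT, hA⟩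
  rw [hν]
  have : 0 ≤ R ^ ε := by positivity
  gcongr
  linarith

end Crest.Agent.R116.GlC210
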