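import Crest.Agent.R116.CWp4_480

/-!
# R116: UPPER-C, generic part (helper448)

Inner product space `V`, cell metric `A`, plate metric `Ap` with `‖Ap x‖ ≤ ‖A x‖`, one direction `u`
with `‖A u‖ ≤ 1`. Pieces `f m` with frequencies in the `Ap`-dual ball at `c m` and in the class
`|⟪ζ, u⟫ - kx m| ≤ M`: orthogonality of the classes on the cell, Cauchy-Schwarz inside the class,
local constancy of one piece.
-/

set_option autoImplicit false
set_option linter.unusedSectionVars false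
set_option linter.unusedVariables false

open MeasureTheory FourierTransform
open scoped ContDiff ENNReal

namespace Crest.Agent.R116.UpC448

open Crest.Agent.R138.Wf448
open Crest.Agent.R116.CWp480

variable {V : Type} [NormedAddCommGroup V] [InnerProductSpace ℝ V] [FiniteDimensional ℝ V]
  [MeasurableSpace V] [BorelSpace V]

theorem inner_le_adjE (A : V ≃L[ℝ] V) {u : V} (hu : ‖A u‖ ≤ 1) (ζ : V) :
    |inner ℝ ζ u| ≤ ‖(adjE A).symm ζ‖ := by
  have e : inner ℝ ζ u = inner ℝ ((adjE A).symm ζ) (A u) := by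
    rw [← inner_adjE, ContinuousLinearEquiv.apply_symm_apply]
  rw [e]
  refine (abs_real_inner_le_norm _ _).trans ?_
  have := norm_nonneg ((adjE A).symm ζ)
  nlinarith

theorem card_near_int (a : ℝ) (M : ℕ) (K : Finset ℤ) :
    ((K.filter fun k : ℤ => |a - k| < M + 1).card : ℝ) ≤ 2 * M + 3 := by
  have h : (K.filter fun k : ℤ => |a - k| < M + 1) ⊆ Finset.Icc (⌊a⌋ - (M + 1)) (⌊a⌋ + (M + 1)) := by
    intro k hk
    rw [Finset.mem_filter] at hk
    have h1 := abs_lt.1 hk.2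
    have h2 := Int.floor_le a
    have h3 := Int.lt_floor_add_one a
    rw [Finset.mem_Icc]
    constructor
    · have : (⌊a⌋ : ℝ) - (M + 1) < k + 1 := by linarith
      have h4 : ⌊a⌋ - (M + 1) < k + 1 := by exact_mod_cast this
      omega
    · have : (k : ℝ) < ⌊a⌋ + 1 + (M + 1) := by linarith
      have h4 : k < ⌊a⌋ + 1 + (M + 1) := by exact_mod_cast this
      omega
  have h2 := Finset.card_le_card h
  rw [Int.card_Icc] at h2
  have h3 : (⌊a⌋ + (M + 1 : ℤ) + 1 - (⌊a⌋ - (M + 1 : ℤ))).toNat = 2 * M + 3 := by omega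
  rw [h3] at h2
  exact_mod_cast h2

open Classical in
/-- **orthogonality of strips** in the cell metric. -/
theorem strip_rowV (V : Type) [NormedAddCommGroup V] [InnerProductSpace ℝ V]
    [FiniteDimensional ℝ V] [MeasurableSpace V] [BorelSpace V] (n : ℕ) :
    ∃ C : ℝ, 0 ≤ C ∧ ∀ (A : V ≃L[ℝ] V) (u : V), ‖A u‖ ≤ 1 →
    ∀ (c : V) (M : ℕ) (K : Finset ℤ) (g : ℤ → V → ℂ), (∀ k, Integrable (g k)) →
    (∀ k, MemLp (g k) 2) → (∀ k ∈ K, ∀ ζ, g k ζ ≠ 0 → |inner ℝ ζ u - k| ≤ M) →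
    wE n (A : V →L[ℝ] V) c (fun ζ => ∑ k ∈ K, g k ζ) ≤
      ENNReal.ofReal (C * (2 * M + 3)) * ∑ k ∈ K, wE n (A : V →L[ℝ] V) c (g k) := by
  obtain ⟨C1, hC1, h1⟩ := orthoA_row (V := V) n
  refine ⟨C1, hC1, ?_⟩
  intro A u hu c M K g hg hg2 hS
  have h2 := h1 A c {k // k ∈ K} (fun k => {ζ | |inner ℝ ζ u - (k : ℤ)| ≤ M}) (fun k => g k)
    (2 * M + 3) (by positivity) ?_ (fun k ζ h => hS k k.2 ζ h) (fun k => hg k) (fun k => hg2 k)
  · have e1 : (fun ζ => ∑ k : {k // k ∈ K}, g k ζ) = fun ζ => ∑ k ∈ K, g k ζ := by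
      funext ζ
      exact Finset.sum_coe_sort K (fun k => g k ζ)
    rw [e1, Finset.sum_coe_sort K (fun k => wE n (A : V →L[ℝ] V) c (g k))] at h2
    exact h2
  · intro ξ
    refine le_trans ?_ (card_near_int (inner ℝ ξ u) M K)
    have e3 : {i : {k // k ∈ K} | ξ ∈ thk A {ζ | |inner ℝ ζ u - ((i : ℤ) : ℝ)| ≤ M}} ⊆
        (Subtype.val ⁻¹' {k : ℤ | |inner ℝ ξ u - k| < M + 1}) := by
      rintro i ⟨z, hz, hz2⟩
      have hz' : |inner ℝ z u - ((i : ℤ) : ℝ)| ≤ M := hz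
      have h3 := inner_le_adjE A hu (ξ - z)
      show |inner ℝ ξ u - ((i : ℤ) : ℝ)| < M + 1
      have e : inner ℝ ξ u - ((i : ℤ) : ℝ) = inner ℝ (ξ - z) u + (inner ℝ z u - ((i : ℤ) : ℝ)) := by
        rw [inner_sub_left]; ring
      rw [e]
      refine (abs_add_le _ _).trans_lt ?_
      linarith
    have e4 : (Subtype.val '' {i : {k // k ∈ K} | ξ ∈ thk A {ζ | |inner ℝ ζ u - ((i : ℤ) : ℝ)| ≤ M}}) ⊆
        ((K.filter fun k : ℤ => |inner ℝ ξ u - k| < M + 1 : Finset ℤ) : Set ℤ) := by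
      rintro k ⟨i, hi, rfl⟩
      simp only [Finset.coe_filter, Set.mem_ofPred_eq]
      exact ⟨i.2, e3 hi⟩
    rw [← Set.ncard_image_of_injective _ Subtype.val_injective, ← Set.ncard_coe_finset]
    exact_mod_cast Set.ncard_le_ncard e4 (Finset.finite_toSet _)

theorem real_key {a b d t : ℝ} (ha : 0 ≤ a) (hb : 0 ≤ b) (hd : 0 ≤ d) (ht : 0 ≤ t) (hat : a ≤ t)
    (hdab : d ≤ a + b) : 1 + d ^ 2 ≤ 2 * ((1 + t ^ 2) * (1 + b ^ 2)) := by
  have q1 : a ^ 2 ≤ t ^ 2 := pow_le_pow_left₀ ha hat 2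
  have q2 : d ^ 2 ≤ (a + b) ^ 2 := pow_le_pow_left₀ hd hdab 2
  have q3 : (a + b) ^ 2 ≤ 2 * a ^ 2 + 2 * b ^ 2 := by nlinarith [sq_nonneg (a - b)]
  have q4 : 0 ≤ t ^ 2 * b ^ 2 := by positivity
  nlinarith

/-- pointwise domination. -/
theorem cell_pt (n : ℕ) (A Ap : V ≃L[ℝ] V) (hA : ∀ x, ‖Ap x‖ ≤ ‖A x‖) (c x y : V) :
    ENNReal.ofReal (dw (n + dd V) (A : V →L[ℝ] V) (x - c)) *
      ENNReal.ofReal (dw n (Ap : V →L[ℝ] V) (y - x)) ≤
      dec (A (x - c)) * (ENNReal.ofReal (2 ^ n) *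
        ENNReal.ofReal (dw n (Ap : V →L[ℝ] V) (y - c))) := by
  unfold dec
  rw [← ENNReal.ofReal_mul (dw_pos _ _ _).le, ← ENNReal.ofReal_mul (by positivity),
    ← ENNReal.ofReal_mul (by positivity)]
  apply ENNReal.ofReal_le_ofReal
  rw [dw_def, dw_def, dw_def, pow_add, mul_inv, mul_comm (((1 + ‖A (x - c)‖ ^ 2) ^ n)⁻¹), mul_assoc]
  refine mul_le_mul_of_nonneg_left ?_ (by positivity)
  rw [← mul_inv, ← mul_pow, ← div_eq_mul_inv, ← one_div, div_le_div_iff₀ (by positivity)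
    (by positivity), one_mul, ← mul_pow]
  refine pow_le_pow_left₀ (by positivity) ?_ n
  refine real_key (norm_nonneg (Ap (x - c))) (norm_nonneg _) (norm_nonneg _) (norm_nonneg _)
    (hA (x - c)) ?_
  have : Ap (y - c) = Ap (x - c) + Ap (y - x) := by
    rw [← map_add]; congr 1; abel
  rw [this]; exact norm_add_le _ _

theorem measurable_dec (A : V ≃L[ℝ] V) (c : V) : Measurable fun x : V => dec (A (x - c)) := by
  have h : Continuous fun x : V => ((1 + ‖A (x - c)‖ ^ 2) ^ (dd V))⁻¹ := by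
    have h0 : Continuous fun x : V => A (x - c) := A.continuous.comp (continuous_id.sub continuous_const)
    have h1 : Continuous fun x : V => (1 + ‖A (x - c)‖ ^ 2) ^ (dd V) :=
      (continuous_const.add (h0.norm.pow 2)).pow _
    have h2 : ∀ x : V, (1 + ‖A (x - c)‖ ^ 2) ^ (dd V) ≠ 0 := fun x => by positivity
    exact h1.inv₀ h2
  exact h.measurable.ennreal_ofReal

/-- Tonelli for the cell and the plate weights. -/
theorem cell_avg (n : ℕ) (A Ap : V ≃L[ℝ] V) (hA : ∀ x, ‖Ap x‖ ≤ ‖A x‖) (c : V) {F : V → ℝ≥0∞}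
    (hF : Measurable F) :
    ∫⁻ z, ENNReal.ofReal (dw (n + dd V) (A : V →L[ℝ] V) (z - c)) *
        (∫⁻ x, ENNReal.ofReal (dw n (Ap : V →L[ℝ] V) (x - z)) * F x) ≤
      ENNReal.ofReal (2 ^ n * cdec V * (adet (A : V →L[ℝ] V))⁻¹) *
        ∫⁻ x, ENNReal.ofReal (dw n (Ap : V →L[ℝ] V) (x - c)) * F x := by
  have hw : Measurable fun z : V => dw (n + dd V) (A : V →L[ℝ] V) (z - c) :=
    ((continuous_dw (n + dd V) (A : V →L[ℝ] V)).comp
      (continuous_id.sub continuous_const)).measurable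
  rw [tonelli_w hw hF, ← lintegral_const_mul' _ _ ENNReal.ofReal_ne_top]
  refine lintegral_mono fun x => ?_
  rw [← mul_assoc]
  refine mul_le_mul' ?_ le_rfl
  have hdec := measurable_dec A c
  refine (lintegral_mono fun z => cell_pt n A Ap hA c z x).trans ?_
  rw [lintegral_mul_const _ hdec, lintegral_scale' A (fun z => dec z) c, lintegral_dec,
    ← mul_assoc, ← ENNReal.ofReal_mul (inv_nonneg.2 (adet0 A).le),
    ← ENNReal.ofReal_mul (mul_nonneg (inv_nonneg.2 (adet0 A).le) cdec_nonneg)]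
  refine mul_le_mul' (ENNReal.ofReal_le_ofReal (le_of_eq ?_)) le_rfl
  ring

/-- `R0 • A`. -/
noncomputable def sclE (R0 : ℝ) (h : R0 ≠ 0) (A : V ≃L[ℝ] V) : V ≃L[ℝ] V :=
  A.trans (ContinuousLinearEquiv.smulLeft (Units.mk0 R0 h))

theorem sclE_apply (R0 : ℝ) (h : R0 ≠ 0) (A : V ≃L[ℝ] V) (x : V) : sclE R0 h A x = R0 • A x := rfl

theorem coe_sclE (R0 : ℝ) (h : R0 ≠ 0) (A : V ≃L[ℝ] V) :
    (sclE R0 h A : V →L[ℝ] V) = R0 • (A : V →L[ℝ] V) := by
  ext1 x; rfl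

theorem adet_sclE {R0 : ℝ} (h : 0 < R0) (A : V ≃L[ℝ] V) :
    adet (sclE R0 h.ne' A : V →L[ℝ] V) = R0 ^ Module.finrank ℝ V * adet (A : V →L[ℝ] V) := by
  rw [coe_sclE]
  unfold adet
  have e : ((R0 • (A : V →L[ℝ] V) : V →L[ℝ] V) : V →ₗ[ℝ] V) =
      R0 • (((A : V →L[ℝ] V) : V →ₗ[ℝ] V)) := rfl
  rw [e, LinearMap.det_smul, abs_mul, abs_of_pos (by positivity)]

theorem adj_sclE (R0 : ℝ) (h : R0 ≠ 0) (A : V ≃L[ℝ] V) (η : V) :
    adj (sclE R0 h A : V →L[ℝ] V) η = R0 • adj (A : V →L[ℝ] V) η := by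
  refine ext_inner_right ℝ fun v => ?_
  rw [ContinuousLinearMap.adjoint_inner_left, inner_smul_left,
    ContinuousLinearMap.adjoint_inner_left, coe_sclE]
  simp [inner_smul_right]

/-- **local constancy**: the energy of one piece in the cell. -/
theorem lcV (V : Type) [NormedAddCommGroup V] [InnerProductSpace ℝ V] [FiniteDimensional ℝ V]
    [MeasurableSpace V] [BorelSpace V] (n : ℕ) : ∃ C : ℝ, 0 ≤ C ∧ ∀ (A Ap : V ≃L[ℝ] V),
    (∀ x, ‖Ap x‖ ≤ ‖A x‖) → ∀ (c ζ0 : V) (R0 : ℝ), 1 ≤ R0 → ∀ (f : V → ℂ), Integrable f →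
    (∀ ζ, f ζ ≠ 0 → ‖(adjE Ap).symm (ζ - ζ0)‖ ≤ R0) →
    wE (n + dd V) (A : V →L[ℝ] V) c f ≤
      ENNReal.ofReal (C * R0 ^ Module.finrank ℝ V *
        (adet (Ap : V →L[ℝ] V) / adet (A : V →L[ℝ] V))) * wE n (Ap : V →L[ℝ] V) c f := by
  obtain ⟨C1, hC1, h1⟩ := loc_const V n
  refine ⟨C1 * (2 ^ n * cdec V), mul_nonneg hC1 (mul_nonneg (by positivity) cdec_nonneg), ?_⟩
  intro A Ap hA c ζ0 R0 hR0 f hf hs
  have hR : 0 < R0 := by linarith
  have key : ∀ x, ‖𝓕⁻ f x‖ₑ ^ 2 ≤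
      ENNReal.ofReal (C1 * (R0 ^ Module.finrank ℝ V * adet (Ap : V →L[ℝ] V))) *
        wE n (Ap : V →L[ℝ] V) x f := by
    intro x
    have h2 := h1 (sclE R0 hR.ne' Ap) ζ0 f hf ?_ x
    · rw [adet_sclE hR] at h2
      refine h2.trans (mul_le_mul' le_rfl (wE_mono fun y => ?_))
      rw [coe_sclE]
      show ‖Ap y‖ ≤ ‖R0 • Ap y‖
      rw [norm_smul, Real.norm_eq_abs, abs_of_pos hR]
      have := norm_nonneg (Ap y)
      nlinarith
    · intro ζ hζ
      refine ⟨R0⁻¹ • (adjE Ap).symm (ζ - ζ0), ?_, ?_⟩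
      · rw [norm_smul, norm_inv, Real.norm_eq_abs, abs_of_pos hR, inv_mul_le_iff₀ hR, mul_one]
        exact hs ζ hζ
      · rw [adj_sclE, map_smul, smul_smul, mul_inv_cancel₀ hR.ne', one_smul, ← adjE_apply,
          ContinuousLinearEquiv.apply_symm_apply, add_sub_cancel]
  have hm : Measurable fun x => ‖𝓕⁻ f x‖ₑ ^ 2 := measurable_nsq hf
  have h5 := cell_avg n A Ap hA c hm
  have hadA := adet0 A
  have hadp := adet0 Ap
  calc wE (n + dd V) (A : V →L[ℝ] V) c f =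
        ∫⁻ x, ENNReal.ofReal (dw (n + dd V) (A : V →L[ℝ] V) (x - c)) * ‖𝓕⁻ f x‖ₑ ^ 2 :=
        wE_eq _ _ _ _
    _ ≤ ∫⁻ x, ENNReal.ofReal (C1 * (R0 ^ Module.finrank ℝ V * adet (Ap : V →L[ℝ] V))) *
          (ENNReal.ofReal (dw (n + dd V) (A : V →L[ℝ] V) (x - c)) *
          (∫⁻ y, ENNReal.ofReal (dw n (Ap : V →L[ℝ] V) (y - x)) * ‖𝓕⁻ f y‖ₑ ^ 2)) := by
        refine lintegral_mono fun x => ?_
        rw [mul_left_comm]
        refine mul_le_mul' le_rfl ?_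
        rw [← wE_eq]
        exact key x
    _ = ENNReal.ofReal (C1 * (R0 ^ Module.finrank ℝ V * adet (Ap : V →L[ℝ] V))) *
          ∫⁻ x, (ENNReal.ofReal (dw (n + dd V) (A : V →L[ℝ] V) (x - c)) *
          (∫⁻ y, ENNReal.ofReal (dw n (Ap : V →L[ℝ] V) (y - x)) * ‖𝓕⁻ f y‖ₑ ^ 2)) :=
        lintegral_const_mul' _ _ ENNReal.ofReal_ne_top
    _ ≤ ENNReal.ofReal (C1 * (R0 ^ Module.finrank ℝ V * adet (Ap : V →L[ℝ] V))) *
          (ENNReal.ofReal (2 ^ n * cdec V * (adet (A : V →L[ℝ] V))⁻¹) *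
          ∫⁻ y, ENNReal.ofReal (dw n (Ap : V →L[ℝ] V) (y - c)) * ‖𝓕⁻ f y‖ₑ ^ 2) :=
        mul_le_mul' le_rfl h5
    _ = _ := by
        rw [← wE_eq, ← mul_assoc, ← ENNReal.ofReal_mul (by positivity)]
        congr 2
        field_simp


theorem enorm_sum_sq {ι : Type*} (s : Finset ι) (f : ι → V → ℂ)
    (hf : ∀ i ∈ s, Integrable (f i)) (y : V) :
    ‖𝓕⁻ (fun ξ => ∑ i ∈ s, f i ξ) y‖ₑ ^ 2 ≤ (s.card : ℝ≥0∞) * ∑ i ∈ s, ‖𝓕⁻ (f i) y‖ₑ ^ 2 := by
  have h1 : 𝓕⁻ (fun ξ => ∑ i ∈ s, f i ξ) y = ∑ i ∈ s, 𝓕⁻ (f i) y := by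
    simp only [Real.fourierInv_eq]
    rw [← integral_finsetSum]
    · refine integral_congr_ae (Filter.Eventually.of_forall fun ξ => ?_)
      simp only [Finset.smul_sum]
    · intro i hi
      exact (Real.fourierIntegral_convergent_iff' (innerSL ℝ) (-y)).2 (hf i hi) |>.congr
        (Filter.Eventually.of_forall fun ξ => by simp; rfl)
  rw [h1]
  have h2 : ‖∑ i ∈ s, 𝓕⁻ (f i) y‖ ^ 2 ≤ (s.card : ℝ) * ∑ i ∈ s, ‖𝓕⁻ (f i) y‖ ^ 2 := by
    refine (pow_le_pow_left₀ (norm_nonneg _) (norm_sum_le _ _) 2).trans ?_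
    exact sq_sum_le_card_mul_sum_sq
  have h3 : ∀ z : ℂ, ‖z‖ₑ ^ 2 = ENNReal.ofReal (‖z‖ ^ 2) := by
    intro z
    rw [ENNReal.ofReal_pow (norm_nonneg _), ofReal_norm]
  simp only [h3]
  rw [← ENNReal.ofReal_sum_of_nonneg fun i _ => by positivity, ← ENNReal.ofReal_natCast,
    ← ENNReal.ofReal_mul (by positivity)]
  exact ENNReal.ofReal_le_ofReal h2

theorem wE_sum_sq (n : ℕ) (A : V →L[ℝ] V) (c : V) {ι : Type*} (s : Finset ι) (f : ι → V → ℂ)
    (hf : ∀ i ∈ s, Integrable (f i)) : wE n A c (fun ξ => ∑ i ∈ s, f i ξ) ≤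
      (s.card : ℝ≥0∞) * ∑ i ∈ s, wE n A c (f i) := by
  simp only [wE_eq]
  rw [← lintegral_finsetSum']
  · rw [← lintegral_const_mul' _ _ (ENNReal.natCast_ne_top _)]
    refine lintegral_mono fun x => ?_
    rw [← Finset.mul_sum, mul_left_comm]
    exact mul_le_mul_right (enorm_sum_sq s f hf x) _
  · intro i hi
    have hd : Measurable fun x : V => ENNReal.ofReal (dw n A (x - c)) :=
      ((continuous_dw n A).comp (continuous_id.sub continuous_const)).measurable.ennreal_ofReal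
    exact (hd.mul (measurable_nsq (hf i hi))).aemeasurable

theorem wE_split (n : ℕ) (A : V →L[ℝ] V) (c : V) {ι : Type*} (s : Finset ι) (P : ι → Prop)
    [DecidablePred P] (f : ι → V → ℂ) (hf : ∀ i ∈ s, Integrable (f i)) :
    wE n A c (fun ξ => ∑ i ∈ s, f i ξ) ≤
      2 * (((s.filter P).card : ℝ≥0∞) * ∑ i ∈ s.filter P, wE n A c (f i) +
        ((s.filter fun i => ¬ P i).card : ℝ≥0∞) * ∑ i ∈ s.filter fun i => ¬ P i, wE n A c (f i)) := by
  classical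
  have h1 := wE_sum_sq n A c (Finset.univ : Finset Bool)
    (fun j ξ => ∑ i ∈ s.filter (fun i => (decide (P i)) = j), f i ξ)
    (fun j _ => integrable_finsetSum _ fun i hi => hf i (Finset.mem_filter.1 hi).1)
  have e1 : (fun ξ => ∑ j : Bool, ∑ i ∈ s.filter (fun i => (decide (P i)) = j), f i ξ) =
      fun ξ => ∑ i ∈ s, f i ξ := by
    funext ξ
    exact Finset.sum_fiberwise s _ _
  rw [e1] at h1
  refine h1.trans ?_
  simp only [Fintype.univ_bool, Finset.mem_singleton, Bool.true_eq_false, not_false_eq_true,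
    Finset.card_insert_of_notMem, Finset.card_singleton, Finset.sum_insert, Finset.sum_singleton,
    decide_eq_true_eq, decide_eq_false_iff_not]
  norm_num
  gcongr
  · exact wE_sum_sq n A c _ f (fun i hi => hf i (Finset.mem_filter.1 hi).1)
  · exact wE_sum_sq n A c _ f (fun i hi => hf i (Finset.mem_filter.1 hi).1)

open Classical in
/-- **UPPER**, generic: cell metric `A`, plate metric `Ap`, classes `kx`, active pieces `P`. -/
theorem upV (V : Type) [NormedAddCommGroup V] [InnerProductSpace ℝ V] [FiniteDimensional ℝ V]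
    [MeasurableSpace V] [BorelSpace V] (n : ℕ) : ∃ C : ℝ, 0 ≤ C ∧ ∀ (A Ap : V ≃L[ℝ] V),
    (∀ x, ‖Ap x‖ ≤ ‖A x‖) → ∀ (u : V), ‖A u‖ ≤ 1 → ∀ (c : V) (R0 : ℝ), 1 ≤ R0 → ∀ (M : ℕ)
    (κ : Type) (s : Finset κ) (f : κ → V → ℂ) (ζ0 : κ → V) (kx : κ → ℤ) (P : κ → Prop) (ν N : ℝ),
    (∀ m ∈ s, Integrable (f m)) → (∀ m ∈ s, MemLp (f m) 2) →
    (∀ m ∈ s, ∀ ζ, f m ζ ≠ 0 → |inner ℝ ζ u - kx m| ≤ M) →
    (∀ m ∈ s, ∀ ζ, f m ζ ≠ 0 → ‖(adjE Ap).symm (ζ - ζ0 m)‖ ≤ R0) →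
    (∀ k : ℤ, (((s.filter P).filter fun m => kx m = k).card : ℝ) ≤ ν) → ((s.card : ℝ) ≤ N) →
    wE (n + dd V) (A : V →L[ℝ] V) c (fun ζ => ∑ m ∈ s, f m ζ) ≤
      ENNReal.ofReal (C * (2 * M + 3) * R0 ^ Module.finrank ℝ V *
        (adet (Ap : V →L[ℝ] V) / adet (A : V →L[ℝ] V))) *
      (ENNReal.ofReal ν * ∑ m ∈ s.filter P, wE n (Ap : V →L[ℝ] V) c (f m) +
        ENNReal.ofReal N * ∑ m ∈ s.filter (fun m => ¬ P m), wE n (Ap : V →L[ℝ] V) c (f m)) := by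
  obtain ⟨C1, hC1, h1⟩ := strip_rowV V (n + dd V)
  obtain ⟨C2, hC2, h2⟩ := lcV V n
  refine ⟨C1 * 2 * C2, by positivity, ?_⟩
  intro A Ap hA u hu c R0 hR0 M κ s f ζ0 kx P ν N hfi hf2 hkx hsupp hν hN
  have hadA := adet0 A
  have hadp := adet0 Ap
  set K : Finset ℤ := s.image kx with hK
  set sk : ℤ → Finset κ := fun k => s.filter (fun m => kx m = k) with hsk
  have hfi' : ∀ k, Integrable (fun ζ => ∑ m ∈ sk k, f m ζ) := fun k =>
    integrable_finsetSum _ fun m hm => hfi m (Finset.mem_filter.1 hm).1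
  have hf2' : ∀ k, MemLp (fun ζ => ∑ m ∈ sk k, f m ζ) 2 := fun k =>
    memLp_finsetSum _ fun m hm => hf2 m (Finset.mem_filter.1 hm).1
  have eF : (fun ζ => ∑ k ∈ K, ∑ m ∈ sk k, f m ζ) = fun ζ => ∑ m ∈ s, f m ζ := by
    funext ζ
    exact Finset.sum_fiberwise_of_maps_to (fun m hm => Finset.mem_image_of_mem _ hm) _
  have a1 := h1 A u hu c M K (fun k ζ => ∑ m ∈ sk k, f m ζ) hfi' hf2' ?_
  · rw [eF] at a1
    refine a1.trans ?_
    -- one class
    have a2 : ∀ k ∈ K, wE (n + dd V) (A : V →L[ℝ] V) c (fun ζ => ∑ m ∈ sk k, f m ζ) ≤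
        2 * (ENNReal.ofReal ν * ∑ m ∈ (sk k).filter P, wE (n + dd V) (A : V →L[ℝ] V) c (f m) +
        ENNReal.ofReal N * ∑ m ∈ (sk k).filter (fun m => ¬ P m),
          wE (n + dd V) (A : V →L[ℝ] V) c (f m)) := by
      intro k _
      refine (wE_split (n + dd V) (A : V →L[ℝ] V) c (sk k) P f
        (fun m hm => hfi m (Finset.mem_filter.1 hm).1)).trans ?_
      have b1 : (((sk k).filter P).card : ℝ≥0∞) ≤ ENNReal.ofReal ν := by
        rw [← ENNReal.ofReal_natCast]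
        refine ENNReal.ofReal_le_ofReal (le_trans (le_of_eq ?_) (hν k))
        congr 2
        ext m
        simp only [hsk, Finset.mem_filter]
        tauto
      have b2 : (((sk k).filter (fun m => ¬ P m)).card : ℝ≥0∞) ≤ ENNReal.ofReal N := by
        rw [← ENNReal.ofReal_natCast]
        refine ENNReal.ofReal_le_ofReal (le_trans ?_ hN)
        have : ((sk k).filter (fun m => ¬ P m)).card ≤ s.card :=
          Finset.card_le_card ((Finset.filter_subset _ _).trans (Finset.filter_subset _ _))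
        exact_mod_cast this
      exact mul_le_mul' le_rfl (add_le_add (mul_le_mul' b1 le_rfl) (mul_le_mul' b2 le_rfl))
    have b3 : ∀ (Q : κ → Prop) [DecidablePred Q], ∑ k ∈ K, ∑ m ∈ (sk k).filter Q,
        wE (n + dd V) (A : V →L[ℝ] V) c (f m) =
        ∑ m ∈ s.filter Q, wE (n + dd V) (A : V →L[ℝ] V) c (f m) := by
      intro Q _
      rw [← Finset.sum_fiberwise_of_maps_to (t := K) (g := kx) (s := s.filter Q)
        (fun m hm => Finset.mem_image_of_mem _ (Finset.mem_filter.1 hm).1)]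
      refine Finset.sum_congr rfl fun k _ => ?_
      refine Finset.sum_congr ?_ fun _ _ => rfl
      ext m
      simp only [hsk, Finset.mem_filter]
      tauto
    have a3 : ∑ k ∈ K, wE (n + dd V) (A : V →L[ℝ] V) c (fun ζ => ∑ m ∈ sk k, f m ζ) ≤
        2 * (ENNReal.ofReal ν * ∑ m ∈ s.filter P, wE (n + dd V) (A : V →L[ℝ] V) c (f m) +
        ENNReal.ofReal N * ∑ m ∈ s.filter (fun m => ¬ P m),
          wE (n + dd V) (A : V →L[ℝ] V) c (f m)) := by
      refine (Finset.sum_le_sum a2).trans (le_of_eq ?_)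
      rw [← Finset.mul_sum, Finset.sum_add_distrib, ← Finset.mul_sum, ← Finset.mul_sum,
        b3 P, b3 (fun m => ¬ P m)]
    have a4 : ∀ m ∈ s, wE (n + dd V) (A : V →L[ℝ] V) c (f m) ≤
        ENNReal.ofReal (C2 * R0 ^ Module.finrank ℝ V *
          (adet (Ap : V →L[ℝ] V) / adet (A : V →L[ℝ] V))) * wE n (Ap : V →L[ℝ] V) c (f m) :=
      fun m hm => h2 A Ap hA c (ζ0 m) R0 hR0 (f m) (hfi m hm) (hsupp m hm)
    set Z := ENNReal.ofReal (C2 * R0 ^ Module.finrank ℝ V *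
          (adet (Ap : V →L[ℝ] V) / adet (A : V →L[ℝ] V))) with hZ
    have a5 : ∀ (Q : κ → Prop) [DecidablePred Q],
        ∑ m ∈ s.filter Q, wE (n + dd V) (A : V →L[ℝ] V) c (f m) ≤
        Z * ∑ m ∈ s.filter Q, wE n (Ap : V →L[ℝ] V) c (f m) := by
      intro Q _
      rw [Finset.mul_sum]
      exact Finset.sum_le_sum fun m hm => a4 m (Finset.mem_filter.1 hm).1
    calc ENNReal.ofReal (C1 * (2 * M + 3)) *
          ∑ k ∈ K, wE (n + dd V) (A : V →L[ℝ] V) c (fun ζ => ∑ m ∈ sk k, f m ζ) ≤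
        ENNReal.ofReal (C1 * (2 * M + 3)) *
          (2 * (ENNReal.ofReal ν * (Z * ∑ m ∈ s.filter P, wE n (Ap : V →L[ℝ] V) c (f m)) +
        ENNReal.ofReal N * (Z * ∑ m ∈ s.filter (fun m => ¬ P m),
          wE n (Ap : V →L[ℝ] V) c (f m)))) := by
          refine mul_le_mul' le_rfl (a3.trans ?_)
          exact mul_le_mul' le_rfl (add_le_add (mul_le_mul' le_rfl (a5 P))
            (mul_le_mul' le_rfl (a5 fun m => ¬ P m)))
      _ = ENNReal.ofReal (C1 * (2 * M + 3)) * 2 * Z *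
          (ENNReal.ofReal ν * (∑ m ∈ s.filter P, wE n (Ap : V →L[ℝ] V) c (f m)) +
        ENNReal.ofReal N * (∑ m ∈ s.filter (fun m => ¬ P m),
          wE n (Ap : V →L[ℝ] V) c (f m))) := by ring
      _ = _ := by
          rw [hZ]
          have e6 : (2 : ℝ≥0∞) = ENNReal.ofReal 2 := by simp
          rw [e6, ← ENNReal.ofReal_mul (by positivity), ← ENNReal.ofReal_mul (by positivity)]
          congr 2
          ring
  · intro k _ ζ hζ
    obtain ⟨m, hm, hne⟩ := Finset.exists_ne_zero_of_sum_ne_zero hζ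
    obtain ⟨hm1, hm2⟩ := Finset.mem_filter.1 hm
    have := hkx m hm1 ζ hne
    rwa [hm2] at this

end Crest.Agent.R116.UpC448
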