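import Crest.Agent.R116.UpC1_192

/-!
# R116: UPPER for the cone (F3), generic part 2 (helper192)

`upper_gen`: the energy, on a small cell (frame `A`), of a sum of transported represented pieces is at
most `(adet A1 / adet A) ν` times the sum of their plate energies (frame `A1`), where the pieces are
grouped in strips `st` whose frequency sets are almost orthogonal in the metric `A` and `ν` bounds the
number of active pieces of a strip.  `upper_selG`: the same for selections (`v i = 1_{S i} u i`), where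
the active pieces are those whose selection meets the `X`-plate.
-/

set_option autoImplicit false
set_option linter.unusedSectionVars false

open MeasureTheory FourierTransform
open scoped ContDiff ENNReal

namespace Crest.Agent.R116.Up192

open Crest.Agent.R138.Wf448
open Crest.Agent.R138.Defs (ee)
open Crest.Agent.R116.CWp480

set_option maxHeartbeats 800000 in
/-- one piece on the small cell. -/
theorem one_gen (V : Type) [NormedAddCommGroup V] [InnerProductSpace ℝ V] [FiniteDimensional ℝ V]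
    [MeasurableSpace V] [BorelSpace V] (n : ℕ) : ∃ C : ℝ, 0 ≤ C ∧
    ∀ (A A1 : V ≃L[ℝ] V) (L R : ℝ), 1 ≤ L → 1 ≤ R → (∀ x, ‖A1 x‖ ≤ L * ‖A x‖) →
    ∀ (c : V) (F G v : V → ℂ) (vv cc ξ0 : V) (A' : V ≃L[ℝ] V) (L' Q Q' : ℝ), 1 ≤ L' → 0 < Q →
    Integrable F → (∀ ξ, F ξ ≠ 0 → ∃ η, ‖η‖ ≤ R ∧ ξ = ξ0 + adj (A1 : V →L[ℝ] V) η) →
    (∀ x, ‖A1 x‖ ≤ L' * ‖A' x‖) → Tra A1 (n + dd V) Q vv F G → Rep (n + dd V) Q' A' cc G v →
    wE (n + dd V) (A : V →L[ℝ] V) c F ≤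
      ENNReal.ofReal (C * (L ^ (2 * n) * R ^ Module.finrank ℝ V) * (Q ^ 2 * Q' ^ 2 * L' ^ n) *
        (adet (A1 : V →L[ℝ] V) / adet (A : V →L[ℝ] V))) *
        ∫⁻ y, ENNReal.ofReal (pa n A1 (y - vv - c)) * ‖v y‖ₑ ^ 2 := by
  obtain ⟨C1, hC1, h1⟩ := lcA (V := V) n
  obtain ⟨C2, hC2, h2⟩ := sv_transport V n
  obtain ⟨C3, hC3, h3⟩ := rep_energy V n
  refine ⟨C1 * (2 ^ n * (C2 * C3)), by positivity, ?_⟩
  intro A A1 L R hL hR hA c F G v vv cc ξ0 A' L' Q Q' hL' hQ hF hloc hA' hT hRep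
  have ha := adet0 A
  have ha1 := adet0 A1
  have hG : Integrable G := hRep.int
  have hG2 : MemLp G 2 := hRep.l2
  have b1 := h1 A A1 L R hL hR hA c ξ0 F hF hloc
  have b2 : wE n (A1 : V →L[ℝ] V) c F ≤ ENNReal.ofReal (2 ^ n) * WE (fun x => pa n A1 (x - c)) F := by
    rw [wE_eq, ← WE_const_mul (by positivity)]
    refine lintegral_mono fun x => mul_le_mul_left (ENNReal.ofReal_le_ofReal ?_) _
    exact dw_le_pa n A1 (x - c)
  have b3 := h2 A1 1 _ (SV_pa A1 n c) Q vv F G hQ hG hG2 hT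
  have b4 := h3 A1 1 _ ((SV_pa A1 n c).comp_sub vv) L' A' hL' hA' Q' cc G v hRep
  rw [one_pow, mul_one] at b3
  rw [one_mul] at b4
  calc wE (n + dd V) (A : V →L[ℝ] V) c F ≤ _ := b1
    _ ≤ ENNReal.ofReal (C1 * (L ^ (2 * n) * R ^ Module.finrank ℝ V) *
        (adet (A1 : V →L[ℝ] V) / adet (A : V →L[ℝ] V))) * (ENNReal.ofReal (2 ^ n) *
          (ENNReal.ofReal (C2 * Q ^ 2) * (ENNReal.ofReal (C3 * Q' ^ 2 * L' ^ n) *
            ∫⁻ y, ENNReal.ofReal (pa n A1 (y - vv - c)) * ‖v y‖ₑ ^ 2))) := by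
        gcongr
        refine b2.trans ?_
        gcongr
        refine b3.trans ?_
        gcongr
    _ = _ := by
        rw [← mul_assoc, ← mul_assoc, ← mul_assoc, ← ENNReal.ofReal_mul (by positivity),
          ← ENNReal.ofReal_mul (by positivity), ← ENNReal.ofReal_mul (by positivity)]
        congr 2
        ring

set_option maxHeartbeats 800000 in
/-- **UPPER**, generic form. -/
theorem upper_gen (V : Type) [NormedAddCommGroup V] [InnerProductSpace ℝ V] [FiniteDimensional ℝ V]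
    [MeasurableSpace V] [BorelSpace V] (n : ℕ) : ∃ C : ℝ, 0 ≤ C ∧
    ∀ (A A1 : V ≃L[ℝ] V) (L R : ℝ), 1 ≤ L → 1 ≤ R → (∀ x, ‖A1 x‖ ≤ L * ‖A x‖) →
    ∀ (c : V) (κ : Type) (s : Finset κ) (st : κ → ℤ) (U : ℤ → Set V) (F G v : κ → V → ℂ)
      (vv cc ξ0 : κ → V) (A' : κ → V ≃L[ℝ] V) (P L' Q Q' : ℝ), 0 < P → 1 ≤ L' → 0 < Q →
    (∀ ξ, (Set.ncard {k | k ∈ s.image st ∧ ξ ∈ thk A (U k)} : ℝ) ≤ P) →
    (∀ i ∈ s, ∀ ξ, F i ξ ≠ 0 → ξ ∈ U (st i)) →
    (∀ i ∈ s, Integrable (F i)) → (∀ i ∈ s, MemLp (F i) 2) →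
    (∀ i ∈ s, ∀ ξ, F i ξ ≠ 0 → ∃ η, ‖η‖ ≤ R ∧ ξ = ξ0 i + adj (A1 : V →L[ℝ] V) η) →
    (∀ i ∈ s, ∀ x, ‖A1 x‖ ≤ L' * ‖A' i x‖) →
    (∀ i ∈ s, Tra A1 (n + dd V) Q (vv i) (F i) (G i)) →
    (∀ i ∈ s, Rep (n + dd V) Q' (A' i) (cc i) (G i) (v i)) →
    ∀ (Act : κ → Prop) [DecidablePred Act] (ν : ℝ),
    (∀ k, (((s.filter fun i => st i = k).filter Act).card : ℝ) ≤ ν) →
    wE (n + dd V) (A : V →L[ℝ] V) c (fun ξ => ∑ i ∈ s, F i ξ) ≤
      ENNReal.ofReal (C * P * (L ^ (2 * n) * R ^ Module.finrank ℝ V) * (Q ^ 2 * Q' ^ 2 * L' ^ n) *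
        (adet (A1 : V →L[ℝ] V) / adet (A : V →L[ℝ] V))) *
        (ENNReal.ofReal ν * (∑ i ∈ s.filter Act,
          ∫⁻ y, ENNReal.ofReal (pa n A1 (y - vv i - c)) * ‖v i y‖ₑ ^ 2) +
        (s.card : ℝ≥0∞) * ∑ i ∈ s.filter (fun i => ¬ Act i),
          ∫⁻ y, ENNReal.ofReal (pa n A1 (y - vv i - c)) * ‖v i y‖ₑ ^ 2) := by
  classical
  obtain ⟨C1, hC1, h1⟩ := orthoA_row (V := V) (n + dd V)
  obtain ⟨C2, hC2, h2⟩ := one_gen V n
  refine ⟨C1 * 2 * C2, by positivity, ?_⟩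
  intro A A1 L R hL hR hA c κ s st U F G v vv cc ξ0 A' P L' Q Q' hP hL' hQ hov hU hF hF2 hloc hA' hT
    hRep Act _ ν hν
  have ha := adet0 A
  have ha1 := adet0 A1
  set K : Finset ℤ := s.image st with hK
  set sk : ℤ → Finset κ := fun k => s.filter (fun i => st i = k) with hsk
  have hsks : ∀ k, ∀ i ∈ sk k, i ∈ s := fun k i hi => (Finset.mem_filter.1 hi).1
  have eF : (fun ξ => ∑ k ∈ K, ∑ i ∈ sk k, F i ξ) = fun ξ => ∑ i ∈ s, F i ξ := by
    funext ξ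
    exact Finset.sum_fiberwise_of_maps_to (fun i hi => Finset.mem_image_of_mem _ hi) _
  have a1 := h1 A c {k // k ∈ K} (fun k => U k.1) (fun k ξ => ∑ i ∈ sk k.1, F i ξ) P hP ?_ ?_ ?_ ?_
  · have e2 : (fun ξ => ∑ k : {k // k ∈ K}, ∑ i ∈ sk k.1, F i ξ) = fun ξ => ∑ i ∈ s, F i ξ := by
      rw [← eF]
      funext ξ
      exact Finset.sum_coe_sort K (fun k => ∑ i ∈ sk k, F i ξ)
    rw [e2, Finset.sum_coe_sort K (fun k => wE (n + dd V) (A : V →L[ℝ] V) c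
      (fun ξ => ∑ i ∈ sk k, F i ξ))] at a1
    -- one strip
    have a2 : ∀ k ∈ K, wE (n + dd V) (A : V →L[ℝ] V) c (fun ξ => ∑ i ∈ sk k, F i ξ) ≤
        2 * (ENNReal.ofReal ν * ∑ i ∈ (sk k).filter Act, wE (n + dd V) (A : V →L[ℝ] V) c (F i) +
        (s.card : ℝ≥0∞) * ∑ i ∈ (sk k).filter (fun i => ¬ Act i),
          wE (n + dd V) (A : V →L[ℝ] V) c (F i)) := by
      intro k _
      refine (wE_split (n + dd V) (A : V →L[ℝ] V) c (sk k) Act F
        (fun i hi => hF i (hsks k i hi))).trans ?_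
      gcongr
      · rw [← ENNReal.ofReal_natCast]
        exact ENNReal.ofReal_le_ofReal (hν k)
      · exact (Finset.filter_subset _ _).trans (Finset.filter_subset _ _)
    -- sum over the strips
    have a3 : ∑ k ∈ K, wE (n + dd V) (A : V →L[ℝ] V) c (fun ξ => ∑ i ∈ sk k, F i ξ) ≤
        2 * (ENNReal.ofReal ν * ∑ i ∈ s.filter Act, wE (n + dd V) (A : V →L[ℝ] V) c (F i) +
        (s.card : ℝ≥0∞) * ∑ i ∈ s.filter (fun i => ¬ Act i),
          wE (n + dd V) (A : V →L[ℝ] V) c (F i)) := by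
      refine (Finset.sum_le_sum a2).trans (le_of_eq ?_)
      have b1 : ∀ (Q : κ → Prop) [DecidablePred Q], ∑ k ∈ K, ∑ i ∈ (sk k).filter Q,
          wE (n + dd V) (A : V →L[ℝ] V) c (F i) =
            ∑ i ∈ s.filter Q, wE (n + dd V) (A : V →L[ℝ] V) c (F i) := by
        intro Q _
        rw [← Finset.sum_fiberwise_of_maps_to (t := K) (g := st) (s := s.filter Q)]
        · refine Finset.sum_congr rfl fun k _ => ?_
          refine Finset.sum_congr ?_ fun _ _ => rfl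
          ext i
          simp only [hsk, Finset.mem_filter]
          tauto
        · intro i hi
          exact Finset.mem_image_of_mem _ (Finset.mem_filter.1 hi).1
      rw [← Finset.mul_sum, Finset.sum_add_distrib, ← Finset.mul_sum, ← Finset.mul_sum,
        b1 Act, b1 (fun i => ¬ Act i)]
    -- one piece
    set W : κ → ℝ≥0∞ := fun i =>
      ∫⁻ y, ENNReal.ofReal (pa n A1 (y - vv i - c)) * ‖v i y‖ₑ ^ 2 with hW
    set D : ℝ := C2 * (L ^ (2 * n) * R ^ Module.finrank ℝ V) * (Q ^ 2 * Q' ^ 2 * L' ^ n) *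
        (adet (A1 : V →L[ℝ] V) / adet (A : V →L[ℝ] V)) with hD
    have hD0 : 0 ≤ D := by positivity
    have a4 : ∀ i ∈ s, wE (n + dd V) (A : V →L[ℝ] V) c (F i) ≤ ENNReal.ofReal D * W i := fun i hi =>
      h2 A A1 L R hL hR hA c (F i) (G i) (v i) (vv i) (cc i) (ξ0 i) (A' i) L' Q Q' hL' hQ (hF i hi)
        (hloc i hi) (hA' i hi) (hT i hi) (hRep i hi)
    have a5 : ∀ (T : κ → Prop) [DecidablePred T], ∑ i ∈ s.filter T,
        wE (n + dd V) (A : V →L[ℝ] V) c (F i) ≤ ENNReal.ofReal D * ∑ i ∈ s.filter T, W i := by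
      intro T _
      rw [Finset.mul_sum]
      exact Finset.sum_le_sum fun i hi => a4 i (Finset.mem_filter.1 hi).1
    set X1 := ∑ i ∈ s.filter Act, W i with hX1
    set X2 := ∑ i ∈ s.filter (fun i => ¬ Act i), W i with hX2
    calc wE (n + dd V) (A : V →L[ℝ] V) c (fun ξ => ∑ i ∈ s, F i ξ) ≤ ENNReal.ofReal (C1 * P) *
          (2 * (ENNReal.ofReal ν * (ENNReal.ofReal D * X1) +
          (s.card : ℝ≥0∞) * (ENNReal.ofReal D * X2))) := by
          refine a1.trans (mul_le_mul_right (a3.trans ?_) _)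
          gcongr
          · exact a5 Act
          · exact a5 (fun i => ¬ Act i)
      _ = _ := by
          have e5 : ENNReal.ofReal (C1 * 2 * C2 * P * (L ^ (2 * n) * R ^ Module.finrank ℝ V) *
              (Q ^ 2 * Q' ^ 2 * L' ^ n) * (adet (A1 : V →L[ℝ] V) / adet (A : V →L[ℝ] V))) =
              ENNReal.ofReal (C1 * P) * 2 * ENNReal.ofReal D := by
            have e6 : (2 : ℝ≥0∞) = ENNReal.ofReal 2 := by simp
            rw [e6, ← ENNReal.ofReal_mul (by positivity), ← ENNReal.ofReal_mul (by positivity)]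
            congr 1
            rw [hD]
            ring
          rw [e5]
          ring
  · intro ξ
    refine le_trans ?_ (hov ξ)
    have e3 : {k | k ∈ K ∧ ξ ∈ thk A (U k)} =
        Subtype.val '' {k : {k // k ∈ K} | ξ ∈ thk A (U k.1)} := by
      ext k
      simp only [Set.mem_ofPred_eq, Set.mem_image, Subtype.exists, exists_and_right,
        exists_eq_right]
      tauto
    rw [e3, Set.ncard_image_of_injective _ Subtype.val_injective]
  · intro k ξ hξ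
    obtain ⟨i, hi, hne⟩ := Finset.exists_ne_zero_of_sum_ne_zero hξ
    have h5 := hU i (hsks k.1 i hi) ξ hne
    rwa [(Finset.mem_filter.1 hi).2] at h5
  · exact fun k => integrable_finsetSum _ fun i hi => hF i (hsks k.1 i hi)
  · exact fun k => memLp_finsetSum _ fun i hi => hF2 i (hsks k.1 i hi)

theorem lint_indG {V : Type} [NormedAddCommGroup V] [MeasurableSpace V] {μ : Measure V} {S : Set V}
    (hS : MeasurableSet S) (w : V → ℝ≥0∞) (u : V → ℂ) :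
    ∫⁻ y, w y * ‖S.indicator u y‖ₑ ^ 2 ∂μ = ∫⁻ y in S, w y * ‖u y‖ₑ ^ 2 ∂μ := by
  rw [← lintegral_indicator hS]
  refine lintegral_congr fun y => ?_
  by_cases hy : y ∈ S
  · rw [Set.indicator_of_mem hy, Set.indicator_of_mem hy]
  · rw [Set.indicator_of_notMem hy, Set.indicator_of_notMem hy]
    simp

/-- **UPPER**, selections, generic form. -/
theorem upper_selG (V : Type) [NormedAddCommGroup V] [InnerProductSpace ℝ V] [FiniteDimensional ℝ V]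
    [MeasurableSpace V] [BorelSpace V] (n k : ℕ) : ∃ C : ℝ, 0 ≤ C ∧
    ∀ (A A1 : V ≃L[ℝ] V) (L R : ℝ), 1 ≤ L → 1 ≤ R → (∀ x, ‖A1 x‖ ≤ L * ‖A x‖) →
    ∀ (c : V) (κ : Type) (s : Finset κ) (st : κ → ℤ) (U : ℤ → Set V) (F G u : κ → V → ℂ)
      (S : κ → Set V) (vv cc ξ0 : κ → V) (A' : κ → V ≃L[ℝ] V) (P L' Q Q' : ℝ), 0 < P → 1 ≤ L' →
    0 < Q →
    (∀ ξ, (Set.ncard {j | j ∈ s.image st ∧ ξ ∈ thk A (U j)} : ℝ) ≤ P) →
    (∀ i ∈ s, ∀ ξ, F i ξ ≠ 0 → ξ ∈ U (st i)) →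
    (∀ i ∈ s, Integrable (F i)) → (∀ i ∈ s, MemLp (F i) 2) →
    (∀ i ∈ s, ∀ ξ, F i ξ ≠ 0 → ∃ η, ‖η‖ ≤ R ∧ ξ = ξ0 i + adj (A1 : V →L[ℝ] V) η) →
    (∀ i ∈ s, ∀ x, ‖A1 x‖ ≤ L' * ‖A' i x‖) →
    (∀ i ∈ s, Tra A1 (n + k + dd V) Q (vv i) (F i) (G i)) → (∀ i ∈ s, MeasurableSet (S i)) →
    (∀ i ∈ s, Rep (n + k + dd V) Q' (A' i) (cc i) (G i) ((S i).indicator (u i))) →
    ∀ (X ν : ℝ), 0 ≤ X → 0 ≤ ν →
    (∀ j, (Set.ncard {i | i ∈ s ∧ st i = j ∧ ∃ y ∈ S i, ‖A1 (y - vv i - c)‖ ≤ X} : ℝ) ≤ ν) →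
    wE (n + k + dd V) (A : V →L[ℝ] V) c (fun ξ => ∑ i ∈ s, F i ξ) ≤
      ENNReal.ofReal (C * P * (L ^ (2 * (n + k)) * R ^ Module.finrank ℝ V) *
        (Q ^ 2 * Q' ^ 2 * L' ^ (n + k)) * (adet (A1 : V →L[ℝ] V) / adet (A : V →L[ℝ] V)) *
        (ν + s.card * ((1 + X) ^ k)⁻¹)) *
        ∑ i ∈ s, ∫⁻ y in S i, ENNReal.ofReal (pa n A1 (y - vv i - c)) * ‖u i y‖ₑ ^ 2 := by
  classical
  obtain ⟨C1, hC1, h1⟩ := upper_gen V (n + k)
  refine ⟨C1, hC1, ?_⟩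
  intro A A1 L R hL hR hA c κ s st U F G u S vv cc ξ0 A' P L' Q Q' hP hL' hQ hov hU hF hF2 hloc hA' hT
    hSm hRep X ν hX hν0 hν
  have ha := adet0 A
  have ha1 := adet0 A1
  set Act : κ → Prop := fun i => ∃ y ∈ S i, ‖A1 (y - vv i - c)‖ ≤ X with hAct
  have a1 := h1 A A1 L R hL hR hA c κ s st U F G (fun i => (S i).indicator (u i)) vv cc ξ0 A' P L' Q
    Q' hP hL' hQ hov hU hF hF2 hloc hA' hT hRep Act ν ?_
  swap
  · intro j
    refine le_trans ?_ (hν j)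
    have : ((s.filter fun i => st i = j).filter Act).card ≤
        Set.ncard {i | i ∈ s ∧ st i = j ∧ ∃ y ∈ S i, ‖A1 (y - vv i - c)‖ ≤ X} := by
      rw [← Set.ncard_coe_finset]
      refine Set.ncard_le_ncard ?_ (s.finite_toSet.subset fun i hi => hi.1)
      intro i hi
      simp only [Finset.coe_filter, Set.mem_ofPred_eq, Finset.mem_filter] at hi
      exact ⟨hi.1.1, hi.1.2, hi.2⟩
    exact_mod_cast this
  refine a1.trans ?_
  set T : κ → ℝ≥0∞ := fun i =>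
    ∫⁻ y in S i, ENNReal.ofReal (pa n A1 (y - vv i - c)) * ‖u i y‖ₑ ^ 2 with hT'
  have b1 : ∀ i ∈ s, ∫⁻ y, ENNReal.ofReal (pa (n + k) A1 (y - vv i - c)) *
      ‖(S i).indicator (u i) y‖ₑ ^ 2 ≤ T i := by
    intro i hi
    rw [lint_indG (hSm i hi) (fun y => ENNReal.ofReal (pa (n + k) A1 (y - vv i - c)))]
    exact lintegral_mono fun y => mul_le_mul' (ENNReal.ofReal_le_ofReal (pa_anti _ _ _ _)) le_rfl
  have b2 : ∀ i ∈ s, ¬ Act i → ∫⁻ y, ENNReal.ofReal (pa (n + k) A1 (y - vv i - c)) *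
      ‖(S i).indicator (u i) y‖ₑ ^ 2 ≤ ENNReal.ofReal (((1 + X) ^ k)⁻¹) * T i := by
    intro i hi hPi
    rw [lint_indG (hSm i hi) (fun y => ENNReal.ofReal (pa (n + k) A1 (y - vv i - c))), hT',
      ← lintegral_const_mul' _ _ ENNReal.ofReal_ne_top]
    refine setLIntegral_mono' (hSm i hi) fun y hy => ?_
    rw [← mul_assoc, ← ENNReal.ofReal_mul (by positivity)]
    refine mul_le_mul' (ENNReal.ofReal_le_ofReal (pa_add_le hX n k ?_)) le_rfl
    by_contra hc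
    push Not at hc
    exact hPi ⟨y, hy, hc.le⟩
  have c1 : ∑ i ∈ s.filter Act, ∫⁻ y, ENNReal.ofReal (pa (n + k) A1 (y - vv i - c)) *
      ‖(S i).indicator (u i) y‖ₑ ^ 2 ≤ ∑ i ∈ s, T i :=
    (Finset.sum_le_sum fun i hi => b1 i (Finset.mem_filter.1 hi).1).trans
      (Finset.sum_le_sum_of_subset (Finset.filter_subset _ _))
  have c2 : ∑ i ∈ s.filter (fun i => ¬ Act i), ∫⁻ y, ENNReal.ofReal (pa (n + k) A1 (y - vv i - c)) *
      ‖(S i).indicator (u i) y‖ₑ ^ 2 ≤ ENNReal.ofReal (((1 + X) ^ k)⁻¹) * ∑ i ∈ s, T i := by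
    rw [Finset.mul_sum]
    exact (Finset.sum_le_sum fun i hi => b2 i (Finset.mem_filter.1 hi).1
      (Finset.mem_filter.1 hi).2).trans (Finset.sum_le_sum_of_subset (Finset.filter_subset _ _))
  set D : ℝ := C1 * P * (L ^ (2 * (n + k)) * R ^ Module.finrank ℝ V) *
        (Q ^ 2 * Q' ^ 2 * L' ^ (n + k)) * (adet (A1 : V →L[ℝ] V) / adet (A : V →L[ℝ] V)) with hD
  have hD0 : 0 ≤ D := by positivity
  calc _ ≤ ENNReal.ofReal D * (ENNReal.ofReal ν * (∑ i ∈ s, T i) +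
        (s.card : ℝ≥0∞) * (ENNReal.ofReal (((1 + X) ^ k)⁻¹) * ∑ i ∈ s, T i)) := by gcongr
    _ = _ := by
        rw [ENNReal.ofReal_mul hD0, ENNReal.ofReal_add hν0 (by positivity),
          ENNReal.ofReal_mul (p := (s.card : ℝ)) (by positivity), ENNReal.ofReal_natCast]
        ring

end Crest.Agent.R116.Up192
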