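import Crest.Agent.R116.UpC2_192
import Crest.Agent.R116.CWd1_480
import Crest.Agent.R116.Cad1_538

/-!
# R116: UPPER-C, cone instance, part 1: cell frames, strips (helper448)

Cell frame of the child cap `C` in the strip with normal direction `b 0`:
`X ↦ (s0 <b 0, lat X>, s1 <b 1, lat X>, κ (X 2 + <C, lat X>))`.
-/

set_option autoImplicit false
set_option linter.unusedSectionVars false

open MeasureTheory FourierTransform
open scoped ContDiff ENNReal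

namespace Crest.Agent.R116.UpC448

open Crest.Agent.R138.Wf448
open Crest.Agent.R138.Defs (E2 ee)
open Crest.Agent.R138.Wpk685 (win fat cen caps)
open Crest.Agent.R116.CWp480 Crest.Agent.R116.CDef480 Crest.Agent.R116.CWc480
open Crest.Agent.R116.Up192 (pa pa_pos)

/-! ### the cell frame -/

/-- diagonal map in the basis `b`. -/
noncomputable def dg (b : OrthonormalBasis (Fin 2) ℝ E2) (s0 s1 : ℝ) (x : E2) : E2 :=
  (s0 * inner ℝ (b 0) x) • b 0 + (s1 * inner ℝ (b 1) x) • b 1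

theorem dg_add (b : OrthonormalBasis (Fin 2) ℝ E2) (s0 s1 : ℝ) (x y : E2) :
    dg b s0 s1 (x + y) = dg b s0 s1 x + dg b s0 s1 y := by
  unfold dg
  rw [inner_add_right, inner_add_right, mul_add, mul_add, add_smul, add_smul]
  abel

theorem dg_smul (b : OrthonormalBasis (Fin 2) ℝ E2) (s0 s1 c : ℝ) (x : E2) :
    dg b s0 s1 (c • x) = c • dg b s0 s1 x := by
  unfold dg
  rw [inner_smul_right, inner_smul_right, smul_add, smul_smul, smul_smul]
  congr 2 <;> ring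

theorem inner_b00 (b : OrthonormalBasis (Fin 2) ℝ E2) : inner ℝ (b 0) (b 0) = (1:ℝ) := b.inner_eq_one 0
theorem inner_b11 (b : OrthonormalBasis (Fin 2) ℝ E2) : inner ℝ (b 1) (b 1) = (1:ℝ) := b.inner_eq_one 1
theorem inner_b01 (b : OrthonormalBasis (Fin 2) ℝ E2) : inner ℝ (b 0) (b 1) = (0:ℝ) :=
  b.inner_eq_zero (by decide)
theorem inner_b10 (b : OrthonormalBasis (Fin 2) ℝ E2) : inner ℝ (b 1) (b 0) = (0:ℝ) :=
  b.inner_eq_zero (by decide)

theorem inner_dg0 (b : OrthonormalBasis (Fin 2) ℝ E2) (s0 s1 : ℝ) (x : E2) :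
    inner ℝ (b 0) (dg b s0 s1 x) = s0 * inner ℝ (b 0) x := by
  unfold dg
  rw [inner_add_right, inner_smul_right, inner_smul_right, inner_b00, inner_b01]
  ring

theorem inner_dg1 (b : OrthonormalBasis (Fin 2) ℝ E2) (s0 s1 : ℝ) (x : E2) :
    inner ℝ (b 1) (dg b s0 s1 x) = s1 * inner ℝ (b 1) x := by
  unfold dg
  rw [inner_add_right, inner_smul_right, inner_smul_right, inner_b10, inner_b11]
  ring

theorem exp_b (b : OrthonormalBasis (Fin 2) ℝ E2) (x : E2) :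
    (inner ℝ (b 0) x : ℝ) • b 0 + (inner ℝ (b 1) x : ℝ) • b 1 = x := by
  have h := b.sum_repr x
  rw [Fin.sum_univ_two, b.repr_apply_apply, b.repr_apply_apply] at h
  exact h

theorem norm_sq_b (b : OrthonormalBasis (Fin 2) ℝ E2) (x : E2) :
    ‖x‖ ^ 2 = (inner ℝ (b 0) x : ℝ) ^ 2 + (inner ℝ (b 1) x : ℝ) ^ 2 := by
  have h := b.sum_sq_norm_inner_right x
  rw [Fin.sum_univ_two] at h
  rw [← h, Real.norm_eq_abs, Real.norm_eq_abs, sq_abs, sq_abs]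

theorem dg_dg (b : OrthonormalBasis (Fin 2) ℝ E2) {s0 s1 : ℝ} (h0 : s0 ≠ 0) (h1 : s1 ≠ 0) (x : E2) :
    dg b s0⁻¹ s1⁻¹ (dg b s0 s1 x) = x := by
  show (s0⁻¹ * inner ℝ (b 0) (dg b s0 s1 x)) • b 0 + (s1⁻¹ * inner ℝ (b 1) (dg b s0 s1 x)) • b 1 = x
  rw [inner_dg0, inner_dg1, ← mul_assoc, ← mul_assoc, inv_mul_cancel₀ h0, inv_mul_cancel₀ h1,
    one_mul, one_mul]
  exact exp_b b x

theorem inner_dg (b : OrthonormalBasis (Fin 2) ℝ E2) (s0 s1 : ℝ) (x y : E2) :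
    inner ℝ (dg b s0 s1 x) y = inner ℝ x (dg b s0 s1 y) := by
  unfold dg
  rw [inner_add_left, inner_smul_left, inner_smul_left, inner_add_right, inner_smul_right,
    inner_smul_right]
  simp only [conj_trivial]
  rw [real_inner_comm (b 0) x, real_inner_comm (b 1) x]
  ring

theorem norm_dg_sq (b : OrthonormalBasis (Fin 2) ℝ E2) (s0 s1 : ℝ) (x : E2) :
    ‖dg b s0 s1 x‖ ^ 2 = (s0 * inner ℝ (b 0) x) ^ 2 + (s1 * inner ℝ (b 1) x) ^ 2 := by
  rw [norm_sq_b b, inner_dg0, inner_dg1]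

/-- the cell frame. -/
noncomputable def cfr (b : OrthonormalBasis (Fin 2) ℝ E2) (s0 s1 κ : ℝ) (h0 : 0 < s0) (h1 : 0 < s1)
    (hκ : 0 < κ) (C : E2) : E3 ≃L[ℝ] E3 :=
  LinearEquiv.toContinuousLinearEquiv
    { toFun := fun X => pt (dg b s0 s1 (lat X)) (κ * (X 2 + inner ℝ C (lat X)))
      map_add' := fun X Y => by
        rw [← pt_add]
        congr 1
        · rw [lat_add, dg_add]
        · rw [lat_add, inner_add_right, PiLp.add_apply]; ring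
      map_smul' := fun c X => by
        rw [RingHom.id_apply, ← pt_smul]
        congr 1
        · rw [lat_smul, dg_smul]
        · rw [lat_smul, inner_smul_right, PiLp.smul_apply, smul_eq_mul]; ring
      invFun := fun Y => pt (dg b s0⁻¹ s1⁻¹ (lat Y))
        (κ⁻¹ * Y 2 - inner ℝ C (dg b s0⁻¹ s1⁻¹ (lat Y)))
      left_inv := fun X => by
        show pt (dg b s0⁻¹ s1⁻¹ (lat (pt (dg b s0 s1 (lat X)) (κ * (X 2 + inner ℝ C (lat X))))))
          (κ⁻¹ * (pt (dg b s0 s1 (lat X)) (κ * (X 2 + inner ℝ C (lat X)))) 2 - inner ℝ C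
            (dg b s0⁻¹ s1⁻¹ (lat (pt (dg b s0 s1 (lat X)) (κ * (X 2 + inner ℝ C (lat X))))))) = X
        rw [lat_pt, pt_two, dg_dg b h0.ne' h1.ne', ← mul_assoc, inv_mul_cancel₀ hκ.ne', one_mul,
          add_sub_cancel_right, pt_lat]
      right_inv := fun Y => by
        have e : dg b s0 s1 (dg b s0⁻¹ s1⁻¹ (lat Y)) = lat Y := by
          have := dg_dg b (inv_ne_zero h0.ne') (inv_ne_zero h1.ne') (lat Y)
          rwa [inv_inv, inv_inv] at this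
        show pt (dg b s0 s1 (lat (pt (dg b s0⁻¹ s1⁻¹ (lat Y))
          (κ⁻¹ * Y 2 - inner ℝ C (dg b s0⁻¹ s1⁻¹ (lat Y))))))
          (κ * ((pt (dg b s0⁻¹ s1⁻¹ (lat Y)) (κ⁻¹ * Y 2 - inner ℝ C (dg b s0⁻¹ s1⁻¹ (lat Y)))) 2 +
            inner ℝ C (lat (pt (dg b s0⁻¹ s1⁻¹ (lat Y))
              (κ⁻¹ * Y 2 - inner ℝ C (dg b s0⁻¹ s1⁻¹ (lat Y))))))) = Y
        rw [lat_pt, pt_two, e, sub_add_cancel, ← mul_assoc, mul_inv_cancel₀ hκ.ne', one_mul,
          pt_lat] }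

section

variable {b : OrthonormalBasis (Fin 2) ℝ E2} {s0 s1 κ : ℝ} (h0 : 0 < s0) (h1 : 0 < s1) (hκ : 0 < κ)

theorem cfr_apply (C : E2) (X : E3) :
    cfr b s0 s1 κ h0 h1 hκ C X = pt (dg b s0 s1 (lat X)) (κ * (X 2 + inner ℝ C (lat X))) := rfl

theorem norm_cfr_sq (C : E2) (X : E3) : ‖cfr b s0 s1 κ h0 h1 hκ C X‖ ^ 2 =
    (s0 * inner ℝ (b 0) (lat X)) ^ 2 + (s1 * inner ℝ (b 1) (lat X)) ^ 2 +
      (κ * (X 2 + inner ℝ C (lat X))) ^ 2 := by
  rw [cfr_apply, normsq3, lat_pt, pt_two, norm_dg_sq]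

theorem adjE_cfr (C : E2) (Z : E3) : adjE (cfr b s0 s1 κ h0 h1 hκ C) Z =
    pt (dg b s0 s1 (lat Z) + (κ * Z 2) • C) (κ * Z 2) := by
  refine ext_inner_right ℝ fun X => ?_
  rw [inner_adjE, cfr_apply, inner_split, inner_split, lat_pt, lat_pt, pt_two, pt_two,
    inner_add_left, inner_dg, inner_smul_left]
  simp only [conj_trivial]
  ring

theorem norm_Pl_sq {ρ : ℝ} (hρ : 0 < ρ) (C : E2) (X : E3) : ‖Pl ρ κ hρ hκ C X‖ ^ 2 =
    (ρ * ‖lat X‖) ^ 2 + (κ * (X 2 + inner ℝ C (lat X))) ^ 2 := by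
  rw [Pl_apply, normsq3, lat_pt, pt_two, norm_smul, Real.norm_eq_abs, abs_of_pos hρ]

theorem Pl_le_cfr (h01 : s1 ≤ s0) (C : E2) (X : E3) :
    ‖Pl s1 κ h1 hκ C X‖ ≤ ‖cfr b s0 s1 κ h0 h1 hκ C X‖ := by
  refine le_of_sq_le_sq ?_ (norm_nonneg _)
  rw [norm_Pl_sq, norm_cfr_sq, mul_pow, norm_sq_b b (lat X), mul_add, mul_pow, mul_pow]
  have h2 : s1 ^ 2 ≤ s0 ^ 2 := pow_le_pow_left₀ h1.le h01 2
  nlinarith [mul_le_mul_of_nonneg_right h2 (sq_nonneg (inner ℝ (b 0) (lat X) : ℝ))]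

theorem sq_b (b : OrthonormalBasis (Fin 2) ℝ E2) :
    (b 0 0 * b 1 1 - b 0 1 * b 1 0) ^ 2 = 1 := by
  have a1 := inner_b00 b
  have a2 := inner_b11 b
  have a3 := inner_b01 b
  rw [inner2] at a1 a2 a3
  have e : (b 0 0 * b 1 1 - b 0 1 * b 1 0) ^ 2 = (b 0 0 * b 0 0 + b 0 1 * b 0 1) *
      (b 1 0 * b 1 0 + b 1 1 * b 1 1) - (b 0 0 * b 1 0 + b 0 1 * b 1 1) ^ 2 := by ring
  rw [e, a1, a2, a3]
  norm_num

/-- determinant of a linear map of `E3` by its columns. -/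
theorem det3 (f : E3 →ₗ[ℝ] E3) : LinearMap.det f =
    f (pt !₂[1, 0] 0) 0 * (f (pt !₂[0, 1] 0) 1 * f (pt !₂[0, 0] 1) 2 -
      f (pt !₂[0, 0] 1) 1 * f (pt !₂[0, 1] 0) 2) -
    f (pt !₂[0, 1] 0) 0 * (f (pt !₂[1, 0] 0) 1 * f (pt !₂[0, 0] 1) 2 -
      f (pt !₂[0, 0] 1) 1 * f (pt !₂[1, 0] 0) 2) +
    f (pt !₂[0, 0] 1) 0 * (f (pt !₂[1, 0] 0) 1 * f (pt !₂[0, 1] 0) 2 -
      f (pt !₂[0, 1] 0) 1 * f (pt !₂[1, 0] 0) 2) := by
  have e0 : (EuclideanSpace.single (0 : Fin 3) (1 : ℝ) : E3) = pt !₂[1, 0] 0 := by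
    ext i; fin_cases i <;> simp [pt]
  have e1 : (EuclideanSpace.single (1 : Fin 3) (1 : ℝ) : E3) = pt !₂[0, 1] 0 := by
    ext i; fin_cases i <;> simp [pt]
  have e2 : (EuclideanSpace.single (2 : Fin 3) (1 : ℝ) : E3) = pt !₂[0, 0] 1 := by
    ext i; fin_cases i <;> simp [pt]
  rw [← LinearMap.det_toMatrix (EuclideanSpace.basisFun (Fin 3) ℝ).toBasis, Matrix.det_fin_three]
  simp only [LinearMap.toMatrix_apply, OrthonormalBasis.coe_toBasis,
    OrthonormalBasis.coe_toBasis_repr_apply, EuclideanSpace.basisFun_repr,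
    EuclideanSpace.basisFun_apply, e0, e1, e2]
  ring

theorem adet_cfr (C : E2) :
    adet (cfr b s0 s1 κ h0 h1 hκ C : E3 →L[ℝ] E3) = s0 * s1 * κ := by
  unfold adet
  rw [det3]
  simp only [ContinuousLinearMap.coe_coe, ContinuousLinearEquiv.coe_coe, cfr_apply, lat_pt, pt_two,
    pt_zero, pt_one, dg, inner2, PiLp.add_apply, PiLp.smul_apply, smul_eq_mul]
  simp only [Matrix.cons_val_zero, Matrix.cons_val_one, mul_one, mul_zero, add_zero, zero_add]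
  have e := sq_b b
  have e2 : ∀ x : ℝ, x = s0 * s1 * κ * (b 0 0 * b 1 1 - b 0 1 * b 1 0) ^ 2 → |x| = s0 * s1 * κ := by
    intro x hx
    rw [hx, e, mul_one, abs_of_pos (by positivity)]
  apply e2
  ring

theorem adet_Pl {ρ : ℝ} (hρ : 0 < ρ) (C : E2) :
    adet (Pl ρ κ hρ hκ C : E3 →L[ℝ] E3) = ρ * ρ * κ := by
  unfold adet
  rw [det3]
  simp only [ContinuousLinearMap.coe_coe, ContinuousLinearEquiv.coe_coe, Pl_apply, lat_pt, pt_two,
    pt_zero, pt_one, inner2, PiLp.smul_apply, smul_eq_mul]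
  simp only [Matrix.cons_val_zero, Matrix.cons_val_one, mul_one, mul_zero, add_zero, zero_add]
  rw [← abs_of_pos (show 0 < ρ * ρ * κ by positivity)]
  congr 1
  ring

end

/-! ### overlap of the strips -/

/-- number of integers near a real number. -/
theorem card_int (x R : ℝ) (hR : 0 ≤ R) (K : Set ℤ) (hK : ∀ k ∈ K, |x - k| ≤ R) :
    (K.ncard : ℝ) ≤ 2 * R + 1 := by
  have h : K ⊆ (Finset.Icc ⌈x - R⌉ ⌊x + R⌋ : Finset ℤ) := by
    intro k hk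
    have h1 := abs_le.1 (hK k hk)
    rw [Finset.mem_coe, Finset.mem_Icc]
    exact ⟨Int.ceil_le.2 (by linarith), Int.le_floor.2 (by linarith)⟩
  have h2 := Set.ncard_le_ncard h (Finset.finite_toSet _)
  rw [Set.ncard_coe_finset, Int.card_Icc] at h2
  have h3 : (((⌊x + R⌋ + 1 - ⌈x - R⌉).toNat : ℤ) : ℝ) ≤ 2 * R + 1 := by
    have h4 := Int.floor_le (x + R)
    have h5 := Int.le_ceil (x - R)
    rcases le_or_gt 0 (⌊x + R⌋ + 1 - ⌈x - R⌉) with h6 | h6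
    · rw [Int.toNat_of_nonneg h6]
      push_cast
      linarith
    · rw [Int.toNat_of_nonpos h6.le]
      push_cast
      linarith
  refine le_trans ?_ h3
  exact_mod_cast h2

/-- slope strip of number `k`. -/
def strp (b : OrthonormalBasis (Fin 2) ℝ E2) (η0 θ L0 : ℝ) (C : E2) (k : ℤ) : Set E3 :=
  {ζ | |inner ℝ (b 1) (lat ζ - ζ 2 • C) - η0 * (k * θ - inner ℝ (b 1) C)| ≤ L0 * θ}

/-- **overlap of the strips** in the cell metric. -/
theorem strp_overlap {b : OrthonormalBasis (Fin 2) ℝ E2} {s0 θ κ η0 L0 a : ℝ} (h0 : 0 < s0)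
    (hθ : 0 < θ) (hκ : 0 < κ) (ha : 1 ≤ a) (hη : a⁻¹ ≤ η0) (hL0 : 0 ≤ L0) (C : E2) (ξ : E3)
    (K : Set ℤ) :
    (Set.ncard {k | k ∈ K ∧ ξ ∈ thk (cfr b s0 θ κ h0 hθ hκ C) (strp b η0 θ L0 C k)} : ℝ) ≤
      2 * (a * (L0 + 1)) + 1 := by
  have ha0 : 0 < a := by linarith
  have hη0 : 0 < η0 := (inv_pos.2 ha0).trans_le hη
  have hη1 : 1 ≤ a * η0 := by
    calc (1:ℝ) = a * a⁻¹ := by field_simp
      _ ≤ a * η0 := by gcongr
  set v : ℝ := inner ℝ (b 1) (lat ξ - ξ 2 • C) with hv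
  refine card_int ((v / η0 + inner ℝ (b 1) C) / θ) (a * (L0 + 1)) (by positivity) _ ?_
  rintro k ⟨-, z, hz, hz2⟩
  set η := (adjE (cfr b s0 θ κ h0 hθ hκ C)).symm (ξ - z) with hη'
  have e1 : ξ - z = adjE (cfr b s0 θ κ h0 hθ hκ C) η := by
    rw [hη', ContinuousLinearEquiv.apply_symm_apply]
  rw [adjE_cfr] at e1
  have e2 : lat ξ = lat z + (dg b s0 θ (lat η) + (κ * η 2) • C) := by
    have := congrArg lat e1
    rw [lat_sub, lat_pt] at this
    rw [← this]; abel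
  have e3 : ξ 2 = z 2 + κ * η 2 := by
    have := congrArg (fun w : E3 => w 2) e1
    simp only [pt_two, PiLp.sub_apply] at this
    linarith
  have e4 : v = inner ℝ (b 1) (lat z - z 2 • C) + θ * inner ℝ (b 1) (lat η) := by
    have e5 : lat ξ - ξ 2 • C = (lat z - z 2 • C) + dg b s0 θ (lat η) := by
      rw [e2, e3, add_smul]; abel
    rw [hv, e5, inner_add_right, inner_dg1]
  have h5 : |(inner ℝ (b 1) (lat η) : ℝ)| ≤ 1 := by
    refine (abs_real_inner_le_norm _ _).trans ?_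
    rw [b.norm_eq_one, one_mul]
    exact (norm_lat_le η).trans hz2.le
  have hz' : |inner ℝ (b 1) (lat z - z 2 • C) - η0 * (k * θ - inner ℝ (b 1) C)| ≤ L0 * θ := hz
  have h6 : |v - η0 * (k * θ - inner ℝ (b 1) C)| ≤ (L0 + 1) * θ := by
    have e6 : v - η0 * (k * θ - inner ℝ (b 1) C) =
        (inner ℝ (b 1) (lat z - z 2 • C) - η0 * (k * θ - inner ℝ (b 1) C)) +
          θ * inner ℝ (b 1) (lat η) := by rw [e4]; ring
    rw [e6]
    refine (abs_add_le _ _).trans ?_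
    rw [abs_mul, abs_of_pos hθ]
    nlinarith
  have e7 : (v / η0 + inner ℝ (b 1) C) / θ - k = (v - η0 * (k * θ - inner ℝ (b 1) C)) / (η0 * θ) := by
    field_simp
    ring
  rw [e7, abs_div, abs_of_pos (mul_pos hη0 hθ), div_le_iff₀ (mul_pos hη0 hθ)]
  refine h6.trans ?_
  calc (L0 + 1) * θ = (L0 + 1) * θ * 1 := by ring
    _ ≤ (L0 + 1) * θ * (a * η0) := by gcongr
    _ = _ := by ring

end Crest.Agent.R116.UpC448
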