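import Crest.Agent.R116.UpC2_448
import Crest.Agent.R116.AlB1_888

/-!
# R116: UPPER-C, cone instance, part 2: pieces (helper448)

`rep_piece`: the selected piece is represented by `1_{S m} u_m`; `tra_piece`: the product of the window
of a child cap with the translate of a piece is a transport of the piece (metric `Pl ρ κ C'`).
-/

set_option autoImplicit false
set_option linter.unusedSectionVars false

open MeasureTheory FourierTransform
open scoped ContDiff ENNReal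

namespace Crest.Agent.R116.UpC448

open Crest.Agent.R138.Wf448
open Crest.Agent.R138.Defs (E2 ee)
open Crest.Agent.R138.Wpk685 (win fat cen caps)
open Crest.Agent.R116.CWp480 Crest.Agent.R116.CDef480 Crest.Agent.R116.CWc480
  Crest.Agent.R116.CWd480
open Crest.Agent.R116.Up192 (pa pa_pos)

/-! ### elementary facts -/

theorem continuous_capw {b : E2 → ℂ} (hb : Continuous b) (c : E2) (ρ : ℝ) :
    Continuous (Crest.Agent.R138.Wpk685.cap b c ρ) := by
  unfold Crest.Agent.R138.Wpk685.cap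
  exact hb.comp (by fun_prop : Continuous fun ξ : E2 => ρ⁻¹ • (ξ - c))

theorem measurable_capc (ρ : ℝ) (m : ℤ × ℤ) : Measurable (capc ρ m) :=
  (continuous_capw Crest.Agent.R138.Wpk685.win_contDiff.continuous _ _).measurable.comp
    measurable_slp

theorem norm_capc_le (ρ : ℝ) (m : ℤ × ℤ) (ζ : E3) : ‖capc ρ m ζ‖ ≤ 1 := by
  unfold capc Crest.Agent.R138.Wpk685.cap
  exact Crest.Agent.R138.Wpk685.norm_win_le _

theorem capc_mul_int (ρ : ℝ) (m : ℤ × ℤ) {g : E3 → ℂ} (hg : Integrable g) :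
    Integrable (fun ζ => capc ρ m ζ * g ζ) :=
  hg.bdd_mul (c := 1) (measurable_capc ρ m).aestronglyMeasurable
    (Filter.Eventually.of_forall fun ζ => norm_capc_le ρ m ζ)

theorem capc_mul_l2 (ρ : ℝ) (m : ℤ × ℤ) {g : E3 → ℂ} (hg : MemLp g 2) :
    MemLp (fun ζ => capc ρ m ζ * g ζ) 2 := by
  refine MemLp.of_le hg ((measurable_capc ρ m).aestronglyMeasurable.mul hg.1)
    (Filter.Eventually.of_forall fun ζ => ?_)
  rw [norm_mul]
  have := norm_capc_le ρ m ζ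
  nlinarith [norm_nonneg (g ζ)]

theorem continuous_umc (ρ : ℝ) {g : E3 → ℂ} (hg : Integrable g) (m : ℤ × ℤ) :
    Continuous (umc ρ g m) := fourierInv_continuous (capc_mul_int ρ m hg)

theorem umc_bdd (ρ : ℝ) {g : E3 → ℂ} (hg : Integrable g) (m : ℤ × ℤ) :
    ∃ M, ∀ y, ‖umc ρ g m y‖ ≤ M := by
  refine ⟨∫ ζ, ‖capc ρ m ζ * g ζ‖, fun y => ?_⟩
  unfold umc
  rw [CWp480.fourierInv_eq_int]
  refine (norm_integral_le_integral_norm _).trans (le_of_eq ?_)
  congr 1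
  ext ζ
  rw [norm_mul, Crest.Agent.R138.Wpk685.norm_ee, mul_one]

theorem ind_int {ρ : ℝ} {g : E3 → ℂ} (hg : Integrable g) (m : ℤ × ℤ) {S : Set E3}
    (hS : MeasurableSet S) (hb : Bornology.IsBounded S) :
    Integrable (S.indicator (umc ρ g m)) := by
  rw [integrable_indicator_iff hS]
  obtain ⟨M, hM⟩ := umc_bdd ρ hg m
  refine Measure.integrableOn_of_bounded (M := M) hb.measure_lt_top.ne
    (continuous_umc ρ hg m).aestronglyMeasurable (Filter.Eventually.of_forall hM)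

theorem measurable_trc (z : E3 × ℝ) : Measurable (fun ζ : E3 => ee (inner ℝ z.1 ζ + z.2 * hc ζ)) :=
  continuous_ee'.measurable.comp ((measurable_const.inner measurable_id).add
    (measurable_hc.const_mul z.2))

theorem norm_trc' (z : E3 × ℝ) (g : E3 → ℂ) (ζ : E3) : ‖trc z g ζ‖ = ‖g ζ‖ := by
  unfold trc
  rw [norm_mul, Crest.Agent.R138.Wpk685.norm_ee, mul_one]

theorem trc_int (z : E3 × ℝ) {g : E3 → ℂ} (hg : Integrable g) : Integrable (trc z g) :=
  hg.mul_bdd (c := 1) (measurable_trc z).aestronglyMeasurable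
    (Filter.Eventually.of_forall fun _ => (Crest.Agent.R138.Wpk685.norm_ee _).le)

theorem trc_l2 (z : E3 × ℝ) {g : E3 → ℂ} (hg : MemLp g 2) : MemLp (trc z g) 2 := by
  refine MemLp.of_le hg (hg.1.mul (measurable_trc z).aestronglyMeasurable)
    (Filter.Eventually.of_forall fun ζ => (norm_trc' z g ζ).le)

/-! ### representation of a piece -/

/-- **the selected piece is represented by `1_S u_m`**. -/
theorem rep_piece {N : ℕ} {Q T ρ η0 κ : ℝ} {m : ℤ × ℤ} {B : E3 ≃L[ℝ] E3} {c : E3} {Sf : Set E3}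
    (hP : Pk N Q T ρ (etw η0 κ) (cen ρ m) B c Sf) {g : E3 → ℂ} (hg : Integrable g) {S : Set E3}
    (hS : MeasurableSet S) (hb : Bornology.IsBounded S) :
    Rep N Q B c (piecec η0 κ ρ g m S) (S.indicator (umc ρ g m)) := by
  obtain ⟨a, ha, haeq⟩ := hP.ft
  have hv := ind_int (ρ := ρ) hg m hS hb
  have e1 : piecec η0 κ ρ g m S =
      fun ζ => CWp480.cap a c B ζ * 𝓕 (S.indicator (umc ρ g m)) ζ := by
    funext ζ
    unfold piecec fatc
    rw [haeq]
  obtain ⟨M, hM⟩ := umc_bdd ρ hg m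
  have hM0 : 0 ≤ M := (norm_nonneg _).trans (hM 0)
  have hFc : Continuous (𝓕 (S.indicator (umc ρ g m))) := by
    have h1 : 𝓕 (S.indicator (umc ρ g m)) = fun y => 𝓕⁻ (S.indicator (umc ρ g m)) (-y) := by
      funext y
      rw [Real.fourierInv_eq_fourier_neg, neg_neg]
    rw [h1]
    exact (fourierInv_continuous hv).comp continuous_neg
  have hFb : ∀ ζ, ‖𝓕 (S.indicator (umc ρ g m)) ζ‖ ≤ ∫ y, ‖S.indicator (umc ρ g m) y‖ := by
    intro ζ
    rw [fourier_eq_int]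
    refine (norm_integral_le_integral_norm _).trans (le_of_eq ?_)
    congr 1
    ext y
    rw [norm_mul, Crest.Agent.R138.Wpk685.norm_ee, mul_one]
  have hci := cap_int ha c B
  have hci2 : MemLp (CWp480.cap a c B) 2 :=
    (contDiff_cap ha.smooth c B).continuous.memLp_of_hasCompactSupport (hcs_cap ha c B)
  refine ⟨?_, ?_, hv.aestronglyMeasurable, ⟨M, fun y => ?_⟩, a, ha, fun x => ?_⟩
  · rw [e1]
    exact hci.mul_bdd (c := _) hFc.aestronglyMeasurable (Filter.Eventually.of_forall hFb)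
  · rw [e1]
    refine MemLp.of_le_mul (c := ∫ y, ‖S.indicator (umc ρ g m) y‖) hci2
      (hci2.1.mul hFc.aestronglyMeasurable) (Filter.Eventually.of_forall fun ζ => ?_)
    rw [norm_mul, mul_comm]
    exact mul_le_mul_of_nonneg_right (hFb ζ) (norm_nonneg _)
  · by_cases hy : y ∈ S
    · rw [Set.indicator_of_mem hy]; exact hM y
    · rw [Set.indicator_of_notMem hy, norm_zero]; exact hM0
  · rw [e1]
    exact rep_ind hci hv x

/-! ### transport of a piece -/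

theorem Pl_le_Pl {ρ κ D : ℝ} (hρ : 0 < ρ) (hκ : 0 < κ) (hD : 0 ≤ D) {C C' : E2}
    (h : κ * ‖C - C'‖ ≤ D * ρ) (x : E3) :
    ‖Pl ρ κ hρ hκ C x‖ ≤ (1 + D) * ‖Pl ρ κ hρ hκ C' x‖ := by
  have e1 : Pl ρ κ hρ hκ C x = Pl ρ κ hρ hκ C' x + pt 0 (κ * inner ℝ (C - C') (lat x)) := by
    rw [Pl_apply, Pl_apply, ← pt_add, add_zero]
    congr 1
    rw [inner_sub_left]
    ring
  rw [e1]
  refine (norm_add_le _ _).trans ?_
  have h1 : ‖pt (0 : E2) (κ * inner ℝ (C - C') (lat x))‖ ≤ D * ‖Pl ρ κ hρ hκ C' x‖ := by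
    refine (norm_pt_le _ _).trans ?_
    rw [norm_zero, zero_add, abs_mul, abs_of_pos hκ]
    have h2 : ρ * ‖lat x‖ ≤ ‖Pl ρ κ hρ hκ C' x‖ := by
      have h3 := norm_lat_le (Pl ρ κ hρ hκ C' x)
      rwa [Pl_apply, lat_pt, norm_smul, Real.norm_eq_abs, abs_of_pos hρ] at h3
    calc κ * |inner ℝ (C - C') (lat x)| ≤ κ * (‖C - C'‖ * ‖lat x‖) := by
          gcongr
          exact abs_real_inner_le_norm _ _
      _ = (κ * ‖C - C'‖) * ‖lat x‖ := by ring
      _ ≤ (D * ρ) * ‖lat x‖ := by gcongr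
      _ = D * (ρ * ‖lat x‖) := by ring
      _ ≤ _ := by gcongr
  linarith

/-- product of two windows in the metric `A`. -/
theorem Nn_prod {N : ℕ} {Q L : ℝ} {a a' : E3 → ℂ} (ha : Win N Q a) (ha' : Win N Q a') (c c' : E3)
    (A B B' : E3 ≃L[ℝ] E3) (hL : 1 ≤ L) (hB : ∀ x, ‖A x‖ ≤ L * ‖B x‖)
    (hB' : ∀ x, ‖A x‖ ≤ L * ‖B' x‖) {j : ℕ} (hj : j ≤ N) (ξ : E3) :
    Nn (A : E3 →L[ℝ] E3) j (fun ζ => CWp480.cap a c B ζ * CWp480.cap a' c' B' ζ) ξ ≤
      2 ^ N * (L ^ N * Q) ^ 2 := by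
  have hQ := ha.nonneg
  have hL0 : 0 ≤ L := by linarith
  have h1 : ∀ j ≤ N, ∀ ξ, Nn (A : E3 →L[ℝ] E3) j (CWp480.cap a c B) ξ ≤ L ^ N * Q := by
    intro j hj ξ
    refine (Nn_le_of_le hL0 hB j _ ξ).trans ?_
    have := cap_Nn ha c B hj ξ
    have h2 : L ^ j ≤ L ^ N := pow_le_pow_right₀ hL hj
    exact mul_le_mul h2 this (Nn_nonneg _ _ _ _) (by positivity)
  have h1' : ∀ j ≤ N, ∀ ξ, Nn (A : E3 →L[ℝ] E3) j (CWp480.cap a' c' B') ξ ≤ L ^ N * Q := by
    intro j hj ξ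
    refine (Nn_le_of_le hL0 hB' j _ ξ).trans ?_
    have := cap_Nn ha' c' B' hj ξ
    have h2 : L ^ j ≤ L ^ N := pow_le_pow_right₀ hL hj
    exact mul_le_mul h2 this (Nn_nonneg _ _ _ _) (by positivity)
  refine (Nn_mul _ ((contDiff_cap ha.smooth c B).of_le (by exact_mod_cast le_top))
    ((contDiff_cap ha'.smooth c' B').of_le (by exact_mod_cast le_top)) ξ).trans ?_
  calc ∑ l ∈ Finset.range (j + 1), (j.choose l : ℝ) *
        (Nn (A : E3 →L[ℝ] E3) l (CWp480.cap a c B) ξ *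
          Nn (A : E3 →L[ℝ] E3) (j - l) (CWp480.cap a' c' B') ξ)
      ≤ ∑ l ∈ Finset.range (j + 1), (j.choose l : ℝ) * (L ^ N * Q * (L ^ N * Q)) := by
        refine Finset.sum_le_sum fun l hl => ?_
        have hl' := Finset.mem_range.1 hl
        have a1 := h1 l (by omega) ξ
        have a2 := h1' (j - l) (by omega) ξ
        have a3 := Nn_nonneg (A : E3 →L[ℝ] E3) l (CWp480.cap a c B) ξ
        have a4 := Nn_nonneg (A : E3 →L[ℝ] E3) (j - l) (CWp480.cap a' c' B') ξ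
        gcongr
    _ = 2 ^ j * (L ^ N * Q) ^ 2 := by
        rw [← Finset.sum_mul]
        have h5 : ∑ i ∈ Finset.range (j + 1), (j.choose i : ℝ) = 2 ^ j := by
          exact_mod_cast Nat.sum_range_choose j
        rw [h5]
        ring
    _ ≤ _ := by
        have : (2:ℝ) ^ j ≤ 2 ^ N := pow_le_pow_right₀ (by norm_num) hj
        gcongr

/-- one piece seen by the child cap `m'` in the frame `z`. -/
noncomputable def chp (η0 κ ρ ρ' : ℝ) (g : E3 → ℂ) (z : E3 × ℝ) (m' m : ℤ × ℤ) (S : Set E3) :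
    E3 → ℂ := fun ζ => capc ρ' m' ζ * trc z (piecec η0 κ ρ g m S) ζ

/-- **transport**. -/
theorem tra_piece {N : ℕ} {Q T ρ ρ' η0 κ L : ℝ} (hκ : 0 < κ) {m m' : ℤ × ℤ}
    {B B' : E3 ≃L[ℝ] E3} {c c' : E3} {Sf Sf' : Set E3} (A : E3 ≃L[ℝ] E3)
    (hP : Pk N Q T ρ (etw η0 κ) (cen ρ m) B c Sf)
    (hP' : Pk N Q T ρ' (etw η0 (2 * κ)) (cen ρ' m') B' c' Sf')
    (hL : 1 ≤ L) (hB : ∀ x, ‖A x‖ ≤ L * ‖B x‖) (hB' : ∀ x, ‖A x‖ ≤ L * ‖B' x‖)
    (g : E3 → ℂ) (S : Set E3) (z : E3 × ℝ) (hz : |z.2| * ρ ^ 2 ≤ T) :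
    Tra A N (2 ^ N * (L ^ N * Q) ^ 2) (z.1 + z.2 • vel (cen ρ m)) (chp η0 κ ρ ρ' g z m' m S)
      (piecec η0 κ ρ g m S) := by
  obtain ⟨a, ha, haeq⟩ := hP'.wn
  obtain ⟨a', ha', haeq'⟩ := hP.ph z.2 hz
  refine ⟨1, fun ζ => CWp480.cap a c' B' ζ * CWp480.cap a' c B ζ, norm_one,
    ((hcs_cap ha c' B').mul_right).hasTemperateGrowth
      ((contDiff_cap ha.smooth c' B').mul (contDiff_cap ha'.smooth c B)),
    fun j hj ξ => Nn_prod ha ha' c' c A B' B hL hB' hB hj ξ, fun ζ => ?_⟩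
  rw [one_mul]
  by_cases h0 : piecec η0 κ ρ g m S ζ = 0
  · unfold chp trc
    rw [h0]
    ring
  · have h1 : Crest.Agent.R138.Wpk685.cap fat (cen ρ m) ρ (slp ζ) * etw η0 κ ζ ≠ 0 := by
      intro hc
      apply h0
      unfold piecec fatc
      rw [hc, zero_mul]
    have h2 := haeq' ζ (hP.sf ζ h1)
    have h3 : etw η0 (2 * κ) ζ = 1 := by
      rw [etw_eq]
      apply bt_one
      have h4 : etw η0 κ ζ ≠ 0 := right_ne_zero_of_mul h1
      rw [etw_eq] at h4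
      have h5 : |(ζ 2 - η0) / κ| < 2 := by
        by_contra hc
        exact h4 (bt_zero (not_lt.1 hc))
      have e : (ζ 2 - η0) / (2 * κ) = ((ζ 2 - η0) / κ) / 2 := by
        field_simp
      rw [e, abs_div, abs_two]
      linarith
    have h6 := haeq ζ
    rw [h3, mul_one] at h6
    unfold chp trc capc
    beta_reduce
    rw [h6, Crest.Agent.R138.Wf448.ee_add, h2, inner_add_left, Crest.Agent.R138.Wf448.ee_add]
    ring

end Crest.Agent.R116.UpC448
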