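import Crest.Agent.R116.UpC3_448

/-!
# R116: UPPER-C, cone instance, part 3: one cell (helper448)

`upC_cell`: the energy of a child cap of a selected wave on a cell
`θ'⁻¹ (b 0) × θ⁻¹ (b 1) × κ⁻¹ (null normal)` is at most `(θ / θ') (θ² κ)⁻¹ ν` times the density
`Adc` of the parent packets, `ν` = number of active parent caps in a strip of width `θ`.
-/

set_option autoImplicit false
set_option linter.unusedSectionVars false

open MeasureTheory FourierTransform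
open scoped ContDiff ENNReal

namespace Crest.Agent.R116.UpC448

open Crest.Agent.R138.Wf448
open Crest.Agent.R138.Defs (E2 ee)
open Crest.Agent.R138.Wpk685 (win fat cen caps)
open Crest.Agent.R138.Loc878 (nearL mem_nearL Near)
open Crest.Agent.R116.CWp480 Crest.Agent.R116.CDef480 Crest.Agent.R116.CWc480
  Crest.Agent.R116.CWd480
open Crest.Agent.R116.Up192 (pa pa_pos upper_selG)
open Crest.Agent.R116.Cad538 (frc wt wt_frame)
open Crest.Agent.R116.AlB888 (Adc)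

theorem frc_eq {ρ κ : ℝ} (hρ : 0 < ρ) (hκ : 0 < κ) (C : E2) (x : E3) :
    frc ρ κ C x = Pl ρ κ hρ hκ C x := by
  rw [Cad538.frc_apply, Pl_apply]
  unfold nrm
  rw [zero_mul, zero_div, add_zero]

theorem Pl_le_Fr {l ρ κ : ℝ} (hl : 1 ≤ l) (hρ : 0 < ρ) (hκ : 0 < κ) (C : E2) (x : E3) :
    ‖Pl ρ κ hρ hκ C x‖ ≤ ‖Fr l ρ κ (by linarith) hρ hκ C x‖ := by
  rw [norm_Fr]
  nlinarith [norm_nonneg (Pl ρ κ hρ hκ C x)]

theorem Pl_mono {ρ κ ρ' κ' : ℝ} (hρ : 0 < ρ) (hκ : 0 < κ) (hρ' : 0 < ρ') (hκ' : 0 < κ')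
    (h1 : ρ ≤ ρ') (h2 : κ ≤ κ') (C : E2) (x : E3) :
    ‖Pl ρ κ hρ hκ C x‖ ≤ ‖Pl ρ' κ' hρ' hκ' C x‖ := by
  refine le_of_sq_le_sq ?_ (norm_nonneg _)
  rw [norm_Pl_sq, norm_Pl_sq, mul_pow, mul_pow, mul_pow, mul_pow]
  have h3 : ρ ^ 2 ≤ ρ' ^ 2 := pow_le_pow_left₀ hρ.le h1 2
  have h4 : κ ^ 2 ≤ κ' ^ 2 := pow_le_pow_left₀ hκ.le h2 2
  gcongr

theorem supp_piece {N : ℕ} {Q T ρ η0 κ : ℝ} {m : ℤ × ℤ} {B : E3 ≃L[ℝ] E3} {c : E3} {Sf : Set E3}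
    (hP : Pk N Q T ρ (etw η0 κ) (cen ρ m) B c Sf) {g : E3 → ℂ} {S : Set E3} {ζ : E3}
    (h : piecec η0 κ ρ g m S ζ ≠ 0) : ζ ∈ Sf := by
  refine hP.sf ζ fun hc => h ?_
  unfold piecec fatc
  rw [hc, zero_mul]

theorem supp_chp {η0 κ ρ ρ' : ℝ} {g : E3 → ℂ} {z : E3 × ℝ} {m' m : ℤ × ℤ} {S : Set E3} {ζ : E3}
    (h : chp η0 κ ρ ρ' g z m' m S ζ ≠ 0) : piecec η0 κ ρ g m S ζ ≠ 0 := by
  intro h0
  apply h
  unfold chp trc
  rw [h0, zero_mul, mul_zero]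

/-- the child cap sees only the near parent caps. -/
theorem umc_sel {η0 κ θ θ' : ℝ} (hθ : 0 < θ) (hθθ' : θ ≤ θ') (g : E3 → ℂ) (S : ℤ × ℤ → Set E3)
    (z : E3 × ℝ) (m' : ℤ × ℤ) :
    umc θ' (trc z (selc η0 κ θ g S)) m' =
      𝓕⁻ (fun ζ => ∑ m ∈ nearL θ θ' m', chp η0 κ θ θ' g z m' m (S m) ζ) := by
  have hθ' : 0 < θ' := hθ.trans_le hθθ'
  unfold umc
  congr 1
  funext ζ
  have e1 : capc θ' m' ζ * trc z (selc η0 κ θ g S) ζ =
      ∑ m ∈ caps θ, chp η0 κ θ θ' g z m' m (S m) ζ := by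
    unfold trc selc chp trc
    rw [Finset.sum_mul, Finset.mul_sum]
  rw [e1]
  symm
  refine Finset.sum_subset (fun m hm => (mem_nearL.1 hm).1) fun m hm hm2 => ?_
  by_contra h
  apply hm2
  refine mem_nearL.2 ⟨hm, ?_⟩
  have h1 : capc θ' m' ζ ≠ 0 := fun h0 => h (by unfold chp; rw [h0, zero_mul])
  have h2 : fatc θ m ζ ≠ 0 := by
    intro h0
    have := supp_chp h
    apply this
    unfold piecec
    rw [h0, zero_mul, zero_mul]
  have h3 : ‖slp ζ - cen θ' m'‖ ≤ 71 / 50 * θ' := by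
    by_contra hc
    apply h1
    unfold capc Crest.Agent.R138.Wpk685.cap
    apply Crest.Agent.R138.Wpk685.win_zero'
    rw [norm_smul, Real.norm_eq_abs, abs_of_pos (inv_pos.2 hθ'), lt_inv_mul_iff₀ hθ']
    linarith [not_le.1 hc]
  have h4 : ‖slp ζ - cen θ m‖ < 3 / 2 * θ := by
    by_contra hc
    apply h2
    unfold fatc Crest.Agent.R138.Wpk685.cap
    apply Crest.Agent.R138.Wpk685.fat_zero
    rw [norm_smul, Real.norm_eq_abs, abs_of_pos (inv_pos.2 hθ), le_inv_mul_iff₀ hθ]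
    linarith [not_lt.1 hc]
  unfold Near
  have e : cen θ m - cen θ' m' = (slp ζ - cen θ' m') - (slp ζ - cen θ m) := by abel
  rw [e]
  refine lt_of_le_of_lt (norm_sub_le _ _) ?_
  linarith

/-! ### packets with a double window -/

theorem ew_wide {a : ℝ} (ha : 1 ≤ a) :
    EW (4 * a) 2 bt (Set.Icc (7 / (8 * a)) (2 * a) ×ˢ Set.Icc 0 (4 * a)⁻¹) := by
  have ha0 : 0 < a := by linarith
  refine ⟨by linarith, by norm_num, bt_smooth, ?_, norm_bt_le, isCompact_Icc.prod isCompact_Icc, ?_⟩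
  · intro x hx
    by_contra hc
    exact hx (bt_zero (not_le.1 hc).le)
  · rintro ⟨η0, κ⟩ ⟨⟨h1, h2⟩, h3, h4⟩ x hx
    simp only at h1 h2 h3 h4 ⊢
    have h5 : |x| ≤ 2 := by
      by_contra hc
      exact hx (bt_zero (not_le.1 hc).le)
    have hi : 0 < a⁻¹ := inv_pos.2 ha0
    have hi1 : a⁻¹ ≤ 1 := inv_le_one_of_one_le₀ ha
    have e1 : (4 * a)⁻¹ = a⁻¹ / 4 := by rw [mul_inv]; ring
    have e2 : 7 / (8 * a) = 7 / 8 * a⁻¹ := by field_simp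
    have h6 : |κ * x| ≤ a⁻¹ / 2 := by
      rw [abs_mul, abs_of_nonneg h3]
      calc κ * |x| ≤ (4 * a)⁻¹ * 2 := by gcongr
        _ = a⁻¹ / 2 := by rw [e1]; ring
    obtain ⟨h7, h8⟩ := abs_le.1 h6
    rw [e1]
    rw [e2] at h1
    constructor <;> linarith

/-- packets with `η0 ∈ [7/(8a), 2a]`. -/
theorem pk_wide {a : ℝ} (ha : 1 ≤ a) (N : ℕ) (T : ℝ) :
    ∃ Q : ℝ, 0 < Q ∧ ∀ (η0 κ : ℝ), 7 / (8 * a) ≤ η0 → η0 ≤ 2 * a → ∀ (hκ : 0 < κ), κ ≤ (4 * a)⁻¹ →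
      ∀ (ρ : ℝ) (hρ : 0 < ρ) (C : E2), Pk N Q T ρ (etw η0 κ) C
        (Fr (lam (4 * a) 2) ρ κ (lam_pos (by linarith) (by norm_num)) hρ hκ C) (ctr η0 C)
        (Sd (4 * a) 2 η0 κ ρ C) := by
  obtain ⟨Q, hQ, h⟩ := exists_pk (ew_wide ha) N T
  refine ⟨Q, hQ, ?_⟩
  intro η0 κ h1 h2 hκ h3 ρ hρ C
  exact h (η0, κ) ⟨⟨h1, h2⟩, hκ.le, h3⟩ hκ ρ hρ C

/-- frequency set in the strip. -/
theorem mem_strp {b : OrthonormalBasis (Fin 2) ℝ E2} {a η0 κ θ θ' : ℝ} (hη0 : 0 < η0)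
    (hη2 : η0 ≤ a) (hκ : 0 < κ) (hθ : 0 < θ) (hst : κ * θ' ≤ θ) {C C' : E2}
    (hC : ‖C - C'‖ ≤ 3 * θ') {ζ : E3} (hζ : ζ ∈ Sd a 2 η0 κ θ C) :
    ζ ∈ strp b η0 θ (3 * a + 6) C' ⌊(inner ℝ (b 1) C : ℝ) / θ⌋ := by
  obtain ⟨-, -, h1, h2⟩ := hζ
  set k := ⌊(inner ℝ (b 1) C : ℝ) / θ⌋ with hk
  show |(inner ℝ (b 1) (lat ζ - ζ 2 • C') : ℝ) - η0 * (k * θ - inner ℝ (b 1) C')| ≤
    (3 * a + 6) * θ
  have e1 : (inner ℝ (b 1) (lat ζ - ζ 2 • C') : ℝ) - η0 * (k * θ - inner ℝ (b 1) C') =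
      inner ℝ (b 1) (lat ζ - ζ 2 • C) + (ζ 2 - η0) * inner ℝ (b 1) (C - C') +
        η0 * (inner ℝ (b 1) C - k * θ) := by
    rw [inner_sub_right, inner_sub_right, inner_sub_right, inner_smul_right, inner_smul_right]
    ring
  have a1 : |(inner ℝ (b 1) (lat ζ - ζ 2 • C) : ℝ)| ≤ 2 * a * θ := by
    refine (abs_real_inner_le_norm _ _).trans ?_
    rw [b.norm_eq_one, one_mul]
    exact h2
  have a2 : |(ζ 2 - η0) * (inner ℝ (b 1) (C - C') : ℝ)| ≤ 6 * θ := by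
    rw [abs_mul]
    have a3 : |(inner ℝ (b 1) (C - C') : ℝ)| ≤ 3 * θ' := by
      refine (abs_real_inner_le_norm _ _).trans ?_
      rw [b.norm_eq_one, one_mul]
      exact hC
    calc |ζ 2 - η0| * |(inner ℝ (b 1) (C - C') : ℝ)| ≤ (2 * κ) * (3 * θ') := by gcongr
      _ = 6 * (κ * θ') := by ring
      _ ≤ 6 * θ := by linarith
  have a4 : |(inner ℝ (b 1) C : ℝ) - k * θ| ≤ θ := by
    have f1 := Int.floor_le ((inner ℝ (b 1) C : ℝ) / θ)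
    have f2 := Int.lt_floor_add_one ((inner ℝ (b 1) C : ℝ) / θ)
    rw [le_div_iff₀ hθ] at f1
    rw [div_lt_iff₀ hθ] at f2
    rw [abs_le]
    constructor <;> nlinarith
  rw [e1]
  refine (abs_add_le _ _).trans ?_
  refine (add_le_add_left (abs_add_le _ _) _).trans ?_
  rw [abs_mul η0, abs_of_pos hη0]
  have ha0 : 0 ≤ a := hη0.le.trans hη2
  have a5 : η0 * |(inner ℝ (b 1) C : ℝ) - k * θ| ≤ a * θ := by gcongr
  linarith

/-- the frequency set in the plate metric. -/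
theorem mem_loc {a η0 κ θ θ' : ℝ} (hκ : 0 < κ) (hθ : 0 < θ) (hst : κ * θ' ≤ θ)
    {C C' : E2} (hC : ‖C - C'‖ ≤ 3 * θ') {ζ : E3} (hζ : ζ ∈ Sd a 2 η0 κ θ C) :
    ∃ η, ‖η‖ ≤ 2 * a + 8 ∧
      ζ = ctr η0 C + adj (Pl θ κ hθ hκ C' : E3 →L[ℝ] E3) η := by
  obtain ⟨-, -, h1, h2⟩ := hζ
  refine ⟨(adjE (Pl θ κ hθ hκ C')).symm (ζ - ctr η0 C), ?_, ?_⟩
  · have e1 : (adjE (Pl θ κ hθ hκ C')).symm (ζ - ctr η0 C) =
        pt (θ⁻¹ • ((lat ζ - ζ 2 • C) + (ζ 2 - η0) • (C - C'))) ((ζ 2 - η0) / κ) := by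
      rw [ContinuousLinearEquiv.symm_apply_eq, adjE_Pl, lat_pt, pt_two]
      have e1 : κ * ((ζ 2 - η0) / κ) = ζ 2 - η0 := by field_simp
      rw [e1, smul_smul, mul_inv_cancel₀ hθ.ne', one_smul]
      unfold ctr
      ext i
      fin_cases i
      · show ζ 0 - η0 * C 0 = ((ζ 0 - ζ 2 * C 0) + (ζ 2 - η0) * (C 0 - C' 0)) + (ζ 2 - η0) * C' 0
        ring
      · show ζ 1 - η0 * C 1 = ((ζ 1 - ζ 2 * C 1) + (ζ 2 - η0) * (C 1 - C' 1)) + (ζ 2 - η0) * C' 1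
        ring
      · rfl
    rw [e1]
    refine (norm_pt_le _ _).trans ?_
    have a1 : ‖θ⁻¹ • ((lat ζ - ζ 2 • C) + (ζ 2 - η0) • (C - C'))‖ ≤ 2 * a + 6 := by
      rw [norm_smul, Real.norm_eq_abs, abs_of_pos (inv_pos.2 hθ), inv_mul_le_iff₀ hθ]
      refine (norm_add_le _ _).trans ?_
      rw [norm_smul, Real.norm_eq_abs]
      have a2 : |ζ 2 - η0| * ‖C - C'‖ ≤ 6 * θ := by
        calc |ζ 2 - η0| * ‖C - C'‖ ≤ (2 * κ) * (3 * θ') := by gcongr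
          _ = 6 * (κ * θ') := by ring
          _ ≤ 6 * θ := by linarith
      linarith
    have a3 : |(ζ 2 - η0) / κ| ≤ 2 := by
      rw [abs_div, abs_of_pos hκ, div_le_iff₀ hκ]
      exact h1
    linarith
  · rw [← adjE_apply, ContinuousLinearEquiv.apply_symm_apply, add_sub_cancel]

theorem lam2_ge {a : ℝ} (ha : 1 ≤ a) : 1 ≤ lam (4 * a) 2 := by unfold lam; linarith

set_option maxHeartbeats 1000000 in
open Classical in
/-- **UPPER-C, one cell**. -/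
theorem upC_cell (n k : ℕ) (a : ℝ) (ha : 1 ≤ a) (T : ℝ) : ∃ C : ℝ, 0 ≤ C ∧
    ∀ (η0 κ θ θ' : ℝ) (hκ : 0 < κ) (hθ : 0 < θ) (hθ' : 0 < θ'), 7 / (8 * a) ≤ η0 → η0 ≤ 2 * a →
    8 * a * κ ≤ 1 → θ ≤ θ' → κ * θ' ≤ θ →
    ∀ (b : OrthonormalBasis (Fin 2) ℝ E2) (g : E3 → ℂ), Integrable g →
    ∀ (S : ℤ × ℤ → Set E3), (∀ m, MeasurableSet (S m)) → (∀ m, Bornology.IsBounded (S m)) →
    ∀ (z : E3 × ℝ), |z.2| * θ ^ 2 ≤ T → ∀ (m' : ℤ × ℤ) (c : E3) (X ν : ℝ), 0 ≤ X → 0 ≤ ν →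
    (∀ j : ℤ, (Set.ncard {m | m ∈ nearL θ θ' m' ∧ (∃ y ∈ S m,
      ‖frc θ κ (cen θ m) (y - z.1 - z.2 • vel (cen θ m) - c)‖ ≤ X) ∧
      |(inner ℝ (b 1) (cen θ m) : ℝ) - j * θ| ≤ θ} : ℝ) ≤ ν) →
    ∫⁻ y, ENNReal.ofReal (dw (n + k + dd E3)
        (cfr b θ' θ κ hθ' hθ hκ (cen θ' m') : E3 →L[ℝ] E3) (y - c)) *
        ‖umc θ' (trc z (selc η0 κ θ g S)) m' y‖ₑ ^ 2 ≤
      ENNReal.ofReal (C * (θ / θ') * (θ ^ 2 * κ)⁻¹ * (ν + (caps θ).card * ((1 + X) ^ k)⁻¹)) *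
        Adc n θ κ θ' g S m' (z.1 + c) z.2 := by
  obtain ⟨C1, hC1, h1⟩ := upper_selG E3 n k
  obtain ⟨Q, hQ, hpk⟩ := pk_wide ha (n + k + dd E3) T
  set N := n + k + dd E3 with hN
  set L0 : ℝ := 3 * (4 * a) + 6 with hL0
  set P : ℝ := 2 * (4 * a * (L0 + 1)) + 1 with hPdef
  set Qt : ℝ := 2 ^ N * (4 ^ N * Q) ^ 2 with hQt
  set C2 : ℝ := C1 * P * (1 ^ (2 * (n + k)) * (2 * (4 * a) + 8) ^ Module.finrank ℝ E3) *
    (Qt ^ 2 * Q ^ 2 * 4 ^ (n + k)) with hC2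
  have ha0 : 0 < a := by linarith
  have hL00 : 0 < L0 := by positivity
  have hP0 : 0 < P := by positivity
  have hQt0 : 0 < Qt := by positivity
  have hC20 : 0 ≤ C2 := by positivity
  refine ⟨C2 * 4 ^ k * 4 ^ n, by positivity, ?_⟩
  intro η0 κ θ θ' hκ hθ hθ' hη hη2 haκ hθθ' hst b g hg S hSm hSb z hz m' c X ν hX hν hcnt
  set C' := cen θ' m' with hC'
  have hηi : (4 * a)⁻¹ ≤ η0 := by
    refine le_trans ?_ hη
    rw [← one_div, div_le_div_iff₀ (by positivity) (by positivity)]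
    linarith
  have hη0 : 0 < η0 := lt_of_lt_of_le (by positivity) hηi
  have hk1 : κ ≤ (4 * a)⁻¹ := by
    rw [← one_div, le_div_iff₀ (by positivity)]
    nlinarith
  have hk2 : 2 * κ ≤ (4 * a)⁻¹ := by
    rw [← one_div, le_div_iff₀ (by positivity)]
    linarith
  have hPk : ∀ m : ℤ × ℤ, Pk N Q T θ (etw η0 κ) (cen θ m)
      (Fr (lam (4 * a) 2) θ κ (lam_pos (by linarith) (by norm_num)) hθ hκ (cen θ m))
      (ctr η0 (cen θ m)) (Sd (4 * a) 2 η0 κ θ (cen θ m)) := fun m =>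
    hpk η0 κ hη hη2 hκ hk1 θ hθ (cen θ m)
  have hPk' := hpk η0 (2 * κ) hη hη2 (by positivity) hk2 θ' hθ' C'
  have hnear : ∀ m ∈ nearL θ θ' m', ‖cen θ m - C'‖ ≤ 3 * θ' := fun m hm =>
    (mem_nearL.1 hm).2.le
  have hrep : ∀ m, Rep N Q (Fr (lam (4 * a) 2) θ κ (lam_pos (by linarith) (by norm_num)) hθ hκ
      (cen θ m)) (ctr η0 (cen θ m)) (piecec η0 κ θ g m (S m)) ((S m).indicator (umc θ g m)) :=
    fun m => rep_piece (hPk m) hg (hSm m) (hSb m)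
  have hA1 : ∀ m ∈ nearL θ θ' m', ∀ x, ‖Pl θ κ hθ hκ C' x‖ ≤ 4 *
      ‖Fr (lam (4 * a) 2) θ κ (lam_pos (by linarith) (by norm_num)) hθ hκ (cen θ m) x‖ := by
    intro m hm x
    have e1 := Pl_le_Pl hθ hκ (D := 3) (by norm_num) (C := C') (C' := cen θ m) (by
      rw [norm_sub_rev]
      calc κ * ‖cen θ m - C'‖ ≤ κ * (3 * θ') := by gcongr; exact hnear m hm
        _ = 3 * (κ * θ') := by ring
        _ ≤ 3 * θ := by linarith) x
    have e2 := Pl_le_Fr (lam2_ge ha) hθ hκ (cen θ m) x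
    linarith
  have hA1' : ∀ m ∈ nearL θ θ' m', ∀ x, ‖frc θ κ (cen θ m) x‖ ≤ 4 * ‖Pl θ κ hθ hκ C' x‖ := by
    intro m hm x
    rw [frc_eq hθ hκ]
    have e1 := Pl_le_Pl hθ hκ (D := 3) (by norm_num) (C := cen θ m) (C' := C') (by
      calc κ * ‖cen θ m - C'‖ ≤ κ * (3 * θ') := by gcongr; exact hnear m hm
        _ = 3 * (κ * θ') := by ring
        _ ≤ 3 * θ := by linarith) x
    linarith
  have hB' : ∀ x, ‖Pl θ κ hθ hκ C' x‖ ≤ 4 * ‖Fr (lam (4 * a) 2) θ' (2 * κ)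
      (lam_pos (by linarith) (by norm_num)) hθ' (by positivity) C' x‖ := by
    intro x
    have e1 := Pl_mono hθ hκ hθ' (by positivity : 0 < 2 * κ) hθθ' (by linarith) C' x
    have e2 := Pl_le_Fr (lam2_ge ha) hθ' (by positivity : 0 < 2 * κ) C' x
    have e3 := norm_nonneg (Fr (lam (4 * a) 2) θ' (2 * κ)
      (lam_pos (by linarith) (by norm_num)) hθ' (by positivity) C' x)
    linarith
  have key := h1 (cfr b θ' θ κ hθ' hθ hκ C') (Pl θ κ hθ hκ C') 1 (2 * (4 * a) + 8) le_rfl (by linarith)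
    (fun x => by rw [one_mul]; exact Pl_le_cfr hθ' hθ hκ hθθ' C' x) c (ℤ × ℤ) (nearL θ θ' m')
    (fun m => ⌊(inner ℝ (b 1) (cen θ m) : ℝ) / θ⌋) (fun j => strp b η0 θ L0 C' j)
    (fun m => chp η0 κ θ θ' g z m' m (S m)) (fun m => piecec η0 κ θ g m (S m))
    (fun m => umc θ g m) S (fun m => z.1 + z.2 • vel (cen θ m)) (fun m => ctr η0 (cen θ m))
    (fun m => ctr η0 (cen θ m))
    (fun m => Fr (lam (4 * a) 2) θ κ (lam_pos (by linarith) (by norm_num)) hθ hκ (cen θ m))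
    P 4 Qt Q hP0 (by norm_num) hQt0
    (fun ξ => by
      have := strp_overlap (b := b) hθ' hθ hκ (a := 4 * a) (by linarith) hηi hL00.le C' ξ
        ((nearL θ θ' m').image fun m => ⌊(inner ℝ (b 1) (cen θ m) : ℝ) / θ⌋ : Finset ℤ)
      simpa only [Finset.mem_coe] using this)
    (fun m hm ξ hξ => mem_strp hη0 (hη2.trans (by linarith)) hκ hθ hst (hnear m hm)
      (supp_piece (hPk m) (supp_chp hξ)))
    (fun m _ => capc_mul_int θ' m' (trc_int z (hrep m).int))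
    (fun m _ => capc_mul_l2 θ' m' (trc_l2 z (hrep m).l2))
    (fun m hm ξ hξ => mem_loc hκ hθ hst (hnear m hm) (supp_piece (hPk m) (supp_chp hξ)))
    hA1
    (fun m hm => tra_piece hκ (Pl θ κ hθ hκ C') (hPk m) hPk' (by norm_num) (hA1 m hm) hB' g (S m) z
      hz)
    (fun m _ => hSm m) (fun m _ => hrep m) (X / 4) ν (by positivity) hν (by
      intro j
      refine le_trans ?_ (hcnt j)
      norm_cast
      refine Set.ncard_le_ncard ?_ ((nearL θ θ' m').finite_toSet.subset fun m hm => hm.1)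
      rintro m ⟨hm, hj, y, hy, hy2⟩
      refine ⟨hm, ⟨y, hy, ?_⟩, ?_⟩
      · have e1 := hA1' m hm (y - (z.1 + z.2 • vel (cen θ m)) - c)
        have e2 : y - z.1 - z.2 • vel (cen θ m) - c = y - (z.1 + z.2 • vel (cen θ m)) - c := by abel
        rw [e2]
        linarith
      · subst hj
        have f1 := Int.floor_le ((inner ℝ (b 1) (cen θ m) : ℝ) / θ)
        have f2 := Int.lt_floor_add_one ((inner ℝ (b 1) (cen θ m) : ℝ) / θ)
        rw [le_div_iff₀ hθ] at f1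
        rw [div_lt_iff₀ hθ] at f2
        rw [abs_le]
        constructor <;> nlinarith)
  rw [umc_sel hθ hθθ', ← wE_eq]
  refine key.trans ?_
  -- the constant
  have hadet : adet (Pl θ κ hθ hκ C' : E3 →L[ℝ] E3) /
      adet (cfr b θ' θ κ hθ' hθ hκ C' : E3 →L[ℝ] E3) = θ / θ' := by
    rw [adet_Pl, adet_cfr]
    field_simp
  rw [hadet]
  -- the plate energies
  have hpl : ∑ m ∈ nearL θ θ' m', ∫⁻ y in S m,
      ENNReal.ofReal (pa n (Pl θ κ hθ hκ C') (y - (z.1 + z.2 • vel (cen θ m)) - c)) *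
        ‖umc θ g m y‖ₑ ^ 2 ≤
      ENNReal.ofReal (4 ^ n * (θ ^ 2 * κ)⁻¹) * Adc n θ κ θ' g S m' (z.1 + c) z.2 := by
    unfold Adc Cad538.Acc Cad538.Den
    rw [← mul_assoc, ← ENNReal.ofReal_mul (by positivity), mul_assoc,
      inv_mul_cancel₀ (by positivity), mul_one, Finset.mul_sum]
    refine Finset.sum_le_sum fun m hm => ?_
    rw [← lintegral_const_mul' _ _ ENNReal.ofReal_ne_top]
    refine lintegral_mono fun y => ?_
    rw [← mul_assoc, ← ENNReal.ofReal_mul (by positivity)]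
    refine mul_le_mul' (ENNReal.ofReal_le_ofReal ?_) le_rfl
    have e1 := wt_frame (frc θ κ (cen θ m)) (Pl θ κ hθ hκ C' : E3 →L[ℝ] E3) (K := 4) (by norm_num) n
      (z := y - (z.1 + z.2 • vel (cen θ m)) - c) (hA1' m hm _)
    have e2 : y - (z.1 + c) - z.2 • vel (cen θ m) = y - (z.1 + z.2 • vel (cen θ m)) - c := by abel
    rw [e2]
    exact e1
  refine (mul_le_mul' le_rfl hpl).trans ?_
  rw [← mul_assoc, ← ENNReal.ofReal_mul (by positivity)]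
  refine mul_le_mul' (ENNReal.ofReal_le_ofReal ?_) le_rfl
  have h5 : ((1 + X / 4) ^ k)⁻¹ ≤ 4 ^ k * ((1 + X) ^ k)⁻¹ := by
    rw [← div_eq_mul_inv, inv_eq_one_div, div_le_div_iff₀ (by positivity) (by positivity), one_mul,
      ← mul_pow]
    refine pow_le_pow_left₀ (by positivity) ?_ k
    linarith
  have h7 : ((nearL θ θ' m').card : ℝ) ≤ (caps θ).card := by
    exact_mod_cast Finset.card_le_card fun m hm => (mem_nearL.1 hm).1
  have h8 : ν + ((nearL θ θ' m').card : ℝ) * ((1 + X / 4) ^ k)⁻¹ ≤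
      4 ^ k * (ν + (caps θ).card * ((1 + X) ^ k)⁻¹) := by
    have h9 : (1:ℝ) ≤ 4 ^ k := one_le_pow₀ (by norm_num)
    have h10 : ((nearL θ θ' m').card : ℝ) * ((1 + X / 4) ^ k)⁻¹ ≤
        (caps θ).card * (4 ^ k * ((1 + X) ^ k)⁻¹) := by gcongr
    nlinarith
  have hW : 0 ≤ θ / θ' := by positivity
  have hV : 0 ≤ (θ ^ 2 * κ)⁻¹ := by positivity
  have hY : 0 ≤ ν + (caps θ).card * ((1 + X) ^ k)⁻¹ := by positivity
  rw [← hC2]
  set Y := ν + (caps θ).card * ((1 + X) ^ k)⁻¹ with hYdef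
  set Z := ν + ((nearL θ θ' m').card : ℝ) * ((1 + X / 4) ^ k)⁻¹ with hZdef
  set V := (θ ^ 2 * κ)⁻¹ with hVdef
  set W := θ / θ' with hWdef
  calc C2 * W * Z * (4 ^ n * V) ≤ C2 * W * (4 ^ k * Y) * (4 ^ n * V) := by gcongr
    _ = _ := by ring

end Crest.Agent.R116.UpC448
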