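import Crest.Agent.R116.WDefC_188

/-!
# R116 (S0155): WAVE side, assembly of the skeleton (helper188), part 1: the improvement step

`LB (c1+)` + leaves + `WCh K c1` give `LB (c1 - η)`.
-/

set_option autoImplicit false

open MeasureTheory
open scoped ENNReal

namespace Crest.Agent.R116.WC188

open Crest.Agent.R138.Defs (E2 ee)
open Crest.Agent.R138.Wpk685 (cen caps)
open Crest.Agent.R116.CDef480
open Crest.Agent.R116.LZg725 (Cf)

theorem rpow_le_rpow1 {R a b : ℝ} (hR : 1 ≤ R) (h : a ≤ b) : R ^ a ≤ R ^ b :=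
  Real.rpow_le_rpow_of_exponent_le hR h

theorem Enc_nonneg (g : E3 → ℂ) : 0 ≤ Enc g := integral_nonneg fun _ => by positivity

theorem SS_nonneg {g : E3 → ℂ} {R D : ℝ} (hR : 0 ≤ R) : 0 ≤ SS g R D :=
  mul_nonneg (mul_nonneg hR (Enc_nonneg g)) (Real.sqrt_nonneg _)

theorem SS_mulD {g : E3 → ℂ} {R D C : ℝ} (hC : 0 ≤ C) : SS g R (C * D) = Real.sqrt C * SS g R D := by
  unfold SS
  rw [Real.sqrt_mul hC]
  ring

theorem comb {a b c x : ℝ} (ha : 0 ≤ a) (hx : 0 ≤ x) (hb : 0 ≤ b) {X Y : ℝ≥0∞}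
    (hY : Y ≤ ENNReal.ofReal a * X + ENNReal.ofReal b) (hX : X ≤ ENNReal.ofReal x)
    (h : a * x + b ≤ c) : Y ≤ ENNReal.ofReal c := by
  calc Y ≤ ENNReal.ofReal a * X + ENNReal.ofReal b := hY
    _ ≤ ENNReal.ofReal a * ENNReal.ofReal x + ENNReal.ofReal b := by gcongr
    _ = ENNReal.ofReal (a * x + b) := by
        rw [ENNReal.ofReal_add (by positivity) hb, ENNReal.ofReal_mul ha]
    _ ≤ ENNReal.ofReal c := ENNReal.ofReal_le_ofReal h

/-- small cases of the improvement. -/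
theorem small_case {CR e ε η c1 R X S L K : ℝ} (hR : 1 ≤ R) (hX1 : 1 ≤ X)
    (hη1 : η ≤ 1) (hCR : 0 ≤ CR) (hS : 0 ≤ S) (hs : X ≤ L) (hL : CR * R ^ e * L ≤ K * R ^ ε) :
    CR * R ^ e * X ^ ((c1 + η) / 2) * S ≤ K * R ^ ε * X ^ ((c1 - η) / 2) * S := by
  have hXp : 0 < X := by linarith
  have hR0 : 0 < R := by linarith
  have hXsplit : X ^ ((c1 + η) / 2) = X ^ η * X ^ ((c1 - η) / 2) := by
    rw [← Real.rpow_add hXp]; congr 1; ring
  have h1 : X ^ η ≤ L := by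
    calc X ^ η ≤ X ^ (1:ℝ) := rpow_le_rpow1 hX1 hη1
      _ = X := Real.rpow_one X
      _ ≤ L := hs
  calc CR * R ^ e * X ^ ((c1 + η) / 2) * S
      = (CR * R ^ e * X ^ η) * X ^ ((c1 - η) / 2) * S := by rw [hXsplit]; ring
    _ ≤ (CR * R ^ e * L) * X ^ ((c1 - η) / 2) * S := by gcongr
    _ ≤ (K * R ^ ε) * X ^ ((c1 - η) / 2) * S := by gcongr

/-- the level `r1 = d R`, `d = X^(-τ)`. -/
theorem lvl {R r X d r1 τ : ℝ} (hR : 1 ≤ R) (hr : 1 ≤ r) (hX1 : 1 ≤ X) (hX : X = R / r)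
    (hd : d = X ^ (-τ)) (hr1 : r1 = d * R) (hτp : 0 < τ) (hτ2 : τ ≤ 1/2) :
    X ≤ R ∧ R ^ (1/2 : ℝ) ≤ r1 ∧ r1 ≤ R ∧ r1 / r = X ^ (1 - τ) ∧ r ≤ r1 := by
  have hR0 : 0 < R := by linarith
  have hr0 : 0 < r := by linarith
  have hXp : 0 < X := by linarith
  have hXR : X ≤ R := by rw [hX]; exact div_le_self hR0.le hr
  have hd0 : 0 < d := by rw [hd]; positivity
  have hd1 : d ≤ 1 := by
    rw [hd]; exact Real.rpow_le_one_of_one_le_of_nonpos hX1 (by linarith)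
  have hRhalf : R ^ (1/2 : ℝ) = R ^ (-(1/2) : ℝ) * R := by
    nth_rewrite 3 [← Real.rpow_one R]
    rw [← Real.rpow_add hR0]; norm_num
  have hlo : R ^ (1/2 : ℝ) ≤ r1 := by
    rw [hRhalf, hr1, hd]
    have h1 : R ^ (-(1/2) : ℝ) ≤ R ^ (-τ) := rpow_le_rpow1 hR (by linarith)
    have h2 : R ^ (-τ) ≤ X ^ (-τ) := Real.rpow_le_rpow_of_nonpos hXp hXR (by linarith)
    have := h1.trans h2
    gcongr
  have hw2 : r = R * X⁻¹ := by rw [hX]; field_simp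
  have hrw : r1 / r = X ^ (1 - τ) := by
    rw [hw2, hr1, hd, ← Real.rpow_neg_one X, div_eq_iff (by positivity)]
    have : X ^ (1 - τ) * (R * X ^ (-1:ℝ)) = (X ^ (1 - τ) * X ^ (-1:ℝ)) * R := by ring
    rw [this, ← Real.rpow_add hXp]; ring_nf
  refine ⟨hXR, hlo, by rw [hr1]; nlinarith, hrw, ?_⟩
  have h2 : 1 ≤ r1 / r := by rw [hrw]; exact Real.one_le_rpow hX1 (by linarith)
  rwa [le_div_iff₀ hr0, one_mul] at h2

/-- the slope cap of the children. -/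
theorem min_sig {σ r1 r q : ℝ} (hq : 0 ≤ q) (hr : 1 ≤ r) (hr1 : r ≤ r1)
    (hσ : r ^ (-(1/2) : ℝ) ≤ σ) :
    (min 1 (σ + 3 * r1 ^ (-(1/2) : ℝ))) ^ (q / 2) ≤ 4 ^ (q / 2) * (min 1 σ) ^ (q / 2) := by
  have hr0 : 0 < r := by linarith
  have hr10 : 0 < r1 := by linarith
  have h1 : r1 ^ (-(1/2) : ℝ) ≤ r ^ (-(1/2) : ℝ) :=
    Real.rpow_le_rpow_of_nonpos hr0 hr1 (by norm_num)
  have h2 : (0:ℝ) < r1 ^ (-(1/2) : ℝ) := by positivity
  have hσ0 : 0 < σ := by linarith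
  have h3 : min 1 (σ + 3 * r1 ^ (-(1/2) : ℝ)) ≤ 4 * min 1 σ := by
    rcases le_total 1 σ with h | h
    · rw [min_eq_left h]
      exact (min_le_left _ _).trans (by norm_num)
    · rw [min_eq_right h]
      refine (min_le_right _ _).trans ?_
      linarith
  have h4 : 0 ≤ min 1 (σ + 3 * r1 ^ (-(1/2) : ℝ)) := le_min (by norm_num) (by positivity)
  have h5 : 0 ≤ min 1 σ := le_min (by norm_num) hσ0.le
  calc _ ≤ (4 * min 1 σ) ^ (q / 2) := Real.rpow_le_rpow h4 h3 (by positivity)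
    _ = _ := Real.mul_rpow (by norm_num) h5

/-- `R^(-q) ≤ (min 1 σ)^(q/2)`. -/
theorem sig_lo {σ R r q : ℝ} (hq : 0 ≤ q) (hr : 1 ≤ r) (hrR : r ≤ R)
    (hσ : r ^ (-(1/2) : ℝ) ≤ σ) : R ^ (-q) ≤ (min 1 σ) ^ (q / 2) := by
  have hr0 : 0 < r := by linarith
  have hR : 1 ≤ R := hr.trans hrR
  have hR0 : 0 < R := by linarith
  have h1 : R ^ (-(1/2) : ℝ) ≤ r ^ (-(1/2) : ℝ) :=
    Real.rpow_le_rpow_of_nonpos hr0 hrR (by norm_num)
  have h2 : R ^ (-(1/2) : ℝ) ≤ min 1 σ :=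
    le_min (Real.rpow_le_one_of_one_le_of_nonpos hR (by norm_num)) (h1.trans hσ)
  calc R ^ (-q) ≤ R ^ (-(1/2) * (q / 2)) := rpow_le_rpow1 hR (by nlinarith)
    _ = (R ^ (-(1/2) : ℝ)) ^ (q / 2) := Real.rpow_mul hR0.le _ _
    _ ≤ _ := Real.rpow_le_rpow (by positivity) h2 (by positivity)

variable {M q : ℝ}

set_option maxHeartbeats 2000000 in
/-- **the improvement step**. -/
theorem LB_improve (hq : 0 ≤ q) {c1 K : ℝ} (hc1 : 0 < c1) (hK : 0 ≤ K)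
    (H : ∀ c, c1 < c → LB M q c) (HS : SLI M q K) (HC : CNV M q) (HA : A1k M q)
    (HW : WCh M q K c1) : ∃ η : ℝ, 0 < η ∧ η ≤ c1 ∧ LB M q (c1 - η) := by
  obtain ⟨θ, γ, c3, Aw, hθ, hγ, hc3, hc31, hAw, HW⟩ := HW
  have hAw0 : 0 < Aw := by linarith
  -- the exponent `τ`
  set τ : ℝ := min (1 / (2 * Aw)) (min (1 / (8 * θ)) (c1 / (8 * (K * θ + 1)))) with hτ
  have hKθ : 0 < K * θ + 1 := by positivity
  have hτp : 0 < τ := by
    rw [hτ]
    exact lt_min (by positivity) (lt_min (by positivity) (by positivity))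
  have hτA : τ * Aw ≤ 1/2 := by
    have : τ ≤ 1 / (2 * Aw) := min_le_left _ _
    calc τ * Aw ≤ 1 / (2 * Aw) * Aw := by gcongr
      _ = 1/2 := by field_simp
  have hτ2 : τ ≤ 1/2 := by nlinarith
  have hτθ : τ * θ ≤ 1/8 := by
    have : τ ≤ 1 / (8 * θ) := (min_le_right _ _).trans (min_le_left _ _)
    calc τ * θ ≤ 1 / (8 * θ) * θ := by gcongr
      _ = 1/8 := by field_simp
  have hτK : τ * (K * θ) ≤ c1 / 8 := by
    have : τ ≤ c1 / (8 * (K * θ + 1)) := (min_le_right _ _).trans (min_le_right _ _)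
    calc τ * (K * θ) ≤ τ * (K * θ + 1) := by nlinarith
      _ ≤ c1 / (8 * (K * θ + 1)) * (K * θ + 1) := by gcongr
      _ = c1 / 8 := by field_simp
  clear_value τ
  set η : ℝ := min (min (τ * γ) (c1 / 2)) 1 with hη
  have hηp : 0 < η := lt_min (lt_min (by positivity) (by positivity)) one_pos
  have hη1 : η ≤ 1 := min_le_right _ _
  have hη2 : η ≤ τ * γ := (min_le_left _ _).trans (min_le_left _ _)
  have hη3 : η ≤ c1 / 2 := (min_le_left _ _).trans (min_le_right _ _)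
  clear_value η
  refine ⟨η, hηp, by linarith, ?_⟩
  intro a b A ε M0 ha hb hb2 hA hε
  set e : ℝ := min (ε / 8) (1/4) with he
  have hep : 0 < e := lt_min (by positivity) (by norm_num)
  have heε : 8 * e ≤ ε := by
    have : e ≤ ε / 8 := min_le_left _ _
    linarith
  set e' : ℝ := min e (4 * e * τ) with he'
  have hep' : 0 < e' := lt_min hep (by positivity)
  have he'e : e' ≤ e := min_le_left _ _
  have he'τ : e' ≤ 4 * e * τ := min_le_right _ _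
  clear_value e e'
  have hLB := H (c1 + η) (by linarith)
  -- constants
  obtain ⟨CS, hCS, HS⟩ := HS a b A M0 ha hb hb2 hA
  obtain ⟨A', C1, R1, hA', hC1, hR1, HA⟩ := HA a b A e (M0 + 1) ha hb hb2 hA hep
  have hb' : 0 < (b + 2) / 2 := by linarith
  have hb2' : (b + 2) / 2 < 2 := by linarith
  obtain ⟨CC, R2, hCC, hR2, HC⟩ := HC (2 * a) ((b + 2) / 2) 4 (by linarith) hb' hb2'
  obtain ⟨CL, hCL, HL⟩ := hLB (2 * a) ((b + 2) / 2) A' e 4 (by linarith) hb' hb2' hA' hep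
  obtain ⟨CR, hCR, HR⟩ := hLB a b A e M0 ha hb hb2 hA hep
  obtain ⟨CW, hCW, HW⟩ := HW a b A' e' (M0 + 1) ha hb hb2 hA' hep'
  set X0 : ℝ := max (max ((c3⁻¹) ^ (τ⁻¹)) ((16 * a) ^ ((τ * θ)⁻¹))) (max R1 (R2 ^ (2:ℝ))) with hX0
  have hX0a : (c3⁻¹) ^ (τ⁻¹) ≤ X0 := (le_max_left _ _).trans (le_max_left _ _)
  have hX0b : (16 * a) ^ ((τ * θ)⁻¹) ≤ X0 := (le_max_right _ _).trans (le_max_left _ _)
  have hX0c : R1 ≤ X0 := (le_max_left _ _).trans (le_max_right _ _)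
  have hX0d : R2 ^ (2:ℝ) ≤ X0 := (le_max_right _ _).trans (le_max_right _ _)
  clear_value X0
  have hX01 : 1 ≤ X0 := hR1.trans hX0c
  set P4 : ℝ := 4 ^ (q / 2) with hP4
  have hP4p : 0 < P4 := by positivity
  clear_value P4
  set KK : ℝ := CS * ((C1 * ((CL + 1) * Real.sqrt CC * P4)) * CW + C1) with hKK
  have hKK0 : 0 ≤ KK := by positivity
  refine ⟨CR * X0 + CR + KK, by positivity, ?_⟩
  intro C0 σ g R D hSt r hr hrR hσ
  have hR := hSt.R1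
  have hR0 : 0 < R := by linarith
  have hss := SS_nonneg (g := g) (D := D) hR0.le
  have hr0 : 0 < r := by linarith
  obtain ⟨X, hX⟩ : ∃ X, X = R / r := ⟨_, rfl⟩
  have hX1 : 1 ≤ X := by rw [hX, le_div_iff₀ hr0]; linarith
  have hXp : 0 < X := by linarith
  rw [← hX]
  have hRε : 1 ≤ R ^ ε := Real.one_le_rpow hR hε.le
  have hRe : 1 ≤ R ^ e := Real.one_le_rpow hR hep.le
  have hReε : R ^ e ≤ R ^ ε := rpow_le_rpow1 hR (by linarith)
  have hσ0 : 0 < σ := lt_of_lt_of_le (by positivity) hσ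
  have hm0 : 0 ≤ min 1 σ := le_min (by norm_num) hσ0.le
  obtain ⟨m, hm⟩ : ∃ m, m = (min 1 σ) ^ (q / 2) := ⟨_, rfl⟩
  have hmp : 0 ≤ m := by rw [hm]; positivity
  have hmlo : R ^ (-q) ≤ m := by rw [hm]; exact sig_lo hq hr hrR hσ
  rw [← hm]
  have hHR := HR C0 σ g R D hSt r hr hrR hσ
  rw [← hX, ← hm] at hHR
  have hmS : 0 ≤ m * SS g R D := by positivity
  -- trivial cases
  have small : ∀ L : ℝ, X ≤ L → CR * R ^ e * L ≤ (CR * X0 + CR + KK) * R ^ ε →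
      NP A r g R ≤ ENNReal.ofReal
        ((CR * X0 + CR + KK) * R ^ ε * X ^ ((c1 - η) / 2) * m * SS g R D) := by
    intro L hs hL
    refine hHR.trans (ENNReal.ofReal_le_ofReal ?_)
    have := small_case (c1 := c1) hR hX1 hη1 hCR hmS hs hL
    calc CR * R ^ e * X ^ ((c1 + η) / 2) * m * SS g R D
        = CR * R ^ e * X ^ ((c1 + η) / 2) * (m * SS g R D) := by ring
      _ ≤ _ := this
      _ = _ := by ring
  rcases le_or_gt X X0 with hs | hb1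
  · refine small X0 hs ?_
    calc CR * R ^ e * X0 = (CR * X0) * R ^ e := by ring
      _ ≤ (CR * X0) * R ^ ε := by gcongr
      _ ≤ _ := by gcongr; linarith
  rcases le_or_gt X (R ^ (4 * e)) with hs2 | hb3
  · refine small _ hs2 ?_
    have h2 : R ^ e * R ^ (4 * e) ≤ R ^ ε := by
      rw [← Real.rpow_add hR0]; exact rpow_le_rpow1 hR (by linarith)
    calc CR * R ^ e * R ^ (4 * e) = CR * (R ^ e * R ^ (4 * e)) := by ring
      _ ≤ CR * R ^ ε := by gcongr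
      _ ≤ _ := by
          have : 0 ≤ CR * X0 := by positivity
          gcongr; linarith
  clear hHR small
  -- main case
  obtain ⟨d, hd⟩ : ∃ d, d = X ^ (-τ) := ⟨_, rfl⟩
  obtain ⟨r1, hr1⟩ : ∃ r1, r1 = d * R := ⟨_, rfl⟩
  obtain ⟨hXR, hr1lo, hr1R, hrw, hrr1⟩ := lvl hR hr hX1 hX hd hr1 hτp hτ2
  have hd0 : 0 < d := by rw [hd]; positivity
  have hdi : d⁻¹ = X ^ τ := by rw [hd, Real.rpow_neg hXp.le, inv_inv]
  have hr10 : 0 < r1 := by rw [hr1]; positivity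
  have hr11 : 1 ≤ r1 := hr.trans hrr1
  have hc3i : 1 ≤ c3⁻¹ := (one_le_inv₀ hc3).2 hc31
  have hc3i0 : 0 < c3⁻¹ := by positivity
  have hdc3 : d ≤ c3 := by
    rw [← inv_le_inv₀ hc3 hd0, hdi]
    calc c3⁻¹ = ((c3⁻¹) ^ (τ⁻¹)) ^ τ := by
          rw [← Real.rpow_mul hc3i0.le, inv_mul_cancel₀ hτp.ne', Real.rpow_one]
      _ ≤ X ^ τ := Real.rpow_le_rpow (by positivity) (hX0a.trans hb1.le) hτp.le
  have hdA : d ^ (-Aw) ≤ R := by
    rw [hd, ← Real.rpow_mul hXp.le]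
    have hexpo : -τ * -Aw ≤ 1 := by
      have : -τ * -Aw = τ * Aw := by ring
      linarith
    calc X ^ (-τ * -Aw) ≤ X ^ (1:ℝ) := rpow_le_rpow1 hX1 hexpo
      _ = X := Real.rpow_one X
      _ ≤ R := hXR
  have hdR : R ^ e' ≤ d⁻¹ := by
    rw [hdi]
    calc R ^ e' ≤ R ^ (4 * e * τ) := rpow_le_rpow1 hR he'τ
      _ = (R ^ (4 * e)) ^ τ := by rw [← Real.rpow_mul hR0.le]
      _ ≤ X ^ τ := Real.rpow_le_rpow (by positivity) hb3.le hτp.le
  -- the slice width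
  obtain ⟨κ, hκ⟩ : ∃ κ, κ = d ^ θ := ⟨_, rfl⟩
  have hκX : κ = X ^ (-(τ * θ)) := by
    rw [hκ, hd, ← Real.rpow_mul hXp.le]; congr 1; ring
  have hκ0 : 0 < κ := by rw [hκ]; positivity
  have hτθp : 0 < τ * θ := by positivity
  have hκ16 : 16 * a * κ ≤ 1 := by
    have ha16 : 0 < 16 * a := by linarith
    have h1 : 16 * a ≤ X ^ (τ * θ) := by
      calc 16 * a = ((16 * a) ^ ((τ * θ)⁻¹)) ^ (τ * θ) := by
            rw [← Real.rpow_mul ha16.le, inv_mul_cancel₀ hτθp.ne', Real.rpow_one]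
        _ ≤ X ^ (τ * θ) := Real.rpow_le_rpow (by positivity) (hX0b.trans hb1.le) hτθp.le
    have h2 : 0 < X ^ (τ * θ) := by positivity
    rw [hκX, Real.rpow_neg hXp.le, mul_inv_le_iff₀ h2]
    linarith
  have haκ : 0 ≤ a * κ := mul_nonneg (by linarith) hκ0.le
  have hκ4 : 8 * a * κ ≤ 1 := by linarith
  have hκ4' : 8 * (2 * a) * κ ≤ 1 := by linarith
  have hκR : R ^ (-(1/8) : ℝ) ≤ κ := by
    rw [hκX]
    calc R ^ (-(1/8) : ℝ) ≤ R ^ (-(τ * θ)) := rpow_le_rpow1 hR (by linarith)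
      _ ≤ X ^ (-(τ * θ)) := Real.rpow_le_rpow_of_nonpos hXp hXR (by linarith)
  have hκr1 : r1 ^ (-(1/4) : ℝ) ≤ κ := by
    refine le_trans ?_ hκR
    calc r1 ^ (-(1/4) : ℝ) ≤ (R ^ (1/2 : ℝ)) ^ (-(1/4) : ℝ) :=
          Real.rpow_le_rpow_of_nonpos (by positivity) hr1lo (by norm_num)
      _ = R ^ (-(1/8) : ℝ) := by rw [← Real.rpow_mul hR0.le]; norm_num
  have hRR1 : R1 ≤ R := hX0c.trans (hb1.le.trans hXR)
  have hRR2 : R2 ≤ r1 := by
    have h1 : R2 ^ (2:ℝ) ≤ R := hX0d.trans (hb1.le.trans hXR)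
    have hR20 : 0 < R2 := by linarith
    calc R2 = (R2 ^ (2:ℝ)) ^ (1/2 : ℝ) := by rw [← Real.rpow_mul hR20.le]; norm_num
      _ ≤ R ^ (1/2 : ℝ) := Real.rpow_le_rpow (by positivity) h1 (by norm_num)
      _ ≤ r1 := hr1lo
  -- the children
  obtain ⟨y, hy⟩ : ∃ y, y = X ^ ((1 - τ) * ((c1 + η) / 2)) := ⟨_, rfl⟩
  have hy0 : 0 < y := by rw [hy]; positivity
  obtain ⟨Q, hQ⟩ : ∃ Q, Q = ((CL + 1) * Real.sqrt CC * P4) * R ^ e * y * m := ⟨_, rfl⟩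
  have hQ0 : 0 ≤ Q := by rw [hQ]; positivity
  have hy1 : (r1 / r) ^ ((c1 + η) / 2) = y := by
    rw [hrw, ← Real.rpow_mul hXp.le, hy]
  have child : ∀ η0 g' D', St M κ q (2 * a) ((b + 2) / 2) 4 C0 (σ + 3 * r1 ^ (-(1/2) : ℝ)) g' r1 D' →
      Slc η0 (2 * κ) g' → NP A' r g' r1 ≤ ENNReal.ofReal (Q * SS g' r1 D') := by
    intro η0 g' D' hSt' hsl
    have hSt1 := HC κ η0 C0 _ g' r1 D' hκ0 hκ4' hRR2 hκr1 hSt' hsl
    have hσ' : r ^ (-(1/2) : ℝ) ≤ σ + 3 * r1 ^ (-(1/2) : ℝ) := by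
      have : (0:ℝ) < r1 ^ (-(1/2) : ℝ) := by positivity
      linarith
    refine (HL C0 _ g' r1 _ hSt1 r hr hrr1 hσ').trans (ENNReal.ofReal_le_ofReal ?_)
    rw [hy1, SS_mulD (by linarith)]
    have hS' := SS_nonneg (g := g') (D := D') hr10.le
    have h3 : r1 ^ e ≤ R ^ e := Real.rpow_le_rpow hr10.le hr1R hep.le
    have h4 := min_sig hq hr hrr1 hσ
    rw [← hm, ← hP4] at h4
    have hmn : 0 ≤ min 1 (σ + 3 * r1 ^ (-(1/2) : ℝ)) := le_min (by norm_num) (by positivity)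
    have hsq := Real.sqrt_nonneg CC
    calc CL * r1 ^ e * y * (min 1 (σ + 3 * r1 ^ (-(1/2) : ℝ))) ^ (q / 2) *
          (Real.sqrt CC * SS g' r1 D')
        ≤ (CL + 1) * R ^ e * y * (P4 * m) * (Real.sqrt CC * SS g' r1 D') := by
          gcongr
          linarith
      _ = Q * SS g' r1 D' := by rw [hQ]; ring
  -- every slice
  obtain ⟨v, hv⟩ : ∃ v, v = d ^ (-(c1 / 2) + K * θ + γ) := ⟨_, rfl⟩
  have hv0 : 0 < v := by rw [hv]; positivity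
  obtain ⟨Q', hQ'⟩ : ∃ Q', Q' = C1 * R ^ e * Q * (CW * R ^ e' * v) + C1 * R ^ (-q) := ⟨_, rfl⟩
  have hQ'0 : 0 ≤ Q' := by rw [hQ']; positivity
  have slice : ∀ η0 g' D', Ss M κ q a b (M0 + 1) η0 C0 σ g' R D' →
      NP A r g' R ≤ ENNReal.ofReal (Q' * SS g' R D') := by
    intro η0 g' D' hSs
    obtain ⟨s1, s2, hsd, hN⟩ := HA κ η0 C0 σ g' R D' hκ0 hκ4 hRR1 hκR hSs r r1 hr hrr1 hr1R hr1lo
      Q hQ0 (fun g'' D'' h1 h2 => child η0 g'' D'' h1 h2)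
    have hPhi := HW η0 C0 σ g' R D' d hd0 hdc3 hdA hdR (by rw [← hκ]; exact hκ4)
      (by rw [← hκ]; exact hSs) s1 s2
      (by rw [← hr1]; exact hsd)
    rw [← hκ, ← hr1, ← hv] at hPhi
    have hS' := SS_nonneg (g := g') (D := D') hR0.le
    refine comb (by positivity) (by positivity) (by positivity) hN hPhi (le_of_eq ?_)
    rw [hQ']; ring
  refine (HS C0 σ g R D hSt r κ hr hrR hκ0 hκ4 hκR Q' hQ'0 slice).trans
    (ENNReal.ofReal_le_ofReal ?_)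
  -- exponents
  have hκK : κ ^ (-K) = X ^ (τ * (K * θ)) := by
    rw [hκX, ← Real.rpow_mul hXp.le]; congr 1; ring
  have hvX : v = X ^ (τ * (c1 / 2 - K * θ - γ)) := by
    rw [hv, hd, ← Real.rpow_mul hXp.le]; congr 1; ring
  have hexp : κ ^ (-K) * (y * v) ≤ X ^ ((c1 - η) / 2) := by
    rw [hκK, hy, hvX, ← Real.rpow_add hXp, ← Real.rpow_add hXp]
    apply rpow_le_rpow1 hX1
    have hτη : 0 ≤ τ * η := mul_nonneg hτp.le hηp.le
    have e1 : τ * (K * θ) + ((1 - τ) * ((c1 + η) / 2) + τ * (c1 / 2 - K * θ - γ)) =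
        c1 / 2 + η / 2 - τ * η / 2 - τ * γ := by ring
    rw [e1]
    linarith
  have hexp2 : κ ^ (-K) ≤ X ^ ((c1 - η) / 2) := by
    rw [hκK]
    apply rpow_le_rpow1 hX1
    linarith
  have hRexp : R ^ e * R ^ e * R ^ e' ≤ R ^ ε := by
    rw [← Real.rpow_add hR0, ← Real.rpow_add hR0]
    exact rpow_le_rpow1 hR (by linarith)
  obtain ⟨x, hx⟩ : ∃ x, x = X ^ ((c1 - η) / 2) := ⟨_, rfl⟩
  have hx0 : 0 ≤ x := by rw [hx]; positivity
  rw [← hx] at hexp hexp2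
  rw [← hx]
  have hκK0 : 0 < κ ^ (-K) := by positivity
  have t1 : κ ^ (-K) * (C1 * R ^ e * Q * (CW * R ^ e' * v)) ≤
      ((C1 * ((CL + 1) * Real.sqrt CC * P4)) * CW) * R ^ ε * x * m := by
    calc κ ^ (-K) * (C1 * R ^ e * Q * (CW * R ^ e' * v))
        = ((C1 * ((CL + 1) * Real.sqrt CC * P4)) * CW) * (R ^ e * R ^ e * R ^ e') *
            (κ ^ (-K) * (y * v)) * m := by rw [hQ]; ring
      _ ≤ _ := by gcongr
  have t2 : κ ^ (-K) * (C1 * R ^ (-q)) ≤ C1 * R ^ ε * x * m := by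
    calc κ ^ (-K) * (C1 * R ^ (-q)) ≤ x * (C1 * m) := by gcongr
      _ = C1 * 1 * x * m := by ring
      _ ≤ C1 * R ^ ε * x * m := by gcongr
  have t3 : 0 ≤ (CR * X0 + CR) * R ^ ε * x * m := by positivity
  have t4 : κ ^ (-K) * Q' ≤ ((C1 * ((CL + 1) * Real.sqrt CC * P4)) * CW + C1) * R ^ ε * x * m := by
    rw [hQ', mul_add]
    calc _ ≤ _ := add_le_add t1 t2
      _ = _ := by ring
  have t5 : CS * κ ^ (-K) * Q' ≤ (CR * X0 + CR + KK) * R ^ ε * x * m := by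
    calc CS * κ ^ (-K) * Q' = CS * (κ ^ (-K) * Q') := by ring
      _ ≤ CS * (((C1 * ((CL + 1) * Real.sqrt CC * P4)) * CW + C1) * R ^ ε * x * m) := by gcongr
      _ = KK * R ^ ε * x * m := by rw [hKK]; ring
      _ ≤ KK * R ^ ε * x * m + (CR * X0 + CR) * R ^ ε * x * m := le_add_of_nonneg_right t3
      _ = _ := by ring
  exact mul_le_mul_of_nonneg_right t5 hss

end Crest.Agent.R116.WC188
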