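import Crest.Agent.R116.WAsmC1_188

/-!
# R116 (S0155): WAVE side, assembly of the skeleton (helper188), part 2: the start `LB c0`, the
theorem `LB c` for all `c > 0`, and `EBc`.
-/

set_option autoImplicit false

open MeasureTheory
open scoped ENNReal

namespace Crest.Agent.R116.WC188

open Crest.Agent.R138.Defs (E2 ee)
open Crest.Agent.R138.Wpk685 (cen caps)
open Crest.Agent.R116.CDef480
open Crest.Agent.R116.LZg725 (Cf)

variable {M q : ℝ}

/-- one descent: from a bound of the children at level `r1` to the root (constant slice width). -/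
theorem descend {K KT : ℝ} (hS : SLI M q K) (HC : CNV M q) (HA : A1k M q)
    (H2 : ∀ a b A ε M0 : ℝ, 1 ≤ a → 0 < b → b < 2 → 1 ≤ A → 0 < ε → ∃ C : ℝ, 0 ≤ C ∧
      ∀ κ η0 C0 σ g R D, 0 < κ → 8 * a * κ ≤ 1 → R ^ (-(1/8) : ℝ) ≤ κ →
        Ss M κ q a b M0 η0 C0 σ g R D →
        ∀ r s1 s2, R ^ (1/2 : ℝ) ≤ r → r ≤ R → Sd r s1 s2 →
          ENNReal.ofReal (s2 ^ (-q / 2)) * SIG M κ A r s1 s2 g R ≤
            ENNReal.ofReal (C * R ^ ε * (R / r) ^ KT * SS g R D))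
    {a b A e M0 : ℝ} (ha : 1 ≤ a) (hb : 0 < b) (hb2 : b < 2) (hA : 1 ≤ A) (he : 0 < e) :
    ∃ A' C R0 : ℝ, 1 ≤ A' ∧ 0 ≤ C ∧ 1 ≤ R0 ∧
    ∀ C0 σ g R D, St M 1 q a b M0 C0 σ g R D → R0 ≤ R →
      ∀ r r1, 1 ≤ r → r ≤ r1 → r1 ≤ R → R ^ (1/2 : ℝ) ≤ r1 → ∀ Q : ℝ, 0 ≤ Q →
      (∀ g' D', St M 1 q (2 * a) ((b + 2) / 2) 4 C0 (σ + 3 * r1 ^ (-(1/2) : ℝ)) g' r1 D' →
        NP A' r g' r1 ≤ ENNReal.ofReal (Q * SS g' r1 D')) →
      NP A r g R ≤ ENNReal.ofReal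
        (C * (R ^ (2 * e) * (R / r1) ^ KT * Q + R ^ (-q)) * SS g R D) := by
  obtain ⟨CS, hCS, HS⟩ := hS a b A M0 ha hb hb2 hA
  obtain ⟨A', C1, R1, hA', hC1, hR1, HA⟩ := HA a b A e (M0 + 1) ha hb hb2 hA he
  have hb' : 0 < (b + 2) / 2 := by linarith
  have hb2' : (b + 2) / 2 < 2 := by linarith
  obtain ⟨CC, R2, hCC, hR2, HC⟩ := HC (2 * a) ((b + 2) / 2) 4 (by linarith) hb' hb2'
  obtain ⟨CT, hCT, H2⟩ := H2 a b A' e (M0 + 1) ha hb hb2 hA' he
  have ha0 : 0 < a := by linarith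
  obtain ⟨κ, hκ⟩ : ∃ κ, κ = (16 * a)⁻¹ := ⟨_, rfl⟩
  have hκ0 : 0 < κ := by rw [hκ]; positivity
  have hκa : 16 * a * κ = 1 := by rw [hκ]; field_simp
  have hκ4 : 8 * a * κ ≤ 1 := by nlinarith
  have hκ4' : 8 * (2 * a) * κ ≤ 1 := by linarith
  have hκ1 : κ ≤ 1 := by
    rw [hκ]; exact inv_le_one_of_one_le₀ (by linarith)
  set R0 : ℝ := max (max R1 (R2 ^ (2:ℝ))) ((κ⁻¹) ^ (8:ℝ)) with hR0d
  have hR0a : R1 ≤ R0 := (le_max_left _ _).trans (le_max_left _ _)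
  have hR0b : R2 ^ (2:ℝ) ≤ R0 := (le_max_right _ _).trans (le_max_left _ _)
  have hR0c : (κ⁻¹) ^ (8:ℝ) ≤ R0 := le_max_right _ _
  clear_value R0
  refine ⟨A', CS * κ ^ (-K) * (C1 * Real.sqrt CC * CT + C1), R0, hA', by positivity,
    hR1.trans hR0a, ?_⟩
  intro C0 σ g R D hSt hRR0 r r1 hr hrr1 hr1R hr1lo Q hQ0 child
  have hR := hSt.R1
  have hR0 : 0 < R := by linarith
  have hss := SS_nonneg (g := g) (D := D) hR0.le
  have hr10 : 0 < r1 := by linarith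
  have hκR : R ^ (-(1/8) : ℝ) ≤ κ := by
    have h1 : κ⁻¹ ≤ R ^ (1/8 : ℝ) := by
      calc κ⁻¹ = ((κ⁻¹) ^ (8:ℝ)) ^ (1/8 : ℝ) := by
            rw [← Real.rpow_mul (by positivity)]; norm_num
        _ ≤ R ^ (1/8 : ℝ) := Real.rpow_le_rpow (by positivity) (hR0c.trans hRR0) (by norm_num)
    rw [Real.rpow_neg hR0.le]
    exact inv_le_of_inv_le₀ hκ0 h1
  have hκr1 : r1 ^ (-(1/4) : ℝ) ≤ κ := by
    refine le_trans ?_ hκR
    calc r1 ^ (-(1/4) : ℝ) ≤ (R ^ (1/2 : ℝ)) ^ (-(1/4) : ℝ) :=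
          Real.rpow_le_rpow_of_nonpos (by positivity) hr1lo (by norm_num)
      _ = R ^ (-(1/8) : ℝ) := by rw [← Real.rpow_mul hR0.le]; norm_num
  have hRR2 : R2 ≤ r1 := by
    have h1 : R2 ^ (2:ℝ) ≤ R := hR0b.trans hRR0
    have hR20 : 0 < R2 := by linarith
    calc R2 = (R2 ^ (2:ℝ)) ^ (1/2 : ℝ) := by rw [← Real.rpow_mul hR20.le]; norm_num
      _ ≤ R ^ (1/2 : ℝ) := Real.rpow_le_rpow (by positivity) h1 (by norm_num)
      _ ≤ r1 := hr1lo
  have hsq := Real.sqrt_nonneg CC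
  have child' : ∀ η0 g' D', St M κ q (2 * a) ((b + 2) / 2) 4 C0 (σ + 3 * r1 ^ (-(1/2) : ℝ)) g' r1 D' →
      Slc η0 (2 * κ) g' → NP A' r g' r1 ≤ ENNReal.ofReal (Real.sqrt CC * Q * SS g' r1 D') := by
    intro η0 g' D' hSt' hsl
    have hSt1 := HC κ η0 C0 _ g' r1 D' hκ0 hκ4' hRR2 hκr1 hSt' hsl
    refine (child g' _ hSt1).trans (ENNReal.ofReal_le_ofReal (le_of_eq ?_))
    rw [SS_mulD (by linarith)]; ring
  obtain ⟨Q', hQ'⟩ : ∃ Q', Q' = C1 * R ^ e * (Real.sqrt CC * Q) * (CT * R ^ e * (R / r1) ^ KT) +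
    C1 * R ^ (-q) := ⟨_, rfl⟩
  have hRr : 0 ≤ (R / r1) ^ KT := by positivity
  have hQ'0 : 0 ≤ Q' := by rw [hQ']; positivity
  have slice : ∀ η0 g' D', Ss M κ q a b (M0 + 1) η0 C0 σ g' R D' →
      NP A r g' R ≤ ENNReal.ofReal (Q' * SS g' R D') := by
    intro η0 g' D' hSs
    obtain ⟨s1, s2, hsd, hN⟩ := HA κ η0 C0 σ g' R D' hκ0 hκ4 (hR0a.trans hRR0) hκR hSs r r1 hr
      hrr1 hr1R hr1lo (Real.sqrt CC * Q) (by positivity) (fun g'' D'' h1 h2 => child' η0 g'' D'' h1 h2)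
    have hPhi := H2 κ η0 C0 σ g' R D' hκ0 hκ4 hκR hSs r1 s1 s2 hr1lo hr1R hsd
    have hS' := SS_nonneg (g := g') (D := D') hR0.le
    refine comb (by positivity) (by positivity) (by positivity) hN hPhi (le_of_eq ?_)
    rw [hQ']; ring
  refine (HS C0 σ g R D hSt r κ hr (hrr1.trans hr1R) hκ0 hκ4 hκR Q' hQ'0 slice).trans
    (ENNReal.ofReal_le_ofReal ?_)
  have hκK0 : 0 < κ ^ (-K) := by positivity
  have hRe : R ^ (2 * e) = R ^ e * R ^ e := by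
    rw [← Real.rpow_add hR0]; congr 1; ring
  have t1 : CS * κ ^ (-K) * Q' ≤ CS * κ ^ (-K) * (C1 * Real.sqrt CC * CT + C1) *
      (R ^ (2 * e) * (R / r1) ^ KT * Q + R ^ (-q)) := by
    rw [hQ', hRe]
    have u1 : 0 ≤ C1 * Real.sqrt CC * CT * R ^ (-q) := by positivity
    have u2 : 0 ≤ C1 * (R ^ e * R ^ e * (R / r1) ^ KT * Q) := by positivity
    have u3 : C1 * R ^ e * (Real.sqrt CC * Q) * (CT * R ^ e * (R / r1) ^ KT) + C1 * R ^ (-q) ≤
        (C1 * Real.sqrt CC * CT + C1) * (R ^ e * R ^ e * (R / r1) ^ KT * Q + R ^ (-q)) := by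
      have e1 : (C1 * Real.sqrt CC * CT + C1) * (R ^ e * R ^ e * (R / r1) ^ KT * Q + R ^ (-q)) =
          (C1 * R ^ e * (Real.sqrt CC * Q) * (CT * R ^ e * (R / r1) ^ KT) + C1 * R ^ (-q)) +
          (C1 * Real.sqrt CC * CT * R ^ (-q)) + C1 * (R ^ e * R ^ e * (R / r1) ^ KT * Q) := by
        ring
      rw [e1]; linarith
    calc CS * κ ^ (-K) * (C1 * R ^ e * (Real.sqrt CC * Q) * (CT * R ^ e * (R / r1) ^ KT) +
          C1 * R ^ (-q)) ≤ CS * κ ^ (-K) * ((C1 * Real.sqrt CC * CT + C1) *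
            (R ^ e * R ^ e * (R / r1) ^ KT * Q + R ^ (-q))) := by gcongr
      _ = _ := by ring
  exact mul_le_mul_of_nonneg_right t1 hss

set_option maxHeartbeats 1000000 in
/-- **the start**. -/
theorem LB_start (hq : 0 ≤ q) {K : ℝ} (hS : SLI M q K) (HC : CNV M q) (HA : A1k M q)
    (H1 : TRIV1 M q) (H2 : TRIV2 M q) (HK : KMt M q) : ∃ c0 : ℝ, q ≤ c0 ∧ LB M q c0 := by
  obtain ⟨Kt, hKt, HK⟩ := HK
  obtain ⟨KT, hKT, H2⟩ := H2
  refine ⟨2 * KT + 20 + 4 * q, by linarith, ?_⟩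
  intro a b A ε M0 ha hb hb2 hA hε
  obtain ⟨e, he⟩ : ∃ e, e = ε / 8 := ⟨_, rfl⟩
  have hep : 0 < e := by rw [he]; positivity
  obtain ⟨e', he'⟩ : ∃ e', e' = ε / (8 * (Kt + 1)) := ⟨_, rfl⟩
  have hep' : 0 < e' := by rw [he']; positivity
  have hKe : Kt * e' ≤ ε / 8 := by
    rw [he', mul_div_assoc', div_le_div_iff₀ (by positivity) (by norm_num)]
    nlinarith
  have hb' : 0 < (b + 2) / 2 := by linarith
  have hb2' : (b + 2) / 2 < 2 := by linarith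
  have h2a : 1 ≤ 2 * a := by linarith
  obtain ⟨A', C1, R0, hA', hC1, hR0, HD⟩ := descend hS HC HA H2 (M0 := M0) ha hb hb2 hA hep
  obtain ⟨CK, hCK, HKr⟩ := HK a b A e' M0 ha hb hb2 hA hep'
  obtain ⟨CK', hCK', HKc⟩ := HK (2 * a) ((b + 2) / 2) A' e' 4 h2a hb' hb2' hA' hep'
  obtain ⟨CT, hCT, H1r⟩ := H1 a b A M0 ha hb hb2 hA
  obtain ⟨CT', hCT', H1c⟩ := H1 (2 * a) ((b + 2) / 2) A' 4 h2a hb' hb2' hA'
  obtain ⟨E0, hE0⟩ : ∃ E0, E0 = R0 ^ (|M0 / 2 + 8| + q) := ⟨_, rfl⟩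
  have hE0p : 0 < E0 := by rw [hE0]; positivity
  obtain ⟨P4, hP4⟩ : ∃ P4 : ℝ, P4 = 4 ^ (q / 2) := ⟨_, rfl⟩
  have hP4p : 0 < P4 := by rw [hP4]; positivity
  refine ⟨CT * E0 + CK + C1 * (CK' * P4 + 1) + C1 * (CT' + 1), by positivity, ?_⟩
  intro C0 σ g R D hSt r hr hrR hσ
  have hR := hSt.R1
  have hRp : 0 < R := by linarith
  have hss := SS_nonneg (g := g) (D := D) hRp.le
  have hr0 : 0 < r := by linarith
  obtain ⟨m, hm⟩ : ∃ m, m = (min 1 σ) ^ (q / 2) := ⟨_, rfl⟩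
  have hσ0 : 0 < σ := lt_of_lt_of_le (by positivity) hσ
  have hm0 : 0 ≤ min 1 σ := le_min (by norm_num) hσ0.le
  have hmp : 0 ≤ m := by rw [hm]; positivity
  have hmlo : R ^ (-q) ≤ m := by rw [hm]; exact sig_lo hq hr hrR hσ
  rw [← hm]
  have hXr : 1 ≤ R / r := by rw [le_div_iff₀ hr0]; linarith
  obtain ⟨x, hx⟩ : ∃ x, x = (R / r) ^ ((2 * KT + 20 + 4 * q) / 2) := ⟨_, rfl⟩
  have hx1 : 1 ≤ x := by rw [hx]; exact Real.one_le_rpow hXr (by positivity)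
  rw [← hx]
  have hRε : 1 ≤ R ^ ε := Real.one_le_rpow hR hε.le
  -- it suffices to bound by one of the summands
  have fin : ∀ C' y : ℝ, 0 ≤ y → C' ≤ CT * E0 + CK + C1 * (CK' * P4 + 1) + C1 * (CT' + 1) →
      y ≤ C' * R ^ ε * x * m → 0 ≤ R ^ ε * x * m →
      NP A r g R ≤ ENNReal.ofReal (y * SS g R D) →
      NP A r g R ≤ ENNReal.ofReal
        ((CT * E0 + CK + C1 * (CK' * P4 + 1) + C1 * (CT' + 1)) * R ^ ε * x * m * SS g R D) := by
    intro C' y _ hC' hy hz hN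
    refine hN.trans (ENNReal.ofReal_le_ofReal (mul_le_mul_of_nonneg_right (hy.trans ?_) hss))
    have := mul_le_mul_of_nonneg_right hC' hz
    calc C' * R ^ ε * x * m = C' * (R ^ ε * x * m) := by ring
      _ ≤ _ := this
      _ = _ := by ring
  have hz : 0 ≤ R ^ ε * x * m := by positivity
  have hz1 : m ≤ R ^ ε * x * m := by
    calc m = 1 * 1 * m := by ring
      _ ≤ R ^ ε * x * m := by gcongr
  have p1 : 0 ≤ CT * E0 := by positivity
  have p2 : 0 ≤ C1 * (CK' * P4 + 1) := by positivity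
  have p3 : 0 ≤ C1 * (CT' + 1) := by positivity
  rcases lt_or_ge R R0 with hA0 | hB0
  · -- small `R`
    refine fin (CT * E0) (CT * R ^ (M0 / 2 + 8)) (by positivity) (by linarith) ?_ hz
      (H1r C0 σ g R D hSt r hr hrR)
    have h1 : R ^ (M0 / 2 + 8) ≤ E0 * m := by
      calc R ^ (M0 / 2 + 8) ≤ R ^ (|M0 / 2 + 8|) := rpow_le_rpow1 hR (le_abs_self _)
        _ = R ^ (|M0 / 2 + 8| + q) * R ^ (-q) := by
            rw [← Real.rpow_add hRp]; congr 1; ring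
        _ ≤ E0 * m := by
            rw [hE0]
            have h2 : R ^ (|M0 / 2 + 8| + q) ≤ R0 ^ (|M0 / 2 + 8| + q) :=
              Real.rpow_le_rpow hRp.le hA0.le (by positivity)
            exact mul_le_mul h2 hmlo (by positivity) (by positivity)
    calc CT * R ^ (M0 / 2 + 8) ≤ CT * (E0 * m) := by gcongr
      _ ≤ CT * (E0 * (R ^ ε * x * m)) := by gcongr
      _ = _ := by ring
  rcases le_or_gt (R ^ (1 - e')) r with hr1 | hr1
  · -- top
    refine fin CK (CK * R ^ (Kt * e') * m) (by positivity) (by linarith) ?_ hz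
      (by rw [hm]; exact HKr C0 σ g R D hSt r hr1 hr hrR hσ)
    have h1 : R ^ (Kt * e') ≤ R ^ ε := rpow_le_rpow1 hR (by linarith)
    calc CK * R ^ (Kt * e') * m ≤ CK * R ^ ε * m := by gcongr
      _ = CK * R ^ ε * 1 * m := by ring
      _ ≤ _ := by gcongr
  rcases le_or_gt (R ^ (1/2 : ℝ)) r with hr2 | hr2
  · -- middle
    have hN := HD C0 σ g R D hSt hB0 r r hr le_rfl hrR hr2 (CK' * R ^ (Kt * e') * (P4 * m))
      (by positivity) (by
        intro g' D' hSt'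
        have hσ' : r ^ (-(1/2) : ℝ) ≤ σ + 3 * r ^ (-(1/2) : ℝ) := by
          have : (0:ℝ) < r ^ (-(1/2) : ℝ) := by positivity
          linarith
        have hre : r ^ (1 - e') ≤ r := by
          calc r ^ (1 - e') ≤ r ^ (1:ℝ) := rpow_le_rpow1 hr (by linarith)
            _ = r := Real.rpow_one r
        refine (HKc C0 _ g' r D' hSt' r hre hr le_rfl hσ').trans (ENNReal.ofReal_le_ofReal ?_)
        have hS' := SS_nonneg (g := g') (D := D') hr0.le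
        have h3 : r ^ (Kt * e') ≤ R ^ (Kt * e') := Real.rpow_le_rpow hr0.le hrR (by positivity)
        have h4 := min_sig hq hr le_rfl hσ
        rw [← hm, ← hP4] at h4
        gcongr)
    refine fin (C1 * (CK' * P4 + 1)) _ (by positivity) (by linarith) ?_ hz hN
    have h1 : R ^ (2 * e) * R ^ (Kt * e') ≤ R ^ ε := by
      rw [← Real.rpow_add hRp]; exact rpow_le_rpow1 hR (by linarith)
    have h2 : (R / r) ^ KT ≤ x := by
      rw [hx]; exact rpow_le_rpow1 hXr (by linarith)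
    have h3 : R ^ (2 * e) * (R / r) ^ KT * (CK' * R ^ (Kt * e') * (P4 * m)) ≤
        CK' * P4 * (R ^ ε * x * m) := by
      calc R ^ (2 * e) * (R / r) ^ KT * (CK' * R ^ (Kt * e') * (P4 * m))
          = CK' * P4 * ((R ^ (2 * e) * R ^ (Kt * e')) * (R / r) ^ KT * m) := by ring
        _ ≤ _ := by gcongr
    calc C1 * (R ^ (2 * e) * (R / r) ^ KT * (CK' * R ^ (Kt * e') * (P4 * m)) + R ^ (-q))
        ≤ C1 * (CK' * P4 * (R ^ ε * x * m) + 1 * (R ^ ε * x * m)) := by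
          gcongr
          rw [one_mul]; exact hmlo.trans hz1
      _ = _ := by ring
  · -- low levels
    have hr1R : R ^ (1/2 : ℝ) ≤ R := by
      calc R ^ (1/2 : ℝ) ≤ R ^ (1:ℝ) := rpow_le_rpow1 hR (by norm_num)
        _ = R := Real.rpow_one R
    have hN := HD C0 σ g R D hSt hB0 r (R ^ (1/2 : ℝ)) hr hr2.le hr1R le_rfl
      (CT' * R ^ (5:ℝ)) (by positivity) (by
        intro g' D' hSt'
        refine (H1c C0 _ g' _ D' hSt' r hr hr2.le).trans (le_of_eq ?_)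
        congr 2
        rw [← Real.rpow_mul hRp.le]
        norm_num)
    refine fin (C1 * (CT' + 1)) _ (by positivity) (by linarith) ?_ hz hN
    have e1 : R / R ^ (1/2 : ℝ) = R ^ (1/2 : ℝ) := by
      rw [div_eq_iff (by positivity), ← Real.rpow_add hRp]; norm_num
    have h2 : R ^ (KT / 2 + 5 + q) ≤ x := by
      have h3 : R ^ (1/2 : ℝ) ≤ R / r := by
        rw [le_div_iff₀ hr0]
        calc R ^ (1/2 : ℝ) * r ≤ R ^ (1/2 : ℝ) * R ^ (1/2 : ℝ) := by gcongr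
          _ = R := by rw [← Real.rpow_add hRp]; norm_num
      calc R ^ (KT / 2 + 5 + q) ≤ R ^ ((1/2) * ((2 * KT + 20 + 4 * q) / 2)) := rpow_le_rpow1 hR (by linarith)
        _ = (R ^ (1/2 : ℝ)) ^ ((2 * KT + 20 + 4 * q) / 2) := Real.rpow_mul hRp.le _ _
        _ ≤ x := by
            rw [hx]; exact Real.rpow_le_rpow (by positivity) h3 (by positivity)
    have h4 : R ^ (2 * e) * (R / R ^ (1/2 : ℝ)) ^ KT * (CT' * R ^ (5:ℝ)) ≤
        CT' * (R ^ ε * x * m) := by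
      have e2 : (R / R ^ (1/2 : ℝ)) ^ KT = R ^ (KT / 2) := by
        rw [e1, ← Real.rpow_mul hRp.le]; congr 1; ring
      rw [e2]
      calc R ^ (2 * e) * R ^ (KT / 2) * (CT' * R ^ (5:ℝ))
          = CT' * (R ^ (2 * e) * (R ^ (KT / 2 + 5 + q) * R ^ (-q))) := by
            have : R ^ (KT / 2) * R ^ (5:ℝ) = R ^ (KT / 2 + 5 + q) * R ^ (-q) := by
              rw [← Real.rpow_add hRp, ← Real.rpow_add hRp]; congr 1; ring
            calc _ = CT' * (R ^ (2 * e) * (R ^ (KT / 2) * R ^ (5:ℝ))) := by ring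
              _ = _ := by rw [this]
        _ ≤ CT' * (R ^ ε * (x * m)) := by
            have h5 : R ^ (2 * e) ≤ R ^ ε := rpow_le_rpow1 hR (by linarith)
            gcongr
        _ = _ := by ring
    calc C1 * (R ^ (2 * e) * (R / R ^ (1/2 : ℝ)) ^ KT * (CT' * R ^ (5:ℝ)) + R ^ (-q))
        ≤ C1 * (CT' * (R ^ ε * x * m) + 1 * (R ^ ε * x * m)) := by
          gcongr
          rw [one_mul]; exact hmlo.trans hz1
      _ = _ := by ring

theorem SSnn (g : E3 → ℂ) {R : ℝ} (D : ℝ) (hR : 0 ≤ R) : 0 ≤ SS g R D := SS_nonneg hR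

theorem LB.mono {c c' : ℝ} (h : LB M q c) (hc : c ≤ c') : LB M q c' := by
  intro a b A ε M0 ha hb hb2 hA hε
  obtain ⟨C, hC, H⟩ := h a b A ε M0 ha hb hb2 hA hε
  refine ⟨C, hC, fun C0 σ g R D hSt r hr hrR hσ => (H C0 σ g R D hSt r hr hrR hσ).trans
    (ENNReal.ofReal_le_ofReal ?_)⟩
  have hR := hSt.R1
  have hR0 : 0 < R := by linarith
  have hr0 : 0 < r := by linarith
  have hX : 1 ≤ R / r := by rw [le_div_iff₀ hr0]; linarith
  have hss := SSnn g D hR0.le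
  have hσ0 : 0 < σ := lt_of_lt_of_le (by positivity) hσ
  have hm0 : 0 ≤ min 1 σ := le_min (by norm_num) hσ0.le
  have h1 : (R / r) ^ (c / 2) ≤ (R / r) ^ (c' / 2) := rpow_le_rpow1 hX (by linarith)
  gcongr

/-- **the wave theorem**: `LB(q,c)` for every `c > q`. -/
theorem LB_all (hq : 0 ≤ q) {K : ℝ} (hK : 0 ≤ K) (HS : SLI M q K) (HC : CNV M q) (HA : A1k M q)
    (H1 : TRIV1 M q) (H2 : TRIV2 M q) (HK : KMt M q) (HW : WChE M q) :
    ∀ c : ℝ, q < c → LB M q c := by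
  obtain ⟨c0, hc0, h0⟩ := LB_start hq HS HC HA H1 H2 HK
  set T : Set ℝ := {c | q ≤ c ∧ LB M q c} with hT
  have h8 : c0 ∈ T := ⟨hc0, h0⟩
  have hbdd : BddBelow T := ⟨q, fun c hc => hc.1⟩
  set c1 : ℝ := sInf T with hc1
  have hc10 : q ≤ c1 := le_csInf ⟨_, h8⟩ fun c hc => hc.1
  have hH : ∀ c, c1 < c → LB M q c := by
    intro c hc
    obtain ⟨c', hc', hcc⟩ := exists_lt_of_csInf_lt ⟨_, h8⟩ hc
    exact hc'.2.mono hcc.le
  rcases hc10.eq_or_lt with h0 | hpos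
  · intro c hc
    exact hH c (by rw [← h0]; exact hc)
  · exfalso
    have hc1p : 0 < c1 := by linarith
    obtain ⟨η, hη, hηc, hLB⟩ := LB_improve hq hc1p hK hH HS HC HA (HW K hK c1 hc1p hc10 hH)
    have hmem : max (c1 - η) q ∈ T := ⟨le_max_right _ _, hLB.mono (le_max_left _ _)⟩
    have h1 := csInf_le hbdd hmem
    have h2 : max (c1 - η) q < c1 := max_lt (by linarith) hpos
    linarith

/-- the reward-free box bound gives the rewarded one with `D R^(q/2)`. -/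
theorem PBx_q (hq : 0 ≤ q) {κ : ℝ} (_hκ : 0 < κ) {r D : ℝ} (hr : 1 ≤ r) (hD : 0 ≤ D) {g : E3 → ℂ}
    (h : PBx M κ 0 r g D) : PBx M κ q r g (r ^ (q / 2) * D) := by
  intro c X0 f s1 s2 hsd hadm
  have hr0 : 0 < r := by linarith
  refine (h c X0 f s1 s2 hsd hadm).trans (ENNReal.ofReal_le_ofReal ?_)
  have hs10 : 0 < s1 := lt_of_lt_of_le (by positivity) hsd.lo
  have hs20 : 0 < s2 := lt_of_lt_of_le hs10 hsd.le
  have h1 : r ^ (-(1/2) : ℝ) ≤ s2 := hsd.lo.trans hsd.le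
  have h2 : 1 ≤ r ^ (q / 2) * s2 ^ q := by
    calc (1:ℝ) = r ^ (q / 2) * (r ^ (-(1/2) : ℝ)) ^ q := by
          rw [← Real.rpow_mul hr0.le, ← Real.rpow_add hr0,
            show q / 2 + -(1/2) * q = 0 by ring, Real.rpow_zero]
      _ ≤ r ^ (q / 2) * s2 ^ q := by
          gcongr
  have h3 : 0 ≤ scost κ s1 s2 r := by
    unfold scost TT
    have : 0 ≤ max (s2 ^ 2) ((κ * r)⁻¹) := le_max_of_le_left (by positivity)
    positivity
  rw [Real.rpow_zero, mul_one]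
  calc D * scost κ s1 s2 r = 1 * (D * scost κ s1 s2 r) := by ring
    _ ≤ (r ^ (q / 2) * s2 ^ q) * (D * scost κ s1 s2 r) := by gcongr
    _ = _ := by ring

/-- **EBc** from `LB q c` for all small `q`, `c`. -/
theorem EBc_of_LB {q0 : ℝ} (hq0 : 0 < q0) (H : ∀ q : ℝ, 0 < q → q < q0 → ∀ c : ℝ, q < c → LB M q c)
    (H5 : ∀ q : ℝ, 0 < q → q < q0 → A5 M q) : EBc M := by
  intro a b ε M0 ha hb hb2 hε
  obtain ⟨q, hq⟩ : ∃ q, q = min (q0 / 2) (ε / 4) := ⟨_, rfl⟩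
  have hqp : 0 < q := by rw [hq]; exact lt_min (by positivity) (by positivity)
  have hqq : q < q0 := by
    have : q ≤ q0 / 2 := by rw [hq]; exact min_le_left _ _
    linarith
  have hqe : q ≤ ε / 4 := by rw [hq]; exact min_le_right _ _
  obtain ⟨A, C5, hA, hC5, H5⟩ := H5 q hqp hqq a b M0 ha hb hb2
  obtain ⟨C, hC, HL⟩ := H q hqp hqq (2 * q) (by linarith) a b A (ε / 4) M0 ha hb hb2 hA
    (by positivity)
  refine ⟨C5 * C + C5, by positivity, ?_⟩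
  intro g R D hSt
  have hR := hSt.R1
  have hR0 : 0 < R := by linarith
  have hSt' : St M 1 q a b M0 0 2 g R (R ^ (q / 2) * D) := by
    refine ⟨hSt.meas, hSt.bdd, hSt.supp, hSt.R1, mul_nonneg (by positivity) hSt.D0,
      PBx_q hqp.le one_pos hR hSt.D0 hSt.box, hSt.nd.trans ?_⟩
    have h1 : 1 ≤ R ^ (q / 2) := Real.one_le_rpow hR (by positivity)
    have h2 := hSt.D0
    calc R ^ M0 * D = R ^ M0 * (1 * D) := by ring
      _ ≤ R ^ M0 * (R ^ (q / 2) * D) := by gcongr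
  have hL := HL 0 2 g R _ hSt' 1 le_rfl hR (by
    rw [Real.one_rpow]; norm_num)
  have h5 := H5 0 2 g R _ hSt'
  have hss := SSnn g D hR0.le
  have e1 : SS g R (R ^ (q / 2) * D) = R ^ (q / 4) * SS g R D := by
    rw [SS_mulD (by positivity), Real.sqrt_eq_rpow, ← Real.rpow_mul hR0.le]
    congr 2; ring
  have e2 : (min (1:ℝ) 2) ^ (q / 2) = 1 := by
    rw [min_eq_left (by norm_num), Real.one_rpow]
  rw [e1, e2, div_one, mul_one] at hL
  rw [e1] at h5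
  refine comb (x := C * R ^ (ε / 4) * R ^ (2 * q / 2) * (R ^ (q / 4) * SS g R D)) hC5
    (by positivity) (by positivity) h5 hL ?_
  have h6 : R ^ (ε / 4) * R ^ (2 * q / 2) * R ^ (q / 4) ≤ R ^ ε := by
    rw [← Real.rpow_add hR0, ← Real.rpow_add hR0]
    exact rpow_le_rpow1 hR (by linarith)
  have h7 : R ^ (q / 4) ≤ R ^ ε := rpow_le_rpow1 hR (by linarith)
  calc C5 * (C * R ^ (ε / 4) * R ^ (2 * q / 2) * (R ^ (q / 4) * SS g R D)) +
        C5 * (R ^ (q / 4) * SS g R D)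
      = C5 * C * ((R ^ (ε / 4) * R ^ (2 * q / 2) * R ^ (q / 4)) * SS g R D) +
        C5 * (R ^ (q / 4) * SS g R D) := by ring
    _ ≤ C5 * C * (R ^ ε * SS g R D) + C5 * (R ^ ε * SS g R D) := by gcongr
    _ = _ := by ring

/-- the leaves of the wave side, for one `q`. -/
structure Leaves (M q K : ℝ) : Prop where
  sli : SLI M q K
  cnv : CNV M q
  a1 : A1k M q
  t1 : TRIV1 M q
  t2 : TRIV2 M q
  km : KMt M q
  wch : WChE M q
  a5 : A5 M q

/-- **wave side**: the leaves for all small `q` give `EBc`. -/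
theorem EBc_of_leaves {q0 : ℝ} (hq0 : 0 < q0)
    (H : ∀ q : ℝ, 0 < q → q < q0 → ∃ K : ℝ, 0 ≤ K ∧ Leaves M q K) : EBc M := by
  refine EBc_of_LB hq0 (fun q hq hqq c hc => ?_) (fun q hq hqq => ?_)
  · obtain ⟨K, hK, L⟩ := H q hq hqq
    exact LB_all hq.le hK L.sli L.cnv L.a1 L.t1 L.t2 L.km L.wch c hc
  · obtain ⟨K, _, L⟩ := H q hq hqq
    exact L.a5

end Crest.Agent.R116.WC188
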