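import Crest.Agent.R116.WAsmC2_188
import Crest.Agent.R116.A1k3_229
import Crest.Agent.R116.A5c_192
import Crest.Agent.R116.Sli4_850
import Crest.Agent.R116.Cnv5_894
import Crest.Agent.R116.Ba2_449

/-!
# R116 (S0155): WAVE side, top wiring 1 (helper188)

`EBc M` from the leaves which are not yet theorems: `Cov2`, `DECc`, `TRIV2`, `KMt`, `WChE`.
-/

set_option autoImplicit false

namespace Crest.Agent.R116.WTop188

open Crest.Agent.R116.WC188

/-- **wave side, open leaves ⟹ EBc**. -/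
theorem EBc_of_open {M q0 : ℝ} (hM : 1 ≤ M) (hq0 : 0 < q0)
    (hcov : ∀ q : ℝ, 0 < q → q < q0 → Crest.Agent.R116.Cnv894.Cov2 M q)
    (hdec : ∀ q : ℝ, 0 < q → q < q0 → DECc M q)
    (ht2 : ∀ q : ℝ, 0 < q → q < q0 → TRIV2 M q)
    (hkm : ∀ q : ℝ, 0 < q → q < q0 → KMt M q)
    (hw : ∀ q : ℝ, 0 < q → q < q0 → WChE M q) : EBc M := by
  refine EBc_of_leaves hq0 fun q hq hqq => ⟨3, by norm_num, ?_⟩
  exact
    { sli := Crest.Agent.R116.Sl850.sli hM q
      cnv := Crest.Agent.R116.Cnv894.cnv_of hM (hcov q hq hqq)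
      a1 := A1k229.A1k_of_DECc (hdec q hq hqq)
      t1 := Crest.Agent.R116.Ba449.TRIV1_holds M q
      t2 := ht2 q hq hqq
      km := hkm q hq hqq
      wch := hw q hq hqq
      a5 := Crest.Agent.R116.A5c192.a5 M q }

end Crest.Agent.R116.WTop188
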