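import Crest.Agent.R116.WTop1_188
import Crest.Agent.R116.Stb3_850
import Crest.Agent.R116.Dcc_295
import Crest.Agent.R116.Ba6_449
import Crest.Agent.R116.KMt4_448
import Crest.Agent.R116.Ckm8_538
import Crest.Agent.R116.Br8_430
import Crest.Agent.R116.ChC5_210
import Crest.Agent.R116.Gen2_126
import Crest.Agent.R116.Ex2_299
import Crest.Agent.R116.Rt_210
import Crest.Agent.R116.TwC_210
import Crest.Agent.R116.TuZ_373
import Crest.Agent.R116.DcU4_894
import Crest.Agent.R116.Dch9_229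

/-!
# R116 (S0155): WAVE side, top wiring 2 (helper188)

`LKM` + the three leaves which are not yet theorems (`A2k`, `FIN`, `SLAB`) ⟹ `EBc M`, every `M ≥ 2`.
-/

set_option autoImplicit false

namespace Crest.Agent.R116.WTop188

open Crest.Agent.R116.WC188 Crest.Agent.R116.GlC210
open Crest.Agent.R116.Ckm538 (LKMg)
open Crest.Agent.R116.LKMDef299 (SSg)

/-- TUBE from the Kakeya--Nikodym input. -/
theorem tube_of_km {M' M q : ℝ} (hM' : 1 ≤ M') (hM : 1 ≤ M) (hq : 0 ≤ q)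
    (hKM : ∀ V : ℝ, LKMg (SSg M') V) : TUBE M q :=
  TuZ373.tube_of hq (Ckm538.kmr_of hM' hM hq hKM) (DcU894.usrc M q) (Dch229.esrc M q)

/-- WChE from the Kakeya--Nikodym input, `A2k`, `FIN` and `SLAB`. -/
theorem wche_of_open {M' M q : ℝ} (hM' : 1 ≤ M') (hM : 2 ≤ M) (hq : 0 ≤ q)
    (hKM : ∀ V : ℝ, LKMg (SSg M') V) (hA2 : A2k M q) (hFIN : FIN M q) (hSLAB : SLAB M q) :
    WChE M q :=
  chain hq (root_of_A2k hA2) (Gen126.gen_of_A2k hq hA2) hFIN hSLAB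
    (tube_of_km hM' (by linarith) hq hKM) (towx (Ex299.exl (De295.decc hM hq)))

/-- **wave side, open leaves ⟹ EBc** (second stage). -/
theorem EBc_of_open2 {M q0 : ℝ} (hM : 2 ≤ M) (hq0 : 0 < q0) (hLKM : LKMDef299.LKM)
    (hA2 : ∀ q : ℝ, 0 < q → q < q0 → A2k M q)
    (hFIN : ∀ q : ℝ, 0 < q → q < q0 → FIN M q)
    (hSLAB : ∀ q : ℝ, 0 < q → q < q0 → SLAB M q) : EBc M := by
  have hM1 : 1 ≤ M := by linarith
  obtain ⟨M0, hM0, hK⟩ := Br430.bridge_LKM hLKM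
  have hKM : ∀ V : ℝ, LKMg (SSg M0) V := hK M0 le_rfl
  refine EBc_of_open hM1 hq0 (fun q hq _ => Stb850.cov2 hM1 hq.le)
    (fun q hq _ => De295.decc hM hq.le) (fun q hq _ => Ba449.triv2_holds hM1 hq.le)
    (fun q hq _ => KMt448.kmt_of hM0 hM1 hq.le hKM)
    (fun q hq hqq => wche_of_open hM0 hM hq.le hKM (hA2 q hq hqq) (hFIN q hq hqq) (hSLAB q hq hqq))

end Crest.Agent.R116.WTop188
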