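import Crest.Agent.R116.WTop2_188
import Crest.Agent.R116.SupZ_858
import Crest.Agent.R116.Fin2_850
import Crest.Agent.R116.SlbC6_367
import Crest.Agent.R116.StepC1_367

/-!
# R116 (S0155): WAVE side, top wiring 3 (helper188)

`LKM` + the two leaves which are not yet theorems (`AL_C`, `MIS_C`) ⟹ `EBc M`, every `M ≥ 2`.
-/

set_option autoImplicit false

namespace Crest.Agent.R116.WTop188

open Crest.Agent.R116.WC188 Crest.Agent.R116.GlC210

/-- SLAB from `AL_C` and `MIS_C`. -/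
theorem slab_of_open {M q : ℝ} (hM : 0 ≤ M) (hq : 0 ≤ q) (hAL : PC299.AL_C M q)
    (hMIS : PC299.MIS_C M q) : SLAB M q :=
  Slb367.slab_of hM hq (StepC367.stepc_of hAL hMIS)

/-- **wave side, open leaves ⟹ EBc** (third stage). -/
theorem EBc_of_open3 {M q0 : ℝ} (hM : 2 ≤ M) (hq0 : 0 < q0) (hLKM : LKMDef299.LKM)
    (hAL : ∀ q : ℝ, 0 < q → q < q0 → PC299.AL_C M q)
    (hMIS : ∀ q : ℝ, 0 < q → q < q0 → PC299.MIS_C M q) : EBc M :=
  EBc_of_open2 hM hq0 hLKM (fun q hq _ => Sup858.a2k (by linarith) hq.le)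
    (fun q hq _ => Fin850.fin_of_A2k (Sup858.a2k (by linarith) hq.le))
    (fun q hq hqq => slab_of_open (by linarith) hq.le (hAL q hq hqq) (hMIS q hq hqq))

end Crest.Agent.R116.WTop188
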