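import Crest.Agent.R116.WTop4_188
import Crest.Agent.R116.Al2_339
import Crest.Agent.R116.Mc12_330
import Crest.Agent.R116.MwN_748

/-!
# R116 (S0155): the wave side is closed (helper188)

`LKM` ⟹ `EBc M` for every `M ≥ 2` ⟹ the literal of `S0155`.
-/

set_option autoImplicit false

open MeasureTheory FourierTransform

namespace Crest.Agent.R116.WTop188

open Crest.Agent.R116.WC188 Crest.Agent.R116.GlC210
open Crest.Agent.R116.Ckm538 (LKMg)
open Crest.Agent.R116.LKMDef299 (SSg)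

/-- `MIS_C` from the Kakeya--Nikodym input. -/
theorem mis_of_km {M' M q : ℝ} (hM' : 1 ≤ M') (hM : 1 ≤ M) (hq : 0 < q) (hq1 : q ≤ 1)
    (hKM : ∀ V : ℝ, LKMg (SSg M') V) : PC299.MIS_C M q :=
  Mc330.mis_c hM hq hq1 (MwN748.num_mis hq hq1) (fun _ _ _ hr hw hB => MwN748.v0_pos hr hw hB)
    (Ckm538.kmr_of hM' hM hq.le hKM)

/-- `AL_C` from the Kakeya--Nikodym input. -/
theorem al_of_km {M' M q : ℝ} (hM' : 1 ≤ M') (hM : 1 ≤ M) (hq : 0 < q) (hq1 : q ≤ 1)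
    (hKM : ∀ V : ℝ, LKMg (SSg M') V) : PC299.AL_C M q :=
  AlC339.al_c hM hq.le (by linarith) (Ckm538.kmr_of hM' hM hq.le hKM)

/-- **the wave side**: `LKM` gives `EBc M`, every `M ≥ 2`. -/
theorem EBc_of_LKM {M : ℝ} (hM : 2 ≤ M) (hLKM : LKMDef299.LKM) : EBc M := by
  obtain ⟨M0, hM0, hK⟩ := Br430.bridge_LKM hLKM
  have hKM : ∀ V : ℝ, LKMg (SSg M0) V := hK M0 le_rfl
  exact EBc_of_open3 hM one_pos hLKM
    (fun q hq hqq => al_of_km hM0 (by linarith) hq hqq.le hKM)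
    (fun q hq hqq => mis_of_km hM0 (by linarith) hq hqq.le hKM)

/-- **`S0155` from `LKM`**. -/
theorem S0155_of_LKM (hLKM : LKMDef299.LKM) (p : ℝ) (hp : 2 < p) (α : ℝ)
    (hα : max 0 (1 - 3 / p) < α) :
    ∃ C : ℝ, ∀ f : SchwartzMap (EuclideanSpace ℝ (Fin 3)) ℂ,
      MeasureTheory.eLpNorm
          (fun z : (EuclideanSpace ℝ (Fin 3)) × ℝ =>
            𝓕⁻ (fun ξ : EuclideanSpace ℝ (Fin 3) =>
              Complex.exp (2 * Real.pi * z.2 * ‖ξ‖ * Complex.I) • 𝓕 (⇑f) ξ) z.1)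
          (ENNReal.ofReal p)
          ((MeasureTheory.volume : MeasureTheory.Measure (EuclideanSpace ℝ (Fin 3))).prod
            (MeasureTheory.volume.restrict (Set.Icc (1 : ℝ) 2))) ≤
        ENNReal.ofReal C *
          MeasureTheory.eLpNorm
            (𝓕⁻ (fun ξ : EuclideanSpace ℝ (Fin 3) =>
              ((1 + 4 * Real.pi ^ 2 * ‖ξ‖ ^ 2) ^ (α / 2) : ℝ) • 𝓕 (⇑f) ξ))
            (ENNReal.ofReal p) MeasureTheory.volume :=
  Fin665.S0155_of_EBc ⟨2, EBc_of_LKM le_rfl hLKM⟩ p hp α hα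

end Crest.Agent.R116.WTop188
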