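import Crest.Agent.R116.WTop5_188
import Crest.Agent.R116.KTopA_387

/-!
# R116: the literal of `S0155` from the two open Props of the K side (helper188)

`hE` = [ENEMY] (79, 618), `hB` = [KTopB] (468, 794).
-/

set_option autoImplicit false

open MeasureTheory FourierTransform

namespace Crest.Agent.R116.WTop188

/-- **`S0155` from the enemy and `TopW η → False`.** -/
theorem S0155_of_top {η : ℝ} (hη : 0 < η) (hη4 : η ≤ 1 / 4)
    (hE : ¬ Ks79.LKMseq 68 → ∃ b0 : ℝ, 0 < b0 ∧ ∀ K0 : ℕ, Yb2635.EnemyAt2 (Rm635.TSK K0) b0)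
    (hB : KTop387.TopW η → False) (p : ℝ) (hp : 2 < p) (α : ℝ)
    (hα : max 0 (1 - 3 / p) < α) :
    ∃ C : ℝ, ∀ f : SchwartzMap (EuclideanSpace ℝ (Fin 3)) ℂ,
      MeasureTheory.eLpNorm
          (fun z : (EuclideanSpace ℝ (Fin 3)) × ℝ =>
            𝓕⁻ (fun ξ : EuclideanSpace ℝ (Fin 3) =>
              Complex.exp (2 * Real.pi * z.2 * ‖ξ‖ * Complex.I) • 𝓕 (⇑f) ξ) z.1)
          (ENNReal.ofReal p)
          ((MeasureTheory.volume : MeasureTheory.Measure (EuclideanSpace ℝ (Fin 3))).prod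
            (MeasureTheory.volume.restrict (Set.Icc (1 : ℝ) 2))) ≤
        ENNReal.ofReal C *
          MeasureTheory.eLpNorm
            (𝓕⁻ (fun ξ : EuclideanSpace ℝ (Fin 3) =>
              ((1 + 4 * Real.pi ^ 2 * ‖ξ‖ ^ 2) ^ (α / 2) : ℝ) • 𝓕 (⇑f) ξ))
            (ENNReal.ofReal p) MeasureTheory.volume :=
  S0155_of_LKM (KTop387.lkm_of hη hη4 hE hB) p hp α hα

end Crest.Agent.R116.WTop188
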