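import Crest.Agent.R116.WTop6_188
import Crest.Agent.R116.Rm7_618

/-!
# R116: the literal of `S0155` from the one open Prop of the K side (helper188)

`hB` = [KTopB] (468, 794) : `TopW η → False`.
-/

set_option autoImplicit false

open MeasureTheory FourierTransform

namespace Crest.Agent.R116.WTop188

/-- **`S0155` from `TopW η → False`.** -/
theorem S0155_of_topW {η : ℝ} (hη : 0 < η) (hη4 : η ≤ 1 / 4) (hB : KTop387.TopW η → False)
    (p : ℝ) (hp : 2 < p) (α : ℝ) (hα : max 0 (1 - 3 / p) < α) :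
    ∃ C : ℝ, ∀ f : SchwartzMap (EuclideanSpace ℝ (Fin 3)) ℂ,
      MeasureTheory.eLpNorm
          (fun z : (EuclideanSpace ℝ (Fin 3)) × ℝ =>
            𝓕⁻ (fun ξ : EuclideanSpace ℝ (Fin 3) =>
              Complex.exp (2 * Real.pi * z.2 * ‖ξ‖ * Complex.I) • 𝓕 (⇑f) ξ) z.1)
          (ENNReal.ofReal p)
          ((MeasureTheory.volume : MeasureTheory.Measure (EuclideanSpace ℝ (Fin 3))).prod
            (MeasureTheory.volume.restrict (Set.Icc (1 : ℝ) 2))) ≤
        ENNReal.ofReal C *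
          MeasureTheory.eLpNorm
            (𝓕⁻ (fun ξ : EuclideanSpace ℝ (Fin 3) =>
              ((1 + 4 * Real.pi ^ 2 * ‖ξ‖ ^ 2) ^ (α / 2) : ℝ) • 𝓕 (⇑f) ξ))
            (ENNReal.ofReal p) MeasureTheory.volume :=
  S0155_of_top hη hη4 Ene618.enemy2 hB p hp α hα

end Crest.Agent.R116.WTop188
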