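import Crest.Agent.R138.Sh11_200
import Crest.Agent.R116.ShDefs_927

/-!
R116, outer shell (1): radial symbols `ξ ↦ c (‖ξ‖²)` as Schwartz functions, their Laplacian and the
weighted kernel identity.
-/

set_option autoImplicit false

open MeasureTheory FourierTransform LineDeriv Set
open scoped ContDiff Real SchwartzMap ENNReal

namespace Crest.Agent.R116.Sh927




/-- radial symbol. -/
noncomputable def rs (c : ℝ → ℂ) (ξ : V) : ℂ := c (‖ξ‖ ^ 2)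

theorem contDiff_rs {c : ℝ → ℂ} (hc : ContDiff ℝ ∞ c) : ContDiff ℝ ∞ (rs c) := by
  unfold rs
  exact hc.comp (contDiff_norm_sq ℝ)

theorem hasCompactSupport_rs {c : ℝ → ℂ} (hc : HasCompactSupport c) :
    HasCompactSupport (rs c) := by
  obtain ⟨M, hM⟩ := hc.isCompact.isBounded.subset_closedBall 0
  refine HasCompactSupport.intro (isCompact_closedBall (0:V) (Real.sqrt (max M 0))) fun ξ hξ => ?_
  rw [mem_closedBall_zero_iff, not_le] at hξ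
  unfold rs
  by_contra h
  have h1 := hM (subset_tsupport _ h)
  rw [mem_closedBall_zero_iff, Real.norm_of_nonneg (by positivity)] at h1
  have h2 : ‖ξ‖ ≤ Real.sqrt (max M 0) := Real.le_sqrt_of_sq_le (h1.trans (le_max_left _ _))
  linarith

/-- radial Schwartz function. -/
noncomputable def rS {c : ℝ → ℂ} (hc : ContDiff ℝ ∞ c) (hc' : HasCompactSupport c) : 𝓢(V, ℂ) :=
  (hasCompactSupport_rs hc').toSchwartzMap (contDiff_rs hc)

theorem rS_apply {c : ℝ → ℂ} (hc : ContDiff ℝ ∞ c) (hc' : HasCompactSupport c) (ξ : V) :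
    rS hc hc' ξ = c (‖ξ‖ ^ 2) := rfl

theorem hasDerivAt_nsq (y e : V) (t : ℝ) :
    HasDerivAt (fun t : ℝ => ‖y + t • e‖ ^ 2) (2 * inner ℝ (y + t • e) e) t := by
  have h1 : HasDerivAt (fun t : ℝ => y + t • e) e t := by
    simpa using ((hasDerivAt_id t).smul_const e).const_add y
  exact h1.norm_sq

theorem lineDeriv_rS {c : ℝ → ℂ} (hc : ContDiff ℝ ∞ c) (hc' : HasCompactSupport c) (e y : V) :
    (∂_{e} (rS hc hc')) y = deriv c (‖y‖ ^ 2) * ((2 * inner ℝ y e : ℝ) : ℂ) := by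
  rw [SchwartzMap.lineDerivOp_apply]
  unfold lineDeriv
  have h1 := hasDerivAt_nsq y e 0
  have hd : HasDerivAt c (deriv c (‖y + (0:ℝ) • e‖ ^ 2)) (‖y + (0:ℝ) • e‖ ^ 2) :=
    ((hc.differentiable (by simp)) _).hasDerivAt
  have h2 := HasDerivAt.scomp (0:ℝ) hd h1
  have h3 : (fun t : ℝ => (rS hc hc') (y + t • e)) = c ∘ fun t : ℝ => ‖y + t • e‖ ^ 2 := by
    funext t; rfl
  rw [h3, h2.deriv]
  simp
  ring

theorem lineDeriv2_rS {c : ℝ → ℂ} (hc : ContDiff ℝ ∞ c) (hc' : HasCompactSupport c) (e y : V) :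
    (∂_{e} (∂_{e} (rS hc hc'))) y = deriv (deriv c) (‖y‖ ^ 2) * ((4 * (inner ℝ y e) ^ 2 : ℝ) : ℂ)
      + deriv c (‖y‖ ^ 2) * ((2 * inner ℝ e e : ℝ) : ℂ) := by
  rw [SchwartzMap.lineDerivOp_apply]
  unfold lineDeriv
  have h1 := hasDerivAt_nsq y e 0
  have hc1 : ContDiff ℝ ∞ (deriv c) := (contDiff_infty_iff_deriv.mp hc).2
  have hd : HasDerivAt (deriv c) (deriv (deriv c) (‖y + (0:ℝ) • e‖ ^ 2)) (‖y + (0:ℝ) • e‖ ^ 2) :=
    ((hc1.differentiable (by simp)) _).hasDerivAt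
  have h2 := HasDerivAt.scomp (0:ℝ) hd h1
  have h4 : HasDerivAt (fun t : ℝ => 2 * inner ℝ (y + t • e) e) (2 * inner ℝ e e) 0 := by
    have h5 : HasDerivAt (fun t : ℝ => y + t • e) e 0 := by
      simpa using ((hasDerivAt_id (0:ℝ)).smul_const e).const_add y
    have h6 := (h5.inner ℝ (hasDerivAt_const (0:ℝ) e)).const_mul 2
    simpa using h6
  have h7 := h2.mul h4.ofReal_comp
  have h3 : (fun t : ℝ => (∂_{e} (rS hc hc')) (y + t • e))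
      = (deriv c ∘ fun t : ℝ => ‖y + t • e‖ ^ 2) *
          fun t : ℝ => ((2 * inner ℝ (y + t • e) e : ℝ) : ℂ) := by
    funext t
    rw [lineDeriv_rS]
    rfl
  rw [h3, h7.deriv]
  simp
  ring

/-- the Laplacian of the radial function, as a Schwartz function. -/
noncomputable def lS {c : ℝ → ℂ} (hc : ContDiff ℝ ∞ c) (hc' : HasCompactSupport c) : 𝓢(V, ℂ) :=
  ∑ i : Fin 3, ∂_{EuclideanSpace.basisFun (Fin 3) ℝ i} (∂_{EuclideanSpace.basisFun (Fin 3) ℝ i}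
      (rS hc hc'))

theorem lS_apply {c : ℝ → ℂ} (hc : ContDiff ℝ ∞ c) (hc' : HasCompactSupport c) (ξ : V) :
    lS hc hc' ξ = 4 * ((‖ξ‖ ^ 2 : ℝ) : ℂ) * deriv (deriv c) (‖ξ‖ ^ 2) + 6 * deriv c (‖ξ‖ ^ 2) := by
  unfold lS
  rw [sum_apply]
  simp_rw [lineDeriv2_rS]
  have h2 : ∀ i : Fin 3, inner ℝ (EuclideanSpace.basisFun (Fin 3) ℝ i)
      (EuclideanSpace.basisFun (Fin 3) ℝ i) = (1:ℝ) := by
    intro i
    rw [real_inner_self_eq_norm_sq]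
    simp
  have h1 : ‖ξ‖ ^ 2 = ∑ i : Fin 3, (inner ℝ ξ (EuclideanSpace.basisFun (Fin 3) ℝ i)) ^ 2 := by
    rw [OrthonormalBasis.sum_sq_inner_left]
  simp_rw [h2]
  rw [Finset.sum_add_distrib]
  have h3 : ∑ i : Fin 3, deriv (deriv c) (‖ξ‖ ^ 2) *
      ((4 * (inner ℝ ξ (EuclideanSpace.basisFun (Fin 3) ℝ i)) ^ 2 : ℝ) : ℂ)
      = 4 * ((‖ξ‖ ^ 2 : ℝ) : ℂ) * deriv (deriv c) (‖ξ‖ ^ 2) := by
    generalize deriv (deriv c) (‖ξ‖ ^ 2) = D
    rw [h1, Complex.ofReal_sum, Finset.mul_sum, Finset.sum_mul]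
    refine Finset.sum_congr rfl fun i _ => ?_
    push_cast
    ring
  rw [h3, Finset.sum_const, Finset.card_univ, Fintype.card_fin]
  simp only [nsmul_eq_mul]
  push_cast
  ring

theorem fourierInv_lS {c : ℝ → ℂ} (hc : ContDiff ℝ ∞ c) (hc' : HasCompactSupport c) (x : V) :
    (𝓕⁻ (lS hc hc')) x = ((-(4 * π ^ 2) * ‖x‖ ^ 2 : ℝ) : ℂ) * (𝓕⁻ (rS hc hc')) x := by
  have h1 : ∀ e : V, (𝓕⁻ (∂_{e} (∂_{e} (rS hc hc')))) x
      = ((-(4 * π ^ 2) * (inner ℝ x e) ^ 2 : ℝ) : ℂ) * (𝓕⁻ (rS hc hc')) x := by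
    intro e
    have ht : (inner ℝ · e : V → ℝ).HasTemperateGrowth := by fun_prop
    rw [SchwartzMap.fourierInv_lineDerivOp_eq, SchwartzMap.fourierInv_lineDerivOp_eq,
      smul_apply, SchwartzMap.smulLeftCLM_apply_apply ht, smul_apply,
      SchwartzMap.smulLeftCLM_apply_apply ht]
    simp only [smul_eq_mul, Complex.real_smul]
    push_cast
    ring_nf
    rw [Complex.I_sq]
    ring
  unfold lS
  rw [FourierTransform.fourierInv_sum, sum_apply]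
  simp_rw [h1]
  have h3 : ‖x‖ ^ 2 = ∑ i : Fin 3, (inner ℝ x (EuclideanSpace.basisFun (Fin 3) ℝ i)) ^ 2 := by
    rw [OrthonormalBasis.sum_sq_inner_left]
  rw [← Finset.sum_mul, ← Complex.ofReal_sum, ← Finset.mul_sum, ← h3]

/-- the Schwartz function whose inverse transform is `(1 + i (|x|²-T²)/(1+T)) K`. -/
noncomputable def wS {c : ℝ → ℂ} (hc : ContDiff ℝ ∞ c) (hc' : HasCompactSupport c) (T : ℝ) :
    𝓢(V, ℂ) :=
  (1 - Complex.I * ((T ^ 2 / (1 + T) : ℝ) : ℂ)) • rS hc hc' +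
    (Complex.I * ((-(1 / (4 * π ^ 2 * (1 + T))) : ℝ) : ℂ)) • lS hc hc'

theorem fourierInv_wS {c : ℝ → ℂ} (hc : ContDiff ℝ ∞ c) (hc' : HasCompactSupport c) (T : ℝ)
    (x : V) : (𝓕⁻ (wS hc hc' T)) x =
      (1 + (((‖x‖ ^ 2 - T ^ 2) / (1 + T) : ℝ) : ℂ) * Complex.I) * (𝓕⁻ (rS hc hc')) x := by
  unfold wS
  rw [FourierTransform.fourierInv_add, FourierTransform.fourierInv_smul,
    FourierTransform.fourierInv_smul, add_apply, smul_apply, smul_apply, fourierInv_lS,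
    smul_eq_mul, smul_eq_mul, ← mul_assoc, ← add_mul]
  congr 1
  have h4 : (-(1 / (4 * π ^ 2 * (1 + T)))) * (-(4 * π ^ 2) * ‖x‖ ^ 2) = ‖x‖ ^ 2 / (1 + T) := by
    have := Real.pi_ne_zero
    by_cases hT : 1 + T = 0
    · rw [hT]; simp
    field_simp
  have h5 : (Complex.I * ((-(1 / (4 * π ^ 2 * (1 + T))) : ℝ) : ℂ)) *
      ((-(4 * π ^ 2) * ‖x‖ ^ 2 : ℝ) : ℂ) = Complex.I * ((‖x‖ ^ 2 / (1 + T) : ℝ) : ℂ) := by
    rw [mul_assoc, ← Complex.ofReal_mul, h4]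
  rw [h5, sub_div]
  push_cast
  ring

theorem wS_apply {c : ℝ → ℂ} (hc : ContDiff ℝ ∞ c) (hc' : HasCompactSupport c) (T : ℝ) (ξ : V) :
    wS hc hc' T ξ = c (‖ξ‖ ^ 2) + Complex.I * (((1 + T)⁻¹ : ℝ) : ℂ) *
      (-(((4 * π ^ 2)⁻¹ : ℝ) : ℂ) * (4 * ((‖ξ‖ ^ 2 : ℝ) : ℂ) * deriv (deriv c) (‖ξ‖ ^ 2)
        + 6 * deriv c (‖ξ‖ ^ 2)) - ((T ^ 2 : ℝ) : ℂ) * c (‖ξ‖ ^ 2)) := by
  unfold wS
  rw [add_apply, smul_apply, smul_apply, lS_apply, rS_apply, smul_eq_mul, smul_eq_mul]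
  rw [one_div, mul_inv, div_eq_mul_inv]
  push_cast
  ring

end Crest.Agent.R116.Sh927
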