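import Crest.Agent.R116.Wk1_927

/-!
R116, outer shell (2): the weight `(1 + (|x|²-T²)²/(1+T)²)⁻¹` and the `L¹` bound of a radial kernel.
-/

set_option autoImplicit false

open MeasureTheory FourierTransform LineDeriv Set
open scoped ContDiff Real SchwartzMap ENNReal

namespace Crest.Agent.R116.Sh927

/-- the weight as a function of the radius. -/
noncomputable def wt (T r : ℝ) : ℝ := (1 + ((r ^ 2 - T ^ 2) / (1 + T)) ^ 2)⁻¹

theorem wt_pos (T r : ℝ) : 0 < wt T r := by unfold wt; positivity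

theorem continuous_wt (T : ℝ) : Continuous (wt T) := by
  unfold wt
  refine Continuous.inv₀ (by fun_prop) fun x => ?_
  positivity

theorem wt_le {T : ℝ} (hT : 0 ≤ T) {r : ℝ} (hr : 0 ≤ r) :
    r ^ 2 * wt T r ≤ 2 * (1 + T) ^ 2 * (1 + (r - T) ^ 2)⁻¹ := by
  unfold wt
  have h1 : 0 < 1 + T := by linarith
  rw [← div_eq_mul_inv, ← div_eq_mul_inv, div_le_div_iff₀ (by positivity) (by positivity)]
  have e : 2 * (1 + T) ^ 2 * (1 + ((r ^ 2 - T ^ 2) / (1 + T)) ^ 2)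
      = 2 * ((1 + T) ^ 2 + (r - T) ^ 2 * (r + T) ^ 2) := by
    field_simp
    ring
  rw [e]
  have h2 : r ^ 2 * (r - T) ^ 2 ≤ (r - T) ^ 2 * (r + T) ^ 2 := by
    have : r ^ 2 ≤ (r + T) ^ 2 := by nlinarith
    nlinarith [sq_nonneg (r - T)]
  have h3 : r ^ 2 ≤ 2 * (1 + T) ^ 2 + (r - T) ^ 2 * (r + T) ^ 2 := by
    by_cases h : (r - T) ^ 2 ≤ 1
    · have h4 : r ^ 2 ≤ 2 * (r - T) ^ 2 + 2 * T ^ 2 := by nlinarith [sq_nonneg (r - 2 * T)]
      nlinarith [sq_nonneg ((r - T) * (r + T))]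
    · push Not at h
      have : r ^ 2 ≤ (r + T) ^ 2 := by nlinarith
      nlinarith [sq_nonneg (r + T)]
  nlinarith

theorem lint_wt {T : ℝ} (hT : 0 ≤ T) :
    ∫⁻ x : V, ENNReal.ofReal (wt T ‖x‖) ≤ ENNReal.ofReal (8 * π ^ 2 * (1 + T) ^ 2) := by
  have hI : Integrable (fun r : ℝ => 2 * (1 + T) ^ 2 * (1 + (r - T) ^ 2)⁻¹) := by
    have := (integrable_inv_one_add_sq.comp_sub_right T).const_mul (2 * (1 + T) ^ 2)
    exact this
  have hfr : Module.finrank ℝ V = 3 := finrank_euclideanSpace_fin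
  have hion : IntegrableOn (fun y : ℝ => y ^ (Module.finrank ℝ V - 1) • wt T y) (Ioi 0) := by
    refine Integrable.mono' hI.integrableOn ?_ ?_
    · exact (((continuous_id.pow _).smul (continuous_wt T)).aestronglyMeasurable).restrict
    · filter_upwards [ae_restrict_mem measurableSet_Ioi] with r hr
      have hr0 : 0 ≤ r := le_of_lt hr
      rw [hfr, smul_eq_mul, Real.norm_of_nonneg (mul_nonneg (by positivity) (wt_pos T r).le)]
      exact wt_le hT hr0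
  have hint : Integrable (fun x : V => wt T ‖x‖) :=
    (integrable_fun_norm_addHaar (volume : Measure V)).mpr hion
  rw [← ofReal_integral_eq_lintegral_ofReal hint
    (Filter.Eventually.of_forall fun x => (wt_pos T _).le)]
  apply ENNReal.ofReal_le_ofReal
  rw [integral_fun_norm_addHaar (volume : Measure V) (wt T), hfr]
  have hb : (volume : Measure V).real (Metric.ball 0 1) = π * 4 / 3 := by
    rw [Measure.real, EuclideanSpace.volume_ball_fin_three]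
    rw [ENNReal.ofReal_one, one_pow, one_mul, ENNReal.toReal_ofReal (by positivity)]
  rw [hb]
  have h1 : ∫ y in Ioi (0:ℝ), y ^ (3 - 1) • wt T y ≤ 2 * (1 + T) ^ 2 * π := by
    calc ∫ y in Ioi (0:ℝ), y ^ (3 - 1) • wt T y
        ≤ ∫ y in Ioi (0:ℝ), 2 * (1 + T) ^ 2 * (1 + (y - T) ^ 2)⁻¹ := by
          rw [hfr] at hion
          refine setIntegral_mono_on hion hI.integrableOn measurableSet_Ioi fun r hr => ?_
          rw [smul_eq_mul]
          exact wt_le hT (le_of_lt hr)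
      _ ≤ ∫ y : ℝ, 2 * (1 + T) ^ 2 * (1 + (y - T) ^ 2)⁻¹ :=
          setIntegral_le_integral hI (Filter.Eventually.of_forall fun r => by positivity)
      _ = 2 * (1 + T) ^ 2 * π := by
          rw [integral_const_mul, integral_sub_right_eq_self (fun y : ℝ => (1 + y ^ 2)⁻¹) T,
            integral_univ_inv_one_add_sq]
  have hpi := Real.pi_pos
  rw [nsmul_eq_mul, smul_eq_mul]
  calc ((3:ℕ):ℝ) * (π * 4 / 3 * ∫ y in Ioi (0:ℝ), y ^ (3 - 1) • wt T y)
      ≤ ((3:ℕ):ℝ) * (π * 4 / 3 * (2 * (1 + T) ^ 2 * π)) := by gcongr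
    _ = 8 * π ^ 2 * (1 + T) ^ 2 := by push_cast; ring

/-- `L¹` bound of the kernel from the bound of `wS`. -/
theorem L1_of_wS {c : ℝ → ℂ} (hc : ContDiff ℝ ∞ c) (hc' : HasCompactSupport c) {T : ℝ}
    (hT : 0 ≤ T) {M : ℝ} (hM : 0 ≤ M) (h : ∀ ξ, ‖wS hc hc' T ξ‖ ≤ M)
    (hs : ∀ ξ : V, 64 < ‖ξ‖ ^ 2 → wS hc hc' T ξ = 0) :
    ∫⁻ x, ‖𝓕⁻ (rs c) x‖ₑ ≤ ENNReal.ofReal (1000 * (1 + T) * M) := by
  have hball : ∀ ξ : V, ‖wS hc hc' T ξ‖ ≤ (Metric.closedBall (0:V) 8).indicator (fun _ => M) ξ := by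
    intro ξ
    by_cases hξ : ξ ∈ Metric.closedBall (0:V) 8
    · rw [indicator_of_mem hξ]; exact h ξ
    · rw [indicator_of_notMem hξ]
      rw [mem_closedBall_zero_iff, not_le] at hξ
      rw [hs ξ (by nlinarith), norm_zero]
  have h1 : ∫⁻ x, ENNReal.ofReal (‖wS hc hc' T x‖ ^ 2)
      ≤ ENNReal.ofReal (M ^ 2 * (8 ^ 3 * (π * 4 / 3))) := by
    calc ∫⁻ x, ENNReal.ofReal (‖wS hc hc' T x‖ ^ 2)
        ≤ ∫⁻ x, (Metric.closedBall (0:V) 8).indicator (fun _ => ENNReal.ofReal (M ^ 2)) x := by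
          refine lintegral_mono fun x => ?_
          have := hball x
          by_cases hx : x ∈ Metric.closedBall (0:V) 8
          · rw [indicator_of_mem hx] at this ⊢
            exact ENNReal.ofReal_le_ofReal (by gcongr)
          · rw [indicator_of_notMem hx] at this ⊢
            have h0 : ‖wS hc hc' T x‖ = 0 := le_antisymm this (norm_nonneg _)
            rw [h0]; simp
      _ = ENNReal.ofReal (M ^ 2) * volume (Metric.closedBall (0:V) 8) := by
          rw [lintegral_indicator measurableSet_closedBall, setLIntegral_const]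
      _ = _ := by
          rw [EuclideanSpace.volume_closedBall_fin_three, ← ENNReal.ofReal_pow (by norm_num),
            ← ENNReal.ofReal_mul (by norm_num), ← ENNReal.ofReal_mul (by positivity)]
  have h2 : ∫⁻ x, ENNReal.ofReal ‖(𝓕⁻ (wS hc hc' T)) x‖ ^ (2:ℝ)
      ≤ ENNReal.ofReal (M ^ 2 * (8 ^ 3 * (π * 4 / 3))) := by
    refine le_trans (le_of_eq ?_) h1
    rw [← Crest.Agent.R138.Sh200.lint_sq_fourierInv]
    refine lintegral_congr fun x => ?_
    rw [ENNReal.ofReal_rpow_of_nonneg (norm_nonneg _) (by norm_num)]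
    norm_num
  have hwm : Measurable fun x : V => ENNReal.ofReal (Real.sqrt (wt T ‖x‖)) :=
    ((continuous_wt T).comp continuous_norm).sqrt.measurable.ennreal_ofReal
  have h3 := ENNReal.lintegral_mul_le_Lp_mul_Lq (volume : Measure V) Real.HolderConjugate.two_two
    (f := fun x => ENNReal.ofReal (Real.sqrt (wt T ‖x‖)))
    (g := fun x => ENNReal.ofReal ‖(𝓕⁻ (wS hc hc' T)) x‖)
    hwm.aemeasurable (by
      have := (𝓕⁻ (wS hc hc' T)).continuous.norm.measurable.ennreal_ofReal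
      exact this.aemeasurable)
  simp only [Pi.mul_apply] at h3
  have h4 : ∫⁻ x, ‖𝓕⁻ (rs c) x‖ₑ = ∫⁻ x : V, ENNReal.ofReal (Real.sqrt (wt T ‖x‖)) *
      ENNReal.ofReal ‖(𝓕⁻ (wS hc hc' T)) x‖ := by
    refine lintegral_congr fun x => ?_
    rw [← ENNReal.ofReal_mul (Real.sqrt_nonneg _), fourierInv_wS, norm_mul]
    have e1 : ‖(1:ℂ) + (((‖x‖ ^ 2 - T ^ 2) / (1 + T) : ℝ) : ℂ) * Complex.I‖
        = Real.sqrt (1 + ((‖x‖ ^ 2 - T ^ 2) / (1 + T)) ^ 2) := by
      have := Complex.norm_add_mul_I 1 ((‖x‖ ^ 2 - T ^ 2) / (1 + T))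
      simpa using this
    rw [e1, ← mul_assoc, ← Real.sqrt_mul (wt_pos T _).le]
    have e2 : wt T ‖x‖ * (1 + ((‖x‖ ^ 2 - T ^ 2) / (1 + T)) ^ 2) = 1 := by
      unfold wt
      exact inv_mul_cancel₀ (by positivity)
    rw [e2, Real.sqrt_one, one_mul, ofReal_norm, SchwartzMap.fourierInv_coe]
    rfl
  have h5 : ∫⁻ x : V, ENNReal.ofReal (Real.sqrt (wt T ‖x‖)) ^ (2:ℝ)
      ≤ ENNReal.ofReal (8 * π ^ 2 * (1 + T) ^ 2) := by
    refine le_trans (le_of_eq ?_) (lint_wt hT)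
    refine lintegral_congr fun x => ?_
    rw [ENNReal.ofReal_rpow_of_nonneg (Real.sqrt_nonneg _) (by norm_num)]
    congr 1
    have := Real.sq_sqrt (wt_pos T ‖x‖).le
    exact_mod_cast this
  rw [h4]
  refine h3.trans ?_
  calc (∫⁻ x : V, ENNReal.ofReal (Real.sqrt (wt T ‖x‖)) ^ (2:ℝ)) ^ (1 / (2:ℝ)) *
        (∫⁻ x, ENNReal.ofReal ‖(𝓕⁻ (wS hc hc' T)) x‖ ^ (2:ℝ)) ^ (1 / (2:ℝ))
      ≤ ENNReal.ofReal (8 * π ^ 2 * (1 + T) ^ 2) ^ (1 / (2:ℝ)) *
        (ENNReal.ofReal (M ^ 2 * (8 ^ 3 * (π * 4 / 3)))) ^ (1 / (2:ℝ)) := by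
        gcongr
    _ = ENNReal.ofReal (Real.sqrt (8 * π ^ 2 * (1 + T) ^ 2 * (M ^ 2 * (8 ^ 3 * (π * 4 / 3))))) := by
        rw [← ENNReal.mul_rpow_of_nonneg _ _ (by norm_num), ← ENNReal.ofReal_mul (by positivity),
          ENNReal.ofReal_rpow_of_nonneg (by positivity) (by norm_num)]
        congr 1
        exact (Real.sqrt_eq_rpow _).symm
    _ ≤ _ := by
        apply ENNReal.ofReal_le_ofReal
        apply Real.sqrt_le_iff.mpr
        refine ⟨by positivity, ?_⟩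
        have hp : π < 3.15 := Real.pi_lt_d2
        have hp0 := Real.pi_pos
        have e : 8 * π ^ 2 * (1 + T) ^ 2 * (M ^ 2 * (8 ^ 3 * (π * 4 / 3)))
            = (8 * 8 ^ 3 * 4 / 3 * π ^ 3) * ((1 + T) * M) ^ 2 := by ring
        rw [e]
        have h6 : 8 * 8 ^ 3 * 4 / 3 * π ^ 3 ≤ 1000 ^ 2 := by
          have : π ^ 3 ≤ 3.15 ^ 3 := by gcongr
          nlinarith
        calc (8 * 8 ^ 3 * 4 / 3 * π ^ 3) * ((1 + T) * M) ^ 2 ≤ 1000 ^ 2 * ((1 + T) * M) ^ 2 := by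
              gcongr
          _ = _ := by ring

end Crest.Agent.R116.Sh927
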