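import Crest.Agent.R116.Wk2_927

/-!
R116, outer shell (3): oscillating radial profiles `A (‖ξ‖²) e^{2πiT‖ξ‖}` and the `L¹` bound
`≤ C (1+T) M`.
-/

set_option autoImplicit false

open MeasureTheory FourierTransform LineDeriv Set Filter
open scoped ContDiff Real SchwartzMap ENNReal Topology

namespace Crest.Agent.R116.Sh927

/-- the oscillation as a function of `u = ‖ξ‖²`. -/
noncomputable def EE (T u : ℝ) : ℂ := Complex.exp (((2 * π * T * Real.sqrt u : ℝ) : ℂ) * Complex.I)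

theorem norm_EE (T u : ℝ) : ‖EE T u‖ = 1 := Complex.norm_exp_ofReal_mul_I _

/-- smooth profiles supported in `[1/64, 64]` with bound `M`. -/
structure Pf (A : ℝ → ℂ) (M : ℝ) : Prop where
  sm : ContDiff ℝ ∞ A
  lo : ∀ u, u < 1 / 64 → A u = 0
  hi : ∀ u, 64 < u → A u = 0
  b0 : ∀ u, ‖A u‖ ≤ M
  b1 : ∀ u, ‖deriv A u‖ ≤ M
  b2 : ∀ u, ‖deriv (deriv A) u‖ ≤ M

theorem Pf.nonneg {A : ℝ → ℂ} {M : ℝ} (h : Pf A M) : 0 ≤ M := (norm_nonneg _).trans (h.b0 0)

/-- the oscillating profile. -/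
noncomputable def osc (T : ℝ) (A : ℝ → ℂ) (u : ℝ) : ℂ := A u * EE T u

theorem hasDerivAt_EE (T : ℝ) {u : ℝ} (hu : 0 < u) :
    HasDerivAt (EE T) (EE T u * (((π * T / Real.sqrt u : ℝ) : ℂ) * Complex.I)) u := by
  have h1 : HasDerivAt (fun u => 2 * π * T * Real.sqrt u) (π * T / Real.sqrt u) u := by
    have := (Real.hasDerivAt_sqrt hu.ne').const_mul (2 * π * T)
    refine this.congr_deriv ?_
    field_simp
  exact (h1.ofReal_comp.mul_const Complex.I).cexp

theorem contDiffAt_EE (T : ℝ) {u : ℝ} (hu : 0 < u) : ContDiffAt ℝ ∞ (EE T) u := by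
  have h1 : ContDiffAt ℝ ∞ Real.sqrt u := Real.contDiffAt_sqrt hu.ne'
  have h2 : ContDiffAt ℝ ∞ (fun u => 2 * π * T * Real.sqrt u) u := contDiffAt_const.mul h1
  have h3 : ContDiffAt ℝ ∞ (fun u => ((2 * π * T * Real.sqrt u : ℝ) : ℂ)) u :=
    Complex.ofRealCLM.contDiff.contDiffAt.comp u h2
  exact (h3.mul contDiffAt_const).cexp

theorem contDiff_osc {A : ℝ → ℂ} (hA : ContDiff ℝ ∞ A) {a : ℝ} (ha : 0 < a)
    (lo : ∀ u, u < a → A u = 0) (T : ℝ) : ContDiff ℝ ∞ (osc T A) := by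
  rw [contDiff_iff_contDiffAt]
  intro u
  by_cases hu : u < a
  · have : osc T A =ᶠ[𝓝 u] fun _ => 0 := by
      filter_upwards [Iio_mem_nhds hu] with v hv
      unfold osc
      rw [lo v hv, zero_mul]
    exact contDiffAt_const.congr_of_eventuallyEq this
  · push Not at hu
    exact hA.contDiffAt.mul (contDiffAt_EE T (by linarith))

theorem hasCompactSupport_osc {A : ℝ → ℂ} (hA : HasCompactSupport A) (T : ℝ) :
    HasCompactSupport (osc T A) := hA.mul_right

theorem Pf.comp {A : ℝ → ℂ} {M : ℝ} (h : Pf A M) : HasCompactSupport A := by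
  refine HasCompactSupport.intro (isCompact_Icc (a := (1/64:ℝ)) (b := 64)) fun u hu => ?_
  rw [mem_Icc, not_and_or, not_le, not_le] at hu
  rcases hu with hu | hu
  · exact h.lo u hu
  · exact h.hi u hu

theorem Pf.osc_sm {A : ℝ → ℂ} {M : ℝ} (h : Pf A M) (T : ℝ) : ContDiff ℝ ∞ (osc T A) :=
  contDiff_osc h.sm (by norm_num : (0:ℝ) < 1/64) h.lo T

theorem Pf.osc_comp {A : ℝ → ℂ} {M : ℝ} (h : Pf A M) (T : ℝ) : HasCompactSupport (osc T A) :=
  hasCompactSupport_osc h.comp T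

/-- first derivative of the oscillating profile. -/
theorem deriv_osc {A : ℝ → ℂ} (hA : ContDiff ℝ ∞ A) (T : ℝ) {u : ℝ} (hu : 0 < u) :
    deriv (osc T A) u = osc T (fun u => deriv A u +
      A u * (((π * T / Real.sqrt u : ℝ) : ℂ) * Complex.I)) u := by
  have h1 : HasDerivAt A (deriv A u) u := ((hA.differentiable (by simp)) _).hasDerivAt
  have h2 := h1.mul (hasDerivAt_EE T hu)
  have h3 : osc T A = A * EE T := rfl
  rw [h3, h2.deriv]
  unfold osc
  ring

theorem deriv2_osc {A : ℝ → ℂ} (hA : ContDiff ℝ ∞ A) (T : ℝ) {u : ℝ} (hu : 0 < u) :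
    deriv (deriv (osc T A)) u = EE T u * (deriv (deriv A) u
      + 2 * deriv A u * (((π * T / Real.sqrt u : ℝ) : ℂ) * Complex.I)
      - A u * (((π * T / Real.sqrt u) ^ 2 : ℝ) : ℂ)
      - A u * (((π * T / Real.sqrt u / (2 * u) : ℝ) : ℂ) * Complex.I)) := by
  have h0 : deriv (osc T A) =ᶠ[𝓝 u] osc T (fun u => deriv A u +
      A u * (((π * T / Real.sqrt u : ℝ) : ℂ) * Complex.I)) := by
    filter_upwards [Ioi_mem_nhds hu] with v hv
    exact deriv_osc hA T hv
  rw [h0.deriv_eq]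
  have hA1 : ContDiff ℝ ∞ (deriv A) := (contDiff_infty_iff_deriv.mp hA).2
  have h1 : HasDerivAt A (deriv A u) u := ((hA.differentiable (by simp)) _).hasDerivAt
  have h1' : HasDerivAt (deriv A) (deriv (deriv A) u) u :=
    ((hA1.differentiable (by simp)) _).hasDerivAt
  have hs : 0 < Real.sqrt u := Real.sqrt_pos.mpr hu
  have hw : HasDerivAt (fun u => π * T / Real.sqrt u) (-(π * T / Real.sqrt u / (2 * u))) u := by
    have := (Real.hasDerivAt_sqrt hu.ne').inv hs.ne' |>.const_mul (π * T)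
    have e : (fun u => π * T / Real.sqrt u) = fun u => π * T * (Real.sqrt u)⁻¹ := by
      funext u; rw [div_eq_mul_inv]
    rw [e]
    refine this.congr_deriv ?_
    have e2 : Real.sqrt u ^ 2 = u := Real.sq_sqrt hu.le
    field_simp
    rw [e2]
  have h2 := h1'.add (h1.mul (hw.ofReal_comp.mul_const Complex.I))
  have h3 := h2.mul (hasDerivAt_EE T hu)
  have h4 : osc T (fun u => deriv A u + A u * (((π * T / Real.sqrt u : ℝ) : ℂ) * Complex.I))
      = (deriv A + A * fun u => (((π * T / Real.sqrt u : ℝ) : ℂ) * Complex.I)) * EE T := rfl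
  have h3d := h3.deriv
  rw [h4]
  refine Eq.trans ?_ (Eq.trans h3d ?_)
  · rfl
  · simp only [Pi.add_apply, Pi.mul_apply]
    have e1 : ((((π * T / Real.sqrt u) ^ 2 : ℝ) : ℂ))
        = ((π * T / Real.sqrt u : ℝ) : ℂ) * ((π * T / Real.sqrt u : ℝ) : ℂ) := by
      push_cast; ring
    rw [e1]
    set w : ℂ := ((π * T / Real.sqrt u : ℝ) : ℂ)
    push_cast
    have hI : Complex.I * Complex.I = -1 := Complex.I_mul_I
    linear_combination (A u * w * w * EE T u) * hI

/-- bound of the weighted symbol. -/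
theorem Pf.wS_le {A : ℝ → ℂ} {M : ℝ} (h : Pf A M) {T : ℝ} (hT : 0 ≤ T) (ξ : V) :
    ‖wS (h.osc_sm T) (h.osc_comp T) T ξ‖ ≤ 10 * M := by
  have hM := h.nonneg
  have hzero : ∀ u : ℝ, (u < 1 / 64 ∨ 64 < u) → osc T A u = 0 ∧ deriv (osc T A) u = 0 ∧
      deriv (deriv (osc T A)) u = 0 := by
    intro u hu
    have hev : osc T A =ᶠ[𝓝 u] fun _ => 0 := by
      rcases hu with hu | hu
      · filter_upwards [Iio_mem_nhds hu] with v hv
        unfold osc; rw [h.lo v hv, zero_mul]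
      · filter_upwards [Ioi_mem_nhds hu] with v hv
        unfold osc; rw [h.hi v hv, zero_mul]
    have hev1 : deriv (osc T A) =ᶠ[𝓝 u] fun _ => 0 := by
      have := hev.deriv
      simpa using this
    refine ⟨hev.eq_of_nhds, hev1.eq_of_nhds, ?_⟩
    have := hev1.deriv.eq_of_nhds
    simpa using this
  rw [wS_apply]
  by_cases hu : ‖ξ‖ ^ 2 < 1 / 64 ∨ 64 < ‖ξ‖ ^ 2
  · obtain ⟨h0, h1, h2⟩ := hzero _ hu
    rw [h0, h1, h2]
    simp
    exact hM
  · push Not at hu
    obtain ⟨hu1, hu2⟩ := hu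
    set u := ‖ξ‖ ^ 2 with hu
    have hu0 : 0 < u := by linarith
    have hs : 0 < Real.sqrt u := Real.sqrt_pos.mpr hu0
    rw [deriv_osc h.sm T hu0, deriv2_osc h.sm T hu0]
    unfold osc
    set w : ℝ := π * T / Real.sqrt u with hw
    have hw0 : 0 ≤ w := by positivity
    have huw2 : u * w ^ 2 = π ^ 2 * T ^ 2 := by
      rw [hw, div_pow, Real.sq_sqrt hu0.le]; field_simp
    have hsq1 : 1 / 8 ≤ Real.sqrt u := by
      apply Real.le_sqrt_of_sq_le; norm_num; linarith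
    have hsq2 : Real.sqrt u ≤ 8 := by
      rw [Real.sqrt_le_left (by norm_num)]; norm_num; exact hu2
    have hwle : w ≤ 8 * π * T := by
      rw [hw, div_le_iff₀ hs]
      have hpi := Real.pi_pos
      have : 0 ≤ π * T := by positivity
      nlinarith
    have huw : u * w ≤ 8 * π * T := by
      have e : u * w = π * T * Real.sqrt u := by
        rw [hw]
        have := Real.mul_self_sqrt hu0.le
        field_simp
        rw [sq, this]
        ring
      rw [e]
      have : 0 ≤ π * T := by positivity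
      nlinarith
    have huw0 : 0 ≤ u * w := by positivity
    have key : A u * EE T u + Complex.I * (((1 + T)⁻¹ : ℝ) : ℂ) *
      (-(((4 * π ^ 2)⁻¹ : ℝ) : ℂ) * (4 * ((u : ℝ) : ℂ) * (EE T u * (deriv (deriv A) u
      + 2 * deriv A u * (((w : ℝ) : ℂ) * Complex.I)
      - A u * (((w) ^ 2 : ℝ) : ℂ)
      - A u * (((w / (2 * u) : ℝ) : ℂ) * Complex.I)))
        + 6 * ((deriv A u + A u * (((w : ℝ) : ℂ) * Complex.I)) * EE T u))
        - ((T ^ 2 : ℝ) : ℂ) * (A u * EE T u))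
      = EE T u * (A u - Complex.I * (((1 + T)⁻¹ * (4 * π ^ 2)⁻¹ : ℝ) : ℂ) *
        (((4 * u : ℝ) : ℂ) * deriv (deriv A) u + ((8 * (u * w) : ℝ) : ℂ) * Complex.I * deriv A u
          + 6 * deriv A u + ((4 * w : ℝ) : ℂ) * Complex.I * A u)) := by
      have e1 : ((u * w ^ 2 : ℝ) : ℂ) = ((π ^ 2 * T ^ 2 : ℝ) : ℂ) := by rw [huw2]
      have e2 : (((4 * π ^ 2)⁻¹ : ℝ) : ℂ) * ((π ^ 2 : ℝ) : ℂ) * 4 = 1 := by
        rw [← Complex.ofReal_mul]
        have : ((4 * π ^ 2)⁻¹ * π ^ 2 : ℝ) = 1 / 4 := by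
          have := Real.pi_ne_zero
          field_simp
        rw [this]; norm_num
      have e3 : (((w / (2 * u) : ℝ) : ℂ)) * ((u : ℝ) : ℂ) = ((w : ℝ) : ℂ) / 2 := by
        rw [← Complex.ofReal_mul]
        have : w / (2 * u) * u = w / 2 := by field_simp
        rw [this]; push_cast; ring
      push_cast at e1 e2 e3 ⊢
      set P : ℂ := (4 * (π:ℂ) ^ 2)⁻¹
      set Q : ℂ := (1 + (T:ℂ))⁻¹
      linear_combination (4 * A u * EE T u * Complex.I * Q * P) * e1 +
        (Complex.I * Q * (T:ℂ) ^ 2 * A u * EE T u) * e2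
        + (4 * EE T u * A u * Complex.I * Q * P * Complex.I) * e3
    refine (le_of_eq (congrArg _ key)).trans ?_
    rw [norm_mul, norm_EE, one_mul]
    have h0 := h.b0 u
    have h1 := h.b1 u
    have h2 := h.b2 u
    have hpi : (9:ℝ) ≤ π ^ 2 := by nlinarith [Real.pi_gt_three]
    have hpi2 : π < 3.15 := Real.pi_lt_d2
    have hpi0 := Real.pi_pos
    have t1 : ‖((4 * u : ℝ) : ℂ) * deriv (deriv A) u‖ ≤ 256 * M := by
      rw [norm_mul, Complex.norm_real, Real.norm_of_nonneg (by positivity)]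
      calc 4 * u * ‖deriv (deriv A) u‖ ≤ 4 * 64 * M := by gcongr
        _ = _ := by ring
    have t2 : ‖((8 * (u * w) : ℝ) : ℂ) * Complex.I * deriv A u‖ ≤ 64 * π * T * M := by
      rw [norm_mul, norm_mul, Complex.norm_real, Real.norm_of_nonneg (by positivity),
        Complex.norm_I, mul_one]
      calc 8 * (u * w) * ‖deriv A u‖ ≤ 8 * (8 * π * T) * M := by gcongr
        _ = _ := by ring
    have t3 : ‖6 * deriv A u‖ ≤ 6 * M := by
      rw [norm_mul]
      simp
      exact h1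
    have t4 : ‖((4 * w : ℝ) : ℂ) * Complex.I * A u‖ ≤ 32 * π * T * M := by
      rw [norm_mul, norm_mul, Complex.norm_real, Real.norm_of_nonneg (by positivity),
        Complex.norm_I, mul_one]
      calc 4 * w * ‖A u‖ ≤ 4 * (8 * π * T) * M := by gcongr
        _ = _ := by ring
    have t5 : ‖((4 * u : ℝ) : ℂ) * deriv (deriv A) u + ((8 * (u * w) : ℝ) : ℂ) * Complex.I *
        deriv A u + 6 * deriv A u + ((4 * w : ℝ) : ℂ) * Complex.I * A u‖
        ≤ 324 * (1 + T) * M := by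
      refine (norm_add_le _ _).trans ?_
      refine (add_le_add_left (norm_add_le _ _) _).trans ?_
      refine (add_le_add_left (add_le_add_left (norm_add_le _ _) _) _).trans ?_
      have hTM : 0 ≤ T * M := by positivity
      nlinarith
    have t6 : ‖Complex.I * (((1 + T)⁻¹ * (4 * π ^ 2)⁻¹ : ℝ) : ℂ) *
        (((4 * u : ℝ) : ℂ) * deriv (deriv A) u + ((8 * (u * w) : ℝ) : ℂ) * Complex.I * deriv A u
          + 6 * deriv A u + ((4 * w : ℝ) : ℂ) * Complex.I * A u)‖ ≤ 9 * M := by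
      rw [norm_mul, norm_mul, Complex.norm_I, one_mul, Complex.norm_real,
        Real.norm_of_nonneg (by positivity)]
      calc (1 + T)⁻¹ * (4 * π ^ 2)⁻¹ * ‖((4 * u : ℝ) : ℂ) * deriv (deriv A) u +
            ((8 * (u * w) : ℝ) : ℂ) * Complex.I * deriv A u
            + 6 * deriv A u + ((4 * w : ℝ) : ℂ) * Complex.I * A u‖
          ≤ (1 + T)⁻¹ * (4 * 9)⁻¹ * (324 * (1 + T) * M) := by gcongr
        _ = 9 * M := by field_simp; norm_num
    refine (norm_sub_le _ _).trans ?_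
    linarith

/-- **radial kernel bound**. -/
theorem Pf.L1 {A : ℝ → ℂ} {M : ℝ} (h : Pf A M) {T : ℝ} (hT : 0 ≤ T) :
    ∫⁻ x, ‖𝓕⁻ (rs (osc T A)) x‖ₑ ≤ ENNReal.ofReal (10000 * (1 + T) * M) := by
  have hM := h.nonneg
  have := L1_of_wS (h.osc_sm T) (h.osc_comp T) hT (by positivity : 0 ≤ 10 * M)
    (fun ξ => h.wS_le hT ξ) (by
      intro ξ hξ
      have hev : osc T A =ᶠ[𝓝 (‖ξ‖ ^ 2)] fun _ => 0 := by
        filter_upwards [Ioi_mem_nhds hξ] with v hv
        unfold osc; rw [h.hi v hv, zero_mul]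
      have hev1 : deriv (osc T A) =ᶠ[𝓝 (‖ξ‖ ^ 2)] fun _ => 0 := by
        have := hev.deriv
        simpa using this
      have hev2 := hev1.deriv.eq_of_nhds
      rw [wS_apply, hev.eq_of_nhds, hev1.eq_of_nhds, hev2]
      simp)
  refine this.trans (le_of_eq ?_)
  congr 1
  ring

end Crest.Agent.R116.Sh927
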