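import Crest.Agent.R116.Wk3_927

/-!
R116, outer shell (4): scaling of kernels and the `L²` bound of convolution with the inverse
transform of a Schwartz symbol, on bounded functions.
-/

set_option autoImplicit false

open MeasureTheory FourierTransform LineDeriv Set Filter
open scoped ContDiff Real SchwartzMap ENNReal Convolution Topology

namespace Crest.Agent.R116.Sh927

open Crest.Agent.R138.Fr665 (cv)
open Crest.Agent.R138.Sh200

theorem fourierInv_dil (m : V → ℂ) {R : ℝ} (hR : 0 < R) (x : V) :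
    𝓕⁻ (fun ξ : V => m (R⁻¹ • ξ)) x = ((R ^ 3 : ℝ) : ℂ) * 𝓕⁻ m (R • x) := by
  rw [Real.fourierInv_eq, Real.fourierInv_eq]
  have h := Measure.integral_comp_inv_smul_of_nonneg (volume : Measure V)
    (fun η : V => (𝐞 (inner ℝ η (R • x))) • m η) hR.le
  rw [finrank_euclideanSpace_fin] at h
  have e : (∫ ξ : V, (𝐞 (inner ℝ ξ x)) • m (R⁻¹ • ξ))
      = ∫ ξ : V, (𝐞 (inner ℝ (R⁻¹ • ξ) (R • x))) • m (R⁻¹ • ξ) := by
    congr 1
    funext ξ
    rw [inner_smul_left, inner_smul_right]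
    simp only [RCLike.conj_to_real]
    rw [← mul_assoc, inv_mul_cancel₀ hR.ne', one_mul]
  rw [e, h, Complex.real_smul]

theorem lint_dil (m : V → ℂ) {R : ℝ} (hR : 0 < R) :
    ∫⁻ x, ‖𝓕⁻ (fun ξ : V => m (R⁻¹ • ξ)) x‖ₑ = ∫⁻ x, ‖𝓕⁻ m x‖ₑ := by
  simp_rw [fourierInv_dil m hR, enorm_mul]
  rw [lintegral_const_mul' _ _ (by simp)]
  have h1 : ∫⁻ x : V, ‖𝓕⁻ m (R • x)‖ₑ = ENNReal.ofReal (R ^ 3)⁻¹ * ∫⁻ x, ‖𝓕⁻ m x‖ₑ := by
    have h2 := Measure.map_addHaar_smul (volume : Measure V) hR.ne'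
    rw [finrank_euclideanSpace_fin, abs_of_pos (by positivity)] at h2
    have h3 : ∫⁻ x, ‖𝓕⁻ m x‖ₑ ∂(Measure.map (R • · : V → V) volume)
        = ∫⁻ x : V, ‖𝓕⁻ m (R • x)‖ₑ := by
      have := lintegral_map_equiv (μ := (volume : Measure V)) (fun x => ‖𝓕⁻ m x‖ₑ)
        (Homeomorph.smulOfNeZero R hR.ne').toMeasurableEquiv
      simpa using this
    rw [← h3, h2, lintegral_smul_measure, smul_eq_mul]
  rw [h1, ← mul_assoc]
  have h4 : ‖((R ^ 3 : ℝ) : ℂ)‖ₑ = ENNReal.ofReal (R ^ 3) := by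
    rw [← ofReal_norm, Complex.norm_real, Real.norm_of_nonneg (by positivity)]
  rw [h4, ← ENNReal.ofReal_mul (by positivity), mul_inv_cancel₀ (by positivity),
    ENNReal.ofReal_one, one_mul]

section symbol

variable (m : 𝓢(V, ℂ))

/-- the kernel of a Schwartz symbol. -/
noncomputable def ker : V → ℂ := 𝓕⁻ (m : V → ℂ)

theorem ker_coe : ker m = ((𝓕⁻ m : 𝓢(V, ℂ)) : V → ℂ) := by
  unfold ker
  rw [SchwartzMap.fourierInv_coe]

theorem integrable_ker : Integrable (ker m) := by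
  rw [ker_coe]; exact (𝓕⁻ m).integrable

theorem continuous_ker : Continuous (ker m) := by
  rw [ker_coe]; exact (𝓕⁻ m).continuous

theorem measurable_ker : Measurable (ker m) := (continuous_ker m).measurable

theorem cv_ker_schwartz (g : 𝓢(V, ℂ)) (x : V) :
    cv (ker m) g x = (𝓕⁻ (SchwartzMap.pairing (ContinuousLinearMap.mul ℂ ℂ) m (𝓕 g))) x := by
  have h0 : SchwartzMap.convolution (ContinuousLinearMap.mul ℂ ℂ) (𝓕⁻ m) g x
      = cv (ker m) g x := by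
    rw [SchwartzMap.convolution_apply, convolution_eq_swap]
    unfold Crest.Agent.R138.Fr665.cv
    rw [ker_coe]
    rfl
  rw [← h0]
  have h1 : SchwartzMap.convolution (ContinuousLinearMap.mul ℂ ℂ) (𝓕⁻ m) g
      = 𝓕⁻ (SchwartzMap.pairing (ContinuousLinearMap.mul ℂ ℂ) m (𝓕 g)) := by
    have h2 : 𝓕 (𝓕⁻ m) = m := FourierTransform.fourier_fourierInv_eq _
    nth_rw 2 [← h2]
    rfl
  rw [h1]

theorem cv_ker_apply (g : 𝓢(V, ℂ)) (x : V) :
    cv (ker m) g x = 𝓕⁻ (fun ξ => m ξ * 𝓕 (g : V → ℂ) ξ) x := by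
  rw [cv_ker_schwartz, SchwartzMap.fourierInv_coe]
  rfl

variable {m}

theorem l2_ker_schwartz {C : ℝ} (hC0 : 0 ≤ C) (hC : ∀ ξ, ‖m ξ‖ ≤ C) (g : 𝓢(V, ℂ)) :
    ∫⁻ x, ENNReal.ofReal (‖cv (ker m) g x‖ ^ 2)
      ≤ ENNReal.ofReal (C ^ 2) * ∫⁻ x, ENNReal.ofReal (‖g x‖ ^ 2) := by
  set P := SchwartzMap.pairing (ContinuousLinearMap.mul ℂ ℂ) m (𝓕 g) with hP
  have h1 : ∀ x, cv (ker m) g x = (𝓕⁻ P) x := fun x => cv_ker_schwartz m g x
  simp_rw [h1]
  rw [lint_sq_fourierInv]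
  have h2 : ∫⁻ x, ENNReal.ofReal (‖(𝓕 g) x‖ ^ 2) = ∫⁻ x, ENNReal.ofReal (‖g x‖ ^ 2) := by
    rw [← lint_sq_fourierInv, FourierTransform.fourierInv_fourier_eq]
  rw [← h2, ← lintegral_const_mul' _ _ ENNReal.ofReal_ne_top]
  refine lintegral_mono fun x => ?_
  rw [← ENNReal.ofReal_mul (by positivity)]
  apply ENNReal.ofReal_le_ofReal
  have h3 : P x = m x * (𝓕 g) x := rfl
  rw [h3, norm_mul, mul_pow]
  gcongr
  exact hC _

theorem l2_ker_schwartz' {C : ℝ} (hC0 : 0 ≤ C) (hC : ∀ ξ, ‖m ξ‖ ≤ C) (g : 𝓢(V, ℂ)) :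
    eLpNorm (cv (ker m) g) 2 volume ≤ ENNReal.ofReal C * eLpNorm g 2 volume := by
  have h1 := l2_ker_schwartz hC0 hC g
  have e : ∀ h : V → ℂ, ∫⁻ x, ENNReal.ofReal (‖h x‖ ^ 2) = (eLpNorm h 2 volume) ^ (2:ℝ) := by
    intro h
    have := lint_eq_eLpNorm (p := 2) two_pos h
    rw [ENNReal.ofReal_ofNat] at this
    rw [← this]
    refine lintegral_congr fun x => ?_
    norm_num
  rw [e, e, show ENNReal.ofReal (C ^ 2) = (ENNReal.ofReal C) ^ (2:ℝ) by
    rw [ENNReal.ofReal_rpow_of_nonneg hC0 (by norm_num)]; norm_num,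
    ← ENNReal.mul_rpow_of_nonneg _ _ (by norm_num)] at h1
  exact (ENNReal.rpow_le_rpow_iff (by norm_num : (0:ℝ) < 2)).mp h1

/-- `L²` bound on bounded square integrable functions. -/
theorem l2_ker {C : ℝ} (hC0 : 0 ≤ C) (hC : ∀ ξ, ‖m ξ‖ ≤ C) {f : V → ℂ} (hf : BM f)
    (hf2 : MemLp f 2 volume) :
    eLpNorm (cv (ker m) f) 2 volume ≤ ENNReal.ofReal C * eLpNorm f 2 volume := by
  have hKi := integrable_ker m
  have hKm : Measurable (ker m) := measurable_ker m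
  have hK2 : eLpNorm (ker m) 2 volume ≠ ⊤ := by
    rw [ker_coe]
    exact ((𝓕⁻ m).eLpNorm_lt_top 2 volume).ne
  have hex : ∀ n : ℕ, ∃ G : V → ℂ, BM G ∧ eLpNorm (f - G) 2 volume
      ≤ ENNReal.ofReal (1 / ((n:ℝ) + 1)) ∧
      eLpNorm (cv (ker m) G) 2 volume ≤ ENNReal.ofReal C * eLpNorm G 2 volume := by
    intro n
    obtain ⟨g, hg1, hg2, hg3⟩ := MemLp.exist_eLpNorm_sub_le (p := 2) (by norm_num) (by norm_num) hf2
      (ε := 1 / ((n:ℝ) + 1)) (by positivity)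
    obtain ⟨B, hB⟩ := hg2.continuous.bounded_above_of_compact_support hg1
    exact ⟨g, ⟨hg2.continuous.measurable, B, hB⟩, hg3,
      l2_ker_schwartz' hC0 hC (hg1.toSchwartzMap hg2)⟩
  choose g hbg hg hg2 using hex
  have hlim0 : Tendsto (fun n : ℕ => ENNReal.ofReal (1 / ((n:ℝ) + 1))) atTop (𝓝 0) := by
    have := ENNReal.tendsto_ofReal tendsto_one_div_add_atTop_nhds_zero_nat
    simpa using this
  have hpt : ∀ x, Tendsto (fun n => cv (ker m) (g n) x) atTop (𝓝 (cv (ker m) f x)) := by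
    intro x
    rw [tendsto_iff_edist_tendsto_0]
    have h1 : Tendsto (fun n : ℕ => eLpNorm (ker m) 2 volume * ENNReal.ofReal (1 / ((n:ℝ) + 1)))
        atTop (𝓝 0) := by
      have := ENNReal.Tendsto.const_mul hlim0 (Or.inr hK2)
      simpa using this
    refine tendsto_of_tendsto_of_tendsto_of_le_of_le tendsto_const_nhds h1 (fun n => bot_le)
      (fun n => ?_)
    rw [edist_comm, edist_eq_enorm_sub]
    refine (enorm_cv_sub_le hKm hf.meas (hbg n).meas (fun x => integrable_cv hKi hf x)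
      (fun x => integrable_cv hKi (hbg n) x) x).trans ?_
    gcongr
    exact hg n
  have h1 := Lp.eLpNorm_lim_le_liminf_eLpNorm (μ := (volume : Measure V)) (p := 2)
    (f := fun n => cv (ker m) (g n))
    (fun n => (measurable_cv hKm (hbg n).meas).aestronglyMeasurable) (cv (ker m) f)
    (Filter.Eventually.of_forall hpt)
  refine h1.trans ?_
  have h2 : ∀ n, eLpNorm (cv (ker m) (g n)) 2 volume
      ≤ ENNReal.ofReal C * (eLpNorm f 2 volume + ENNReal.ofReal (1 / ((n:ℝ) + 1))) := by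
    intro n
    refine (hg2 n).trans ?_
    gcongr
    calc eLpNorm (g n) 2 volume = eLpNorm (f - (f - g n)) 2 volume := by
          congr 1; funext x; simp
      _ ≤ eLpNorm f 2 volume + eLpNorm (f - g n) 2 volume :=
          eLpNorm_sub_le hf.meas.aestronglyMeasurable
            (hf.meas.sub (hbg n).meas).aestronglyMeasurable (by norm_num)
      _ ≤ _ := by gcongr; exact hg n
  have h3 : Tendsto (fun n : ℕ => ENNReal.ofReal C *
      (eLpNorm f 2 volume + ENNReal.ofReal (1 / ((n:ℝ) + 1)))) atTop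
      (𝓝 (ENNReal.ofReal C * eLpNorm f 2 volume)) := by
    have h4 := (tendsto_const_nhds (x := eLpNorm f 2 (volume : Measure V))).add hlim0
    rw [add_zero] at h4
    exact ENNReal.Tendsto.const_mul h4 (Or.inr ENNReal.ofReal_ne_top)
  rw [← h3.liminf_eq]
  exact liminf_le_liminf (Filter.Eventually.of_forall h2)

theorem lint2_ker {C : ℝ} (hC0 : 0 < C) (hC : ∀ ξ, ‖m ξ‖ ≤ C) {f : V → ℂ} (hf : BM f) :
    ∫⁻ x, ENNReal.ofReal (‖cv (ker m) f x‖ ^ (2:ℝ))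
      ≤ ENNReal.ofReal (C ^ (2:ℝ)) * ∫⁻ x, ENNReal.ofReal (‖f x‖ ^ (2:ℝ)) := by
  have e : ∀ h : V → ℂ, ∫⁻ x, ENNReal.ofReal (‖h x‖ ^ (2:ℝ)) = (eLpNorm h 2 volume) ^ (2:ℝ) := by
    intro h
    have := lint_eq_eLpNorm (p := 2) two_pos h
    rwa [ENNReal.ofReal_ofNat] at this
  rw [e, e]
  by_cases htop : eLpNorm f 2 volume = ⊤
  · rw [htop, ENNReal.top_rpow_of_pos (by norm_num), ENNReal.mul_top]
    · exact le_top
    · rw [Ne, ENNReal.ofReal_eq_zero, not_le]; positivity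
  · have h1 := l2_ker hC0.le hC hf ⟨hf.meas.aestronglyMeasurable, lt_top_iff_ne_top.mpr htop⟩
    rw [← ENNReal.ofReal_rpow_of_nonneg hC0.le (by norm_num),
      ← ENNReal.mul_rpow_of_nonneg _ _ (by norm_num)]
    exact ENNReal.rpow_le_rpow h1 (by norm_num)

end symbol

end Crest.Agent.R116.Sh927
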