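import Crest.Agent.R116.Wk4_927

/-!
R116, outer shell (5): the cut-off, the half-wave kernel at scale `R`, its `L¹` bound and joint
continuity.
-/

set_option autoImplicit false

open MeasureTheory FourierTransform LineDeriv Set Filter
open scoped ContDiff Real SchwartzMap ENNReal Convolution Topology

namespace Crest.Agent.R116.Sh927

open Crest.Agent.R138.Fr665 (cv)
open Crest.Agent.R138.Sh200

/-- the dyadic cut-off as a function of `u = r²`, supported in `[1/4, 2]`. -/
noncomputable def chi (u : ℝ) : ℝ := bet u - bet (4 * u)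

theorem contDiff_chi : ContDiff ℝ ∞ chi := by
  unfold chi
  exact contDiff_bet.sub (contDiff_bet.comp (contDiff_const.mul contDiff_id))

theorem chi_lo {u : ℝ} (h : u < 1 / 4) : chi u = 0 := by
  unfold chi; rw [bet_one (by linarith), bet_one (by linarith), sub_self]

theorem chi_hi {u : ℝ} (h : 2 < u) : chi u = 0 := by
  unfold chi; rw [bet_zero (by linarith), bet_zero (by linarith), sub_self]

theorem abs_chi_le (u : ℝ) : |chi u| ≤ 1 := by
  unfold chi
  have h1 := bet_nonneg u
  have h2 := bet_le_one u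
  have h3 := bet_nonneg (4 * u)
  have h4 := bet_le_one (4 * u)
  rw [abs_le]; constructor <;> linarith

/-- the cut-off as a function of `r`. -/
noncomputable def phi0 (r : ℝ) : ℝ := if r < 0 then 0 else chi (r ^ 2)

theorem phi0_of_nonneg {r : ℝ} (h : 0 ≤ r) : phi0 r = chi (r ^ 2) := if_neg (not_lt.mpr h)

theorem phi0_lo (r : ℝ) (h : r < 1 / 2) : phi0 r = 0 := by
  unfold phi0
  split_ifs with h0
  · rfl
  · push Not at h0
    exact chi_lo (by nlinarith)

theorem phi0_hi (r : ℝ) (h : 2 < r) : phi0 r = 0 := by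
  unfold phi0
  split_ifs with h0
  · rfl
  · exact chi_hi (by nlinarith)

theorem contDiff_phi0 : ContDiff ℝ ∞ phi0 := by
  rw [contDiff_iff_contDiffAt]
  intro r
  by_cases h : r < 1 / 2
  · have : phi0 =ᶠ[𝓝 r] fun _ => 0 := by
      filter_upwards [Iio_mem_nhds h] with v hv
      exact phi0_lo v hv
    exact contDiffAt_const.congr_of_eventuallyEq this
  · push Not at h
    have : phi0 =ᶠ[𝓝 r] fun r => chi (r ^ 2) := by
      filter_upwards [Ioi_mem_nhds (show (0:ℝ) < r by linarith)] with v hv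
      exact phi0_of_nonneg (le_of_lt hv)
    exact (contDiff_chi.comp (contDiff_id.pow 2)).contDiffAt.congr_of_eventuallyEq this

/-- the complex cut-off at scale `R`. -/
noncomputable def AR (R : ℝ) (u : ℝ) : ℂ := ((chi (u / R ^ 2) : ℝ) : ℂ)

theorem contDiff_AR (R : ℝ) : ContDiff ℝ ∞ (AR R) := by
  unfold AR
  exact Complex.ofRealCLM.contDiff.comp (contDiff_chi.comp (contDiff_id.div_const _))

theorem AR_lo {R : ℝ} (hR : 0 < R) (u : ℝ) (h : u < R ^ 2 / 4) : AR R u = 0 := by
  unfold AR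
  rw [chi_lo]; · simp
  rw [div_lt_iff₀ (by positivity)]; linarith

theorem AR_hi {R : ℝ} (hR : 0 < R) (u : ℝ) (h : 2 * R ^ 2 < u) : AR R u = 0 := by
  unfold AR
  rw [chi_hi]; · simp
  rw [lt_div_iff₀ (by positivity)]; linarith

theorem comp_AR {R : ℝ} (hR : 0 < R) : HasCompactSupport (AR R) := by
  refine HasCompactSupport.intro (isCompact_Icc (a := R ^ 2 / 4) (b := 2 * R ^ 2)) fun u hu => ?_
  rw [mem_Icc, not_and_or, not_le, not_le] at hu
  rcases hu with hu | hu
  · exact AR_lo hR u hu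
  · exact AR_hi hR u hu

/-- a smooth profile with the right support is a `Pf`. -/
theorem exists_Pf {A : ℝ → ℂ} (hA : ContDiff ℝ ∞ A) (lo : ∀ u, u < 1 / 64 → A u = 0)
    (hi : ∀ u, 64 < u → A u = 0) : ∃ M : ℝ, Pf A M := by
  have hc : HasCompactSupport A := by
    refine HasCompactSupport.intro (isCompact_Icc (a := (1/64:ℝ)) (b := 64)) fun u hu => ?_
    rw [mem_Icc, not_and_or, not_le, not_le] at hu
    rcases hu with hu | hu
    · exact lo u hu
    · exact hi u hu
  have hA1 : ContDiff ℝ ∞ (deriv A) := (contDiff_infty_iff_deriv.mp hA).2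
  have hA2 : ContDiff ℝ ∞ (deriv (deriv A)) := (contDiff_infty_iff_deriv.mp hA1).2
  obtain ⟨C0, h0⟩ := hA.continuous.bounded_above_of_compact_support hc
  obtain ⟨C1, h1⟩ := hA1.continuous.bounded_above_of_compact_support hc.deriv
  obtain ⟨C2, h2⟩ := hA2.continuous.bounded_above_of_compact_support hc.deriv.deriv
  exact ⟨max C0 (max C1 C2), hA, lo, hi, fun u => (h0 u).trans (le_max_left _ _),
    fun u => (h1 u).trans ((le_max_left _ _).trans (le_max_right _ _)),
    fun u => (h2 u).trans ((le_max_right _ _).trans (le_max_right _ _))⟩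

/-- the half-wave symbol as a Schwartz function. -/
noncomputable def mT {R : ℝ} (hR : 0 < R) (t : ℝ) : 𝓢(V, ℂ) :=
  rS (contDiff_osc (contDiff_AR R) (by positivity : 0 < R ^ 2 / 4) (AR_lo hR) t)
    (hasCompactSupport_osc (comp_AR hR) t)

theorem mT_apply {R : ℝ} (hR : 0 < R) (t : ℝ) (ξ : V) : mT hR t ξ = mW phi0 R t ξ := by
  unfold mT
  rw [rS_apply]
  unfold osc AR EE mW
  rw [phi0_of_nonneg (by positivity), Real.sqrt_sq (norm_nonneg _), div_pow]

theorem mT_coe {R : ℝ} (hR : 0 < R) (t : ℝ) : (mT hR t : V → ℂ) = mW phi0 R t :=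
  funext fun ξ => mT_apply hR t ξ

theorem ker_mT {R : ℝ} (hR : 0 < R) (t : ℝ) : ker (mT hR t) = KW phi0 R t := by
  unfold ker KW
  rw [mT_coe]

theorem norm_mT_le {R : ℝ} (hR : 0 < R) (t : ℝ) (ξ : V) : ‖mT hR t ξ‖ ≤ 1 := by
  unfold mT
  rw [rS_apply]
  unfold osc AR
  rw [norm_mul, norm_EE, mul_one, Complex.norm_real]
  exact abs_chi_le _

/-- `‖KW‖₁ ≤ C R`. -/
theorem kernel_L1 : ∃ A : ℝ, 0 < A ∧ ∀ R t : ℝ, 1 ≤ R → 0 ≤ t → t ≤ 2 →
    ∫⁻ x, ‖KW phi0 R t x‖ₑ ≤ ENNReal.ofReal (A * R) := by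
  obtain ⟨M, hM⟩ := exists_Pf (contDiff_AR 1)
    (fun u hu => AR_lo one_pos u (by norm_num; linarith))
    (fun u hu => AR_hi one_pos u (by norm_num; linarith))
  refine ⟨30000 * M + 1, by have := hM.nonneg; positivity, fun R t hR ht0 ht2 => ?_⟩
  have hR0 : 0 < R := by linarith
  have e : mW phi0 R t = fun ξ : V => rs (osc (t * R) (AR 1)) (R⁻¹ • ξ) := by
    funext ξ
    unfold rs osc AR EE mW
    rw [phi0_of_nonneg (by positivity), norm_smul, norm_inv, Real.norm_of_nonneg hR0.le,
      Real.sqrt_sq (by positivity)]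
    congr 3
    · congr 1
      field_simp
    · field_simp
  unfold KW
  rw [e, lint_dil _ hR0]
  refine (hM.L1 (by positivity)).trans (ENNReal.ofReal_le_ofReal ?_)
  have hM0 := hM.nonneg
  have : 1 + t * R ≤ 3 * R := by nlinarith
  calc 10000 * (1 + t * R) * M ≤ 10000 * (3 * R) * M := by gcongr
    _ ≤ _ := by nlinarith

/-- joint continuity of the inverse transform of a family of symbols. -/
theorem continuous_fam {σ : ℝ → V → ℂ} {b : V → ℝ} (hb : Integrable b)
    (hm : ∀ t, AEStronglyMeasurable (σ t) volume) (hle : ∀ t ξ, ‖σ t ξ‖ ≤ b ξ)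
    (hc : ∀ ξ, Continuous fun t => σ t ξ) :
    Continuous fun z : V × ℝ => 𝓕⁻ (σ z.2) z.1 := by
  simp_rw [Real.fourierInv_eq]
  refine continuous_of_dominated (bound := b) ?_ ?_ hb ?_
  · intro z
    have h2 : Continuous fun ξ : V => (𝐞 (inner ℝ ξ z.1)) := by
      have := Real.continuous_fourierChar
      fun_prop
    exact h2.aestronglyMeasurable.smul (hm z.2)
  · intro z
    refine Filter.Eventually.of_forall fun ξ => ?_
    rw [Circle.norm_smul]
    exact hle _ _
  · refine Filter.Eventually.of_forall fun ξ => ?_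
    have h2 : Continuous fun z : V × ℝ => (𝐞 (inner ℝ ξ z.1)) := by
      have := Real.continuous_fourierChar
      fun_prop
    exact h2.smul ((hc ξ).comp continuous_snd)

theorem continuous_mW (R t : ℝ) : Continuous (mW phi0 R t) := by
  unfold mW
  have h1 := contDiff_phi0.continuous
  fun_prop

theorem continuous_KW {R : ℝ} (hR : 0 < R) : Continuous fun z : V × ℝ => KW phi0 R z.2 z.1 := by
  unfold KW
  have hI : Integrable fun ξ : V => ‖mT hR 0 ξ‖ := (mT hR 0).integrable.norm
  refine continuous_fam hI (fun t => (continuous_mW R t).aestronglyMeasurable) (fun t ξ => ?_)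
    (fun ξ => ?_)
  · rw [mT_apply]
    unfold mW
    rw [norm_mul, norm_mul, Complex.norm_exp_ofReal_mul_I, Complex.norm_exp_ofReal_mul_I]
  · unfold mW
    fun_prop

end Crest.Agent.R116.Sh927
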