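import Crest.Agent.R116.Wk6_927

/-!
R116, outer shell (7): products of profiles, the Bessel–Littlewood–Paley profiles and the low
frequency profiles.
-/

set_option autoImplicit false

open MeasureTheory FourierTransform LineDeriv Set Filter
open scoped ContDiff Real SchwartzMap ENNReal Convolution Topology

namespace Crest.Agent.R116.Sh927

open Crest.Agent.R138.Fr665 (cv)
open Crest.Agent.R138.Sh200

/-- product of a profile with a function that is smooth on `(0, ∞)`. -/
theorem Pf.mul {A : ℝ → ℂ} {M : ℝ} (hA : Pf A M) {g : ℝ → ℂ}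
    (hg : ∀ u, 0 < u → ContDiffAt ℝ ∞ g u) {N : ℝ}
    (h0 : ∀ u, 1 / 64 ≤ u → u ≤ 64 → ‖g u‖ ≤ N)
    (h1 : ∀ u, 1 / 64 ≤ u → u ≤ 64 → ‖deriv g u‖ ≤ N)
    (h2 : ∀ u, 1 / 64 ≤ u → u ≤ 64 → ‖deriv (deriv g) u‖ ≤ N) :
    Pf (fun u => A u * g u) (4 * M * N) := by
  have hM := hA.nonneg
  have hN : 0 ≤ N := (norm_nonneg _).trans (h0 1 (by norm_num) (by norm_num))
  have hA1 : ContDiff ℝ ∞ (deriv A) := (contDiff_infty_iff_deriv.mp hA.sm).2
  have ev0 : ∀ u : ℝ, (u < 1 / 64 ∨ 64 < u) → (fun u => A u * g u) =ᶠ[𝓝 u] fun _ => 0 := by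
    intro u hu
    rcases hu with hu | hu
    · filter_upwards [Iio_mem_nhds hu] with v hv
      rw [hA.lo v hv, zero_mul]
    · filter_upwards [Ioi_mem_nhds hu] with v hv
      rw [hA.hi v hv, zero_mul]
  have ev1 : ∀ u : ℝ, (u < 1 / 64 ∨ 64 < u) → deriv (fun u => A u * g u) =ᶠ[𝓝 u] fun _ => 0 := by
    intro u hu
    simpa using (ev0 u hu).deriv
  have d1 : ∀ u : ℝ, 0 < u → deriv (fun u => A u * g u) u = deriv A u * g u + A u * deriv g u := by
    intro u hu
    have e1 : HasDerivAt A (deriv A u) u := ((hA.sm.differentiable (by simp)) _).hasDerivAt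
    have e2 : HasDerivAt g (deriv g u) u := ((hg u hu).differentiableAt (by simp)).hasDerivAt
    exact (e1.mul e2).deriv
  have d2 : ∀ u : ℝ, 0 < u → deriv (deriv (fun u => A u * g u)) u =
      deriv (deriv A) u * g u + deriv A u * deriv g u
        + (deriv A u * deriv g u + A u * deriv (deriv g) u) := by
    intro u hu
    have hev : deriv (fun u => A u * g u) =ᶠ[𝓝 u] fun u => deriv A u * g u + A u * deriv g u := by
      filter_upwards [Ioi_mem_nhds hu] with v hv
      exact d1 v hv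
    rw [hev.deriv_eq]
    have e1 : HasDerivAt A (deriv A u) u := ((hA.sm.differentiable (by simp)) _).hasDerivAt
    have e1' : HasDerivAt (deriv A) (deriv (deriv A) u) u :=
      ((hA1.differentiable (by simp)) _).hasDerivAt
    have e2 : HasDerivAt g (deriv g u) u := ((hg u hu).differentiableAt (by simp)).hasDerivAt
    have e2' : HasDerivAt (deriv g) (deriv (deriv g) u) u := by
      have h3 : ContDiffAt ℝ 1 (deriv g) u :=
        (hg u hu).derivWithin (m := 1) (by norm_cast)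
      exact (h3.differentiableAt (by simp)).hasDerivAt
    exact ((e1'.mul e2).add (e1.mul e2')).deriv
  refine ⟨?_, ?_, ?_, ?_, ?_, ?_⟩
  · rw [contDiff_iff_contDiffAt]
    intro u
    by_cases hu : u < 1 / 64
    · exact contDiffAt_const.congr_of_eventuallyEq (ev0 u (Or.inl hu))
    · push Not at hu
      exact hA.sm.contDiffAt.mul (hg u (by linarith))
  · intro u hu; rw [hA.lo u hu, zero_mul]
  · intro u hu; rw [hA.hi u hu, zero_mul]
  · intro u
    by_cases hu : u < 1 / 64 ∨ 64 < u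
    · rw [(ev0 u hu).eq_of_nhds]; simp; positivity
    · push Not at hu
      rw [norm_mul]
      calc ‖A u‖ * ‖g u‖ ≤ M * N := by
            gcongr
            · exact hA.b0 u
            · exact h0 u hu.1 hu.2
        _ ≤ _ := by nlinarith [mul_nonneg hM hN]
  · intro u
    by_cases hu : u < 1 / 64 ∨ 64 < u
    · rw [(ev1 u hu).eq_of_nhds]; simp; positivity
    · push Not at hu
      rw [d1 u (by linarith)]
      have e1 : ‖deriv A u * g u‖ ≤ M * N := by
        rw [norm_mul]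
        gcongr
        · exact hA.b1 u
        · exact h0 u hu.1 hu.2
      have e2 : ‖A u * deriv g u‖ ≤ M * N := by
        rw [norm_mul]
        gcongr
        · exact hA.b0 u
        · exact h1 u hu.1 hu.2
      refine (norm_add_le _ _).trans ?_
      nlinarith [mul_nonneg hM hN]
  · intro u
    by_cases hu : u < 1 / 64 ∨ 64 < u
    · have := (ev1 u hu).deriv.eq_of_nhds
      rw [this]; simp; positivity
    · push Not at hu
      rw [d2 u (by linarith)]
      have e1 : ‖deriv (deriv A) u * g u‖ ≤ M * N := by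
        rw [norm_mul]
        gcongr
        · exact hA.b2 u
        · exact h0 u hu.1 hu.2
      have e2 : ‖deriv A u * deriv g u‖ ≤ M * N := by
        rw [norm_mul]
        gcongr
        · exact hA.b1 u
        · exact h1 u hu.1 hu.2
      have e3 : ‖A u * deriv (deriv g) u‖ ≤ M * N := by
        rw [norm_mul]
        gcongr
        · exact hA.b0 u
        · exact h2 u hu.1 hu.2
      refine (norm_add_le _ _).trans ((add_le_add (norm_add_le _ _) (norm_add_le _ _)).trans ?_)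
      linarith

/-- the Bessel factor. -/
noncomputable def gB (β s : ℝ) (u : ℝ) : ℂ := (((s + 4 * π ^ 2 * u) ^ (-β) : ℝ) : ℂ)

theorem base_lb {s u : ℝ} (hs : 0 ≤ s) (hu : 1 / 64 ≤ u) : 1 / 2 ≤ s + 4 * π ^ 2 * u := by
  have h9 : (9:ℝ) ≤ π ^ 2 := by nlinarith [Real.pi_gt_three]
  nlinarith

theorem norm_gB_le {β s u : ℝ} (hβ : 0 ≤ β) (hs : 0 ≤ s) (hu : 1 / 64 ≤ u) :
    ‖gB β s u‖ ≤ 2 ^ β := by
  have hb := base_lb hs hu
  unfold gB
  rw [Complex.norm_real, Real.norm_of_nonneg (Real.rpow_nonneg (by linarith) _)]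
  calc (s + 4 * π ^ 2 * u) ^ (-β) ≤ (1 / 2 : ℝ) ^ (-β) :=
        Real.rpow_le_rpow_of_nonpos (by norm_num) hb (by linarith)
    _ = 2 ^ β := by
        rw [one_div, Real.inv_rpow (by norm_num), Real.rpow_neg (by norm_num), inv_inv]

theorem hasDerivAt_gB (β : ℝ) {s u : ℝ} (hs : 0 ≤ s) (hu : 0 < u) :
    HasDerivAt (gB β s) (((-β * (4 * π ^ 2) : ℝ) : ℂ) * gB (β + 1) s u) u := by
  have hpos : 0 < s + 4 * π ^ 2 * u := by positivity
  have h1 : HasDerivAt (fun u => s + 4 * π ^ 2 * u) (4 * π ^ 2) u := by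
    simpa using ((hasDerivAt_id u).const_mul (4 * π ^ 2)).const_add s
  have h2 := (h1.rpow_const (p := -β) (Or.inl hpos.ne')).ofReal_comp
  refine h2.congr_deriv ?_
  unfold gB
  rw [show -(β + 1) = -β - 1 by ring]
  push_cast
  ring

theorem deriv_gB (β : ℝ) {s u : ℝ} (hs : 0 ≤ s) (hu : 0 < u) :
    deriv (gB β s) u = ((-β * (4 * π ^ 2) : ℝ) : ℂ) * gB (β + 1) s u :=
  (hasDerivAt_gB β hs hu).deriv

theorem deriv2_gB (β : ℝ) {s u : ℝ} (hs : 0 ≤ s) (hu : 0 < u) :
    deriv (deriv (gB β s)) u = ((-β * (4 * π ^ 2) : ℝ) : ℂ) *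
      (((-(β + 1) * (4 * π ^ 2) : ℝ) : ℂ) * gB (β + 1 + 1) s u) := by
  have hev : deriv (gB β s) =ᶠ[𝓝 u] fun u => ((-β * (4 * π ^ 2) : ℝ) : ℂ) * gB (β + 1) s u := by
    filter_upwards [Ioi_mem_nhds hu] with v hv
    exact deriv_gB β hs hv
  rw [hev.deriv_eq]
  exact ((hasDerivAt_gB (β + 1) hs hu).const_mul _).deriv

theorem contDiffAt_gB (β : ℝ) {s u : ℝ} (hs : 0 ≤ s) (hu : 0 < u) : ContDiffAt ℝ ∞ (gB β s) u := by
  have hpos : 0 < s + 4 * π ^ 2 * u := by positivity
  have h1 : ContDiffAt ℝ ∞ (fun u => s + 4 * π ^ 2 * u) u := by fun_prop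
  exact Complex.ofRealCLM.contDiff.contDiffAt.comp u (h1.rpow_const_of_ne hpos.ne')

/-- the Littlewood–Paley cut-off that is `1` on the support of `chi`. -/
noncomputable def chit (u : ℝ) : ℝ := bet (u / 4) - bet (16 * u)

theorem contDiff_chit : ContDiff ℝ ∞ chit := by
  unfold chit
  exact (contDiff_bet.comp (contDiff_id.div_const _)).sub
    (contDiff_bet.comp (contDiff_const.mul contDiff_id))

theorem chit_lo {u : ℝ} (h : u < 1 / 16) : chit u = 0 := by
  unfold chit; rw [bet_one (by linarith), bet_one (by linarith), sub_self]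

theorem chit_hi {u : ℝ} (h : 8 < u) : chit u = 0 := by
  unfold chit; rw [bet_zero (by linarith), bet_zero (by linarith), sub_self]

theorem chi_mul_chit (u : ℝ) : chi u * chit u = chi u := by
  by_cases h1 : u < 1 / 4
  · rw [chi_lo h1, zero_mul]
  by_cases h2 : 2 < u
  · rw [chi_hi h2, zero_mul]
  push Not at h1 h2
  have : chit u = 1 := by
    unfold chit
    rw [bet_one (by linarith), bet_zero (by linarith), sub_zero]
  rw [this, mul_one]

/-- uniform bound of the Bessel profiles. -/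
theorem exists_Pf_bessel {β : ℝ} (hβ : 0 ≤ β) : ∃ M : ℝ, ∀ s : ℝ, 0 ≤ s →
    Pf (fun u => ((chit u : ℝ) : ℂ) * gB β s u) M := by
  obtain ⟨M, hM⟩ := exists_Pf (A := fun u => ((chit u : ℝ) : ℂ))
    (Complex.ofRealCLM.contDiff.comp contDiff_chit)
    (fun u hu => by rw [chit_lo (by linarith)]; simp)
    (fun u hu => by rw [chit_hi (by linarith)]; simp)
  have hp : π ^ 2 ≤ 10 := by nlinarith [Real.pi_lt_d2, Real.pi_pos]
  have hp0 : 0 ≤ π ^ 2 := by positivity
  have h2 : (1:ℝ) ≤ 2 ^ (β + 1 + 1) := Real.one_le_rpow (by norm_num) (by linarith)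
  have hb0 : (2:ℝ) ^ β ≤ 2 ^ (β + 1 + 1) :=
    Real.rpow_le_rpow_of_exponent_le (by norm_num) (by linarith)
  have hb1 : (2:ℝ) ^ (β + 1) ≤ 2 ^ (β + 1 + 1) :=
    Real.rpow_le_rpow_of_exponent_le (by norm_num) (by linarith)
  refine ⟨4 * M * ((1 + 40 * (β + 1)) ^ 2 * 2 ^ (β + 1 + 1)), fun s hs => ?_⟩
  refine hM.mul (fun u hu => contDiffAt_gB β hs hu) (fun u hu _ => ?_) (fun u hu _ => ?_)
    (fun u hu _ => ?_)
  · refine (norm_gB_le hβ hs hu).trans (hb0.trans ?_)
    have : 1 ≤ (1 + 40 * (β + 1)) ^ 2 := by nlinarith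
    nlinarith
  · have n1 : ‖((-β * (4 * π ^ 2) : ℝ) : ℂ)‖ = β * (4 * π ^ 2) := by
      rw [Complex.norm_real, Real.norm_eq_abs, neg_mul, abs_neg, abs_of_nonneg (by positivity)]
    rw [deriv_gB β hs (by linarith), norm_mul, n1]
    have h3 := norm_gB_le (β := β + 1) (by linarith) hs hu
    calc β * (4 * π ^ 2) * ‖gB (β + 1) s u‖ ≤ β * (4 * 10) * 2 ^ (β + 1 + 1) := by
          gcongr
          exact h3.trans hb1
      _ ≤ _ := by
          gcongr
          nlinarith
  · have n1 : ‖((-β * (4 * π ^ 2) : ℝ) : ℂ)‖ = β * (4 * π ^ 2) := by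
      rw [Complex.norm_real, Real.norm_eq_abs, neg_mul, abs_neg, abs_of_nonneg (by positivity)]
    have n2 : ‖((-(β + 1) * (4 * π ^ 2) : ℝ) : ℂ)‖ = (β + 1) * (4 * π ^ 2) := by
      rw [Complex.norm_real, Real.norm_eq_abs, neg_mul, abs_neg, abs_of_nonneg (by positivity)]
    rw [deriv2_gB β hs (by linarith), norm_mul, norm_mul, n1, n2]
    have h3 := norm_gB_le (β := β + 1 + 1) (by linarith) hs hu
    calc β * (4 * π ^ 2) * ((β + 1) * (4 * π ^ 2) * ‖gB (β + 1 + 1) s u‖)
        ≤ β * (4 * 10) * ((β + 1) * (4 * 10) * 2 ^ (β + 1 + 1)) := by gcongr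
      _ = (β * (4 * 10) * ((β + 1) * (4 * 10))) * 2 ^ (β + 1 + 1) := by ring
      _ ≤ _ := by
          gcongr
          nlinarith

/-- the low frequency factor. -/
noncomputable def gL (τ u : ℝ) : ℂ := EE τ u - 1

theorem exists_Pf_low : ∃ M : ℝ, ∀ τ : ℝ, 0 ≤ τ → τ ≤ 2 →
    Pf (fun u => ((chi u : ℝ) : ℂ) * gL τ u) (M * τ) := by
  obtain ⟨M, hM⟩ := exists_Pf (A := fun u => ((chi u : ℝ) : ℂ))
    (Complex.ofRealCLM.contDiff.comp contDiff_chi)
    (fun u hu => by rw [chi_lo (by linarith)]; simp)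
    (fun u hu => by rw [chi_hi (by linarith)]; simp)
  refine ⟨4 * M * 4000, fun τ h0 h2 => ?_⟩
  have hpi0 := Real.pi_pos
  have hpi : π < 3.15 := Real.pi_lt_d2
  have hw : ∀ u : ℝ, 1 / 64 ≤ u → u ≤ 64 → 0 ≤ π * τ / Real.sqrt u ∧
      π * τ / Real.sqrt u ≤ 26 * τ ∧ Real.sqrt u ≤ 8 := by
    intro u hu1 hu2
    have hsq1 : 1 / 8 ≤ Real.sqrt u := by
      apply Real.le_sqrt_of_sq_le; norm_num; linarith
    have hsq2 : Real.sqrt u ≤ 8 := by
      rw [Real.sqrt_le_left (by norm_num)]; norm_num; exact hu2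
    refine ⟨by positivity, ?_, hsq2⟩
    rw [div_le_iff₀ (by linarith)]
    nlinarith [mul_nonneg h0 hpi0.le]
  have e1 : osc τ (fun _ => 1) = EE τ := by funext u; simp [osc]
  have dL : ∀ u : ℝ, 0 < u → deriv (gL τ) u = EE τ u *
      (((π * τ / Real.sqrt u : ℝ) : ℂ) * Complex.I) := by
    intro u hu
    exact ((hasDerivAt_EE τ hu).sub_const 1).deriv
  have dL2 : ∀ u : ℝ, 0 < u → deriv (deriv (gL τ)) u = EE τ u *
      (-(((π * τ / Real.sqrt u) ^ 2 : ℝ) : ℂ) -
        (((π * τ / Real.sqrt u / (2 * u) : ℝ) : ℂ) * Complex.I)) := by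
    intro u hu
    have hev : deriv (gL τ) = deriv (osc τ (fun _ => 1)) := by
      rw [e1]; unfold gL; funext v; rw [deriv_sub_const]
    rw [hev, deriv2_osc contDiff_const τ hu]
    simp
  have key : Pf (fun u => ((chi u : ℝ) : ℂ) * gL τ u) (4 * M * (4000 * τ)) := by
    refine hM.mul (fun u hu => (contDiffAt_EE τ hu).sub contDiffAt_const) (fun u hu1 hu2 => ?_)
      (fun u hu1 hu2 => ?_) (fun u hu1 hu2 => ?_)
    · obtain ⟨w0, w1, w2⟩ := hw u hu1 hu2
      have h3 := Real.norm_exp_I_mul_ofReal_sub_one_le (x := 2 * π * τ * Real.sqrt u)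
      show ‖gL τ u‖ ≤ _
      unfold gL EE
      rw [mul_comm _ Complex.I]
      refine h3.trans ?_
      rw [Real.norm_of_nonneg (by positivity)]
      calc 2 * π * τ * Real.sqrt u ≤ 2 * 3.15 * τ * 8 := by gcongr
        _ ≤ _ := by nlinarith
    · obtain ⟨w0, w1, w2⟩ := hw u hu1 hu2
      show ‖deriv (gL τ) u‖ ≤ _
      rw [dL u (by linarith), norm_mul, norm_EE, one_mul, norm_mul, Complex.norm_I, mul_one,
        Complex.norm_real, Real.norm_of_nonneg w0]
      linarith
    · obtain ⟨w0, w1, w2⟩ := hw u hu1 hu2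
      show ‖deriv (deriv (gL τ)) u‖ ≤ _
      rw [dL2 u (by linarith), norm_mul, norm_EE, one_mul]
      refine (norm_sub_le _ _).trans ?_
      have hu0 : 0 < u := by linarith
      rw [norm_neg, Complex.norm_real, norm_mul, Complex.norm_I, mul_one, Complex.norm_real,
        Real.norm_of_nonneg (by positivity), Real.norm_of_nonneg (by positivity)]
      have t1 : (π * τ / Real.sqrt u) ^ 2 ≤ 1352 * τ := by nlinarith
      have t2 : π * τ / Real.sqrt u / (2 * u) ≤ 832 * τ := by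
        rw [div_le_iff₀ (by positivity)]
        nlinarith
      linarith
  have e2 : 4 * M * (4000 * τ) = 4 * M * 4000 * τ := by ring
  rwa [e2] at key

end Crest.Agent.R116.Sh927
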