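import Crest.Agent.R116.Wk7_927

/-!
R116, outer shell (8): the Bessel pieces, the low frequency pieces, and the Bessel potential of a
Schwartz function.
-/

set_option autoImplicit false

open MeasureTheory FourierTransform LineDeriv Set Filter
open scoped ContDiff Real SchwartzMap ENNReal Convolution Topology

namespace Crest.Agent.R116.Sh927

open Crest.Agent.R138.Fr665 (cv)
open Crest.Agent.R138.Sh200

theorem osc_zero (A : ℝ → ℂ) : osc 0 A = A := by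
  funext u
  simp [osc, EE]

/-- the base of the Bessel weight. -/
noncomputable def Bb (ξ : V) : ℝ := 1 + 4 * π ^ 2 * ‖ξ‖ ^ 2

theorem Bb_pos (ξ : V) : 0 < Bb ξ := by unfold Bb; positivity

theorem contDiff_Bb : ContDiff ℝ ∞ Bb := by
  unfold Bb
  exact contDiff_const.add (contDiff_const.mul (contDiff_norm_sq ℝ))

/-- Bessel multiplier on a ball, as a Schwartz function. -/
theorem exists_bz (β lam : ℝ) (hlam : 0 < lam) : ∃ m : 𝓢(V, ℂ), ∀ ξ : V,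
    m ξ = ((bet (‖ξ‖ ^ 2 / lam) * Bb ξ ^ (-β) : ℝ) : ℂ) := by
  have h1 : ContDiff ℝ ∞ fun ξ : V => ((bet (‖ξ‖ ^ 2 / lam) * Bb ξ ^ (-β) : ℝ) : ℂ) := by
    apply Complex.ofRealCLM.contDiff.comp
    apply ContDiff.mul
    · exact contDiff_bet.comp ((contDiff_norm_sq ℝ).div_const _)
    · exact contDiff_Bb.rpow_const_of_ne fun ξ => (Bb_pos ξ).ne'
  have h2 : HasCompactSupport fun ξ : V => ((bet (‖ξ‖ ^ 2 / lam) * Bb ξ ^ (-β) : ℝ) : ℂ) := by
    refine HasCompactSupport.intro (isCompact_closedBall (0:V) (2 * lam + 1)) fun ξ hξ => ?_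
    rw [mem_closedBall_zero_iff, not_le] at hξ
    rw [bet_zero]
    · simp
    · rw [le_div_iff₀ hlam]
      nlinarith
  exact ⟨h2.toSchwartzMap h1, fun ξ => rfl⟩

/-- the annular Bessel profile at scale `R`. -/
noncomputable def cB (β R : ℝ) (u : ℝ) : ℂ := ((chit (u / R ^ 2) : ℝ) : ℂ) * gB β 1 u

theorem cB_lo {β R : ℝ} (hR : 0 < R) (u : ℝ) (h : u < R ^ 2 / 16) : cB β R u = 0 := by
  unfold cB
  rw [chit_lo]; · simp
  rw [div_lt_iff₀ (by positivity)]; linarith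

theorem cB_hi {β R : ℝ} (hR : 0 < R) (u : ℝ) (h : 8 * R ^ 2 < u) : cB β R u = 0 := by
  unfold cB
  rw [chit_hi]; · simp
  rw [lt_div_iff₀ (by positivity)]; linarith

theorem contDiff_cB {β R : ℝ} (hR : 0 < R) : ContDiff ℝ ∞ (cB β R) := by
  rw [contDiff_iff_contDiffAt]
  intro u
  have hR2 : 0 < R ^ 2 := by positivity
  by_cases h : u < R ^ 2 / 16
  · have : cB β R =ᶠ[𝓝 u] fun _ => 0 := by
      filter_upwards [Iio_mem_nhds h] with v hv
      exact cB_lo hR v hv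
    exact contDiffAt_const.congr_of_eventuallyEq this
  · push Not at h
    have hu : 0 < u := by linarith
    have h1 : ContDiff ℝ ∞ fun u : ℝ => ((chit (u / R ^ 2) : ℝ) : ℂ) :=
      Complex.ofRealCLM.contDiff.comp (contDiff_chit.comp (contDiff_id.div_const _))
    exact h1.contDiffAt.mul (contDiffAt_gB β zero_le_one hu)

theorem comp_cB {β R : ℝ} (hR : 0 < R) : HasCompactSupport (cB β R) := by
  refine HasCompactSupport.intro (isCompact_Icc (a := R ^ 2 / 16) (b := 8 * R ^ 2)) fun u hu => ?_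
  rw [mem_Icc, not_and_or, not_le, not_le] at hu
  rcases hu with hu | hu
  · exact cB_lo hR u hu
  · exact cB_hi hR u hu

/-- the annular Bessel symbol. -/
noncomputable def bT (β : ℝ) {R : ℝ} (hR : 0 < R) : 𝓢(V, ℂ) := rS (contDiff_cB (β := β) hR) (comp_cB hR)

theorem bT_apply (β : ℝ) {R : ℝ} (hR : 0 < R) (ξ : V) :
    bT β hR ξ = ((chit (‖ξ‖ ^ 2 / R ^ 2) * Bb ξ ^ (-β) : ℝ) : ℂ) := by
  unfold bT
  rw [rS_apply]
  unfold cB gB Bb
  push_cast
  rfl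

theorem L1_bT {β : ℝ} (hβ : 0 ≤ β) : ∃ A : ℝ, 0 < A ∧ ∀ (R : ℝ) (hR : 0 < R),
    ∫⁻ x, ‖ker (bT β hR) x‖ₑ ≤ ENNReal.ofReal (A * R ^ (-(2 * β))) := by
  obtain ⟨M, hM⟩ := exists_Pf_bessel hβ
  have hM0 := (hM 1 zero_le_one).nonneg
  refine ⟨10000 * M + 1, by positivity, fun R hR => ?_⟩
  set s : ℝ := (R ^ 2)⁻¹ with hs
  have hs0 : 0 ≤ s := by positivity
  set A : ℝ → ℂ := fun u => ((chit u : ℝ) : ℂ) * gB β s u with hA
  have e : (bT β hR : V → ℂ) = fun ξ : V => ((R ^ (-(2 * β)) : ℝ) : ℂ) * rs (osc 0 A) (R⁻¹ • ξ) := by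
    funext ξ
    rw [bT_apply, osc_zero]
    unfold rs
    rw [hA]
    unfold gB
    have e1 : ‖R⁻¹ • ξ‖ ^ 2 = ‖ξ‖ ^ 2 / R ^ 2 := by
      rw [norm_smul, norm_inv, Real.norm_of_nonneg hR.le]
      field_simp
    have e2 : Bb ξ = R ^ 2 * (s + 4 * π ^ 2 * (‖ξ‖ ^ 2 / R ^ 2)) := by
      unfold Bb
      rw [hs]
      field_simp
    have e3 : (R ^ 2 : ℝ) ^ (-β) = R ^ (-(2 * β)) := by
      rw [← Real.rpow_natCast R 2, ← Real.rpow_mul hR.le]
      congr 1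
      push_cast
      ring
    simp only [e1]
    rw [e2, Real.mul_rpow (by positivity) (by positivity), e3]
    push_cast
    ring
  unfold ker
  rw [e]
  have e4 : ∀ x : V, 𝓕⁻ (fun ξ : V => ((R ^ (-(2 * β)) : ℝ) : ℂ) * rs (osc 0 A) (R⁻¹ • ξ)) x
      = ((R ^ (-(2 * β)) : ℝ) : ℂ) * 𝓕⁻ (fun ξ : V => rs (osc 0 A) (R⁻¹ • ξ)) x := by
    intro x
    rw [Real.fourierInv_eq, Real.fourierInv_eq, ← integral_const_mul]
    congr 1
    funext ξ
    rw [mul_smul_comm]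
  simp_rw [e4, enorm_mul]
  rw [lintegral_const_mul' _ _ (by simp), lint_dil _ hR]
  have h4 : ‖((R ^ (-(2 * β)) : ℝ) : ℂ)‖ₑ = ENNReal.ofReal (R ^ (-(2 * β))) := by
    rw [← ofReal_norm, Complex.norm_real, Real.norm_of_nonneg (by positivity)]
  rw [h4]
  calc ENNReal.ofReal (R ^ (-(2 * β))) * ∫⁻ x, ‖𝓕⁻ (rs (osc 0 A)) x‖ₑ
      ≤ ENNReal.ofReal (R ^ (-(2 * β))) * ENNReal.ofReal (10000 * (1 + 0) * M) := by
        gcongr
        exact (hM s hs0).L1 le_rfl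
    _ = ENNReal.ofReal (R ^ (-(2 * β)) * (10000 * (1 + 0) * M)) := by
        rw [← ENNReal.ofReal_mul (by positivity)]
    _ ≤ _ := by
        apply ENNReal.ofReal_le_ofReal
        have : 0 < R ^ (-(2 * β)) := by positivity
        nlinarith

/-- the low frequency symbol. -/
noncomputable def lT {R : ℝ} (hR : 0 < R) (t : ℝ) : 𝓢(V, ℂ) := mT hR t - mT hR 0

theorem lT_apply {R : ℝ} (hR : 0 < R) (t : ℝ) (ξ : V) :
    lT hR t ξ = ((chi (‖ξ‖ ^ 2 / R ^ 2) : ℝ) : ℂ) *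
      (Complex.exp (((2 * π * t * ‖ξ‖ : ℝ) : ℂ) * Complex.I) - 1) := by
  unfold lT
  rw [sub_apply, mT_apply, mT_apply]
  unfold mW
  rw [phi0_of_nonneg (by positivity), div_pow]
  simp
  ring

theorem L1_lT : ∃ A : ℝ, 0 < A ∧ ∀ (R : ℝ) (hR : 0 < R) (t : ℝ), R ≤ 1 → 0 ≤ t → t ≤ 2 →
    ∫⁻ x, ‖ker (lT hR t) x‖ₑ ≤ ENNReal.ofReal (A * R) := by
  obtain ⟨M, hM⟩ := exists_Pf_low
  have hM0 : 0 ≤ M := by
    have := (hM 1 (by norm_num) (by norm_num)).nonneg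
    linarith
  refine ⟨20000 * M + 1, by positivity, fun R hR t hR1 ht0 ht2 => ?_⟩
  set A : ℝ → ℂ := fun u => ((chi u : ℝ) : ℂ) * gL (t * R) u with hA
  have e : (lT hR t : V → ℂ) = fun ξ : V => rs (osc 0 A) (R⁻¹ • ξ) := by
    funext ξ
    rw [lT_apply, osc_zero]
    unfold rs
    rw [hA]
    unfold gL EE
    have e1 : ‖R⁻¹ • ξ‖ ^ 2 = ‖ξ‖ ^ 2 / R ^ 2 := by
      rw [norm_smul, norm_inv, Real.norm_of_nonneg hR.le]
      field_simp
    have e2 : Real.sqrt (‖ξ‖ ^ 2 / R ^ 2) = ‖ξ‖ / R := by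
      rw [← div_pow, Real.sqrt_sq (by positivity)]
    simp only [e1, e2]
    have e3 : 2 * π * (t * R) * (‖ξ‖ / R) = 2 * π * t * ‖ξ‖ := by field_simp
    rw [e3]
  unfold ker
  rw [e, lint_dil _ hR]
  refine ((hM (t * R) (by positivity) (by nlinarith)).L1 le_rfl).trans
    (ENNReal.ofReal_le_ofReal ?_)
  have h5 : t * R ≤ 2 * R := by nlinarith
  have h6 : M * (t * R) ≤ M * (2 * R) := mul_le_mul_of_nonneg_left h5 hM0
  nlinarith

theorem ker_lT {R : ℝ} (hR : 0 < R) (t : ℝ) (x : V) :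
    ker (lT hR t) x = KW phi0 R t x - KW phi0 R 0 x := by
  rw [← ker_mT hR, ← ker_mT hR, ker_coe, ker_coe, ker_coe]
  unfold lT
  have : 𝓕⁻ (mT hR t - mT hR 0) = 𝓕⁻ (mT hR t) - 𝓕⁻ (mT hR 0) :=
    map_sub (FourierTransform.fourierCLE ℂ 𝓢(V, ℂ)).symm _ _
  rw [this, sub_apply]

theorem continuous_ker_lT {R : ℝ} (hR : 0 < R) :
    Continuous fun z : V × ℝ => ker (lT hR z.2) z.1 := by
  simp_rw [ker_lT]
  refine (continuous_KW hR).sub ?_
  exact (continuous_KW hR).comp (continuous_fst.prodMk continuous_const)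

/-- the Bessel potential of order `2 β` of a Schwartz function. -/
theorem exists_bessel (β : ℝ) (f : 𝓢(V, ℂ)) : ∃ g : 𝓢(V, ℂ),
    (∀ ξ, (𝓕 g) ξ = ((Bb ξ ^ β : ℝ) : ℂ) * (𝓕 f) ξ) ∧
    (g : V → ℂ) = 𝓕⁻ (fun ξ : V => ((Bb ξ ^ β : ℝ)) • 𝓕 (f : V → ℂ) ξ) := by
  have hT : (fun ξ : V => ((Bb ξ ^ β : ℝ) : ℂ)).HasTemperateGrowth := by
    have h0 := Function.hasTemperateGrowth_one_add_norm_sq_rpow V β
    have h1 : (fun ξ : V => (2 * π) • ξ).HasTemperateGrowth := by fun_prop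
    have h2 := h0.comp h1
    have h3 : (fun ξ : V => (Bb ξ ^ β : ℝ)).HasTemperateGrowth := by
      have e : (fun ξ : V => (Bb ξ ^ β : ℝ))
          = (fun x : V => (1 + ‖x‖ ^ 2) ^ β) ∘ (fun ξ : V => (2 * π) • ξ) := by
        funext ξ
        simp only [Function.comp]
        rw [norm_smul, Real.norm_of_nonneg (by positivity)]
        unfold Bb
        congr 1
        ring
      rw [e]
      exact h2
    fun_prop
  refine ⟨𝓕⁻ (SchwartzMap.smulLeftCLM ℂ (fun ξ : V => ((Bb ξ ^ β : ℝ) : ℂ)) (𝓕 f)), fun ξ => ?_, ?_⟩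
  · rw [FourierTransform.fourier_fourierInv_eq, SchwartzMap.smulLeftCLM_apply_apply hT, smul_eq_mul]
  · rw [SchwartzMap.fourierInv_coe, SchwartzMap.smulLeftCLM_apply hT]
    refine congrArg (fun h : V → ℂ => 𝓕⁻ h) ?_
    funext ξ
    rw [smul_eq_mul, Complex.real_smul]
    rfl

end Crest.Agent.R116.Sh927
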