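import Crest.Agent.R116.Wk8_927

/-!
R116, outer shell (9): the Littlewood–Paley sum and the outer shell theorem `S0155_of_C3w`.
-/

set_option autoImplicit false

open MeasureTheory FourierTransform LineDeriv Set Filter
open scoped ContDiff Real SchwartzMap ENNReal Convolution Topology

namespace Crest.Agent.R116.Sh927

open Crest.Agent.R138.Fr665 (cv)
open Crest.Agent.R138.Sh200

/-! ### norm forms of the estimates -/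

theorem lint_eq_eLpNorm' {α : Type*} [MeasurableSpace α] (μ : Measure α) {p : ℝ} (hp : 0 < p)
    (g : α → ℂ) :
    ∫⁻ x, ENNReal.ofReal (‖g x‖ ^ p) ∂μ = (eLpNorm g (ENNReal.ofReal p) μ) ^ p := by
  rw [eLpNorm_eq_lintegral_rpow_enorm_toReal (by simpa using hp) ENNReal.ofReal_ne_top,
    ENNReal.toReal_ofReal hp.le, ← ENNReal.rpow_mul, one_div_mul_cancel hp.ne', ENNReal.rpow_one]
  refine lintegral_congr fun x => ?_
  rw [← ofReal_norm, ENNReal.ofReal_rpow_of_nonneg (norm_nonneg _) hp.le]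

/-- Young. -/
theorem young {K g : V → ℂ} (hK : Measurable K) (hg : Measurable g) {p : ℝ} (hp : 1 ≤ p) {B : ℝ≥0∞}
    (hB : ∫⁻ y, ‖K y‖ₑ ≤ B) :
    eLpNorm (cv K g) (ENNReal.ofReal p) volume ≤ B * eLpNorm g (ENNReal.ofReal p) volume := by
  have hp0 : 0 < p := by linarith
  have h1 := Crest.Agent.R138.Fr665.lint_cv_rpow hK hg hp
  have e : ∀ h : V → ℂ, ∫⁻ x, ‖h x‖ₑ ^ p = (eLpNorm h (ENNReal.ofReal p) volume) ^ p := by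
    intro h
    rw [← lint_eq_eLpNorm' volume hp0]
    refine lintegral_congr fun x => ?_
    rw [← ofReal_norm, ENNReal.ofReal_rpow_of_nonneg (norm_nonneg _) hp0.le]
  rw [e, e, ← ENNReal.mul_rpow_of_nonneg _ _ hp0.le] at h1
  have h2 := (ENNReal.rpow_le_rpow_iff hp0).mp h1
  exact h2.trans (by gcongr)

/-- from fixed time to the slab. -/
theorem slab_le {F : V × ℝ → ℂ} (hF : Measurable F) {p : ℝ} (hp : 0 < p) {B : ℝ≥0∞}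
    (h : ∀ t ∈ Icc (1:ℝ) 2, eLpNorm (fun x => F (x, t)) (ENNReal.ofReal p) volume ≤ B) :
    eLpNorm F (ENNReal.ofReal p) nu ≤ B := by
  have h1 : ∫⁻ z, ENNReal.ofReal (‖F z‖ ^ p) ∂nu ≤ B ^ p := by
    refine lint_nu_le (hF.norm.pow_const _).ennreal_ofReal fun t ht => ?_
    rw [lint_eq_eLpNorm' volume hp]
    exact ENNReal.rpow_le_rpow (h t ht) hp.le
  rw [lint_eq_eLpNorm' nu hp] at h1
  exact (ENNReal.rpow_le_rpow_iff hp).mp h1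

/-- the high frequency estimate in norm form. -/
theorem high_le (h3 : C3p phi0) {p : ℝ} (hp : 2 ≤ p) {ε : ℝ} (hε : 0 < ε) :
    ∃ C : ℝ, 0 < C ∧ ∀ R : ℝ, 1 ≤ R → ∀ f : V → ℂ, BM f →
      eLpNorm (fun z : V × ℝ => cv (KW phi0 R z.2) f z.1) (ENNReal.ofReal p) nu
        ≤ ENNReal.ofReal (C * R ^ (max 0 (1 - 3 / p) + ε)) *
          eLpNorm f (ENNReal.ofReal p) volume := by
  have hp0 : 0 < p := by linarith
  obtain ⟨C, hC, h⟩ := family_st h3 hp (mul_pos hp0 hε)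
  refine ⟨C ^ (1 / p), by positivity, fun R hR f hf => ?_⟩
  have hR0 : 0 < R := by linarith
  have h1 := h R hR f hf
  rw [lint_eq_eLpNorm' nu hp0 (fun z : V × ℝ => cv (KW phi0 R z.2) f z.1),
    lint_eq_eLpNorm' volume hp0] at h1
  have h2 := ENNReal.rpow_le_rpow h1 (by positivity : 0 ≤ 1 / p)
  rw [ENNReal.mul_rpow_of_nonneg _ _ (by positivity), ← ENNReal.rpow_mul, ← ENNReal.rpow_mul,
    mul_one_div_cancel hp0.ne', ENNReal.rpow_one, ENNReal.rpow_one,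
    ENNReal.ofReal_rpow_of_nonneg (by positivity) (by positivity)] at h2
  refine h2.trans (le_of_eq ?_)
  congr 2
  rw [Real.mul_rpow hC.le (by positivity), ← Real.rpow_mul hR0.le]
  congr 2
  rw [add_mul, max_mul_of_nonneg _ _ (by positivity : 0 ≤ 1 / p), zero_mul, max_comm]
  congr 1
  · congr 1
    field_simp
  · field_simp

/-! ### the pieces -/

/-- the frequency-side action of a symbol. -/
noncomputable def opS (m g : 𝓢(V, ℂ)) : 𝓢(V, ℂ) :=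
  𝓕⁻ (SchwartzMap.pairing (ContinuousLinearMap.mul ℂ ℂ) m (𝓕 g))

theorem opS_coe (m g : 𝓢(V, ℂ)) : (opS m g : V → ℂ) = cv (ker m) g := by
  funext x
  rw [cv_ker_schwartz]
  rfl

theorem fourier_opS (m g : 𝓢(V, ℂ)) (ξ : V) : (𝓕 (opS m g)) ξ = m ξ * (𝓕 g) ξ := by
  unfold opS
  rw [FourierTransform.fourier_fourierInv_eq]
  rfl

theorem young_opS (m g : 𝓢(V, ℂ)) {p : ℝ} (hp : 1 ≤ p) {B : ℝ≥0∞} (hB : ∫⁻ y, ‖ker m y‖ₑ ≤ B) :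
    eLpNorm (opS m g) (ENNReal.ofReal p) volume ≤ B * eLpNorm g (ENNReal.ofReal p) volume := by
  rw [opS_coe]
  exact young (measurable_ker m) g.continuous.measurable hp hB

theorem pw_pos (k : ℕ) : (0:ℝ) < 2 ^ k := by positivity

theorem pwi_pos (k : ℕ) : (0:ℝ) < (2 ^ k)⁻¹ := by positivity

/-- the partial sums, on the frequency side. -/
noncomputable def PN (mz m0 : 𝓢(V, ℂ)) (β : ℝ) (g : 𝓢(V, ℂ)) (N : ℕ) (t : ℝ) : 𝓢(V, ℂ) :=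
  opS mz g + ∑ j ∈ Finset.range N, opS (lT (pwi_pos j) t) (opS m0 g)
    + ∑ k ∈ Finset.range N, opS (mT (pw_pos (k + 1)) t) (opS (bT β (pw_pos (k + 1))) g)

theorem sum_lo (N : ℕ) (u : ℝ) :
    ∑ j ∈ Finset.range N, chi (u / ((2 ^ j)⁻¹) ^ 2) = bet u - bet (4 ^ N * u) := by
  induction N with
  | zero => simp
  | succ n ih =>
    rw [Finset.sum_range_succ, ih]
    have e : u / ((2 ^ n)⁻¹ : ℝ) ^ 2 = 4 ^ n * u := by
      rw [inv_pow, div_inv_eq_mul, ← pow_mul, mul_comm n 2, pow_mul]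
      norm_num
      ring
    rw [e]
    unfold chi
    rw [show 4 * (4 ^ n * u) = 4 ^ (n + 1) * u by ring]
    ring

theorem sum_hi (N : ℕ) (u : ℝ) :
    ∑ k ∈ Finset.range N, chi (u / (2 ^ (k + 1)) ^ 2) = bet (u / 4 ^ N) - bet u := by
  induction N with
  | zero => simp
  | succ n ih =>
    rw [Finset.sum_range_succ, ih]
    have e : u / ((2:ℝ) ^ (n + 1)) ^ 2 = u / 4 ^ (n + 1) := by
      rw [← pow_mul, mul_comm (n + 1) 2, pow_mul]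
      norm_num
    rw [e]
    unfold chi
    rw [show 4 * (u / 4 ^ (n + 1)) = u / 4 ^ n by rw [pow_succ]; field_simp]
    ring

theorem PN_fourier {mz m0 : 𝓢(V, ℂ)} {β : ℝ}
    (hz : ∀ ξ : V, mz ξ = ((bet (‖ξ‖ ^ 2 / 1) * Bb ξ ^ (-β) : ℝ) : ℂ))
    (h0 : ∀ ξ : V, m0 ξ = ((bet (‖ξ‖ ^ 2 / 4) * Bb ξ ^ (-β) : ℝ) : ℂ))
    {f g : 𝓢(V, ℂ)} (hg : ∀ ξ, (𝓕 g) ξ = ((Bb ξ ^ β : ℝ) : ℂ) * (𝓕 f) ξ)
    (N : ℕ) (t : ℝ) (ξ : V) :
    (𝓕 (PN mz m0 β g N t)) ξ =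
      (((bet (‖ξ‖ ^ 2) : ℝ) : ℂ)
        + (Complex.exp (((2 * π * t * ‖ξ‖ : ℝ) : ℂ) * Complex.I) - 1) *
          ((bet (‖ξ‖ ^ 2) - bet (4 ^ N * ‖ξ‖ ^ 2) : ℝ) : ℂ)
        + Complex.exp (((2 * π * t * ‖ξ‖ : ℝ) : ℂ) * Complex.I) *
          ((bet (‖ξ‖ ^ 2 / 4 ^ N) - bet (‖ξ‖ ^ 2) : ℝ) : ℂ)) * (𝓕 f) ξ := by
  have hB : ((Bb ξ ^ (-β) : ℝ) : ℂ) * ((Bb ξ ^ β : ℝ) : ℂ) = 1 := by
    rw [← Complex.ofReal_mul, ← Real.rpow_add (Bb_pos ξ), neg_add_cancel, Real.rpow_zero,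
      Complex.ofReal_one]
  unfold PN
  rw [FourierTransform.fourier_add, FourierTransform.fourier_add, FourierTransform.fourier_sum,
    FourierTransform.fourier_sum, add_apply, add_apply, sum_apply, sum_apply]
  have e1 : ∀ j ∈ Finset.range N, (𝓕 (opS (lT (pwi_pos j) t) (opS m0 g))) ξ
      = (Complex.exp (((2 * π * t * ‖ξ‖ : ℝ) : ℂ) * Complex.I) - 1) *
        ((chi (‖ξ‖ ^ 2 / ((2 ^ j)⁻¹) ^ 2) : ℝ) : ℂ) * (𝓕 f) ξ := by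
    intro j _
    rw [fourier_opS, fourier_opS, lT_apply, h0, hg]
    have hc : ((chi (‖ξ‖ ^ 2 / ((2 ^ j)⁻¹) ^ 2) : ℝ) : ℂ) * ((bet (‖ξ‖ ^ 2 / 4) : ℝ) : ℂ)
        = ((chi (‖ξ‖ ^ 2 / ((2 ^ j)⁻¹) ^ 2) : ℝ) : ℂ) := by
      by_cases h : 2 < ‖ξ‖ ^ 2 / ((2 ^ j)⁻¹) ^ 2
      · rw [chi_hi h]; simp
      · push Not at h
        have h1 : (((2:ℝ) ^ j)⁻¹) ^ 2 ≤ 1 := by
          have : ((2:ℝ) ^ j)⁻¹ ≤ 1 := inv_le_one_of_one_le₀ (one_le_pow₀ (by norm_num))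
          nlinarith [pwi_pos j]
        rw [div_le_iff₀ (by positivity)] at h
        rw [bet_one (by linarith)]
        simp
    calc _ = (((chi (‖ξ‖ ^ 2 / ((2 ^ j)⁻¹) ^ 2) : ℝ) : ℂ) * ((bet (‖ξ‖ ^ 2 / 4) : ℝ) : ℂ)) *
          (Complex.exp (((2 * π * t * ‖ξ‖ : ℝ) : ℂ) * Complex.I) - 1) *
          (((Bb ξ ^ (-β) : ℝ) : ℂ) * ((Bb ξ ^ β : ℝ) : ℂ)) * (𝓕 f) ξ := by
            push_cast; ring
      _ = _ := by rw [hc, hB]; ring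
  have e2 : ∀ k ∈ Finset.range N,
      (𝓕 (opS (mT (pw_pos (k + 1)) t) (opS (bT β (pw_pos (k + 1))) g))) ξ
      = Complex.exp (((2 * π * t * ‖ξ‖ : ℝ) : ℂ) * Complex.I) *
        ((chi (‖ξ‖ ^ 2 / (2 ^ (k + 1)) ^ 2) : ℝ) : ℂ) * (𝓕 f) ξ := by
    intro k _
    rw [fourier_opS, fourier_opS, mT_apply, bT_apply, hg]
    unfold mW
    rw [phi0_of_nonneg (by positivity), div_pow]
    have hc : ((chi (‖ξ‖ ^ 2 / (2 ^ (k + 1)) ^ 2) : ℝ) : ℂ) *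
        ((chit (‖ξ‖ ^ 2 / (2 ^ (k + 1)) ^ 2) : ℝ) : ℂ)
        = ((chi (‖ξ‖ ^ 2 / (2 ^ (k + 1)) ^ 2) : ℝ) : ℂ) := by
      rw [← Complex.ofReal_mul, chi_mul_chit]
    calc _ = (((chi (‖ξ‖ ^ 2 / (2 ^ (k + 1)) ^ 2) : ℝ) : ℂ) *
        ((chit (‖ξ‖ ^ 2 / (2 ^ (k + 1)) ^ 2) : ℝ) : ℂ)) *
          Complex.exp (((2 * π * t * ‖ξ‖ : ℝ) : ℂ) * Complex.I) *
          (((Bb ξ ^ (-β) : ℝ) : ℂ) * ((Bb ξ ^ β : ℝ) : ℂ)) * (𝓕 f) ξ := by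
            push_cast; ring
      _ = _ := by rw [hc, hB]; ring
  rw [Finset.sum_congr rfl e1, Finset.sum_congr rfl e2, ← Finset.sum_mul, ← Finset.sum_mul,
    ← Finset.mul_sum, ← Finset.mul_sum, ← Complex.ofReal_sum, ← Complex.ofReal_sum, sum_lo, sum_hi,
    fourier_opS, hz, hg, div_one]
  have e3 : (((bet (‖ξ‖ ^ 2) * Bb ξ ^ (-β) : ℝ) : ℂ)) * (((Bb ξ ^ β : ℝ) : ℂ) * (𝓕 f) ξ)
      = ((bet (‖ξ‖ ^ 2) : ℝ) : ℂ) * (𝓕 f) ξ := by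
    calc _ = ((bet (‖ξ‖ ^ 2) : ℝ) : ℂ) * (((Bb ξ ^ (-β) : ℝ) : ℂ) * ((Bb ξ ^ β : ℝ) : ℂ)) *
          (𝓕 f) ξ := by push_cast; ring
      _ = _ := by rw [hB, mul_one]
  rw [e3]
  ring

end Crest.Agent.R116.Sh927
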