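import Mathlib
import Crest.Agent.R116.XaDef_794

/-!
# R116 (K side), block X1-C, part 1 (helper794): finite lemmas

* `extract`  : greedy extraction of classes at one level;
* `extract1` : the same with one common shape (pigeonhole over the `Cl C`-box);
* `cfg_low`  : a marked part with two-sided fibres contains a configuration of a window, hence a
  test set with many lines at the bottom level.
-/

set_option autoImplicit false

open Finset Filter Topology

namespace Crest.Agent.R116.Xa1794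

open Crest.Agent.R138.Ex926 Crest.Agent.R138.Dp76 Crest.Agent.R138.Ps627
open Crest.Agent.R138.Mk163 (zc zl rho alive own)
open Crest.Agent.R138.MkRef627 (lc kc own_one alive_mono mem_alive card_class own_lower)
open Crest.Agent.R116.Xa794

variable {Ln ι S : Type} [Fintype ι]

theorem cap_pos (T : TS Ln ι S) (p : ι → ℝ) (i : ℕ) (a : ι → ℕ) : 0 < T.cap p i a := by
  unfold TS.cap
  exact mul_pos (T.volpos i a) (Real.rpow_pos_of_pos two_pos _)

open Classical in
/-- objects of a cell versus alive lines -/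
theorem card_alive (I : Finset (ℕ × ℝ)) (i : ℕ) (c : ℤ) (P : ℕ → Prop) :
    ((alive I i c).filter P).card = ((I.image (lc i)).filter fun o => o.2 = c ∧ P o.1).card := by
  have : ((I.image (lc i)).filter fun o => o.2 = c ∧ P o.1) =
      ((alive I i c).filter P).image fun s => (s, c) := by
    ext o
    simp only [mem_filter, mem_image, mem_alive, lc]
    constructor
    · rintro ⟨⟨x, hx, rfl⟩, h1, h2⟩
      exact ⟨x.1, ⟨⟨x, hx, rfl, h1⟩, h2⟩, by rw [← h1]⟩
    · rintro ⟨s, ⟨⟨x, hx, h1, h2⟩, h3⟩, rfl⟩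
      exact ⟨⟨x, hx, by rw [h1, h2]⟩, rfl, h3⟩
  rw [this, card_image_of_injective]
  intro s s' h
  exact (Prod.mk.inj h).1

open Classical in
/-- **greedy extraction of classes at the level `i`**. -/
theorem extract [Nonempty S] (T : TS Ln ι S) (p : ι → ℝ) (i : ℕ) (P : (ι → ℕ) → Prop) (L : ℕ → Ln)
    (I : Finset (ℕ × ℝ)) {t : ℝ} (ht : 0 < t) :
    ∃ A ⊆ I, ∃ f : ℕ → ℤ → ℕ, ∃ b : ℕ → (ι → ℕ) × S,
      (∀ x ∈ A, ∀ y ∈ I, lc i y = lc i x → y ∈ A) ∧
      (∀ x ∈ A, T.mem i (zc i x.2) (b (f x.1 (zc i x.2))) (L x.1) ∧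
        T.adm i (zc i x.2) (b (f x.1 (zc i x.2))) ∧ P (b (f x.1 (zc i x.2))).1) ∧
      (∀ x ∈ A, t * T.cap p i (b (f x.1 (zc i x.2))).1 ≤
        (((alive A i (zc i x.2)).filter fun s => f s (zc i x.2) = f x.1 (zc i x.2)).card : ℝ)) ∧
      (∀ R ⊆ I, (∀ x ∈ R, x ∉ A) → ∀ (J : ℤ) (s : (ι → ℕ) × S), T.adm i J s → P s.1 →
        (((alive R i J).filter fun t => T.mem i J s (L t)).card : ℝ) ≤
          t * T.cap p i s.1) := by
  obtain ⟨A, hA, cl, h1, h2, h3, h4⟩ := greedy_sub (κ := ℤ × ((ι → ℕ) × S)) (lc i)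
    (fun K o => K.1 = o.2 ∧ T.adm i K.1 K.2 ∧ P K.2.1 ∧ T.mem i K.1 K.2 (L o.1))
    (fun K => T.cap p i K.2.1) (fun K => cap_pos T p i K.2.1) ht I
  set F : Finset (ℤ × ((ι → ℕ) × S)) := (A.image (lc i)).image cl with hF
  obtain ⟨e, he⟩ := Set.countable_iff_exists_injOn.1 F.countable_toSet
  have hinv : ∀ x ∈ A, Function.invFunOn e (F : Set (ℤ × ((ι → ℕ) × S))) (e (cl (lc i x))) =
      cl (lc i x) := by
    intro x hx
    have hmem : cl (lc i x) ∈ (F : Set (ℤ × ((ι → ℕ) × S))) := by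
      rw [hF]
      exact mem_coe.2 (mem_image_of_mem _ (mem_image_of_mem _ hx))
    exact he.leftInvOn_invFunOn hmem
  refine ⟨A, hA, fun s c => e (cl (s, c)),
    fun m => (Function.invFunOn e (F : Set (ℤ × ((ι → ℕ) × S))) m).2, h1, ?_, ?_, ?_⟩
  · intro x hx
    have e1 := hinv x hx
    have e2 := h2 x hx
    have e3 : (x.1, zc i x.2) = lc i x := rfl
    simp only [e3, e1]
    obtain ⟨m1, m2, m3, m4⟩ := e2
    have m1' : (cl (lc i x)).1 = zc i x.2 := m1
    rw [m1'] at m2 m4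
    exact ⟨m4, m2, m3⟩
  · intro x hx
    have e1 := hinv x hx
    have e3 : (x.1, zc i x.2) = lc i x := rfl
    simp only [e3, e1]
    refine (h3 x hx).trans ?_
    have key : ∀ o, o ∈ (A.image (lc i)).filter (fun o => cl o = cl (lc i x)) →
        o.2 = zc i x.2 ∧ o.1 ∈ (alive A i (zc i x.2)).filter
          (fun s => e (cl (s, zc i x.2)) = e (cl (lc i x))) := by
      intro o ho
      rw [mem_filter] at ho
      obtain ⟨ho1, ho2⟩ := ho
      obtain ⟨y, hy, rfl⟩ := mem_image.1 ho1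
      have c1 : (cl (lc i y)).1 = (lc i y).2 := (h2 y hy).1
      have c2 : (cl (lc i x)).1 = (lc i x).2 := (h2 x hx).1
      have c3 : (lc i y).2 = zc i x.2 := by rw [← c1, ho2, c2]; rfl
      refine ⟨c3, ?_⟩
      have c4 : ((lc i y).1, zc i x.2) = lc i y := by rw [← c3]
      rw [mem_filter, mem_alive]
      refine ⟨⟨y, hy, rfl, c3⟩, ?_⟩
      rw [c4, ho2]
    have := card_le_card_of_injOn (s := (A.image (lc i)).filter (fun o => cl o = cl (lc i x)))
      (t := (alive A i (zc i x.2)).filter (fun s => e (cl (s, zc i x.2)) = e (cl (lc i x))))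
      Prod.fst (fun o ho => (key o ho).2) (fun o ho o' ho' h => by
        exact Prod.ext h ((key o ho).1.trans (key o' ho').1.symm))
    exact_mod_cast (by convert this)
  · intro R hR hRA J s hs hP
    refine le_trans ?_ (h4 (J, s)).le
    have := card_le_card_of_injOn (s := (alive R i J).filter (fun t => T.mem i J s (L t)))
      (t := ((I \ A).image (lc i)).filter fun o => (J, s).1 = o.2 ∧ T.adm i (J, s).1 (J, s).2 ∧
          P (J, s).2.1 ∧ T.mem i (J, s).1 (J, s).2 (L o.1))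
      (fun t => (t, J)) (fun t ht => by
        simp only [coe_filter, Set.mem_ofPred_eq, mem_alive] at ht
        obtain ⟨⟨y, hy, hy1, hy2⟩, ht2⟩ := ht
        simp only [coe_filter, Set.mem_ofPred_eq]
        refine ⟨mem_image.2 ⟨y, mem_sdiff.2 ⟨hR hy, hRA y hy⟩, ?_⟩, trivial, hs, hP, ht2⟩
        simp only [lc, hy1, hy2]) (fun t _ t' _ h => (Prod.mk.inj h).1)
    exact_mod_cast (by convert this)

open Classical in
/-- the shapes close to a given shape. -/
noncomputable def box (C i m' : ℕ) (a' : ι → ℕ) : Finset (ι → ℕ) :=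
  Fintype.piFinset fun j =>
    (Finset.Icc ((i : ℤ) + ((a' j : ℤ) - m') - C * ((m' : ℤ) - i))
      ((i : ℤ) + ((a' j : ℤ) - m') + C * ((m' : ℤ) - i))).image Int.toNat

theorem mem_box {C i m' : ℕ} {a' a : ι → ℕ} (h : Cl C i a m' a') : a ∈ box C i m' a' := by
  classical
  unfold box
  rw [Fintype.mem_piFinset]
  intro j
  rw [mem_image]
  refine ⟨(a j : ℤ), ?_, by simp⟩
  have := abs_le.1 (h j)
  rw [Finset.mem_Icc]
  constructor <;> linarith [this.1, this.2]

theorem card_box {C i m' : ℕ} (hi : i ≤ m') (a' : ι → ℕ) :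
    (box C i m' a').card ≤ (2 * C * (m' - i) + 1) ^ Fintype.card ι := by
  classical
  unfold box
  rw [Fintype.card_piFinset]
  refine (Finset.prod_le_prod' (g := fun _ => 2 * C * (m' - i) + 1) fun j _ => ?_).trans ?_
  · refine card_image_le.trans ?_
    rw [Int.card_Icc]
    have h1 : (((2 * C * (m' - i) + 1 : ℕ)) : ℤ) = 2 * C * ((m' : ℤ) - i) + 1 := by
      push_cast [Nat.cast_sub hi]; ring
    have h2 : ((i : ℤ) + ((a' j : ℤ) - m') + C * ((m' : ℤ) - i)) + 1 -
        ((i : ℤ) + ((a' j : ℤ) - m') - C * ((m' : ℤ) - i)) = 2 * C * ((m' : ℤ) - i) + 1 := by ring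
    rw [h2, ← h1, Int.toNat_natCast]
  · rw [Finset.prod_const, Finset.card_univ]

open Classical in
/-- **greedy extraction with one common shape**. -/
theorem extract1 [Nonempty S] (T : TS Ln ι S) (p : ι → ℝ) (C i m' : ℕ) (hi : i ≤ m')
    (a' : ι → ℕ) (L : ℕ → Ln) (I : Finset (ℕ × ℝ)) {t : ℝ} (ht : 0 < t) :
    ∃ A0 ⊆ I, ∃ A ⊆ A0, ∃ f : ℕ → ℤ → ℕ, ∃ b : ℕ → (ι → ℕ) × S, ∃ a : ι → ℕ,
      ((A0.card : ℝ) ≤ (2 * C * ((m' : ℝ) - i) + 1) ^ Fintype.card ι * A.card) ∧
      (∀ x ∈ A, ∀ y ∈ I, lc i y = lc i x → y ∈ A) ∧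
      (∀ x ∈ A, T.mem i (zc i x.2) (b (f x.1 (zc i x.2))) (L x.1) ∧
        T.adm i (zc i x.2) (b (f x.1 (zc i x.2))) ∧ (b (f x.1 (zc i x.2))).1 = a ∧
        Cl C i a m' a') ∧
      (∀ x ∈ A, t * T.cap p i a ≤
        (((alive A i (zc i x.2)).filter fun s => f s (zc i x.2) = f x.1 (zc i x.2)).card : ℝ)) ∧
      (∀ R ⊆ I, (∀ x ∈ R, x ∉ A0) → ∀ (J : ℤ) (s : (ι → ℕ) × S), T.adm i J s →
        Cl C i s.1 m' a' → (((alive R i J).filter fun t => T.mem i J s (L t)).card : ℝ) ≤
          t * T.cap p i s.1) := by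
  obtain ⟨A0, hA0, f, b, h1, h2, h3, h4⟩ := extract T p i (fun a => Cl C i a m' a') L I ht
  set φ : ℕ × ℝ → ι → ℕ := fun x => (b (f x.1 (zc i x.2))).1 with hφ
  have hmaps : ∀ x ∈ A0, φ x ∈ box C i m' a' := fun x hx => mem_box (h2 x hx).2.2
  obtain ⟨a, ha⟩ : ∃ a : ι → ℕ, ((A0.card : ℝ) ≤
      ((box C i m' a').card : ℝ) * ((A0.filter fun x => φ x = a).card : ℝ)) := by
    by_contra hcon
    push Not at hcon
    by_cases hb : (box C i m' a').Nonempty
    · have e1 : (A0.card : ℝ) = ∑ a ∈ box C i m' a', ((A0.filter fun x => φ x = a).card : ℝ) := by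
        rw [card_eq_sum_card_fiberwise (f := φ) (s := A0) (t := box C i m' a')
          (fun x hx => mem_coe.2 (hmaps x (mem_coe.1 hx)))]
        push_cast; rfl
      have hbp : (0 : ℝ) < ((box C i m' a').card : ℝ) := by exact_mod_cast card_pos.2 hb
      have e2 : ∑ a ∈ box C i m' a', ((A0.filter fun x => φ x = a).card : ℝ) <
          ∑ _a ∈ box C i m' a', (A0.card : ℝ) / ((box C i m' a').card : ℝ) := by
        refine sum_lt_sum_of_nonempty hb fun a _ => ?_
        rw [lt_div_iff₀ hbp]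
        have := hcon a
        linarith
      rw [sum_const, nsmul_eq_mul, mul_div_cancel₀ _ hbp.ne'] at e2
      linarith
    · have hA : A0 = ∅ := by
        rw [Finset.eq_empty_iff_forall_notMem]
        intro x hx
        exact hb ⟨_, hmaps x hx⟩
      have := hcon a'
      rw [hA] at this
      simp at this
  refine ⟨A0, hA0, A0.filter fun x => φ x = a, filter_subset _ _, f, b, a, ?_, ?_, ?_, ?_, h4⟩
  · refine ha.trans (mul_le_mul_of_nonneg_right ?_ (Nat.cast_nonneg _))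
    have := card_box (C := C) hi a'
    have h5 : ((box C i m' a').card : ℝ) ≤ (((2 * C * (m' - i) + 1) ^ Fintype.card ι : ℕ) : ℝ) := by
      exact_mod_cast this
    refine h5.trans (le_of_eq ?_)
    push_cast [Nat.cast_sub hi]; ring
  · intro x hx y hy hxy
    rw [mem_filter] at hx ⊢
    refine ⟨h1 x hx.1 y hy hxy, ?_⟩
    obtain ⟨e1, e2⟩ := Prod.mk.inj hxy
    rw [← hx.2]
    simp only [hφ, e1, e2]
  · intro x hx
    rw [mem_filter] at hx
    obtain ⟨m1, m2, m3⟩ := h2 x hx.1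
    have m4 : (b (f x.1 (zc i x.2))).1 = a := hx.2
    exact ⟨m1, m2, m4, m4 ▸ m3⟩
  · intro x hx
    have hx' := hx
    rw [mem_filter] at hx
    have m4 : (b (f x.1 (zc i x.2))).1 = a := hx.2
    have := h3 x hx.1
    rw [m4] at this
    refine this.trans ?_
    have hsub : ((alive A0 i (zc i x.2)).filter fun s => f s (zc i x.2) = f x.1 (zc i x.2)) ⊆
        (alive (A0.filter fun x => φ x = a) i (zc i x.2)).filter
          fun s => f s (zc i x.2) = f x.1 (zc i x.2) := by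
      intro s hs
      rw [mem_filter, mem_alive] at hs
      obtain ⟨⟨y, hy, hy1, hy2⟩, hs2⟩ := hs
      rw [mem_filter, mem_alive]
      refine ⟨⟨y, ?_, hy1, hy2⟩, hs2⟩
      rw [mem_filter]
      refine ⟨hy, ?_⟩
      simp only [hφ, hy1, hy2, hs2]
      exact m4
    exact_mod_cast card_le_card hsub

end Crest.Agent.R116.Xa1794
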