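import Mathlib
import Crest.Agent.R116.Xa1_794
import Crest.Agent.R138.MkZoom_779

/-!
# R116 (K side), block X1-C, part 2 (helper794): the configuration of a window

`cfg_low` : a marked part with two-sided fibres contains a configuration of the window `[m, m+M]`,
hence (upper bound `UB`) a test set with many lines at the bottom level.
-/

set_option autoImplicit false

open Finset Filter Topology

namespace Crest.Agent.R116.Xa2794

open Crest.Agent.R138.Ex926 Crest.Agent.R138.Dp76 Crest.Agent.R138.Ps627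
open Crest.Agent.R138.Mk163 (zc zl rho alive own)
open Crest.Agent.R138.MkRef627 (lc kc own_one alive_mono mem_alive card_class own_lower)
open Crest.Agent.R138.MkZoom779 (zc_nested)
open Crest.Agent.R116.Xa794 Crest.Agent.R116.Xa1794

variable {Ln ι S : Type} [Fintype ι]

theorem lc_nested {i j : ℕ} (h : i ≤ j) {x y : ℕ × ℝ} (hxy : lc j x = lc j y) :
    lc i x = lc i y := by
  obtain ⟨h1, h2⟩ := Prod.mk.inj hxy
  exact Prod.ext h1 (zc_nested h h2)

open Classical in
/-- class fibres versus class sizes, lower bound. -/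
theorem class_fib_ge {A : Finset (ℕ × ℝ)} {i : ℕ} {f : ℕ → ℤ → ℕ} {lo : ℝ}
    (h : ∀ x ∈ A, lo ≤ ((A.filter fun y => lc i y = lc i x).card : ℝ)) (x : ℕ × ℝ) :
    lo * (((alive A i (zc i x.2)).filter fun s => f s (zc i x.2) = f x.1 (zc i x.2)).card : ℝ) ≤
      ((A.filter fun y => kc i f y = kc i f x).card : ℝ) := by
  rw [card_class A i (zc i x.2) (fun s => f s (zc i x.2)) (f x.1 (zc i x.2))]
  have e : (A.filter fun y => kc i f y = kc i f x) = A.filter fun y => (lc i y).2 = zc i x.2 ∧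
      f (lc i y).1 (zc i x.2) = f x.1 (zc i x.2) := by
    ext y
    rw [mem_filter, mem_filter]
    simp only [kc, lc, Prod.mk.injEq]
    constructor
    · rintro ⟨h1, h2, h3⟩; exact ⟨h1, h3, by rw [← h3]; rw [← h3] at h2; exact h2⟩
    · rintro ⟨h1, h2, h3⟩; exact ⟨h1, by rw [h2]; exact h3, h2⟩
  rw [e]
  have := mul_card_filter_le (n₁ := lo) (lc i) A
    (fun o => o.2 = zc i x.2 ∧ f o.1 (zc i x.2) = f x.1 (zc i x.2))
    (fun y hy => by convert h y hy)
  convert this

open Classical in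
/-- class fibres versus class sizes, upper bound. -/
theorem class_fib_le {A : Finset (ℕ × ℝ)} {i : ℕ} {f : ℕ → ℤ → ℕ} {hi : ℝ}
    (h : ∀ x ∈ A, ((A.filter fun y => lc i y = lc i x).card : ℝ) ≤ hi) (x : ℕ × ℝ) :
    ((A.filter fun y => kc i f y = kc i f x).card : ℝ) ≤
    hi * (((alive A i (zc i x.2)).filter fun s => f s (zc i x.2) = f x.1 (zc i x.2)).card : ℝ) := by
  rw [card_class A i (zc i x.2) (fun s => f s (zc i x.2)) (f x.1 (zc i x.2))]
  have e : (A.filter fun y => kc i f y = kc i f x) = A.filter fun y => (lc i y).2 = zc i x.2 ∧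
      f (lc i y).1 (zc i x.2) = f x.1 (zc i x.2) := by
    ext y
    rw [mem_filter, mem_filter]
    simp only [kc, lc, Prod.mk.injEq]
    constructor
    · rintro ⟨h1, h2, h3⟩; exact ⟨h1, h3, by rw [← h3]; rw [← h3] at h2; exact h2⟩
    · rintro ⟨h1, h2, h3⟩; exact ⟨h1, by rw [h2]; exact h3, h2⟩
  rw [e]
  have := card_filter_le_mul (n₂ := hi) (lc i) A
    (fun o => o.2 = zc i x.2 ∧ f o.1 (zc i x.2) = f x.1 (zc i x.2))
    (fun y hy => by convert h y hy)
  convert this

open Classical in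
/-- **the configuration of a window.** -/
theorem cfg_low (T : TS Ln ι S) (C : ℕ) (p : ι → ℝ) {m M : ℕ} {Kf Kl : ℝ}
    (hUB : ∀ F : Cfg Ln ι S, F.Ok T C p → F.M = M →
      Real.log (F.I.card : ℝ) ≤ Kl → F.D1 * F.nu ^ 2 ≤ Kf * F.D0)
    (hM1 : 1 ≤ M) {I A J : Finset (ℕ × ℝ)} (hA : A ⊆ I) (hJ : J ⊆ A)
    (hcl : ∀ x ∈ A, ∀ y ∈ I, lc (m + M) y = lc (m + M) x → y ∈ A)
    (L : ℕ → Ln) (f : ℕ → ℤ → ℕ) (b : ℕ → (ι → ℕ) × S) (a : ι → ℕ)
    (hmk : ∀ x ∈ A, T.mem (m + M) (zc (m + M) x.2) (b (f x.1 (zc (m + M) x.2))) (L x.1) ∧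
        T.adm (m + M) (zc (m + M) x.2) (b (f x.1 (zc (m + M) x.2))) ∧
        (b (f x.1 (zc (m + M) x.2))).1 = a)
    {D1 : ℝ} (hD1 : 0 < D1)
    (hsz : ∀ x ∈ A, D1 * T.cap p (m + M) a ≤
        (((alive A (m + M) (zc (m + M) x.2)).filter fun s =>
          f s (zc (m + M) x.2) = f x.1 (zc (m + M) x.2)).card : ℝ))
    {lu lv hv δ : ℝ} (hlu : 0 < lu) (hlv : 0 < lv) (hhv : 0 < hv) (hδ : 0 < δ)
    (fu : ∀ x ∈ I, lu ≤ ((I.filter fun y => lc m y = lc m x).card : ℝ))
    (fv : ∀ x ∈ I, lv ≤ ((I.filter fun y => lc (m + M) y = lc (m + M) x).card : ℝ) ∧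
      ((I.filter fun y => lc (m + M) y = lc (m + M) x).card : ℝ) ≤ hv)
    (hJc : 3 * δ * (I.card : ℝ) < (J.card : ℝ))
    (hlog : Real.log (I.card : ℝ) ≤ Kl)
    {D0 : ℝ} (hD0 : Kf * D0 < (δ * lv / hv * D1) * (δ * lu / hv) ^ 2) :
    ∃ (c : ℤ) (s : (ι → ℕ) × S), T.adm m c s ∧ Cl C m s.1 (m + M) a ∧
      D0 * T.cap p m s.1 < (((alive J m c).filter fun t => T.mem m c s (L t)).card : ℝ) := by
  set h : Fin 3 → (ℕ × ℝ) → Option (ℕ × ℤ) := ![fun y => some (lc m y),
    fun y => some (lc (m + M) y), fun y => if y ∈ A then some (kc (m + M) f y) else none] with hh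
  obtain ⟨J1, hJ1, hloss, hfib⟩ := prune_rel (η := fun _ => Option (ℕ × ℤ)) h (hJ.trans hA) hδ.le
  rw [Fintype.card_fin] at hloss
  push_cast at hloss
  have hJ1c : (0 : ℝ) < (J1.card : ℝ) := by linarith
  obtain ⟨x0, hx0⟩ := card_pos.1 (by exact_mod_cast hJ1c : 0 < J1.card)
  have g0 : ∀ x ∈ J1, δ * ((I.filter fun y => lc m y = lc m x).card : ℝ) ≤
      ((J1.filter fun y => lc m y = lc m x).card : ℝ) := by
    intro x hx
    have := hfib 0 x hx
    simp only [hh, Matrix.cons_val_zero, Option.some.injEq] at this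
    exact this
  have g1 : ∀ x ∈ J1, δ * ((I.filter fun y => lc (m + M) y = lc (m + M) x).card : ℝ) ≤
      ((J1.filter fun y => lc (m + M) y = lc (m + M) x).card : ℝ) := by
    intro x hx
    have := hfib 1 x hx
    have h2 : h 1 = fun y => some (lc (m + M) y) := rfl
    simp only [h2, Option.some.injEq] at this
    exact this
  have g2 : ∀ x ∈ J1, δ * ((A.filter fun y => kc (m + M) f y = kc (m + M) f x).card : ℝ) ≤
      ((J1.filter fun y => kc (m + M) f y = kc (m + M) f x).card : ℝ) := by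
    intro x hx
    have hxA := hJ (hJ1 hx)
    have h1 := hfib 2 x hx
    have h2 : h 2 = fun y => if y ∈ A then some (kc (m + M) f y) else none := rfl
    simp only [h2, if_pos hxA] at h1
    have e1 : (I.filter fun y => (if y ∈ A then some (kc (m + M) f y) else none) =
        some (kc (m + M) f x)) = A.filter fun y => kc (m + M) f y = kc (m + M) f x := by
      ext y
      rw [mem_filter, mem_filter]
      constructor
      · rintro ⟨hy, h3⟩
        by_cases hyA : y ∈ A
        · rw [if_pos hyA] at h3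
          exact ⟨hyA, Option.some.inj h3⟩
        · rw [if_neg hyA] at h3
          exact absurd h3 (by simp)
      · rintro ⟨hy, h3⟩
        refine ⟨hA hy, ?_⟩
        rw [if_pos hy, h3]
    have e2 : (J1.filter fun y => (if y ∈ A then some (kc (m + M) f y) else none) =
        some (kc (m + M) f x)) = J1.filter fun y => kc (m + M) f y = kc (m + M) f x := by
      ext y
      rw [mem_filter, mem_filter]
      constructor
      · rintro ⟨hy, h3⟩
        rw [if_pos (hJ (hJ1 hy))] at h3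
        exact ⟨hy, Option.some.inj h3⟩
      · rintro ⟨hy, h3⟩
        refine ⟨hy, ?_⟩
        rw [if_pos (hJ (hJ1 hy)), h3]
    rw [e1, e2] at h1
    exact h1
  -- the cell of `x0`
  set c0 : ℤ := zc m x0.2 with hc0
  set I' : Finset (ℕ × ℝ) := J1.filter fun y => zc m y.2 = c0 with hI'
  have hI'J1 : I' ⊆ J1 := filter_subset _ _
  have hx0' : x0 ∈ I' := by rw [hI', mem_filter]; exact ⟨hx0, rfl⟩
  have hcell : ∀ x ∈ I', zc m x.2 = c0 := fun x hx => (mem_filter.1 hx).2
  have hin : ∀ x ∈ I', ∀ y ∈ J1, zc m y.2 = zc m x.2 → y ∈ I' := by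
    intro x hx y hy hxy
    rw [hI', mem_filter]
    exact ⟨hy, hxy.trans (hcell x hx)⟩
  have f0 : ∀ x ∈ I', (I'.filter fun y => lc m y = lc m x) = J1.filter fun y => lc m y = lc m x := by
    intro x hx
    ext y
    exact ⟨fun h => mem_filter.2 ⟨hI'J1 (mem_filter.1 h).1, (mem_filter.1 h).2⟩,
      fun h => mem_filter.2 ⟨hin x hx y (mem_filter.1 h).1
        (Prod.mk.inj (mem_filter.1 h).2).2, (mem_filter.1 h).2⟩⟩
  have f1 : ∀ x ∈ I', (I'.filter fun y => lc (m + M) y = lc (m + M) x) =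
      J1.filter fun y => lc (m + M) y = lc (m + M) x := by
    intro x hx
    ext y
    exact ⟨fun h => mem_filter.2 ⟨hI'J1 (mem_filter.1 h).1, (mem_filter.1 h).2⟩,
      fun h => mem_filter.2 ⟨hin x hx y (mem_filter.1 h).1
        (Prod.mk.inj (lc_nested (Nat.le_add_right m M) (mem_filter.1 h).2)).2,
        (mem_filter.1 h).2⟩⟩
  have f2 : ∀ x ∈ I', (I'.filter fun y => kc (m + M) f y = kc (m + M) f x) =
      J1.filter fun y => kc (m + M) f y = kc (m + M) f x := by
    intro x hx
    ext y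
    exact ⟨fun h => mem_filter.2 ⟨hI'J1 (mem_filter.1 h).1, (mem_filter.1 h).2⟩,
      fun h => mem_filter.2 ⟨hin x hx y (mem_filter.1 h).1
        (zc_nested (Nat.le_add_right m M) (Prod.mk.inj (mem_filter.1 h).2).2),
        (mem_filter.1 h).2⟩⟩
  have hI'I : I' ⊆ I := hI'J1.trans (hJ1.trans (hJ.trans hA))
  have hI'A : I' ⊆ A := hI'J1.trans (hJ1.trans hJ)
  -- fibres of `I'`
  have up1 : ∀ x ∈ I', ((I'.filter fun y => lc (m + M) y = lc (m + M) x).card : ℝ) ≤ hv := by
    intro x hx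
    refine le_trans ?_ (fv x (hI'I hx)).2
    exact_mod_cast card_le_card (filter_subset_filter _ hI'I)
  have lowA : ∀ x ∈ A, lv ≤ ((A.filter fun y => lc (m + M) y = lc (m + M) x).card : ℝ) := by
    intro x hx
    refine (fv x (hA hx)).1.trans ?_
    have : (I.filter fun y => lc (m + M) y = lc (m + M) x) ⊆
        A.filter fun y => lc (m + M) y = lc (m + M) x := by
      intro y hy
      rw [mem_filter] at hy ⊢
      exact ⟨hcl x hx y hy.1 hy.2, hy.2⟩
    exact_mod_cast card_le_card this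
  -- class sizes of `I'`
  have hclass : ∀ x ∈ I', δ * lv / hv * D1 * T.cap p (m + M) a ≤
      (((alive I' (m + M) (zc (m + M) x.2)).filter fun s =>
          f s (zc (m + M) x.2) = f x.1 (zc (m + M) x.2)).card : ℝ) := by
    intro x hx
    have h1 := hsz x (hI'A hx)
    have h2 := class_fib_ge (f := f) lowA x
    have h3 := class_fib_le (f := f) up1 x
    have h4 := g2 x (hI'J1 hx)
    rw [← f2 x hx] at h4
    have h5 : δ * (lv * (D1 * T.cap p (m + M) a)) ≤
        hv * (((alive I' (m + M) (zc (m + M) x.2)).filter fun s =>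
          f s (zc (m + M) x.2) = f x.1 (zc (m + M) x.2)).card : ℝ) := by
      refine le_trans ?_ (h4.trans h3)
      refine mul_le_mul_of_nonneg_left ?_ hδ.le
      exact (mul_le_mul_of_nonneg_left h1 hlv.le).trans h2
    have h6 : δ * lv / hv * D1 * T.cap p (m + M) a =
        δ * (lv * (D1 * T.cap p (m + M) a)) / hv := by ring
    rw [h6, div_le_iff₀ hhv]
    linarith
  -- own counts of `I'`
  have hown : ∀ x ∈ I', δ * lu / hv ≤ ((own I' m (m + M) x).card : ℝ) := by
    intro x hx
    have h1 := own_lower (i := m) (j := m + M) up1 hx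
    have h2 := g0 x (hI'J1 hx)
    rw [← f0 x hx] at h2
    have h3 := fu x (hI'I hx)
    rw [div_le_iff₀ hhv]
    have h4 := (mul_le_mul_of_nonneg_left h3 hδ.le).trans (h2.trans h1)
    linarith
  by_contra hcon
  push Not at hcon
  set F : Cfg Ln ι S := ⟨m, M, I', L, f, b, a, D0, δ * lv / hv * D1, δ * lu / hv⟩ with hF
  have hOk : F.Ok T C p := by
    refine
      { M1 := hM1
        ne := ⟨x0, hx0'⟩
        cell := fun x hx y hy => (hcell x hx).trans (hcell y hy).symm
        D1p := ?_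
        nup := ?_
        top := ?_
        low := ?_
        own := hown
        up := ?_ }
    · change 0 < δ * lv / hv * D1
      positivity
    · change 0 < δ * lu / hv
      positivity
    · intro J0 t ht
      obtain ⟨y, hy, hy1, hy2⟩ := mem_alive.1 ht
      have h1 := hmk y (hI'A hy)
      rw [hy1, hy2] at h1
      exact h1
    · intro J0 t ht
      obtain ⟨y, hy, hy1, hy2⟩ := mem_alive.1 ht
      have h1 := hclass y hy
      rw [hy1, hy2] at h1
      exact h1
    · intro J0 s hs hcls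
      have h1 := hcon J0 s hs hcls
      refine le_trans ?_ h1
      exact_mod_cast card_le_card (filter_subset_filter _ (alive_mono (hI'J1.trans hJ1) _ _))
  have hcardI' : Real.log (F.I.card : ℝ) ≤ Kl := by
    refine le_trans (Real.log_le_log ?_ ?_) hlog
    · exact_mod_cast card_pos.2 ⟨x0, hx0'⟩
    · exact_mod_cast card_le_card hI'I
  have := hUB F hOk rfl hcardI'
  change δ * lv / hv * D1 * (δ * lu / hv) ^ 2 ≤ Kf * D0 at this
  linarith

end Crest.Agent.R116.Xa2794
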