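import Mathlib
import Crest.Agent.R116.Xa2_794

/-!
# R116 (K side), block X1-C, part 3 (helper794): sequences with own profile, LOW

* `Sq` : sequence of incidence sets with two-sided (line, cell) fibres, profile `Λ`;
* `low_seq` : every part `J` with `#J ≥ d^(η/20) #I` of a marked part has a test set at the lower
  level with more than `D0 cap_p` lines, as soon as `D0 ≤ d^η d^(b (v-u) + 2 (Λ v - Λ u)) D1`.
-/

set_option autoImplicit false

open Finset Filter Topology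

namespace Crest.Agent.R116.Xa3794

open Crest.Agent.R138.Ex926 Crest.Agent.R138.Dp76 Crest.Agent.R138.Ps627
open Crest.Agent.R138.Ps926 (dpow_small)
open Crest.Agent.R138.Mk163 (zc zl rho alive own)
open Crest.Agent.R138.MkRef627 (lc kc own_one alive_mono mem_alive card_class own_lower)
open Crest.Agent.R138.MkZoom779 (zc_nested)
open Crest.Agent.R116.Xa794 Crest.Agent.R116.Xa1794 Crest.Agent.R116.Xa2794

variable {Ln ι S : Type} [Fintype ι]

open Classical in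
/-- sequence of incidence sets with own profile `Λ`, one incidence per line and cell of level `1`. -/
structure Sq (B : Base) (I : ℕ → Finset (ℕ × ℝ)) (lev : ℕ → ℚ → ℕ) (Λ : ℝ → ℝ) : Prop where
  ne : ∀ᶠ n in (U : Filter ℕ), (I n).Nonempty
  card : ∀ ε : ℝ, 0 < ε → ∀ᶠ n in (U : Filter ℕ), Real.log ((I n).card : ℝ) ≤ B.d n ^ (-ε)
  lam0 : Λ 0 = 0
  lam : ∀ u v : ℝ, 0 ≤ u → u ≤ v → v ≤ 1 → 0 ≤ Λ v - Λ u ∧ Λ v - Λ u ≤ v - u
  lev_mono : ∀ u v : ℚ, 0 ≤ u → u ≤ v → v ≤ 1 → ∀ᶠ n in (U : Filter ℕ), lev n u ≤ lev n v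
  lev_lim : ∀ u v : ℚ, 0 ≤ u → u ≤ v → v ≤ 1 →
    Tendsto (fun n => ((lev n v : ℝ) - lev n u) * Real.log 2 / B.L n) U (𝓝 ((v : ℝ) - u))
  cell0 : ∀ᶠ n in (U : Filter ℕ), ∀ x ∈ I n, ∀ y ∈ I n, zc (lev n 0) x.2 = zc (lev n 0) y.2
  one : ∀ᶠ n in (U : Filter ℕ), ∀ x ∈ I n, ∀ y ∈ I n, x.1 = y.1 →
    zc (lev n 1) x.2 = zc (lev n 1) y.2 → x = y
  fib : ∀ v : ℚ, 0 ≤ v → v ≤ 1 → ∀ ε : ℝ, 0 < ε → ∀ᶠ n in (U : Filter ℕ), ∀ x ∈ I n,
      B.d n ^ (-(1 - (v : ℝ)) + (Λ 1 - Λ v) + ε) ≤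
        (((I n).filter fun y => lc (lev n v) y = lc (lev n v) x).card : ℝ) ∧
      (((I n).filter fun y => lc (lev n v) y = lc (lev n v) x).card : ℝ) ≤
        B.d n ^ (-(1 - (v : ℝ)) + (Λ 1 - Λ v) - ε)

theorem log_d (B : Base) (n : ℕ) : Real.log (B.d n) = - B.L n := by
  have : B.L n = - Real.log (B.d n) := rfl
  rw [this]; ring

/-- `2 ^ x` against powers of `d`. -/
theorem two_rpow_le {B : Base} {n : ℕ} {x e : ℝ} (h : x * Real.log 2 / B.L n ≤ e) :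
    (2 : ℝ) ^ x ≤ B.d n ^ (-e) := by
  have hL := B.L_pos n
  rw [div_le_iff₀ hL] at h
  rw [← Real.log_le_log_iff (Real.rpow_pos_of_pos two_pos _) (Real.rpow_pos_of_pos (B.pos n) _),
    Real.log_rpow two_pos, Real.log_rpow (B.pos n), log_d]
  linarith

theorem le_two_rpow {B : Base} {n : ℕ} {x e : ℝ} (h : e ≤ x * Real.log 2 / B.L n) :
    B.d n ^ (-e) ≤ (2 : ℝ) ^ x := by
  have hL := B.L_pos n
  rw [le_div_iff₀ hL] at h
  rw [← Real.log_le_log_iff (Real.rpow_pos_of_pos (B.pos n) _) (Real.rpow_pos_of_pos two_pos _),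
    Real.log_rpow two_pos, Real.log_rpow (B.pos n), log_d]
  linarith

section

variable {B : Base} {I : ℕ → Finset (ℕ × ℝ)} {lev : ℕ → ℚ → ℕ} {Λ : ℝ → ℝ}

theorem Sq.lev_ge (h : Sq B I lev Λ) {u v : ℚ} (hu : 0 ≤ u) (huv : u < v) (hv : v ≤ 1) (K : ℕ) :
    ∀ᶠ n in (U : Filter ℕ), lev n u + K ≤ lev n v := by
  have h1 := h.lev_lim u v hu huv.le hv
  have hpos : (0 : ℝ) < (v : ℝ) - u := by
    have : (u : ℝ) < v := by exact_mod_cast huv
    linarith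
  have h2 : ∀ᶠ n in (U : Filter ℕ), ((v : ℝ) - u) / 2 <
      ((lev n v : ℝ) - lev n u) * Real.log 2 / B.L n := h1.eventually_const_lt (by linarith)
  filter_upwards [h2, B.ev_L_ge ((K : ℝ) * 2 / ((v : ℝ) - u))] with n h3 h4
  have hL := B.L_pos n
  rw [lt_div_iff₀ hL] at h3
  rw [div_le_iff₀ hpos] at h4
  have hlog : Real.log 2 ≤ 1 := by
    have := Real.log_two_lt_d9
    linarith
  have hlog0 : 0 < Real.log 2 := Real.log_pos (by norm_num)
  have h5 : (K : ℝ) < ((lev n v : ℝ) - lev n u) * Real.log 2 := by nlinarith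
  have h6 : (0 : ℝ) ≤ (K : ℝ) := Nat.cast_nonneg _
  have h7 : (0 : ℝ) < (lev n v : ℝ) - lev n u := by
    by_contra hneg
    push Not at hneg
    have := mul_nonpos_of_nonpos_of_nonneg hneg hlog0.le
    linarith
  have h8 : (K : ℝ) < (lev n v : ℝ) - lev n u := by nlinarith
  have h9 : ((lev n u + K : ℕ) : ℝ) < (lev n v : ℝ) := by push_cast; linarith
  exact_mod_cast h9.le

open Classical in
/-- **LOW, sequence form.** -/
theorem low_seq (h : Sq B I lev Λ) (𝒯 : Set (TS Ln ι S)) (C : ℕ) (p : ι → ℝ) {bb : ℝ}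
    (hUB : UB 𝒯 C p bb) {T : ℕ → TS Ln ι S} (hT : ∀ n, T n ∈ 𝒯) {L : ℕ → ℕ → Ln}
    {u v : ℚ} (hu : 0 ≤ u) (huv : u < v) (hv : v ≤ 1)
    {A : ℕ → Finset (ℕ × ℝ)} (hA : ∀ n, A n ⊆ I n)
    (hcl : ∀ᶠ n in (U : Filter ℕ), ∀ x ∈ A n, ∀ y ∈ I n, lc (lev n v) y = lc (lev n v) x → y ∈ A n)
    {f : ℕ → ℕ → ℤ → ℕ} {b : ℕ → ℕ → (ι → ℕ) × S} {a : ℕ → ι → ℕ}
    (hmk : ∀ᶠ n in (U : Filter ℕ), ∀ x ∈ A n,
      (T n).mem (lev n v) (zc (lev n v) x.2) (b n (f n x.1 (zc (lev n v) x.2))) (L n x.1) ∧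
        (T n).adm (lev n v) (zc (lev n v) x.2) (b n (f n x.1 (zc (lev n v) x.2))) ∧
        (b n (f n x.1 (zc (lev n v) x.2))).1 = a n)
    {D1 : ℕ → ℝ} (hD1 : ∀ n, 0 < D1 n)
    (hsz : ∀ᶠ n in (U : Filter ℕ), ∀ x ∈ A n, D1 n * (T n).cap p (lev n v) (a n) ≤
        (((alive (A n) (lev n v) (zc (lev n v) x.2)).filter fun s =>
          f n s (zc (lev n v) x.2) = f n x.1 (zc (lev n v) x.2)).card : ℝ))
    {D0 : ℕ → ℝ} {η : ℝ} (hη : 0 < η)
    (hD : ∀ᶠ n in (U : Filter ℕ),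
      D0 n ≤ B.d n ^ (η + bb * ((v : ℝ) - u) + 2 * (Λ v - Λ u)) * D1 n) :
    ∀ᶠ n in (U : Filter ℕ), ∀ J ⊆ A n, B.d n ^ (η / 20) * ((I n).card : ℝ) ≤ (J.card : ℝ) →
      ∃ (c : ℤ) (s : (ι → ℕ) × S), (T n).adm (lev n u) c s ∧
        Cl C (lev n u) s.1 (lev n v) (a n) ∧
        D0 n * (T n).cap p (lev n u) s.1 <
          (((alive J (lev n u) c).filter fun t => (T n).mem (lev n u) c s (L n t)).card : ℝ) := by
  have huvR : (u : ℝ) < v := by exact_mod_cast huv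
  have hw0 : (0 : ℝ) < (v : ℝ) - u := by linarith
  have hw1 : (v : ℝ) - u ≤ 1 := by
    have h1 : (v : ℝ) ≤ 1 := by exact_mod_cast hv
    have h2 : (0 : ℝ) ≤ u := by exact_mod_cast hu
    linarith
  set w : ℝ := (v : ℝ) - u with hw
  obtain ⟨δ0, hδ0, M0, hM0⟩ := hUB (η / 10) (by positivity)
  have hlim := h.lev_lim u v hu huv.le hv
  -- the exponent of `Kf`
  have hlim2 : Tendsto (fun n => ((bb + η / 10 + 2) * ((lev n v : ℝ) - lev n u)) * Real.log 2 /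
      B.L n) U (𝓝 ((bb + η / 10 + 2) * w)) := by
    refine (hlim.const_mul (bb + η / 10 + 2)).congr fun n => ?_
    ring
  have hK : ∀ᶠ n in (U : Filter ℕ), ((bb + η / 10 + 2) * ((lev n v : ℝ) - lev n u)) * Real.log 2 /
      B.L n < (bb + η / 10 + 2) * w + η / 10 := hlim2.eventually_lt_const (by linarith [hη])
  have hlim3 : Tendsto (fun n => (δ0 * ((lev n v : ℝ) - lev n u)) * Real.log 2 /
      B.L n) U (𝓝 (δ0 * w)) := by
    refine (hlim.const_mul δ0).congr fun n => ?_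
    ring
  have hK2 : ∀ᶠ n in (U : Filter ℕ), δ0 * w / 2 < (δ0 * ((lev n v : ℝ) - lev n u)) * Real.log 2 /
      B.L n := hlim3.eventually_const_lt (by nlinarith [mul_pos hδ0 hw0])
  have hcard := h.card (δ0 * w / 2) (by positivity)
  have hfu := h.fib u hu (huv.le.trans hv) (η / 100) (by positivity)
  have hfv := h.fib v (hu.trans huv.le) hv (η / 100) (by positivity)
  have hsm : ∀ᶠ n in (U : Filter ℕ), B.d n ^ (η / 20) < 1 / 4 :=
    dpow_small B (c := η / 20) (by positivity) (by norm_num)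
  filter_upwards [hcl, hmk, hsz, hD, hK, hK2, hcard, hfu, hfv, hsm,
    h.lev_ge hu huv hv M0, h.lev_ge hu huv hv 1, h.ne] with n hcl hmk hsz hD hK hK2 hcard hfu hfv
    hsm hM0' hM1 hne J hJ hJc
  obtain ⟨M, hM⟩ : ∃ M, lev n v = lev n u + M := ⟨lev n v - lev n u, by omega⟩
  have hMR : (lev n v : ℝ) - lev n u = M := by rw [hM]; push_cast; ring
  have hM0'' : M0 ≤ M := by omega
  have hM1' : 1 ≤ M := by omega
  rw [hMR] at hK hK2
  rw [hM] at hcl hmk hsz hfv ⊢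
  have hIc : (0 : ℝ) < ((I n).card : ℝ) := by exact_mod_cast card_pos.2 hne
  refine cfg_low (T n) C p (Kf := (2 : ℝ) ^ ((bb + η / 10) * M) * 4 ^ M)
    (Kl := (2 : ℝ) ^ (δ0 * M)) ?_ hM1' (hA n) hJ hcl (L n) (f n) (b n) (a n) hmk (hD1 n) hsz
    (lu := B.d n ^ (-(1 - (u : ℝ)) + (Λ 1 - Λ u) + η / 100))
    (lv := B.d n ^ (-(1 - (v : ℝ)) + (Λ 1 - Λ v) + η / 100))
    (hv := B.d n ^ (-(1 - (v : ℝ)) + (Λ 1 - Λ v) - η / 100))
    (δ := B.d n ^ (η / 10)) (dpow_pos B n _) (dpow_pos B n _) (dpow_pos B n _) (dpow_pos B n _)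
    (fun x hx => (hfu x hx).1) hfv ?_ ?_ ?_
  · intro F hF hFM hFc
    have := hM0 (T n) (hT n) F hF (by rw [hFM]; exact hM0'') (by rw [hFM]; exact hFc)
    rw [hFM] at this
    exact this
  · -- density
    have e : B.d n ^ (η / 10) = B.d n ^ (η / 20) * B.d n ^ (η / 20) := by
      rw [← dpow_add]; congr 1; ring
    have hp := dpow_pos B n (η / 20)
    refine lt_of_lt_of_le ?_ hJc
    rw [e]
    have : 3 * (B.d n ^ (η / 20) * B.d n ^ (η / 20)) < B.d n ^ (η / 20) := by nlinarith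
    exact mul_lt_mul_of_pos_right this hIc
  · -- logarithmic size
    refine hcard.trans ?_
    exact le_two_rpow hK2.le
  · -- the numerical inequality
    have e1 : (2 : ℝ) ^ ((bb + η / 10) * M) * 4 ^ M = (2 : ℝ) ^ ((bb + η / 10 + 2) * M) := by
      have : (4 : ℝ) ^ M = (2 : ℝ) ^ (2 * (M : ℝ)) := by
        rw [Real.rpow_mul (by norm_num)]
        norm_num
      rw [this, ← Real.rpow_add two_pos]
      congr 1; ring
    rw [e1]
    have hKf : (2 : ℝ) ^ ((bb + η / 10 + 2) * M) ≤ B.d n ^ (-((bb + η / 10 + 2) * w + η / 10)) :=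
      two_rpow_le hK.le
    have hD1n := hD1 n
    have h1 : (2 : ℝ) ^ ((bb + η / 10 + 2) * M) * D0 n ≤
        (2 : ℝ) ^ ((bb + η / 10 + 2) * M) *
          (B.d n ^ (η + bb * w + 2 * (Λ v - Λ u)) * D1 n) :=
      mul_le_mul_of_nonneg_left hD (Real.rpow_pos_of_pos two_pos _).le
    have h2 : (2 : ℝ) ^ ((bb + η / 10 + 2) * M) *
          (B.d n ^ (η + bb * w + 2 * (Λ v - Λ u)) * D1 n) ≤
        B.d n ^ (-((bb + η / 10 + 2) * w + η / 10)) *
          (B.d n ^ (η + bb * w + 2 * (Λ v - Λ u)) * D1 n) :=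
      mul_le_mul_of_nonneg_right hKf (mul_pos (dpow_pos B n _) hD1n).le
    refine lt_of_le_of_lt (h1.trans h2) ?_
    have e2 : B.d n ^ (-((bb + η / 10 + 2) * w + η / 10)) *
          (B.d n ^ (η + bb * w + 2 * (Λ v - Λ u)) * D1 n) =
        B.d n ^ (η - η / 10 - η / 10 * w - 2 * w + 2 * (Λ v - Λ u)) * D1 n := by
      rw [← mul_assoc, ← dpow_add]
      congr 2; ring
    have e3 : B.d n ^ (η / 10) * B.d n ^ (-(1 - (v : ℝ)) + (Λ 1 - Λ v) + η / 100) /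
          B.d n ^ (-(1 - (v : ℝ)) + (Λ 1 - Λ v) - η / 100) * D1 n *
        (B.d n ^ (η / 10) * B.d n ^ (-(1 - (u : ℝ)) + (Λ 1 - Λ u) + η / 100) /
          B.d n ^ (-(1 - (v : ℝ)) + (Λ 1 - Λ v) - η / 100)) ^ 2 =
        B.d n ^ (3 * (η / 10) + 6 * (η / 100) - 2 * w + 2 * (Λ v - Λ u)) * D1 n := by
      rw [← dpow_add, ← Real.rpow_sub (B.pos n), ← dpow_add, ← Real.rpow_sub (B.pos n),
        ← Real.rpow_natCast, ← Real.rpow_mul (B.pos n).le, mul_right_comm, ← dpow_add]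
      congr 2
      rw [hw]; push_cast; ring
    rw [e2, e3]
    refine mul_lt_mul_of_pos_right ?_ hD1n
    refine Real.rpow_lt_rpow_of_exponent_gt (B.pos n) (B.lt n) ?_
    nlinarith

end

end Crest.Agent.R116.Xa3794
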