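import Mathlib
import Crest.Agent.R116.XaDef_794

/-!
# R116 (K side), block X1-C, class with container and resolution (helper794)

(332's cure, 439's detail (a).)  The class of test sets `TS`, the capacity `TS.cap` and the geometry
`geo` are those of `XaDef_794`.

* `Rng c r a` : the absolute dyadic widths `a` lie between `c` (container) and `r` (resolution).
* `Cfg`, `Cfg.Ok T C p` : configuration of the window `[m, m+M]`; all lines lie in ONE container `K`,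
  which is admissible at its own level `m0 ≤ m` and is kept in all windows; the bottom bound `D0` is
  asked for all admissible test sets with widths between `K.1` and `r`; class `C`: `r ≤ K.1 + C M`.
* `UB`, `gap` : as before, over the class `C`.
* `NormL 𝒯 C0 p` : a near-extremal configuration of ANY class contains one of class `C0`.
* `TrivB`, `Enemy` : the two other inputs.
* `Cont`, `XOut` : the output.
-/

set_option autoImplicit false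

open Finset Filter Topology

namespace Crest.Agent.R116.Xb794

open Crest.Agent.R138.Ex926 (Base U)
open Crest.Agent.R138.Mk163 (zc zl rho alive own)
open Crest.Agent.R136.MkA627 (Geo MkA)
open Crest.Agent.R116.Xa794 (TS geo)

section

variable {Ln ι S : Type} [Fintype ι]

/-- widths between the container and the resolution -/
def Rng (c r a : ι → ℕ) : Prop := ∀ j, c j ≤ a j ∧ a j ≤ r j

/-- finite configuration of the window `[m, m+M]`. -/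
structure Cfg (Ln ι S : Type) where
  m : ℕ
  M : ℕ
  /-- incidences (line number, height) -/
  I : Finset (ℕ × ℝ)
  /-- the lines -/
  L : ℕ → Ln
  /-- class of a line over a cell of level `m+M` -/
  f : ℕ → ℤ → ℕ
  /-- test set of a class -/
  b : ℕ → (ι → ℕ) × S
  /-- common widths of the marks -/
  a : ι → ℕ
  D0 : ℝ
  D1 : ℝ
  nu : ℝ
  /-- level of the container -/
  m0 : ℕ
  /-- cell of the container -/
  c0 : ℤ
  /-- the container -/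
  K : (ι → ℕ) × S
  /-- the resolution -/
  r : ι → ℕ

open Classical in
/-- validity of a configuration of class `C` at the rewards `p`. -/
structure Cfg.Ok (T : TS Ln ι S) (C : ℕ) (p : ι → ℝ) (F : Cfg Ln ι S) : Prop where
  M1 : 1 ≤ F.M
  ne : F.I.Nonempty
  cell : ∀ x ∈ F.I, ∀ y ∈ F.I, zc F.m x.2 = zc F.m y.2
  D1p : 0 < F.D1
  nup : 0 < F.nu
  m0m : F.m0 ≤ F.m
  Kadm : T.adm F.m0 F.c0 F.K
  cont : ∀ x ∈ F.I, zc F.m0 x.2 = F.c0 ∧ T.mem F.m0 F.c0 F.K (F.L x.1)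
  rng : Rng F.K.1 F.r F.a
  cls : ∀ j, F.r j ≤ F.K.1 j + C * F.M
  top : ∀ J : ℤ, ∀ t ∈ alive F.I (F.m + F.M) J,
    T.mem (F.m + F.M) J (F.b (F.f t J)) (F.L t) ∧ T.adm (F.m + F.M) J (F.b (F.f t J)) ∧
      (F.b (F.f t J)).1 = F.a
  low : ∀ J : ℤ, ∀ t ∈ alive F.I (F.m + F.M) J,
    F.D1 * T.cap p (F.m + F.M) F.a ≤
      (((alive F.I (F.m + F.M) J).filter fun s => F.f s J = F.f t J).card : ℝ)
  own : ∀ x ∈ F.I, F.nu ≤ ((own F.I F.m (F.m + F.M) x).card : ℝ)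
  up : ∀ J : ℤ, ∀ s : (ι → ℕ) × S, T.adm F.m J s → Rng F.K.1 F.r s.1 →
    (((alive F.I F.m J).filter fun t => T.mem F.m J s (F.L t)).card : ℝ) ≤
      F.D0 * T.cap p F.m s.1

/-- the gap of all configurations of class `C` at the rewards `p` is at most `b`. -/
def UB (𝒯 : Set (TS Ln ι S)) (C : ℕ) (p : ι → ℝ) (b : ℝ) : Prop :=
  ∀ η : ℝ, 0 < η → ∃ δ : ℝ, 0 < δ ∧ ∃ M0 : ℕ, ∀ T ∈ 𝒯, ∀ F : Cfg Ln ι S, F.Ok T C p → M0 ≤ F.M →
    Real.log (F.I.card : ℝ) ≤ (2 : ℝ) ^ (δ * F.M) →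
      F.D1 * F.nu ^ 2 ≤ (2 : ℝ) ^ ((b + η) * F.M) * 4 ^ F.M * F.D0

/-- the extremal gap -/
noncomputable def gap (𝒯 : Set (TS Ln ι S)) (C : ℕ) (p : ι → ℝ) : ℝ := sInf {b | UB 𝒯 C p b}

/-- **(V)** trivial bound of the class family, for all classes `C`. -/
def TrivB (𝒯 : Set (TS Ln ι S)) : Prop :=
  ∃ c : ℝ, 0 < c ∧ ∀ (C : ℕ) (p : ι → ℝ), (∀ j, 0 ≤ p j ∧ p j ≤ 4) → ∀ T ∈ 𝒯, ∀ F : Cfg Ln ι S,
    F.Ok T C p → F.D1 ≤ c * (2 : ℝ) ^ ((2 - ∑ j, p j) * F.M) * F.D0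

/-- **(E)** the enemy: the gap without rewards is positive, already in the class `C = 1`. -/
def Enemy (𝒯 : Set (TS Ln ι S)) : Prop := ∃ b0 : ℝ, 0 < b0 ∧ ¬ UB 𝒯 1 (fun _ => 0) b0

/-- **(N)** normalisation: a configuration of any class with gap `≥ 0` contains, up to `2^(-η M)`, a
configuration of the fixed class `C0` of the same window (smaller container, same lines and
widths). -/
def NormL (𝒯 : Set (TS Ln ι S)) (C0 : ℕ) (p : ι → ℝ) : Prop :=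
  ∀ (C : ℕ) (η : ℝ), 0 < η → ∃ δ : ℝ, 0 < δ ∧ ∃ M1 : ℕ, ∀ T ∈ 𝒯, ∀ F : Cfg Ln ι S, F.Ok T C p →
    M1 ≤ F.M → Real.log (F.I.card : ℝ) ≤ (2 : ℝ) ^ (δ * F.M) →
    4 ^ F.M * F.D0 ≤ F.D1 * F.nu ^ 2 →
      ∃ F' : Cfg Ln ι S, F'.Ok T C0 p ∧ F'.m = F.m ∧ F'.M = F.M ∧ F'.I ⊆ F.I ∧ F'.L = F.L ∧
        F'.a = F.a ∧ F'.D0 = F.D0 ∧ (∀ j, F.K.1 j ≤ F'.K.1 j ∧ F'.r j ≤ F.r j) ∧
        (2 : ℝ) ^ (-(η * F.M)) * F.D1 ≤ F'.D1 ∧ (2 : ℝ) ^ (-(η * F.M)) * F.nu ≤ F'.nu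

/-- all lines in one container, polynomial range. -/
structure Cont (B : Base) (I : ℕ → Finset (ℕ × ℝ)) (T : ℕ → TS Ln ι S) (L : ℕ → ℕ → Ln)
    (lev : ℕ → ℚ → ℕ) (m0 : ℕ → ℕ) (c0 : ℕ → ℤ) (K : ℕ → (ι → ℕ) × S) (r : ℕ → ι → ℕ) (C : ℕ) :
    Prop where
  lev : ∀ᶠ n in (U : Filter ℕ), m0 n ≤ lev n 0
  adm : ∀ᶠ n in (U : Filter ℕ), (T n).adm (m0 n) (c0 n) (K n)
  mem : ∀ᶠ n in (U : Filter ℕ), ∀ x ∈ I n, zc (m0 n) x.2 = c0 n ∧
    (T n).mem (m0 n) (c0 n) (K n) (L n x.1)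
  cls : ∀ᶠ n in (U : Filter ℕ), ∀ j, ((r n j : ℝ) - (K n).1 j) * Real.log 2 ≤ C * B.L n

/-- **the output of X1-C**: exactly linear widths `θ j (1 - v)`, gap `g`, own profile `Λ`; `dmax` at
every level for all admissible test sets with widths between the container and the resolution. -/
def XOut (𝒯 : Set (TS Ln ι S)) (C : ℕ) (q : ι → ℝ) (g : ℝ) (θ : ι → ℝ) : Prop :=
  ∃ (B : Base) (I : ℕ → Finset (ℕ × ℝ)) (T : ℕ → TS Ln ι S) (L : ℕ → ℕ → Ln) (lev : ℕ → ℚ → ℕ)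
    (A : ℕ → ℝ) (Λ : ℝ → ℝ) (f : ℕ → ℚ → ℕ → ℤ → ℕ) (b : ℕ → ℚ → ℕ → (ι → ℕ) × S)
    (vm : ℕ → ℚ → ℝ) (w : ι → ℕ → ℚ → ℝ) (m0 : ℕ → ℕ) (c0 : ℕ → ℤ) (K : ℕ → (ι → ℕ) × S)
    (r : ℕ → ι → ℕ),
    (∀ n, T n ∈ 𝒯) ∧ Cont B I T L lev m0 c0 K r C ∧
    MkA B I
      { geo T q L with adm := fun n i J s => (T n).adm i J s ∧ Rng (K n).1 (r n) s.1 }
      lev A (fun v => g * v + 2 * Λ v) Λ (fun j v => θ j * (1 - v)) f b vm w

end

end Crest.Agent.R116.Xb794
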