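import Mathlib
import Crest.Agent.R116.XcDef_794
import Crest.Agent.R116.Xa2_794

/-!
# R116 (K side), block X1-C, class `Xc`, part 1 (helper794): finite lemmas

* `extractV`, `extractC` : greedy extraction of classes (of one common shape) at one level, general
  capacity `V`;
* `cfg_lowC` : a marked part with two-sided fibres contains a configuration of the window `[m, m+M]`,
  hence (UB) a test set at the bottom level with more than `D0 cap` lines.
-/

set_option autoImplicit false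

open Finset Filter Topology

namespace Crest.Agent.R116.Xc1794

open Crest.Agent.R138.Ex926 Crest.Agent.R138.Dp76 Crest.Agent.R138.Ps627
open Crest.Agent.R138.Mk163 (zc zl rho alive own)
open Crest.Agent.R138.MkRef627 (lc kc own_one alive_mono mem_alive card_class own_lower)
open Crest.Agent.R138.MkZoom779 (zc_nested)
open Crest.Agent.R116.Xa794 (TS)
open Crest.Agent.R116.Xa2794 (lc_nested class_fib_ge class_fib_le)
open Crest.Agent.R116.Xc794

variable {Ln ι S : Type} [Fintype ι]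

theorem capP_pos (T : TS Ln ι S) (Ψ : ℝ → (ι → ℝ) → ℝ) (m' : ℕ) (a : ι → ℕ) (i : ℕ)
    (s : ι → ℕ) : 0 < capP T Ψ m' a i s := by
  unfold capP
  exact mul_pos (T.volpos i s) (Real.rpow_pos_of_pos two_pos _)

open Classical in
/-- **greedy extraction of classes at the level `i`**. -/
theorem extractV [Nonempty S] (T : TS Ln ι S) (V : (ι → ℕ) → ℝ) (hV : ∀ a, 0 < V a) (i : ℕ)
    (L : ℕ → Ln) (I : Finset (ℕ × ℝ)) {t : ℝ} (ht : 0 < t) :
    ∃ A ⊆ I, ∃ f : ℕ → ℤ → ℕ, ∃ b : ℕ → (ι → ℕ) × S,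
      (∀ x ∈ A, ∀ y ∈ I, lc i y = lc i x → y ∈ A) ∧
      (∀ x ∈ A, T.mem i (zc i x.2) (b (f x.1 (zc i x.2))) (L x.1) ∧
        T.adm i (zc i x.2) (b (f x.1 (zc i x.2)))) ∧
      (∀ x ∈ A, t * V (b (f x.1 (zc i x.2))).1 ≤
        (((alive A i (zc i x.2)).filter fun s => f s (zc i x.2) = f x.1 (zc i x.2)).card : ℝ)) ∧
      (∀ R ⊆ I, (∀ x ∈ R, x ∉ A) → ∀ (J : ℤ) (s : (ι → ℕ) × S), T.adm i J s →
        (((alive R i J).filter fun t => T.mem i J s (L t)).card : ℝ) ≤
          t * V s.1) := by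
  obtain ⟨A, hA, cl, h1, h2, h3, h4⟩ := greedy_sub (κ := ℤ × ((ι → ℕ) × S)) (lc i)
    (fun K o => K.1 = o.2 ∧ T.adm i K.1 K.2 ∧ T.mem i K.1 K.2 (L o.1))
    (fun K => V K.2.1) (fun K => hV K.2.1) ht I
  set F : Finset (ℤ × ((ι → ℕ) × S)) := (A.image (lc i)).image cl with hF
  obtain ⟨e, he⟩ := Set.countable_iff_exists_injOn.1 F.countable_toSet
  have hinv : ∀ x ∈ A, Function.invFunOn e (F : Set (ℤ × ((ι → ℕ) × S))) (e (cl (lc i x))) =
      cl (lc i x) := by
    intro x hx
    have hmem : cl (lc i x) ∈ (F : Set (ℤ × ((ι → ℕ) × S))) := by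
      rw [hF]
      exact mem_coe.2 (mem_image_of_mem _ (mem_image_of_mem _ hx))
    exact he.leftInvOn_invFunOn hmem
  refine ⟨A, hA, fun s c => e (cl (s, c)),
    fun m => (Function.invFunOn e (F : Set (ℤ × ((ι → ℕ) × S))) m).2, h1, ?_, ?_, ?_⟩
  · intro x hx
    have e1 := hinv x hx
    have e2 := h2 x hx
    have e3 : (x.1, zc i x.2) = lc i x := rfl
    simp only [e3, e1]
    obtain ⟨m1, m2, m4⟩ := e2
    have m1' : (cl (lc i x)).1 = zc i x.2 := m1
    rw [m1'] at m2 m4
    exact ⟨m4, m2⟩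
  · intro x hx
    have e1 := hinv x hx
    have e3 : (x.1, zc i x.2) = lc i x := rfl
    simp only [e3, e1]
    refine (h3 x hx).trans ?_
    have key : ∀ o, o ∈ (A.image (lc i)).filter (fun o => cl o = cl (lc i x)) →
        o.2 = zc i x.2 ∧ o.1 ∈ (alive A i (zc i x.2)).filter
          (fun s => e (cl (s, zc i x.2)) = e (cl (lc i x))) := by
      intro o ho
      rw [mem_filter] at ho
      obtain ⟨ho1, ho2⟩ := ho
      obtain ⟨y, hy, rfl⟩ := mem_image.1 ho1
      have c1 : (cl (lc i y)).1 = (lc i y).2 := (h2 y hy).1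
      have c2 : (cl (lc i x)).1 = (lc i x).2 := (h2 x hx).1
      have c3 : (lc i y).2 = zc i x.2 := by rw [← c1, ho2, c2]; rfl
      refine ⟨c3, ?_⟩
      have c4 : ((lc i y).1, zc i x.2) = lc i y := by rw [← c3]
      rw [mem_filter, mem_alive]
      refine ⟨⟨y, hy, rfl, c3⟩, ?_⟩
      rw [c4, ho2]
    have := card_le_card_of_injOn (s := (A.image (lc i)).filter (fun o => cl o = cl (lc i x)))
      (t := (alive A i (zc i x.2)).filter (fun s => e (cl (s, zc i x.2)) = e (cl (lc i x))))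
      Prod.fst (fun o ho => (key o ho).2) (fun o ho o' ho' h => by
        exact Prod.ext h ((key o ho).1.trans (key o' ho').1.symm))
    exact_mod_cast (by convert this)
  · intro R hR hRA J s hs
    refine le_trans ?_ (h4 (J, s)).le
    have := card_le_card_of_injOn (s := (alive R i J).filter (fun t => T.mem i J s (L t)))
      (t := ((I \ A).image (lc i)).filter fun o => (J, s).1 = o.2 ∧ T.adm i (J, s).1 (J, s).2 ∧
          T.mem i (J, s).1 (J, s).2 (L o.1))
      (fun t => (t, J)) (fun t ht => by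
        simp only [coe_filter, Set.mem_ofPred_eq, mem_alive] at ht
        obtain ⟨⟨y, hy, hy1, hy2⟩, ht2⟩ := ht
        simp only [coe_filter, Set.mem_ofPred_eq]
        refine ⟨mem_image.2 ⟨y, mem_sdiff.2 ⟨hR hy, hRA y hy⟩, ?_⟩, trivial, hs, ht2⟩
        simp only [lc, hy1, hy2]) (fun t _ t' _ h => (Prod.mk.inj h).1)
    exact_mod_cast (by convert this)

open Classical in
/-- shapes with exponents `≤ N` -/
noncomputable def boxN (N : ℕ) : Finset (ι → ℕ) :=
  Fintype.piFinset fun _ => Finset.range (N + 1)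

theorem mem_boxN {N : ℕ} {a : ι → ℕ} (h : ∀ j, a j ≤ N) : a ∈ boxN (ι := ι) N := by
  classical
  unfold boxN
  rw [Fintype.mem_piFinset]
  intro j
  rw [mem_range]
  have := h j
  omega

theorem card_boxN (N : ℕ) : (boxN (ι := ι) N).card = (N + 1) ^ Fintype.card ι := by
  classical
  unfold boxN
  rw [Fintype.card_piFinset]
  simp [Finset.prod_const, Finset.card_univ]

open Classical in
/-- **greedy extraction with one common shape**. -/
theorem extractC [Nonempty S] (T : TS Ln ι S) (V : (ι → ℕ) → ℝ) (hV : ∀ a, 0 < V a) (N i : ℕ)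
    (hN : ∀ (J : ℤ) (s : (ι → ℕ) × S), T.adm i J s → ∀ j, s.1 j ≤ N)
    (L : ℕ → Ln) (I : Finset (ℕ × ℝ)) {t : ℝ} (ht : 0 < t) :
    ∃ A0 ⊆ I, ∃ A ⊆ A0, ∃ f : ℕ → ℤ → ℕ, ∃ b : ℕ → (ι → ℕ) × S, ∃ a : ι → ℕ,
      ((A0.card : ℝ) ≤ ((N : ℝ) + 1) ^ Fintype.card ι * A.card) ∧
      (∀ x ∈ A, ∀ y ∈ I, lc i y = lc i x → y ∈ A) ∧
      (∀ x ∈ A, T.mem i (zc i x.2) (b (f x.1 (zc i x.2))) (L x.1) ∧
        T.adm i (zc i x.2) (b (f x.1 (zc i x.2))) ∧ (b (f x.1 (zc i x.2))).1 = a) ∧
      (∀ x ∈ A, t * V a ≤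
        (((alive A i (zc i x.2)).filter fun s => f s (zc i x.2) = f x.1 (zc i x.2)).card : ℝ)) ∧
      (∀ Q ⊆ I, (∀ x ∈ Q, x ∉ A0) → ∀ (J : ℤ) (s : (ι → ℕ) × S), T.adm i J s →
        (((alive Q i J).filter fun t => T.mem i J s (L t)).card : ℝ) ≤
          t * V s.1) := by
  obtain ⟨A0, hA0, f, b, h1, h2, h3, h4⟩ := extractV T V hV i L I ht
  set φ : ℕ × ℝ → ι → ℕ := fun x => (b (f x.1 (zc i x.2))).1 with hφ
  have hmaps : ∀ x ∈ A0, φ x ∈ boxN N := fun x hx => mem_boxN (hN _ _ (h2 x hx).2)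
  obtain ⟨a, ha⟩ : ∃ a : ι → ℕ, ((A0.card : ℝ) ≤
      ((boxN (ι := ι) N).card : ℝ) * ((A0.filter fun x => φ x = a).card : ℝ)) := by
    by_contra hcon
    push Not at hcon
    by_cases hb : (boxN (ι := ι) N).Nonempty
    · have e1 : (A0.card : ℝ) = ∑ a ∈ boxN (ι := ι) N, ((A0.filter fun x => φ x = a).card : ℝ) := by
        rw [card_eq_sum_card_fiberwise (f := φ) (s := A0) (t := boxN (ι := ι) N)
          (fun x hx => mem_coe.2 (hmaps x (mem_coe.1 hx)))]
        push_cast; rfl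
      have hbp : (0 : ℝ) < ((boxN (ι := ι) N).card : ℝ) := by exact_mod_cast card_pos.2 hb
      have e2 : ∑ a ∈ boxN (ι := ι) N, ((A0.filter fun x => φ x = a).card : ℝ) <
          ∑ _a ∈ boxN (ι := ι) N, (A0.card : ℝ) / ((boxN (ι := ι) N).card : ℝ) := by
        refine sum_lt_sum_of_nonempty hb fun a _ => ?_
        rw [lt_div_iff₀ hbp]
        have := hcon a
        linarith
      rw [sum_const, nsmul_eq_mul, mul_div_cancel₀ _ hbp.ne'] at e2
      linarith
    · have hA : A0 = ∅ := by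
        rw [Finset.eq_empty_iff_forall_notMem]
        intro x hx
        exact hb ⟨_, hmaps x hx⟩
      have := hcon (fun _ => 0)
      rw [hA] at this
      simp at this
  refine ⟨A0, hA0, A0.filter fun x => φ x = a, filter_subset _ _, f, b, a, ?_, ?_, ?_, ?_, h4⟩
  · refine ha.trans (mul_le_mul_of_nonneg_right ?_ (Nat.cast_nonneg _))
    rw [card_boxN]
    push_cast
    exact le_rfl
  · intro x hx y hy hxy
    rw [mem_filter] at hx ⊢
    refine ⟨h1 x hx.1 y hy hxy, ?_⟩
    obtain ⟨e1, e2⟩ := Prod.mk.inj hxy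
    rw [← hx.2]
    simp only [hφ, e1, e2]
  · intro x hx
    rw [mem_filter] at hx
    obtain ⟨m1, m2⟩ := h2 x hx.1
    exact ⟨m1, m2, hx.2⟩
  · intro x hx
    have hx' := hx
    rw [mem_filter] at hx
    have m4 : (b (f x.1 (zc i x.2))).1 = a := hx.2
    have := h3 x hx.1
    rw [m4] at this
    refine this.trans ?_
    have hsub : ((alive A0 i (zc i x.2)).filter fun s => f s (zc i x.2) = f x.1 (zc i x.2)) ⊆
        (alive (A0.filter fun x => φ x = a) i (zc i x.2)).filter
          fun s => f s (zc i x.2) = f x.1 (zc i x.2) := by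
      intro s hs
      rw [mem_filter, mem_alive] at hs
      obtain ⟨⟨y, hy, hy1, hy2⟩, hs2⟩ := hs
      rw [mem_filter, mem_alive]
      refine ⟨⟨y, ?_, hy1, hy2⟩, hs2⟩
      rw [mem_filter]
      refine ⟨hy, ?_⟩
      simp only [hφ, hy1, hy2, hs2]
      exact m4
    exact_mod_cast card_le_card hsub

open Classical in
/-- **the configuration of a window.** -/
theorem cfg_lowC (T : TS Ln ι S) (Ψ : ℝ → (ι → ℝ) → ℝ) {m M N : ℕ} {Kf Kl : ℝ}
    (hfin : ∀ (i : ℕ) (J : ℤ) (s : (ι → ℕ) × S), T.adm i J s → ∀ j, s.1 j ≤ N)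
    (hUB : ∀ F : Cfg Ln ι S, F.Ok T Ψ → F.M = M → F.N = N →
      Real.log (F.I.card : ℝ) ≤ Kl → F.D1 * F.nu ^ 2 ≤ Kf * F.D0)
    (hM1 : 1 ≤ M) {I A J : Finset (ℕ × ℝ)} (hA : A ⊆ I) (hJ : J ⊆ A)
    (hcl : ∀ x ∈ A, ∀ y ∈ I, lc (m + M) y = lc (m + M) x → y ∈ A)
    (L : ℕ → Ln) (f : ℕ → ℤ → ℕ) (b : ℕ → (ι → ℕ) × S) (a : ι → ℕ)
    (hmk : ∀ x ∈ A, T.mem (m + M) (zc (m + M) x.2) (b (f x.1 (zc (m + M) x.2))) (L x.1) ∧
        T.adm (m + M) (zc (m + M) x.2) (b (f x.1 (zc (m + M) x.2))) ∧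
        (b (f x.1 (zc (m + M) x.2))).1 = a)
    {D1 : ℝ} (hD1 : 0 < D1)
    (hsz : ∀ x ∈ A, D1 * T.vol (m + M) a ≤
        (((alive A (m + M) (zc (m + M) x.2)).filter fun s =>
          f s (zc (m + M) x.2) = f x.1 (zc (m + M) x.2)).card : ℝ))
    {lu lv hv δ : ℝ} (hlu : 0 < lu) (hlv : 0 < lv) (hhv : 0 < hv) (hδ : 0 < δ)
    (fu : ∀ x ∈ I, lu ≤ ((I.filter fun y => lc m y = lc m x).card : ℝ))
    (fv : ∀ x ∈ I, lv ≤ ((I.filter fun y => lc (m + M) y = lc (m + M) x).card : ℝ) ∧
      ((I.filter fun y => lc (m + M) y = lc (m + M) x).card : ℝ) ≤ hv)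
    (hJc : 3 * δ * (I.card : ℝ) < (J.card : ℝ))
    (hlog : Real.log (I.card : ℝ) ≤ Kl)
    {D0 : ℝ} (hD0 : Kf * D0 < (δ * lv / hv * D1) * (δ * lu / hv) ^ 2) :
    ∃ (c : ℤ) (s : (ι → ℕ) × S), T.adm m c s ∧
      D0 * capP T Ψ (m + M) a m s.1 < (((alive J m c).filter fun t => T.mem m c s (L t)).card : ℝ) := by
  set h : Fin 3 → (ℕ × ℝ) → Option (ℕ × ℤ) := ![fun y => some (lc m y),
    fun y => some (lc (m + M) y), fun y => if y ∈ A then some (kc (m + M) f y) else none] with hh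
  obtain ⟨J1, hJ1, hloss, hfib⟩ := prune_rel (η := fun _ => Option (ℕ × ℤ)) h (hJ.trans hA) hδ.le
  rw [Fintype.card_fin] at hloss
  push_cast at hloss
  have hJ1c : (0 : ℝ) < (J1.card : ℝ) := by linarith
  obtain ⟨x0, hx0⟩ := card_pos.1 (by exact_mod_cast hJ1c : 0 < J1.card)
  have g0 : ∀ x ∈ J1, δ * ((I.filter fun y => lc m y = lc m x).card : ℝ) ≤
      ((J1.filter fun y => lc m y = lc m x).card : ℝ) := by
    intro x hx
    have := hfib 0 x hx
    simp only [hh, Matrix.cons_val_zero, Option.some.injEq] at this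
    exact this
  have g1 : ∀ x ∈ J1, δ * ((I.filter fun y => lc (m + M) y = lc (m + M) x).card : ℝ) ≤
      ((J1.filter fun y => lc (m + M) y = lc (m + M) x).card : ℝ) := by
    intro x hx
    have := hfib 1 x hx
    have h2 : h 1 = fun y => some (lc (m + M) y) := rfl
    simp only [h2, Option.some.injEq] at this
    exact this
  have g2 : ∀ x ∈ J1, δ * ((A.filter fun y => kc (m + M) f y = kc (m + M) f x).card : ℝ) ≤
      ((J1.filter fun y => kc (m + M) f y = kc (m + M) f x).card : ℝ) := by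
    intro x hx
    have hxA := hJ (hJ1 hx)
    have h1 := hfib 2 x hx
    have h2 : h 2 = fun y => if y ∈ A then some (kc (m + M) f y) else none := rfl
    simp only [h2, if_pos hxA] at h1
    have e1 : (I.filter fun y => (if y ∈ A then some (kc (m + M) f y) else none) =
        some (kc (m + M) f x)) = A.filter fun y => kc (m + M) f y = kc (m + M) f x := by
      ext y
      rw [mem_filter, mem_filter]
      constructor
      · rintro ⟨hy, h3⟩
        by_cases hyA : y ∈ A
        · rw [if_pos hyA] at h3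
          exact ⟨hyA, Option.some.inj h3⟩
        · rw [if_neg hyA] at h3
          exact absurd h3 (by simp)
      · rintro ⟨hy, h3⟩
        refine ⟨hA hy, ?_⟩
        rw [if_pos hy, h3]
    have e2 : (J1.filter fun y => (if y ∈ A then some (kc (m + M) f y) else none) =
        some (kc (m + M) f x)) = J1.filter fun y => kc (m + M) f y = kc (m + M) f x := by
      ext y
      rw [mem_filter, mem_filter]
      constructor
      · rintro ⟨hy, h3⟩
        rw [if_pos (hJ (hJ1 hy))] at h3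
        exact ⟨hy, Option.some.inj h3⟩
      · rintro ⟨hy, h3⟩
        refine ⟨hy, ?_⟩
        rw [if_pos (hJ (hJ1 hy)), h3]
    rw [e1, e2] at h1
    exact h1
  -- the cell of `x0`
  set c0 : ℤ := zc m x0.2 with hc0
  set I' : Finset (ℕ × ℝ) := J1.filter fun y => zc m y.2 = c0 with hI'
  have hI'J1 : I' ⊆ J1 := filter_subset _ _
  have hx0' : x0 ∈ I' := by rw [hI', mem_filter]; exact ⟨hx0, rfl⟩
  have hcell : ∀ x ∈ I', zc m x.2 = c0 := fun x hx => (mem_filter.1 hx).2
  have hin : ∀ x ∈ I', ∀ y ∈ J1, zc m y.2 = zc m x.2 → y ∈ I' := by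
    intro x hx y hy hxy
    rw [hI', mem_filter]
    exact ⟨hy, hxy.trans (hcell x hx)⟩
  have f0 : ∀ x ∈ I', (I'.filter fun y => lc m y = lc m x) = J1.filter fun y => lc m y = lc m x := by
    intro x hx
    ext y
    exact ⟨fun h => mem_filter.2 ⟨hI'J1 (mem_filter.1 h).1, (mem_filter.1 h).2⟩,
      fun h => mem_filter.2 ⟨hin x hx y (mem_filter.1 h).1
        (Prod.mk.inj (mem_filter.1 h).2).2, (mem_filter.1 h).2⟩⟩
  have f1 : ∀ x ∈ I', (I'.filter fun y => lc (m + M) y = lc (m + M) x) =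
      J1.filter fun y => lc (m + M) y = lc (m + M) x := by
    intro x hx
    ext y
    exact ⟨fun h => mem_filter.2 ⟨hI'J1 (mem_filter.1 h).1, (mem_filter.1 h).2⟩,
      fun h => mem_filter.2 ⟨hin x hx y (mem_filter.1 h).1
        (Prod.mk.inj (lc_nested (Nat.le_add_right m M) (mem_filter.1 h).2)).2,
        (mem_filter.1 h).2⟩⟩
  have f2 : ∀ x ∈ I', (I'.filter fun y => kc (m + M) f y = kc (m + M) f x) =
      J1.filter fun y => kc (m + M) f y = kc (m + M) f x := by
    intro x hx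
    ext y
    exact ⟨fun h => mem_filter.2 ⟨hI'J1 (mem_filter.1 h).1, (mem_filter.1 h).2⟩,
      fun h => mem_filter.2 ⟨hin x hx y (mem_filter.1 h).1
        (zc_nested (Nat.le_add_right m M) (Prod.mk.inj (mem_filter.1 h).2).2),
        (mem_filter.1 h).2⟩⟩
  have hI'I : I' ⊆ I := hI'J1.trans (hJ1.trans (hJ.trans hA))
  have hI'A : I' ⊆ A := hI'J1.trans (hJ1.trans hJ)
  -- fibres of `I'`
  have up1 : ∀ x ∈ I', ((I'.filter fun y => lc (m + M) y = lc (m + M) x).card : ℝ) ≤ hv := by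
    intro x hx
    refine le_trans ?_ (fv x (hI'I hx)).2
    exact_mod_cast card_le_card (filter_subset_filter _ hI'I)
  have lowA : ∀ x ∈ A, lv ≤ ((A.filter fun y => lc (m + M) y = lc (m + M) x).card : ℝ) := by
    intro x hx
    refine (fv x (hA hx)).1.trans ?_
    have : (I.filter fun y => lc (m + M) y = lc (m + M) x) ⊆
        A.filter fun y => lc (m + M) y = lc (m + M) x := by
      intro y hy
      rw [mem_filter] at hy ⊢
      exact ⟨hcl x hx y hy.1 hy.2, hy.2⟩
    exact_mod_cast card_le_card this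
  -- class sizes of `I'`
  have hclass : ∀ x ∈ I', δ * lv / hv * D1 * T.vol (m + M) a ≤
      (((alive I' (m + M) (zc (m + M) x.2)).filter fun s =>
          f s (zc (m + M) x.2) = f x.1 (zc (m + M) x.2)).card : ℝ) := by
    intro x hx
    have h1 := hsz x (hI'A hx)
    have h2 := class_fib_ge (f := f) lowA x
    have h3 := class_fib_le (f := f) up1 x
    have h4 := g2 x (hI'J1 hx)
    rw [← f2 x hx] at h4
    have h5 : δ * (lv * (D1 * T.vol (m + M) a)) ≤
        hv * (((alive I' (m + M) (zc (m + M) x.2)).filter fun s =>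
          f s (zc (m + M) x.2) = f x.1 (zc (m + M) x.2)).card : ℝ) := by
      refine le_trans ?_ (h4.trans h3)
      refine mul_le_mul_of_nonneg_left ?_ hδ.le
      exact (mul_le_mul_of_nonneg_left h1 hlv.le).trans h2
    have h6 : δ * lv / hv * D1 * T.vol (m + M) a =
        δ * (lv * (D1 * T.vol (m + M) a)) / hv := by ring
    rw [h6, div_le_iff₀ hhv]
    linarith
  -- own counts of `I'`
  have hown : ∀ x ∈ I', δ * lu / hv ≤ ((own I' m (m + M) x).card : ℝ) := by
    intro x hx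
    have h1 := own_lower (i := m) (j := m + M) up1 hx
    have h2 := g0 x (hI'J1 hx)
    rw [← f0 x hx] at h2
    have h3 := fu x (hI'I hx)
    rw [div_le_iff₀ hhv]
    have h4 := (mul_le_mul_of_nonneg_left h3 hδ.le).trans (h2.trans h1)
    linarith
  by_contra hcon
  push Not at hcon
  set F : Cfg Ln ι S := ⟨m, M, I', L, f, b, a, D0, δ * lv / hv * D1, δ * lu / hv, N⟩ with hF
  have hOk : F.Ok T Ψ := by
    refine
      { M1 := hM1
        ne := ⟨x0, hx0'⟩
        cell := fun x hx y hy => (hcell x hx).trans (hcell y hy).symm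
        D1p := ?_
        nup := ?_
        fin := hfin
        top := ?_
        low := ?_
        own := hown
        up := ?_ }
    · change 0 < δ * lv / hv * D1
      positivity
    · change 0 < δ * lu / hv
      positivity
    · intro J0 t ht
      obtain ⟨y, hy, hy1, hy2⟩ := mem_alive.1 ht
      have h1 := hmk y (hI'A hy)
      rw [hy1, hy2] at h1
      exact h1
    · intro J0 t ht
      obtain ⟨y, hy, hy1, hy2⟩ := mem_alive.1 ht
      have h1 := hclass y hy
      rw [hy1, hy2] at h1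
      exact h1
    · intro J0 s hs
      have h1 := hcon J0 s hs
      refine le_trans ?_ h1
      exact_mod_cast card_le_card (filter_subset_filter _ (alive_mono (hI'J1.trans hJ1) _ _))
  have hcardI' : Real.log (F.I.card : ℝ) ≤ Kl := by
    refine le_trans (Real.log_le_log ?_ ?_) hlog
    · exact_mod_cast card_pos.2 ⟨x0, hx0'⟩
    · exact_mod_cast card_le_card hI'I
  have := hUB F hOk rfl rfl hcardI'
  change δ * lv / hv * D1 * (δ * lu / hv) ^ 2 ≤ Kf * D0 at this
  linarith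

end Crest.Agent.R116.Xc1794
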