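import Mathlib
import Crest.Agent.R116.Xc7_794

/-!
# R116 (K side), block X1-C, class `Xc` (helper332), [P2] of 794's cut 17670: the final diagonal

`final_diag` : marks with linear widths at every finite set of levels (different parts `J`, maps and
directions `θ`) => ONE part `J` with marks at ALL rational levels of `[0,1]` and one direction `θ`.
-/

set_option autoImplicit false
set_option linter.unusedSectionVars false

open Finset Filter Topology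

namespace Crest.Agent.R116.XcD332

open Crest.Agent.R138.Ex926 Crest.Agent.R138.Dp76 Crest.Agent.R138.Ps627
open Crest.Agent.R138.Ps926
open Crest.Agent.R138.Mk163 (zc zl rho alive own Negl)
open Crest.Agent.R138.MkRef627 (lc kc own_one alive_mono mem_alive card_class own_lower exists_num)
open Crest.Agent.R136.MkA627 (ampA Geo MkA)
open Crest.Agent.R116.Xa794 (TS)
open Crest.Agent.R116.Xa3794
open Crest.Agent.R116.Xc794 Crest.Agent.R116.Xc3794 Crest.Agent.R116.Xc4794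
open Crest.Agent.R116.Xc7794

variable {Ln ι S : Type} [Fintype ι]

/-- the finite set of levels of the stage `k` -/
noncomputable def wk (k : ℕ) : Finset ℚ :=
  ((Finset.range k).image (fun j => Denumerable.ofNat ℚ j)).filter
    fun u => 0 ≤ u ∧ u < 1 - 1 / ((k : ℚ) + 2)

theorem mem_wk {k : ℕ} {u : ℚ} (h : u ∈ wk k) : 0 ≤ u ∧ u < 1 - 1 / ((k : ℚ) + 2) :=
  (mem_filter.1 h).2

/-- every rational level below `1` is in the finite set of almost every stage -/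
theorem ev_mem_wk {u : ℚ} (h0 : 0 ≤ u) (h1 : u < 1) : ∃ K : ℕ, ∀ k, K ≤ k → u ∈ wk k := by
  obtain ⟨j, hj⟩ := exists_num u
  obtain ⟨m, hm⟩ := exists_nat_gt (1 / (1 - u))
  refine ⟨max (j + 1) m, fun k hk => ?_⟩
  have hj1 : j < k := lt_of_lt_of_le (Nat.lt_succ_self j) ((le_max_left _ _).trans hk)
  have hm1 : (m : ℚ) ≤ k := by exact_mod_cast (le_max_right _ _).trans hk
  refine mem_filter.2 ⟨mem_image.2 ⟨j, mem_range.2 hj1, hj⟩, h0, ?_⟩
  have h2 : (0 : ℚ) < 1 - u := by linarith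
  have h3 : 1 / (1 - u) < (k : ℚ) + 2 := by linarith
  have h4 : (0 : ℚ) < (k : ℚ) + 2 := lt_trans (by positivity) h3
  have h5 : 1 / ((k : ℚ) + 2) < 1 - u := by
    rw [div_lt_iff₀ h2] at h3
    rw [div_lt_iff₀ h4]
    linarith
  linarith

section

variable {𝒯 : Set (TS Ln ι S)} {B : Base} {I : ℕ → Finset (ℕ × ℝ)} {lev : ℕ → ℚ → ℕ}
  {Λ : ℝ → ℝ} {T : ℕ → TS Ln ι S} {L : ℕ → ℕ → Ln} {A : ℕ → ℝ} {g : ℝ}
  {Ψ : ℝ → (ι → ℝ) → ℝ} {atop : ℕ → ι → ℕ} {N : ℕ → ℕ}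

open Classical in
/-- the finite statement of the stage (error `e`, levels `W`) -/
structure Fs (B : Base) (T : ℕ → TS Ln ι S) (L : ℕ → ℕ → Ln) (lev : ℕ → ℚ → ℕ) (A : ℕ → ℝ)
    (c : ℝ → ℝ) (Λ : ℝ → ℝ) (V : ℕ → ℕ → (ι → ℕ) → ℝ) (atop : ℕ → ι → ℕ)
    (ψ : ℝ → (ι → ℝ) → ℝ) (κ e : ℝ) (W : Finset ℚ) (n : ℕ) (J : Finset (ℕ × ℝ))
    (f : ℚ → ℕ → ℤ → ℕ) (b : ℚ → ℕ → (ι → ℕ) × S) (a : ℚ → ι → ℕ) (θ : ι → ℝ) : Prop where
  ne : J.Nonempty
  ge : κ ≤ ψ 1 θ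
  fib : ∀ v ∈ W, ∀ x ∈ J, B.d n ^ (-(1 - (v : ℝ)) + (Λ 1 - Λ v) + e) ≤
    ((J.filter fun y => lc (lev n v) y = lc (lev n v) x).card : ℝ)
  mark : ∀ v ∈ W, ∀ x ∈ J,
    (T n).mem (lev n v) (zc (lev n v) x.2) (b v (f v x.1 (zc (lev n v) x.2))) (L n x.1) ∧
      (T n).adm (lev n v) (zc (lev n v) x.2) (b v (f v x.1 (zc (lev n v) x.2))) ∧
      (b v (f v x.1 (zc (lev n v) x.2))).1 = a v
  near : ∀ v ∈ W, ∀ x ∈ J,
    ampA B A c n v * V n (lev n v) (a v) ≤ B.d n ^ (-e) *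
      (((alive J (lev n v) (zc (lev n v) x.2)).filter fun s =>
        f v s (zc (lev n v) x.2) = f v x.1 (zc (lev n v) x.2)).card : ℝ)
  pos : ∀ v ∈ W, ∀ j, |ys B lev atop n v (a v) j - θ j * (1 - (v : ℝ))| ≤ e

open Classical in
/-- **[P2] the final diagonal.** -/
theorem final_diag [Nonempty S] (h : Cx 𝒯 B I T L lev A Λ g Ψ atop N) {κ : ℝ}
    {ψ : ℝ → (ι → ℝ) → ℝ} (hψ : Continuous fun z : ℝ × (ι → ℝ) => ψ z.1 z.2)
    (hcoe : ∃ R : ℝ, ∀ x, κ ≤ ψ 1 x → ∀ j, |x j| ≤ R)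
    (hk : ∀ v0 : ℚ, 0 < v0 → v0 < 1 → ∀ W : Finset ℚ, (∀ u ∈ W, 0 ≤ u ∧ u < v0) →
      ∃ (J : ℕ → Finset (ℕ × ℝ)) (f : ℚ → ℕ → ℕ → ℤ → ℕ) (b : ℚ → ℕ → ℕ → (ι → ℕ) × S)
        (a : ℚ → ℕ → ι → ℕ) (θ : ι → ℝ), (∀ n, J n ⊆ I n) ∧ Dense B J I ∧ Sq B J lev Λ ∧
        a 1 = atop ∧ κ ≤ ψ 1 θ ∧ ∀ v ∈ insert 1 (insert v0 W),
          Mrk B J T L lev A (fun v => g * v + 2 * Λ v) (VV T Ψ lev atop) v (f v) (b v) (a v) ∧
          ∀ j, Tendsto (fun n => ys B lev atop n v (a v n) j) U (𝓝 (θ j * (1 - (v : ℝ))))) :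
    ∃ (J : ℕ → Finset (ℕ × ℝ)) (f : ℕ → ℚ → ℕ → ℤ → ℕ) (b : ℕ → ℚ → ℕ → (ι → ℕ) × S)
      (a : ℕ → ℚ → ι → ℕ) (θ : ι → ℝ), (∀ n, J n ⊆ I n) ∧ Sq B J lev Λ ∧
      (∀ n, a n 1 = atop n) ∧ κ ≤ ψ 1 θ ∧ ∀ v : ℚ, 0 ≤ v → v ≤ 1 →
        Mrk B J T L lev A (fun v => g * v + 2 * Λ v) (VV T Ψ lev atop) v (fun n => f n v)
          (fun n => b n v) (fun n => a n v) ∧
        ∀ j, Tendsto (fun n => ys B lev atop n v (a n v) j) U (𝓝 (θ j * (1 - (v : ℝ)))) := by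
  set c : ℝ → ℝ := fun v => g * v + 2 * Λ v with hc
  set V := VV T Ψ lev atop with hV
  -- the stages
  have hst : ∀ k : ℕ, ∀ᶠ n in (U : Filter ℕ), ∃ (J : Finset (ℕ × ℝ)) (f : ℚ → ℕ → ℤ → ℕ)
      (b : ℚ → ℕ → (ι → ℕ) × S) (a : ℚ → ι → ℕ) (θ : ι → ℝ), J ⊆ I n ∧ a 1 = atop n ∧
      Fs B T L lev A c Λ V atop ψ κ (1 / ((k : ℝ) + 1)) (insert 1 (wk k)) n J f b a θ := by
    intro k
    have hv0 : (0 : ℚ) < 1 - 1 / ((k : ℚ) + 2) := by
      have h2 : (0 : ℚ) < (k : ℚ) + 2 := by positivity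
      rw [sub_pos, div_lt_one h2]
      have : (0 : ℚ) ≤ k := Nat.cast_nonneg k
      linarith
    have hv1 : 1 - 1 / ((k : ℚ) + 2) < 1 := by
      have h2 : (0 : ℚ) < 1 / ((k : ℚ) + 2) := by positivity
      linarith
    obtain ⟨J, f, b, a, θ, h1, -, h3, h4, h5, h6⟩ := hk _ hv0 hv1 (wk k) (fun u hu => mem_wk hu)
    have hin : ∀ v ∈ insert 1 (wk k), v ∈ insert (1 : ℚ) (insert (1 - 1 / ((k : ℚ) + 2)) (wk k)) := by
      intro v hv
      rw [mem_insert] at hv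
      rcases hv with hv | hv
      · rw [hv]; exact mem_insert_self _ _
      · exact mem_insert_of_mem (mem_insert_of_mem hv)
    have hv01 : ∀ v ∈ insert (1 : ℚ) (wk k), 0 ≤ v ∧ v ≤ 1 := by
      intro v hv
      rw [mem_insert] at hv
      rcases hv with rfl | hv
      · exact ⟨zero_le_one, le_rfl⟩
      · exact ⟨(mem_wk hv).1, ((mem_wk hv).2.trans hv1).le⟩
    have he : (0 : ℝ) < 1 / ((k : ℝ) + 1) := by positivity
    have e1 : ∀ᶠ n in (U : Filter ℕ), ∀ v ∈ insert (1 : ℚ) (wk k), ∀ x ∈ J n,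
        B.d n ^ (-(1 - (v : ℝ)) + (Λ 1 - Λ v) + 1 / ((k : ℝ) + 1)) ≤
          (((J n).filter fun y => lc (lev n v) y = lc (lev n v) x).card : ℝ) := by
      rw [Filter.eventually_all_finset]
      intro v hv
      filter_upwards [h3.fib v (hv01 v hv).1 (hv01 v hv).2 _ he] with n hn x hx
      exact (hn x hx).1
    have e2 : ∀ᶠ n in (U : Filter ℕ), ∀ v ∈ insert (1 : ℚ) (wk k), ∀ x ∈ J n,
        (T n).mem (lev n v) (zc (lev n v) x.2) (b v n (f v n x.1 (zc (lev n v) x.2))) (L n x.1) ∧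
          (T n).adm (lev n v) (zc (lev n v) x.2) (b v n (f v n x.1 (zc (lev n v) x.2))) ∧
          (b v n (f v n x.1 (zc (lev n v) x.2))).1 = a v n := by
      rw [Filter.eventually_all_finset]
      intro v hv
      exact (h6 v (hin v hv)).1.mark
    have e3 : ∀ᶠ n in (U : Filter ℕ), ∀ v ∈ insert (1 : ℚ) (wk k), ∀ x ∈ J n,
        ampA B A c n v * V n (lev n v) (a v n) ≤ B.d n ^ (-(1 / ((k : ℝ) + 1))) *
          (((alive (J n) (lev n v) (zc (lev n v) x.2)).filter fun s =>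
            f v n s (zc (lev n v) x.2) = f v n x.1 (zc (lev n v) x.2)).card : ℝ) := by
      rw [Filter.eventually_all_finset]
      intro v hv
      exact (h6 v (hin v hv)).1.near _ he
    have e4 : ∀ᶠ n in (U : Filter ℕ), ∀ v ∈ insert (1 : ℚ) (wk k), ∀ j,
        |ys B lev atop n v (a v n) j - θ j * (1 - (v : ℝ))| ≤ 1 / ((k : ℝ) + 1) := by
      rw [Filter.eventually_all_finset]
      intro v hv
      rw [Filter.eventually_all]
      intro j
      have h7 := (Metric.tendsto_nhds.1 ((h6 v (hin v hv)).2 j)) _ he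
      filter_upwards [h7] with n hn
      rw [Real.dist_eq] at hn
      exact hn.le
    filter_upwards [e1, e2, e3, e4, h3.ne] with n g1 g2 g3 g4 g5
    exact ⟨J n, fun v => f v n, fun v => b v n, fun v => a v n, θ, h1 n, congrFun h4 n,
      ⟨g5, h5, g1, g2, g3, g4⟩⟩
  obtain ⟨k, hkt, hkP⟩ := exists_diag _ hst
  -- the choice
  have hch : ∀ n, ∃ (J : Finset (ℕ × ℝ)) (f : ℚ → ℕ → ℤ → ℕ)
      (b : ℚ → ℕ → (ι → ℕ) × S) (a : ℚ → ι → ℕ) (θ : ι → ℝ), J ⊆ I n ∧ a 1 = atop n ∧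
      ((∃ (J : Finset (ℕ × ℝ)) (f : ℚ → ℕ → ℤ → ℕ)
        (b : ℚ → ℕ → (ι → ℕ) × S) (a : ℚ → ι → ℕ) (θ : ι → ℝ), J ⊆ I n ∧ a 1 = atop n ∧
        Fs B T L lev A c Λ V atop ψ κ (1 / ((k n : ℝ) + 1)) (insert 1 (wk (k n))) n J f b a θ) →
        Fs B T L lev A c Λ V atop ψ κ (1 / ((k n : ℝ) + 1)) (insert 1 (wk (k n))) n J f b a θ) := by
    intro n
    by_cases hP : (∃ (J : Finset (ℕ × ℝ)) (f : ℚ → ℕ → ℤ → ℕ)
        (b : ℚ → ℕ → (ι → ℕ) × S) (a : ℚ → ι → ℕ) (θ : ι → ℝ), J ⊆ I n ∧ a 1 = atop n ∧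
        Fs B T L lev A c Λ V atop ψ κ (1 / ((k n : ℝ) + 1)) (insert 1 (wk (k n))) n J f b a θ)
    · obtain ⟨J, f, b, a, θ, h1, h2, h3⟩ := hP
      exact ⟨J, f, b, a, θ, h1, h2, fun _ => h3⟩
    · exact ⟨∅, fun _ _ _ => 0, fun _ _ => (fun _ => 0, Classical.arbitrary S),
        fun _ => atop n, fun _ => 0, empty_subset _, rfl, fun h => absurd h hP⟩
  choose J f b a θn hJ hat hF using hch
  have hFs : ∀ᶠ n in (U : Filter ℕ), Fs B T L lev A c Λ V atop ψ κ (1 / ((k n : ℝ) + 1))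
      (insert 1 (wk (k n))) n (J n) (f n) (b n) (a n) (θn n) := by
    filter_upwards [hkP] with n hn
    exact hF n (hn (k n) le_rfl)
  have hsm : ∀ e : ℝ, 0 < e → ∀ᶠ n in (U : Filter ℕ), 1 / ((k n : ℝ) + 1) ≤ e := by
    intro e he
    have h1 : Tendsto (fun n => 1 / ((k n : ℝ) + 1)) U (𝓝 0) :=
      tendsto_one_div_add_atTop_nhds_zero_nat.comp hkt
    filter_upwards [h1.eventually_lt_const he] with n hn using hn.le
  have hlv : ∀ v : ℚ, 0 ≤ v → v ≤ 1 → ∀ᶠ n in (U : Filter ℕ), v ∈ insert (1 : ℚ) (wk (k n)) := by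
    intro v h0 h1
    rcases h1.eq_or_lt with rfl | h1
    · exact Eventually.of_forall fun n => mem_insert_self _ _
    · obtain ⟨K, hK⟩ := ev_mem_wk h0 h1
      filter_upwards [hkt.eventually_ge_atTop K] with n hn
      exact mem_insert_of_mem (hK _ hn)
  -- the limit direction
  obtain ⟨R, hR⟩ := hcoe
  have hbd : ∀ j, ∃ x : ℝ, Tendsto (fun n => θn n j) U (𝓝 x) := by
    intro j
    obtain ⟨x, hx, -⟩ := exists_tendsto (f := fun n => θn n j) (C := R) (by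
      filter_upwards [hFs] with n hn using hR _ hn.ge j)
    exact ⟨x, hx⟩
  choose θ hθ using hbd
  have hθv : Tendsto θn U (𝓝 θ) := tendsto_pi_nhds.2 hθ
  have hψθ : κ ≤ ψ 1 θ := by
    have h1 : Tendsto (fun n => ψ 1 (θn n)) U (𝓝 (ψ 1 θ)) :=
      (hψ.tendsto ((1 : ℝ), θ)).comp (tendsto_const_nhds.prodMk_nhds hθv)
    exact ge_of_tendsto h1 (by filter_upwards [hFs] with n hn using hn.ge)
  have hne : ∀ᶠ n in (U : Filter ℕ), (J n).Nonempty := by
    filter_upwards [hFs] with n hn using hn.ne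
  refine ⟨J, f, b, a, θ, hJ, ?_, hat, hψθ, ?_⟩
  · refine
      { ne := hne
        card := ?_
        lam0 := h.sq.lam0
        lam := h.sq.lam
        lev_mono := h.sq.lev_mono
        lev_lim := h.sq.lev_lim
        cell0 := by
          filter_upwards [h.sq.cell0] with n hn x hx y hy using hn x (hJ n hx) y (hJ n hy)
        one := by
          filter_upwards [h.sq.one] with n hn x hx y hy using hn x (hJ n hx) y (hJ n hy)
        fib := ?_ }
    · intro ε hε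
      filter_upwards [h.sq.card ε hε, hne] with n hn hne
      refine le_trans (Real.log_le_log (by exact_mod_cast card_pos.2 hne)
        (by exact_mod_cast card_le_card (hJ n))) hn
    · intro v h0 h1 ε hε
      filter_upwards [h.sq.fib v h0 h1 ε hε, hFs, hsm ε hε, hlv v h0 h1] with n g1 g2 g3 g4 x hx
      refine ⟨(dpow_le B n (by linarith)).trans (g2.fib v g4 x hx), ?_⟩
      refine le_trans ?_ (g1 x (hJ n hx)).2
      exact_mod_cast card_le_card (filter_subset_filter _ (hJ n))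
  · intro v h0 h1
    refine ⟨{ mark := ?_, near := ?_ }, ?_⟩
    · filter_upwards [hFs, hlv v h0 h1] with n g1 g2 x hx using g1.mark v g2 x hx
    · intro ε hε
      filter_upwards [hFs, hlv v h0 h1, hsm ε hε] with n g1 g2 g3 x hx
      refine (g1.near v g2 x hx).trans (mul_le_mul_of_nonneg_right ?_ (Nat.cast_nonneg _))
      exact dpow_le B n (by linarith)
    · intro j
      have h2 : Tendsto (fun n => ys B lev atop n v (a n v) j - θn n j * (1 - (v : ℝ))) U (𝓝 0) := by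
        rw [Metric.tendsto_nhds]
        intro e he
        filter_upwards [hFs, hlv v h0 h1, hsm (e / 2) (by positivity)] with n g1 g2 g3
        rw [Real.dist_eq, sub_zero]
        have := g1.pos v g2 j
        linarith
      have h3 := h2.add ((hθ j).mul_const (1 - (v : ℝ)))
      rw [zero_add] at h3
      refine h3.congr fun n => ?_
      ring

end

end Crest.Agent.R116.XcD332
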