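import Crest.Agent.R116.PL3_504
import Crest.Agent.R116.Gd3_222
import Crest.Agent.R136.Lq2_196

/-!
# R116, [X-DIM] of K-TEXT II-c (helper954), part 1: dead slots

* `prof_dead` : abstract.  If `p`-near points are `(p' - ε)`-near, then `ν p = ν p'`.
* `C_le`, `X_le` : the slope `P` (resp. the value `F`) of the flag and one component of `C`
  (resp. `X`) bound the other component.
* `slots_dead` : the same in the normalised chart of 222 / 504.
-/

set_option autoImplicit false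
set_option linter.unusedVariables false

open Finset Filter Topology

namespace Crest.Agent.R116.Xd954

open Crest.Agent.R138.Ex926
open Crest.Agent.R138
open Crest.Agent.R136.Net191
open Crest.Agent.R136.Lq196
open Crest.Agent.R116.ChL222

/-! ### abstract: dead directions of a profile -/

section abs

variable {m : ℕ} {B : Base} {ι : ℕ → Type*} [∀ n, DecidableEq (ι n)] {I0 I : ∀ n, Finset (ι n)}
    {co : ∀ n, ι n → ι n → Fin m → ℝ} {M : Mons m} {C R : ℝ} {ν : (Fin m → ℝ) → ℝ}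

/-- `t ≥ 0` cost of a refinement, from the number of `p'`-labels in a `p`-class. -/
theorem prof_cost (hsub : ∀ n, I n ⊆ I0 n) (hne : ∀ᶠ n in (U : Filter ℕ), (I n).Nonempty)
    (hν : QProf B I (nlab B I0 co M C) (Leg M R) ν) {p p' : Fin m → ℝ} (hp : p ∈ Leg M R)
    (hp' : p' ∈ Leg M R) {t : ℝ}
    (h : ∀ ε : ℝ, 0 < ε → ∀ᶠ n in (U : Filter ℕ), ∀ i ∈ I n,
      (((cls (I n) (nlab B I0 co M C n p) i).image (nlab B I0 co M C n p')).card : ℝ) ≤
        B.d n ^ (-(t + ε))) : ν p ≤ ν p' + t := by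
  classical
  refine le_of_forall_pos_le_add fun ε hε => ?_
  have hε3 : 0 < ε / 3 := by positivity
  obtain ⟨n, h1, h2, h3⟩ := ((hν.ev_big hne hε3).and ((hν.up _ hε3).and (h _ hε3))).exists
  obtain ⟨i, hi, hbig⟩ := h1 p hp
  set A := cls (I n) (nlab B I0 co M C n p) i with hA
  have c3 : (A.card : ℝ) ≤ B.d n ^ (-(ν p' + ε / 3)) * (A.image (nlab B I0 co M C n p')).card := by
    have := le_count_mul A (fun _ => (1 : ℝ)) (nlab B I0 co M C n p')
      (m := B.d n ^ (-(ν p' + ε / 3))) (fun x hx => by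
        rw [sum_const, nsmul_eq_mul, mul_one]
        refine le_trans ?_ (h2 _ hp' x (mem_cls.1 hx).1)
        exact_mod_cast card_le_card (cls_mono (cls_subset _ _ _) _ _))
    rwa [sum_const, nsmul_eq_mul, mul_one] at this
  have c4 := h3 i hi
  have hpos : ∀ t : ℝ, 0 < B.d n ^ t := fun t => Real.rpow_pos_of_pos (B.pos n) t
  have c5 : (A.card : ℝ) ≤ B.d n ^ (-(ν p' + t + 2 * (ε / 3))) := by
    refine (c3.trans (mul_le_mul_of_nonneg_left c4 (hpos _).le)).trans (le_of_eq ?_)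
    rw [← Real.rpow_add (B.pos n)]
    congr 1; ring
  have hA1 : (1 : ℝ) ≤ A.card := cls_card_pos hi
  have l1 := Real.log_le_log (by linarith) c5
  rw [Real.log_rpow (B.pos n), B.log_d] at l1
  have hL := B.L_pos n
  have : (ν p - ε / 3) * B.L n ≤ (ν p' + t + 2 * (ε / 3)) * B.L n := by linarith
  have := le_of_mul_le_mul_right this hL
  linarith

/-- **dead directions** -/
theorem prof_dead (hch : ∀ n, Chart (I0 n) (co n) M C) (hsub : ∀ n, I n ⊆ I0 n)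
    (hne : ∀ᶠ n in (U : Filter ℕ), (I n).Nonempty)
    (hν : QProf B I (nlab B I0 co M C) (Leg M R) ν) {p p' : Fin m → ℝ} (hp : p ∈ Leg M R)
    (hp' : p' ∈ Leg M R)
    (h : ∀ K : ℝ, 1 ≤ K → ∀ ε : ℝ, 0 < ε → ∀ᶠ n in (U : Filter ℕ), ∀ x ∈ I n, ∀ y ∈ I0 n,
      Near (co n) (B.d n) p K x y → ∀ k, |co n x y k| ≤ B.d n ^ (p' k - ε)) : ν p ≤ ν p' := by
  classical
  rcases isEmpty_or_nonempty (Fin m) with hm | hm
  · have : p = p' := Subsingleton.elim _ _
    rw [this]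
  have hR : 0 ≤ R := by
    obtain ⟨k⟩ := hm
    exact (hp.1.nonneg k).trans (hp.2 k)
  have key : ν p ≤ ν p' + 0 := by
    refine prof_cost hsub hne hν hp hp' fun ε hε => ?_
    have hC0 := (hch 0).C0
    have hK0 : 1 ≤ cK0 M C := cK0_one hC0
    have hW := WS_nonneg M
    set η : ℝ := ε / (2 * (WS M + 1)) with hη
    have hη0 : 0 < η := by positivity
    have hηW : WS M * η ≤ ε / 2 := by
      have : η * (2 * (WS M + 1)) = ε := by rw [hη]; field_simp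
      nlinarith
    have hN := cN_pos M hC0 hK0
    filter_upwards [h _ hK0 η hη0, B.ev_const_log (Real.log (cN M C (cK0 M C))) (half_pos hε)]
      with n h1 h2 i hi
    have hi0 := hsub n hi
    have hq := lowp_mem (M := M) hR hη0.le hp'
    have hqp : lowp M η p' ≤ p' := by
      intro k
      refine max_le ?_ (hp'.1.nonneg k)
      have := mul_nonneg (by linarith [wg_one M k] : 0 ≤ wg M k) hη0.le
      linarith
    have h3 := card_nlab_le (B := B) hch (n := n) hq.1 hp'.1 hqp hK0 hi0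
    have hs : (cls (I n) (nlab B I0 co M C n p) i).image (nlab B I0 co M C n p') ⊆
        ((I0 n).filter fun j => Near (co n) (B.d n) (lowp M η p') (cK0 M C) i j).image
          (nlab B I0 co M C n p') := by
      refine image_subset_image fun y hy => ?_
      obtain ⟨y1, y2⟩ := mem_cls.1 hy
      have hy0 := hsub n y1
      have hnr := near_of_nlab hch hp.1 hi0 hy0 y2.symm
      refine mem_filter.2 ⟨hy0, fun k => ?_⟩
      by_cases hc : p' k - wg M k * η ≤ 0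
      · have e1 : lowp M η p' k = 0 := max_eq_right hc
        rw [e1]
        refine (hnr k).trans (mul_le_mul_of_nonneg_left ?_ (by linarith))
        exact Real.rpow_le_rpow_of_exponent_ge (B.pos n) (B.lt n).le (hp.1.nonneg k)
      · have e1 : lowp M η p' k = p' k - wg M k * η := max_eq_left (by linarith)
        rw [e1]
        have h4 := h1 i hi y hy0 hnr k
        have h5 : η ≤ wg M k * η := le_mul_of_one_le_left hη0.le (wg_one M k)
        have h6 : B.d n ^ (p' k - η) ≤ B.d n ^ (p' k - wg M k * η) :=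
          Real.rpow_le_rpow_of_exponent_ge (B.pos n) (B.lt n).le (by linarith)
        have h7 : 0 ≤ B.d n ^ (p' k - wg M k * η) := Real.rpow_nonneg (B.pos n).le _
        nlinarith
    have h4 : (((cls (I n) (nlab B I0 co M C n p) i).image (nlab B I0 co M C n p')).card : ℝ) ≤
        cN M C (cK0 M C) * B.d n ^ (-(∑ s, (p' s - lowp M η p' s))) := by
      refine le_trans ?_ h3
      exact_mod_cast card_le_card hs
    have h5 : ∑ k, (p' k - lowp M η p' k) ≤ WS M * η := by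
      unfold WS
      rw [sum_mul]
      refine sum_le_sum fun k _ => ?_
      have := le_max_left (p' k - wg M k * η) 0
      unfold lowp
      linarith
    refine h4.trans ?_
    rw [← B.exp_eq, ← B.exp_eq]
    have h6 : cN M C (cK0 M C) = Real.exp (Real.log (cN M C (cK0 M C))) := (Real.exp_log hN).symm
    rw [h6, ← Real.exp_add, Real.exp_le_exp]
    have hL := B.L_pos n
    have : (∑ s, (p' s - lowp M η p' s)) * B.L n ≤ (ε / 2) * B.L n :=
      mul_le_mul_of_nonneg_right (h5.trans hηW) hL.le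
    linarith
  linarith

end abs

/-! ### the flag determines the second component -/

/-- `b' C' = P - b C - et |C|²/2 - 2 d (X C + X' C' - N)` -/
theorem comp_le {b b' C C' X X' N et d P : ℝ}
    (hP : P = b * C + b' * C' + et * ((C ^ 2 + C' ^ 2) / 2) + 2 * d * (X * C + X' * C' - N))
    (hb : |b| ≤ 2) (hb' : 1 / 2 ≤ |b'|) :
    |C'| ≤ 2 * |P| + 4 * |C| + |et| * (|C| ^ 2 + |C'| ^ 2) +
      4 * |d| * (|X| * |C| + |X'| * |C'| + |N|) := by
  have e : b' * C' = P - b * C - et * ((C ^ 2 + C' ^ 2) / 2) - 2 * d * (X * C + X' * C' - N) := by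
    rw [hP]; ring
  have h1 : |b' * C'| ≤ |P| + |b| * |C| + |et| * ((|C| ^ 2 + |C'| ^ 2) / 2) +
      2 * |d| * (|X| * |C| + |X'| * |C'| + |N|) := by
    rw [e]
    have a1 := abs_sub (P - b * C - et * ((C ^ 2 + C' ^ 2) / 2)) (2 * d * (X * C + X' * C' - N))
    have a2 := abs_sub (P - b * C) (et * ((C ^ 2 + C' ^ 2) / 2))
    have a3 := abs_sub P (b * C)
    have a4 := abs_sub (X * C + X' * C') N
    have a5 := abs_add_le (X * C) (X' * C')
    rw [abs_mul b] at a3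
    rw [abs_mul et, abs_of_nonneg (by positivity : 0 ≤ (C ^ 2 + C' ^ 2) / 2)] at a2
    rw [abs_mul (2 * d), abs_mul 2 d, abs_of_pos (two_pos : (0 : ℝ) < 2)] at a1
    rw [abs_mul, abs_mul] at a5
    have a6 : 2 * |d| * |X * C + X' * C' - N| ≤ 2 * |d| * (|X| * |C| + |X'| * |C'| + |N|) :=
      mul_le_mul_of_nonneg_left (by linarith) (by positivity)
    rw [sq_abs, sq_abs]
    linarith
  have h2 : (1 / 2) * |C'| ≤ |b' * C'| := by
    rw [abs_mul]
    exact mul_le_mul_of_nonneg_right hb' (abs_nonneg _)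
  have h3 : |b| * |C| ≤ 2 * |C| := mul_le_mul_of_nonneg_right hb (abs_nonneg _)
  linarith

/-- `b' X' = F - b X - et N - d |X|²` -/
theorem pos_le {b b' X X' N et d F : ℝ}
    (hF : F = b * X + b' * X' + et * N + d * (X ^ 2 + X' ^ 2))
    (hb : |b| ≤ 2) (hb' : 1 / 2 ≤ |b'|) :
    |X'| ≤ 2 * |F| + 4 * |X| + 2 * |et| * |N| + 2 * |d| * (|X| ^ 2 + |X'| ^ 2) := by
  have e : b' * X' = F - b * X - et * N - d * (X ^ 2 + X' ^ 2) := by
    rw [hF]; ring
  have h1 : |b' * X'| ≤ |F| + |b| * |X| + |et| * |N| + |d| * (|X| ^ 2 + |X'| ^ 2) := by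
    rw [e]
    have a1 := abs_sub (F - b * X - et * N) (d * (X ^ 2 + X' ^ 2))
    have a2 := abs_sub (F - b * X) (et * N)
    have a3 := abs_sub F (b * X)
    rw [abs_mul b] at a3
    rw [abs_mul et] at a2
    rw [abs_mul d, abs_of_nonneg (by positivity : 0 ≤ X ^ 2 + X' ^ 2)] at a1
    rw [sq_abs, sq_abs]
    linarith
  have h2 : (1 / 2) * |X'| ≤ |b' * X'| := by
    rw [abs_mul]
    exact mul_le_mul_of_nonneg_right hb' (abs_nonneg _)
  have h3 : |b| * |X| ≤ 2 * |X| := mul_le_mul_of_nonneg_right hb (abs_nonneg _)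
  linarith


/-! ### the two axes -/

/-- velocity slots -/
def cs : Fin 2 → Fin 12 := ![3, 4]
/-- position slots -/
def xs : Fin 2 → Fin 12 := ![5, 6]
/-- lateral gradient of the flag -/
def bb (l : LInc) : Fin 2 → ℝ := ![l.b1, l.b2]

theorem coL_P (i j : LInc) {a b : Fin 2} (hab : a ≠ b) :
    coL i j 10 = bb i a * coL i j (cs a) + bb i b * coL i j (cs b) +
      i.et * ((coL i j (cs a) ^ 2 + coL i j (cs b) ^ 2) / 2) +
      2 * i.d * (coL i j (xs a) * coL i j (cs a) + coL i j (xs b) * coL i j (cs b) -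
        coL i j 9) := by
  fin_cases a <;> fin_cases b
  · exact absurd rfl hab
  · simp [coL, cs, xs, bb]
  · simp [coL, cs, xs, bb]; ring
  · exact absurd rfl hab

theorem coL_F (i j : LInc) {a b : Fin 2} (hab : a ≠ b) :
    coL i j 11 = bb i a * coL i j (xs a) + bb i b * coL i j (xs b) + i.et * coL i j 9 +
      i.d * (coL i j (xs a) ^ 2 + coL i j (xs b) ^ 2) := by
  fin_cases a <;> fin_cases b
  · exact absurd rfl hab
  · simp [coL, xs, bb]
  · simp [coL, xs, bb]; ring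
  · exact absurd rfl hab

theorem uL_cs (lz lc lp : ℝ) (a : Fin 2) : PL504.uL lz lc lp (cs a) = lc := by
  fin_cases a <;> rfl

theorem uL_xs (lz lc lp : ℝ) (a : Fin 2) : PL504.uL lz lc lp (xs a) = lz * lc := by
  fin_cases a <;> rfl

theorem uL_9 (lz lc lp : ℝ) : PL504.uL lz lc lp 9 = lz * lc ^ 2 := rfl
theorem uL_10 (lz lc lp : ℝ) : PL504.uL lz lc lp 10 = lp := rfl
theorem uL_11 (lz lc lp : ℝ) : PL504.uL lz lc lp 11 = lz * lp := rfl

/-- the normalised form of `comp_le` and `pos_le` -/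
theorem norm_le (i j : LInc) {a b : Fin 2} (hab : a ≠ b) (ha : |bb i a| ≤ 2)
    (hb : 1 / 2 ≤ |bb i b|) {lz lc lp : ℝ} (hz : 0 < lz) (hc : 0 < lc) (hp : 0 < lp)
    {c : Fin 12 → ℝ} (hc' : ∀ k, c k = PL504.uL lz lc lp k * coL i j k) :
    |c (cs b)| ≤ 2 * (lc / lp) * |c 10| + 4 * |c (cs a)| +
      (|i.et| / lc) * (|c (cs a)| ^ 2 + |c (cs b)| ^ 2) +
      4 * (|i.d| / (lz * lc)) * (|c (xs a)| * |c (cs a)| + |c (xs b)| * |c (cs b)| + |c 9|) ∧
    |c (xs b)| ≤ 2 * (lc / lp) * |c 11| + 4 * |c (xs a)| + 2 * (|i.et| / lc) * |c 9| +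
      2 * (|i.d| / (lz * lc)) * (|c (xs a)| ^ 2 + |c (xs b)| ^ 2) := by
  have hC : ∀ a, |c (cs a)| = lc * |coL i j (cs a)| := by
    intro a; rw [hc', uL_cs, abs_mul, abs_of_pos hc]
  have hX : ∀ a, |c (xs a)| = (lz * lc) * |coL i j (xs a)| := by
    intro a; rw [hc', uL_xs, abs_mul, abs_of_pos (mul_pos hz hc)]
  have h9 : |c 9| = (lz * lc ^ 2) * |coL i j 9| := by
    rw [hc', uL_9, abs_mul, abs_of_pos (mul_pos hz (pow_pos hc 2))]
  have h10 : |c 10| = lp * |coL i j 10| := by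
    rw [hc', uL_10, abs_mul, abs_of_pos hp]
  have h11 : |c 11| = (lz * lp) * |coL i j 11| := by
    rw [hc', uL_11, abs_mul, abs_of_pos (mul_pos hz hp)]
  have t1 := comp_le (coL_P i j hab) ha hb
  have t2 := pos_le (coL_F i j hab) ha hb
  constructor
  · have := mul_le_mul_of_nonneg_left t1 hc.le
    rw [← hC] at this
    refine this.trans (le_of_eq ?_)
    rw [hC, hC, hX, hX, h9, h10]
    field_simp
  · have := mul_le_mul_of_nonneg_left t2 (mul_pos hz hc).le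
    rw [← hX] at this
    refine this.trans (le_of_eq ?_)
    rw [hX, hX, h9, h11]
    field_simp


/-! ### exponents -/

theorem ex_mul {D A E s t y K : ℝ} (hD : 0 < D) (hD1 : D ≤ 1) (hA : A ≤ D ^ s) (hE0 : 0 ≤ E)
    (hE : E ≤ K * D ^ t) (hK : 0 ≤ K) (hy : y ≤ s + t) : A * E ≤ K * D ^ y := by
  have h1 : A * E ≤ D ^ s * (K * D ^ t) :=
    mul_le_mul hA hE hE0 (Real.rpow_nonneg hD.le _)
  refine h1.trans ?_
  have h2 : D ^ s * (K * D ^ t) = K * D ^ (s + t) := by rw [Real.rpow_add hD]; ring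
  rw [h2]
  exact mul_le_mul_of_nonneg_left (Real.rpow_le_rpow_of_exponent_ge hD hD1 hy) hK

theorem ex_sq {D E t K : ℝ} (hD : 0 < D) (hE0 : 0 ≤ E) (hE : E ≤ K * D ^ t) :
    E ^ 2 ≤ K ^ 2 * D ^ (2 * t) := by
  have h1 := pow_le_pow_left₀ hE0 hE 2
  have h2 : (K * D ^ t) ^ 2 = K ^ 2 * D ^ (2 * t) := by
    rw [two_mul, Real.rpow_add hD]; ring
  rwa [h2] at h1

theorem ex_pr {D E E' t t' K : ℝ} (hD : 0 < D) (hE0 : 0 ≤ E) (hE : E ≤ K * D ^ t)
    (hE0' : 0 ≤ E') (hE' : E' ≤ K * D ^ t') : E * E' ≤ K ^ 2 * D ^ (t + t') := by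
  have h1 := mul_le_mul hE hE' hE0' (hE0.trans hE)
  have h2 : (K * D ^ t) * (K * D ^ t') = K ^ 2 * D ^ (t + t') := by
    rw [Real.rpow_add hD]; ring
  rwa [h2] at h1

/-- sizes of the flags (fields of 222's `LData`, and `hk` of his `gD_L`) -/
structure FlagE (B : Base) (I : ℕ → Finset (ℕ × ℝ)) (lev : ℕ → ℚ → ℕ) (inc : ℕ → ℕ × ℝ → LInc)
    (σ : Fin 2 → ℕ → ℝ) (k0 ϑ : ℝ) : Prop where
  σp : ∀ j n, 0 < σ j n
  he : ∀ ε : ℝ, 0 < ε → ∀ᶠ n in (U : Filter ℕ), ∀ x ∈ I n,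
    |(inc n x).et| * σ 0 n ≤ B.d n ^ (-ε)
  hd : ∀ ε : ℝ, 0 < ε → ∀ᶠ n in (U : Filter ℕ), ∀ x ∈ I n,
    |(inc n x).d| * (σ 0 n * Mk163.rho (lev n 0)) ≤ B.d n ^ (-ϑ - ε)
  hk : ∀ ε : ℝ, 0 < ε → ∀ᶠ n in (U : Filter ℕ), σ 1 n ≤ σ 0 n * B.d n ^ (k0 - ε)

/-- what is consumed: the flag in the direction `b` is large, `a` is the other direction. -/
structure FlagX (B : Base) (I : ℕ → Finset (ℕ × ℝ)) (lev : ℕ → ℚ → ℕ) (inc : ℕ → ℕ × ℝ → LInc)
    (σ : Fin 2 → ℕ → ℝ) (k0 ϑ : ℝ) (a b : Fin 2) : Prop extends FlagE B I lev inc σ k0 ϑ where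
  ab : a ≠ b
  bd : ∀ᶠ n in (U : Filter ℕ), ∀ x ∈ I n, |bb (inc n x) a| ≤ 2
  big : ∀ᶠ n in (U : Filter ℕ), ∀ x ∈ I n, 1 / 2 ≤ |bb (inc n x) b|

/-- exponent `y` of the dead component of `C`, near `p` -/
def DC (w0 sa sb k0 ϑ : ℝ) (a b : Fin 2) (p : Fin 12 → ℝ) (y : ℝ) : Prop :=
  y ≤ p (cs a) ∧ y ≤ p 10 - sb + k0 + sa ∧ y ≤ 2 * p (cs a) - sa ∧ y ≤ 2 * p (cs b) - sa ∧
    y ≤ p (xs a) + p (cs a) - (w0 + sa + ϑ) ∧ y ≤ p (xs b) + p (cs b) - (w0 + sa + ϑ) ∧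
    y ≤ p 9 - (w0 + sa + ϑ)

/-- exponent `y` of the dead component of `X`, near `p` -/
def DX (w0 sa sb k0 ϑ : ℝ) (a b : Fin 2) (p : Fin 12 → ℝ) (y : ℝ) : Prop :=
  y ≤ p (xs a) ∧ y ≤ p 11 - sb + k0 + sa ∧ y ≤ p 9 - sa ∧
    y ≤ 2 * p (xs a) - (w0 + sa + ϑ) ∧ y ≤ 2 * p (xs b) - (w0 + sa + ϑ)

section geo

variable {B : Base} {I : ℕ → Finset (ℕ × ℝ)} {lev : ℕ → ℚ → ℕ} {inc : ℕ → ℕ × ℝ → LInc}
    {σ : Fin 2 → ℕ → ℝ} {k0 ϑ : ℝ} {a b : Fin 2}

/-- the three scalars -/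
theorem FlagE.scal (h : FlagE B I lev inc σ k0 ϑ) (w0 sa sb : ℝ) {ε : ℝ} (hε : 0 < ε) :
    ∀ᶠ n in (U : Filter ℕ),
      (B.d n ^ sa / σ 0 n) / (B.d n ^ sb / σ 1 n) ≤ B.d n ^ (sa - sb + k0 - ε) ∧
      ∀ x ∈ I n, |(inc n x).et| / (B.d n ^ sa / σ 0 n) ≤ B.d n ^ (-sa - ε) ∧
        |(inc n x).d| / ((2 ^ lev n 0 * B.d n ^ w0) * (B.d n ^ sa / σ 0 n)) ≤
          B.d n ^ (-(w0 + sa + ϑ) - ε) := by
  filter_upwards [h.he _ hε, h.hd _ hε, h.hk _ hε] with n h3 h4 h5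
  have hD := B.pos n
  have s0 := h.σp 0 n
  have s1 := h.σp 1 n
  have r0 : 0 < Mk163.rho (lev n 0) := PL504.rho_pos _
  have e2 : (2 : ℝ) ^ lev n 0 = (Mk163.rho (lev n 0))⁻¹ := Gd222.pow2_eq _
  have dp := fun a => Dp76.dpow_pos B n a
  set D := B.d n with hDd
  refine ⟨?_, fun x hx => ⟨?_, ?_⟩⟩
  · rw [show sa - sb + k0 - ε = sa + (-sb) + (k0 - ε) by ring,
      Real.rpow_add hD, Real.rpow_add hD, Real.rpow_neg hD.le]
    rw [div_div_div_eq, div_le_iff₀ (by positivity)]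
    have h7 := mul_le_mul_of_nonneg_left h5 (dp sa).le
    refine h7.trans (le_of_eq ?_)
    have := (dp sb).ne'
    field_simp
  · rw [show -sa - ε = -sa + -ε by ring, Real.rpow_add hD, Real.rpow_neg hD.le sa,
      div_div_eq_mul_div, div_le_iff₀ (dp sa)]
    refine (h3 x hx).trans (le_of_eq ?_)
    have := (dp sa).ne'
    field_simp
  · rw [e2, show -(w0 + sa + ϑ) - ε = -w0 + -sa + (-ϑ - ε) by ring,
      Real.rpow_add hD, Real.rpow_add hD, Real.rpow_neg hD.le w0, Real.rpow_neg hD.le sa]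
    rw [div_le_iff₀ (by positivity)]
    have h7 := h4 x hx
    have w := (dp w0).ne'
    have w' := (dp sa).ne'
    have e9 : (D ^ w0)⁻¹ * (D ^ sa)⁻¹ * D ^ (-ϑ - ε) *
        ((Mk163.rho (lev n 0))⁻¹ * D ^ w0 * (D ^ sa / σ 0 n)) =
        D ^ (-ϑ - ε) / (σ 0 n * Mk163.rho (lev n 0)) := by
      field_simp
    rw [e9, le_div_iff₀ (by positivity)]
    exact h7

/-- `α d^(r - ε/2) ≤ d^(r - ε)` eventually -/
theorem ev_fin (B : Base) {α : ℝ} (hα : 0 < α) {ε : ℝ} (hε : 0 < ε) :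
    ∀ᶠ n in (U : Filter ℕ), ∀ (r Z : ℝ), Z ≤ α * B.d n ^ (r - ε / 2) → Z ≤ B.d n ^ (r - ε) := by
  filter_upwards [B.ev_const_log (Real.log α) (half_pos hε)] with n h6 r Z hZ
  refine hZ.trans ?_
  have h7 : α ≤ B.d n ^ (-(ε / 2)) := by
    rw [← B.exp_eq, ← Real.log_le_iff_le_exp hα]
    exact h6
  calc α * B.d n ^ (r - ε / 2) ≤ B.d n ^ (-(ε / 2)) * B.d n ^ (r - ε / 2) :=
        mul_le_mul_of_nonneg_right h7 (Dp76.dpow_pos B n _).le
    _ = B.d n ^ (r - ε) := by rw [← Real.rpow_add (B.pos n)]; congr 1; ring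

/-- the dead components near a point -/
theorem FlagX.near (h : FlagX B I lev inc σ k0 ϑ a b) (w0 sa sb : ℝ) {K : ℝ}
    (hK : 1 ≤ K) {ε : ℝ} (hε : 0 < ε) : ∀ᶠ n in (U : Filter ℕ), ∀ (p : Fin 12 → ℝ),
      ∀ x ∈ I n, ∀ y : ℕ × ℝ,
      Near (Gd222.coN B lev inc σ w0 sa sb n) (B.d n) p K x y →
      (∀ r : ℝ, DC w0 sa sb k0 ϑ a b p r →
        |Gd222.coN B lev inc σ w0 sa sb n x y (cs b)| ≤ B.d n ^ (r - ε)) ∧
      (∀ r : ℝ, DX w0 sa sb k0 ϑ a b p r →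
        |Gd222.coN B lev inc σ w0 sa sb n x y (xs b)| ≤ B.d n ^ (r - ε)) := by
  have hε2 : 0 < ε / 2 := by positivity
  filter_upwards [h.bd, h.big, h.scal w0 sa sb hε2,
    ev_fin B (show 0 < 20 * K ^ 2 by positivity) hε] with n h1 h2 h3 hfin p x hx y hn
  have hD := B.pos n
  have hD1 := (B.lt n).le
  have hK0 : 0 ≤ K := by linarith
  have hKK : K ≤ K ^ 2 := by nlinarith
  have s0 := h.σp 0 n
  have s1 := h.σp 1 n
  have dp := fun a => Dp76.dpow_pos B n a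
  obtain ⟨er, h3'⟩ := h3
  obtain ⟨ee, ef⟩ := h3' x hx
  set D := B.d n with hDd
  set lz : ℝ := 2 ^ lev n 0 * D ^ w0 with hlz
  set lc : ℝ := D ^ sa / σ 0 n with hlc
  set lp : ℝ := D ^ sb / σ 1 n with hlp
  have hlz0 : 0 < lz := mul_pos (by positivity) (dp _)
  have hlc0 : 0 < lc := div_pos (dp _) s0
  have hlp0 : 0 < lp := div_pos (dp _) s1
  set c := Gd222.coN B lev inc σ w0 sa sb n x y with hc
  obtain ⟨t1, t2⟩ := norm_le (inc n x) (inc n y) h.ab (h1 x hx) (h2 x hx) hlz0 hlc0 hlp0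
    (c := c) (fun k => rfl)
  have hcn : ∀ k, |c k| ≤ K * D ^ p k := hn
  have n0 : ∀ k, 0 ≤ |c k| := fun k => abs_nonneg _
  constructor
  · rintro r ⟨d1, d2, d3, d4, d5, d6, d7⟩
    refine hfin r _ (t1.trans ?_)
    have u1 : lc / lp * |c 10| ≤ K * D ^ (r - ε / 2) :=
      ex_mul hD hD1 er (n0 _) (hcn _) hK0 (by linarith)
    have u2 : |c (cs a)| ≤ K * D ^ (r - ε / 2) := (hcn _).trans
      (mul_le_mul_of_nonneg_left (Real.rpow_le_rpow_of_exponent_ge hD hD1 (by linarith)) hK0)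
    have u3 : |(inc n x).et| / lc * |c (cs a)| ^ 2 ≤ K ^ 2 * D ^ (r - ε / 2) :=
      ex_mul hD hD1 ee (by positivity) (ex_sq hD (n0 _) (hcn _)) (by positivity) (by linarith)
    have u4 : |(inc n x).et| / lc * |c (cs b)| ^ 2 ≤ K ^ 2 * D ^ (r - ε / 2) :=
      ex_mul hD hD1 ee (by positivity) (ex_sq hD (n0 _) (hcn _)) (by positivity) (by linarith)
    have u5 : |(inc n x).d| / (lz * lc) * (|c (xs a)| * |c (cs a)|) ≤ K ^ 2 * D ^ (r - ε / 2) :=
      ex_mul hD hD1 ef (by positivity) (ex_pr hD (n0 _) (hcn _) (n0 _) (hcn _)) (by positivity)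
        (by linarith)
    have u6 : |(inc n x).d| / (lz * lc) * (|c (xs b)| * |c (cs b)|) ≤ K ^ 2 * D ^ (r - ε / 2) :=
      ex_mul hD hD1 ef (by positivity) (ex_pr hD (n0 _) (hcn _) (n0 _) (hcn _)) (by positivity)
        (by linarith)
    have u7 : |(inc n x).d| / (lz * lc) * |c 9| ≤ K * D ^ (r - ε / 2) :=
      ex_mul hD hD1 ef (n0 _) (hcn _) hK0 (by linarith)
    have hKD : K * D ^ (r - ε / 2) ≤ K ^ 2 * D ^ (r - ε / 2) :=
      mul_le_mul_of_nonneg_right hKK (dp _).le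
    linarith
  · rintro r ⟨d1, d2, d3, d4, d5⟩
    refine hfin r _ (t2.trans ?_)
    have u1 : lc / lp * |c 11| ≤ K * D ^ (r - ε / 2) :=
      ex_mul hD hD1 er (n0 _) (hcn _) hK0 (by linarith)
    have u2 : |c (xs a)| ≤ K * D ^ (r - ε / 2) := (hcn _).trans
      (mul_le_mul_of_nonneg_left (Real.rpow_le_rpow_of_exponent_ge hD hD1 (by linarith)) hK0)
    have u3 : |(inc n x).et| / lc * |c 9| ≤ K * D ^ (r - ε / 2) :=
      ex_mul hD hD1 ee (n0 _) (hcn _) hK0 (by linarith)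
    have u4 : |(inc n x).d| / (lz * lc) * |c (xs a)| ^ 2 ≤ K ^ 2 * D ^ (r - ε / 2) :=
      ex_mul hD hD1 ef (by positivity) (ex_sq hD (n0 _) (hcn _)) (by positivity) (by linarith)
    have u5 : |(inc n x).d| / (lz * lc) * |c (xs b)| ^ 2 ≤ K ^ 2 * D ^ (r - ε / 2) :=
      ex_mul hD hD1 ef (by positivity) (ex_sq hD (n0 _) (hcn _)) (by positivity) (by linarith)
    have hKD : K * D ^ (r - ε / 2) ≤ K ^ 2 * D ^ (r - ε / 2) :=
      mul_le_mul_of_nonneg_right hKK (dp _).le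
    have hKp : 0 ≤ K ^ 2 * D ^ (r - ε / 2) := by positivity
    linarith

end geo

end Crest.Agent.R116.Xd954
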