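import Crest.Agent.R116.Xd1_954

/-!
# R116, [X-DIM] of K-TEXT II-c (helper954), part 2: the profile

`b` = direction in which the flag is large (dead), `a` = the other one (live).
* `nu_dead` : a refinement in the slots `cs b`, `xs b` only costs nothing (under `DC`, `DX`).
* `nu_lip`  : an arbitrary refinement costs at most its length in the other ten slots.
* `nu_lip_nat` : the same near a natural box `(v, t, y)` with `0 < t < y + k0`, `ϑ < v + t`.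
-/

set_option autoImplicit false
set_option linter.unusedVariables false

open Finset Filter Topology

namespace Crest.Agent.R116.Xd954

open Crest.Agent.R138.Ex926
open Crest.Agent.R138
open Crest.Agent.R136.Net191
open Crest.Agent.R136.Lq196
open Crest.Agent.R116.ChL222

theorem cs_ne_xs (a b : Fin 2) : cs a ≠ xs b := by fin_cases a <;> fin_cases b <;> decide
theorem cs_inj {a b : Fin 2} (h : a ≠ b) : cs a ≠ cs b := by
  revert h; fin_cases a <;> fin_cases b <;> decide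
theorem xs_inj {a b : Fin 2} (h : a ≠ b) : xs a ≠ xs b := by
  revert h; fin_cases a <;> fin_cases b <;> decide

section prof

variable {B : Base} {I0 I : ℕ → Finset (ℕ × ℝ)} {lev : ℕ → ℚ → ℕ} {inc : ℕ → ℕ × ℝ → LInc}
    {σ : Fin 2 → ℕ → ℝ} {k0 ϑ w0 sa sb : ℝ} {a b : Fin 2}
    {C R : ℝ} {ν : (Fin 12 → ℝ) → ℝ}

/-- **the slots `cs b`, `xs b` are dead** -/
theorem nu_dead (hch : ∀ n, Chart (I0 n) (Gd222.coN B lev inc σ w0 sa sb n) monL C)
    (hsub : ∀ n, I n ⊆ I0 n) (hne : ∀ᶠ n in (U : Filter ℕ), (I n).Nonempty)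
    (hν : QProf B I (nlab B I0 (Gd222.coN B lev inc σ w0 sa sb) monL C) (Leg monL R) ν)
    (hF : FlagX B I lev inc σ k0 ϑ a b) {p p' : Fin 12 → ℝ} (hp : p ∈ Leg monL R)
    (hp' : p' ∈ Leg monL R) (hk : ∀ k, k ≠ cs b → k ≠ xs b → p' k ≤ p k)
    (hC : p' (cs b) ≤ p (cs b) ∨ DC w0 sa sb k0 ϑ a b p (p' (cs b)))
    (hX : p' (xs b) ≤ p (xs b) ∨ DX w0 sa sb k0 ϑ a b p (p' (xs b))) : ν p ≤ ν p' := by
  refine prof_dead hch hsub hne hν hp hp' fun K hK ε hε => ?_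
  filter_upwards [hF.near w0 sa sb hK hε, B.ev_const_log (Real.log K) hε] with n h1 h2 x hx y hy
    hn k
  obtain ⟨t1, t2⟩ := h1 p x hx y hn
  have hD := B.pos n
  have hD1 := (B.lt n).le
  have hle : p' k ≤ p k → |Gd222.coN B lev inc σ w0 sa sb n x y k| ≤ B.d n ^ (p' k - ε) := by
    intro h3
    refine (hn k).trans ?_
    have h4 : K ≤ B.d n ^ (-ε) := by
      rw [← B.exp_eq, ← Real.log_le_iff_le_exp (by linarith)]
      exact h2
    calc K * B.d n ^ p k ≤ B.d n ^ (-ε) * B.d n ^ p k :=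
          mul_le_mul_of_nonneg_right h4 (Real.rpow_nonneg hD.le _)
      _ = B.d n ^ (p k - ε) := by rw [← Real.rpow_add hD]; congr 1; ring
      _ ≤ B.d n ^ (p' k - ε) := Real.rpow_le_rpow_of_exponent_ge hD hD1 (by linarith)
  by_cases k1 : k = cs b
  · subst k1
    rcases hC with h3 | h3
    · exact hle h3
    · exact t1 _ h3
  · by_cases k2 : k = xs b
    · subst k2
      rcases hX with h3 | h3
      · exact hle h3
      · exact t2 _ h3
    · exact hle (hk k k1 k2)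

end prof

/-! ### mixing two legal points -/

/-- `p'` on the slots of `S`, `p` on the others -/
def mx (S : Finset (Fin 12)) (p p' : Fin 12 → ℝ) : Fin 12 → ℝ := fun k =>
  if k ∈ S then p' k else p k

/-- lower sets of slots -/
def Low (S : Finset (Fin 12)) : Prop := ∀ k ∈ S, ∀ e ∈ monL.mon k, ∀ s, e s ≠ 0 → s ∈ S

theorem mx_leg {S : Finset (Fin 12)} (hS : Low S) {R : ℝ} {p p' : Fin 12 → ℝ}
    (hp : p ∈ Leg monL R) (hp' : p' ∈ Leg monL R) (hpp : p ≤ p') : mx S p p' ∈ Leg monL R := by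
  have hge : p ≤ mx S p p' := by
    intro k; unfold mx; split_ifs
    · exact hpp k
    · exact le_rfl
  refine ⟨⟨fun k => (hp.1.nonneg k).trans (hge k), fun k e he => ?_⟩, fun k => ?_⟩
  · by_cases hk : k ∈ S
    · have e1 : mx S p p' k = p' k := if_pos hk
      rw [e1]
      refine (hp'.1.wall k e he).trans (Finset.sum_le_sum fun s _ => ?_)
      by_cases hs : e s = 0
      · rw [hs]; simp
      · have : mx S p p' s = p' s := if_pos (hS k hk e he s hs)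
        rw [this]
    · have e1 : mx S p p' k = p k := if_neg hk
      rw [e1]
      exact (hp.1.wall k e he).trans (Finset.sum_le_sum fun s _ =>
        mul_le_mul_of_nonneg_left (hge s) (Nat.cast_nonneg _))
  · unfold mx; split_ifs
    · exact hp'.2 k
    · exact hp.2 k

theorem mx_mono {S S' : Finset (Fin 12)} (h : S ⊆ S') {p p' : Fin 12 → ℝ} (hpp : p ≤ p') :
    mx S p p' ≤ mx S' p p' := by
  intro k; unfold mx
  by_cases h1 : k ∈ S
  · rw [if_pos h1, if_pos (h h1)]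
  · rw [if_neg h1]; split_ifs
    · exact hpp k
    · exact le_rfl

theorem low1 (a : Fin 2) : Low {0, 1, 2, cs a} := by unfold Low; fin_cases a <;> decide
theorem low2 : Low {0, 1, 2, 3, 4} := by unfold Low; decide
theorem low3 (a : Fin 2) : Low {0, 1, 2, 3, 4, xs a} := by unfold Low; fin_cases a <;> decide
theorem low4 : Low {0, 1, 2, 3, 4, 5, 6} := by unfold Low; decide

theorem mx_sum {S S' : Finset (Fin 12)} (h : S ⊆ S') (p p' : Fin 12 → ℝ) :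
    ∑ k, (mx S' p p' k - mx S p p' k) = ∑ k ∈ S' \ S, (p' k - p k) := by
  rw [← Finset.sum_subset (Finset.subset_univ (S' \ S))]
  · refine Finset.sum_congr rfl fun k hk => ?_
    rw [Finset.mem_sdiff] at hk
    unfold mx
    rw [if_pos hk.1, if_neg hk.2]
  · intro k _ hk
    rw [Finset.mem_sdiff, not_and, not_not] at hk
    unfold mx
    by_cases h1 : k ∈ S'
    · rw [if_pos h1, if_pos (hk h1), sub_self]
    · rw [if_neg h1, if_neg (fun h2 => h1 (h h2)), sub_self]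

theorem mx_empty (p p' : Fin 12 → ℝ) : mx ∅ p p' = p := by
  funext k; unfold mx; simp

theorem mx_univ (p p' : Fin 12 → ℝ) : mx Finset.univ p p' = p' := by
  funext k; unfold mx; simp

section lip

variable {B : Base} {I0 I : ℕ → Finset (ℕ × ℝ)} {lev : ℕ → ℚ → ℕ} {inc : ℕ → ℕ × ℝ → LInc}
    {σ : Fin 2 → ℕ → ℝ} {k0 ϑ w0 sa sb : ℝ} {a b : Fin 2}
    {C R : ℝ} {ν : (Fin 12 → ℝ) → ℝ}

/-- exponents of the dead components along a refinement `p ≤ p'` -/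
structure DLip (w0 sa sb k0 ϑ : ℝ) (a b : Fin 2) (p p' : Fin 12 → ℝ) : Prop where
  C : p' (cs b) ≤ p (cs b) ∨ (p' (cs b) ≤ p' (cs a) ∧ p' (cs b) ≤ p 10 - sb + k0 + sa ∧
    p' (cs b) ≤ 2 * p' (cs a) - sa ∧ p' (cs b) ≤ 2 * p (cs b) - sa ∧
    p' (cs b) ≤ p (xs a) + p' (cs a) - (w0 + sa + ϑ) ∧
    p' (cs b) ≤ p (xs b) + p (cs b) - (w0 + sa + ϑ) ∧ p' (cs b) ≤ p 9 - (w0 + sa + ϑ))
  X : p' (xs b) ≤ p (xs b) ∨ (p' (xs b) ≤ p' (xs a) ∧ p' (xs b) ≤ p 11 - sb + k0 + sa ∧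
    p' (xs b) ≤ p 9 - sa ∧ p' (xs b) ≤ 2 * p' (xs a) - (w0 + sa + ϑ) ∧
    p' (xs b) ≤ 2 * p (xs b) - (w0 + sa + ϑ))

/-- **cost of an arbitrary refinement: the slots `cs b`, `xs b` are free** -/
theorem nu_lip (hch : ∀ n, Chart (I0 n) (Gd222.coN B lev inc σ w0 sa sb n) monL C)
    (hsub : ∀ n, I n ⊆ I0 n) (hne : ∀ᶠ n in (U : Filter ℕ), (I n).Nonempty)
    (hν : QProf B I (nlab B I0 (Gd222.coN B lev inc σ w0 sa sb) monL C) (Leg monL R) ν)
    (hlip : ∀ p ∈ Leg monL R, ∀ q ∈ Leg monL R, p ≤ q → 0 ≤ ν p - ν q ∧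
      ν p - ν q ≤ ∑ k, (q k - p k))
    (hF : FlagX B I lev inc σ k0 ϑ a b) {p p' : Fin 12 → ℝ} (hp : p ∈ Leg monL R)
    (hp' : p' ∈ Leg monL R) (hpp : p ≤ p') (hD : DLip w0 sa sb k0 ϑ a b p p') :
    ν p - ν p' ≤ ∑ k ∈ ({cs b, xs b} : Finset (Fin 12))ᶜ, (p' k - p k) := by
  have hab := hF.ab
  set S1 : Finset (Fin 12) := {0, 1, 2, cs a} with hS1
  set S2 : Finset (Fin 12) := {0, 1, 2, 3, 4} with hS2
  set S3 : Finset (Fin 12) := {0, 1, 2, 3, 4, xs a} with hS3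
  set S4 : Finset (Fin 12) := {0, 1, 2, 3, 4, 5, 6} with hS4
  have i12 : S1 ⊆ S2 := by rw [hS1, hS2]; fin_cases a <;> decide
  have i23 : S2 ⊆ S3 := by rw [hS2, hS3]; fin_cases a <;> decide
  have i34 : S3 ⊆ S4 := by rw [hS3, hS4]; fin_cases a <;> decide
  have l1 : mx S1 p p' ∈ Leg monL R := mx_leg (low1 a) hp hp' hpp
  have l2 : mx S2 p p' ∈ Leg monL R := mx_leg low2 hp hp' hpp
  have l3 : mx S3 p p' ∈ Leg monL R := mx_leg (low3 a) hp hp' hpp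
  have l4 : mx S4 p p' ∈ Leg monL R := mx_leg low4 hp hp' hpp
  have e : ∀ (S : Finset (Fin 12)) (k : Fin 12), k ∈ S → mx S p p' k = p' k :=
    fun S k h => if_pos h
  have e' : ∀ (S : Finset (Fin 12)) (k : Fin 12), k ∉ S → mx S p p' k = p k :=
    fun S k h => if_neg h
  have h01 := (hlip _ hp _ l1 (by
    have := mx_mono (S := ∅) (S' := S1) (by simp) hpp
    rwa [mx_empty] at this)).2
  have s01 := mx_sum (S := ∅) (S' := S1) (by simp) p p'
  rw [mx_empty] at s01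
  rw [s01] at h01
  have h23 := (hlip _ l2 _ l3 (mx_mono i23 hpp)).2
  rw [mx_sum i23] at h23
  have h45 := (hlip _ l4 _ hp' (by
    have := mx_mono (S := S4) (S' := Finset.univ) (by simp) hpp
    rwa [mx_univ] at this)).2
  have s45 := mx_sum (S := S4) (S' := Finset.univ) (by simp) p p'
  rw [mx_univ] at s45
  rw [s45] at h45
  have m1a : cs a ∈ S1 := by rw [hS1]; simp
  have m1b : cs b ∉ S1 := by
    rw [hS1]; revert hab; fin_cases a <;> fin_cases b <;> decide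
  have m1x : ∀ c, xs c ∉ S1 := by
    intro c; rw [hS1]; fin_cases a <;> fin_cases c <;> decide
  have m19 : (9 : Fin 12) ∉ S1 := by rw [hS1]; fin_cases a <;> decide
  have m110 : (10 : Fin 12) ∉ S1 := by rw [hS1]; fin_cases a <;> decide
  have m2b : cs b ∈ S2 := by rw [hS2]; fin_cases b <;> decide
  have m2x : xs b ∉ S2 := by rw [hS2]; fin_cases b <;> decide
  have m3a : xs a ∈ S3 := by rw [hS3]; simp
  have m3b : xs b ∉ S3 := by
    rw [hS3]; revert hab; fin_cases a <;> fin_cases b <;> decide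
  have m3c : cs b ∈ S3 := i23 m2b
  have m39 : (9 : Fin 12) ∉ S3 := by rw [hS3]; fin_cases a <;> decide
  have m311 : (11 : Fin 12) ∉ S3 := by rw [hS3]; fin_cases a <;> decide
  have m4b : xs b ∈ S4 := by rw [hS4]; fin_cases b <;> decide
  have d12 : ∀ k, k ≠ cs b → (k ∈ S1 ↔ k ∈ S2) := by
    rw [hS1, hS2]; revert hab; fin_cases a <;> fin_cases b <;> decide
  have d34 : ∀ k, k ≠ xs b → (k ∈ S3 ↔ k ∈ S4) := by
    rw [hS3, hS4]; revert hab; fin_cases a <;> fin_cases b <;> decide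
  have h12 : ν (mx S1 p p') ≤ ν (mx S2 p p') := by
    refine nu_dead hch hsub hne hν hF l1 l2 (fun k k1 k2 => ?_) ?_ (Or.inl ?_)
    · by_cases hk : k ∈ S1
      · rw [e _ _ hk, e _ _ ((d12 k k1).1 hk)]
      · rw [e' _ _ hk, e' _ _ (fun h => hk ((d12 k k1).2 h))]
    · rw [e _ _ m2b, e' _ _ m1b]
      rcases hD.C with h | ⟨a1, a2, a3, a4, a5, a6, a7⟩
      · exact Or.inl h
      · refine Or.inr ⟨?_, ?_, ?_, ?_, ?_, ?_, ?_⟩
        · rwa [e _ _ m1a]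
        · rwa [e' _ _ m110]
        · rwa [e _ _ m1a]
        · rwa [e' _ _ m1b]
        · rwa [e _ _ m1a, e' _ _ (m1x a)]
        · rwa [e' _ _ m1b, e' _ _ (m1x b)]
        · rwa [e' _ _ m19]
    · rw [e' _ _ m2x, e' _ _ (m1x b)]
  have h34 : ν (mx S3 p p') ≤ ν (mx S4 p p') := by
    refine nu_dead hch hsub hne hν hF l3 l4 (fun k k1 k2 => ?_) (Or.inl ?_) ?_
    · by_cases hk : k ∈ S3
      · rw [e _ _ hk, e _ _ ((d34 k k2).1 hk)]
      · rw [e' _ _ hk, e' _ _ (fun h => hk ((d34 k k2).2 h))]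
    · rw [e _ _ m3c, e _ _ (i34 m3c)]
    · rw [e _ _ m4b, e' _ _ m3b]
      rcases hD.X with h | ⟨a1, a2, a3, a4, a5⟩
      · exact Or.inl h
      · refine Or.inr ⟨?_, ?_, ?_, ?_, ?_⟩
        · rwa [e _ _ m3a]
        · rwa [e' _ _ m311]
        · rwa [e' _ _ m39]
        · rwa [e _ _ m3a]
        · rwa [e' _ _ m3b]
  have hsum : ∑ k ∈ ({cs b, xs b} : Finset (Fin 12))ᶜ, (p' k - p k) =
      ∑ k ∈ S1 \ ∅, (p' k - p k) + ∑ k ∈ S3 \ S2, (p' k - p k) +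
        ∑ k ∈ Finset.univ \ S4, (p' k - p k) := by
    have u1 : Disjoint (S1 \ ∅) (S3 \ S2) := by
      rw [hS1, hS2, hS3]; fin_cases a <;> decide
    have u2 : Disjoint ((S1 \ ∅) ∪ (S3 \ S2)) (Finset.univ \ S4) := by
      rw [hS1, hS2, hS3, hS4]; fin_cases a <;> decide
    rw [← Finset.sum_union u1, ← Finset.sum_union u2]
    congr 1
    rw [hS1, hS2, hS3, hS4]
    revert hab; fin_cases a <;> fin_cases b <;> decide
  rw [hsum]
  linarith

end lip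

/-! ### near a natural box -/

theorem nb_cs (w0 sa sb v t y : ℝ) (c : Fin 2) : PL504.nb w0 sa sb v t y (cs c) = sa + t := by
  fin_cases c <;> rfl

theorem nb_xs (w0 sa sb v t y : ℝ) (c : Fin 2) :
    PL504.nb w0 sa sb v t y (xs c) = w0 + v + (sa + t) := by
  fin_cases c <;> rfl

/-- margins of the natural box `(v, t, y)` -/
structure Mrg (k0 ϑ v t y δ : ℝ) : Prop where
  pos : 0 < δ
  mt : 3 * δ ≤ t
  mkk : 3 * δ ≤ y + k0 - t
  mv : 3 * δ ≤ v + t - ϑ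

theorem exists_mrg {k0 ϑ v t y : ℝ} (h1 : 0 < t) (h2 : t < y + k0) (h3 : ϑ < v + t) :
    ∃ δ : ℝ, Mrg k0 ϑ v t y δ := by
  refine ⟨min t (min (y + k0 - t) (v + t - ϑ)) / 3, ?_, ?_, ?_, ?_⟩
  · have : 0 < min t (min (y + k0 - t) (v + t - ϑ)) :=
      lt_min h1 (lt_min (by linarith) (by linarith))
    positivity
  · have := min_le_left t (min (y + k0 - t) (v + t - ϑ))
    linarith
  · have := (min_le_right t (min (y + k0 - t) (v + t - ϑ))).trans (min_le_left _ _)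
    linarith
  · have := (min_le_right t (min (y + k0 - t) (v + t - ϑ))).trans (min_le_right _ _)
    linarith

theorem cs_ge (c : Fin 2) : 3 ≤ cs c := by fin_cases c <;> decide
theorem xs_ge (c : Fin 2) : 3 ≤ xs c := by fin_cases c <;> decide

theorem Mrg.dlip' {k0 ϑ v t y δ : ℝ} (h : Mrg k0 ϑ v t y δ) (w0 sa sb : ℝ) {a b : Fin 2}
    {p p' : Fin 12 → ℝ} (hp : ∀ k, 3 ≤ k → |p k - PL504.nb w0 sa sb v t y k| ≤ δ)
    (hp' : ∀ k, 3 ≤ k → |p' k - PL504.nb w0 sa sb v t y k| ≤ δ)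
    (hC : p' (cs b) ≤ p (cs b) ∨ p' (cs b) ≤ p' (cs a))
    (hX : p' (xs b) ≤ p (xs b) ∨ p' (xs b) ≤ p' (xs a)) : DLip w0 sa sb k0 ϑ a b p p' := by
  have hδ := h.pos
  have h1 := h.mt
  have h2 := h.mkk
  have h3 := h.mv
  have q : ∀ k, 3 ≤ k → PL504.nb w0 sa sb v t y k - δ ≤ p k ∧
      p k ≤ PL504.nb w0 sa sb v t y k + δ :=
    fun k hk => by have := abs_le.1 (hp k hk); constructor <;> linarith [this.1, this.2]
  have q' : ∀ k, 3 ≤ k → PL504.nb w0 sa sb v t y k - δ ≤ p' k ∧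
      p' k ≤ PL504.nb w0 sa sb v t y k + δ :=
    fun k hk => by have := abs_le.1 (hp' k hk); constructor <;> linarith [this.1, this.2]
  have n9 : PL504.nb w0 sa sb v t y 9 = (w0 + v) + 2 * (sa + t) := rfl
  have n10 : PL504.nb w0 sa sb v t y 10 = sb + y := rfl
  have n11 : PL504.nb w0 sa sb v t y 11 = (w0 + v) + (sb + y) := rfl
  have c0 := q (cs b) (cs_ge b)
  have c1 := q (cs a) (cs_ge a)
  have c2 := q (xs a) (xs_ge a)
  have c3 := q (xs b) (xs_ge b)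
  have c4 := q 9 (by decide)
  have c5 := q 10 (by decide)
  have c6 := q 11 (by decide)
  have d0 := q' (cs b) (cs_ge b)
  have d1 := q' (cs a) (cs_ge a)
  have d2 := q' (xs a) (xs_ge a)
  have d3 := q' (xs b) (xs_ge b)
  rw [nb_cs] at c0 c1 d0 d1
  rw [nb_xs] at c2 c3 d2 d3
  rw [n9] at c4
  rw [n10] at c5
  rw [n11] at c6
  constructor
  · rcases hC with h4 | h4
    · exact Or.inl h4
    · refine Or.inr ⟨h4, ?_, ?_, ?_, ?_, ?_, ?_⟩ <;>
        linarith [c0.1, c0.2, c1.1, c1.2, c2.1, c2.2, c3.1, c3.2, c4.1, c4.2, c5.1, c5.2, c6.1,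
          c6.2, d0.1, d0.2, d1.1, d1.2, d2.1, d2.2, d3.1, d3.2]
  · rcases hX with h4 | h4
    · exact Or.inl h4
    · refine Or.inr ⟨h4, ?_, ?_, ?_, ?_⟩ <;>
        linarith [c0.1, c0.2, c1.1, c1.2, c2.1, c2.2, c3.1, c3.2, c4.1, c4.2, c5.1, c5.2, c6.1,
          c6.2, d0.1, d0.2, d1.1, d1.2, d2.1, d2.2, d3.1, d3.2]

theorem Mrg.dlip {k0 ϑ v t y δ : ℝ} (h : Mrg k0 ϑ v t y δ) (w0 sa sb : ℝ) {a b : Fin 2}
    {p p' : Fin 12 → ℝ} (hp : ∀ k, |p k - PL504.nb w0 sa sb v t y k| ≤ δ)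
    (hp' : ∀ k, |p' k - PL504.nb w0 sa sb v t y k| ≤ δ)
    (hC : p' (cs b) ≤ p (cs b) ∨ p' (cs b) ≤ p' (cs a))
    (hX : p' (xs b) ≤ p (xs b) ∨ p' (xs b) ≤ p' (xs a)) : DLip w0 sa sb k0 ϑ a b p p' :=
  h.dlip' w0 sa sb (fun k _ => hp k) (fun k _ => hp' k) hC hX

section nat

variable {B : Base} {I0 I : ℕ → Finset (ℕ × ℝ)} {lev : ℕ → ℚ → ℕ} {inc : ℕ → ℕ × ℝ → LInc}
    {σ : Fin 2 → ℕ → ℝ} {k0 ϑ w0 sa sb : ℝ} {a b : Fin 2}
    {C R s c₀ : ℝ} {PD : Set (Fin 12 → ℝ)} {D : (Fin 12 → ℝ) → ℝ}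
    {r o : ℝ → Fin 12 → ℝ} {E : ℝ → ℝ} {T : Fin 12 → Prop} {ν own : (Fin 12 → ℝ) → ℝ}

/-- **[X-DIM] near a natural box.** -/
theorem nu_lip_nat
    (h : ExtQ B I0 I (Gd222.coN B lev inc σ w0 sa sb) monL C R 0 w0 s PD D r o E T ν own c₀)
    (hF : FlagX B I lev inc σ k0 ϑ a b) {v t y δ : ℝ} (hm : Mrg k0 ϑ v t y δ)
    {p p' : Fin 12 → ℝ} (hp : p ∈ Leg monL R) (hp' : p' ∈ Leg monL R) (hpp : p ≤ p')
    (h1 : ∀ k, |p k - PL504.nb w0 sa sb v t y k| ≤ δ)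
    (h2 : ∀ k, |p' k - PL504.nb w0 sa sb v t y k| ≤ δ)
    (hC : p' (cs b) ≤ p (cs b) ∨ p' (cs b) ≤ p' (cs a))
    (hX : p' (xs b) ≤ p (xs b) ∨ p' (xs b) ≤ p' (xs a)) :
    ν p - ν p' ≤ ∑ k ∈ ({cs b, xs b} : Finset (Fin 12))ᶜ, (p' k - p k) :=
  nu_lip h.chart h.sub h.ne h.prof h.lip hF hp hp' hpp (hm.dlip w0 sa sb h1 h2 hC hX)

/-- the same, no condition on the slots `z`, `D`, `E` (frozen flags) -/
theorem nu_lip_nat'
    (h : ExtQ B I0 I (Gd222.coN B lev inc σ w0 sa sb) monL C R 0 w0 s PD D r o E T ν own c₀)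
    (hF : FlagX B I lev inc σ k0 ϑ a b) {v t y δ : ℝ} (hm : Mrg k0 ϑ v t y δ)
    {p p' : Fin 12 → ℝ} (hp : p ∈ Leg monL R) (hp' : p' ∈ Leg monL R) (hpp : p ≤ p')
    (h1 : ∀ k, 3 ≤ k → |p k - PL504.nb w0 sa sb v t y k| ≤ δ)
    (h2 : ∀ k, 3 ≤ k → |p' k - PL504.nb w0 sa sb v t y k| ≤ δ)
    (hC : p' (cs b) ≤ p (cs b) ∨ p' (cs b) ≤ p' (cs a))
    (hX : p' (xs b) ≤ p (xs b) ∨ p' (xs b) ≤ p' (xs a)) :
    ν p - ν p' ≤ ∑ k ∈ ({cs b, xs b} : Finset (Fin 12))ᶜ, (p' k - p k) :=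
  nu_lip h.chart h.sub h.ne h.prof h.lip hF hp hp' hpp (hm.dlip' w0 sa sb h1 h2 hC hX)

end nat

end Crest.Agent.R116.Xd954
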