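import Mathlib

/-!
# R116 (K side), block X1-C, choice of the rewards (helper708)

`exists_rewards_diff`: `β : (ι → ℝ) → ℝ` (the extremal gap as a function of the rewards) is Lipschitz
on the box `[0,4]^ι`, `b0 - ∑ p j ≤ β p` with `b0 > 0` and `β ≤ 0` for all `p` of the box with
`p i0 = 2`.  Then for every `η > 0` there is a point `q` of differentiability of `β` with

* `0 < q j`, `q j < 4`, `b0 / 2 ≤ q i0 < 2`, `q j ≤ η β q` (`j ≠ i0`), `(β q)^2 ≤ η q i0 q j` (`j ≠ i0`),
* `0 < β q ≤ η q i0`,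
* the derivative `g'` in the direction `i0` is `≤ -κ < 0`.
-/

set_option autoImplicit false

open MeasureTheory Filter Topology Set

namespace Crest.Agent.R116.Xr708

/-- one variable: a Lipschitz function which falls from `≥ 2 g` to `≤ g` on `[0,t1]`, `t1 ≤ 2`, has a
derivative `< -g/4` at some point of the level window `(g, 2g)`; the point can be taken in any set
of full measure. -/
theorem one_var {f : ℝ → ℝ} {K : NNReal} {t1 g : ℝ} (hf : LipschitzOnWith K f (Icc 0 t1))
    (ht1 : 0 < t1) (ht2 : t1 ≤ 2) (hg : 0 < g) (h0 : 2 * g ≤ f 0) (h1 : f t1 ≤ g)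
    {P : ℝ → Prop} (hP : ∀ᵐ t : ℝ, P t) :
    ∃ t, 0 < t ∧ t < t1 ∧ P t ∧ g < f t ∧ f t < 2 * g ∧ deriv f t < -(g / 4) := by
  classical
  set F : ℝ → ℝ := fun t => max g (min (2 * g) (f t)) with hF
  have hFu : ∀ t, F t ≤ 2 * g := by
    intro t
    simp only [hF]
    exact max_le (by linarith) (min_le_left _ _)
  have hFl : ∀ t, g ≤ F t := by
    intro t
    simp only [hF]
    exact le_max_left _ _
  have hFL : LipschitzOnWith K F (Icc 0 t1) := by
    have e1 : LipschitzWith 1 (fun x : ℝ => max g (min (2 * g) x)) := by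
      have a1 : LipschitzWith 1 (fun x : ℝ => min (2 * g) x) := by
        have := (LipschitzWith.id (α := ℝ)).const_min (2 * g)
        simpa using this
      have := a1.const_max g
      simpa using this
    have := e1.comp_lipschitzOnWith hf
    rw [one_mul] at this
    exact this
  have hAC : AbsolutelyContinuousOnInterval F 0 t1 := by
    apply LipschitzOnWith.absolutelyContinuousOnInterval (K := K)
    rwa [uIcc_of_le ht1.le]
  have hint := hAC.integral_deriv_eq_sub
  have e0 : F 0 = 2 * g := by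
    simp only [hF]
    rw [min_eq_left h0, max_eq_right (by linarith)]
  have e1 : F t1 = g := by
    simp only [hF]
    exact max_eq_left ((min_le_right _ _).trans h1)
  rw [e0, e1] at hint
  by_contra hcon
  push Not at hcon
  have key : ∀ᵐ t : ℝ, t ∈ Ioc 0 t1 → -(g / 4) ≤ deriv F t := by
    have hne : ∀ᵐ t : ℝ, t ≠ t1 := by
      simp [ae_iff, measure_singleton]
    filter_upwards [hP, hne] with t htP htne ht
    by_contra hlt
    push Not at hlt
    have htl : t < t1 := lt_of_le_of_ne ht.2 htne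
    have hdne : deriv F t ≠ 0 := by
      intro h
      rw [h] at hlt
      linarith
    have hfu : f t < 2 * g := by
      by_contra h
      push Not at h
      apply hdne
      apply IsLocalMax.deriv_eq_zero
      have : F t = 2 * g := by
        simp only [hF]
        rw [min_eq_left h, max_eq_right (by linarith)]
      exact Eventually.of_forall fun x => by rw [this]; exact hFu x
    have hfl : g < f t := by
      by_contra h
      push Not at h
      apply hdne
      apply IsLocalMin.deriv_eq_zero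
      have : F t = g := by
        simp only [hF]
        exact max_eq_left ((min_le_right _ _).trans h)
      exact Eventually.of_forall fun x => by rw [this]; exact hFl x
    have hcont : ContinuousAt f t :=
      hf.continuousOn.continuousAt (Icc_mem_nhds ht.1 htl)
    have heq : F =ᶠ[𝓝 t] f := by
      have m1 : ∀ᶠ x in 𝓝 t, f x < 2 * g := hcont.eventually (Iio_mem_nhds hfu)
      have m2 : ∀ᶠ x in 𝓝 t, g < f x := hcont.eventually (Ioi_mem_nhds hfl)
      filter_upwards [m1, m2] with x hx1 hx2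
      simp only [hF]
      rw [min_eq_right hx1.le, max_eq_right hx2.le]
    rw [heq.deriv_eq] at hlt
    exact absurd hlt (not_lt.2 (hcon t ht.1 htl htP hfl hfu))
  have hii : IntervalIntegrable (deriv F) volume 0 t1 := hAC.intervalIntegrable_deriv
  have hge : ∫ _t in (0 : ℝ)..t1, (-(g / 4)) ≤ ∫ t in (0 : ℝ)..t1, deriv F t := by
    rw [intervalIntegral.integral_of_le ht1.le, intervalIntegral.integral_of_le ht1.le]
    apply setIntegral_mono_on_ae
    · exact integrableOn_const (by simp)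
    · exact (intervalIntegrable_iff_integrableOn_Ioc_of_le ht1.le).1 hii
    · exact measurableSet_Ioc
    · exact key
  rw [hint, intervalIntegral.integral_const] at hge
  simp only [smul_eq_mul, sub_zero] at hge
  nlinarith

variable {ι : Type} [Fintype ι] [DecidableEq ι]

/-- the closed box `[0,4]^ι` -/
def Bx (ι : Type) : Set (ι → ℝ) := {p | ∀ j, 0 ≤ p j ∧ p j ≤ 4}

omit [DecidableEq ι] in
theorem lipOn {β : (ι → ℝ) → ℝ} {K : ℝ} (hK : 0 ≤ K)
    (hL : ∀ p ∈ Bx ι, ∀ p' ∈ Bx ι, |β p - β p'| ≤ K * ∑ j, |p j - p' j|) :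
    LipschitzOnWith (Real.toNNReal (K * Fintype.card ι)) β (Bx ι) := by
  apply LipschitzOnWith.of_dist_le_mul
  intro p hp p' hp'
  rw [Real.dist_eq, Real.coe_toNNReal _ (by positivity)]
  refine (hL p hp p' hp').trans ?_
  rw [mul_assoc]
  apply mul_le_mul_of_nonneg_left _ hK
  have : ∀ j ∈ Finset.univ, |p j - p' j| ≤ dist p p' := by
    intro j _
    rw [← Real.dist_eq]
    exact dist_le_pi_dist p p' j
  refine (Finset.sum_le_card_nsmul _ _ _ this).trans ?_
  simp [nsmul_eq_mul]

set_option maxHeartbeats 1000000 in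
/-- **choice of the rewards at a differentiability point.**  `b0 - ∑ p j ≤ β p` (only asked when the
left side is `≥ 0`) gives the lower bound `b0 / 2 ≤ q i0` which does not depend on the Lipschitz
constant `K`. -/
theorem exists_rewards_diff {β : (ι → ℝ) → ℝ} {K b0 : ℝ} (i0 : ι)
    (hL : ∀ p ∈ Bx ι, ∀ p' ∈ Bx ι, |β p - β p'| ≤ K * ∑ j, |p j - p' j|)
    (h0 : 0 < b0) (hE : ∀ p ∈ Bx ι, ∑ j, p j ≤ b0 → b0 - ∑ j, p j ≤ β p)
    (hQ : ∀ p ∈ Bx ι, p i0 = 2 → β p ≤ 0) {η : ℝ} (hη : 0 < η) :
    ∃ (q : ι → ℝ) (κ : ℝ) (g' : (ι → ℝ) →L[ℝ] ℝ), 0 < κ ∧ (∀ j, 0 < q j) ∧ (∀ j, q j < 4) ∧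
      (∀ j, j ≠ i0 → q j ≤ η * β q) ∧ (∀ j, j ≠ i0 → β q ^ 2 ≤ η * q i0 * q j) ∧
      0 < β q ∧ β q ≤ η * q i0 ∧ b0 / 2 ≤ q i0 ∧ q i0 < 2 ∧ HasFDerivAt β g' q ∧
      g' (Pi.single i0 1) ≤ -κ := by
  classical
  -- constants
  set N : ℝ := (Fintype.card ι : ℝ) with hN
  have hNpos : 0 ≤ N := Nat.cast_nonneg _
  set K1 : ℝ := max K 0 with hK1
  have hL1 : ∀ p ∈ Bx ι, ∀ p' ∈ Bx ι, |β p - β p'| ≤ K1 * ∑ j, |p j - p' j| := fun p hp p' hp' =>
    (hL p hp p' hp').trans (mul_le_mul_of_nonneg_right (le_max_left _ _)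
      (Finset.sum_nonneg fun j _ => abs_nonneg _))
  set e : ℝ := min (min η 1) (1 / b0) with he
  have hep : 0 < e := by
    simp only [he]
    exact lt_min (lt_min hη one_pos) (one_div_pos.2 h0)
  have he1 : e ≤ 1 := (min_le_left _ _).trans (min_le_right _ _)
  have heη : e ≤ η := (min_le_left _ _).trans (min_le_left _ _)
  have heb : e * b0 ≤ 1 := by
    have : e ≤ 1 / b0 := min_le_right _ _
    calc e * b0 ≤ 1 / b0 * b0 := mul_le_mul_of_nonneg_right this h0.le
      _ = 1 := by field_simp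
  set g : ℝ := e ^ 2 * b0 / (16 * (N + 1)) with hg
  have hDp : 0 < 16 * (N + 1) := by positivity
  have hgp : 0 < g := by positivity
  have hgD : g * (16 * (N + 1)) = e ^ 2 * b0 := by
    simp only [hg]
    field_simp
  set ε : ℝ := e * g / 2 with hε
  have hεp : 0 < ε := by positivity
  have he2 : e ^ 2 ≤ e := by nlinarith
  have he3 : e ^ 2 ≤ 1 := he2.trans he1
  have hgb : g * (16 * (N + 1)) ≤ b0 := by
    rw [hgD]
    calc e ^ 2 * b0 ≤ 1 * b0 := mul_le_mul_of_nonneg_right he3 h0.le
      _ = b0 := one_mul _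
  have hg16 : g * 16 ≤ g * (16 * (N + 1)) := by
    apply mul_le_mul_of_nonneg_left _ hgp.le
    linarith
  have hgN : g * N * 16 ≤ b0 := by
    have : g * N * 16 ≤ g * (16 * (N + 1)) := by
      have : 0 ≤ 16 * g := by positivity
      linarith
    linarith
  have hg1 : g ≤ 1 / 16 := by
    have h2 : e ^ 2 * b0 ≤ 1 := by
      calc e ^ 2 * b0 = e * (e * b0) := by ring
        _ ≤ 1 * 1 := mul_le_mul he1 heb (by positivity) zero_le_one
        _ = 1 := one_mul _
    linarith
  have hε1 : ε ≤ g / 2 := by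
    have : e * g ≤ 1 * g := mul_le_mul_of_nonneg_right he1 hgp.le
    simp only [hε]
    linarith
  have hεs : ε ≤ 1 / 32 := by linarith
  have hNε : 2 * N * ε ≤ g * N := by
    have : N * ε ≤ N * (g / 2) := mul_le_mul_of_nonneg_left hε1 hNpos
    linarith
  -- Lipschitz extension and Rademacher
  have hLip := lipOn (β := β) (K := K1) (le_max_right _ _) hL1
  obtain ⟨βt, hβt, hβeq⟩ := hLip.extend_real
  have hrad : ∀ᵐ x : ι → ℝ, DifferentiableAt ℝ βt x := hβt.ae_differentiableAt
  have hms : MeasurableSet {x : ι → ℝ | DifferentiableAt ℝ βt x} :=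
    measurableSet_of_differentiableAt ℝ βt
  set ev : ι → ℝ := Pi.single i0 1 with hev
  set Lm : ℝ →ₗ[ℝ] (ι → ℝ) := LinearMap.toSpanSingleton ℝ (ι → ℝ) ev with hLm
  have hae : ∀ᵐ y : ι → ℝ, ∀ᵐ t : ℝ, y + Lm t ∈ {x : ι → ℝ | DifferentiableAt ℝ βt x} :=
    (ae_ae_add_linearMap_mem_iff Lm volume volume hms).2 hrad
  -- a base point in the small box
  set P : Set (ι → ℝ) := {p | ∀ j, (if j = i0 then (0 : ℝ) else ε) < p j ∧
    p j < (if j = i0 then ε else 2 * ε)} with hPdef
  have hPo : IsOpen P := by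
    have : P = ⋂ j, ((fun p : ι → ℝ => p j) ⁻¹' Ioo (if j = i0 then (0 : ℝ) else ε)
        (if j = i0 then ε else 2 * ε)) := by
      ext p
      simp [hPdef]
    rw [this]
    exact isOpen_iInter_of_finite fun j => isOpen_Ioo.preimage (continuous_apply j)
  have hPne : P.Nonempty := by
    refine ⟨fun j => if j = i0 then ε / 2 else 3 / 2 * ε, fun j => ?_⟩
    by_cases h : j = i0
    · simp only [h, if_true]
      constructor <;> linarith
    · simp only [h, if_false]
      constructor <;> linarith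
  obtain ⟨p, hpae, hpP⟩ := (Measure.dense_of_ae hae).exists_mem_open hPo hPne
  have hp0 : 0 < p i0 ∧ p i0 < ε := by simpa using hpP i0
  have hpj : ∀ j, j ≠ i0 → ε < p j ∧ p j < 2 * ε := fun j hj => by simpa [hj] using hpP j
  -- the line
  set Q : ℝ → (ι → ℝ) := fun t => p + Lm t with hQdef
  have hQ0 : ∀ t, Q t i0 = p i0 + t := by
    intro t
    simp [hQdef, hLm, hev]
  have hQj : ∀ t j, j ≠ i0 → Q t j = p j := by
    intro t j hj
    simp [hQdef, hLm, hev, Pi.single_eq_of_ne hj]
  set t1 : ℝ := 2 - p i0 with ht1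
  have hQbox : ∀ t, 0 ≤ t → t ≤ t1 → Q t ∈ Bx ι := by
    intro t h1 h2 j
    by_cases hj : j = i0
    · subst hj
      rw [hQ0]
      constructor
      · linarith [hp0.1]
      · linarith
    · rw [hQj t j hj]
      have := hpj j hj
      constructor <;> linarith
  have hsumQ : ∀ t, 0 ≤ t → ∑ j, Q t j ≤ (p i0 + t) + 2 * N * ε := by
    intro t ht
    rw [← Finset.add_sum_erase _ _ (Finset.mem_univ i0)]
    have e1 : Q t i0 = p i0 + t := hQ0 t
    rw [e1]
    have e2 : ∑ j ∈ Finset.univ.erase i0, Q t j ≤ (Finset.univ.erase i0).card • (2 * ε) := by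
      apply Finset.sum_le_card_nsmul
      intro j hj
      have hj' := Finset.ne_of_mem_erase hj
      rw [hQj t j hj']
      exact (hpj j hj').2.le
    have e3 : ((Finset.univ.erase i0).card : ℝ) ≤ N := by
      simp only [hN]
      exact_mod_cast Finset.card_le_univ _
    rw [nsmul_eq_mul] at e2
    have e4 : ((Finset.univ.erase i0).card : ℝ) * (2 * ε) ≤ N * (2 * ε) :=
      mul_le_mul_of_nonneg_right e3 (by positivity)
    linarith
  set f : ℝ → ℝ := fun t => βt (Q t) with hf
  have hfβ : ∀ t, 0 ≤ t → t ≤ t1 → f t = β (Q t) := fun t h1 h2 => (hβeq (hQbox t h1 h2)).symm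
  have hfd : ∀ t, 0 ≤ t → t ≤ t1 → (p i0 + t) + g * N ≤ b0 →
      b0 - ((p i0 + t) + g * N) ≤ β (Q t) := by
    intro t h1 h2 h5
    have h4 := hsumQ t h1
    have h3 := hE _ (hQbox t h1 h2) (by linarith)
    linarith
  have ht1p : 0 < t1 := by
    simp only [ht1]
    linarith [hp0.2]
  have hf0 : 2 * g ≤ f 0 := by
    rw [hfβ 0 le_rfl ht1p.le]
    have h1 := hfd 0 le_rfl ht1p.le (by linarith [hp0.2])
    linarith [hp0.2]
  have hf1 : f t1 ≤ g := by
    rw [hfβ t1 ht1p.le le_rfl]
    refine (hQ _ (hQbox t1 ht1p.le le_rfl) ?_).trans hgp.le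
    rw [hQ0]
    simp [ht1]
  have hfL : ∃ Kf : NNReal, LipschitzWith Kf f := by
    have : LipschitzWith (‖(LinearMap.toContinuousLinearMap Lm)‖₊) (fun t => p + Lm t) := by
      have h1 := (LinearMap.toContinuousLinearMap Lm).lipschitz
      intro x y
      have := h1 x y
      simpa [edist_add_left] using this
    exact ⟨_, hβt.comp this⟩
  obtain ⟨Kf, hKf⟩ := hfL
  obtain ⟨t, ht0, htt1, hdiff, hgf, hf2, hder⟩ := one_var (P := fun t => DifferentiableAt ℝ βt (Q t))
    (hKf.lipschitzOnWith (s := Icc 0 t1)) ht1p (by linarith [hp0.1]) hgp hf0 hf1 hpae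
  -- the point
  have hqb := hQbox t ht0.le htt1.le
  have hfq : f t = β (Q t) := hfβ t ht0.le htt1.le
  rw [hfq] at hgf hf2
  have hqi : Q t i0 < 2 := by
    rw [hQ0]
    linarith
  have hxmin : b0 / 2 ≤ Q t i0 := by
    rw [hQ0]
    by_cases h5 : (p i0 + t) + g * N ≤ b0
    · have h1 := hfd t ht0.le htt1.le h5
      linarith
    · push Not at h5
      linarith
  have hqi0 : 0 < Q t i0 := by linarith
  have hgx : 8 * g ≤ e ^ 2 * Q t i0 := by
    have h2 : e ^ 2 * (b0 / 2) ≤ e ^ 2 * Q t i0 :=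
      mul_le_mul_of_nonneg_left hxmin (by positivity)
    linarith
  have hQint : Q t ∈ interior (Bx ι) := by
    rw [mem_interior]
    refine ⟨⋂ j, ((fun p : ι → ℝ => p j) ⁻¹' Ioo (0 : ℝ) 4), ?_, ?_, ?_⟩
    · intro x hx j
      have := mem_iInter.1 hx j
      exact ⟨this.1.le, this.2.le⟩
    · exact isOpen_iInter_of_finite fun j => isOpen_Ioo.preimage (continuous_apply j)
    · refine mem_iInter.2 fun j => ?_
      by_cases hj : j = i0
      · subst hj
        exact ⟨hqi0, by linarith⟩
      · show Q t j ∈ Ioo (0 : ℝ) 4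
        rw [hQj t j hj]
        have := hpj j hj
        constructor <;> linarith
  have hqj : ∀ j, 0 < Q t j := by
    intro j
    by_cases hj : j = i0
    · rw [hj]
      exact hqi0
    · rw [hQj t j hj]
      linarith [(hpj j hj).1]
  have hqj4 : ∀ j, Q t j < 4 := by
    intro j
    by_cases hj : j = i0
    · rw [hj]
      linarith
    · rw [hQj t j hj]
      linarith [(hpj j hj).2]
  have hFt : HasFDerivAt βt (fderiv ℝ βt (Q t)) (Q t) := hdiff.hasFDerivAt
  have hFβ : HasFDerivAt β (fderiv ℝ βt (Q t)) (Q t) := by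
    apply hFt.congr_of_eventuallyEq
    filter_upwards [mem_interior_iff_mem_nhds.1 hQint] with x hx
    exact hβeq hx
  have hline : HasDerivAt f (fderiv ℝ βt (Q t) ev) t := by
    have h1 : HasDerivAt Q ev t := by
      have h2 : HasDerivAt (fun t : ℝ => p + t • ev) ev t := by
        have := ((hasDerivAt_id t).smul_const ev).const_add p
        simpa using this
      have h3 : Q = fun t : ℝ => p + t • ev := by
        funext t
        simp [hQdef, hLm]
      rw [h3]
      exact h2
    exact hFt.comp_hasDerivAt t h1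
  have hβp : 0 < β (Q t) := hgp.trans hgf
  refine ⟨Q t, g / 4, fderiv ℝ βt (Q t), by positivity, hqj, hqj4, ?_, ?_, hβp, ?_, hxmin, hqi, hFβ,
    ?_⟩
  · intro j hj
    rw [hQj t j hj]
    have h1 := (hpj j hj).2
    have h2 : 2 * ε = e * g := by simp only [hε]; ring
    have h3 : e * g ≤ η * g := mul_le_mul_of_nonneg_right heη hgp.le
    have h4 : η * g ≤ η * β (Q t) := mul_le_mul_of_nonneg_left hgf.le hη.le
    linarith
  · intro j hj
    have h1 := (hpj j hj).1
    have h2 : β (Q t) ^ 2 ≤ (2 * g) ^ 2 := pow_le_pow_left₀ hβp.le hf2.le 2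
    have h3 : (2 * g) ^ 2 ≤ e * Q t i0 * ε := by
      have h5 : e * Q t i0 * ε = (e ^ 2 * Q t i0) * (g / 2) := by simp only [hε]; ring
      have h6 : (8 * g) * (g / 2) ≤ (e ^ 2 * Q t i0) * (g / 2) :=
        mul_le_mul_of_nonneg_right hgx (by positivity)
      rw [h5]
      linarith
    have h4 : e * Q t i0 * ε ≤ η * Q t i0 * Q t j := by
      rw [hQj t j hj]
      have a1 : e * Q t i0 ≤ η * Q t i0 := mul_le_mul_of_nonneg_right heη hqi0.le
      exact mul_le_mul a1 h1.le hεp.le (by positivity)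
    linarith
  · have h1 : 2 * g ≤ e * Q t i0 := by
      have : e ^ 2 * Q t i0 ≤ e * Q t i0 := mul_le_mul_of_nonneg_right he2 hqi0.le
      linarith
    have h2 : e * Q t i0 ≤ η * Q t i0 := mul_le_mul_of_nonneg_right heη hqi0.le
    linarith
  · have := hline.deriv
    rw [← this]
    exact hder.le

end Crest.Agent.R116.Xr708
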