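import Mathlib
import Crest.Agent.R116.XbDef_794
import Crest.Agent.R116.Xr1_708
import Crest.Agent.R136.Dia1_770

/-!
# R116 (K side), block X1-C: the extremal gap as a function of the rewards (helper708)

Over `XbDef_794` (class with container and resolution).

* `ok_change` : change of the rewards of a configuration (same lines and test sets, new `D0`, `D1`).
* `ub_lip`    : `UB 𝒯 C p' b → UB 𝒯 C p (b + (C + 1) ∑ |p' j - p j|)`.
* `ub_mono`, `ub_class`, `ub_inf`, `ub_two`, `ub_norm`.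
* `ub_gap`, `not_ub`, `gap_le_two`, `gap_ge`, `gap_lip`.
* `exists_q`  : the choice of the rewards at a differentiability point of `gap 𝒯 C`, with the lower
  bound `b1 / 2 ≤ q i0`, `b1` independent of the class `C`.
-/

set_option autoImplicit false

open Finset Filter Topology

namespace Crest.Agent.R116.Xr708

open Crest.Agent.R138.Mk163 (zc zl rho alive own)
open Crest.Agent.R116.Xa794 (TS)
open Crest.Agent.R116.Xb794

section

variable {Ln ι S : Type} [Fintype ι]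

theorem cap_pos (T : TS Ln ι S) (p : ι → ℝ) (i : ℕ) (a : ι → ℕ) : 0 < T.cap p i a := by
  unfold TS.cap
  exact mul_pos (T.volpos i a) (Real.rpow_pos_of_pos two_pos _)

theorem cap_change (T : TS Ln ι S) (p p' : ι → ℝ) (i : ℕ) (a : ι → ℕ) :
    T.cap p i a = T.cap p' i a * (2 : ℝ) ^ (∑ j, (p' j - p j) * ((a j : ℝ) - i)) := by
  unfold TS.cap
  rw [mul_assoc, ← Real.rpow_add two_pos]
  congr 2
  rw [← Finset.sum_neg_distrib, ← Finset.sum_neg_distrib, ← Finset.sum_add_distrib]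
  apply Finset.sum_congr rfl
  intro j _
  ring

/-- the configuration `F` with the rewards changed from `p` to `p'`. -/
noncomputable def chg (C : ℕ) (p p' : ι → ℝ) (F : Cfg Ln ι S) : Cfg Ln ι S :=
  { F with
    D1 := F.D1 * (2 : ℝ) ^ (∑ j, (p' j - p j) * ((F.a j : ℝ) - ((F.m + F.M : ℕ) : ℝ)))
    D0 := F.D0 * (2 : ℝ) ^ ((∑ j, (p' j - p j) * ((F.a j : ℝ) - F.m)) +
      C * F.M * ∑ j, |p' j - p j|) }

theorem ok_change {T : TS Ln ι S} {C : ℕ} {p : ι → ℝ} (p' : ι → ℝ) {F : Cfg Ln ι S}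
    (h : F.Ok T C p) : (chg C p p' F).Ok T C p' where
  M1 := h.M1
  ne := h.ne
  cell := h.cell
  D1p := mul_pos h.D1p (Real.rpow_pos_of_pos two_pos _)
  nup := h.nup
  m0m := h.m0m
  Kadm := h.Kadm
  cont := h.cont
  rng := h.rng
  cls := h.cls
  top := h.top
  low := by
    intro J t ht
    have h1 := h.low J t ht
    have h2 : (chg C p p' F).D1 * T.cap p' (F.m + F.M) F.a =
        F.D1 * T.cap p (F.m + F.M) F.a := by
      rw [cap_change T p p' (F.m + F.M) F.a]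
      simp only [chg]
      ring
    show (chg C p p' F).D1 * T.cap p' (F.m + F.M) F.a ≤ _
    rw [h2]
    exact h1
  own := h.own
  up := by
    intro J s hs hr
    have h1 := h.up J s hs hr
    refine le_trans h1 ?_
    have hD0 : 0 ≤ F.D0 := by
      by_contra hneg
      push Not at hneg
      have : F.D0 * T.cap p F.m s.1 < 0 := mul_neg_of_neg_of_pos hneg (cap_pos T p F.m s.1)
      exact absurd (h1.trans_lt this) (not_lt.2 (Nat.cast_nonneg _))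
    show F.D0 * T.cap p F.m s.1 ≤ (chg C p p' F).D0 * T.cap p' F.m s.1
    rw [cap_change T p p' F.m s.1]
    simp only [chg]
    have h3 : (2 : ℝ) ^ (∑ j, (p' j - p j) * ((s.1 j : ℝ) - F.m)) ≤
        (2 : ℝ) ^ ((∑ j, (p' j - p j) * ((F.a j : ℝ) - F.m)) + C * F.M * ∑ j, |p' j - p j|) := by
      apply Real.rpow_le_rpow_of_exponent_le one_le_two
      rw [Finset.mul_sum, ← Finset.sum_add_distrib]
      apply Finset.sum_le_sum
      intro j _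
      have a1 := (hr j).1
      have a2 := (hr j).2
      have b1 := (h.rng j).1
      have b2 := (h.rng j).2
      have c1 := h.cls j
      have d1 : |(s.1 j : ℝ) - F.a j| ≤ C * F.M := by
        have e1 : (s.1 j : ℝ) ≤ F.K.1 j + C * F.M := by exact_mod_cast a2.trans c1
        have e2 : (F.a j : ℝ) ≤ F.K.1 j + C * F.M := by exact_mod_cast b2.trans c1
        have e3 : (F.K.1 j : ℝ) ≤ s.1 j := by exact_mod_cast a1
        have e4 : (F.K.1 j : ℝ) ≤ F.a j := by exact_mod_cast b1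
        rw [abs_le]
        constructor <;> linarith
      have f1 : (p' j - p j) * ((s.1 j : ℝ) - F.a j) ≤ |p' j - p j| * (C * F.M) := by
        refine (le_abs_self _).trans ?_
        rw [abs_mul]
        exact mul_le_mul_of_nonneg_left d1 (abs_nonneg _)
      have f2 : (p' j - p j) * ((s.1 j : ℝ) - F.m) =
          (p' j - p j) * ((F.a j : ℝ) - F.m) + (p' j - p j) * ((s.1 j : ℝ) - F.a j) := by ring
      rw [f2]
      linarith
    calc F.D0 * (T.cap p' F.m s.1 * (2 : ℝ) ^ (∑ j, (p' j - p j) * ((s.1 j : ℝ) - F.m)))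
        = F.D0 * T.cap p' F.m s.1 * (2 : ℝ) ^ (∑ j, (p' j - p j) * ((s.1 j : ℝ) - F.m)) := by ring
      _ ≤ F.D0 * T.cap p' F.m s.1 *
          (2 : ℝ) ^ ((∑ j, (p' j - p j) * ((F.a j : ℝ) - F.m)) + C * F.M * ∑ j, |p' j - p j|) :=
        mul_le_mul_of_nonneg_left h3 (mul_nonneg hD0 (cap_pos _ _ _ _).le)
      _ = _ := by ring

/-- `D0 > 0` as soon as a bound with a positive left side holds. -/
theorem D0_pos {D0 D1 nu X Y : ℝ} (h1 : 0 < D1) (h2 : 0 < nu) (hX : 0 < X) (hY : 0 < Y)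
    (h : D1 * nu ^ 2 ≤ X * Y * D0) : 0 < D0 := by
  have h3 : 0 < X * Y * D0 := lt_of_lt_of_le (by positivity) h
  exact (mul_pos_iff_of_pos_left (by positivity)).1 h3

theorem ub_mono {𝒯 : Set (TS Ln ι S)} {C : ℕ} {p : ι → ℝ} {b b' : ℝ} (h : UB 𝒯 C p b)
    (hb : b ≤ b') : UB 𝒯 C p b' := by
  intro η hη
  obtain ⟨δ, hδ, M0, hM⟩ := h η hη
  refine ⟨δ, hδ, M0, fun T hT F hF hFM hI => ?_⟩
  have h1 := hM T hT F hF hFM hI
  have hD0 := D0_pos hF.D1p hF.nup (Real.rpow_pos_of_pos two_pos _) (by positivity) h1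
  refine h1.trans ?_
  apply mul_le_mul_of_nonneg_right _ hD0.le
  apply mul_le_mul_of_nonneg_right _ (by positivity)
  apply Real.rpow_le_rpow_of_exponent_le one_le_two
  exact mul_le_mul_of_nonneg_right (by linarith) (Nat.cast_nonneg _)

theorem ub_inf {𝒯 : Set (TS Ln ι S)} {C : ℕ} {p : ι → ℝ} {b : ℝ}
    (h : ∀ b', b < b' → UB 𝒯 C p b') : UB 𝒯 C p b := by
  intro η hη
  obtain ⟨δ, hδ, M0, hM⟩ := h (b + η / 2) (by linarith) (η / 2) (by linarith)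
  refine ⟨δ, hδ, M0, fun T hT F hF hFM hI => ?_⟩
  have h1 := hM T hT F hF hFM hI
  have e : b + η / 2 + η / 2 = b + η := by ring
  rw [e] at h1
  exact h1

theorem ok_class {T : TS Ln ι S} {C C' : ℕ} {p : ι → ℝ} {F : Cfg Ln ι S} (hC : C ≤ C')
    (h : F.Ok T C p) : F.Ok T C' p :=
  { h with cls := fun j => (h.cls j).trans (Nat.add_le_add_left (Nat.mul_le_mul_right _ hC) _) }

theorem ub_class {𝒯 : Set (TS Ln ι S)} {C C' : ℕ} {p : ι → ℝ} {b : ℝ} (hC : C ≤ C')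
    (h : UB 𝒯 C' p b) : UB 𝒯 C p b := by
  intro η hη
  obtain ⟨δ, hδ, M0, hM⟩ := h η hη
  exact ⟨δ, hδ, M0, fun T hT F hF hFM hI => hM T hT F (ok_class hC hF) hFM hI⟩

/-- **the gap is Lipschitz in the rewards**, constant `C + 1` in `ℓ¹`. -/
theorem ub_lip {𝒯 : Set (TS Ln ι S)} {C : ℕ} {p p' : ι → ℝ} {b : ℝ} (h : UB 𝒯 C p' b) :
    UB 𝒯 C p (b + (C + 1) * ∑ j, |p' j - p j|) := by
  intro η hη
  obtain ⟨δ, hδ, M0, hM⟩ := h η hη
  refine ⟨δ, hδ, M0, fun T hT F hF hFM hI => ?_⟩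
  have h1 := hM T hT (chg C p p' F) (ok_change p' hF) hFM hI
  have hD0' := D0_pos (ok_change p' hF).D1p hF.nup (Real.rpow_pos_of_pos two_pos _)
    (by positivity) h1
  simp only [chg] at h1 hD0'
  have hE : (0 : ℝ) < 2 ^ ((∑ j, (p' j - p j) * ((F.a j : ℝ) - F.m)) +
      C * F.M * ∑ j, |p' j - p j|) := Real.rpow_pos_of_pos two_pos _
  have hD0 : 0 < F.D0 := (mul_pos_iff_of_pos_right hE).1 hD0'
  set x : ℝ := ∑ j, (p' j - p j) * ((F.a j : ℝ) - ((F.m + F.M : ℕ) : ℝ)) with hx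
  set y : ℝ := ∑ j, (p' j - p j) * ((F.a j : ℝ) - F.m) with hy
  set z : ℝ := ∑ j, |p' j - p j| with hz
  have hyx : y - x ≤ F.M * z := by
    rw [hx, hy, hz, ← Finset.sum_sub_distrib, Finset.mul_sum]
    apply Finset.sum_le_sum
    intro j _
    have : (p' j - p j) * ((F.a j : ℝ) - F.m) -
        (p' j - p j) * ((F.a j : ℝ) - ((F.m + F.M : ℕ) : ℝ)) = (p' j - p j) * F.M := by
      push_cast
      ring
    rw [this, mul_comm]
    exact mul_le_mul_of_nonneg_left (le_abs_self _) (Nat.cast_nonneg _)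
  have hxp : (0 : ℝ) < 2 ^ x := Real.rpow_pos_of_pos two_pos _
  have h2 : F.D1 * F.nu ^ 2 ≤
      ((2 : ℝ) ^ ((b + η) * F.M) * 4 ^ F.M * (F.D0 * 2 ^ (y + C * F.M * z))) / 2 ^ x := by
    rw [le_div_iff₀ hxp]
    have : F.D1 * F.nu ^ 2 * 2 ^ x = F.D1 * 2 ^ x * F.nu ^ 2 := by ring
    rw [this]
    exact h1
  refine h2.trans ?_
  have h3 : ((2 : ℝ) ^ ((b + η) * F.M) * 4 ^ F.M * (F.D0 * 2 ^ (y + C * F.M * z))) / 2 ^ x =
      (2 : ℝ) ^ ((b + η) * F.M + (y + C * F.M * z) - x) * 4 ^ F.M * F.D0 := by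
    rw [Real.rpow_sub two_pos, Real.rpow_add two_pos ((b + η) * F.M) (y + C * F.M * z)]
    ring
  rw [h3]
  apply mul_le_mul_of_nonneg_right _ hD0.le
  apply mul_le_mul_of_nonneg_right _ (by positivity)
  apply Real.rpow_le_rpow_of_exponent_le one_le_two
  have : (b + (C + 1) * z + η) * (F.M : ℝ) =
      (b + η) * F.M + (C * F.M * z) + F.M * z := by ring
  rw [this]
  linarith

/-- own counts of a configuration -/
theorem nu_le {T : TS Ln ι S} {C : ℕ} {p : ι → ℝ} {F : Cfg Ln ι S} (h : F.Ok T C p) :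
    F.nu ≤ 2 ^ F.M := by
  obtain ⟨x, hx⟩ := h.ne
  refine (h.own x hx).trans ?_
  have h1 := Crest.Agent.R136.Dia770.own_le F.I (i := F.m) (j := F.m + F.M) (by omega) x
  have h2 : F.m + F.M - F.m = F.M := by omega
  rw [h2] at h1
  exact_mod_cast h1

theorem ub_two {𝒯 : Set (TS Ln ι S)} (hV : TrivB 𝒯) {C : ℕ} {p : ι → ℝ} (hp : p ∈ Bx ι) :
    UB 𝒯 C p (2 - ∑ j, p j) := by
  obtain ⟨c, hc, hM⟩ := hV
  intro η hη
  obtain ⟨M0, hM0⟩ := exists_nat_gt (Real.log c / (η * Real.log 2))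
  refine ⟨1, one_pos, M0, fun T hT F hF hFM _ => ?_⟩
  have h1 := hM C p hp T hT F hF
  have hl2 : 0 < Real.log 2 := Real.log_pos one_lt_two
  have hcM : c ≤ (2 : ℝ) ^ (η * F.M) := by
    rw [← Real.log_le_log_iff hc (Real.rpow_pos_of_pos two_pos _), Real.log_rpow two_pos]
    have h2 : Real.log c / (η * Real.log 2) < F.M := hM0.trans_le (by exact_mod_cast hFM)
    rw [div_lt_iff₀ (by positivity)] at h2
    nlinarith
  have hD0 : 0 < F.D0 := by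
    have h3 : 0 < c * (2 : ℝ) ^ ((2 - ∑ j, p j) * F.M) * F.D0 := hF.D1p.trans_le h1
    exact (mul_pos_iff_of_pos_left (mul_pos hc (Real.rpow_pos_of_pos two_pos _))).1 h3
  have hnu : F.nu ^ 2 ≤ 4 ^ F.M := by
    have h4 : F.nu ^ 2 ≤ (2 ^ F.M) ^ 2 := pow_le_pow_left₀ hF.nup.le (nu_le hF) 2
    have h5 : ((2 : ℝ) ^ F.M) ^ 2 = 4 ^ F.M := by
      rw [← pow_mul, mul_comm, pow_mul]
      norm_num
    rwa [h5] at h4
  calc F.D1 * F.nu ^ 2 ≤ (c * (2 : ℝ) ^ ((2 - ∑ j, p j) * F.M) * F.D0) * 4 ^ F.M :=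
        mul_le_mul h1 hnu (by positivity) (by positivity)
    _ ≤ ((2 : ℝ) ^ (η * F.M) * (2 : ℝ) ^ ((2 - ∑ j, p j) * F.M) * F.D0) * 4 ^ F.M := by
        apply mul_le_mul_of_nonneg_right _ (by positivity)
        apply mul_le_mul_of_nonneg_right _ hD0.le
        exact mul_le_mul_of_nonneg_right hcM (by positivity)
    _ = (2 : ℝ) ^ ((2 - ∑ j, p j + η) * F.M) * 4 ^ F.M * F.D0 := by
        rw [add_mul, Real.rpow_add two_pos]
        ring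

/-- a bound for the class `C0` is a bound for every class (`b ≥ 0`). -/
theorem ub_norm {𝒯 : Set (TS Ln ι S)} {C0 : ℕ} {p : ι → ℝ} (hN : NormL 𝒯 C0 p) {b : ℝ}
    (hb : 0 ≤ b) (h : UB 𝒯 C0 p b) (hD : ∀ (C : ℕ), ∀ T ∈ 𝒯, ∀ F : Cfg Ln ι S, F.Ok T C p → 0 < F.D0)
    (C : ℕ) : UB 𝒯 C p b := by
  intro η hη
  obtain ⟨δ1, hδ1, M1, hM1⟩ := h (η / 2) (by linarith)
  obtain ⟨δ2, hδ2, M2, hM2⟩ := hN C (η / 6) (by linarith)
  refine ⟨min δ1 δ2, lt_min hδ1 hδ2, max M1 M2, fun T hT F hF hFM hI => ?_⟩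
  have hMn : (0 : ℝ) ≤ F.M := Nat.cast_nonneg _
  have hD0 := hD C T hT F hF
  have hI1 : Real.log (F.I.card : ℝ) ≤ (2 : ℝ) ^ (δ1 * F.M) :=
    hI.trans (Real.rpow_le_rpow_of_exponent_le one_le_two
      (mul_le_mul_of_nonneg_right (min_le_left _ _) hMn))
  have hI2 : Real.log (F.I.card : ℝ) ≤ (2 : ℝ) ^ (δ2 * F.M) :=
    hI.trans (Real.rpow_le_rpow_of_exponent_le one_le_two
      (mul_le_mul_of_nonneg_right (min_le_right _ _) hMn))
  by_cases hc : 4 ^ F.M * F.D0 ≤ F.D1 * F.nu ^ 2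
  · obtain ⟨F', hF', -, hFM', hsub, -, -, hD0', -, hD1', hnu'⟩ :=
      hM2 T hT F hF ((le_max_right _ _).trans hFM) hI2 hc
    have hI' : Real.log (F'.I.card : ℝ) ≤ (2 : ℝ) ^ (δ1 * F'.M) := by
      rw [hFM']
      refine le_trans ?_ hI1
      apply Real.log_le_log
      · exact_mod_cast Finset.card_pos.2 hF'.ne
      · exact_mod_cast Finset.card_le_card hsub
    have h1 := hM1 T hT F' hF' (by rw [hFM']; exact (le_max_left _ _).trans hFM) hI'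
    rw [hFM', hD0'] at h1
    set X : ℝ := (2 : ℝ) ^ (-(η / 6 * F.M)) with hX
    have hXp : 0 < X := Real.rpow_pos_of_pos two_pos _
    have hX3 : X ^ 3 = (2 : ℝ) ^ (-(η / 2 * F.M)) := by
      rw [hX, ← Real.rpow_natCast, ← Real.rpow_mul (by norm_num)]
      congr 1
      push_cast
      ring
    have h2 : X ^ 3 * (F.D1 * F.nu ^ 2) ≤ F'.D1 * F'.nu ^ 2 := by
      have a1 : (X * F.nu) ^ 2 ≤ F'.nu ^ 2 :=
        pow_le_pow_left₀ (mul_pos hXp hF.nup).le hnu' 2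
      calc X ^ 3 * (F.D1 * F.nu ^ 2) = (X * F.D1) * (X * F.nu) ^ 2 := by ring
        _ ≤ F'.D1 * F'.nu ^ 2 := mul_le_mul hD1' a1 (by positivity) hF'.D1p.le
    have h3 : (2 : ℝ) ^ (η / 2 * F.M) * X ^ 3 = 1 := by
      rw [hX3, ← Real.rpow_add two_pos]
      simp
    calc F.D1 * F.nu ^ 2 = (2 : ℝ) ^ (η / 2 * F.M) * (X ^ 3 * (F.D1 * F.nu ^ 2)) := by
          rw [← mul_assoc, h3, one_mul]
      _ ≤ (2 : ℝ) ^ (η / 2 * F.M) * ((2 : ℝ) ^ ((b + η / 2) * F.M) * 4 ^ F.M * F.D0) :=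
          mul_le_mul_of_nonneg_left (h2.trans h1) (by positivity)
      _ = (2 : ℝ) ^ ((b + η) * F.M) * 4 ^ F.M * F.D0 := by
          have : (b + η) * (F.M : ℝ) = η / 2 * F.M + (b + η / 2) * F.M := by ring
          rw [this, Real.rpow_add two_pos]
          ring
  · push Not at hc
    refine hc.le.trans ?_
    have h5 : (1 : ℝ) ≤ 2 ^ ((b + η) * F.M) :=
      Real.one_le_rpow one_le_two (mul_nonneg (by linarith) hMn)
    have h6 : (0 : ℝ) ≤ 4 ^ F.M * F.D0 := by positivity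
    calc 4 ^ F.M * F.D0 = 1 * (4 ^ F.M * F.D0) := (one_mul _).symm
      _ ≤ (2 : ℝ) ^ ((b + η) * F.M) * (4 ^ F.M * F.D0) := mul_le_mul_of_nonneg_right h5 h6
      _ = _ := by ring

theorem D0_of_triv {𝒯 : Set (TS Ln ι S)} (hV : TrivB 𝒯) {p : ι → ℝ} (hp : p ∈ Bx ι) (C : ℕ)
    {T : TS Ln ι S} (hT : T ∈ 𝒯) {F : Cfg Ln ι S} (hF : F.Ok T C p) : 0 < F.D0 := by
  obtain ⟨c, hc, hM⟩ := hV
  have h1 := hM C p hp T hT F hF
  have h3 : 0 < c * (2 : ℝ) ^ ((2 - ∑ j, p j) * F.M) * F.D0 := hF.D1p.trans_le h1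
  exact (mul_pos_iff_of_pos_left (mul_pos hc (Real.rpow_pos_of_pos two_pos _))).1 h3

/-! ### the gap -/

/-- lower bound for every upper bound of the gap, all classes `C ≥ 1` -/
theorem ub_ge {𝒯 : Set (TS Ln ι S)} {b0 : ℝ} (hE : ¬ UB 𝒯 1 (fun _ => 0) b0) {C : ℕ} (hC : 1 ≤ C)
    {p : ι → ℝ} (hp : p ∈ Bx ι) {b : ℝ} (h : UB 𝒯 C p b) : b0 - 2 * ∑ j, p j ≤ b := by
  by_contra hcon
  push Not at hcon
  apply hE
  have h1 := ub_class hC h
  have h2 := ub_lip (p := fun _ => (0 : ℝ)) h1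
  apply ub_mono h2
  have h3 : ∑ j, |p j - 0| = ∑ j, p j :=
    Finset.sum_congr rfl fun j _ => by rw [sub_zero, abs_of_nonneg (hp j).1]
  rw [h3]
  push_cast
  linarith

theorem bddBelow {𝒯 : Set (TS Ln ι S)} {b0 : ℝ} (hE : ¬ UB 𝒯 1 (fun _ => 0) b0) {C : ℕ}
    (hC : 1 ≤ C) {p : ι → ℝ} (hp : p ∈ Bx ι) : BddBelow {b | UB 𝒯 C p b} :=
  ⟨b0 - 2 * ∑ j, p j, fun _ h => ub_ge hE hC hp h⟩

theorem nonempty {𝒯 : Set (TS Ln ι S)} (hV : TrivB 𝒯) {C : ℕ} {p : ι → ℝ} (hp : p ∈ Bx ι) :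
    {b | UB 𝒯 C p b}.Nonempty := ⟨_, ub_two hV hp⟩

theorem gap_ge {𝒯 : Set (TS Ln ι S)} (hV : TrivB 𝒯) {b0 : ℝ} (hE : ¬ UB 𝒯 1 (fun _ => 0) b0)
    {C : ℕ} (hC : 1 ≤ C) {p : ι → ℝ} (hp : p ∈ Bx ι) : b0 - 2 * ∑ j, p j ≤ gap 𝒯 C p :=
  le_csInf (nonempty hV hp) fun _ h => ub_ge hE hC hp h

theorem gap_le_two {𝒯 : Set (TS Ln ι S)} (hV : TrivB 𝒯) {b0 : ℝ}
    (hE : ¬ UB 𝒯 1 (fun _ => 0) b0) {C : ℕ} (hC : 1 ≤ C) {p : ι → ℝ} (hp : p ∈ Bx ι) :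
    gap 𝒯 C p ≤ 2 - ∑ j, p j := csInf_le (bddBelow hE hC hp) (ub_two hV hp)

/-- the gap is attained -/
theorem ub_gap {𝒯 : Set (TS Ln ι S)} (hV : TrivB 𝒯) {C : ℕ} {p : ι → ℝ} (hp : p ∈ Bx ι) :
    UB 𝒯 C p (gap 𝒯 C p) := by
  apply ub_inf
  intro b' hb'
  obtain ⟨b, hb, hbb⟩ := exists_lt_of_csInf_lt (nonempty (C := C) hV hp) hb'
  exact ub_mono hb hbb.le

theorem not_ub {𝒯 : Set (TS Ln ι S)} {b0 : ℝ} (hE : ¬ UB 𝒯 1 (fun _ => 0) b0) {C : ℕ}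
    (hC : 1 ≤ C) {p : ι → ℝ} (hp : p ∈ Bx ι) {b : ℝ} (hb : b < gap 𝒯 C p) : ¬ UB 𝒯 C p b :=
  fun h => absurd (csInf_le (bddBelow hE hC hp) h) (not_le.2 hb)

theorem gap_lip_one {𝒯 : Set (TS Ln ι S)} (hV : TrivB 𝒯) {b0 : ℝ}
    (hE : ¬ UB 𝒯 1 (fun _ => 0) b0) {C : ℕ} (hC : 1 ≤ C) {p p' : ι → ℝ} (hp : p ∈ Bx ι)
    (hp' : p' ∈ Bx ι) : gap 𝒯 C p ≤ gap 𝒯 C p' + (C + 1) * ∑ j, |p' j - p j| :=
  csInf_le (bddBelow hE hC hp) (ub_lip (ub_gap hV hp'))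

theorem gap_lip {𝒯 : Set (TS Ln ι S)} (hV : TrivB 𝒯) {b0 : ℝ}
    (hE : ¬ UB 𝒯 1 (fun _ => 0) b0) {C : ℕ} (hC : 1 ≤ C) :
    ∀ p ∈ Bx ι, ∀ p' ∈ Bx ι, |gap 𝒯 C p - gap 𝒯 C p'| ≤ ((C : ℝ) + 1) * ∑ j, |p j - p' j| := by
  intro p hp p' hp'
  have h1 := gap_lip_one hV hE hC hp hp'
  have h2 := gap_lip_one hV hE hC hp' hp
  have h3 : ∑ j, |p' j - p j| = ∑ j, |p j - p' j| :=
    Finset.sum_congr rfl fun j _ => abs_sub_comm _ _
  rw [h3] at h1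
  rw [abs_le]
  constructor <;> linarith

/-- **choice of the rewards** for the gap of the class `C`; `b1` does not depend on `C`. -/
theorem exists_q [DecidableEq ι] {𝒯 : Set (TS Ln ι S)} (hV : TrivB 𝒯) (hE : Enemy 𝒯) (i0 : ι) :
    ∃ b1 : ℝ, 0 < b1 ∧ ∀ C : ℕ, 1 ≤ C → ∀ η : ℝ, 0 < η →
      ∃ (q : ι → ℝ) (κ : ℝ) (g' : (ι → ℝ) →L[ℝ] ℝ), 0 < κ ∧ (∀ j, 0 < q j) ∧ (∀ j, q j < 4) ∧
        (∀ j, j ≠ i0 → q j ≤ η * gap 𝒯 C q) ∧ (∀ j, j ≠ i0 → gap 𝒯 C q ^ 2 ≤ η * q i0 * q j) ∧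
        0 < gap 𝒯 C q ∧ gap 𝒯 C q ≤ η * q i0 ∧ b1 / 2 ≤ q i0 ∧ q i0 < 2 ∧
        HasFDerivAt (gap 𝒯 C) g' q ∧ g' (Pi.single i0 1) ≤ -κ := by
  obtain ⟨b0, hb0, hne⟩ := hE
  refine ⟨b0 / 2, by positivity, fun C hC η hη => ?_⟩
  refine exists_rewards_diff (β := gap 𝒯 C) (K := (C : ℝ) + 1) (b0 := b0 / 2) i0
    (gap_lip hV hne hC) (by positivity) ?_ ?_ hη
  · intro p hp hs
    have h1 := gap_ge hV hne hC hp
    linarith
  · intro p hp h2
    have h1 := gap_le_two hV hne hC hp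
    have h3 : p i0 ≤ ∑ j, p j :=
      Finset.single_le_sum (f := p) (fun j _ => (hp j).1) (Finset.mem_univ i0)
    linarith

end

end Crest.Agent.R116.Xr708
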